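import Mathlib

/-! P244: calculus on `[0,1]` and on `[0,T] × [0,1]`, and the abstract parabolic system. -/

open Set Filter
open scoped ContDiff Topology

namespace Vale.Agent.P244

/-- The space interval. -/
abbrev I : Set ℝ := Icc 0 1

/-- The degenerate weight. -/
def om (x : ℝ) : ℝ := x * (1 - x)

abbrev V3 : Type := Fin 3 → ℝ

/-- Functions of time and space, `u t x`. -/
abbrev Fn : Type := ℝ → ℝ → ℝ

/-- Smooth on `[0,1]`. -/
def Sm (g : ℝ → ℝ) : Prop := ContDiffOn ℝ ∞ g I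

/-- Derivative within `[0,1]`. -/
noncomputable def d1 (g : ℝ → ℝ) : ℝ → ℝ := derivWithin g I

/-- Iterated derivative within `[0,1]`. -/
noncomputable def D (j : ℕ) (g : ℝ → ℝ) : ℝ → ℝ := iteratedDerivWithin j g I

/-- Jointly smooth on `[0,T] × [0,1]`. -/
def JS (T : ℝ) (u : Fn) : Prop :=
  ContDiffOn ℝ ∞ (fun p : ℝ × ℝ => u p.1 p.2) (Icc 0 T ×ˢ I)

/-- Space derivative. -/
noncomputable def dx (u : Fn) : Fn := fun t => d1 (u t)

/-- Time derivative within `[0,T]`. -/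
noncomputable def dt (T : ℝ) (u : Fn) : Fn := fun t x => derivWithin (fun s => u s x) (Icc 0 T) t

/-- The parabolic operator `∂_t - A ∂_x² - B ∂_x`. -/
noncomputable def box (T : ℝ) (A B u : Fn) : Fn :=
  fun t x => dt T u t x - A t x * dx (dx u) t x - B t x * dx u t x

/-- Values of a profile. -/
def val (f : Fin 3 → ℝ → ℝ) (x : ℝ) : V3 := fun i => f i x

/-- Weighted gradient of a profile. -/
noncomputable def gr (f : Fin 3 → ℝ → ℝ) (x : ℝ) : V3 := fun i => om x * d1 (f i) x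

/-- The point `(x, f(x), ω f'(x))`. -/
noncomputable def pt (f : Fin 3 → ℝ → ℝ) (x : ℝ) : ℝ × V3 × V3 := (x, val f x, gr f x)

/-- The time slice of a family of profiles. -/
def sl (f : Fin 3 → Fn) (t : ℝ) : Fin 3 → ℝ → ℝ := fun i => f i t

/-- The diffusion coefficient `α`. -/
def al (f : Fin 3 → ℝ → ℝ) (x : ℝ) : ℝ := 4 * (1 - om x * f 2 x)

/-- The fixed inward drift `β`. -/
def be (d x : ℝ) : ℝ := 2 * d * (1 - x) - 2 * x

/-- Right side of the system. -/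
noncomputable def rhs (d : ℝ) (N : ℝ × V3 × V3 → V3) (f : Fin 3 → ℝ → ℝ) (i : Fin 3) (x : ℝ) : ℝ :=
  al f x * (om x * d1 (d1 (f i)) x + 2 * (1 - 2 * x) * d1 (f i) x) + be d x * d1 (f i) x +
    N (pt f x) i

/-- The lift of a domain to the gradient variables. -/
def lift (O : Set (ℝ × V3)) : Set (ℝ × V3 × V3) := {q | (q.1, q.2.1) ∈ O}

/-- An admissible system. -/
structure Sys (d : ℝ) (O : Set (ℝ × V3)) (N : ℝ × V3 × V3 → V3) : Prop where
  d_nonneg : 0 ≤ d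
  isOpen : IsOpen O
  pos : ∀ p ∈ O, 0 < 1 - om p.1 * p.2 2
  smooth : ContDiffOn ℝ ∞ N (lift O)

/-- `f` is a smooth solution on `[0,T] × [0,1]` with initial profile `f0`. -/
structure Sol (d : ℝ) (O : Set (ℝ × V3)) (N : ℝ × V3 × V3 → V3) (f0 : Fin 3 → ℝ → ℝ) (T : ℝ)
    (f : Fin 3 → Fn) : Prop where
  pos : 0 < T
  js : ∀ i, JS T (f i)
  init : ∀ i, ∀ x ∈ I, f i 0 x = f0 i x
  mem : ∀ t ∈ Icc 0 T, ∀ x ∈ I, (x, val (sl f t) x) ∈ O
  eqn : ∀ t ∈ Icc 0 T, ∀ x ∈ I, ∀ i, dt T (f i) t x = rhs d N (sl f t) i x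

/-! ### Elementary facts -/

theorem uI : UniqueDiffOn ℝ I := uniqueDiffOn_Icc zero_lt_one

theorem om_nonneg {x : ℝ} (hx : x ∈ I) : 0 ≤ om x := mul_nonneg hx.1 (sub_nonneg.2 hx.2)

theorem om_pos {x : ℝ} (hx : x ∈ Ioo (0 : ℝ) 1) : 0 < om x := mul_pos hx.1 (sub_pos.2 hx.2)

theorem om_le {x : ℝ} : om x ≤ 1 / 4 := by unfold om; nlinarith [sq_nonneg (x - 1 / 2)]

theorem om_zero : om 0 = 0 := by simp [om]

theorem om_one : om 1 = 0 := by simp [om]

theorem contDiff_om : ContDiff ℝ ∞ om := by unfold om; fun_prop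

theorem hasDerivAt_om (x : ℝ) : HasDerivAt om (1 - 2 * x) x := by
  have := (hasDerivAt_id x).mul ((hasDerivAt_id x).const_sub 1)
  refine (this.congr_deriv ?_)
  simp; ring

theorem I_nhds {x : ℝ} (hx : x ∈ Ioo (0 : ℝ) 1) : I ∈ 𝓝 x := Icc_mem_nhds hx.1 hx.2

theorem one_le_inf : (1 : WithTop ℕ∞) ≤ ∞ := by exact_mod_cast le_top

theorem inf_ne_zero : (∞ : WithTop ℕ∞) ≠ 0 := by simp

theorem inf_add_one : (∞ : WithTop ℕ∞) + 1 ≤ ∞ := by
  exact_mod_cast le_top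

theorem D_zero (g : ℝ → ℝ) : D 0 g = g := iteratedDerivWithin_zero

theorem D_succ (j : ℕ) (g : ℝ → ℝ) : D (j + 1) g = d1 (D j g) := by
  funext x; unfold D d1; rw [iteratedDerivWithin_succ]

theorem D_succ' (j : ℕ) (g : ℝ → ℝ) : D (j + 1) g = D j (d1 g) := by
  funext x; unfold D d1; rw [iteratedDerivWithin_succ']

theorem D_one (g : ℝ → ℝ) : D 1 g = d1 g := by rw [D_succ, D_zero]

theorem D_two (g : ℝ → ℝ) : D 2 g = d1 (d1 g) := by rw [D_succ, D_one]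

theorem D_add (j k : ℕ) (g : ℝ → ℝ) : D (j + k) g = D j (D k g) := by
  induction j with
  | zero => rw [zero_add, D_zero]
  | succ j ih => rw [Nat.add_right_comm, D_succ, ih, D_succ]

theorem Sm.d1 {g : ℝ → ℝ} (h : Sm g) : Sm (d1 g) := ContDiffOn.derivWithin h uI inf_add_one

theorem Sm.D {g : ℝ → ℝ} (h : Sm g) (j : ℕ) : Sm (D j g) := by
  induction j with
  | zero => rwa [D_zero]
  | succ j ih => rw [D_succ]; exact ih.d1

theorem Sm.cont {g : ℝ → ℝ} (h : Sm g) : ContinuousOn g I := ContDiffOn.continuousOn h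

theorem Sm.hasW {g : ℝ → ℝ} (h : Sm g) {x : ℝ} (hx : x ∈ I) :
    HasDerivWithinAt g (P244.d1 g x) I x :=
  ((ContDiffOn.differentiableOn h inf_ne_zero) x hx).hasDerivWithinAt

theorem Sm.has {g : ℝ → ℝ} (h : Sm g) {x : ℝ} (hx : x ∈ Ioo (0 : ℝ) 1) :
    HasDerivAt g (P244.d1 g x) x :=
  (h.hasW (Ioo_subset_Icc_self hx)).hasDerivAt (I_nhds hx)

theorem d1_eq {g : ℝ → ℝ} {x c : ℝ} (hx : x ∈ I) (h : HasDerivWithinAt g c I x) : d1 g x = c :=
  h.derivWithin (uI x hx)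

theorem d1_eq' {g : ℝ → ℝ} {x c : ℝ} (hx : x ∈ I) (h : HasDerivAt g c x) : d1 g x = c :=
  d1_eq hx h.hasDerivWithinAt

theorem d1_congr {g h : ℝ → ℝ} (e : ∀ y ∈ I, g y = h y) {x : ℝ} (hx : x ∈ I) : d1 g x = d1 h x :=
  derivWithin_congr e (e x hx)

/-- Locality of `d1`. -/
theorem d1_congr_ev {g h : ℝ → ℝ} {x : ℝ} (hx : x ∈ I) (e : g =ᶠ[𝓝[I] x] h) : d1 g x = d1 h x :=
  e.derivWithin_eq_of_mem hx

theorem d1_ev {g h : ℝ → ℝ} {x : ℝ} (e : g =ᶠ[𝓝[I] x] h) : d1 g =ᶠ[𝓝[I] x] d1 h := by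
  filter_upwards [eventually_eventually_nhdsWithin.2 e, self_mem_nhdsWithin] with y hy hyI
  exact d1_congr_ev hyI hy

theorem D_congr {g h : ℝ → ℝ} (e : ∀ y ∈ I, g y = h y) (j : ℕ) {x : ℝ} (hx : x ∈ I) :
    D j g x = D j h x := iteratedDerivWithin_congr e hx

theorem Sm.of_contDiff {g : ℝ → ℝ} (h : ContDiff ℝ ∞ g) : Sm g := h.contDiffOn

theorem Sm.congr {g h : ℝ → ℝ} (hg : Sm g) (e : ∀ y ∈ I, h y = g y) : Sm h :=
  ContDiffOn.congr hg e

/-! ### Jointly smooth functions -/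

theorem uP {T : ℝ} (hT : 0 < T) : UniqueDiffOn ℝ (Icc 0 T ×ˢ I) :=
  (uniqueDiffOn_Icc hT).prod uI

section JS

variable {T : ℝ} {u v : Fn} {t x : ℝ}

theorem JS.cont (h : JS T u) : ContinuousOn (fun p : ℝ × ℝ => u p.1 p.2) (Icc 0 T ×ˢ I) :=
  ContDiffOn.continuousOn h

theorem JS.sm (h : JS T u) (ht : t ∈ Icc 0 T) : Sm (u t) :=
  ContDiffOn.comp (g := fun p : ℝ × ℝ => u p.1 p.2) (f := fun x : ℝ => (t, x)) h
    (by fun_prop) (fun _ hx => ⟨ht, hx⟩)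

theorem JS.smt (h : JS T u) (hx : x ∈ I) : ContDiffOn ℝ ∞ (fun s => u s x) (Icc 0 T) :=
  ContDiffOn.comp (g := fun p : ℝ × ℝ => u p.1 p.2) (f := fun s : ℝ => (s, x)) h
    (by fun_prop) (fun _ hs => ⟨hs, hx⟩)

theorem JS.hasXW (h : JS T u) (ht : t ∈ Icc 0 T) (hx : x ∈ I) :
    HasDerivWithinAt (u t) (dx u t x) I x := (h.sm ht).hasW hx

theorem JS.hasX (h : JS T u) (ht : t ∈ Icc 0 T) (hx : x ∈ Ioo (0 : ℝ) 1) :
    HasDerivAt (u t) (dx u t x) x := (h.sm ht).has hx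

theorem JS.hasT (h : JS T u) (ht : t ∈ Icc 0 T) (hx : x ∈ I) :
    HasDerivWithinAt (fun s => u s x) (dt T u t x) (Icc 0 T) t :=
  ((ContDiffOn.differentiableOn (h.smt hx) inf_ne_zero) t ht).hasDerivWithinAt

theorem dt_eq (hT : 0 < T) (ht : t ∈ Icc 0 T) {c : ℝ}
    (h : HasDerivWithinAt (fun s => u s x) c (Icc 0 T) t) : dt T u t x = c :=
  h.derivWithin (uniqueDiffOn_Icc hT t ht)

theorem dt_congr (ht : t ∈ Icc 0 T) (e : ∀ s ∈ Icc 0 T, u s x = v s x) :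
    dt T u t x = dt T v t x := derivWithin_congr e (e t ht)

theorem JS.congr (h : JS T u) (e : ∀ t ∈ Icc 0 T, ∀ x ∈ I, v t x = u t x) : JS T v :=
  ContDiffOn.congr h fun p hp => e p.1 hp.1 p.2 hp.2

theorem JS.mono (h : JS T u) {S : ℝ} (hS : S ≤ T) : JS S u :=
  ContDiffOn.mono h (prod_mono (Icc_subset_Icc_right hS) subset_rfl)

theorem JS.dt_mono (h : JS T u) {S : ℝ} (h0 : 0 < S) (hS : S ≤ T) (ht : t ∈ Icc 0 S)
    (hx : x ∈ I) : dt S u t x = dt T u t x :=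
  dt_eq h0 ht ((h.hasT (Icc_subset_Icc_right hS ht) hx).mono (Icc_subset_Icc_right hS))

theorem JS.hasF (h : JS T u) (ht : t ∈ Icc 0 T) (hx : x ∈ I) :
    HasFDerivWithinAt (fun p : ℝ × ℝ => u p.1 p.2)
      (fderivWithin ℝ (fun p : ℝ × ℝ => u p.1 p.2) (Icc 0 T ×ˢ I) (t, x)) (Icc 0 T ×ˢ I) (t, x) :=
  ((ContDiffOn.differentiableOn h inf_ne_zero) (t, x) ⟨ht, hx⟩).hasFDerivWithinAt

theorem JS.dx_eq (h : JS T u) (ht : t ∈ Icc 0 T) (hx : x ∈ I) :
    dx u t x = fderivWithin ℝ (fun p : ℝ × ℝ => u p.1 p.2) (Icc 0 T ×ˢ I) (t, x) (0, 1) := by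
  have h1 : HasDerivWithinAt (fun y : ℝ => (t, y)) ((0 : ℝ), (1 : ℝ)) I x :=
    ((hasDerivAt_const x t).prodMk (hasDerivAt_id x)).hasDerivWithinAt
  exact d1_eq hx ((h.hasF ht hx).comp_hasDerivWithinAt x h1 fun _ hy => ⟨ht, hy⟩)

theorem JS.dt_eq (h : JS T u) (hT : 0 < T) (ht : t ∈ Icc 0 T) (hx : x ∈ I) :
    dt T u t x = fderivWithin ℝ (fun p : ℝ × ℝ => u p.1 p.2) (Icc 0 T ×ˢ I) (t, x) (1, 0) := by
  have h1 : HasDerivWithinAt (fun s : ℝ => (s, x)) ((1 : ℝ), (0 : ℝ)) (Icc 0 T) t :=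
    ((hasDerivAt_id t).prodMk (hasDerivAt_const t x)).hasDerivWithinAt
  have h2 := HasFDerivWithinAt.comp_hasDerivWithinAt (f := fun s : ℝ => (s, x)) t (h.hasF ht hx) h1
    fun s hs => show (s, x) ∈ Icc 0 T ×ˢ I from ⟨hs, hx⟩
  exact P244.dt_eq hT ht h2

theorem JS.fd (h : JS T u) (hT : 0 < T) :
    ContDiffOn ℝ ∞ (fderivWithin ℝ (fun p : ℝ × ℝ => u p.1 p.2) (Icc 0 T ×ˢ I)) (Icc 0 T ×ˢ I) :=
  ContDiffOn.fderivWithin h (uP hT) inf_add_one

theorem JS.dx (h : JS T u) (hT : 0 < T) : JS T (dx u) :=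
  ContDiffOn.congr ((h.fd hT).clm_apply contDiffOn_const) fun _ hp => h.dx_eq hp.1 hp.2

theorem JS.dt (h : JS T u) (hT : 0 < T) : JS T (dt T u) :=
  ContDiffOn.congr ((h.fd hT).clm_apply contDiffOn_const) fun _ hp => h.dt_eq hT hp.1 hp.2

theorem JS.D (h : JS T u) (hT : 0 < T) (j : ℕ) : JS T (fun t => D j (u t)) := by
  induction j with
  | zero => simpa only [D_zero] using h
  | succ j ih => simp only [D_succ]; exact ih.dx hT

/-- Time and space derivatives commute. -/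
theorem JS.dt_dx (h : JS T u) (hT : 0 < T) (ht : t ∈ Icc 0 T) (hx : x ∈ I) :
    P244.dt T (P244.dx u) t x = P244.dx (P244.dt T u) t x := by
  set U := fun p : ℝ × ℝ => u p.1 p.2
  set s := Icc 0 T ×ˢ I
  have hp : (t, x) ∈ s := ⟨ht, hx⟩
  have hF := ((h.fd hT).differentiableOn inf_ne_zero (t, x) hp).hasFDerivWithinAt
  have key : ∀ a b : ℝ × ℝ, fderivWithin ℝ (fun p => fderivWithin ℝ U s p a) s (t, x) b =
      fderivWithin ℝ (fderivWithin ℝ U s) s (t, x) b a := by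
    intro a b
    have := (hF.clm_apply (hasFDerivWithinAt_const a (t, x) s)).fderivWithin (uP hT _ hp)
    rw [this]
    simp only [ContinuousLinearMap.comp_zero, zero_add, ContinuousLinearMap.flip_apply]
    rfl
  have hs : IsSymmSndFDerivWithinAt ℝ U s (t, x) := by
    refine ContDiffWithinAt.isSymmSndFDerivWithinAt (n := ∞) (h (t, x) hp) ?_ (uP hT) ?_ hp
    · simp only [minSmoothness_of_isRCLikeNormedField]
      exact WithTop.coe_le_coe.2 (le_top : (2 : ℕ∞) ≤ ⊤)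
    · rw [interior_prod_eq, closure_prod_eq, interior_Icc, interior_Icc, closure_Ioo hT.ne,
        closure_Ioo zero_ne_one]
      exact hp
  rw [(h.dx hT).dt_eq hT ht hx, (h.dt hT).dx_eq ht hx,
    fderivWithin_congr' (f := fun p => fderivWithin ℝ U s p (0, 1))
      (fun p hp => h.dx_eq hp.1 hp.2) hp,
    fderivWithin_congr' (f := fun p => fderivWithin ℝ U s p (1, 0))
      (fun p hp => h.dt_eq hT hp.1 hp.2) hp, key, key]
  exact hs _ _

/-- The time derivative of a jet is the jet of the time derivative. -/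
theorem JS.dt_D (h : JS T u) (hT : 0 < T) (j : ℕ) (ht : t ∈ Icc 0 T) (hx : x ∈ I) :
    P244.dt T (fun s => P244.D j (u s)) t x = P244.D j (P244.dt T u t) x := by
  induction j generalizing x with
  | zero => simp only [D_zero]
  | succ j ih =>
    simp only [D_succ]
    exact ((h.D hT j).dt_dx hT ht hx).trans (d1_congr (fun y hy => ih hy) hx)

theorem JS.const (c : ℝ) : JS T (fun _ _ => c) := contDiffOn_const

theorem JS.ofX {g : ℝ → ℝ} (h : Sm g) : JS T (fun _ x => g x) :=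
  ContDiffOn.comp h contDiffOn_snd fun _ hp => hp.2

theorem JS.ofT {g : ℝ → ℝ} (h : ContDiffOn ℝ ∞ g (Icc 0 T)) : JS T (fun t _ => g t) :=
  ContDiffOn.comp h contDiffOn_fst fun _ hp => hp.1

theorem JS.add (h : JS T u) (h' : JS T v) : JS T (fun t x => u t x + v t x) := ContDiffOn.add h h'

theorem JS.sub (h : JS T u) (h' : JS T v) : JS T (fun t x => u t x - v t x) := ContDiffOn.sub h h'

theorem JS.mul (h : JS T u) (h' : JS T v) : JS T (fun t x => u t x * v t x) := ContDiffOn.mul h h'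

theorem JS.neg (h : JS T u) : JS T (fun t x => -u t x) := ContDiffOn.neg h

/-- A jointly smooth function is bounded. -/
theorem JS.bdd (h : JS T u) : ∃ C, ∀ t ∈ Icc 0 T, ∀ x ∈ I, |u t x| ≤ C := by
  obtain ⟨C, hC⟩ := (isCompact_Icc.prod isCompact_Icc).exists_bound_of_continuousOn h.cont
  exact ⟨C, fun t ht x hx => hC (t, x) ⟨ht, hx⟩⟩

/-- The map `(t,x) ↦ (x, f, ω f')` is smooth. -/
theorem contDiffOn_pt {f : Fin 3 → Fn} (hT : 0 < T) (h : ∀ i, JS T (f i)) :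
    ContDiffOn ℝ ∞ (fun p : ℝ × ℝ => pt (sl f p.1) p.2) (Icc 0 T ×ˢ I) := by
  refine contDiffOn_snd.prodMk (ContDiffOn.prodMk ?_ ?_)
  · exact contDiffOn_pi.2 fun i => h i
  · exact contDiffOn_pi.2 fun i => (JS.ofX contDiff_om.contDiffOn).mul ((h i).dx hT)

end JS

/-- A smooth function of `(x, f, ω f')` along a solution is jointly smooth. -/
theorem Sol.js_comp {d : ℝ} {O : Set (ℝ × V3)} {N : ℝ × V3 × V3 → V3} {f0 : Fin 3 → ℝ → ℝ}
    {T : ℝ} {f : Fin 3 → Fn} (h : Sol d O N f0 T f) {G : ℝ × V3 × V3 → ℝ}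
    (hG : ContDiffOn ℝ ∞ G (lift O)) : JS T (fun t x => G (pt (sl f t) x)) :=
  ContDiffOn.comp hG (contDiffOn_pt h.pos h.js) fun p hp => h.mem p.1 hp.1 p.2 hp.2

/-- Restriction of a solution to a shorter time interval. -/
theorem Sol.mono {d : ℝ} {O : Set (ℝ × V3)} {N : ℝ × V3 × V3 → V3} {f0 : Fin 3 → ℝ → ℝ}
    {T S : ℝ} {f : Fin 3 → Fn} (h : Sol d O N f0 T f) (h0 : 0 < S) (hS : S ≤ T) :
    Sol d O N f0 S f :=
  ⟨h0, fun i => (h.js i).mono hS, h.init,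
    fun t ht => h.mem t (Icc_subset_Icc_right hS ht), fun t ht x hx i =>
      ((h.js i).dt_mono h0 hS ht hx).trans (h.eqn t (Icc_subset_Icc_right hS ht) x hx i)⟩

/-- An inequality on the open interval extends to the closed interval. -/
theorem le_of_Ioo {a b : ℝ} (hab : a < b) {g h : ℝ → ℝ} (hg : ContinuousOn g (Icc a b))
    (hh : ContinuousOn h (Icc a b)) (e : ∀ x ∈ Ioo a b, g x ≤ h x) : ∀ x ∈ Icc a b, g x ≤ h x := by
  intro x hx
  have hc : x ∈ closure (Ioo a b) := by rwa [closure_Ioo hab.ne]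
  exact ContinuousWithinAt.closure_le hc ((hg x hx).mono Ioo_subset_Icc_self)
    ((hh x hx).mono Ioo_subset_Icc_self) e

theorem eq_of_Ioo {a b : ℝ} (hab : a < b) {g h : ℝ → ℝ} (hg : ContinuousOn g (Icc a b))
    (hh : ContinuousOn h (Icc a b)) (e : ∀ x ∈ Ioo a b, g x = h x) : ∀ x ∈ Icc a b, g x = h x :=
  fun x hx => le_antisymm (le_of_Ioo hab hg hh (fun y hy => (e y hy).le) x hx)
    (le_of_Ioo hab hh hg (fun y hy => (e y hy).ge) x hx)

end Vale.Agent.P244
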