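import Vale.Agent.P244.StmE

/-! P244: the Bernstein estimate for the weighted gradient. -/

open Set Filter
open scoped ContDiff Topology

namespace Vale.Agent.P244

theorem CBern_abs {h : V3} {r : ℝ} (hr : 0 ≤ r) (e : r ^ 2 = ∑ l, h l ^ 2) :
    ∑ l, |h l| ≤ 2 * r := by
  simp only [Fin.sum_univ_three] at e ⊢
  refine abs_le_of_sq_le_sq' ?_ (by positivity) |>.2
  rw [← sq_abs (h 0), ← sq_abs (h 1), ← sq_abs (h 2)] at e
  nlinarith [sq_nonneg (|h 0| - |h 1|), sq_nonneg (|h 0| - |h 2|), sq_nonneg (|h 1| - |h 2|)]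

theorem CBern_dot {h b : V3} {B : ℝ} (hb : ∀ l, |b l| ≤ B) :
    |∑ l, h l * b l| ≤ (∑ l, |h l|) * B := by
  rw [Finset.sum_mul]
  refine (Finset.abs_sum_le_sum_abs _ _).trans (Finset.sum_le_sum fun l _ => ?_)
  rw [abs_mul]
  exact mul_le_mul_of_nonneg_left (hb l) (abs_nonneg _)

theorem CBern_cs {h m : V3} {r q : ℝ} (hr : 0 ≤ r) (hq : 0 ≤ q) (e : r ^ 2 = ∑ l, h l ^ 2)
    (e' : q ^ 2 = ∑ l, m l ^ 2) : |∑ l, h l * m l| ≤ r * q := by
  refine abs_le_of_sq_le_sq ?_ (by positivity)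
  rw [mul_pow, e, e']
  exact Finset.sum_mul_sq_le_sq_mul_sq _ _ _

/-- The gradient part. -/
theorem CBern_A {w v a c C C1 L r q s1 s2 bw : ℝ} (w0 : 0 ≤ w) (w1 : w ≤ 1) (hv : |v| ≤ 1)
    (hc : 0 < c) (ha : c ≤ a) (haC : a ≤ C) (hC1 : 0 ≤ C1) (hL : c * L = 16 * C ^ 2)
    (hr : 0 ≤ r) (hq : 0 ≤ q) (hp : 1 ≤ w * r)
    (h1 : |s1| ≤ 2 * r * (C * (w * (2 * q) + w ^ 2 * r ^ 2 + 2 * r + 1)))
    (h2 : |s2| ≤ r * q) (hb : bw ≤ C1 * w ^ 2) :
    w ^ 2 * (2 * s1 - 2 * (a * w) * q ^ 2) + r ^ 2 * bw - 2 * (a * w) * (2 * w * v) * (2 * s2) ≤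
      (L + 32 * C + C1) * ((w * r) ^ 2 * r) := by
  have a0 : 0 ≤ a := hc.le.trans ha
  have C0 : 0 ≤ C := a0.trans haC
  have L0 : 0 ≤ L := by
    by_contra hn
    nlinarith [sq_nonneg C, mul_pos hc (neg_pos.2 (not_le.1 hn))]
  obtain ⟨p, hpe⟩ : ∃ p, p = w * r := ⟨_, rfl⟩
  rw [← hpe] at hp ⊢
  have pr : p ≤ r := by rw [hpe]; nlinarith
  have r1 : 1 ≤ r := hp.trans pr
  have p0 : 0 ≤ p := zero_le_one.trans hp
  have pp : 0 ≤ p ^ 2 := sq_nonneg p
  have e1 : p ^ 2 ≤ p ^ 2 * r := le_mul_of_one_le_right pp r1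
  have e2 : p * r ≤ p ^ 2 * r := mul_le_mul_of_nonneg_right (by nlinarith) hr
  have e3 : p ^ 2 * p ≤ p ^ 2 * r := mul_le_mul_of_nonneg_left pr pp
  have e4 : p ≤ p ^ 2 * r := le_trans (by nlinarith) e1
  have w3 : 0 ≤ w ^ 3 := by positivity
  have y1 : 8 * C * r * q ≤ a * q ^ 2 + L * r ^ 2 := by
    have : 0 ≤ c * (c * q ^ 2 - 8 * C * r * q + L * r ^ 2) := by
      have : c * (c * q ^ 2 - 8 * C * r * q + L * r ^ 2) = (c * q - 4 * C * r) ^ 2 := by
        linear_combination r ^ 2 * hL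
      rw [this]; positivity
    have := nonneg_of_mul_nonneg_right this |> fun f => (mul_nonneg_iff_of_pos_left hc).1 this
    nlinarith [mul_le_mul_of_nonneg_right ha (sq_nonneg q)]
  have t1 : w ^ 2 * (2 * s1) ≤ a * w ^ 3 * q ^ 2 + (L + 16 * C) * (p ^ 2 * r) := by
    have b1 : w ^ 2 * (2 * s1) ≤ w ^ 2 * (2 * (2 * r * (C * (w * (2 * q) + w ^ 2 * r ^ 2 +
        2 * r + 1)))) := by
      have := le_abs_self s1
      gcongr; linarith
    have b2 : w ^ 2 * (2 * (2 * r * (C * (w * (2 * q) + w ^ 2 * r ^ 2 + 2 * r + 1)))) =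
        w ^ 3 * (8 * C * r * q) + 4 * C * (w * (p ^ 2 * p)) + 8 * C * p ^ 2 + 4 * C * (w * p) := by
      rw [hpe]; ring
    have b3 : w ^ 3 * (8 * C * r * q) ≤ w ^ 3 * (a * q ^ 2 + L * r ^ 2) :=
      mul_le_mul_of_nonneg_left y1 w3
    have b4 : w ^ 3 * (a * q ^ 2 + L * r ^ 2) = a * w ^ 3 * q ^ 2 + L * (w * p ^ 2) := by
      rw [hpe]; ring
    have b5 : w * p ^ 2 ≤ p ^ 2 * r := (mul_le_of_le_one_left pp w1).trans e1
    have b6 : w * (p ^ 2 * p) ≤ p ^ 2 * r := (mul_le_of_le_one_left (by positivity) w1).trans e3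
    have b7 : w * p ≤ p ^ 2 * r := (mul_le_of_le_one_left p0 w1).trans e4
    nlinarith [mul_le_mul_of_nonneg_left b5 L0, mul_le_mul_of_nonneg_left b6 C0,
      mul_le_mul_of_nonneg_left b7 C0, mul_le_mul_of_nonneg_left e1 C0]
  have t2 : r ^ 2 * bw ≤ C1 * (p ^ 2 * r) := by
    have b1 : r ^ 2 * bw ≤ r ^ 2 * (C1 * w ^ 2) := mul_le_mul_of_nonneg_left hb (sq_nonneg r)
    have b2 : r ^ 2 * (C1 * w ^ 2) = C1 * p ^ 2 := by rw [hpe]; ring
    linarith [mul_le_mul_of_nonneg_left e1 hC1]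
  have t3 : -(2 * (a * w) * (2 * w * v) * (2 * s2)) ≤
      a * w ^ 3 * q ^ 2 + 16 * C * (p ^ 2 * r) := by
    have b0 : |v * s2| ≤ r * q := by
      rw [abs_mul]
      exact (mul_le_of_le_one_left (abs_nonneg _) hv).trans h2
    have b1 : -(v * s2) ≤ r * q := (neg_le_abs _).trans b0
    have b2 : 8 * (w * (r * q)) ≤ w ^ 2 * q ^ 2 + 16 * r ^ 2 := by
      nlinarith [sq_nonneg (w * q - 4 * r)]
    have b3 : 8 * (w * -(v * s2)) ≤ w ^ 2 * q ^ 2 + 16 * r ^ 2 := by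
      linarith [mul_le_mul_of_nonneg_left b1 w0]
    have b4 := mul_le_mul_of_nonneg_left b3 (mul_nonneg a0 w0)
    have b5 : a * w * (w ^ 2 * q ^ 2 + 16 * r ^ 2) = a * w ^ 3 * q ^ 2 + 16 * (a * (p * r)) := by
      rw [hpe]; ring
    have b6 : a * (p * r) ≤ C * (p ^ 2 * r) := mul_le_mul haC e2 (by positivity) C0
    linarith
  linarith

/-- The part coming from the bounded quantity. -/
theorem CBern_B {w v a C r s1 s2 : ℝ} (w1 : w ≤ 1) (hv : |v| ≤ 1)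
    (a0 : 0 ≤ a) (haC : a ≤ C) (hr : 0 ≤ r) (hp : 1 ≤ w * r)
    (h1 : |s1| ≤ 3 * C * (C * (w * (2 * r) + 1))) (h2 : |s2| ≤ 2 * r * C) :
    w ^ 2 * r ^ 2 * (2 * (s1 - a * v * s2) - 2 * (a * w) * r ^ 2) ≤
      22 * C ^ 2 * ((w * r) ^ 2 * r) - 2 * a * (w * r) * ((w * r) ^ 2 * r) := by
  have C0 : 0 ≤ C := a0.trans haC
  have pr : w * r ≤ r := mul_le_of_le_one_left hr w1
  have b0 : |a * v * s2| ≤ C * (2 * r * C) := by
    rw [abs_mul, abs_mul, abs_of_nonneg a0]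
    exact mul_le_mul ((mul_le_of_le_one_right a0 hv).trans haC) h2 (abs_nonneg _) C0
  have b1 : s1 - a * v * s2 ≤ 11 * C ^ 2 * r := by
    have := le_abs_self s1
    have := neg_le_abs (a * v * s2)
    nlinarith [mul_le_mul_of_nonneg_left pr (sq_nonneg C),
      mul_le_mul_of_nonneg_left (hp.trans pr) (sq_nonneg C)]
  nlinarith [mul_le_mul_of_nonneg_left b1 (sq_nonneg (w * r))]

/-- The cross term at a critical point. -/
theorem CBern_C {K G W G' W' H : ℝ} (hK : 0 < K + G) (h7 : 7 * G ≤ K) (hW : 0 ≤ W) (hH : 0 ≤ H)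
    (e : (K + G) * W' + W * G' = 0) (hG : G' ^ 2 ≤ 4 * (G * H)) : -(2 * G' * W') ≤ H * W := by
  refine le_of_mul_le_mul_left ?_ hK
  have : (K + G) * -(2 * G' * W') = 2 * (W * G' ^ 2) := by linear_combination (-2 * G') * e
  rw [this]
  nlinarith [mul_le_mul_of_nonneg_left hG hW, mul_le_mul_of_nonneg_right h7 (mul_nonneg hH hW)]

/-- Sum of squares. -/
def CBern_S (f : Fin 3 → Fn) : Fn :=
  fun t x => f 0 t x * f 0 t x + f 1 t x * f 1 t x + f 2 t x * f 2 t x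

section

variable {T : ℝ} {f : Fin 3 → Fn} {t x : ℝ}

theorem CBern_S_eq (f : Fin 3 → Fn) (t x : ℝ) : CBern_S f t x = ∑ l, f l t x ^ 2 := by
  simp only [CBern_S, Fin.sum_univ_three]; ring

theorem CBern_S_js (h : ∀ i, JS T (f i)) : JS T (CBern_S f) :=
  (((h 0).mul (h 0)).add ((h 1).mul (h 1))).add ((h 2).mul (h 2))

theorem CBern_S_dx (h : ∀ i, JS T (f i)) (ht : t ∈ Icc 0 T) (hx : x ∈ I) :
    dx (CBern_S f) t x = 2 * ∑ l, f l t x * dx (f l) t x := by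
  have k := fun i => (h i).hasXW ht hx
  refine d1_eq hx (((((k 0).mul (k 0)).add ((k 1).mul (k 1))).add
    ((k 2).mul (k 2))).congr_deriv ?_)
  simp only [Fin.sum_univ_three]; ring

theorem CBern_S_box (hB : BoxStmt) (A B : Fn) (hT : 0 < T) (h : ∀ i, JS T (f i))
    (ht : t ∈ Icc 0 T) (hx : x ∈ I) :
    box T A B (CBern_S f) t x = 2 * (∑ l, f l t x * box T A B (f l) t x) -
      2 * A t x * ∑ l, dx (f l) t x ^ 2 := by
  unfold CBern_S
  rw [hB.add T A B _ _ hT (((h 0).mul (h 0)).add ((h 1).mul (h 1))) ((h 2).mul (h 2)) t ht x hx,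
    hB.add T A B _ _ hT ((h 0).mul (h 0)) ((h 1).mul (h 1)) t ht x hx,
    hB.mul T A B _ _ hT (h 0) (h 0) t ht x hx, hB.mul T A B _ _ hT (h 1) (h 1) t ht x hx,
    hB.mul T A B _ _ hT (h 2) (h 2) t ht x hx]
  simp only [Fin.sum_univ_three]; ring

theorem CBern_w_d1 (hx : x ∈ I) : d1 (fun y => om y ^ 2) x = 2 * om x * (1 - 2 * x) :=
  d1_eq' hx (((hasDerivAt_om x).pow 2).congr_deriv (by simp))

theorem CBern_w_d2 (hx : x ∈ I) :
    d1 (d1 fun y => om y ^ 2) x = 2 * (1 - 2 * x) ^ 2 - 4 * om x := by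
  rw [d1_congr (fun y hy => CBern_w_d1 hy) hx]
  refine d1_eq' hx ((((hasDerivAt_om x).const_mul 2).mul
    (((hasDerivAt_id x).const_mul 2).const_sub 1)).congr_deriv ?_)
  simp only [id]; ring

theorem CBern_w_js : JS T (fun _ y => om y ^ 2) := JS.ofX (contDiff_om.pow 2).contDiffOn

theorem CBern_w_box (hB : BoxStmt) {d C : ℝ} (hd : 0 ≤ d) (k : ℕ) {a : Fn} (hT : 0 < T)
    (ht : t ∈ Icc 0 T) (hx : x ∈ I) (a0 : 0 ≤ a t x) (aC : a t x ≤ C) :
    box T (cA a) (cB d k a) (fun _ y => om y ^ 2) t x ≤ (4 * C + 4 * d + 4) * om x ^ 2 := by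
  rw [hB.ofX T _ _ _ hT t ht x hx, CBern_w_d2 hx, CBern_w_d1 hx, cA, cB]
  have w0 := om_nonneg hx
  have b1 : -((2 * d + 2) * om x) ≤ be d x * (1 - 2 * x) := by
    unfold be om
    nlinarith [mul_nonneg hd (sq_nonneg (1 - x)), sq_nonneg x]
  have b2 := mul_le_mul_of_nonneg_left b1 w0
  have b3 : 0 ≤ a t x * om x * (1 - 2 * x) ^ 2 := by positivity
  have b4 : 0 ≤ (k : ℝ) * (a t x * om x * (1 - 2 * x) ^ 2) := by positivity
  nlinarith [mul_le_mul_of_nonneg_right aC (sq_nonneg (om x))]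

theorem CBern_level (d : ℝ) (j : ℕ) (a u : Fn) (t x : ℝ) :
    box T (cA a) (cB d (j + 1) a) u t x =
      box T (cA a) (cB d j a) u t x - a t x * (1 - 2 * x) * dx u t x := by
  simp only [box, cB]; push_cast; ring

theorem CBern_S_le {C : ℝ} (h : ∀ i, |f i t x| ≤ C) : CBern_S f t x ≤ 3 * C ^ 2 := by
  have k := fun i => sq_le_sq' (abs_le.1 (h i)).1 (abs_le.1 (h i)).2
  rw [CBern_S_eq, Fin.sum_univ_three]
  linarith [k 0, k 1, k 2]

theorem CBern_S_nonneg (f : Fin 3 → Fn) (t x : ℝ) : 0 ≤ CBern_S f t x := by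
  rw [CBern_S_eq]; positivity

end

/-- The Bernstein function. -/
noncomputable def CBern_F (K M : ℝ) (g : Fin 3 → Fn) : Fn :=
  fun t x => (K + CBern_S g t x) * (om x ^ 2 * CBern_S (fun l => dx (g l)) t x) - M

theorem CBern_key (hB : BoxStmt) {d c C P M T t x : ℝ} (hd : 0 ≤ d) (j : ℕ) (hc : 0 < c)
    (hT : 0 < T) {a : Fn} {g : Fin 3 → Fn} (hg : ∀ i, JS T (g i)) (ht : t ∈ Icc 0 T) (hx : x ∈ I)
    (ha : c ≤ a t x) (aC : a t x ≤ C) (hb : ∀ i, |g i t x| ≤ C)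
    (h1 : ∀ i, |box T (cA a) (cB d j a) (g i) t x| ≤ C * (om x * ∑ l, |dx (g l) t x| + 1))
    (h2 : ∀ i, |box T (cA a) (cB d (j + 1) a) (dx (g i)) t x| ≤
      C * (om x * ∑ l, |dx (dx (g l)) t x| + om x ^ 2 * ∑ l, dx (g l) t x ^ 2 +
        ∑ l, |dx (g l) t x| + 1))
    (hP1 : 1 ≤ P) (hP : (24 * C ^ 2 + 1) * (16 * C ^ 2 / c + 32 * C + (4 * C + 4 * d + 4)) +
      22 * C ^ 2 < c * P)
    (hW : P ^ 2 ≤ om x ^ 2 * CBern_S (fun l => dx (g l)) t x)
    (hdx : dx (CBern_F (21 * C ^ 2 + 1) M g) t x = 0) :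
    box T (cA a) (cB d (j + 1) a) (CBern_F (21 * C ^ 2 + 1) M g) t x < 0 := by
  have hh : ∀ i, JS T (dx (g i)) := fun i => (hg i).dx hT
  have jG := CBern_S_js hg
  have jH := CBern_S_js hh
  have jW := (CBern_w_js (T := T)).mul jH
  have jK := (JS.const (T := T) (21 * C ^ 2 + 1)).add jG
  have a0 : 0 ≤ a t x := hc.le.trans ha
  have C0 : 0 ≤ C := a0.trans aC
  have w0 := om_nonneg hx
  have w1 : om x ≤ 1 := om_le.trans (by norm_num)
  have hv : |1 - 2 * x| ≤ 1 := abs_le.2 ⟨by linarith [hx.2], by linarith [hx.1]⟩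
  have z : ∀ s : ℝ, box T (cA a) (cB d (j + 1) a) (fun _ _ => s) t x = 0 := fun s =>
    hB.ofT T _ _ (fun _ => s) 0 hT t ht x hx (hasDerivWithinAt_const _ _ _)
  have dK : dx (fun t x => 21 * C ^ 2 + 1 + CBern_S g t x) t x = dx (CBern_S g) t x :=
    d1_eq hx ((jG.hasXW ht hx).const_add _)
  have dF : dx (CBern_F (21 * C ^ 2 + 1) M g) t x = _ :=
    (d1_eq hx (((jK.mul jW).hasXW ht hx).sub_const M)).trans (hB.dx_mul T _ _ jK jW t ht x hx)
  rw [dF, dK] at hdx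
  obtain ⟨r, hr, er⟩ : ∃ r : ℝ, 0 ≤ r ∧ r ^ 2 = ∑ l, dx (g l) t x ^ 2 :=
    ⟨_, Real.sqrt_nonneg _, Real.sq_sqrt (by positivity)⟩
  obtain ⟨q, hq, eq⟩ : ∃ q : ℝ, 0 ≤ q ∧ q ^ 2 = ∑ l, dx (dx (g l)) t x ^ 2 :=
    ⟨_, Real.sqrt_nonneg _, Real.sq_sqrt (by positivity)⟩
  have eH : CBern_S (fun l => dx (g l)) t x = r ^ 2 := by rw [CBern_S_eq, er]
  have sr := CBern_abs (h := fun l => dx (g l) t x) hr er
  have sq := CBern_abs (h := fun l => dx (dx (g l)) t x) hq eq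
  have hPp : P ≤ om x * r := by
    rw [eH, ← mul_pow] at hW
    exact (abs_le_of_sq_le_sq' hW (by positivity)).2
  have G0 := CBern_S_nonneg g t x
  have G1 := CBern_S_le hb
  have kC := CBern_C (H := r ^ 2) (by positivity) (by linarith) (by rw [eH]; positivity)
    (sq_nonneg r) hdx (by
      rw [CBern_S_dx hg ht hx, CBern_S_eq, er, mul_pow]
      have := Finset.sum_mul_sq_le_sq_mul_sq Finset.univ (fun l => g l t x) fun l => dx (g l) t x
      linarith)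
  have kA := CBern_A (L := 16 * C ^ 2 / c) w0 w1 hv hc ha aC
    (C1 := 4 * C + 4 * d + 4) (by positivity) (by field_simp) hr hq (hP1.trans hPp)
    ((CBern_dot (h := fun l => dx (g l) t x) h2).trans (by
      rw [← er]
      gcongr))
    (CBern_cs (h := fun l => dx (g l) t x) hr hq er eq) (CBern_w_box hB hd (j + 1) hT ht hx a0 aC)
  have kB := CBern_B w1 hv a0 aC hr (hP1.trans hPp)
    ((CBern_dot (h := fun l => g l t x) h1).trans (by
      have : ∑ l, |g l t x| ≤ 3 * C := by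
        rw [Fin.sum_univ_three]; linarith [hb 0, hb 1, hb 2]
      gcongr))
    ((CBern_dot (h := fun l => dx (g l) t x) hb).trans (by gcongr))
  have bW : box T (cA a) (cB d (j + 1) a)
      (fun t x => om x ^ 2 * CBern_S (fun l => dx (g l)) t x) t x ≤
      (16 * C ^ 2 / c + 32 * C + (4 * C + 4 * d + 4)) * ((om x * r) ^ 2 * r) := by
    rw [hB.mul T _ _ _ _ hT CBern_w_js jH t ht x hx, CBern_S_box hB _ _ hT hh ht hx,
      CBern_S_dx hh ht hx, eH, ← eq, show dx (fun _ y => om y ^ 2) t x = _ from CBern_w_d1 hx]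
    exact kA
  have bG : om x ^ 2 * r ^ 2 * box T (cA a) (cB d (j + 1) a) (CBern_S g) t x ≤
      22 * C ^ 2 * ((om x * r) ^ 2 * r) - 2 * a t x * (om x * r) * ((om x * r) ^ 2 * r) := by
    refine le_trans (le_of_eq ?_) kB
    rw [CBern_S_box hB _ _ hT hg ht hx, ← er]
    simp only [CBern_level, Fin.sum_univ_three, cA]
    ring
  unfold CBern_F
  rw [hB.sub T _ _ _ _ hT (jK.mul jW) (JS.const M) t ht x hx, z,
    hB.mul T _ _ _ _ hT jK jW t ht x hx, hB.add T _ _ _ _ hT (JS.const _) jG t ht x hx, z, dK, eH]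
  rw [eH] at kC
  have k1 := mul_le_mul_of_nonneg_left kC (mul_nonneg a0 w0)
  have k2 := mul_le_mul_of_nonneg_left bW (show 0 ≤ 21 * C ^ 2 + 1 + CBern_S g t x by positivity)
  have p1 : 1 ≤ om x * r := hP1.trans hPp
  have r0 : 0 < r := by
    rcases hr.eq_or_lt with h | h
    · rw [← h] at p1; norm_num at p1
    · exact h
  have E0 : 0 < (om x * r) ^ 2 * r := by positivity
  have k3 : (21 * C ^ 2 + 1 + CBern_S g t x) *
      ((16 * C ^ 2 / c + 32 * C + (4 * C + 4 * d + 4)) * ((om x * r) ^ 2 * r)) ≤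
      (24 * C ^ 2 + 1) * ((16 * C ^ 2 / c + 32 * C + (4 * C + 4 * d + 4)) *
        ((om x * r) ^ 2 * r)) := mul_le_mul_of_nonneg_right (by linarith) (by positivity)
  have k4 := mul_lt_mul_of_pos_right (hP.trans_le
    (mul_le_mul ha hPp (by linarith) a0)) E0
  have k5 : a t x * om x * (r ^ 2 * (om x ^ 2 * r ^ 2)) =
      a t x * (om x * r) * ((om x * r) ^ 2 * r) := by ring
  simp only [cA] at k2 bG ⊢
  linarith

theorem bern (hT : TouchStmt) (hB : BoxStmt) : BernStmt := by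
  intro d hd j _ c hc C Tb
  obtain ⟨P, hP1, hP⟩ : ∃ P : ℝ, 1 ≤ P ∧ (24 * C ^ 2 + 1) *
      (16 * C ^ 2 / c + 32 * C + (4 * C + 4 * d + 4)) + 22 * C ^ 2 < c * P := by
    set Q := (24 * C ^ 2 + 1) * (16 * C ^ 2 / c + 32 * C + (4 * C + 4 * d + 4)) + 22 * C ^ 2
    refine ⟨|Q| / c + 1, le_add_of_nonneg_left (by positivity), ?_⟩
    rw [mul_add, mul_div_cancel₀ _ hc.ne']
    linarith [le_abs_self Q]
  obtain ⟨M, hM⟩ : ∃ M : ℝ, M = (24 * C ^ 2 + 1) * (P ^ 2 + 3 * C ^ 2) := ⟨_, rfl⟩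
  refine ⟨M + 1, fun T hTT a g hg ha hb h0 h1 h2 i t ht x hx => ?_⟩
  have T0 := hTT.1
  have jF : JS T (CBern_F (21 * C ^ 2 + 1) M g) :=
    (((JS.const _).add (CBern_S_js hg)).mul
      (CBern_w_js.mul (CBern_S_js fun i => (hg i).dx T0))).sub (JS.const M)
  have a0 : ∀ t ∈ Icc 0 T, ∀ x ∈ I, 0 ≤ a t x := fun t ht x hx => hc.le.trans (ha t ht x hx).1
  have key := hT Unit T 0 T (fun _ => CBern_F (21 * C ^ 2 + 1) M g) (cA a) (cB d (j + 1) a)
    (fun _ => 0) (fun _ => 1) T0 le_rfl T0.le le_rfl (fun _ => jF) continuous_const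
    continuous_const (fun _ _ => ⟨le_rfl, zero_le_one, le_rfl⟩)
    (fun t ht x hx => mul_nonneg (a0 t ht x hx) (om_nonneg hx))
    (Or.inl ⟨fun _ => rfl, fun t ht => ⟨by simp [cA, om_zero], by
      have := a0 t ht 0 (left_mem_Icc.2 zero_le_one)
      simp only [cB, be, mul_zero, sub_zero, mul_one]
      positivity⟩⟩)
    (Or.inl ⟨fun _ => rfl, fun t ht => ⟨by simp [cA, om_one], by
      have := mul_nonneg (a0 t ht 1 (right_mem_Icc.2 zero_le_one)) (Nat.cast_nonneg (j + 1))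
      simp only [cB, be]
      linarith⟩⟩)
    (fun _ x hx => by
      have t0 : (0 : ℝ) ∈ Icc 0 T := left_mem_Icc.2 T0.le
      have b1 := CBern_S_le fun i => hb i 0 t0 x hx
      have b2 := CBern_S_le (f := fun l => dx (g l)) fun i => h0 i x hx
      have b3 := CBern_S_nonneg (fun l => dx (g l)) 0 x
      have b4 : om x ^ 2 ≤ 1 := pow_le_one₀ (om_nonneg hx) (om_le.trans (by norm_num))
      have b5 : om x ^ 2 * CBern_S (fun l => dx (g l)) 0 x ≤ 3 * C ^ 2 :=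
        (mul_le_of_le_one_left b3 b4).trans b2
      have b6 := mul_le_mul (show 21 * C ^ 2 + 1 + CBern_S g 0 x ≤ 24 * C ^ 2 + 1 by linarith) b5
        (by positivity) (by positivity)
      have b7 : 0 < (24 * C ^ 2 + 1) * P ^ 2 := by positivity
      unfold CBern_F
      linarith)
    (fun _ t ht x hx e _ hdx => by
      have ht' := Ioc_subset_Icc_self ht
      have b1 := CBern_S_le fun i => hb i t ht' x hx
      have b3 := CBern_S_nonneg (fun l => dx (g l)) t x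
      have hW : P ^ 2 ≤ om x ^ 2 * CBern_S (fun l => dx (g l)) t x := by
        refine le_of_mul_le_mul_left ?_ (show 0 < 24 * C ^ 2 + 1 by positivity)
        have b6 := mul_le_mul_of_nonneg_right
          (show 21 * C ^ 2 + 1 + CBern_S g t x ≤ 24 * C ^ 2 + 1 by linarith)
          (show 0 ≤ om x ^ 2 * CBern_S (fun l => dx (g l)) t x by positivity)
        have b7 : 0 ≤ (24 * C ^ 2 + 1) * (3 * C ^ 2) := by positivity
        unfold CBern_F at e
        linarith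
      have hw : om x ≠ 0 := fun h => by
        rw [h] at hW
        nlinarith
      refine CBern_key hB hd j hc T0 hg ht' hx (ha t ht' x hx).1 (ha t ht' x hx).2
        (fun i => hb i t ht' x hx) (fun i => h1 i t ht' x hx) (fun i => h2 i t ht' x hx) hP1 hP hW
        (hdx (hx.1.lt_of_ne fun h => hw (h ▸ om_zero)) (hx.2.lt_of_ne fun h => hw (h ▸ om_one))))
    () t ht x hx
  have b0 := CBern_S_nonneg g t x
  have b3 := CBern_S_nonneg (fun l => dx (g l)) t x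
  have b1 : (om x * |dx (g i) t x|) ^ 2 ≤ om x ^ 2 * CBern_S (fun l => dx (g l)) t x := by
    rw [mul_pow, sq_abs, CBern_S_eq]
    exact mul_le_mul_of_nonneg_left (Finset.single_le_sum (f := fun l => dx (g l) t x ^ 2)
      (fun _ _ => sq_nonneg _) (Finset.mem_univ i)) (sq_nonneg _)
  have b2 := le_mul_of_one_le_left
    (show 0 ≤ om x ^ 2 * CBern_S (fun l => dx (g l)) t x by positivity)
    (show 1 ≤ 21 * C ^ 2 + 1 + CBern_S g t x by nlinarith [sq_nonneg C])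
  unfold CBern_F at key
  nlinarith [sq_nonneg (om x * |dx (g i) t x| - 1)]

end Vale.Agent.P244
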