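import Vale.Agent.P244.StmE

/-! P244: pointwise rules for the parabolic operator. -/

open Set Filter
open scoped ContDiff Topology

namespace Vale.Agent.P244

variable {T : ℝ} {A B u v : Fn} {t x : ℝ}

theorem CBox_dx_lin (a b : ℝ) (hu : JS T u) (hv : JS T v) (ht : t ∈ Icc 0 T) (hx : x ∈ I) :
    dx (fun t x => a * u t x + b * v t x) t x = a * dx u t x + b * dx v t x :=
  d1_eq hx (((hu.hasXW ht hx).const_mul a).add ((hv.hasXW ht hx).const_mul b))

theorem CBox_dx_mul (hu : JS T u) (hv : JS T v) (ht : t ∈ Icc 0 T) (hx : x ∈ I) :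
    dx (fun t x => u t x * v t x) t x = u t x * dx v t x + v t x * dx u t x :=
  d1_eq hx (((hu.hasXW ht hx).mul (hv.hasXW ht hx)).congr_deriv (by ring))

theorem CBox_lin (a b : ℝ) (hT : 0 < T) (hu : JS T u) (hv : JS T v) (ht : t ∈ Icc 0 T)
    (hx : x ∈ I) : box T A B (fun t x => a * u t x + b * v t x) t x =
      a * box T A B u t x + b * box T A B v t x := by
  have h1 : dt T (fun t x => a * u t x + b * v t x) t x = a * dt T u t x + b * dt T v t x :=
    dt_eq hT ht (((hu.hasT ht hx).const_mul a).add ((hv.hasT ht hx).const_mul b))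
  have h2 : dx (dx fun t x => a * u t x + b * v t x) t x =
      a * dx (dx u) t x + b * dx (dx v) t x :=
    (d1_congr (fun y hy => CBox_dx_lin a b hu hv ht hy) hx).trans
      (CBox_dx_lin a b (hu.dx hT) (hv.dx hT) ht hx)
  unfold box
  rw [h1, h2, CBox_dx_lin a b hu hv ht hx]
  ring

theorem CBox_mul (hT : 0 < T) (hu : JS T u) (hv : JS T v) (ht : t ∈ Icc 0 T) (hx : x ∈ I) :
    box T A B (fun t x => u t x * v t x) t x =
      u t x * box T A B v t x + v t x * box T A B u t x - 2 * A t x * dx u t x * dx v t x := by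
  have h1 : dt T (fun t x => u t x * v t x) t x = dt T u t x * v t x + u t x * dt T v t x :=
    dt_eq hT ht ((hu.hasT ht hx).mul (hv.hasT ht hx))
  have h2 : dx (dx fun t x => u t x * v t x) t x =
      (dx u t x * dx v t x + u t x * dx (dx v) t x) +
        (dx v t x * dx u t x + v t x * dx (dx u) t x) :=
    (d1_congr (fun y hy => CBox_dx_mul hu hv ht hy) hx).trans
      (d1_eq hx (((hu.hasXW ht hx).mul ((hv.dx hT).hasXW ht hx)).add
        ((hv.hasXW ht hx).mul ((hu.dx hT).hasXW ht hx))))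
  unfold box
  rw [h1, h2, CBox_dx_mul hu hv ht hx]
  ring

theorem CBox_comp {g g' g'' : ℝ → ℝ} {U : Set ℝ} (hT : 0 < T) (hu : JS T u) (hU : IsOpen U)
    (hg : ∀ s ∈ U, HasDerivAt g (g' s) s ∧ HasDerivAt g' (g'' s) s) (ht : t ∈ Icc 0 T)
    (hx : x ∈ I) (hm : u t x ∈ U) : dx (fun t x => g (u t x)) t x = g' (u t x) * dx u t x ∧
      box T A B (fun t x => g (u t x)) t x =
        g' (u t x) * box T A B u t x - g'' (u t x) * A t x * dx u t x ^ 2 := by
  have h0 : ∀ y ∈ I, u t y ∈ U → dx (fun t x => g (u t x)) t y = g' (u t y) * dx u t y :=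
    fun y hy hy' => d1_eq hy ((hg _ hy').1.comp_hasDerivWithinAt y (hu.hasXW ht hy))
  refine ⟨h0 x hx hm, ?_⟩
  have h1 : dt T (fun t x => g (u t x)) t x = g' (u t x) * dt T u t x :=
    dt_eq hT ht (HasDerivAt.comp_hasDerivWithinAt (h := fun s => u s x) t (hg _ hm).1
      (hu.hasT ht hx))
  have e : dx (fun t x => g (u t x)) t =ᶠ[𝓝[I] x] fun y => g' (u t y) * dx u t y := by
    filter_upwards [((hu.sm ht).cont x hx).eventually (hU.mem_nhds hm), self_mem_nhdsWithin]
      with y hy hyI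
    exact h0 y hyI hy
  have h2 : dx (dx fun t x => g (u t x)) t x =
      g'' (u t x) * dx u t x * dx u t x + g' (u t x) * dx (dx u) t x :=
    (d1_congr_ev hx e).trans (d1_eq hx
      (((hg _ hm).2.comp_hasDerivWithinAt x (hu.hasXW ht hx)).mul ((hu.dx hT).hasXW ht hx)))
  unfold box
  rw [h1, h2, h0 x hx hm]
  ring

theorem CBox_quad {a b c : ℝ → ℝ} {a' b' c' : ℝ} (hT : 0 < T) (ht : t ∈ Icc 0 T) (hx : x ∈ I)
    (ha : HasDerivAt a a' t) (hb : HasDerivAt b b' t) (hc : HasDerivAt c c' t) :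
    dx (fun s y => a s + b s * y + c s * y ^ 2) t x = b t + 2 * c t * x ∧
    box T A B (fun s y => a s + b s * y + c s * y ^ 2) t x =
      a' + b' * x + c' * x ^ 2 - A t x * (2 * c t) - B t x * (b t + 2 * c t * x) := by
  have h0 : ∀ y ∈ I, dx (fun s y => a s + b s * y + c s * y ^ 2) t y = b t + 2 * c t * y := by
    intro y hy
    refine d1_eq' hy (((((hasDerivAt_id y).const_mul (b t)).const_add (a t)).add
      ((hasDerivAt_pow 2 y).const_mul (c t))).congr_deriv ?_)
    simp only [Nat.cast_ofNat, Nat.add_one_sub_one, pow_one]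
    ring
  refine ⟨h0 x hx, ?_⟩
  have h1 : dt T (fun s y => a s + b s * y + c s * y ^ 2) t x = a' + b' * x + c' * x ^ 2 :=
    dt_eq hT ht ((ha.add (hb.mul_const x)).add (hc.mul_const (x ^ 2))).hasDerivWithinAt
  have h2 : dx (dx fun s y => a s + b s * y + c s * y ^ 2) t x = 2 * c t :=
    (d1_congr h0 hx).trans (d1_eq' hx
      ((((hasDerivAt_id x).const_mul (2 * c t)).const_add (b t)).congr_deriv (mul_one _)))
  unfold box
  rw [h1, h2, h0 x hx]

theorem boxs : BoxStmt where
  add := fun T A B u v hT hu hv t ht x hx => by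
    simpa only [one_mul] using CBox_lin (A := A) (B := B) 1 1 hT hu hv ht hx
  sub := fun T A B u v hT hu hv t ht x hx => by
    simpa only [one_mul, neg_mul, ← sub_eq_add_neg] using
      CBox_lin (A := A) (B := B) 1 (-1) hT hu hv ht hx
  smul := fun T A B u c hT hu t ht x hx => by
    simpa only [zero_mul, add_zero] using CBox_lin (A := A) (B := B) c 0 hT hu hu ht hx
  mul := fun T A B u v hT hu hv t ht x hx => CBox_mul hT hu hv ht hx
  dx_mul := fun T u v hu hv t ht x hx => CBox_dx_mul hu hv ht hx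
  dx_lin := fun T u v a b hu hv t ht x hx => CBox_dx_lin a b hu hv ht hx
  comp := fun T A B u g g' g'' U hT hu hU hg t ht x hx hm => CBox_comp hT hu hU hg ht hx hm
  ofX := fun T A B g hT t ht x hx => by
    have h1 : dt T (fun _ y => g y) t x = 0 := dt_eq hT ht (hasDerivWithinAt_const _ _ _)
    have h2 : dx (dx fun _ y => g y) t x = d1 (d1 g) x := rfl
    have h3 : dx (fun _ y => g y) t x = d1 g x := rfl
    unfold box
    rw [h1, h2, h3, zero_sub]
  ofT := fun T A B g c hT t ht x hx hg => by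
    have h1 : dt T (fun s _ => g s) t x = c := dt_eq hT ht hg
    have h3 : ∀ y ∈ I, dx (fun s _ => g s) t y = 0 := fun y hy =>
      d1_eq hy (hasDerivWithinAt_const _ _ _)
    have h2 : dx (dx fun s _ => g s) t x = 0 :=
      (d1_congr h3 hx).trans (d1_eq hx (hasDerivWithinAt_const _ _ _))
    unfold box
    rw [h1, h2, h3 x hx]
    ring
  quad := fun T A B a b c a' b' c' hT t ht x hx ha hb hc => CBox_quad hT ht hx ha hb hc
  congr := fun T A B u v t ht x hx U hU h => by
    have e : u t =ᶠ[𝓝[I] x] v t := by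
      filter_upwards [mem_nhdsWithin_of_mem_nhds hU, self_mem_nhdsWithin] with y hy hyI
      exact h t ht y ⟨hy, hyI⟩
    have h1 : dx u t x = dx v t x := d1_congr_ev hx e
    have h2 : dx (dx u) t x = dx (dx v) t x := d1_congr_ev hx (d1_ev e)
    have h3 : dt T u t x = dt T v t x :=
      dt_congr ht fun s hs => h s hs x ⟨mem_of_mem_nhds hU, hx⟩
    refine ⟨h1, h2, ?_⟩
    unfold box
    rw [h1, h2, h3]
  cont := fun T A B u hT hu t ht hA hB =>
    (((hu.dt hT).sm ht).cont.sub (hA.mul (((hu.dx hT).dx hT).sm ht).cont)).sub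
      (hB.mul ((hu.dx hT).sm ht).cont)

end Vale.Agent.P244
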