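import Vale.Agent.P244.StmE

/-! P244: continuation criterion, all jets stay bounded. -/

open Set Filter
open scoped ContDiff Topology

namespace Vale.Agent.P244

theorem CCont_dx (f : Fn) (j : ℕ) : dx (fun t => D j (f t)) = fun t => D (j + 1) (f t) := by
  funext t; simp only [dx, D_succ]

theorem CCont_box {d : ℝ} {O : Set (ℝ × V3)} {N : ℝ × V3 × V3 → V3} {f0 : Fin 3 → ℝ → ℝ}
    {T : ℝ} {f : Fin 3 → Fn} (h : Sol d O N f0 T f) (j : ℕ) (i : Fin 3) {t x : ℝ}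
    (ht : t ∈ Icc 0 T) (hx : x ∈ I) :
    box T (cA fun t x => al (sl f t) x) (cB d (j + 2) fun t x => al (sl f t) x)
      (fun t => D j (f i t)) t x = jrem d N (sl f t) j i x := by
  unfold box jrem
  rw [CCont_dx, CCont_dx, (h.js i).dt_D h.pos j ht hx,
    D_congr (fun y hy => h.eqn t ht y hy i) j hx]
  simp only [cA, cB, sl]
  ring

theorem CCont_init {f : Fin 3 → Fn} {T : ℝ} (hT : 0 < T) (h : ∀ i, JS T (f i)) (j : ℕ) :
    ∃ M, 0 ≤ M ∧ ∀ i, ∀ x ∈ I, |D j (f i 0) x| ≤ M := by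
  have h1 : ∀ i, ∃ M, ∀ x ∈ I, |D j (f i 0) x| ≤ M := fun i => by
    obtain ⟨C, hC⟩ := ((h i).D hT j).bdd
    exact ⟨C, fun x hx => hC 0 ⟨le_rfl, hT.le⟩ x hx⟩
  choose M hM using h1
  refine ⟨∑ i, |M i|, Finset.sum_nonneg fun i _ => abs_nonneg _, fun i x hx => ?_⟩
  exact (hM i x hx).trans ((le_abs_self _).trans
    (Finset.single_le_sum (f := fun i => |M i|) (fun i _ => abs_nonneg _) (Finset.mem_univ i)))

theorem CCont_mid {t tm : ℝ} (ht : t ∈ Ico 0 tm) :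
    (t + tm) / 2 ∈ Ioo 0 tm ∧ t ∈ Icc 0 ((t + tm) / 2) := by
  obtain ⟨h0, h1⟩ := ht
  exact ⟨⟨by linarith, by linarith⟩, h0, by linarith⟩

theorem CCont_sub {T tm t : ℝ} (hT : T ∈ Ioo 0 tm) (ht : t ∈ Icc 0 T) : t ∈ Ico 0 tm :=
  ⟨ht.1, ht.2.trans_lt hT.2⟩

theorem cont (hJ : JetStmt) (hL : LinStmt) (hB : BernStmt) : ContStmt := by
  intro d O N hS K hKO hK Cg tm f0 f htm hsol hin
  have hc : ContinuousOn (fun p : ℝ × V3 => 4 * (1 - om p.1 * p.2 2)) K := by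
    unfold om; fun_prop
  obtain ⟨c, hc0, hcK⟩ := hK.exists_forall_le' hc (a := 0)
    (fun p hp => by have := hS.pos p (hKO hp); positivity)
  obtain ⟨Ca, hCa⟩ := hK.exists_bound_of_continuousOn hc
  obtain ⟨R, hR⟩ := hK.exists_bound_of_continuousOn (f := fun p : ℝ × V3 => p.2) (by fun_prop)
  set a : Fn := fun t x => al (sl f t) x with ha
  have hac : ∀ t ∈ Ico 0 tm, ∀ x ∈ I, c ≤ a t x ∧ a t x ≤ Ca := fun t ht x hx =>
    ⟨hcK _ (hin t ht x hx).1, (le_abs_self _).trans (hCa _ (hin t ht x hx).1)⟩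
  have hT0 : tm / 2 ∈ Ioo 0 tm := ⟨by linarith, by linarith⟩
  have hinit := CCont_init hT0.1 (hsol _ hT0).js
  -- the jet bound along the solution
  have hjet : ∀ (M : ℝ) (j : ℕ), 1 ≤ j →
      (∀ l < j, ∀ i, ∀ t ∈ Ico 0 tm, ∀ x ∈ I, |D l (f i t) x| ≤ M) →
      ∃ C, 0 ≤ C ∧ ∀ t ∈ Ico 0 tm, ∀ i, ∀ x ∈ I, |jrem d N (sl f t) j i x| ≤
        C * (om x * ∑ l, |D (j + 1) (f l t) x| +
          (if j = 2 then om x ^ 2 * ∑ l, D 2 (f l t) x ^ 2 else 0) +
          ∑ l, |D j (f l t) x| + 1) := by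
    intro M j hj hM
    obtain ⟨C, hC0, hC⟩ := hJ d O N hS K hKO hK (max M Cg) j hj
    refine ⟨C, hC0, fun t ht i x hx => ?_⟩
    obtain ⟨h1, h2⟩ := CCont_mid ht
    exact hC (sl f t) (fun i => ((hsol _ h1).js i).sm h2)
      (fun y hy => ⟨(hin t ht y hy).1, fun i => ((hin t ht y hy).2 i).trans (le_max_right _ _)⟩)
      (fun i l hl y hy => (hM l hl i t ht y hy).trans (le_max_left _ _)) i x hx
  -- the linear step
  have hstep : ∀ (M S0 : ℝ) (j : ℕ), 1 ≤ j → 0 ≤ S0 →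
      (∀ l < j, ∀ i, ∀ t ∈ Ico 0 tm, ∀ x ∈ I, |D l (f i t) x| ≤ M) →
      (j = 2 → ∀ t ∈ Ico 0 tm, ∀ x ∈ I, om x ^ 2 * ∑ l, D 2 (f l t) x ^ 2 ≤ S0) →
      ∃ C, ∀ i, ∀ t ∈ Ico 0 tm, ∀ x ∈ I, |D j (f i t) x| ≤ C := by
    intro M S0 j hj hS0 hM hq
    obtain ⟨C, hC0, hC⟩ := hjet M j hj hM
    obtain ⟨C', hC'⟩ := hL c hc0 C tm
    obtain ⟨M0, hM0, hM0'⟩ := hinit j
    refine ⟨C' * (M0 + C * (S0 + 1)), fun i t ht x hx => ?_⟩
    obtain ⟨h1, h2⟩ := CCont_mid ht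
    have hs := hsol _ h1
    refine hC' d hS.d_nonneg (j + 2) _ ⟨h1.1, h1.2.le⟩ a (fun i t => D j (f i t))
      (C * (S0 + 1)) M0 (by positivity) hM0 (fun i => (hs.js i).D h1.1 j)
      (fun s hs' y hy => (hac s (CCont_sub h1 hs') y hy).1) hM0' ?_ i t h2 x hx
    intro i s hs' y hy
    rw [CCont_box hs j i hs' hy]
    refine (hC s (CCont_sub h1 hs') i y hy).trans ?_
    simp only [CCont_dx]
    have h3 : (if j = 2 then om y ^ 2 * ∑ l, D 2 (f l s) y ^ 2 else 0) ≤ S0 := by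
      split_ifs with h
      · exact hq h s (CCont_sub h1 hs') y hy
      · exact hS0
    nlinarith [mul_le_mul_of_nonneg_left h3 hC0]
  -- the Bernstein step
  have hbern : ∀ M : ℝ, (∀ l < 2, ∀ i, ∀ t ∈ Ico 0 tm, ∀ x ∈ I, |D l (f i t) x| ≤ M) →
      ∃ S0, 0 ≤ S0 ∧ ∀ t ∈ Ico 0 tm, ∀ x ∈ I, om x ^ 2 * ∑ l, D 2 (f l t) x ^ 2 ≤ S0 := by
    intro M hM
    have hM0 : 0 ≤ M := (abs_nonneg _).trans
      (hM 0 (by norm_num) 0 0 ⟨le_rfl, htm⟩ 0 ⟨le_rfl, zero_le_one⟩)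
    obtain ⟨C1, hC10, hC1⟩ := hjet M 1 le_rfl (fun l hl => hM l (by omega))
    obtain ⟨C2, hC20, hC2⟩ := hjet M 2 (by norm_num) hM
    obtain ⟨M2, hM20, hM2⟩ := hinit 2
    set C := |Ca| + M + M2 + C1 * (3 * M + 1) + C2 with hCdef
    have hp : 0 ≤ C1 * (3 * M + 1) := by positivity
    have hCa0 := abs_nonneg Ca
    obtain ⟨C', hC'⟩ := hB d hS.d_nonneg 3 le_rfl c hc0 C tm
    refine ⟨3 * C' ^ 2, by positivity, fun t ht x hx => ?_⟩
    obtain ⟨h1, h2⟩ := CCont_mid ht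
    have hs := hsol _ h1
    have key := hC' _ ⟨h1.1, h1.2.le⟩ a (fun i t => D 1 (f i t)) (fun i => (hs.js i).D h1.1 1)
      (fun s hs' y hy => ⟨(hac s (CCont_sub h1 hs') y hy).1,
        (hac s (CCont_sub h1 hs') y hy).2.trans ((le_abs_self _).trans (by linarith))⟩)
      (fun i s hs' y hy => (hM 1 (by norm_num) i s (CCont_sub h1 hs') y hy).trans (by linarith))
      (fun i y hy => by rw [CCont_dx]; exact (hM2 i y hy).trans (by linarith))
      (fun i s hs' y hy => by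
        rw [CCont_box hs 1 i hs' hy]
        refine (hC1 s (CCont_sub h1 hs') i y hy).trans ?_
        simp only [CCont_dx]
        have h3 : ∑ l, |D 1 (f l s) y| ≤ 3 * M := by
          have := Finset.sum_le_sum (s := Finset.univ) fun l _ =>
            hM 1 (by norm_num) l s (CCont_sub h1 hs') y hy
          simpa using this
        have h4 : 0 ≤ om y * ∑ l, |D (1 + 1) (f l s) y| :=
          mul_nonneg (om_nonneg hy) (Finset.sum_nonneg fun _ _ => abs_nonneg _)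
        rw [if_neg (by norm_num)]
        set X := om y * ∑ l, |D (1 + 1) (f l s) y|
        have h5 : C1 * (X + 0 + ∑ l, |D 1 (f l s) y| + 1) ≤ C1 * (3 * M + 1) * (X + 1) := by
          rw [mul_assoc]
          refine mul_le_mul_of_nonneg_left ?_ hC10
          nlinarith [mul_nonneg hM0 h4]
        exact h5.trans (mul_le_mul_of_nonneg_right (by linarith) (by linarith)))
      (fun i s hs' y hy => by
        simp only [CCont_dx]
        rw [CCont_box hs (1 + 1) i hs' hy]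
        refine (hC2 s (CCont_sub h1 hs') i y hy).trans ?_
        rw [if_pos rfl]
        refine mul_le_mul_of_nonneg_right (by linarith) ?_
        have := om_nonneg hy
        positivity)
    have h6 : ∀ l, om x ^ 2 * D 2 (f l t) x ^ 2 ≤ C' ^ 2 := fun l => by
      have h7 := key l t h2 x hx
      rw [CCont_dx] at h7
      have h8 : 0 ≤ om x * |D (1 + 1) (f l t) x| := mul_nonneg (om_nonneg hx) (abs_nonneg _)
      have h9 := pow_le_pow_left₀ h8 h7 2
      rwa [mul_pow, sq_abs] at h9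
    rw [Finset.mul_sum]
    have := Finset.sum_le_sum (s := Finset.univ) fun l _ => h6 l
    simpa using this
  have main : ∀ k, ∃ M, ∀ l < k + 1, ∀ i, ∀ t ∈ Ico 0 tm, ∀ x ∈ I, |D l (f i t) x| ≤ M := by
    intro k
    induction k with
    | zero =>
      refine ⟨R, fun l hl i t ht x hx => ?_⟩
      obtain rfl : l = 0 := by omega
      rw [D_zero]
      exact (norm_le_pi_norm (val (sl f t) x) i).trans (hR _ (hin t ht x hx).1)
    | succ k ih =>
      obtain ⟨M, hM⟩ := ih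
      have h1 : ∃ C, ∀ i, ∀ t ∈ Ico 0 tm, ∀ x ∈ I, |D (k + 1) (f i t) x| ≤ C := by
        by_cases hk : k + 1 = 2
        · obtain ⟨S0, hS0, hS⟩ := hbern M (by rw [← hk]; exact hM)
          exact hstep M S0 (k + 1) (by omega) hS0 hM fun _ => hS
        · exact hstep M 0 (k + 1) (by omega) le_rfl hM fun h => absurd h hk
      obtain ⟨C, hC⟩ := h1
      refine ⟨max M C, fun l hl i t ht x hx => ?_⟩
      rcases Nat.lt_succ_iff_lt_or_eq.1 hl with h | h
      · exact (hM l h i t ht x hx).trans (le_max_left _ _)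
      · rw [h]; exact (hC i t ht x hx).trans (le_max_right _ _)
  intro k
  obtain ⟨M, hM⟩ := main k
  exact ⟨M, hM k (Nat.lt_succ_self k)⟩

end Vale.Agent.P244
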