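import Vale.Agent.P244.StmE

/-! P244: gluing a solution with a restarted one. -/

open Set Filter
open scoped ContDiff Topology

namespace Vale.Agent.P244

variable {d : ℝ} {O : Set (ℝ × V3)} {N : ℝ × V3 × V3 → V3} {f h : Fin 3 → Fn} {J K : Set ℝ}

/-- A solution on a set of times. -/
def CGlue_Loc (d : ℝ) (O : Set (ℝ × V3)) (N : ℝ × V3 × V3 → V3) (J : Set ℝ) (f : Fin 3 → Fn) :
    Prop :=
  (∀ i, ContDiffOn ℝ ∞ (fun p : ℝ × ℝ => f i p.1 p.2) (J ×ˢ I)) ∧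
    ∀ t ∈ J, ∀ x ∈ I, (x, val (sl f t) x) ∈ O ∧
      ∀ i, HasDerivWithinAt (fun s => f i s x) (rhs d N (sl f t) i x) J t

theorem CGlue_rhs {a b : Fin 3 → ℝ → ℝ} (e : ∀ i, ∀ y ∈ I, a i y = b i y) {x : ℝ} (hx : x ∈ I)
    (i : Fin 3) : rhs d N a i x = rhs d N b i x := by
  have h1 : val a x = val b x := funext fun l => e l x hx
  have h2 : gr a x = gr b x := funext fun l => by rw [gr, gr, d1_congr (e l) hx]
  rw [rhs, rhs, pt, pt, al, al, h1, h2, e 2 x hx, d1_congr (e i) hx,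
    d1_congr (fun y hy => d1_congr (e i) hy) hx]

theorem CGlue_congr (hf : CGlue_Loc d O N J f) (e : ∀ i, ∀ t ∈ J, ∀ x ∈ I, h i t x = f i t x) :
    CGlue_Loc d O N J h := by
  refine ⟨fun i => (hf.1 i).congr fun p hp => e i p.1 hp.1 p.2 hp.2,
    fun t ht x hx => ⟨?_, fun i => ?_⟩⟩
  · have h1 : val (sl h t) x = val (sl f t) x := funext fun l => e l t ht x hx
    rw [h1]
    exact (hf.2 t ht x hx).1
  · rw [CGlue_rhs (a := sl h t) (b := sl f t) (fun l y hy => e l t ht y hy) hx]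
    exact ((hf.2 t ht x hx).2 i).congr (fun s hs => e i s hs x hx) (e i t ht x hx)

theorem CGlue_local (hl : ∀ t ∈ K, ∃ J, t ∈ J ∧ J ∈ 𝓝[K] t ∧ CGlue_Loc d O N J h) :
    CGlue_Loc d O N K h := by
  refine ⟨fun i p hp => ?_, fun t ht x hx => ?_⟩
  · obtain ⟨J, ht, hJ, h1⟩ := hl p.1 hp.1
    refine (h1.1 i p ⟨ht, hp.2⟩).mono_of_mem_nhdsWithin ?_
    rw [nhdsWithin_prod_eq]
    exact prod_mem_prod hJ self_mem_nhdsWithin
  · obtain ⟨J, ht', hJ, h1⟩ := hl t ht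
    exact ⟨(h1.2 t ht' x hx).1, fun i => ((h1.2 t ht' x hx).2 i).mono_of_mem_nhdsWithin hJ⟩

theorem CGlue_shift {f0 : Fin 3 → ℝ → ℝ} {T c : ℝ} (hf : Sol d O N f0 T f)
    (hJ : ∀ t ∈ J, t + c ∈ Icc 0 T) : CGlue_Loc d O N J fun i t => f i (t + c) := by
  refine ⟨fun i => ContDiffOn.comp (g := fun p : ℝ × ℝ => f i p.1 p.2)
    (f := fun p : ℝ × ℝ => (p.1 + c, p.2)) (hf.js i) (by fun_prop) fun p hp => ⟨hJ _ hp.1, hp.2⟩,
    fun t ht x hx => ⟨hf.mem _ (hJ t ht) x hx, fun i => ?_⟩⟩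
  have h1 := (hf.js i).hasT (hJ t ht) hx
  rw [hf.eqn _ (hJ t ht) x hx] at h1
  have h2 := h1.comp t ((hasDerivAt_id' t).add_const c).hasDerivWithinAt hJ
  rw [mul_one] at h2
  exact h2

theorem CGlue_sol {f0 : Fin 3 → ℝ → ℝ} {T : ℝ} (hT : 0 < T) (hf : CGlue_Loc d O N (Icc 0 T) f)
    (h0 : ∀ i, ∀ x ∈ I, f i 0 x = f0 i x) : Sol d O N f0 T f :=
  ⟨hT, hf.1, h0, fun t ht x hx => (hf.2 t ht x hx).1,
    fun t ht x hx i => dt_eq hT ht ((hf.2 t ht x hx).2 i)⟩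

theorem glue (hS : StabStmt) : GlueStmt := by
  intro d O N hsys f0 T f hf ta hta S g hg hT
  have h0 : 0 < T - ta := sub_pos.2 hta.2
  have h1 : Sol d O N (sl f ta) (T - ta) fun i t => f i (t + ta) :=
    CGlue_sol h0 (CGlue_shift hf fun t ht => ⟨add_nonneg ht.1 hta.1, le_sub_iff_add_le.1 ht.2⟩)
      fun i x _ => by rw [zero_add]; rfl
  have h2 := hS.uniq d O N hsys _ _ _ _ h1 (hg.mono h0 (sub_le_iff_le_add'.2 hT))
  have hA : CGlue_Loc d O N (Icc 0 T) fun i t => if t ≤ T then f i t else g i (t + -ta) :=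
    CGlue_congr (CGlue_shift (c := 0) hf fun t ht => by rwa [add_zero]) fun i t ht x _ => by
      rw [if_pos ht.2, add_zero]
  have hB : CGlue_Loc d O N (Icc ta (ta + S))
      fun i t => if t ≤ T then f i t else g i (t + -ta) := by
    refine CGlue_congr (CGlue_shift (c := -ta) hg fun t ht =>
      ⟨by linarith [ht.1], by linarith [ht.2]⟩) fun i t ht x hx => ?_
    split_ifs with h3
    · have h4 := h2 i (t + -ta) ⟨by linarith [ht.1], by linarith⟩ x hx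
      rwa [neg_add_cancel_right] at h4
    · rfl
  refine ⟨fun i t => if t ≤ T then f i t else g i (t + -ta),
    CGlue_sol (hf.pos.trans_le hT) (CGlue_local fun t ht => ?_) fun i x hx => ?_⟩
  · rcases lt_or_ge t T with h3 | h3
    · exact ⟨Icc 0 T, ⟨ht.1, h3.le⟩, mem_of_superset (inter_mem_nhdsWithin _ (Iic_mem_nhds h3))
        fun s hs => ⟨hs.1.1, hs.2⟩, hA⟩
    · have h4 := hta.2.trans_le h3
      exact ⟨Icc ta (ta + S), ⟨h4.le, ht.2⟩,
        mem_of_superset (inter_mem_nhdsWithin _ (Ici_mem_nhds h4)) fun s hs => ⟨hs.2, hs.1.2⟩, hB⟩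
  · rw [if_pos hf.pos.le]
    exact hf.init i x hx

end Vale.Agent.P244
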