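import Vale.Agent.P244.StmE

/-! P244: the Gronwall type maximum principle and the linear estimate for systems. -/

open Set Filter
open scoped ContDiff Topology

namespace Vale.Agent.P244

theorem gron (hT : TouchStmt) (hB : BoxStmt) : GronStmt := by
  intro T u A B C S M0 h0 hu hC hS hM hAB hi hb t ht x hx
  have key : ∀ ε : ℝ, 0 < ε → u t x - (M0 + ε + (S + ε) * t) * Real.exp (C * t) < 0 := by
    intro ε hε
    set v : ℝ → ℝ := fun s => (M0 + ε + (S + ε) * s) * Real.exp (C * s) with hv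
    have hvs : JS T fun s _ => v s := JS.ofT (by rw [hv]; fun_prop)
    have hd : ∀ s, HasDerivAt v ((S + ε) * Real.exp (C * s) + C * v s) s := by
      intro s
      have h1 := (((hasDerivAt_id s).const_mul (S + ε)).const_add (M0 + ε)).mul
        ((hasDerivAt_id s).const_mul C).exp
      refine h1.congr_deriv ?_
      simp only [hv, id]
      ring
    refine hT Unit T 0 T (fun _ s y => u s y - v s) A B (fun _ => 0) (fun _ => 1) h0 le_rfl h0.le
      le_rfl (fun _ => hu.sub hvs) continuous_const continuous_const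
      (fun _ _ => ⟨le_rfl, zero_le_one, le_rfl⟩) (fun s hs y hy => (hAB s hs).1 y hy)
      (Or.inl ⟨fun _ => rfl, fun s hs => ⟨(hAB s hs).2.1, (hAB s hs).2.2.1⟩⟩)
      (Or.inl ⟨fun _ => rfl, fun s hs => (hAB s hs).2.2.2⟩) (fun _ y hy => ?_)
      (fun _ s hs y hy e _ _ => ?_) () t ht x hx
    · have := hi y hy
      simp only [hv, mul_zero, add_zero, Real.exp_zero, mul_one]
      linarith
    · have hs' : s ∈ Icc 0 T := Ioc_subset_Icc_self hs
      have e1 : u s y = v s := sub_eq_zero.1 e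
      have he : 1 ≤ Real.exp (C * s) := Real.one_le_exp (mul_nonneg hC hs'.1)
      have hv0 : 0 ≤ v s := by
        have := hs'.1
        simp only [hv]
        positivity
      have h1 := hb s hs' y hy (e1 ▸ hv0)
      rw [hB.sub T A B u (fun s _ => v s) h0 hu hvs s hs' y hy,
        hB.ofT T A B v _ h0 s hs' y hy (hd s).hasDerivWithinAt]
      rw [e1] at h1
      nlinarith
  refine le_of_forall_pos_le_add fun ε hε => ?_
  have h1 : 0 < (1 + t) * Real.exp (C * t) := by
    have := ht.1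
    positivity
  have h2 := key (ε / ((1 + t) * Real.exp (C * t))) (div_pos hε h1)
  have h3 : ε / ((1 + t) * Real.exp (C * t)) * ((1 + t) * Real.exp (C * t)) = ε :=
    div_mul_cancel₀ _ h1.ne'
  nlinarith

theorem CGronLin_cs (p : Fin 3 → ℝ) : (∑ l, |p l|) ^ 2 ≤ 3 * ∑ l, p l * p l := by
  simp only [Fin.sum_univ_three, ← abs_mul_abs_self (p _)]
  nlinarith [sq_nonneg (|p 0| - |p 1|), sq_nonneg (|p 0| - |p 2|), sq_nonneg (|p 1| - |p 2|)]

theorem CGronLin_alg {c K S a w : ℝ} (g p b : Fin 3 → ℝ) (hc : 0 < c) (hK : 0 ≤ K) (ha : c ≤ a)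
    (hw : 0 ≤ w) (hw1 : w ≤ 1)
    (hb : ∀ i, |b i| ≤ K * (w * ∑ l, |p l| + ∑ l, |g l|) + S) :
    ∑ i, (g i * b i + g i * b i - 2 * (a * w) * p i * p i) ≤
      3 * (3 * K ^ 2 / (2 * c) + 2 * K + 1) * ∑ i, g i * g i + S ^ 2 := by
  set P := ∑ l, |p l|
  set G := ∑ l, |g l| with hG
  have h1 : ∑ i, g i * b i ≤ G * (K * (w * P + G) + S) := by
    rw [hG, Finset.sum_mul]
    refine Finset.sum_le_sum fun i _ => (le_abs_self _).trans ?_
    rw [abs_mul]
    exact mul_le_mul_of_nonneg_left (hb i) (abs_nonneg _)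
  have h2 : P ^ 2 ≤ 3 * ∑ l, p l * p l := CGronLin_cs p
  have h3 : G ^ 2 ≤ 3 * ∑ l, g l * g l := CGronLin_cs g
  have hp : 0 ≤ ∑ l, p l * p l := Finset.sum_nonneg fun l _ => mul_self_nonneg _
  have e : ∑ i, (g i * b i + g i * b i - 2 * (a * w) * p i * p i) =
      2 * ∑ i, g i * b i - 2 * (a * w) * ∑ l, p l * p l := by
    simp only [Fin.sum_univ_three]
    ring
  set Q := 3 * K ^ 2 / (2 * c) with hQ
  have hQ0 : 0 ≤ Q := by positivity
  have h4 : 2 * K * G * P ≤ 2 * c / 3 * P ^ 2 + Q * G ^ 2 := by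
    have e1 : 2 * c / 3 * P ^ 2 + Q * G ^ 2 - 2 * K * G * P =
        2 * c / 3 * (P - 3 * K / (2 * c) * G) ^ 2 := by
      rw [hQ]
      field_simp
      ring
    have : 0 ≤ 2 * c / 3 * (P - 3 * K / (2 * c) * G) ^ 2 := by positivity
    linarith
  have h5 : 2 * c / 3 * P ^ 2 ≤ 2 * a * ∑ l, p l * p l := by nlinarith
  have h6 : w * (2 * K * G * P) ≤ w * (2 * a * ∑ l, p l * p l + Q * G ^ 2) :=
    mul_le_mul_of_nonneg_left (by linarith) hw
  have h7 : w * (Q * G ^ 2) ≤ Q * G ^ 2 := mul_le_of_le_one_left (by positivity) hw1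
  have h8 : (Q + 2 * K + 1) * G ^ 2 ≤ (Q + 2 * K + 1) * (3 * ∑ l, g l * g l) :=
    mul_le_mul_of_nonneg_left h3 (by positivity)
  rw [e]
  nlinarith [sq_nonneg (G - S)]

theorem lin (hG : GronStmt) (hB : BoxStmt) : LinStmt := by
  intro c hc C Tb
  set C1 := 3 * (3 * |C| ^ 2 / (2 * c) + 2 * |C| + 1) with hC1
  have hC0 : 0 ≤ C1 := by positivity
  refine ⟨(3 + Tb) * Real.exp (C1 * Tb), fun d hd j T hT a g S M0 hS hM hg ha hi hb i t ht x hx => ?_⟩
  have hgg : ∀ l, JS T fun s y => g l s y * g l s y := fun l => (hg l).mul (hg l)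
  have hu : JS T fun s y => ∑ l, g l s y * g l s y := ContDiffOn.sum fun l _ => hgg l
  have key := hG T (fun s y => ∑ l, g l s y * g l s y) (cA a) (cB d j a) C1 (S ^ 2) (3 * M0 ^ 2)
    hT.1 hu hC0 (by positivity) (by positivity) (fun s hs => ?_) (fun y hy => ?_)
    (fun s hs y hy _ => ?_) t ht x hx
  · have hTb : 0 < Tb := hT.1.trans_le hT.2
    have htb : t ≤ Tb := ht.2.trans hT.2
    have h1 : g i t x * g i t x ≤ ∑ l, g l t x * g l t x :=
      Finset.single_le_sum (f := fun l => g l t x * g l t x) (fun l _ => mul_self_nonneg _)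
        (Finset.mem_univ i)
    have h2 : Real.exp (C1 * t) ≤ Real.exp (C1 * Tb) :=
      Real.exp_le_exp.2 (mul_le_mul_of_nonneg_left htb hC0)
    have h3 : 3 * M0 ^ 2 + S ^ 2 * t ≤ (3 + Tb) * (M0 + S) ^ 2 := by
      have := mul_nonneg hM hS
      have := mul_le_mul_of_nonneg_left htb (sq_nonneg S)
      nlinarith [mul_nonneg hTb.le (sq_nonneg M0), mul_nonneg hTb.le (mul_nonneg hM hS)]
    have h4 := mul_le_mul h3 h2 (Real.exp_pos _).le (by positivity)
    have h5 : 1 ≤ (3 + Tb) * Real.exp (C1 * Tb) :=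
      one_le_mul_of_one_le_of_one_le (by linarith) (Real.one_le_exp (by positivity))
    set Q := (3 + Tb) * Real.exp (C1 * Tb) with hQ
    refine abs_le_of_sq_le_sq ?_ (by positivity)
    have h6 : g i t x ^ 2 ≤ Q * (M0 + S) ^ 2 := by
      rw [hQ]
      nlinarith
    have h7 : Q * (M0 + S) ^ 2 ≤ Q * (Q * (M0 + S) ^ 2) :=
      le_mul_of_one_le_left (by positivity) h5
    nlinarith
  · have h0 : 0 ≤ a s 0 := hc.le.trans (ha s hs 0 ⟨le_rfl, zero_le_one⟩)
    have h1 : 0 ≤ a s 1 := hc.le.trans (ha s hs 1 ⟨zero_le_one, le_rfl⟩)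
    refine ⟨fun y hy => mul_nonneg (hc.le.trans (ha s hs y hy)) (om_nonneg hy), ?_, ?_, ?_, ?_⟩
    · simp [cA, om_zero]
    · simp only [cB, be, mul_zero, sub_zero, mul_one]
      positivity
    · simp [cA, om_one]
    · have := mul_nonneg h1 (Nat.cast_nonneg (α := ℝ) j)
      simp only [cB, be]
      nlinarith
  · have h : ∀ l, g l 0 y * g l 0 y ≤ M0 ^ 2 := fun l => by
      rw [← abs_mul_abs_self, sq]
      exact mul_le_mul (hi l y hy) (hi l y hy) (abs_nonneg _) hM
    have := h 0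
    have := h 1
    have := h 2
    simp only [Fin.sum_univ_three]
    linarith
  · have e : box T (cA a) (cB d j a) (fun s y => ∑ l, g l s y * g l s y) s y =
        ∑ l, box T (cA a) (cB d j a) (fun s y => g l s y * g l s y) s y := by
      simp only [Fin.sum_univ_three]
      rw [hB.add T _ _ _ _ hT.1 ((hgg 0).add (hgg 1)) (hgg 2) s hs y hy,
        hB.add T _ _ _ _ hT.1 (hgg 0) (hgg 1) s hs y hy]
    rw [e]
    simp only [fun l => hB.mul T (cA a) (cB d j a) _ _ hT.1 (hg l) (hg l) s hs y hy]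
    refine CGronLin_alg (fun l => g l s y) (fun l => dx (g l) s y)
      (fun l => box T (cA a) (cB d j a) (g l) s y) hc (abs_nonneg C) (ha s hs y hy)
      (om_nonneg hy) (om_le.trans (by norm_num)) fun l => (hb l s hs y hy).trans ?_
    have := om_nonneg hy
    gcongr
    exact le_abs_self C

end Vale.Agent.P244
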