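import Vale.Agent.P244.StmE

/-! P244: static bounds for the remainders of the differentiated system. -/

open Set Filter Asymptotics
open scoped ContDiff Topology

namespace Vale.Agent.P244

theorem CJet_le_inf (n : ℕ) : (n : WithTop ℕ∞) ≤ ∞ := by exact_mod_cast le_top

theorem CJet_mul1 {P : Type} {u v b : P → ℝ} (hu : u =O[⊤] fun _ => (1 : ℝ)) (hv : v =O[⊤] b) :
    (fun p => u p * v p) =O[⊤] b := (hu.mul hv).congr_right fun _ => one_mul _

section Comp

variable {P E : Type} [NormedAddCommGroup E] [NormedSpace ℝ E] {U K : Set E}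
  {c : P → ℝ → E} {x : P → ℝ}

theorem CJet_step {F : Type} [NormedAddCommGroup F] [NormedSpace ℝ F] (hU : IsOpen U) {G : E → F}
    (hG : ContDiffOn ℝ ∞ G U) (hc : ∀ p, ContDiffOn ℝ ∞ (c p) I) (hcU : ∀ p, ∀ y ∈ I, c p y ∈ U)
    (hx : ∀ p, x p ∈ I) (m : ℕ) {b : P → ℝ}
    (h : ∀ l ≤ m, (fun p => ‖iteratedDerivWithin l (fun y => fderiv ℝ G (c p y)) I (x p)‖ *
      ‖iteratedDerivWithin (m - l + 1) (c p) I (x p)‖) =O[⊤] b) :
    (fun p => iteratedDerivWithin (m + 1) (fun y => G (c p y)) I (x p)) =O[⊤] b := by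
  refine IsBigO.trans (IsBigO.of_norm_le fun p => ?_) (IsBigO.fun_sum (s := Finset.range (m + 1))
    fun l hl => (h l (Nat.lt_succ_iff.1 (Finset.mem_range.1 hl))).const_mul_left (m.choose l : ℝ))
  have e : EqOn (derivWithin (fun y => G (c p y)) I)
      (fun y => fderiv ℝ G (c p y) (derivWithin (c p) I y)) I := fun y hy =>
    (HasFDerivAt.comp_hasDerivWithinAt y ((hG.contDiffAt (hU.mem_nhds (hcU p y hy))).differentiableAt
      inf_ne_zero).hasFDerivAt
      ((hc p).differentiableOn inf_ne_zero y hy).hasDerivWithinAt).derivWithin (uI y hy)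
  rw [iteratedDerivWithin_succ', iteratedDerivWithin_congr e (hx p),
    ← norm_iteratedFDerivWithin_eq_norm_iteratedDerivWithin]
  refine (norm_iteratedFDerivWithin_clm_apply
    ((hG.fderiv_of_isOpen hU inf_add_one).comp (hc p) (hcU p))
    ((hc p).derivWithin uI inf_add_one) uI (hx p) (CJet_le_inf m)).trans (le_of_eq ?_)
  refine Finset.sum_congr rfl fun l _ => ?_
  rw [norm_iteratedFDerivWithin_eq_norm_iteratedDerivWithin,
    norm_iteratedFDerivWithin_eq_norm_iteratedDerivWithin, iteratedDerivWithin_succ', mul_assoc]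
  rfl

theorem CJet_L (hU : IsOpen U) (hK : IsCompact K) (hKU : K ⊆ U)
    (hc : ∀ p, ContDiffOn ℝ ∞ (c p) I) (hcU : ∀ p, ∀ y ∈ I, c p y ∈ U)
    (hx : ∀ p, x p ∈ I) (hcK : ∀ p, c p (x p) ∈ K) (m : ℕ) :
    ∀ (F : Type) [NormedAddCommGroup F] [NormedSpace ℝ F] (G : E → F), ContDiffOn ℝ ∞ G U →
      (∀ l, 1 ≤ l → l < m → (fun p => iteratedDerivWithin l (c p) I (x p)) =O[⊤] fun _ => (1 : ℝ)) →
      (fun p => iteratedDerivWithin m (fun y => G (c p y)) I (x p)) =O[⊤]
        fun p => 1 + if m = 0 then 0 else ‖iteratedDerivWithin m (c p) I (x p)‖ := by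
  induction m using Nat.strong_induction_on with
  | _ m ih =>
  intro F _ _ G hG hb
  cases m with
  | zero =>
    obtain ⟨C, hC⟩ := hK.exists_bound_of_continuousOn (hG.continuousOn.mono hKU)
    refine isBigO_top.2 ⟨C, fun p => ?_⟩
    simpa using hC _ (hcK p)
  | succ m =>
    simp only [Nat.succ_ne_zero, if_false]
    refine CJet_step hU hG hc hcU hx m fun l hl => ?_
    have h1 := (ih l (by omega) _ _ (hG.fderiv_of_isOpen hU inf_add_one)
      fun l' h1 h2 => hb l' h1 (by omega)).norm_left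
    have one : (fun _ : P => (1 : ℝ)) =O[⊤]
        fun p => 1 + ‖iteratedDerivWithin (m + 1) (c p) I (x p)‖ :=
      IsBigO.of_norm_le fun p => by simp
    by_cases h0 : l = 0
    · subst h0
      refine CJet_mul1 (by simpa using h1) (IsBigO.of_norm_le fun p => by simp)
    · simp only [h0, if_false] at h1
      exact (CJet_mul1 (h1.trans ((isBigO_refl _ _).add (hb l (by omega) (by omega)).norm_left))
        (hb _ (by omega) (by omega)).norm_left).trans one

theorem CJet_L2 (hU : IsOpen U) (hK : IsCompact K) (hKU : K ⊆ U)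
    (hc : ∀ p, ContDiffOn ℝ ∞ (c p) I) (hcU : ∀ p, ∀ y ∈ I, c p y ∈ U)
    (hx : ∀ p, x p ∈ I) (hcK : ∀ p, c p (x p) ∈ K) {j : ℕ} (hj : 1 ≤ j)
    {F : Type} [NormedAddCommGroup F] [NormedSpace ℝ F] {G : E → F} (hG : ContDiffOn ℝ ∞ G U)
    {e : ℕ → P → ℝ} {b : P → ℝ}
    (h1 : ∀ l, (fun _ => (1 : ℝ)) =O[⊤] e l)
    (hn : ∀ l, 1 ≤ l → (fun p => iteratedDerivWithin l (c p) I (x p)) =O[⊤] e l)
    (he : ∀ l, l + 2 ≤ j → e l =O[⊤] fun _ => (1 : ℝ))
    (hb : ∀ l m, l + m = j → (fun p => e l p * e m p) =O[⊤] b) :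
    (fun p => iteratedDerivWithin j (fun y => G (c p y)) I (x p)) =O[⊤] b := by
  obtain ⟨m, rfl⟩ : ∃ m, j = m + 1 := ⟨j - 1, by omega⟩
  refine CJet_step hU hG hc hcU hx m fun l hl => ?_
  have h2 := (CJet_L hU hK hKU hc hcU hx hcK l _ _ (hG.fderiv_of_isOpen hU inf_add_one)
    fun l' h1 h2 => (hn l' h1).trans (he l' (by omega))).norm_left
  refine ((h2.trans ((h1 l).add ?_)).mul (hn _ (by omega)).norm_left).trans
    (hb l (m - l + 1) (by omega))
  by_cases h0 : l = 0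
  · simp only [h0, if_true]; exact isBigO_zero _ _
  · simp only [h0, if_false]; exact (hn l (by omega)).norm_left

end Comp

/-- Leibniz formula for a quadratic factor. -/
theorem CJet_quad {q q' g : ℝ → ℝ} {c : ℝ} (hq : ∀ y, HasDerivAt q (q' y) y)
    (hq' : ∀ y, HasDerivAt q' c y) (hg : Sm g) (l : ℕ) : ∀ x ∈ I, D l (fun y => q y * g y) x =
      q x * D l g x + l * q' x * D (l - 1) g x + l * (l - 1) / 2 * c * D (l - 2) g x := by
  induction l with
  | zero => intro x _; simp [D_zero]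
  | succ l ih =>
    intro x hx
    have hD : ∀ k, HasDerivWithinAt (D k g) (D (k + 1) g x) I x := fun k => by
      rw [D_succ]; exact (hg.D k).hasW hx
    rw [D_succ, d1_congr ih hx]
    have := ((((hq x).hasDerivWithinAt.mul (hD l)).add
      (((hq' x).const_mul (l : ℝ)).hasDerivWithinAt.mul (hD (l - 1)))).add
      ((hD (l - 2)).const_mul ((l : ℝ) * (l - 1) / 2 * c)))
    refine (d1_eq hx this).trans ?_
    rcases l with _ | _ | l
    · simp; ring
    · simp; ring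
    · simp only [Nat.add_sub_cancel, show l + 1 + 1 - 2 = l from rfl,
        show l + 1 + 1 + 1 - 2 = l + 1 from rfl]
      push_cast; ring

theorem CJet_w' (y : ℝ) : HasDerivAt (fun y : ℝ => 1 - 2 * y) (-2) y := by
  simpa using ((hasDerivAt_id y).const_mul 2).const_sub 1

theorem CJet_gr {g : ℝ → ℝ} (hg : Sm g) (l : ℕ) {x : ℝ} (hx : x ∈ I) :
    D l (fun y => om y * d1 g y) x =
      om x * D (l + 1) g x + l * ((1 - 2 * x) * D l g x) - l * (l - 1) * D (l - 1) g x := by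
  rw [CJet_quad hasDerivAt_om CJet_w' hg.d1 l x hx]
  simp only [← D_succ']
  rcases l with _ | _ | l
  · simp
  · simp
  · simp only [Nat.add_sub_cancel, show l + 1 + 1 - 2 = l from rfl]
    push_cast; ring

theorem CJet_aff {g : ℝ → ℝ} (hg : Sm g) {q : ℝ → ℝ} {c : ℝ} (hq : ∀ y, HasDerivAt q c y) (l : ℕ)
    {x : ℝ} (hx : x ∈ I) :
    D l (fun y => q y * d1 g y) x = q x * D (l + 1) g x + l * c * D l g x := by
  rw [CJet_quad hq (fun y => hasDerivAt_const y c) hg.d1 l x hx]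
  simp only [← D_succ']
  rcases l with _ | l
  · simp
  · simp

theorem CJet_add {g h : ℝ → ℝ} (hg : Sm g) (hh : Sm h) (l : ℕ) {x : ℝ} (hx : x ∈ I) :
    D l (fun y => g y + h y) x = D l g x + D l h x :=
  iteratedDerivWithin_fun_add hx uI ((hg x hx).of_le (CJet_le_inf l))
    ((hh x hx).of_le (CJet_le_inf l))

/-- The principal operator. -/
noncomputable def CJet_Lop (u : ℝ → ℝ) : ℝ → ℝ :=
  fun y => om y * d1 (d1 u) y + 2 * (1 - 2 * y) * d1 u y

theorem CJet_smL {u : ℝ → ℝ} (hu : Sm u) : Sm (CJet_Lop u) :=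
  (contDiff_om.contDiffOn.mul hu.d1.d1).add
    (ContDiffOn.mul (f := fun y : ℝ => 2 * (1 - 2 * y)) (by fun_prop) hu.d1)

theorem CJet_DL {u : ℝ → ℝ} (hu : Sm u) (l : ℕ) {x : ℝ} (hx : x ∈ I) :
    D l (CJet_Lop u) x = om x * D (l + 2) u x + (l + 2) * ((1 - 2 * x) * D (l + 1) u x) -
      l * (l + 3) * D l u x := by
  unfold CJet_Lop
  rw [CJet_add (contDiff_om.contDiffOn.mul hu.d1.d1)
    (ContDiffOn.mul (f := fun y : ℝ => 2 * (1 - 2 * y)) (by fun_prop) hu.d1) l hx,
    CJet_gr hu.d1 l hx, CJet_aff hu (fun y => (CJet_w' y).const_mul 2) l hx]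
  simp only [← D_succ']
  rcases l with _ | l
  · simp; ring
  · simp only [Nat.add_sub_cancel]; push_cast; ring

theorem CJet_smal {f : Fin 3 → ℝ → ℝ} (hf : ∀ i, Sm (f i)) : Sm (al f) :=
  ContDiffOn.mul contDiffOn_const
    (contDiffOn_const.sub (contDiff_om.contDiffOn.mul (hf 2)))

theorem CJet_Dal {f : Fin 3 → ℝ → ℝ} (hf : ∀ i, Sm (f i)) (l : ℕ) {x : ℝ} (hx : x ∈ I) :
    D (l + 1) (al f) x = -4 * (om x * D (l + 1) (f 2) x) -
      4 * (l + 1) * ((1 - 2 * x) * D l (f 2) x) + 4 * (l + 1) * l * D (l - 1) (f 2) x := by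
  have e : al f = fun y => 4 + (-4 * om y) * f 2 y := by funext y; unfold al; ring
  have h1 := CJet_quad (fun y => (hasDerivAt_om y).const_mul (-4))
    (fun y => (CJet_w' y).const_mul (-4)) (hf 2) (l + 1) x hx
  have h2 : D (l + 1) (fun y => 4 + (-4 * om y) * f 2 y) x =
      D (l + 1) (fun y => (-4 * om y) * f 2 y) x :=
    iteratedDerivWithin_const_add (Nat.succ_pos l) 4
  rw [e, h2, h1, Nat.add_sub_cancel, show l + 1 - 2 = l - 1 by omega]
  push_cast; ring

theorem CJet_smpt {f : Fin 3 → ℝ → ℝ} (hf : ∀ i, Sm (f i)) : ContDiffOn ℝ ∞ (pt f) I :=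
  contDiffOn_id.prodMk ((contDiffOn_pi.2 hf).prodMk
    (contDiffOn_pi.2 fun i => contDiff_om.contDiffOn.mul (hf i).d1))

theorem CJet_Dpt {f : Fin 3 → ℝ → ℝ} (hf : ∀ i, Sm (f i)) (l : ℕ) : ∀ x ∈ I,
    iteratedDerivWithin (l + 1) (pt f) I x = (if l = 0 then 1 else 0,
      fun i => D (l + 1) (f i) x, fun i => D (l + 1) (fun y => om y * d1 (f i) y) x) := by
  have hg : ∀ i, Sm fun y => om y * d1 (f i) y := fun i => contDiff_om.contDiffOn.mul (hf i).d1
  induction l with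
  | zero =>
    intro x hx
    rw [iteratedDerivWithin_succ, iteratedDerivWithin_zero]
    simp only [zero_add, D_one, if_true]
    exact ((hasDerivWithinAt_id x I).prodMk ((hasDerivWithinAt_pi.2 fun i => (hf i).hasW hx).prodMk
      (hasDerivWithinAt_pi.2 fun i => (hg i).hasW hx))).derivWithin (uI x hx)
  | succ l ih =>
    intro x hx
    rw [iteratedDerivWithin_succ, derivWithin_congr ih (ih x hx)]
    simp only [D_succ (l + 1), Nat.succ_ne_zero, if_false]
    exact ((hasDerivWithinAt_const x I _).prodMk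
      ((hasDerivWithinAt_pi.2 fun i => ((hf i).D _).hasW hx).prodMk
      (hasDerivWithinAt_pi.2 fun i => ((hg i).D _).hasW hx))).derivWithin (uI x hx)

theorem CJet_Dcomp {g : ℝ → V3} (hg : ContDiffOn ℝ ∞ g I) (i : Fin 3) (l : ℕ) : ∀ x ∈ I,
    D l (fun y => g y i) x = iteratedDerivWithin l g I x i := by
  induction l with
  | zero => intro x _; simp [D_zero]
  | succ l ih =>
    intro x hx
    have h1 : DifferentiableWithinAt ℝ (iteratedDerivWithin l g I) I x :=
      hg.differentiableOn_iteratedDerivWithin (by exact_mod_cast ENat.natCast_lt_top l) uI x hx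
    rw [D_succ, d1_congr ih hx, iteratedDerivWithin_succ]
    exact d1_eq hx (hasDerivWithinAt_pi.1 h1.hasDerivWithinAt i)

theorem CJet_rem {d : ℝ} {O : Set (ℝ × V3)} {N : ℝ × V3 × V3 → V3} (hS : Sys d O N)
    {f : Fin 3 → ℝ → ℝ} (hf : ∀ i, Sm (f i)) (hO : ∀ y ∈ I, pt f y ∈ lift O) (j : ℕ) (i : Fin 3)
    {x : ℝ} (hx : x ∈ I) : jrem d N f j i x =
      ∑ l ∈ Finset.range j, (j.choose (l + 1) : ℝ) *
        (D (l + 1) (al f) x * D (j - (l + 1)) (CJet_Lop (f i)) x) -
      j * (j + 3) * (al f x * D j (f i) x) - j * (2 * d + 2) * D j (f i) x +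
      iteratedDerivWithin j (fun y => N (pt f y)) I x i := by
  have hN : ContDiffOn ℝ ∞ (fun y => N (pt f y)) I := hS.smooth.comp (CJet_smpt hf) hO
  have ha := CJet_smal hf
  have hL := CJet_smL (hf i)
  have hbe : ∀ y, HasDerivAt (be d) (-(2 * d + 2)) y := fun y => by
    have := (((hasDerivAt_id y).const_sub 1).const_mul (2 * d)).sub
      ((hasDerivAt_id y).const_mul 2)
    exact this.congr_deriv (by ring)
  have s1 : Sm fun y => al f y * CJet_Lop (f i) y := ContDiffOn.mul ha hL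
  have s2 : Sm fun y => be d y * d1 (f i) y :=
    ContDiffOn.mul (f := be d) (by unfold be; fun_prop) (hf i).d1
  have e0 : rhs d N f i = fun y =>
    (al f y * CJet_Lop (f i) y + be d y * d1 (f i) y) + N (pt f y) i := rfl
  have e1 : D j (fun y => al f y * CJet_Lop (f i) y) x = ∑ l ∈ Finset.range (j + 1),
      (j.choose l : ℝ) * D l (al f) x * D (j - l) (CJet_Lop (f i)) x :=
    iteratedDerivWithin_mul hx uI ((ha x hx).of_le (CJet_le_inf j)) ((hL x hx).of_le (CJet_le_inf j))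
  unfold jrem
  rw [e0, CJet_add (ContDiffOn.add s1 s2) (contDiffOn_pi.1 hN i) j hx, CJet_add s1 s2 j hx, e1,
    Finset.sum_range_succ', CJet_aff (hf i) hbe j hx, CJet_Dcomp hN i j x hx, Nat.sub_zero,
    CJet_DL (hf i) j hx, D_zero]
  simp only [mul_assoc, Nat.choose_zero_right]
  push_cast; ring

theorem jet : JetStmt := by
  intro d O N hS K hKO hK M j hj
  let P : Type := {p : (Fin 3 → ℝ → ℝ) × ℝ // (∀ i, Sm (p.1 i)) ∧
    (∀ x ∈ I, (x, val p.1 x) ∈ K ∧ ∀ i, |gr p.1 x i| ≤ M) ∧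
    (∀ i, ∀ l < j, ∀ x ∈ I, |D l (p.1 i) x| ≤ M) ∧ p.2 ∈ I}
  let f : P → Fin 3 → ℝ → ℝ := fun p => p.1.1
  let x : P → ℝ := fun p => p.1.2
  have hf : ∀ p i, Sm (f p i) := fun p => p.2.1
  have hx : ∀ p, x p ∈ I := fun p => p.2.2.2.2
  have hw : ∀ p, 0 ≤ om (x p) := fun p => om_nonneg (hx p)
  let r : ℕ → P → ℝ := fun l p => ∑ i, |D l (f p i) (x p)|
  have r0 : ∀ l p, 0 ≤ r l p := fun l p => Finset.sum_nonneg fun _ _ => abs_nonneg _
  have hr : ∀ l i p, |D l (f p i) (x p)| ≤ r l p := fun l i p =>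
    Finset.single_le_sum (f := fun i => |D l (f p i) (x p)|) (fun _ _ => abs_nonneg _)
      (Finset.mem_univ i)
  let e : ℕ → P → ℝ := fun l p => 1 + om (x p) * r (l + 1) p + r l p + r (l - 1) p
  let s : P → ℝ := fun p => if j = 2 then om (x p) ^ 2 * ∑ l, D 2 (f p l) (x p) ^ 2 else 0
  have s0 : ∀ p, 0 ≤ s p := fun p => by simp only [s]; split_ifs <;> positivity
  let b : P → ℝ := fun p => om (x p) * r (j + 1) p + s p + r j p + 1
  have q0 : ∀ l p, 0 ≤ om (x p) * r l p := fun l p => mul_nonneg (hw p) (r0 l p)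
  have e1 : ∀ l, (fun _ => (1 : ℝ)) =O[⊤] e l := fun l => IsBigO.of_norm_le fun p => by
    simp only [e, norm_one]; linarith [q0 (l + 1) p, r0 l p, r0 (l - 1) p]
  have e2 : ∀ l i, (fun p => om (x p) * D (l + 1) (f p i) (x p)) =O[⊤] e l := fun l i =>
    IsBigO.of_norm_le fun p => by
      simp only [e, Real.norm_eq_abs, abs_mul, abs_of_nonneg (hw p)]
      linarith [mul_le_mul_of_nonneg_left (hr (l + 1) i p) (hw p), r0 l p, r0 (l - 1) p]
  have e3 : ∀ l i, (fun p => D l (f p i) (x p)) =O[⊤] e l := fun l i =>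
    IsBigO.of_norm_le fun p => by
      simp only [e, Real.norm_eq_abs]; linarith [hr l i p, q0 (l + 1) p, r0 (l - 1) p]
  have e4 : ∀ l i, (fun p => D (l - 1) (f p i) (x p)) =O[⊤] e l := fun l i =>
    IsBigO.of_norm_le fun p => by
      simp only [e, Real.norm_eq_abs]; linarith [hr (l - 1) i p, q0 (l + 1) p, r0 l p]
  have w1 : (fun p => 1 - 2 * x p) =O[⊤] fun _ => (1 : ℝ) := IsBigO.of_norm_le fun p =>
    abs_le.2 ⟨by linarith [(hx p).2], by linarith [(hx p).1]⟩
  have w2 : (fun p => om (x p)) =O[⊤] fun _ => (1 : ℝ) := IsBigO.of_norm_le fun p => by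
    rw [Real.norm_eq_abs, abs_of_nonneg (hw p)]; exact om_le.trans (by norm_num)
  have r1 : ∀ l < j, r l =O[⊤] fun _ => (1 : ℝ) := fun l hl =>
    IsBigO.fun_sum fun i _ => isBigO_top.2 ⟨M, fun p => by
      simpa using p.2.2.2.1 i l hl _ (hx p)⟩
  have b1 : (fun _ => (1 : ℝ)) =O[⊤] b := IsBigO.of_norm_le fun p => by
    simp only [b, norm_one]; linarith [q0 (j + 1) p, r0 j p, s0 p]
  have b2 : ∀ l ≤ j, r l =O[⊤] b := fun l hl => by
    rcases hl.lt_or_eq with h | h
    · exact (r1 l h).trans b1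
    · exact IsBigO.of_norm_le fun p => by
        simp only [b, h, Real.norm_eq_abs, abs_of_nonneg (r0 j p)]; linarith [q0 (j + 1) p, s0 p]
  have b3 : ∀ l ≤ j, e l =O[⊤] b := fun l hl => by
    refine ((b1.add ?_).add (b2 l hl)).add (b2 _ (by omega))
    rcases hl.lt_or_eq with h | h
    · exact CJet_mul1 w2 (b2 _ h)
    · exact IsBigO.of_norm_le fun p => by
        simp only [b, h, Real.norm_eq_abs, abs_of_nonneg (q0 (j + 1) p)]; linarith [r0 j p, s0 p]
  have he : ∀ l, l + 2 ≤ j → e l =O[⊤] fun _ => (1 : ℝ) := fun l hl =>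
    (((isBigO_refl _ _).add (CJet_mul1 w2 (r1 _ (by omega)))).add (r1 _ (by omega))).add
      (r1 _ (by omega))
  have he0 : e 0 =O[⊤] fun _ => (1 : ℝ) := by
    refine (((isBigO_refl _ _).add ?_).add (r1 _ (by omega))).add (r1 _ (by omega))
    simp only [r, Finset.mul_sum]
    refine IsBigO.fun_sum fun i _ => isBigO_top.2 ⟨M, fun p => ?_⟩
    have := (p.2.2.1 _ (hx p)).2 i
    simp only [gr, abs_mul] at this
    simpa [D_one, abs_mul] using this
  have hb : ∀ l m, l + m = j → (fun p => e l p * e m p) =O[⊤] b := by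
    intro l m hlm
    by_cases h1 : l = 0 ∨ l + 2 ≤ j
    · exact CJet_mul1 (h1.elim (fun h => h ▸ he0) (he l)) (b3 m (by omega))
    by_cases h2 : m = 0 ∨ m + 2 ≤ j
    · exact (CJet_mul1 (h2.elim (fun h => h ▸ he0) (he m)) (b3 l (by omega))).congr_left
        fun p => mul_comm _ _
    obtain ⟨rfl, rfl, hj2⟩ : l = 1 ∧ m = 1 ∧ j = 2 := by omega
    have h3 : e 1 =O[⊤] fun p => 1 + om (x p) * r 2 p := by
      have h4 : (fun _ => (1 : ℝ)) =O[⊤] fun p => 1 + om (x p) * r 2 p :=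
        IsBigO.of_norm_le fun p => by simp only [norm_one]; linarith [q0 2 p]
      exact ((isBigO_refl _ _).add ((r1 _ (by omega)).trans h4)).add ((r1 _ (by omega)).trans h4)
    refine (h3.mul h3).trans (isBigO_top.2 ⟨6, fun p => ?_⟩)
    have h5 : (om (x p) * r 2 p) ^ 2 ≤ 3 * s p := by
      simp only [s, r, if_pos hj2, Fin.sum_univ_three, mul_pow]
      have h6 : ∀ u v w : ℝ, (|u| + |v| + |w|) ^ 2 ≤ 3 * (u ^ 2 + v ^ 2 + w ^ 2) := fun u v w => by
        rw [← sq_abs u, ← sq_abs v, ← sq_abs w]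
        nlinarith [sq_nonneg (|u| - |v|), sq_nonneg (|u| - |w|), sq_nonneg (|v| - |w|)]
      nlinarith [mul_le_mul_of_nonneg_left (h6 (D 2 (f p 0) (x p)) (D 2 (f p 1) (x p))
        (D 2 (f p 2) (x p))) (sq_nonneg (om (x p)))]
    have h7 := q0 2 p
    have h8 : s p + 1 ≤ b p := by simp only [b]; linarith [q0 (j + 1) p, r0 j p]
    rw [Real.norm_eq_abs, Real.norm_eq_abs, abs_of_nonneg (by positivity),
      abs_of_nonneg (by linarith [s0 p])]
    nlinarith [sq_nonneg (om (x p) * r 2 p - 1), s0 p]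
  have hO : ∀ p, ∀ y ∈ I, pt (f p) y ∈ lift O := fun p y hy => hKO (p.2.2.1 y hy).1
  have hN : (fun p => iteratedDerivWithin j (fun y => N (pt (f p) y)) I (x p)) =O[⊤] b := by
    have hU : IsOpen (lift O) :=
      hS.isOpen.preimage (f := fun q : ℝ × V3 × V3 => (q.1, q.2.1)) (by fun_prop)
    have hK' : IsCompact ((fun q : (ℝ × V3) × V3 => (q.1.1, q.1.2, q.2)) ''
        (K ×ˢ Metric.closedBall 0 |M|)) :=
      (hK.prod (isCompact_closedBall _ _)).image (by fun_prop)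
    refine CJet_L2 (c := fun p => pt (f p)) hU hK' ?_ (fun p => CJet_smpt (hf p)) hO hx
      (fun p => ?_) hj hS.smooth e1 (fun l hl => ?_) he hb
    · rintro _ ⟨q, hq, rfl⟩
      exact hKO hq.1
    · refine ⟨((x p, val (f p) (x p)), gr (f p) (x p)), ⟨(p.2.2.1 _ (hx p)).1, ?_⟩, rfl⟩
      rw [mem_closedBall_zero_iff, pi_norm_le_iff_of_nonneg (abs_nonneg M)]
      exact fun i => ((p.2.2.1 _ (hx p)).2 i).trans (le_abs_self M)
    · obtain ⟨l, rfl⟩ : ∃ m, l = m + 1 := ⟨l - 1, by omega⟩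
      refine IsBigO.congr_left ?_ fun p => (CJet_Dpt (hf p) l _ (hx p)).symm
      refine ((isBigO_const_one ℝ _ _).trans (e1 _)).prod_left
        ((isBigO_pi.2 fun i => e3 _ i).prod_left (isBigO_pi.2 fun i => ?_))
      refine IsBigO.congr_left ?_ fun p => (CJet_gr (hf p i) (l + 1) (hx p)).symm
      exact ((e2 _ i).add ((CJet_mul1 w1 (e3 _ i)).const_mul_left _)).sub
        ((e4 _ i).const_mul_left _)
  have ha : (fun p => al (f p) (x p)) =O[⊤] fun _ => (1 : ℝ) := by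
    refine ((isBigO_refl _ _).sub (CJet_mul1 w2 ?_)).const_mul_left 4
    simpa only [D_zero] using (e3 0 2).trans he0
  have key : (fun p i => jrem d N (f p) j i (x p)) =O[⊤] b := by
    refine isBigO_pi.2 fun i => IsBigO.congr_left ?_
      fun p => (CJet_rem hS (hf p) (hO p) j i (hx p)).symm
    have hD := (e3 j i).trans (b3 j le_rfl)
    refine (((IsBigO.fun_sum fun l hl => ?_).sub ((CJet_mul1 ha hD).const_mul_left _)).sub
      (hD.const_mul_left _)).add (isBigO_pi.1 hN i)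
    have hl' := Finset.mem_range.1 hl
    refine IsBigO.const_mul_left (IsBigO.trans (IsBigO.mul ?_ ?_)
      (hb l (j - (l + 1) + 1) (by omega))) _
    · refine IsBigO.congr_left ?_ fun p => (CJet_Dal (hf p) l (hx p)).symm
      exact (((e2 l 2).const_mul_left _).sub ((CJet_mul1 w1 (e3 l 2)).const_mul_left _)).add
        ((e4 l 2).const_mul_left _)
    · refine IsBigO.congr_left ?_ fun p => (CJet_DL (hf p i) _ (hx p)).symm
      exact ((e2 _ i).add ((CJet_mul1 w1 (e3 _ i)).const_mul_left _)).sub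
        ((e4 (j - (l + 1) + 1) i).const_mul_left _)
  obtain ⟨C, hC⟩ := isBigO_top.1 key
  refine ⟨|C|, abs_nonneg _, fun g hg h1 h2 i y hy => ?_⟩
  have h3 := hC ⟨(g, y), hg, h1, h2, hy⟩
  have h4 : 0 ≤ b ⟨(g, y), hg, h1, h2, hy⟩ := by
    simp only [b]; linarith [q0 (j + 1) ⟨(g, y), hg, h1, h2, hy⟩, r0 j ⟨(g, y), hg, h1, h2, hy⟩,
      s0 ⟨(g, y), hg, h1, h2, hy⟩]
  rw [Real.norm_eq_abs, abs_of_nonneg h4] at h3
  exact ((norm_le_pi_norm _ i).trans h3).trans (mul_le_mul_of_nonneg_right (le_abs_self C) h4)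

end Vale.Agent.P244
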