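import Vale.Agent.P244.StmE

/-! P244: maximal solutions and the continuity argument. -/

open Set Filter
open scoped ContDiff Topology

namespace Vale.Agent.P244

theorem CMaxBoot_rhs {d : ℝ} {N : ℝ × V3 × V3 → V3} {f g : Fin 3 → ℝ → ℝ}
    (e : ∀ i, ∀ x ∈ I, g i x = f i x) (i : Fin 3) {x : ℝ} (hx : x ∈ I) :
    rhs d N g i x = rhs d N f i x := by
  have h1 : val g x = val f x := funext fun l => e l x hx
  have h2 : gr g x = gr f x := funext fun l => by rw [gr, gr, d1_congr (e l) hx]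
  rw [rhs, rhs, al, al, pt, pt, h1, h2, e 2 x hx, d1_congr (e i) hx,
    d1_congr (fun y hy => d1_congr (e i) hy) hx]

theorem CMaxBoot_congr {d : ℝ} {O : Set (ℝ × V3)} {N : ℝ × V3 × V3 → V3} {f0 : Fin 3 → ℝ → ℝ}
    {T : ℝ} {f g : Fin 3 → Fn} (h : Sol d O N f0 T f)
    (e : ∀ i, ∀ t ∈ Icc 0 T, ∀ x ∈ I, g i t x = f i t x) : Sol d O N f0 T g := by
  refine ⟨h.pos, fun i => (h.js i).congr (e i), fun i x hx => ?_, fun t ht x hx => ?_,
    fun t ht x hx i => ?_⟩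
  · rw [e i 0 ⟨le_rfl, h.pos.le⟩ x hx, h.init i x hx]
  · have : val (sl g t) x = val (sl f t) x := funext fun l => e l t ht x hx
    rw [this]
    exact h.mem t ht x hx
  · rw [dt_congr ht fun s hs => e i s hs x hx, h.eqn t ht x hx i]
    exact (CMaxBoot_rhs (f := sl f t) (g := sl g t) (fun l y hy => e l t ht y hy) i hx).symm

theorem CMaxBoot_unif {P : ℕ → ℝ → Prop} (mono : ∀ j a b, a ≤ b → P j a → P j b)
    (h : ∀ j, ∃ C, P j C) (k : ℕ) : ∃ C, ∀ j ≤ k, P j C := by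
  choose C hC using h
  exact ⟨∑ j ∈ Finset.range (k + 1), |C j|, fun j hj => mono j _ _ ((le_abs_self _).trans
    (Finset.single_le_sum (f := fun j => |C j|) (fun _ _ => abs_nonneg _)
      (Finset.mem_range.2 (Nat.lt_succ_of_le hj)))) (hC j)⟩

theorem maxs (hE : ExistStmt) (hS : StabStmt) (hC : ContStmt) (hG : GlueStmt) : MaxStmt := by
  intro d O N hs f0 sm hO Tb hTb
  set A : Set ℝ := {T | T ∈ Ioc 0 Tb ∧ ∃ f, Sol d O N f0 T f} with hA
  have hne : ∃ T, T ∈ A := by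
    have hc : ContinuousOn (fun x => (x, val f0 x)) I :=
      continuousOn_id.prodMk (continuousOn_pi.2 fun i => (sm i).cont)
    obtain ⟨M, hM⟩ := CMaxBoot_unif (P := fun j C => ∀ i, ∀ x ∈ I, |D j (f0 i) x| ≤ C)
      (fun j a b hab h i x hx => (h i x hx).trans hab) (fun j => by
        obtain ⟨C, hC⟩ := isCompact_Icc.exists_bound_of_continuousOn
          (continuousOn_pi.2 fun i => ((sm i).D j).cont)
        exact ⟨C, fun i x hx => (norm_le_pi_norm (fun i => D j (f0 i) x) i).trans (hC x hx)⟩) 12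
    obtain ⟨T, hT, h⟩ := hE d O N hs _ (image_subset_iff.2 hO)
      (isCompact_Icc.image_of_continuousOn hc) M
    obtain ⟨f, hf⟩ := h f0 sm (fun x hx => ⟨x, hx, rfl⟩) fun i j hj => hM j hj i
    exact ⟨min T Tb, ⟨lt_min hT hTb, min_le_right _ _⟩, f,
      hf.mono (lt_min hT hTb) (min_le_left _ _)⟩
  have hb : BddAbove A := ⟨Tb, fun T hT => hT.1.2⟩
  obtain ⟨T0, hT0⟩ := hne
  set tm := sSup A with htm
  have h0 : 0 < tm := hT0.1.1.trans_le (le_csSup hb hT0)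
  have hF : ∀ T, ∃ f, T ∈ Ioo 0 tm → Sol d O N f0 T f := by
    intro T
    by_cases hT : T ∈ Ioo 0 tm
    · obtain ⟨S, ⟨-, f, hf⟩, hS'⟩ := exists_lt_of_lt_csSup ⟨T0, hT0⟩ hT.2
      exact ⟨f, fun _ => hf.mono hT.1 hS'.le⟩
    · exact ⟨fun _ _ _ => 0, fun h => absurd h hT⟩
  choose F hF using hF
  have hf : ∀ T ∈ Ioo 0 tm, Sol d O N f0 T fun i t => F ((t + tm) / 2) i t := by
    intro T hT
    refine CMaxBoot_congr (hF T hT) fun i t ht x hx => ?_
    have h1 : (t + tm) / 2 ∈ Ioo 0 tm := ⟨by linarith [ht.1], by linarith [ht.2, hT.2]⟩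
    have h2 : 0 < min T ((t + tm) / 2) := lt_min hT.1 h1.1
    exact hS.uniq d O N hs _ f0 _ _ ((hF _ h1).mono h2 (min_le_right _ _))
      ((hF T hT).mono h2 (min_le_left _ _)) i t
      ⟨ht.1, le_min ht.2 (by linarith [ht.2, hT.2])⟩ x hx
  refine ⟨tm, ⟨h0, csSup_le ⟨T0, hT0⟩ fun T hT => hT.1.2⟩, _, hf, fun hlt K hK cK Cg hb' => ?_⟩
  set f : Fin 3 → Fn := fun i t => F ((t + tm) / 2) i t
  obtain ⟨M, hM⟩ := CMaxBoot_unif (P := fun j C => ∀ i, ∀ t ∈ Ico 0 tm, ∀ x ∈ I,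
      |D j (f i t) x| ≤ C) (fun j a b hab h i t ht x hx => (h i t ht x hx).trans hab)
    (hC d O N hs K hK cK Cg tm f0 f h0 hf hb') 12
  obtain ⟨S, hS0, h⟩ := hE d O N hs K hK cK M
  set ta := max (tm - S / 2) (tm / 2)
  have a1 : tm - S / 2 ≤ ta := le_max_left _ _
  have a2 : tm / 2 ≤ ta := le_max_right _ _
  have a3 : ta < tm := max_lt (by linarith) (by linarith)
  have hT : (ta + tm) / 2 ∈ Ioo 0 tm := ⟨by linarith, by linarith⟩
  have hta : ta ∈ Ico 0 tm := ⟨by linarith, a3⟩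
  obtain ⟨g, hg⟩ := h (sl f ta)
    (fun i => ((hf _ hT).js i).sm ⟨hta.1, by linarith⟩) (fun x hx => (hb' ta hta x hx).1)
    fun i j hj => hM j hj i ta hta
  obtain ⟨k, hk⟩ := hG d O N hs f0 _ f (hf _ hT) ta ⟨hta.1, by linarith⟩ S g hg (by linarith)
  have h3 : tm < min Tb (ta + S) := lt_min hlt (by linarith)
  exact absurd (le_csSup hb ⟨⟨h0.trans h3, min_le_left _ _⟩, k,
    hk.mono (h0.trans h3) (min_le_right _ _)⟩) (not_le.2 h3)

theorem boot : BootStmt := by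
  intro ι _ t1 u a b _ hc h0 hs i t ht
  have key : Icc 0 t1 ⊆ {t | ∀ i, ∀ x ∈ Icc (a i) (b i), u i t x ≤ 1} := by
    refine IsClosed.Icc_subset_of_forall_mem_nhdsGT_of_Icc_subset ?_ h0 fun t ht hsub => ?_
    · refine isClosed_of_closure_subset fun t ht => ?_
      have h1 : t ∈ Icc 0 t1 := closure_minimal inter_subset_right isClosed_Icc ht
      refine ⟨fun i x hx => ?_, h1⟩
      have h2 : ContinuousOn (fun s => u i s x) (Icc 0 t1) :=
        (hc i).comp (f := fun s : ℝ => (s, x)) (by fun_prop) fun s hs => ⟨hs, hx⟩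
      exact ContinuousWithinAt.closure_le ht ((h2 t h1).mono inter_subset_right)
        continuousWithinAt_const fun s hs => hs.1 i x hx
    · have h1 : t ∈ Icc 0 t1 := Ico_subset_Icc_self ht
      have h2 := hs t h1 fun i s hs => hsub hs i
      have h3 : ∀ i, ∀ᶠ r in 𝓝 t, ∀ x ∈ Icc (a i) (b i),
          (r, x) ∈ Icc 0 t1 ×ˢ Icc (a i) (b i) → u i r x < 1 := fun i =>
        isCompact_Icc.eventually_forall_of_forall_eventually fun x hx =>
          eventually_nhdsWithin_iff.1 ((hc i (t, x) ⟨h1, hx⟩).eventually (gt_mem_nhds (h2 i x hx)))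
      filter_upwards [mem_nhdsWithin_of_mem_nhds (eventually_all.2 h3), Ioc_mem_nhdsGT ht.2]
        with r hr hr' i x hx
      exact (hr i x hx ⟨⟨ht.1.trans hr'.1.le, hr'.2⟩, hx⟩).le
  exact key ht i

end Vale.Agent.P244
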