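import Vale.Agent.P244.StmE

/-! P244: stability and uniqueness. -/

open Set Filter
open scoped ContDiff Topology

namespace Vale.Agent.P244

theorem CStab_lip {d : ℝ} {O : Set (ℝ × V3)} {N : ℝ × V3 × V3 → V3} (h : Sys d O N)
    {K : Set (ℝ × V3)} (hKO : K ⊆ O) (hK : IsCompact K) (R : ℝ) : ∃ L : ℝ, 0 ≤ L ∧
    ∀ q q' : ℝ × V3 × V3, (q.1, q.2.1) ∈ K → (q'.1, q'.2.1) ∈ K → q.2.2 ∈ Metric.closedBall 0 R →
      q'.2.2 ∈ Metric.closedBall 0 R → ∀ i, |N q i - N q' i| ≤ L * dist q q' := by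
  have hp : Continuous fun q : ℝ × V3 × V3 => ((q.1, q.2.1) : ℝ × V3) := by fun_prop
  have h1 : IsCompact ((fun z : (ℝ × V3) × V3 => ((z.1.1, z.1.2, z.2) : ℝ × V3 × V3)) ''
      (K ×ˢ Metric.closedBall 0 R)) :=
    (hK.prod (isCompact_closedBall 0 R)).image (by fun_prop)
  obtain ⟨L, hL⟩ := LocallyLipschitzOn.exists_lipschitzOnWith_of_compact (f := N) h1 (by
    rintro _ ⟨z, hz, rfl⟩
    obtain ⟨L, t, ht, h2⟩ := ((h.smooth.contDiffAt ((h.isOpen.preimage hp).mem_nhds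
      (x := (z.1.1, z.1.2, z.2)) (hKO hz.1))).of_le one_le_inf).exists_lipschitzOnWith
    exact ⟨L, t, mem_nhdsWithin_of_mem_nhds ht, h2⟩)
  refine ⟨L, L.2, fun q q' a1 a2 a3 a4 i => (dist_le_pi_dist (N q) (N q') i).trans ?_⟩
  exact hL.dist_le_mul q ⟨((q.1, q.2.1), q.2.2), ⟨a1, a3⟩, rfl⟩ q'
    ⟨((q'.1, q'.2.1), q'.2.2), ⟨a2, a4⟩, rfl⟩

theorem CStab_dx {T t x : ℝ} {u v : Fn} (hu : JS T u) (hv : JS T v) (ht : t ∈ Icc 0 T)
    (hx : x ∈ I) : dx (fun t x => u t x - v t x) t x = dx u t x - dx v t x :=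
  d1_eq hx ((hu.hasXW ht hx).sub (hv.hasXW ht hx))

theorem CStab_dxx {T t x : ℝ} {u v : Fn} (hT : 0 < T) (hu : JS T u) (hv : JS T v)
    (ht : t ∈ Icc 0 T) (hx : x ∈ I) :
    dx (dx fun t x => u t x - v t x) t x = dx (dx u) t x - dx (dx v) t x :=
  (d1_congr (fun _ hy => CStab_dx hu hv ht hy) hx).trans (CStab_dx (hu.dx hT) (hv.dx hT) ht hx)

theorem CStab_dt {T t x : ℝ} {u v : Fn} (hT : 0 < T) (hu : JS T u) (hv : JS T v)
    (ht : t ∈ Icc 0 T) (hx : x ∈ I) :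
    dt T (fun t x => u t x - v t x) t x = dt T u t x - dt T v t x :=
  dt_eq hT ht ((hu.hasT ht hx).sub (hv.hasT ht hx))

theorem CStab_stab (hL : LinStmt) : ∀ d O N, Sys d O N → ∀ K ⊆ O, IsCompact K → ∀ Cg Tb : ℝ,
    ∃ C, 0 ≤ C ∧ ∀ T ≤ Tb, ∀ f0 f0' f f', Sol d O N f0 T f → Sol d O N f0' T f' →
    (∀ t ∈ Icc 0 T, ∀ x ∈ I, (x, val (sl f t) x) ∈ K ∧ (x, val (sl f' t) x) ∈ K ∧ ∀ i,
      |gr (sl f t) x i| ≤ Cg ∧ |dx (f' i) t x| ≤ Cg ∧ |dx (dx (f' i)) t x| ≤ Cg) →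
    ∀ ε, (∀ i, ∀ x ∈ I, |f0 i x - f0' i x| ≤ ε) →
    ∀ i, ∀ t ∈ Icc 0 T, ∀ x ∈ I, |f i t x - f' i t x| ≤ C * ε := by
  intro d O N h K hKO hK Cg Tb
  have hc : Continuous fun p : ℝ × V3 => 4 * (1 - om p.1 * p.2 2) := by
    unfold om
    fun_prop
  obtain ⟨c, hc0, hc1⟩ := hK.exists_forall_le' (a := 0) hc.continuousOn
    fun p hp => mul_pos four_pos (h.pos p (hKO hp))
  obtain ⟨L, hL0, hL1⟩ := CStab_lip h hKO hK Cg
  obtain ⟨C', hC'⟩ := hL c hc0 (3 * Cg + L) Tb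
  refine ⟨max C' 0, le_max_right _ _, fun T hT f0 f0' f f' s1 s2 hb ε hε i t ht x hx => ?_⟩
  have hε0 : 0 ≤ ε := (abs_nonneg _).trans (hε 0 0 (left_mem_Icc.2 zero_le_one))
  have key := hC' d h.d_nonneg 2 T ⟨s1.pos, hT⟩ (fun t x => al (sl f t) x)
    (fun i t x => f i t x - f' i t x) 0 ε le_rfl hε0 (fun i => (s1.js i).sub (s2.js i))
    (fun t ht x hx => hc1 (x, val (sl f t) x) (hb t ht x hx).1)
    (fun i x hx => by
      show |f i 0 x - f' i 0 x| ≤ ε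
      rw [s1.init i x hx, s2.init i x hx]
      exact hε i x hx)
    (fun i t ht x hx => by
      obtain ⟨b1, b2, b3⟩ := hb t ht x hx
      have w0 := om_nonneg hx
      have w1 := om_le (x := x)
      have hCg : 0 ≤ Cg := (abs_nonneg _).trans (b3 0).1
      have e1 : box T (cA fun t x => al (sl f t) x) (cB d 2 fun t x => al (sl f t) x)
          (fun t x => f i t x - f' i t x) t x =
          -(4 * om x * (f 2 t x - f' 2 t x)) *
            (om x * dx (dx (f' i)) t x + 2 * (1 - 2 * x) * dx (f' i) t x) +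
          (N (pt (sl f t) x) i - N (pt (sl f' t) x) i) := by
        rw [box, CStab_dt s1.pos (s1.js i) (s2.js i) ht hx,
          CStab_dxx s1.pos (s1.js i) (s2.js i) ht hx, CStab_dx (s1.js i) (s2.js i) ht hx,
          s1.eqn t ht x hx, s2.eqn t ht x hx]
        simp only [rhs, cA, cB, al, sl, dx]
        push_cast
        ring
      set P := ∑ l, |dx (fun t x => f l t x - f' l t x) t x| with hP
      set Q := ∑ l, |f l t x - f' l t x| with hQ
      have p0 : 0 ≤ P := Finset.sum_nonneg fun _ _ => abs_nonneg _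
      have q0 : 0 ≤ Q := Finset.sum_nonneg fun _ _ => abs_nonneg _
      have p1 : ∀ l, |dx (fun t x => f l t x - f' l t x) t x| ≤ P := fun l =>
        Finset.single_le_sum (f := fun l => |dx (fun t x => f l t x - f' l t x) t x|)
          (fun _ _ => abs_nonneg _) (Finset.mem_univ l)
      have q1 : ∀ l, |f l t x - f' l t x| ≤ Q := fun l =>
        Finset.single_le_sum (f := fun l => |f l t x - f' l t x|)
          (fun _ _ => abs_nonneg _) (Finset.mem_univ l)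
      have wp := mul_nonneg w0 p0
      have e2 := hL1 (pt (sl f t) x) (pt (sl f' t) x) b1 b2
        (mem_closedBall_zero_iff.2 ((pi_norm_le_iff_of_nonneg hCg).2 fun l => (b3 l).1))
        (mem_closedBall_zero_iff.2 ((pi_norm_le_iff_of_nonneg hCg).2 fun l => by
          show |om x * dx (f' l) t x| ≤ Cg
          rw [abs_mul, abs_of_nonneg w0]
          nlinarith [(b3 l).2.1, abs_nonneg (dx (f' l) t x)])) i
      have e3 : dist (pt (sl f t) x) (pt (sl f' t) x) ≤ om x * P + Q := by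
        rw [pt, pt, Prod.dist_eq, Prod.dist_eq, dist_self]
        refine max_le (by linarith) (max_le ?_ ?_)
        · exact (dist_pi_le_iff (by linarith)).2 fun l => (q1 l).trans (by linarith)
        · refine (dist_pi_le_iff (by linarith)).2 fun l => ?_
          show |om x * dx (f l) t x - om x * dx (f' l) t x| ≤ _
          rw [← mul_sub, abs_mul, abs_of_nonneg w0, ← CStab_dx (s1.js l) (s2.js l) ht hx]
          nlinarith [mul_le_mul_of_nonneg_left (p1 l) w0]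
      have e4 : |-(4 * om x * (f 2 t x - f' 2 t x))| ≤ Q := by
        rw [abs_neg, abs_mul, abs_of_nonneg (by linarith : 0 ≤ 4 * om x)]
        nlinarith [q1 2, abs_nonneg (f 2 t x - f' 2 t x)]
      have e5 : |om x * dx (dx (f' i)) t x + 2 * (1 - 2 * x) * dx (f' i) t x| ≤ 3 * Cg := by
        refine (abs_add_le _ _).trans ?_
        have a1 : |2 * (1 - 2 * x)| ≤ 2 := abs_le.2 ⟨by linarith [hx.2], by linarith [hx.1]⟩
        rw [abs_mul, abs_mul (2 * (1 - 2 * x)), abs_of_nonneg w0]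
        nlinarith [(b3 i).2.2, abs_nonneg (dx (dx (f' i)) t x),
          mul_le_mul a1 (b3 i).2.1 (abs_nonneg _) zero_le_two]
      rw [e1]
      refine (abs_add_le _ _).trans ?_
      rw [abs_mul]
      nlinarith [mul_le_mul e4 e5 (abs_nonneg _) q0, mul_le_mul_of_nonneg_left e3 hL0,
        mul_nonneg hCg wp])
    i t ht x hx
  rw [add_zero] at key
  exact key.trans (mul_le_mul_of_nonneg_right (le_max_left _ _) hε0)

theorem CStab_bdd {T : ℝ} {u : Fin 3 → Fn} (h : ∀ i, JS T (u i)) :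
    ∃ C, 0 ≤ C ∧ ∀ i, ∀ t ∈ Icc 0 T, ∀ x ∈ I, |u i t x| ≤ C := by
  choose C hC using fun i => (h i).bdd
  exact ⟨∑ i, |C i|, Finset.sum_nonneg fun _ _ => abs_nonneg _, fun i t ht x hx =>
    (hC i t ht x hx).trans ((le_abs_self _).trans (Finset.single_le_sum (f := fun i => |C i|)
      (fun _ _ => abs_nonneg _) (Finset.mem_univ i)))⟩

theorem CStab_cpt {d : ℝ} {O : Set (ℝ × V3)} {N : ℝ × V3 × V3 → V3} {f0 : Fin 3 → ℝ → ℝ} {T : ℝ}
    {f : Fin 3 → Fn} (h : Sol d O N f0 T f) : ∃ K ⊆ O, IsCompact K ∧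
      ∀ t ∈ Icc 0 T, ∀ x ∈ I, (x, val (sl f t) x) ∈ K := by
  refine ⟨(fun p : ℝ × ℝ => ((p.2, val (sl f p.1) p.2) : ℝ × V3)) '' (Icc 0 T ×ˢ I), ?_,
    (isCompact_Icc.prod isCompact_Icc).image_of_continuousOn
      (continuousOn_snd.prodMk (continuousOn_pi.2 fun i => (h.js i).cont)),
    fun t ht x hx => ⟨(t, x), ⟨ht, hx⟩, rfl⟩⟩
  rintro _ ⟨p, hp, rfl⟩
  exact h.mem p.1 hp.1 p.2 hp.2

theorem stab (hL : LinStmt) : StabStmt := by
  refine ⟨CStab_stab hL, fun d O N h T f0 f f' s1 s2 i t ht x hx => ?_⟩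
  obtain ⟨K, k1, k2, k3⟩ := CStab_cpt s1
  obtain ⟨K', k1', k2', k3'⟩ := CStab_cpt s2
  obtain ⟨C1, c1, d1⟩ := CStab_bdd fun i =>
    (JS.ofX contDiff_om.contDiffOn).mul ((s1.js i).dx s1.pos)
  obtain ⟨C2, c2, d2⟩ := CStab_bdd fun i => (s2.js i).dx s1.pos
  obtain ⟨C3, c3, d3⟩ := CStab_bdd fun i => ((s2.js i).dx s1.pos).dx s1.pos
  obtain ⟨C, -, hC⟩ := CStab_stab hL d O N h (K ∪ K') (union_subset k1 k1') (k2.union k2')
    (C1 + C2 + C3) T
  have := hC T le_rfl f0 f0 f f' s1 s2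
    (fun t ht x hx => ⟨Or.inl (k3 t ht x hx), Or.inr (k3' t ht x hx), fun i =>
      ⟨(d1 i t ht x hx).trans (by linarith), (d2 i t ht x hx).trans (by linarith),
        (d3 i t ht x hx).trans (by linarith)⟩⟩) 0 (fun i x _ => by simp) i t ht x hx
  rw [mul_zero] at this
  exact sub_eq_zero.1 (abs_nonpos_iff.1 this)

end Vale.Agent.P244
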