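import Vale.Agent.P244.StmE

/-! P244: the first touching principle. -/

open Set Filter
open scoped ContDiff Topology

namespace Vale.Agent.P244

theorem CTouch_left {g : ℝ → ℝ} {c a b : ℝ} {S : Set ℝ} (h : HasDerivWithinAt g c S b)
    (hab : a < b) (hS : Ioo a b ⊆ S) (hle : ∀ᶠ s in 𝓝[<] b, g s ≤ g b) : 0 ≤ c := by
  have h1 := (hasDerivWithinAt_iff_tendsto_slope' (by simp)).1 (h.mono hS)
  rw [nhdsWithin_Ioo_eq_nhdsLT hab] at h1
  refine ge_of_tendsto h1 ?_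
  filter_upwards [hle, self_mem_nhdsWithin] with s h2 h3
  rw [slope_def_field]
  exact div_nonneg_of_nonpos (sub_nonpos.2 h2) (sub_nonpos.2 (le_of_lt h3))

theorem CTouch_right {g : ℝ → ℝ} {c a b : ℝ} {S : Set ℝ} (h : HasDerivWithinAt g c S a)
    (hab : a < b) (hS : Ioo a b ⊆ S) (hle : ∀ᶠ s in 𝓝[>] a, g s ≤ g a) : c ≤ 0 := by
  have h1 := (hasDerivWithinAt_iff_tendsto_slope' (by simp)).1 (h.mono hS)
  rw [nhdsWithin_Ioo_eq_nhdsGT hab] at h1
  refine le_of_tendsto h1 ?_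
  filter_upwards [hle, self_mem_nhdsWithin] with s h2 h3
  rw [slope_def_field]
  exact div_nonpos_of_nonpos_of_nonneg (sub_nonpos.2 h2) (sub_nonneg.2 (le_of_lt h3))

theorem CTouch_second {g : ℝ → ℝ} {x : ℝ} (hg : Sm g) (hx : x ∈ Ioo (0 : ℝ) 1) (h0 : d1 g x = 0)
    (hm : IsLocalMax g x) : d1 (d1 g) x ≤ 0 := by
  by_contra hc
  have h1 : deriv g =ᶠ[𝓝 x] d1 g := by
    filter_upwards [Ioo_mem_nhds hx.1 hx.2] with y hy using (hg.has hy).deriv
  have h2 : deriv (deriv g) x = d1 (d1 g) x := by rw [h1.deriv_eq, (hg.d1.has hx).deriv]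
  have h3 := isLocalMin_of_deriv_deriv_pos (f := g) (x₀ := x) (by rw [h2]; exact not_le.1 hc)
    (by rw [h1.self_of_nhds, h0]) (hg.has hx).continuousAt
  have h4 : g =ᶠ[𝓝 x] fun _ => g x := (hm.and h3).mono fun y hy => le_antisymm hy.1 hy.2
  have h5 : deriv g =ᶠ[𝓝 x] fun _ => 0 := by
    filter_upwards [h4.eventuallyEq_nhds] with y hy
    rw [hy.deriv_eq, deriv_const]
  rw [h5.deriv_eq, deriv_const] at h2
  exact hc h2.ge

theorem touch : TouchStmt := by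
  intro ι _ T ta tb u A B l r hT h0 hab hb hu hl hr hlr hA hL hR hinit H
  by_contra hc
  push Not at hc
  obtain ⟨i₀, t₀, ht₀, x₀, hx₀, hu₀⟩ := hc
  set R : Set (ℝ × ℝ) := {p | p.1 ∈ Icc ta tb ∧ p.2 ∈ Icc (l p.1) (r p.1)} with hRd
  have hsub : ∀ t ∈ Icc ta tb, ∀ x ∈ Icc (l t) (r t), t ∈ Icc 0 T ∧ x ∈ I := fun t ht x hx =>
    ⟨⟨h0.trans ht.1, ht.2.trans hb⟩, (hlr t ht).1.trans hx.1, hx.2.trans (hlr t ht).2.2⟩
  have hRc : IsClosed R :=
    (isClosed_Icc.preimage continuous_fst).inter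
      ((isClosed_le (hl.comp continuous_fst) continuous_snd).inter
        (isClosed_le continuous_snd (hr.comp continuous_fst)))
  have hS : IsCompact (⋃ i, R ∩ (fun p : ℝ × ℝ => u i p.1 p.2) ⁻¹' Ici 0) := by
    refine ((isCompact_Icc (a := 0) (b := T)).prod (isCompact_Icc (a := 0) (b := 1))
      ).of_isClosed_subset (isClosed_iUnion_of_finite fun i => ?_)
      (iUnion_subset fun i p hp => hsub _ hp.1.1 _ hp.1.2)
    exact ((hu i).cont.mono fun p hp => hsub _ hp.1 _ hp.2).preimage_isClosed_of_isClosed hRc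
      isClosed_Ici
  obtain ⟨⟨t, x⟩, hp, hmin⟩ := hS.exists_isMinOn ⟨(t₀, x₀), mem_iUnion.2 ⟨i₀, ⟨ht₀, hx₀⟩, hu₀⟩⟩
    continuous_fst.continuousOn
  obtain ⟨i, ⟨ht, hx⟩, hux⟩ := mem_iUnion.1 hp
  replace hux : 0 ≤ u i t x := hux
  simp only at ht hx
  have hneg : ∀ j, ∀ s ∈ Ico ta t, ∀ y ∈ Icc (l s) (r s), u j s y < 0 := by
    intro j s hs y hy
    by_contra h1
    have : t ≤ s := hmin (mem_iUnion.2 ⟨j, (⟨⟨hs.1, hs.2.le.trans ht.2⟩, hy⟩ : (s, y) ∈ R),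
      not_lt.1 h1⟩)
    exact absurd hs.2 (not_lt.2 this)
  have hta : ta < t := lt_of_le_of_ne ht.1 fun he => by
    subst he
    exact absurd (hinit i x hx) (not_lt.2 hux)
  have hle : ∀ j, ∀ y ∈ Icc (l t) (r t), u j t y ≤ 0 := by
    intro j y hy
    have a1 : Continuous fun s => ((s, max (l s) (min y (r s))) : ℝ × ℝ) := by fun_prop
    have a2 : ∀ s ∈ Ico ta t, max (l s) (min y (r s)) ∈ Icc (l s) (r s) := fun s hs =>
      ⟨le_max_left _ _, max_le (hlr s ⟨hs.1, hs.2.le.trans ht.2⟩).2.1 (min_le_right _ _)⟩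
    have a3 : Tendsto (fun s => ((s, max (l s) (min y (r s))) : ℝ × ℝ)) (𝓝[Ico ta t] t)
        (𝓝[Icc 0 T ×ˢ I] (t, y)) := by
      refine tendsto_nhdsWithin_iff.2 ⟨?_, eventually_mem_nhdsWithin.mono fun s hs =>
        hsub s ⟨hs.1, hs.2.le.trans ht.2⟩ _ (a2 s hs)⟩
      have := (a1.tendsto t).mono_left (nhdsWithin_le_nhds (s := Ico ta t))
      rwa [min_eq_left hy.2, max_eq_right hy.1] at this
    have := right_nhdsWithin_Ico_neBot hta
    exact le_of_tendsto (((hu j).cont (t, y) (hsub t ht y hy)).tendsto.comp a3)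
      (eventually_mem_nhdsWithin.mono fun s hs => (hneg j s hs _ (a2 s hs)).le)
  have hz : u i t x = 0 := le_antisymm (hle i x hx) hux
  obtain ⟨htT, hxI⟩ := hsub t ht x hx
  have hP : l t < x ∨ x = 0 ∧ (∀ s, l s = 0) ∧ A t 0 = 0 ∧ 0 ≤ B t 0 := by
    rcases hx.1.lt_or_eq with h1 | h1
    · exact Or.inl h1
    · rcases hL with h2 | h2
      · exact Or.inr ⟨h1.symm.trans (h2.1 t), h2.1, h2.2 t ht⟩
      · exact absurd (h1 ▸ h2 i t ht) (not_lt.2 hux)
  have hQ : x < r t ∨ x = 1 ∧ (∀ s, r s = 1) ∧ A t 1 = 0 ∧ B t 1 ≤ 0 := by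
    rcases hx.2.lt_or_eq with h1 | h1
    · exact Or.inl h1
    · rcases hR with h2 | h2
      · exact Or.inr ⟨h1.trans (h2.1 t), h2.1, h2.2 t ht⟩
      · exact absurd (h1 ▸ h2 i t ht) (not_lt.2 hux)
  have hdt : 0 ≤ dt T (u i) t x := by
    refine CTouch_left ((hu i).hasT htT hxI) hta
      (fun s hs => ⟨h0.trans hs.1.le, hs.2.le.trans htT.2⟩) ?_
    have a1 : ∀ᶠ s in 𝓝 t, l s ≤ x := by
      rcases hP with h1 | h1
      · exact (hl.continuousAt.eventually (gt_mem_nhds h1)).mono fun s hs => hs.le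
      · exact Eventually.of_forall fun s => by rw [h1.2.1, h1.1]
    have a2 : ∀ᶠ s in 𝓝 t, x ≤ r s := by
      rcases hQ with h1 | h1
      · exact (hr.continuousAt.eventually (lt_mem_nhds h1)).mono fun s hs => hs.le
      · exact Eventually.of_forall fun s => by rw [h1.2.1, h1.1]
    filter_upwards [mem_nhdsWithin_of_mem_nhds a1, mem_nhdsWithin_of_mem_nhds a2,
      Ioo_mem_nhdsLT hta] with s b1 b2 b3
    rw [hz]
    exact (hneg i s ⟨b3.1.le, b3.2⟩ x ⟨b1, b2⟩).le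
  have hd1 : l t < x → 0 ≤ dx (u i) t x := fun h1 => by
    refine CTouch_left ((hu i).hasXW htT hxI) h1
      (fun y hy => (hsub t ht y ⟨hy.1.le, hy.2.le.trans hx.2⟩).2) ?_
    filter_upwards [Ioo_mem_nhdsLT h1] with y hy
    rw [hz]
    exact hle i y ⟨hy.1.le, hy.2.le.trans hx.2⟩
  have hd2 : x < r t → dx (u i) t x ≤ 0 := fun h1 => by
    refine CTouch_right ((hu i).hasXW htT hxI) h1
      (fun y hy => (hsub t ht y ⟨hx.1.trans hy.1.le, hy.2.le⟩).2) ?_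
    filter_upwards [Ioo_mem_nhdsGT h1] with y hy
    rw [hz]
    exact hle i y ⟨hx.1.trans hy.1.le, hy.2.le⟩
  have hbox := H i t ⟨hta, ht.2⟩ x hx hz
    (fun j s hs y hy => by
      rcases hs.2.lt_or_eq with h1 | h1
      · exact (hneg j s ⟨hs.1, h1⟩ y hy).le
      · subst h1
        exact hle j y hy)
    (fun h1 h2 => le_antisymm (hd2 (hQ.resolve_right fun h => h2.ne h.1))
      (hd1 (hP.resolve_right fun h => h1.ne' h.1)))
  rw [box] at hbox
  rcases hP with h1 | h1 <;> rcases hQ with h2 | h2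
  · have a1 : dx (u i) t x = 0 := le_antisymm (hd2 h2) (hd1 h1)
    have a2 : dx (dx (u i)) t x ≤ 0 :=
      CTouch_second ((hu i).sm htT) ⟨(hlr t ht).1.trans_lt h1, h2.trans_le (hlr t ht).2.2⟩ a1 (by
        filter_upwards [Icc_mem_nhds h1 h2] with y hy
        rw [hz]
        exact hle i y hy)
    rw [a1] at hbox
    nlinarith [mul_nonneg (hA t ht x hx) (neg_nonneg.2 a2)]
  · obtain ⟨rfl, -, a1, a2⟩ := h2
    rw [a1] at hbox
    nlinarith [mul_nonneg (neg_nonneg.2 a2) (hd1 h1)]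
  · obtain ⟨rfl, -, a1, a2⟩ := h1
    rw [a1] at hbox
    nlinarith [mul_nonneg a2 (neg_nonneg.2 (hd2 h2))]
  · exact zero_ne_one (h1.1.symm.trans h2.1)

end Vale.Agent.P244
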