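import Vale.Agent.P244.Sys

/-! P244: elementary facts on the cutoffs. -/

open Set Filter
open scoped ContDiff Topology

namespace Vale.Agent.P244

theorem ch_zero {x : ℝ} (h : x ≤ 1 / 4) : ch x = 0 :=
  Real.smoothTransition.zero_of_nonpos (by linarith)

theorem ch_one {x : ℝ} (h : 1 / 2 ≤ x) : ch x = 1 :=
  Real.smoothTransition.one_of_one_le (by linarith)

theorem ch_pos {x : ℝ} (h : 1 / 4 < x) : 0 < ch x :=
  Real.smoothTransition.pos_of_pos (by linarith)

theorem ch_nonneg (x : ℝ) : 0 ≤ ch x := Real.smoothTransition.nonneg _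

theorem ch_le (x : ℝ) : ch x ≤ 1 := Real.smoothTransition.le_one _

theorem gam_zero {x : ℝ} (h : x ≤ 1 / 2) : gam x = 0 :=
  Real.smoothTransition.zero_of_nonpos (by linarith)

theorem gam_one {x : ℝ} (h : 3 / 4 ≤ x) : gam x = 1 :=
  Real.smoothTransition.one_of_one_le (by linarith)

theorem gam_nonneg (x : ℝ) : 0 ≤ gam x := Real.smoothTransition.nonneg _

theorem gam_le (x : ℝ) : gam x ≤ 1 := Real.smoothTransition.le_one _

theorem contDiff_ch : ContDiff ℝ ∞ ch :=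
  Real.smoothTransition.contDiff.comp (by fun_prop)

theorem contDiff_gam : ContDiff ℝ ∞ gam :=
  Real.smoothTransition.contDiff.comp (by fun_prop)

theorem contDiff_ph0 (d : ℝ) : ContDiff ℝ ∞ (ph0 d) := by
  have := contDiff_ch
  unfold ph0; fun_prop

theorem contDiff_deriv {g : ℝ → ℝ} (h : ContDiff ℝ ∞ g) : ContDiff ℝ ∞ (deriv g) :=
  (contDiff_infty_iff_deriv.1 h).2

/-- A function that is affine near `x`. -/
theorem deriv_of_affine {g : ℝ → ℝ} {U : Set ℝ} (hU : IsOpen U) {a b : ℝ}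
    (h : ∀ y ∈ U, g y = a + b * y) {x : ℝ} (hx : x ∈ U) :
    deriv g x = b ∧ deriv (deriv g) x = 0 := by
  have h1 : ∀ y ∈ U, deriv g y = b := fun y hy => by
    have e : g =ᶠ[𝓝 y] fun y => a + b * y := by
      filter_upwards [hU.mem_nhds hy] with z hz using h z hz
    rw [e.deriv_eq]
    exact (by simpa using ((hasDerivAt_id y).const_mul b).const_add a :
      HasDerivAt (fun y => a + b * y) b y).deriv
  refine ⟨h1 x hx, ?_⟩
  have e : deriv g =ᶠ[𝓝 x] fun _ => b := by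
    filter_upwards [hU.mem_nhds hx] with z hz using h1 z hz
  rw [e.deriv_eq]; simp

theorem dgam_left {x : ℝ} (h : x < 1 / 2) : deriv gam x = 0 ∧ deriv (deriv gam) x = 0 :=
  deriv_of_affine (a := 0) isOpen_Iio (fun y (hy : y < 1 / 2) => by simp [gam_zero hy.le]) h

theorem dgam_right {x : ℝ} (h : 3 / 4 < x) : deriv gam x = 0 ∧ deriv (deriv gam) x = 0 :=
  deriv_of_affine (a := 1) isOpen_Ioi (fun y (hy : 3 / 4 < y) => by simp [gam_one hy.le]) h

theorem ph0_left (d : ℝ) {x : ℝ} (h : x ≤ 1 / 4) : ph0 d x = x / d := by simp [ph0, ch_zero h]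

theorem ph0_right (d : ℝ) {x : ℝ} (h : 1 / 2 ≤ x) : ph0 d x = 1 - x := by simp [ph0, ch_one h]

theorem dph0_left (d : ℝ) {x : ℝ} (h : x < 1 / 4) :
    deriv (ph0 d) x = 1 / d ∧ deriv (deriv (ph0 d)) x = 0 :=
  deriv_of_affine (a := 0) isOpen_Iio
    (fun y (hy : y < 1 / 4) => by rw [ph0_left d hy.le]; ring) h

theorem dph0_right (d : ℝ) {x : ℝ} (h : 1 / 2 < x) :
    deriv (ph0 d) x = -1 ∧ deriv (deriv (ph0 d)) x = 0 :=
  deriv_of_affine (a := 1) isOpen_Ioi
    (fun y (hy : 1 / 2 < y) => by rw [ph0_right d hy.le]; ring) h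

theorem gam_dph0 (d x : ℝ) : gam x * (deriv (ph0 d) x + 1) = 0 := by
  rcases le_or_gt x (1 / 2) with h | h
  · simp [gam_zero h]
  · simp [(dph0_right d h).1]

theorem ph0_pos {d x : ℝ} (hd : 0 < d) (h0 : 0 < x) (h1 : x < 1) : 0 < ph0 d x := by
  have a := ch_nonneg x
  have b := ch_le x
  have c : 0 < x / d := div_pos h0 hd
  unfold ph0
  rcases a.eq_or_lt with e | e
  · rw [← e]; simpa using c
  · have := mul_pos e (sub_pos.2 h1)
    have := mul_nonneg (sub_nonneg.2 b) c.le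
    linarith

/-- On the domain, `Ψ > 0` for `x > 0` and `Φ > 0` for `x < 1`. -/
theorem PsP_pos {d : ℝ} {p : ℝ × V3} (hp : p ∈ Om d) (h : 0 < p.1) : 0 < PsP p := by
  rcases hp.2.1 with e | e
  · simpa [PsP, Ps, gam_zero (by linarith : p.1 ≤ 1 / 2)] using h
  · exact e

theorem PhP_pos {d : ℝ} {p : ℝ × V3} (hp : p ∈ Om d) (h : p.1 < 1) : 0 < PhP d p := by
  rcases hp.2.2.1 with e | e
  · simpa [PhP, Ph, gam_one e.le, ph0_right d (by linarith : 1 / 2 ≤ p.1)] using h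
  · exact e

theorem aa_pos {d : ℝ} {p : ℝ × V3} (hp : p ∈ Om d) : 0 < aa p := hp.1

theorem PhP_left (d : ℝ) {p : ℝ × V3} (h : p.1 ≤ 1 / 4) : PhP d p = p.1 / d + p.2 0 := by
  simp [PhP, Ph, ph0_left d h, gam_zero (by linarith : p.1 ≤ 1 / 2)]

theorem bs_pt (g : Fin 3 → ℝ → ℝ) (x : ℝ) : bs (pt g x) = (x, val g x) := rfl

end Vale.Agent.P244
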