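import Vale.Agent.P244.StmE

/-! P244: product and commutator estimates in the weighted norms. -/

open Set Filter
open scoped ContDiff Topology

namespace Vale.Agent.P244

theorem EAlg_leib {g h : ℝ → ℝ} (hg : Sm g) (hh : Sm h) (j : ℕ) {x : ℝ} (hx : x ∈ I) :
    D j (fun y => g y * h y) x =
      ∑ i ∈ Finset.range (j + 1), (j.choose i : ℝ) * D i g x * D (j - i) h x :=
  iteratedDerivWithin_mul hx uI ((hg x hx).of_le (by exact_mod_cast le_top))
    ((hh x hx).of_le (by exact_mod_cast le_top))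

theorem EAlg_cont {g : ℝ → ℝ} (hg : Sm g) (m j : ℕ) :
    ContinuousOn (fun x => om x ^ m * D j g x ^ 2) I :=
  (contDiff_om.continuous.continuousOn.pow m).mul ((hg.D j).cont.pow 2)

theorem EAlg_int {F : ℝ → ℝ} (h : ContinuousOn F I) :
    IntervalIntegrable F MeasureTheory.volume 0 1 := h.intervalIntegrable_of_Icc zero_le_one

/-- product term -/
noncomputable def EAlg_P (e i l : ℕ) (g h : ℝ → ℝ) : ℝ :=
  ∫ x in (0 : ℝ)..1, om x ^ (i + e) * D i g x ^ 2 * (om x ^ (l + 0) * D l h x ^ 2)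

theorem EAlg_supL {g h : ℝ → ℝ} (hg : Sm g) (hh : Sm h) {e i l : ℕ} {S : ℝ}
    (hS : ∀ x ∈ I, om x ^ (i + e) * D i g x ^ 2 ≤ S) : EAlg_P e i l g h ≤ S * TT 0 l h := by
  rw [TT, ← intervalIntegral.integral_const_mul]
  exact intervalIntegral.integral_mono_on zero_le_one
    (EAlg_int ((EAlg_cont hg _ _).mul (EAlg_cont hh _ _)))
    ((EAlg_int (EAlg_cont hh _ _)).const_mul S) fun x hx =>
      mul_le_mul_of_nonneg_right (hS x hx) (mul_nonneg (pow_nonneg (om_nonneg hx) _) (sq_nonneg _))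

theorem EAlg_supR {g h : ℝ → ℝ} (hg : Sm g) (hh : Sm h) {e i l : ℕ} {S : ℝ}
    (hS : ∀ x ∈ I, om x ^ (l + 0) * D l h x ^ 2 ≤ S) : EAlg_P e i l g h ≤ TT e i g * S := by
  rw [TT, ← intervalIntegral.integral_mul_const]
  exact intervalIntegral.integral_mono_on zero_le_one
    (EAlg_int ((EAlg_cont hg _ _).mul (EAlg_cont hh _ _)))
    ((EAlg_int (EAlg_cont hg _ _)).mul_const S) fun x hx =>
      mul_le_mul_of_nonneg_left (hS x hx) (mul_nonneg (pow_nonneg (om_nonneg hx) _) (sq_nonneg _))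

theorem EAlg_sum {g h F : ℝ → ℝ} (hg : Sm g) (hh : Sm h) {e j : ℕ} {s : Finset ℕ}
    (hs : s ⊆ Finset.range (j + 1)) {B : ℝ} (hB : 0 ≤ B)
    (hF : ∀ x ∈ I, F x = ∑ i ∈ s, (j.choose i : ℝ) * D i g x * D (j - i) h x)
    (hP : ∀ i ∈ s, EAlg_P e i (j - i) g h ≤ B) :
    ∫ x in (0 : ℝ)..1, om x ^ (j + e) * F x ^ 2 ≤ (j + 1) ^ 2 * 4 ^ j * B := by
  have hc : (s.card : ℝ) ≤ j + 1 := by
    exact_mod_cast (Finset.card_le_card hs).trans_eq (Finset.card_range _)
  have i1 : ∀ i ∈ s, IntervalIntegrable (fun x => (j + 1 : ℝ) * 4 ^ j *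
      (om x ^ (i + e) * D i g x ^ 2 * (om x ^ (j - i + 0) * D (j - i) h x ^ 2)))
      MeasureTheory.volume 0 1 := fun i _ =>
    (EAlg_int ((EAlg_cont hg _ _).mul (EAlg_cont hh _ _))).const_mul _
  have i2 := IntervalIntegrable.sum s i1
  rw [Finset.sum_fn] at i2
  have cF : ContinuousOn F I := ContinuousOn.congr (continuousOn_finsetSum s fun i _ =>
    (continuousOn_const.mul (hg.D i).cont).mul (hh.D (j - i)).cont) hF
  refine (intervalIntegral.integral_mono_on (f := fun x => om x ^ (j + e) * F x ^ 2) zero_le_one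
    (EAlg_int ((contDiff_om.continuous.continuousOn.pow _).mul (cF.pow 2))) i2
      fun x hx => ?_).trans ?_
  · have h0 := om_nonneg hx
    rw [hF x hx]
    refine (mul_le_mul_of_nonneg_left (sq_sum_le_card_mul_sum_sq.trans
      (mul_le_mul_of_nonneg_right hc (Finset.sum_nonneg fun i _ => sq_nonneg _)))
      (pow_nonneg h0 _)).trans ?_
    rw [Finset.mul_sum, Finset.mul_sum]
    refine Finset.sum_le_sum fun i hi => ?_
    have hi' : i ≤ j := Nat.lt_succ_iff.1 (Finset.mem_range.1 (hs hi))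
    have h1 : (j.choose i : ℝ) ^ 2 ≤ 4 ^ j := by
      rw [show (4 : ℝ) = 2 ^ 2 by norm_num, ← pow_mul, mul_comm, pow_mul]
      have : (j.choose i : ℝ) ≤ 2 ^ j := by exact_mod_cast Nat.choose_le_two_pow j i
      gcongr
    rw [show j + e = i + e + (j - i + 0) by omega, pow_add]
    calc _ = (j + 1 : ℝ) * (j.choose i : ℝ) ^ 2 *
          (om x ^ (i + e) * D i g x ^ 2 * (om x ^ (j - i + 0) * D (j - i) h x ^ 2)) := by ring
      _ ≤ _ := by gcongr
  · rw [intervalIntegral.integral_finsetSum i1]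
    refine (Finset.sum_le_card_nsmul s _ ((j + 1 : ℝ) * 4 ^ j * B) fun i hi => ?_).trans ?_
    · rw [intervalIntegral.integral_const_mul]
      exact mul_le_mul_of_nonneg_left (hP i hi) (by positivity)
    · rw [nsmul_eq_mul]
      exact (mul_le_mul_of_nonneg_right hc (by positivity)).trans_eq (by ring)

theorem EAlg_nn (hH : HardyStmt) (e k : ℕ) (g : ℝ → ℝ) : 0 ≤ NN e k g :=
  Finset.sum_nonneg fun j _ => hH.nonneg e j g

theorem EAlg_TT (hH : HardyStmt) (e : ℕ) {j k : ℕ} (h : j ≤ k) (g : ℝ → ℝ) :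
    TT e j g ≤ NN e k g :=
  Finset.single_le_sum (f := fun j => TT e j g) (fun j _ => hH.nonneg e j g)
    (Finset.mem_range.2 (Nat.lt_succ_of_le h))

theorem EAlg_sup (hH : HardyStmt) (e k : ℕ) : ∃ C, 0 ≤ C ∧ ∀ j ≤ k, ∀ m, j + 2 ≤ m → ∀ g, Sm g →
    ∀ x ∈ I, om x ^ (j + e) * D j g x ^ 2 ≤ C * NN e m g := by
  choose C h0 hC using hH.sup e
  refine ⟨∑ j ∈ Finset.range (k + 1), C j, Finset.sum_nonneg fun j _ => h0 j,
    fun j hj m hm g hg x hx => (hC j g hg x hx).trans (mul_le_mul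
      (Finset.single_le_sum (fun j _ => h0 j) (Finset.mem_range.2 (Nat.lt_succ_of_le hj)))
      (hH.mono _ _ _ _ hm) (EAlg_nn hH _ _ _) (Finset.sum_nonneg fun j _ => h0 j))⟩

theorem alg (hH : HardyStmt) : AlgStmt := by
  refine ⟨fun e k => ?_, fun k hk => ?_⟩
  · obtain ⟨C₁, p1, h1⟩ := EAlg_sup hH e k
    obtain ⟨C₂, p2, h2⟩ := EAlg_sup hH 0 k
    refine ⟨(∑ j ∈ Finset.range (k + 1), (j + 1 : ℝ) ^ 2 * 4 ^ j) * (C₁ + C₂), by positivity,
      fun g h hg hh => ?_⟩
    have n1 := EAlg_nn hH e k g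
    have n2 := EAlg_nn hH 0 (k / 2 + 2) h
    have n3 := EAlg_nn hH e (k / 2 + 2) g
    have n4 := EAlg_nn hH 0 k h
    rw [mul_assoc, Finset.sum_mul, NN]
    refine Finset.sum_le_sum fun j hj => EAlg_sum hg hh subset_rfl (by positivity)
      (fun x hx => EAlg_leib hg hh j hx) fun i hi => ?_
    rw [Finset.mem_range] at hi hj
    have q1 := mul_nonneg n1 n2
    have q2 := mul_nonneg n3 n4
    by_cases hl : j - i ≤ k / 2
    · have h3 := (EAlg_supR hg hh (e := e) (i := i)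
        (h2 (j - i) (by omega) (k / 2 + 2) (by omega) h hh)).trans
        (mul_le_mul_of_nonneg_right (EAlg_TT hH e (show i ≤ k by omega) g) (by positivity))
      nlinarith [mul_nonneg p1 q1, mul_nonneg p1 q2, mul_nonneg p2 q2]
    · have h3 := (EAlg_supL hg hh (l := j - i)
        (h1 i (by omega) (k / 2 + 2) (by omega) g hg)).trans
        (mul_le_mul_of_nonneg_left (EAlg_TT hH 0 (show j - i ≤ k by omega) h) (by positivity))
      nlinarith [mul_nonneg p1 q1, mul_nonneg p2 q1, mul_nonneg p2 q2]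
  · obtain ⟨C, p, h1⟩ := EAlg_sup hH 0 k
    refine ⟨(k + 1) ^ 2 * 4 ^ k * C, by positivity, fun a g ha hg j hj => ?_⟩
    have n1 := EAlg_nn hH 0 k a
    have n2 := EAlg_nn hH 0 (k - 3) g
    have n3 := EAlg_nn hH 0 (k - 1) a
    have n4 := EAlg_nn hH 0 (k - 2) g
    have q1 := mul_nonneg n1 n2
    have q2 := mul_nonneg n3 n4
    refine (EAlg_sum ha hg (e := 0) (j := j) (s := Finset.Ico 2 (j + 1))
      (B := C * (NN 0 k a * NN 0 (k - 3) g + NN 0 (k - 1) a * NN 0 (k - 2) g))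
      (fun i hi => Finset.mem_range.2 (Finset.mem_Ico.1 hi).2) (by positivity)
      (fun x hx => ?_) fun i hi => ?_).trans ?_
    · rw [EAlg_leib ha hg j hx]
      rcases j with _ | j
      · simp [D_zero]
      · rw [Finset.range_eq_Ico, Finset.sum_eq_sum_Ico_succ_bot (by omega),
          Finset.sum_eq_sum_Ico_succ_bot (by omega)]
        simp only [zero_add, D_zero, D_one, Nat.choose_zero_right, Nat.choose_one_right,
          Nat.cast_one, one_mul, Nat.sub_zero]
        ring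
    · rw [Finset.mem_Ico] at hi
      by_cases hl : j - i + 5 ≤ k
      · have h3 := (EAlg_supR ha hg (e := 0) (i := i)
          (h1 (j - i) (by omega) (k - 3) (by omega) g hg)).trans
          (mul_le_mul_of_nonneg_right (EAlg_TT hH 0 (show i ≤ k by omega) a) (by positivity))
        nlinarith [mul_nonneg p q2]
      · have h3 := (EAlg_supL ha hg (l := j - i)
          (h1 i (by omega) (k - 1) (by omega) a ha)).trans
          (mul_le_mul_of_nonneg_left (EAlg_TT hH 0 (show j - i ≤ k - 2 by omega) g)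
            (by positivity))
        nlinarith [mul_nonneg p q1]
    · rw [mul_assoc ((k + 1 : ℝ) ^ 2 * 4 ^ k)]
      have : (j : ℝ) ≤ k := by exact_mod_cast hj
      gcongr
      norm_num

end Vale.Agent.P244
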