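import Vale.Agent.P244.StmE

/-! P244: continuous derivatives in each variable give joint smoothness. -/

open Set Filter Asymptotics
open scoped ContDiff Topology

namespace Vale.Agent.P244

theorem EClosed_fd {T : ℝ} {u v z : Fn}
    (hz : ContinuousOn (fun p : ℝ × ℝ => z p.1 p.2) (Icc 0 T ×ˢ I))
    (hv : ∀ t ∈ Icc 0 T, ∀ x ∈ I, HasDerivWithinAt (u t) (v t x) I x)
    (ht : ∀ t ∈ Icc 0 T, ∀ x ∈ I, HasDerivWithinAt (fun s => u s x) (z t x) (Icc 0 T) t)
    {p : ℝ × ℝ} (hp : p ∈ Icc 0 T ×ˢ I) :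
    HasFDerivWithinAt (fun p : ℝ × ℝ => u p.1 p.2)
      (z p.1 p.2 • ContinuousLinearMap.fst ℝ ℝ ℝ + v p.1 p.2 • ContinuousLinearMap.snd ℝ ℝ ℝ)
      (Icc 0 T ×ˢ I) p := by
  have h2 : HasFDerivWithinAt (fun q : ℝ × ℝ => u p.1 q.2)
      (v p.1 p.2 • ContinuousLinearMap.snd ℝ ℝ ℝ) (Icc 0 T ×ˢ I) p :=
    (hv p.1 hp.1 p.2 hp.2).comp_hasFDerivWithinAt p hasFDerivWithinAt_snd fun q hq => hq.2
  have h1 : HasFDerivWithinAt (fun q : ℝ × ℝ => u q.1 q.2 - u p.1 q.2)
      (z p.1 p.2 • ContinuousLinearMap.fst ℝ ℝ ℝ) (Icc 0 T ×ˢ I) p := by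
    refine hasFDerivWithinAt_iff_isLittleO.2 (isLittleO_iff.2 fun ε hε => ?_)
    obtain ⟨δ, hδ, H⟩ := Metric.continuousWithinAt_iff.1 (hz p hp) ε hε
    filter_upwards [self_mem_nhdsWithin, mem_nhdsWithin_of_mem_nhds (Metric.ball_mem_nhds p hδ)]
      with q hq hd
    rw [Metric.mem_ball, Prod.dist_eq, max_lt_iff] at hd
    have h3 := ((convex_Icc (0 : ℝ) T).inter (convex_ball p.1 δ))
      |>.norm_image_sub_le_of_norm_hasDerivWithin_le (f := fun s => u s q.2 - z p.1 p.2 * s)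
      (f' := fun s => z s q.2 - z p.1 p.2) (C := ε) (x := p.1) (y := q.1)
      (fun s hs => ((ht s hs.1 q.2 hq.2).mono inter_subset_left).sub
        (by simpa using ((hasDerivAt_id s).const_mul (z p.1 p.2)).hasDerivWithinAt))
      (fun s hs => by
        have := H (x := (s, q.2)) ⟨hs.1, hq.2⟩ (by
          rw [Prod.dist_eq, max_lt_iff]
          exact ⟨hs.2, hd.2⟩)
        exact this.le)
      ⟨hp.1, Metric.mem_ball_self hδ⟩ ⟨hq.1, hd.1⟩
    refine le_trans (le_of_eq ?_) (h3.trans (mul_le_mul_of_nonneg_left (norm_fst_le (q - p)) hε.le))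
    congr 1
    change u q.1 q.2 - u p.1 q.2 - (u p.1 p.2 - u p.1 p.2) - z p.1 p.2 * (q.1 - p.1) = _
    ring
  exact (h1.add h2).congr (fun q _ => (sub_add_cancel _ _).symm) (sub_add_cancel _ _).symm

theorem closed : ClosedStmt := by
  intro T A hT h
  have key : ∀ n : ℕ, ∀ u ∈ A, ContDiffOn ℝ n (fun p : ℝ × ℝ => u p.1 p.2) (Icc 0 T ×ˢ I) := by
    intro n
    induction n with
    | zero => exact fun u hu => contDiffOn_zero.2 (h u hu).1
    | succ n ih =>
      intro u hu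
      obtain ⟨-, ⟨v, hv, h1⟩, z, hz, h2⟩ := h u hu
      have hd := fun p hp => EClosed_fd (h z hz).1 h1 h2 (p := p) hp
      refine contDiffOn_succ_of_fderivWithin (n := n) (fun p hp => (hd p hp).differentiableWithinAt)
        (by simp) ?_
      exact (((ih z hz).smul contDiffOn_const).add ((ih v hv).smul contDiffOn_const)).congr
        fun p hp => (hd p hp).fderivWithin (uP hT p hp)
  exact fun u hu => contDiffOn_infty.2 fun n => key n u hu

end Vale.Agent.P244
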