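import Vale.Agent.P244.StmE

/-! P244: tame estimate for compositions. -/

open Set Filter
open scoped ContDiff Topology

namespace Vale.Agent.P244

variable {ι : Type} [Fintype ι] [DecidableEq ι]

theorem EComp_nn (hH : HardyStmt) (e k : ℕ) (g : ℝ → ℝ) : 0 ≤ NN e k g :=
  Finset.sum_nonneg fun j _ => hH.nonneg e j g

omit [Fintype ι] in
theorem EComp_sum (hH : HardyStmt) (e k : ℕ) {f : ι → ℝ → ℝ} (hf : ∀ i, Sm (f i)) (s : Finset ι) :
    NN e k (fun x => ∑ i ∈ s, f i x) ≤ 2 ^ s.card * ∑ i ∈ s, NN e k (f i) := by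
  induction s using Finset.induction_on with
  | empty =>
    simpa using hH.of_bound e k (fun _ => 0) 0 contDiffOn_const fun j _ x _ => by simp [D]
  | insert a s ha ih =>
    simp only [Finset.sum_insert ha, Finset.card_insert_of_notMem ha, pow_succ]
    have h1 := hH.add e k (f a) (fun x => ∑ i ∈ s, f i x) (hf a) (ContDiffOn.sum fun i _ => hf i)
    have h2 : (1 : ℝ) ≤ 2 ^ s.card := one_le_pow₀ one_le_two
    nlinarith [EComp_nn hH e k (f a)]

omit [DecidableEq ι] in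
theorem EComp_sm {G : (ι → ℝ) → ℝ} (hG : ContDiff ℝ ∞ G) {u : ι → ℝ → ℝ} (hu : ∀ i, Sm (u i)) :
    Sm fun x => G fun i => u i x := hG.comp_contDiffOn (contDiffOn_pi.2 hu)

theorem EComp_d1 {G : (ι → ℝ) → ℝ} (hG : ContDiff ℝ ∞ G) {u : ι → ℝ → ℝ} (hu : ∀ i, Sm (u i))
    {x : ℝ} (hx : x ∈ I) : d1 (fun x => G fun i => u i x) x =
      ∑ i, d1 (u i) x * fderiv ℝ G (fun i => u i x) (Pi.single i 1) := by
  have h1 := (hG.differentiable inf_ne_zero _).hasFDerivAt.comp_hasDerivWithinAt x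
    (hasDerivWithinAt_pi.2 fun i => (hu i).hasW hx)
  refine (d1_eq hx h1).trans ?_
  rw [pi_eq_sum_univ' fun i => d1 (u i) x]
  simp only [map_sum, map_smul, smul_eq_mul]

omit [DecidableEq ι] in
theorem EComp_base (hH : HardyStmt) {G : (ι → ℝ) → ℝ} (hG : ContDiff ℝ ∞ G) {Mb : ℝ}
    (hM : 0 ≤ Mb) : ∃ C, 0 ≤ C ∧ ∀ u : ι → ℝ → ℝ, (∀ i, Sm (u i)) → (∀ i, NN 0 8 (u i) ≤ Mb) →
      NN 0 3 (fun x => G fun i => u i x) ≤ C := by
  choose c c0 hc using hH.usup
  set M := 1 + ∑ j ∈ Finset.range 4, c j * Mb with hM'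
  have hs : ∀ j ≤ 3, c j * Mb ≤ M - 1 := fun j hj => by
    rw [hM', add_sub_cancel_left]
    exact Finset.single_le_sum (f := fun j => c j * Mb) (fun j _ => mul_nonneg (c0 j) hM)
      (Finset.mem_range.2 (by omega))
  have M1 : 1 ≤ M := by linarith [hs 0 (by omega), mul_nonneg (c0 0) hM]
  have hb : ∀ j : ℕ, ∃ K, ∀ v ∈ Metric.closedBall (0 : ι → ℝ) M, ‖iteratedFDeriv ℝ j G v‖ ≤ K :=
    fun j => (isCompact_closedBall 0 M).exists_bound_of_continuousOn
      (hG.continuous_iteratedFDeriv (by exact_mod_cast le_top)).continuousOn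
  choose K hK using hb
  refine ⟨((3 : ℕ) + 1) * (6 * (∑ j ∈ Finset.range 4, |K j|) * M ^ 3) ^ 2, by positivity,
    fun u hu hb => hH.of_bound 0 3 _ _ (EComp_sm hG hu) fun j hj x hx => ?_⟩
  have h1 : ∀ l ≤ 3, ∀ i, |D l (u i) x| ≤ M := fun l hl i => by
    have h2 := (hc l _ (hu i) x hx).trans (mul_le_mul_of_nonneg_left
      ((hH.mono 0 _ 8 _ (by omega)).trans (hb i)) (c0 l))
    refine abs_le_of_sq_le_sq (h2.trans ?_) (by linarith)
    nlinarith [hs l hl]
  have hf : ContDiffOn ℝ ∞ (fun x i => u i x) I := contDiffOn_pi.2 hu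
  have h2 := norm_iteratedFDerivWithin_comp_le (n := j) hG.contDiffOn hf (by exact_mod_cast le_top)
    uniqueDiffOn_univ uI (mapsTo_univ _ _) hx (C := ∑ j ∈ Finset.range 4, |K j|) (D := M)
    (fun l hl => ?_) (fun l l1 hl => ?_)
  · rw [norm_iteratedFDerivWithin_eq_norm_iteratedDerivWithin] at h2
    refine h2.trans ?_
    have h3 : (j.factorial : ℝ) ≤ 6 := by exact_mod_cast Nat.factorial_le hj
    gcongr
  · rw [iteratedFDerivWithin_univ]
    refine ((hK l _ ?_).trans (le_abs_self _)).trans (Finset.single_le_sum (f := fun j => |K j|)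
      (fun j _ => abs_nonneg _) (Finset.mem_range.2 (by omega)))
    rw [mem_closedBall_zero_iff, pi_norm_le_iff_of_nonneg (by linarith)]
    simpa only [D_zero, Real.norm_eq_abs] using h1 0 (by omega)
  · rw [norm_iteratedFDerivWithin_eq_norm_iteratedDerivWithin]
    refine ((pi_norm_le_iff_of_nonneg (by linarith)).2 fun i => ?_).trans
      (le_self_pow₀ M1 (by omega))
    have h3 := (ContinuousLinearMap.proj i : (ι → ℝ) →L[ℝ] ℝ).iteratedFDerivWithin_comp_left
      (hf x hx) uI hx (i := l) (by exact_mod_cast le_top)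
    exact (congrArg (fun L => |L fun _ => (1 : ℝ)|) h3).symm.trans_le (h1 l (by omega) i)

theorem EComp_main (hH : HardyStmt) (hA : AlgStmt) {k : ℕ} (hk : 10 ≤ k) {Mb : ℝ} (hM : 0 ≤ Mb)
    (m : ℕ) : m ≤ k → ∀ G : (ι → ℝ) → ℝ, ContDiff ℝ ∞ G → ∃ C, 0 ≤ C ∧ ∀ u : ι → ℝ → ℝ,
      (∀ i, Sm (u i)) → (∀ i, NN 0 (k - 2) (u i) ≤ Mb) →
      NN 0 m (fun x => G fun i => u i x) ≤ C * (1 + ∑ i, NN 0 m (u i)) := by
  induction m using Nat.strong_induction_on with
  | _ m ih =>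
  intro hm G hG
  obtain ⟨CB, CB0, hB⟩ := EComp_base hH hG hM
  have hB' := fun (u : ι → ℝ → ℝ) hu (hb : ∀ i, NN 0 (k - 2) (u i) ≤ Mb) =>
    hB u hu fun i => (hH.mono 0 8 _ _ (by omega)).trans (hb i)
  have hS : ∀ (u : ι → ℝ → ℝ) j, 0 ≤ ∑ i, NN 0 j (u i) := fun u j =>
    Finset.sum_nonneg fun i _ => EComp_nn hH _ _ _
  by_cases h3 : m ≤ 3
  · refine ⟨CB, CB0, fun u hu hb => ((hH.mono 0 m 3 _ h3).trans (hB' u hu hb)).trans ?_⟩
    exact le_mul_of_one_le_right CB0 (by linarith [hS u m])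
  obtain ⟨l, rfl⟩ : ∃ l, m = l + 1 := ⟨m - 1, by omega⟩
  have hG' : ∀ i : ι, ContDiff ℝ ∞ fun v => fderiv ℝ G v (Pi.single i 1) := fun i =>
    (hG.fderiv_right inf_add_one).clm_apply contDiff_const
  choose C1 p1 h1 using fun i => ih (l / 2 + 2) (by omega) (by omega) _ (hG' i)
  choose C2 p2 h2 using fun i => ih l (by omega) (by omega) _ (hG' i)
  obtain ⟨Ca, pa, ha⟩ := hA.alg 1 l
  have pK : ∀ i, 0 ≤ Ca * (C1 i * (1 + ∑ _j : ι, Mb) + Mb * C2 i) := fun i => by
    have := p1 i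
    have := p2 i
    positivity
  refine ⟨CB + 2 ^ Fintype.card ι * ∑ i, Ca * (C1 i * (1 + ∑ _j : ι, Mb) + Mb * C2 i),
    add_nonneg CB0 (mul_nonneg (by positivity) (Finset.sum_nonneg fun i _ => pK i)),
    fun u hu hb => ?_⟩
  have e0 : TT 0 0 (fun x => G fun i => u i x) ≤ CB := by
    simpa [NN] using (hH.mono 0 0 3 _ (by omega)).trans (hB' u hu hb)
  have e1 : ∀ i j, NN 1 j (d1 (u i)) ≤ NN 0 (j + 1) (u i) := fun i j => by
    linarith [hH.shift 0 j (u i), hH.nonneg 0 0 (u i)]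
  rw [hH.shift, hH.congr _ _ _ _ fun x hx => EComp_d1 hG hu hx, add_mul, mul_assoc,
    Finset.sum_mul]
  refine add_le_add (e0.trans (le_mul_of_one_le_right CB0 (by linarith [hS u (l + 1)])))
    ((EComp_sum hH _ _ (fun i => ContDiffOn.mul (hu i).d1 (EComp_sm (hG' i) hu)) _).trans
      (mul_le_mul_of_nonneg_left (Finset.sum_le_sum fun i _ => ?_) (by positivity)))
  refine (ha _ _ (hu i).d1 (EComp_sm (hG' i) hu)).trans ?_
  rw [mul_assoc, add_mul]
  refine mul_le_mul_of_nonneg_left (add_le_add ?_ ?_) pa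
  · rw [mul_comm]
    refine mul_le_mul ((h1 i u hu hb).trans (mul_le_mul_of_nonneg_left (add_le_add_right
      (Finset.sum_le_sum fun j _ => (hH.mono 0 _ _ _ (by omega)).trans (hb j)) _) (p1 i)))
      ((e1 i l).trans ?_) (EComp_nn hH _ _ _) (mul_nonneg (p1 i) (by positivity))
    linarith [Finset.single_le_sum (f := fun i => NN 0 (l + 1) (u i))
      (fun i _ => EComp_nn hH _ _ _) (Finset.mem_univ i)]
  · rw [mul_assoc]
    exact mul_le_mul (((e1 i _).trans (hH.mono 0 _ _ _ (by omega))).trans (hb i))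
      ((h2 i u hu hb).trans (mul_le_mul_of_nonneg_left (add_le_add_right
        (Finset.sum_le_sum fun j _ => hH.mono 0 _ _ _ (by omega)) _) (p2 i)))
      (EComp_nn hH _ _ _) hM

theorem comp (hH : HardyStmt) (hA : AlgStmt) : CompStmt := by
  intro G hG k hk Mb
  have h0 := EComp_nn hH 0 k id
  obtain ⟨C, C0, h⟩ := EComp_main (ι := Option (Fin 3 ⊕ Fin 3)) hH hA hk
    (Mb := |Mb| + NN 0 k id) (by positivity) k le_rfl
    (fun v => G (v none, fun i => v (some (.inl i)), fun i => v (some (.inr i))))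
    (hG.comp (by fun_prop))
  refine ⟨C * (1 + NN 0 k id), by positivity, fun a b hs hb => ?_⟩
  refine (h (fun o => o.elim id (Sum.elim a b)) ?_ ?_).trans ?_
  · rintro (_ | i | i)
    exacts [contDiffOn_id, (hs i).1, (hs i).2]
  · rintro (_ | i | i)
    · exact (hH.mono 0 _ k _ (by omega)).trans (le_add_of_nonneg_left (abs_nonneg _))
    · exact ((hb i).1.trans (le_abs_self _)).trans (le_add_of_nonneg_right h0)
    · exact ((hb i).2.trans (le_abs_self _)).trans (le_add_of_nonneg_right h0)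
  · rw [mul_assoc, Fintype.sum_option, Fintype.sum_sum_type, ← Finset.sum_add_distrib]
    refine mul_le_mul_of_nonneg_left ?_ C0
    have h1 : 0 ≤ ∑ i, (NN 0 k (a i) + NN 0 k (b i)) := Finset.sum_nonneg fun i _ =>
      add_nonneg (EComp_nn hH _ _ _) (EComp_nn hH _ _ _)
    simp only [Option.elim, Sum.elim_inl, Sum.elim_inr]
    nlinarith [mul_nonneg h0 h1]

end Vale.Agent.P244
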