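import Vale.Agent.P244.StmE

/-! P244: the energy inequality for the system. -/

open Set Filter
open scoped ContDiff Topology

namespace Vale.Agent.P244

theorem EEn_om : Sm om := contDiff_om.contDiffOn

theorem EEn_al {f : Fin 3 → ℝ → ℝ} (hf : ∀ i, Sm (f i)) : Sm (al f) :=
  ContDiffOn.mul contDiffOn_const (ContDiffOn.sub contDiffOn_const (ContDiffOn.mul EEn_om (hf 2)))

theorem EEn_L {g : ℝ → ℝ} (hg : Sm g) :
    Sm fun x => om x * d1 (d1 g) x + 2 * (1 - 2 * x) * d1 g x :=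
  ContDiffOn.add (ContDiffOn.mul EEn_om hg.d1.d1) (ContDiffOn.mul (by fun_prop) hg.d1)

theorem EEn_be (d : ℝ) : Sm (be d) := by
  unfold be Sm
  fun_prop

theorem EEn_pr (d : ℝ) {f : Fin 3 → ℝ → ℝ} (hf : ∀ i, Sm (f i)) (i : Fin 3) :
    Sm fun x => al f x * (om x * d1 (d1 (f i)) x + 2 * (1 - 2 * x) * d1 (f i) x) +
      be d x * d1 (f i) x :=
  ContDiffOn.add (ContDiffOn.mul (EEn_al hf) (EEn_L (hf i))) (ContDiffOn.mul (EEn_be d) (hf i).d1)

theorem EEn_N {N : ℝ × V3 × V3 → V3} (hN : ContDiff ℝ ∞ N) {f : Fin 3 → ℝ → ℝ}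
    (hf : ∀ i, Sm (f i)) (i : Fin 3) : Sm fun x => N (pt f x) i :=
  (contDiff_pi.1 hN i).comp_contDiffOn (f := pt f) (contDiffOn_id.prodMk
    ((contDiffOn_pi.2 fun l => hf l).prodMk
      (contDiffOn_pi.2 fun l => ContDiffOn.mul EEn_om (hf l).d1)))

theorem EEn_nn (hH : HardyStmt) (e k : ℕ) (g : ℝ → ℝ) : 0 ≤ NN e k g :=
  Finset.sum_nonneg fun j _ => hH.nonneg e j g

theorem EEn_alb (hH : HardyStmt) (hM : MulStmt) (k : ℕ) : ∃ C, 0 ≤ C ∧ ∀ f : Fin 3 → ℝ → ℝ,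
    (∀ i, Sm (f i)) → NN 0 k (al f) ≤ C * (1 + NN 0 k (f 2)) := by
  have hc : Sm fun x => -4 * om x := ContDiffOn.mul contDiffOn_const EEn_om
  obtain ⟨C, h0, hC⟩ := hM.coef 0 k _ hc
  refine ⟨2 * ((k + 1) * 4 ^ 2 + C), by positivity, fun f hf => ?_⟩
  have h1 := hH.add 0 k (fun _ => 4) _ contDiffOn_const (ContDiffOn.mul hc (hf 2))
  have h2 := hH.of_bound 0 k (fun _ => 4) 4 contDiffOn_const fun j _ x _ => by
    rw [D, iteratedDerivWithin_const]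
    split_ifs <;> norm_num
  have h3 := hC _ (hf 2)
  have h4 := EEn_nn hH 0 k (f 2)
  rw [hH.congr 0 k (al f) (fun x => 4 + -4 * om x * f 2 x) fun x _ => by rw [al]; ring]
  have h5 : 0 ≤ ((k + 1) * 4 ^ 2 : ℝ) * NN 0 k (f 2) := by positivity
  nlinarith

theorem EEn_Nb (hH : HardyStmt) (hM : MulStmt) (hC : CompStmt) {N : ℝ × V3 × V3 → V3}
    (hN : ContDiff ℝ ∞ N) {k : ℕ} (hk : 10 ≤ k) (Mb : ℝ) : ∃ C, 0 ≤ C ∧ ∀ f : Fin 3 → ℝ → ℝ,
    (∀ i, Sm (f i)) → (∀ i, NN 0 (k - 1) (f i) ≤ Mb) → ∀ i,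
      NN 0 k (fun x => N (pt f x) i) ≤ C * (1 + ∑ l, NN 0 (k + 1) (f l)) := by
  obtain ⟨C₁, p1, h1⟩ := hM.omd (k - 2)
  obtain ⟨C₂, p2, h2⟩ := hM.omd k
  choose C p h using fun i => hC (fun q => N q i) (contDiff_pi.1 hN i) k hk (max Mb (C₁ * Mb))
  have p3 : 0 ≤ ∑ i, C i := Finset.sum_nonneg fun i _ => p i
  refine ⟨(∑ i, C i) * (1 + C₂), by positivity, fun f hf hb i => ?_⟩
  have n1 : 0 ≤ ∑ l, NN 0 (k + 1) (f l) := Finset.sum_nonneg fun l _ => EEn_nn hH _ _ _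
  refine (h i f (fun l x => om x * d1 (f l) x)
    (fun l => ⟨hf l, ContDiffOn.mul EEn_om (hf l).d1⟩) fun l =>
      ⟨((hH.mono _ _ _ _ (by omega)).trans (hb l)).trans (le_max_left _ _),
        ((h1 _ (hf l)).trans (mul_le_mul_of_nonneg_left
          ((hH.mono _ _ _ _ (by omega)).trans (hb l)) p1)).trans (le_max_right _ _)⟩).trans ?_
  rw [mul_assoc]
  refine mul_le_mul (Finset.single_le_sum (fun i _ => p i) (Finset.mem_univ i)) ?_
    (add_nonneg zero_le_one (Finset.sum_nonneg fun l _ =>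
      add_nonneg (EEn_nn hH _ _ _) (EEn_nn hH _ _ _))) p3
  have h3 : ∑ l, (NN 0 k (f l) + NN 0 k fun x => om x * d1 (f l) x) ≤
      (1 + C₂) * ∑ l, NN 0 (k + 1) (f l) := by
    rw [Finset.mul_sum]
    refine Finset.sum_le_sum fun l _ => ?_
    linarith [h2 _ (hf l), hH.mono 0 k (k + 1) (f l) (by omega)]
  linarith

theorem EEn_int {u v : ℝ → ℝ} (hu : Sm u) (hv : Sm v) (j : ℕ) :
    IntervalIntegrable (fun x => om x ^ j * (D j u x * D j v x)) MeasureTheory.volume 0 1 :=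
  ((EEn_om.cont.pow j).mul ((hu.D j).cont.mul (hv.D j).cont)).intervalIntegrable_of_Icc zero_le_one

theorem EEn_int2 {u : ℝ → ℝ} (hu : Sm u) (j : ℕ) :
    IntervalIntegrable (fun x => om x ^ (j + 0) * D j u x ^ 2) MeasureTheory.volume 0 1 :=
  ((EEn_om.cont.pow _).mul ((hu.D j).cont.pow 2)).intervalIntegrable_of_Icc zero_le_one

theorem EEn_split {u v w : ℝ → ℝ} (hu : Sm u) (hv : Sm v) (hw : Sm w) {ε : ℝ} (hε : 0 < ε)
    (k : ℕ) : ∑ j ∈ Finset.range (k + 1), ∫ x in (0 : ℝ)..1,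
      om x ^ j * (D j u x * D j (fun y => v y + w y) x) ≤
    (∑ j ∈ Finset.range (k + 1), ∫ x in (0 : ℝ)..1, om x ^ j * (D j u x * D j v x)) +
      (ε * NN 0 k w + ε⁻¹ * NN 0 k u) := by
  rw [NN, NN, Finset.mul_sum, Finset.mul_sum, ← Finset.sum_add_distrib, ← Finset.sum_add_distrib]
  refine Finset.sum_le_sum fun j _ => ?_
  have i1 := (EEn_int2 hw j).const_mul ε
  have i2 := (EEn_int2 hu j).const_mul ε⁻¹
  rw [TT, TT, ← intervalIntegral.integral_const_mul, ← intervalIntegral.integral_const_mul,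
    ← intervalIntegral.integral_add i1 i2,
    ← intervalIntegral.integral_add (EEn_int hu hv j) (i1.add i2)]
  refine intervalIntegral.integral_mono_on zero_le_one (EEn_int hu (ContDiffOn.add hv hw) j)
    ((EEn_int hu hv j).add (i1.add i2)) fun x hx => ?_
  have e : D j (fun y => v y + w y) x = D j v x + D j w x :=
    iteratedDerivWithin_fun_add hx uI ((hv x hx).of_le (by exact_mod_cast le_top))
      ((hw x hx).of_le (by exact_mod_cast le_top))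
  have h1 : D j u x * D j w x ≤ ε * D j w x ^ 2 + ε⁻¹ * D j u x ^ 2 := by
    rw [← sub_nonneg, show ε * D j w x ^ 2 + ε⁻¹ * D j u x ^ 2 - D j u x * D j w x =
      ε⁻¹ * ((ε * D j w x - D j u x / 2) ^ 2 + 3 / 4 * D j u x ^ 2) by field_simp; ring]
    positivity
  have h2 := mul_le_mul_of_nonneg_left h1 (pow_nonneg (om_nonneg hx) j)
  rw [e, add_zero]
  linarith

theorem en (hH : HardyStmt) (hM : MulStmt) (hA : AlgStmt) (hC : CompStmt) (hP : PrinStmt) :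
    EnStmt := by
  refine ⟨fun d N hN f hf i => ContDiffOn.add (EEn_pr d hf i) (EEn_N hN hf i),
    fun d hd N hN k hk c hc Mb => ?_, fun d N hN k hk Mb => ?_⟩
  · obtain ⟨Ca, pa, ha⟩ := EEn_alb hH hM k
    obtain ⟨Ca', pa', ha'⟩ := EEn_alb hH hM (k - 1)
    obtain ⟨Cn, pn, hn⟩ := EEn_Nb hH hM hC hN hk Mb
    obtain ⟨Cp, pp, hp⟩ := hP d hd k hk c hc (max Mb (Ca' * (1 + Mb)))
    obtain ⟨ε, hε, e⟩ : ∃ ε : ℝ, 0 < ε ∧ 3 * (ε * Cn) ≤ c / 2 := ⟨c / (6 * Cn + 1), by positivity, by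
      rw [div_mul_eq_mul_div, ← mul_div_assoc, div_le_iff₀ (by positivity)]
      nlinarith⟩
    have pe := inv_pos.2 hε
    refine ⟨3 * Cp + 3 * (Cp * Ca) + 3 * (ε * Cn) + ε⁻¹, by positivity, fun f hf hal hb => ?_⟩
    obtain ⟨S, hS⟩ : ∃ S, S = ∑ i, NN 0 k (f i) := ⟨_, rfl⟩
    obtain ⟨T, hT⟩ : ∃ T, T = ∑ i, TT 0 (k + 1) (f i) := ⟨_, rfl⟩
    have S0 : 0 ≤ S := hS ▸ Finset.sum_nonneg fun i _ => EEn_nn hH _ _ _
    have T0 : 0 ≤ T := hT ▸ Finset.sum_nonneg fun i _ => hH.nonneg _ _ _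
    have h1 : ∑ l, NN 0 (k + 1) (f l) = S + T := by
      rw [hS, hT, ← Finset.sum_add_distrib]
      exact Finset.sum_congr rfl fun l _ => Finset.sum_range_succ _ _
    have h2 : NN 0 k (al f) ≤ Ca * (1 + S) := (ha f hf).trans (by
      have : NN 0 k (f 2) ≤ S := hS ▸ Finset.single_le_sum (f := fun i => NN 0 k (f i))
        (fun i _ => EEn_nn hH _ _ _) (Finset.mem_univ 2)
      gcongr)
    have h3 : NN 0 (k - 1) (al f) ≤ max Mb (Ca' * (1 + Mb)) :=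
      ((ha' f hf).trans (by gcongr; exact hb 2)).trans (le_max_right _ _)
    refine (Finset.sum_le_sum (g := fun i => -(c / 2) * TT 0 (k + 1) (f i) +
      (Cp + ε⁻¹) * NN 0 k (f i) + (Cp * (1 + Ca * (1 + S)) + ε * (Cn * (1 + (S + T)))))
        fun i _ => ?_).trans ?_
    · have h4 := hp _ _ (EEn_al hf) (hf i) hal h3 ((hb i).trans (le_max_left _ _))
      have h5 := mul_le_mul_of_nonneg_left (h1 ▸ hn f hf hb i) hε.le
      have h6 := mul_le_mul_of_nonneg_left h2 pp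
      refine (EEn_split (hf i) (EEn_pr d hf i) (EEn_N hN hf i) hε k).trans ?_
      linarith
    · rw [Finset.sum_add_distrib, Finset.sum_add_distrib, ← Finset.mul_sum, ← Finset.mul_sum, ← hS,
        ← hT, Finset.sum_const, Finset.card_univ, Fintype.card_fin, nsmul_eq_mul]
      push_cast
      nlinarith [mul_le_mul_of_nonneg_right e T0, mul_nonneg pp S0]
  · obtain ⟨Ca, pa, ha⟩ := EEn_alb hH hM k
    obtain ⟨Cn, pn, hn⟩ := EEn_Nb hH hM hC hN hk |Mb|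
    obtain ⟨C₁, p1, h1⟩ := hA.alg 0 k
    obtain ⟨C₂, p2, h2⟩ := hM.omdd k
    obtain ⟨C₃, p3, h3⟩ := hM.coef 0 k _ (EEn_be d)
    obtain ⟨C₄, p4, h4⟩ := hH.der 0 k
    refine ⟨2 * (2 * (C₁ * (Ca * (1 + |Mb|) * (C₂ * |Mb|) + Ca * (1 + |Mb|) * (C₂ * |Mb|)) +
      C₃ * (C₄ * |Mb|)) + Cn * (1 + 3 * |Mb|)), by positivity, fun f hf hb i => ?_⟩
    have hb' : ∀ m ≤ k + 2, ∀ l, NN 0 m (f l) ≤ |Mb| := fun m hm l =>
      ((hH.mono _ _ _ _ hm).trans (hb l)).trans (le_abs_self _)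
    have a1 : NN 0 k (al f) ≤ Ca * (1 + |Mb|) :=
      (ha f hf).trans (by gcongr; exact hb' k (by omega) 2)
    have a2 := (h2 _ (hf i)).trans (mul_le_mul_of_nonneg_left (hb' _ le_rfl i) p2)
    have a3 := (hH.mono 0 (k / 2 + 2) k _ (by omega)).trans a1
    have a4 := (hH.mono 0 (k / 2 + 2) k _ (by omega)).trans a2
    have a5 := (h1 _ _ (EEn_al hf) (EEn_L (hf i))).trans (mul_le_mul_of_nonneg_left (add_le_add
      (mul_le_mul a1 a4 (EEn_nn hH _ _ _) (by positivity))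
      (mul_le_mul a3 a2 (EEn_nn hH _ _ _) (by positivity))) p1)
    have a6 := (h3 _ (hf i).d1).trans (mul_le_mul_of_nonneg_left
      ((h4 _ (hf i)).trans (mul_le_mul_of_nonneg_left (hb' _ le_rfl i) p4)) p3)
    have a7 : ∑ l, NN 0 (k + 1) (f l) ≤ 3 * |Mb| := by
      rw [Fin.sum_univ_three]
      linarith [hb' (k + 1) (by omega) 0, hb' (k + 1) (by omega) 1, hb' (k + 1) (by omega) 2]
    have a8 := (hn f hf (hb' _ (by omega)) i).trans
      (mul_le_mul_of_nonneg_left (add_le_add le_rfl a7) pn)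
    have a9 := hH.add 0 k _ _ (ContDiffOn.mul (EEn_al hf) (EEn_L (hf i)))
      (ContDiffOn.mul (EEn_be d) (hf i).d1)
    refine (hH.add 0 k _ _ (EEn_pr d hf i) (EEn_N hN hf i)).trans ?_
    linarith

end Vale.Agent.P244
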