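import Vale.Agent.P244.StmE

/-! P244: short time existence. -/

open Set Filter
open scoped ContDiff Topology Manifold

namespace Vale.Agent.P244

theorem EExist_cut {d : ℝ} {O : Set (ℝ × V3)} {N : ℝ × V3 × V3 → V3} (h : Sys d O N)
    {S : Set (ℝ × V3)} (hS : IsClosed S) (hSO : S ⊆ O) :
    ∃ N' : ℝ × V3 × V3 → V3, ContDiff ℝ ∞ N' ∧ ∀ q, (q.1, q.2.1) ∈ S → N' q = N q := by
  obtain ⟨χ, h0, h1, -⟩ := exists_contMDiffMap_zero_one_nhds_of_isClosed (n := (⊤ : ℕ∞))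
    𝓘(ℝ, ℝ × V3) h.isOpen.isClosed_compl hS (disjoint_compl_left_iff_subset.2 hSO)
  have hχ : ContDiff ℝ ∞ χ := χ.contMDiff.contDiff
  have hp : ContDiff ℝ ∞ fun q : ℝ × V3 × V3 => ((q.1, q.2.1) : ℝ × V3) := by fun_prop
  refine ⟨fun q => χ (q.1, q.2.1) • N q, contDiff_iff_contDiffAt.2 fun q => ?_, fun q hq => ?_⟩
  · by_cases hq : (q.1, q.2.1) ∈ O
    · exact (hχ.comp hp).contDiffAt.smul
        (h.smooth.contDiffAt ((h.isOpen.preimage hp.continuous).mem_nhds hq))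
    · have h2 := hp.continuous.continuousAt.eventually
        (h0.filter_mono (nhds_le_nhdsSet (s := Oᶜ) hq))
      refine (contDiffAt_const (c := (0 : V3))).congr_of_eventuallyEq (h2.mono fun p hp => ?_)
      show χ (p.1, p.2.1) • N p = 0
      rw [hp, zero_smul]
  · show χ (q.1, q.2.1) • N q = N q
    rw [h1.self_of_nhdsSet _ hq, one_smul]

theorem exist (hG : GalStmt) (hL : LimStmt) (hU : UpStmt) : ExistStmt := by
  intro d O N h K hKO hK M
  obtain ⟨δ, hδ, hKδ⟩ := hK.exists_cthickening_subset_open h.isOpen hKO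
  obtain ⟨N', hN, hN'⟩ := EExist_cut h Metric.isClosed_cthickening hKδ
  have hc : Continuous fun p : ℝ × V3 => 4 * (1 - om p.1 * p.2 2) := by
    unfold om
    fun_prop
  obtain ⟨c, hc0, hc1⟩ := hK.exists_forall_le' (a := 0) hc.continuousOn
    fun p hp => mul_pos four_pos (h.pos p (hKO hp))
  obtain ⟨T, hT, h1⟩ := hG d h.d_nonneg N' hN c hc0 M δ hδ
  refine ⟨T, hT, fun f0 a1 a2 a3 => ?_⟩
  obtain ⟨u, w, h2⟩ := h1 f0 a1 (fun x hx => hc1 (x, val f0 x) (a2 x hx)) a3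
  obtain ⟨f, h3, h4⟩ := hL d N' f0 T δ u w hN hT a1 h2
  have h5 : ∀ t ∈ Icc 0 T, ∀ x ∈ I, (x, val (sl f t) x) ∈ Metric.cthickening δ K := by
    intro t ht x hx
    refine Metric.mem_cthickening_of_dist_le _ (x, val f0 x) δ K (a2 x hx) ?_
    rw [Prod.dist_eq, dist_self]
    exact max_le hδ.le ((dist_pi_le_iff hδ.le).2 fun i => h4 i t ht x hx)
  refine ⟨f, hT, hU d N' f0 T f hN hT h3, h3.init, fun t ht x hx => hKδ (h5 t ht x hx),
    fun t ht x hx i => ?_⟩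
  have h6 : N' (pt (sl f t) x) = N (pt (sl f t) x) := hN' (pt (sl f t) x) (h5 t ht x hx)
  rw [dt_eq hT ht (h3.eqn i t ht x hx), rhs, rhs, h6]

end Vale.Agent.P244
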