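import Vale.Agent.P244.StmE

/-! P244: the Galerkin sequence with uniform bounds. -/

open Set Filter
open scoped ContDiff Topology

namespace Vale.Agent.P244

theorem EGal_gron {T C : ℝ} {f f' : ℝ → ℝ}
    (hd : ∀ t ∈ Icc 0 T, HasDerivWithinAt f (f' t) (Icc 0 T) t)
    (hb : ∀ t ∈ Icc 0 T, f' t ≤ C * (1 + f t)) :
    ∀ t ∈ Icc 0 T, 1 + f t ≤ (1 + f 0) * Real.exp (C * t) := by
  intro t ht
  have h1 : ∀ s ∈ Icc 0 T, HasDerivWithinAt (fun s => (1 + f s) * Real.exp (-(C * s)))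
      (f' s * Real.exp (-(C * s)) + (1 + f s) * (Real.exp (-(C * s)) * (-C))) (Icc 0 T) s := by
    intro s hs
    have h2 : HasDerivAt (fun s => Real.exp (-(C * s))) (Real.exp (-(C * s)) * (-C)) s := by
      have h3 : HasDerivAt (fun s => -(C * s)) (-C) s := by
        simpa using ((hasDerivAt_id s).const_mul C).fun_neg
      exact h3.exp
    exact ((hd s hs).const_add 1).fun_mul h2.hasDerivWithinAt
  have h2 : AntitoneOn (fun s => (1 + f s) * Real.exp (-(C * s))) (Icc 0 T) := by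
    refine antitoneOn_of_hasDerivWithinAt_nonpos (convex_Icc 0 T)
      (fun s hs => (h1 s hs).continuousWithinAt)
      (fun s hs => (h1 s (interior_subset hs)).mono interior_subset) (fun s hs => ?_)
    have h3 := hb s (interior_subset hs)
    have h4 := Real.exp_pos (-(C * s))
    nlinarith
  have h3 := h2 ⟨le_rfl, ht.1.trans ht.2⟩ ht ht.1
  simp only [mul_zero, neg_zero, Real.exp_zero, mul_one] at h3
  have h4 := mul_le_mul_of_nonneg_right h3 (Real.exp_pos (C * t)).le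
  rwa [mul_assoc, ← Real.exp_add, neg_add_cancel, Real.exp_zero, mul_one] at h4

theorem EGal_sm (p : Polynomial ℝ) : Sm (ev p) := by
  refine Sm.of_contDiff ?_
  have := Polynomial.contDiff_aeval (𝕜 := ℝ) p ∞
  simp only [Polynomial.coe_aeval_eq_eval] at this
  exact this

theorem EGal_NN_le {n : ℕ} {g : ℝ → ℝ} {p : Polynomial ℝ} (h : IsProj n g p) (k : ℕ) :
    NN 0 k (ev p) ≤ NN 0 k g := Finset.sum_le_sum fun j _ => h.2.1 j

theorem EGal_NN_nonneg (hH : HardyStmt) (e k : ℕ) (g : ℝ → ℝ) : 0 ≤ NN e k g :=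
  Finset.sum_nonneg fun j _ => hH.nonneg e j g

theorem EGal_orth {n m : ℕ} {g : ℝ → ℝ} {p : Polynomial ℝ} (h : IsProj m g p) (hnm : n ≤ m)
    (π : Polynomial ℝ) (hπ : π.natDegree ≤ n) :
    ∫ x in (0 : ℝ)..1, (ev p x - g x) * ev π x = 0 := by
  have h1 := h.2.2 π (hπ.trans hnm) 0
  simp only [pow_zero, one_mul, D_zero] at h1
  have e : (fun x => (ev p x - g x) * ev π x) = fun x => -((g x - ev p x) * ev π x) := by
    funext x
    ring
  rw [e, intervalIntegral.integral_neg, h1, neg_zero]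

theorem EGal_abs {a C B : ℝ} (h : a ^ 2 ≤ C) (hB : C ≤ B) : |a| ≤ 1 + B := by
  have h1 := abs_nonneg a
  have h2 := sq_abs a
  nlinarith [sq_nonneg (|a| - 1)]

theorem gal (hH : HardyStmt) (hE : EnStmt) (hP : ProjStmt) (hQ : PEnStmt) (hG : Gal1Stmt) :
    GalStmt := by
  intro d hd N hN c hc M δ hδ
  obtain ⟨T, hT, M', H⟩ := hG d hd N hN (c / 2) (by positivity) (13 * M ^ 2) δ hδ
  refine ⟨T, hT, fun f0 hs hal hM => ?_⟩
  choose P hPp _ using hP.proj
  obtain ⟨n0, hn0⟩ := hP.app (f0 2) (hs 2) (fun n => P n (f0 2)) (fun n => hPp n _ (hs 2))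
    (c / 2) (by positivity)
  have hex : ∀ n, ∃ u w, PSol d N (n + n0) T u w ∧ u 0 = (fun i => P (n + n0) (f0 i)) ∧
      ∀ t ∈ Icc 0 T, (∀ x ∈ I, c / 2 / 2 ≤ al (fun l => ev (u t l)) x) ∧
        (∀ i, NN 0 12 (ev (u t i)) ≤ M') ∧
        ∀ i, ∀ x ∈ I, |ev (u t i) x - ev (P (n + n0) (f0 i)) x| ≤ δ := by
    intro n
    refine H (n + n0) (fun i => P (n + n0) (f0 i)) (fun i => (hPp _ _ (hs i)).1) ?_ ?_
    · intro x hx
      have h1 := hn0 (n + n0) (Nat.le_add_left _ _) x hx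
      have h2 := hal x hx
      have h3 := om_nonneg hx
      have h4 : om x ≤ 1 / 4 := om_le
      have h5 := (abs_le.1 h1).2
      unfold al at h2 ⊢
      have h6 : om x * (ev (P (n + n0) (f0 2)) x - f0 2 x) ≤ om x * (c / 2) :=
        mul_le_mul_of_nonneg_left h5 h3
      nlinarith
    · intro i
      refine (EGal_NN_le (hPp _ _ (hs i)) 12).trans ?_
      have := hH.of_bound 0 12 (f0 i) M (hs i) (hM i)
      norm_num at this ⊢
      exact this
  choose U W hsol h0 hb using hex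
  -- uniform Sobolev bounds
  have hk : ∀ k, 12 ≤ k → ∃ B, ∀ n, ∀ t ∈ Icc 0 T, ∀ i, NN 0 k (ev (U n t i)) ≤ B := by
    intro k hk
    induction k, hk using Nat.le_induction with
    | base => exact ⟨M', fun n t ht i => (hb n t ht).2.1 i⟩
    | succ k hk ih =>
      obtain ⟨B, hB⟩ := ih
      obtain ⟨C, hC, HC⟩ := hE.en d hd N hN (k + 1) (by omega) (c / 2 / 2) (by positivity) B
      refine ⟨(1 + ∑ i, NN 0 (k + 1) (f0 i)) * Real.exp (2 * C * T), fun n t ht i => ?_⟩
      have h1 := EGal_gron (T := T) (C := 2 * C) (f := fun s => ∑ i, NN 0 (k + 1) (ev (U n s i)))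
        (fun s hs => hQ.en d N (n + n0) T (U n) (W n) hN (hsol n) s hs (k + 1)) (by
          intro s hs
          have := HC (fun l => ev (U n s l)) (fun l => EGal_sm _) (hb n s hs).1
            (fun l => hB n s hs l)
          linarith) t ht
      have h2 : NN 0 (k + 1) (ev (U n t i)) ≤ ∑ i, NN 0 (k + 1) (ev (U n t i)) :=
        Finset.single_le_sum (f := fun i => NN 0 (k + 1) (ev (U n t i)))
          (fun l _ => EGal_NN_nonneg hH _ _ _) (Finset.mem_univ i)
      have h3 : ∑ i, NN 0 (k + 1) (ev (U n 0 i)) ≤ ∑ i, NN 0 (k + 1) (f0 i) := by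
        refine Finset.sum_le_sum fun l _ => ?_
        rw [h0 n]
        exact EGal_NN_le (hPp _ _ (hs l)) _
      have h4 : Real.exp (2 * C * t) ≤ Real.exp (2 * C * T) :=
        Real.exp_le_exp.2 (mul_le_mul_of_nonneg_left ht.2 (by positivity))
      have h5 : 0 ≤ ∑ i, NN 0 (k + 1) (f0 i) :=
        Finset.sum_nonneg fun l _ => EGal_NN_nonneg hH _ _ _
      have h6 : (1 + ∑ i, NN 0 (k + 1) (ev (U n 0 i))) * Real.exp (2 * C * t) ≤
          (1 + ∑ i, NN 0 (k + 1) (f0 i)) * Real.exp (2 * C * T) :=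
        mul_le_mul (by linarith) h4 (Real.exp_pos _).le (by linarith)
      linarith
  refine ⟨fun n i t => ev (U n t i), fun n i t => ev (W n t i), ?_, ?_, ?_, ?_, ?_, ?_⟩
  · exact fun n i t => ⟨EGal_sm _, EGal_sm _⟩
  · exact fun n i j t ht x hx => hQ.jet d N (n + n0) T (U n) (W n) (hsol n) t ht i j x hx
  · intro j
    obtain ⟨C, hC, HC⟩ := hH.usup j
    obtain ⟨B, hB⟩ := hk (2 * j + 12 + 2) (by omega)
    obtain ⟨C', hC', HC'⟩ := hE.tame d N hN (2 * j + 12) (by omega) B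
    refine ⟨1 + max (C * B) (C * C'), fun n i t ht x hx => ⟨?_, ?_⟩⟩
    · refine EGal_abs (HC _ (EGal_sm _) x hx) (le_trans ?_ (le_max_left _ _))
      exact mul_le_mul_of_nonneg_left ((hH.mono 0 _ _ _ (by omega)).trans (hB n t ht i)) hC
    · refine EGal_abs (HC _ (EGal_sm _) x hx) (le_trans ?_ (le_max_right _ _))
      refine mul_le_mul_of_nonneg_left ((hH.mono 0 _ (2 * j + 12) _ (by omega)).trans ?_) hC
      exact (EGal_NN_le ((hsol n).proj t ht i) _).trans
        (HC' (fun l => ev (U n t l)) (fun l => EGal_sm _) (fun l => hB n t ht l) i)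
  · exact fun n i t ht π hπ => EGal_orth ((hsol n).proj t ht i) (Nat.le_add_right _ _) π hπ
  · intro n i π hπ
    show ∫ x in (0 : ℝ)..1, (ev (U n 0 i) x - f0 i x) * ev π x = 0
    rw [h0 n]
    exact EGal_orth (hPp _ _ (hs i)) (Nat.le_add_right _ _) π hπ
  · intro n i t ht x hx
    show |ev (U n t i) x - ev (U n 0 i) x| ≤ δ
    rw [h0 n]
    exact (hb n t ht).2.2 i x hx

end Vale.Agent.P244
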