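import Vale.Agent.P244.StmE

/-! P244: short time existence of the Galerkin solutions, uniformly in the degree. -/

open Set Filter Polynomial
open scoped ContDiff Topology

namespace Vale.Agent.P244

theorem EGal1_cd (p : ℝ[X]) : ContDiff ℝ ∞ (ev p) := by
  have := p.contDiff_aeval (𝕜 := ℝ) ∞
  simp only [coe_aeval_eq_eval] at this
  exact this

theorem EGal1_sm (p : ℝ[X]) : Sm (ev p) := (EGal1_cd p).contDiffOn

theorem EGal1_d1 (p : ℝ[X]) {x : ℝ} (hx : x ∈ I) : d1 (ev p) x = ev (derivative p) x :=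
  d1_eq' hx (p.hasDerivAt x)

theorem EGal1_d2 (p : ℝ[X]) {x : ℝ} (hx : x ∈ I) :
    d1 (d1 (ev p)) x = ev (derivative (derivative p)) x :=
  (d1_congr (fun _ hy => EGal1_d1 p hy) hx).trans (EGal1_d1 _ hx)

theorem EGal1_lin (n : ℕ) (L : ℝ[X] →ₗ[ℝ] ℝ[X]) (l : Fin 3) :
    ContDiff ℝ ∞ fun q : (Fin 3 → Fin (n + 1) → ℝ) × ℝ => ev (L (ofFn (n + 1) (q.1 l))) q.2 := by
  have e : (fun q : (Fin 3 → Fin (n + 1) → ℝ) × ℝ => ev (L (ofFn (n + 1) (q.1 l))) q.2) =
      fun q => ∑ a : Fin (n + 1), q.1 l a * ev (L (monomial a 1)) q.2 := by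
    funext q
    rw [ofFn_eq_sum_monomial, map_sum, ev, eval_finsetSum]
    refine Finset.sum_congr rfl fun a _ => ?_
    rw [show monomial (a : ℕ) (q.1 l a) = q.1 l a • monomial (a : ℕ) (1 : ℝ) by
      rw [smul_monomial, smul_eq_mul, mul_one], map_smul, eval_smul, smul_eq_mul]
    rfl
  rw [e]
  exact ContDiff.sum fun a _ => ContDiff.mul (by fun_prop) ((EGal1_cd _).comp contDiff_snd)

theorem EGal1_lip (d : ℝ) {N : ℝ × V3 × V3 → V3} (hN : ContDiff ℝ ∞ N) (n : ℕ) (R : ℝ) :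
    ∃ K : ℝ, ∀ c ∈ Metric.closedBall (0 : Fin 3 → Fin (n + 1) → ℝ) R,
      ∀ c' ∈ Metric.closedBall (0 : Fin 3 → Fin (n + 1) → ℝ) R, ∀ i, ∀ x ∈ I,
      |rhs d N (fun l => ev (ofFn (n + 1) (c l))) i x -
        rhs d N (fun l => ev (ofFn (n + 1) (c' l))) i x| ≤ K * dist c c' := by
  let F : (Fin 3 → Fin (n + 1) → ℝ) × ℝ → V3 := fun q i =>
    4 * (1 - om q.2 * ev (ofFn (n + 1) (q.1 2)) q.2) *
      (om q.2 * ev (derivative (derivative (ofFn (n + 1) (q.1 i)))) q.2 +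
        2 * (1 - 2 * q.2) * ev (derivative (ofFn (n + 1) (q.1 i))) q.2) +
      be d q.2 * ev (derivative (ofFn (n + 1) (q.1 i))) q.2 +
      N (q.2, fun l => ev (ofFn (n + 1) (q.1 l)) q.2,
        fun l => om q.2 * ev (derivative (ofFn (n + 1) (q.1 l))) q.2) i
  have h0 := EGal1_lin n LinearMap.id
  have h1 := EGal1_lin n derivative
  have h2 := EGal1_lin n (derivative ∘ₗ derivative)
  have ho : ContDiff ℝ ∞ fun q : (Fin 3 → Fin (n + 1) → ℝ) × ℝ => om q.2 :=
    contDiff_om.comp contDiff_snd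
  have hb : ContDiff ℝ ∞ fun q : (Fin 3 → Fin (n + 1) → ℝ) × ℝ => be d q.2 := by
    unfold be
    fun_prop
  have hF : ContDiff ℝ ∞ F := by
    refine contDiff_pi.2 fun i => ?_
    refine (((contDiff_const.mul (contDiff_const.sub (ho.mul (h0 2)))).mul
      ((ho.mul (h2 i)).add (ContDiff.mul (by fun_prop) (h1 i)))).add (hb.mul (h1 i))).add ?_
    exact contDiff_pi.1 (hN.comp (contDiff_snd.prodMk ((contDiff_pi.2 h0).prodMk
      (contDiff_pi.2 fun l => ho.mul (h1 l))))) i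
  have hFe : ∀ (c : Fin 3 → Fin (n + 1) → ℝ) i, ∀ x ∈ I,
      rhs d N (fun l => ev (ofFn (n + 1) (c l))) i x = F (c, x) i := by
    intro c i x hx
    simp only [rhs, al, pt, F, EGal1_d2 _ hx, EGal1_d1 _ hx]
    congr 4
    funext l
    simp only [gr, EGal1_d1 _ hx]
  obtain ⟨K, hK⟩ := hF.contDiffOn.exists_lipschitzOnWith inf_ne_zero
    ((convex_closedBall (0 : Fin 3 → Fin (n + 1) → ℝ) R).prod (convex_Icc (0 : ℝ) 1))
    ((isCompact_closedBall _ _).prod isCompact_Icc)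
  refine ⟨K, fun c hc c' hc' i x hx => ?_⟩
  rw [hFe c i x hx, hFe c' i x hx, ← Real.dist_eq]
  refine (dist_le_pi_dist _ _ i).trans ((hK.dist_le_mul (c, x) ⟨hc, hx⟩ (c', x) ⟨hc', hx⟩).trans ?_)
  rw [dist_prod_same_right]

theorem EGal1_mvt {f f' : ℝ → ℝ} {s t C : ℝ} (hs : s ∈ Icc 0 t)
    (h : ∀ r ∈ Icc 0 t, HasDerivWithinAt f (f' r) (Icc 0 t) r) (hb : ∀ r ∈ Icc 0 s, f' r ≤ C) :
    f s - f 0 ≤ C * s := by
  have hsub : Icc 0 s ⊆ Icc 0 t := Icc_subset_Icc_right hs.2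
  have h1 : ∀ r ∈ interior (Icc 0 s), HasDerivAt f (f' r) r := fun r hr => by
    rw [interior_Icc] at hr
    exact (h r (hsub (Ioo_subset_Icc_self hr))).hasDerivAt
      (Icc_mem_nhds hr.1 (hr.2.trans_le hs.2))
  have := (convex_Icc 0 s).image_sub_le_mul_sub_of_deriv_le
    (fun r hr => ((h r (hsub hr)).continuousWithinAt).mono hsub)
    (fun r hr => (h1 r hr).differentiableAt.differentiableWithinAt)
    (fun r hr => by rw [(h1 r hr).deriv]; exact hb r (interior_subset hr))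
    0 (left_mem_Icc.2 hs.1) s (right_mem_Icc.2 hs.1) hs.1
  rwa [sub_zero] at this

theorem EGal1_diff {n : ℕ} {p q : ℝ[X]} (hp : p.natDegree ≤ n) (hq : q.natDegree ≤ n) {x : ℝ}
    (hx : x ∈ I) : |ev p x - ev q x| ≤ ∑ a ∈ Finset.range (n + 1), |p.coeff a - q.coeff a| := by
  rw [ev, ev, eval_eq_sum_range' (Nat.lt_succ_of_le hp), eval_eq_sum_range' (Nat.lt_succ_of_le hq),
    ← Finset.sum_sub_distrib]
  refine (Finset.abs_sum_le_sum_abs _ _).trans (Finset.sum_le_sum fun a _ => ?_)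
  rw [← sub_mul, abs_mul]
  refine mul_le_of_le_one_right (abs_nonneg _) ?_
  rw [abs_pow, abs_of_nonneg hx.1]
  exact pow_le_one₀ hx.1 hx.2

theorem EGal1_nn (hH : HardyStmt) (e k : ℕ) (g : ℝ → ℝ) : 0 ≤ NN e k g :=
  Finset.sum_nonneg fun j _ => hH.nonneg e j g

/-- The a priori estimate. -/
theorem EGal1_apriori (hH : HardyStmt) (hE : EnStmt) (hQ : PEnStmt) {d : ℝ} (hd : 0 ≤ d)
    {N : ℝ × V3 × V3 → V3} (hN : ContDiff ℝ ∞ N) {c : ℝ} (hc : 0 < c) (M : ℝ) {δ : ℝ}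
    (hδ : 0 < δ) : ∃ T > 0, ∃ M', ∀ (n : ℕ) (t : ℝ) (u w : ℝ → Fin 3 → ℝ[X]), t ≤ T →
      PSol d N n t u w → (∀ x ∈ I, c ≤ al (fun l => ev (u 0 l)) x) →
      (∀ i, NN 0 12 (ev (u 0 i)) ≤ M) → ∀ s ∈ Icc 0 t,
      (∀ x ∈ I, c / 2 ≤ al (fun l => ev (u s l)) x) ∧ (∀ i, NN 0 12 (ev (u s i)) ≤ M') ∧
      ∀ i, ∀ x ∈ I, |ev (u s i) x - ev (u 0 i) x| ≤ δ := by
  obtain ⟨C1, hC1, H1⟩ := hE.en d hd N hN 12 (by norm_num) (c / 2) (by positivity) (3 * |M| + 1)
  obtain ⟨C2, hC2, H2⟩ := hE.tame d N hN 10 le_rfl (3 * |M| + 1)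
  obtain ⟨C3, hC3, H3⟩ := hH.usup 0
  have hM := abs_nonneg M
  have hη : 0 < min δ (c / 4) := lt_min hδ (by positivity)
  refine ⟨min (1 / (4 * C1 * (3 * |M| + 2) + 1)) (min δ (c / 4) / (C3 * C2 + 1)),
    lt_min (by positivity) (by positivity), 3 * |M| + 1, ?_⟩
  intro n t u w ht hu h0 hM0
  have ht1 := ht.trans (min_le_left _ _)
  have ht2 := ht.trans (min_le_right _ _)
  rw [le_div_iff₀ (by positivity)] at ht1 ht2
  have hal : ∀ s, (∀ x ∈ I, |ev (u s 2) x - ev (u 0 2) x| ≤ c / 2) →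
      ∀ x ∈ I, c / 2 ≤ al (fun l => ev (u s l)) x := by
    intro s hs x hx
    have a1 := h0 x hx
    have a2 := abs_le.1 (hs x hx)
    have a3 := om_nonneg hx
    have a4 := om_le (x := x)
    simp only [al] at a1 ⊢
    nlinarith
  have hsum : ∀ s i, NN 0 12 (ev (u s i)) ≤ ∑ i, NN 0 12 (ev (u s i)) := fun s i =>
    Finset.single_le_sum (f := fun i => NN 0 12 (ev (u s i))) (fun i _ => EGal1_nn hH _ _ _)
      (Finset.mem_univ i)
  have hj : ∀ i, ∀ x ∈ I, ∀ r ∈ Icc 0 t,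
      HasDerivWithinAt (fun s => ev (u s i) x) (ev (w r i) x) (Icc 0 t) r := fun i x hx r hr => by
    simpa only [D_zero] using hQ.jet d N n t u w hu r hr i 0 x hx
  have he := fun r hr => hQ.en d N n t u w hN hu r hr 12
  set S : Set ℝ := {s | ∑ i, NN 0 12 (ev (u s i)) ≤ 3 * |M| + 1 ∧
    ∀ x ∈ I, |ev (u s 2) x - ev (u 0 2) x| ≤ c / 2} with hS
  have hE0 : ∑ i, NN 0 12 (ev (u 0 i)) ≤ 3 * |M| := by
    rw [Fin.sum_univ_three]
    linarith [hM0 0, hM0 1, hM0 2, le_abs_self M]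
  have imp : ∀ s ∈ Icc 0 t, Icc 0 s ⊆ S → ∑ i, NN 0 12 (ev (u s i)) ≤ 3 * |M| + 1 / 2 ∧
      ∀ i, ∀ x ∈ I, |ev (u s i) x - ev (u 0 i) x| ≤ min δ (c / 4) := by
    intro s hs hsub
    have hle : Icc 0 s ⊆ Icc 0 t := Icc_subset_Icc_right hs.2
    constructor
    · have := EGal1_mvt (C := 2 * (C1 * (3 * |M| + 2))) hs he fun r hr => by
        have a1 := H1 (fun l => ev (u r l)) (fun l => EGal1_sm _) (hal r (hsub hr).2) fun l =>
          (hH.mono 0 11 12 _ (by norm_num)).trans ((hsum r l).trans (hsub hr).1)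
        have a2 := mul_le_mul_of_nonneg_left (hsub hr).1 hC1
        linarith
      have a3 : 0 ≤ C1 * (3 * |M| + 2) := by positivity
      nlinarith [hs.1, hs.2]
    · intro i x hx
      have := norm_image_sub_le_of_norm_deriv_le_segment' (C := C3 * C2 + 1)
        (fun r hr => (hj i x hx r (hle hr)).mono hle) (fun r hr => by
          have hr' := Ico_subset_Icc_self hr
          have a1 := H3 _ (EGal1_sm (w r i)) x hx
          have a2 : NN 0 2 (ev (w r i)) ≤ NN 0 2 (rhs d N (fun l => ev (u r l)) i) :=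
            Finset.sum_le_sum fun j _ => (hu.proj r (hle hr') i).2.1 j
          have a3 := (hH.mono 0 2 10 _ (by norm_num)).trans (H2 (fun l => ev (u r l))
            (fun l => EGal1_sm _) (fun l => (hsum r l).trans (hsub hr').1) i)
          have a4 := mul_le_mul_of_nonneg_left (a2.trans a3) hC3
          rw [D_zero] at a1
          have a5 : 0 ≤ C3 * C2 := by positivity
          exact abs_le_of_sq_le_sq (by nlinarith) (by positivity)) s (right_mem_Icc.2 hs.1)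
      have a6 : 0 ≤ C3 * C2 + 1 := by positivity
      rw [Real.norm_eq_abs] at this
      nlinarith [hs.1, hs.2]
  have all : Icc 0 t ⊆ S := by
    refine IsClosed.Icc_subset_of_forall_mem_nhdsGT_of_Icc_subset ?_
      ⟨by linarith, fun x _ => by rw [sub_self, abs_zero]; positivity⟩ fun s hs hsub => ?_
    · refine isClosed_of_closure_subset fun s hs => ?_
      have hs' : s ∈ Icc 0 t := closure_minimal inter_subset_right isClosed_Icc hs
      refine ⟨⟨ContinuousWithinAt.closure_le hs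
        ((he s hs').continuousWithinAt.mono inter_subset_right) continuousWithinAt_const
        fun r hr => hr.1.1, fun x hx => ContinuousWithinAt.closure_le hs
        ((((hj 2 x hx s hs').continuousWithinAt.mono inter_subset_right).sub
          continuousWithinAt_const).abs) continuousWithinAt_const fun r hr => hr.1.2 x hx⟩, hs'⟩
    · have hs' := Ico_subset_Icc_self hs
      obtain ⟨b1, b2⟩ := imp s hs' hsub
      have hn : 𝓝[>] s ≤ 𝓝[Icc 0 t] s :=
        nhdsWithin_le_of_mem (mem_of_superset (Ioc_mem_nhdsGT hs.2) fun r hr =>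
          ⟨hs.1.trans hr.1.le, hr.2⟩)
      have c1 := ((he s hs').continuousWithinAt.tendsto.mono_left hn).eventually
        (gt_mem_nhds (show ∑ i, NN 0 12 (ev (u s i)) < 3 * |M| + 1 by linarith))
      have c2 : ContinuousWithinAt (fun r => ∑ a ∈ Finset.range (n + 1),
          |(u r 2).coeff a - (u s 2).coeff a|) (Icc 0 t) s :=
        tendsto_finsetSum _ fun a _ =>
          ((hu.der s hs' 2 a).continuousWithinAt.sub continuousWithinAt_const).abs
      have c3 := (c2.tendsto.mono_left hn).eventually (gt_mem_nhds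
        (show ∑ a ∈ Finset.range (n + 1), |(u s 2).coeff a - (u s 2).coeff a| < c / 4 by
          simpa using hc))
      filter_upwards [c1, c3] with r d1 d2
      refine ⟨d1.le, fun x hx => ?_⟩
      have e1 := EGal1_diff (hu.deg r 2) (hu.deg s 2) hx
      have e2 := (b2 2 x hx).trans (min_le_right _ _)
      have e3 := abs_sub_le (ev (u r 2) x) (ev (u s 2) x) (ev (u 0 2) x)
      linarith
  intro s hs
  exact ⟨hal s (all hs).2, fun i => (hsum s i).trans (all hs).1, fun i x hx =>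
    ((imp s hs ((Icc_subset_Icc_right hs.2).trans all)).2 i x hx).trans (min_le_left _ _)⟩

theorem gal1 (hH : HardyStmt) (hE : EnStmt) (hP : ProjStmt) (hO : OdeStmt) (hQ : PEnStmt) :
    Gal1Stmt := by
  intro d hd N hN c hc M δ hδ
  obtain ⟨T, hT, M', H⟩ := EGal1_apriori hH hE hQ hd hN hc M hδ
  refine ⟨T, hT, M', fun n p0 hdeg h0 hM0 => ?_⟩
  obtain ⟨P, hPp, C, hC, hPl⟩ := hP.proj n
  obtain ⟨C', hC', hco⟩ := hP.coef n
  let V : (Fin 3 → Fin (n + 1) → ℝ) → Fin 3 → Fin (n + 1) → ℝ := fun c i a =>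
    (P (rhs d N (fun l => ev (ofFn (n + 1) (c l))) i)).coeff a
  have hsm : ∀ (q : Fin 3 → ℝ[X]) i, Sm (rhs d N (fun l => ev (q l)) i) := fun q i =>
    hE.sm d N hN _ (fun l => EGal1_sm _) i
  have hdg : ∀ v : Fin (n + 1) → ℝ, (ofFn (n + 1) v).natDegree ≤ n := fun v =>
    Nat.le_of_lt_succ (ofFn_natDegree_lt (Nat.succ_pos n) v)
  have sol : ∀ (t : ℝ) (γ : ℝ → Fin 3 → Fin (n + 1) → ℝ),
      (∀ s ∈ Icc 0 t, HasDerivWithinAt γ (V (γ s)) (Icc 0 t) s) →
      PSol d N n t (fun s i => ofFn (n + 1) (γ s i))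
        fun s i => P (rhs d N (fun l => ev (ofFn (n + 1) (γ s l))) i) := by
    intro t γ hγ
    refine ⟨fun s i => hdg _, fun s hs i a => ?_, fun s _ i => hPp _ (hsm _ i)⟩
    rcases lt_or_ge a (n + 1) with ha | ha
    · simp only [ofFn_coeff_eq_val_of_lt _ ha]
      exact hasDerivWithinAt_pi.1 (hasDerivWithinAt_pi.1 (hγ s hs) i) ⟨a, ha⟩
    · simp only [ofFn_coeff_eq_zero_of_ge _ ha]
      rw [coeff_eq_zero_of_natDegree_lt ((hPp _ (hsm _ i)).1.trans_lt ha)]
      exact hasDerivWithinAt_const _ _ _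
  have init : ∀ γ : ℝ → Fin 3 → Fin (n + 1) → ℝ, γ 0 = (fun i => toFn (n + 1) (p0 i)) →
      ∀ i, ofFn (n + 1) (γ 0 i) = p0 i := fun γ hγ i => by
    rw [hγ]
    exact ofFn_comp_toFn_eq_id_of_natDegree_lt (Nat.lt_succ_of_le (hdeg i))
  obtain ⟨γ, hγ0, hγ⟩ := hO _ V (fun R => by
      obtain ⟨K, hK⟩ := EGal1_lip d hN n R
      refine ⟨_, LipschitzOnWith.of_dist_le' (K := C * |K|) fun c hc c' hc' => ?_⟩
      have hnn : 0 ≤ C * |K| * dist c c' := by positivity
      refine (dist_pi_le_iff hnn).2 fun i => (dist_pi_le_iff hnn).2 fun a => ?_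
      rw [Real.dist_eq, mul_assoc]
      exact hPl _ _ (hsm _ i) (hsm _ i) _ (fun x hx => (hK c hc c' hc' i x hx).trans
        (mul_le_mul_of_nonneg_right (le_abs_self K) dist_nonneg)) a)
    (fun i => toFn (n + 1) (p0 i)) T (C' * |M'| + 1) hT (fun t ht γ hγ0 hγ s hs => by
      have h1 := (H n t _ _ ht.2 (sol t γ hγ) (by simpa only [init γ hγ0] using h0)
        (by simpa only [init γ hγ0] using hM0) s hs).2.1
      have hnn : 0 ≤ C' * |M'| := by positivity
      refine (pi_norm_le_iff_of_nonneg (by positivity)).2 fun i =>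
        (pi_norm_le_iff_of_nonneg (by positivity)).2 fun a => ?_
      have h2 := hco _ (hdg (γ s i)) a
      rw [ofFn_coeff_eq_val_of_lt _ a.2] at h2
      have h3 : TT 0 0 (ev (ofFn (n + 1) (γ s i))) ≤ |M'| := by
        have := hH.mono 0 0 12 (ev (ofFn (n + 1) (γ s i))) (by norm_num)
        rw [NN, Finset.sum_range_one] at this
        exact (this.trans (h1 i)).trans (le_abs_self _)
      have h4 := h2.trans (mul_le_mul_of_nonneg_left h3 hC')
      exact abs_le_of_sq_le_sq (by nlinarith) (by positivity))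
  refine ⟨_, _, sol T γ hγ, funext (init γ hγ0), fun t ht => ?_⟩
  have := H n T _ _ le_rfl (sol T γ hγ) (by simpa only [init γ hγ0] using h0)
    (by simpa only [init γ hγ0] using hM0) t ht
  simpa only [init γ hγ0] using this

end Vale.Agent.P244
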