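import Vale.Agent.P244.StmE

/-! P244: weighted Hardy and Sobolev inequalities on `[0,1]`. -/

open Set Filter MeasureTheory
open scoped ContDiff Topology

namespace Vale.Agent.P244

/-- Weighted square norm. -/
noncomputable def EHardy_W (m : ℕ) (h : ℝ → ℝ) : ℝ := ∫ x in (0 : ℝ)..1, om x ^ m * h x ^ 2

theorem EHardy_TT (e j : ℕ) (g : ℝ → ℝ) : TT e j g = EHardy_W (j + e) (D j g) := rfl

theorem EHardy_ii {f : ℝ → ℝ} (h : ContinuousOn f I) : IntervalIntegrable f volume 0 1 :=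
  ContinuousOn.intervalIntegrable_of_Icc zero_le_one h

theorem EHardy_cW (m : ℕ) {h : ℝ → ℝ} (hh : Sm h) :
    ContinuousOn (fun x => om x ^ m * h x ^ 2) I :=
  (contDiff_om.continuous.continuousOn.pow m).mul (hh.cont.pow 2)

theorem EHardy_iW (m : ℕ) {h : ℝ → ℝ} (hh : Sm h) :
    IntervalIntegrable (fun x => om x ^ m * h x ^ 2) volume 0 1 := EHardy_ii (EHardy_cW m hh)

theorem EHardy_W_nonneg (m : ℕ) (h : ℝ → ℝ) : 0 ≤ EHardy_W m h :=
  intervalIntegral.integral_nonneg zero_le_one fun _ hx =>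
    mul_nonneg (pow_nonneg (om_nonneg hx) _) (sq_nonneg _)

theorem EHardy_le {H H' B : ℝ → ℝ} (cH : ContinuousOn H I)
    (dH : ∀ x ∈ Ioo (0 : ℝ) 1, HasDerivAt H (H' x) x) (cB : ContinuousOn B I)
    (hB : ∀ x ∈ Ioo (0 : ℝ) 1, H' x ≤ B x) {a b : ℝ} (ha : a ∈ I) (hb : b ∈ I) (hab : a ≤ b) :
    H b - H a ≤ ∫ y in a..b, B y := by
  have s1 : Icc a b ⊆ I := Icc_subset_Icc ha.1 hb.2
  have s2 : Ioo a b ⊆ Ioo (0 : ℝ) 1 := Ioo_subset_Ioo ha.1 hb.2
  exact intervalIntegral.sub_le_integral_of_hasDeriv_right_of_le hab (cH.mono s1)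
    (fun x hx => (dH x (s2 hx)).hasDerivWithinAt) ((cB.mono s1).integrableOn_Icc)
    fun x hx => hB x (s2 hx)

/-- The Hardy inequality. -/
theorem EHardy_key (m : ℕ) {h : ℝ → ℝ} (hh : Sm h) :
    EHardy_W m h ≤ 12 * (EHardy_W (m + 1) h + EHardy_W (m + 2) (d1 h)) := by
  have co : Continuous om := contDiff_om.continuous
  have cH : ContinuousOn (fun x => -(om x ^ (m + 1) * (1 - 2 * x) * h x ^ 2)) I :=
    (((co.pow _).mul (by fun_prop)).continuousOn.mul (hh.cont.pow 2)).neg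
  have dH : ∀ x ∈ Ioo (0 : ℝ) 1, HasDerivAt (fun x => -(om x ^ (m + 1) * (1 - 2 * x) * h x ^ 2))
      (-(((m + 1 : ℝ) * om x ^ m * (1 - 2 * x) * (1 - 2 * x) + om x ^ (m + 1) * (-2)) * h x ^ 2 +
        om x ^ (m + 1) * (1 - 2 * x) * (2 * h x * d1 h x))) x := by
    intro x hx
    have h1 := (hasDerivAt_om x).pow (m + 1)
    have h2 : HasDerivAt (fun x : ℝ => 1 - 2 * x) (-2) x := by
      simpa using ((hasDerivAt_id x).const_mul 2).const_sub 1
    have h3 := (hh.has hx).pow 2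
    refine (((h1.mul h2).mul h3).neg).congr_deriv ?_
    simp only [Pi.pow_apply, Pi.mul_apply, Nat.add_sub_cancel, Nat.cast_add, Nat.cast_one,
      Nat.cast_ofNat, Nat.add_one_sub_one, pow_one]
  have cB : ContinuousOn (fun x => (4 * m + 6 : ℝ) * (om x ^ (m + 1) * h x ^ 2) +
      2 * (om x ^ (m + 2) * d1 h x ^ 2) - (m + 1 / 2 : ℝ) * (om x ^ m * h x ^ 2)) I :=
    ((continuousOn_const.mul (EHardy_cW _ hh)).add
      (continuousOn_const.mul (EHardy_cW _ hh.d1))).sub (continuousOn_const.mul (EHardy_cW _ hh))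
  have key := EHardy_le cH dH cB (fun x hx => by
    have w0 : 0 ≤ om x := (om_pos hx).le
    have wm : 0 ≤ om x ^ m := pow_nonneg w0 m
    have e1 : (1 - 2 * x) * (1 - 2 * x) = 1 - 4 * om x := by unfold om; ring
    have e2 : 0 ≤ om x ^ m * (h x * (1 - 2 * x) + 2 * om x * d1 h x) ^ 2 :=
      mul_nonneg wm (sq_nonneg _)
    have e3 : 0 ≤ om x ^ m * om x * h x ^ 2 := mul_nonneg (mul_nonneg wm w0) (sq_nonneg _)
    have e4 : om x ^ m * (h x * (1 - 2 * x) + 2 * om x * d1 h x) ^ 2 =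
        om x ^ m * h x ^ 2 * (1 - 4 * om x) + 4 * (om x ^ m * om x * (1 - 2 * x) * h x * d1 h x) +
          4 * (om x ^ m * om x * om x * d1 h x ^ 2) := by
      rw [← e1]; ring
    have e5 : (m + 1 : ℝ) * om x ^ m * (1 - 2 * x) * (1 - 2 * x) =
        (m + 1 : ℝ) * om x ^ m * (1 - 4 * om x) := by
      rw [← e1]; ring
    rw [e5, pow_succ (om x) (m + 1), pow_succ (om x) m]
    nlinarith) (left_mem_Icc.2 zero_le_one) (right_mem_Icc.2 zero_le_one) zero_le_one
  rw [intervalIntegral.integral_sub (((EHardy_iW _ hh).const_mul _).add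
      ((EHardy_iW _ hh.d1).const_mul _)) ((EHardy_iW _ hh).const_mul _),
    intervalIntegral.integral_add ((EHardy_iW _ hh).const_mul _) ((EHardy_iW _ hh.d1).const_mul _),
    intervalIntegral.integral_const_mul, intervalIntegral.integral_const_mul,
    intervalIntegral.integral_const_mul] at key
  simp only [om_zero, om_one, ne_eq, Nat.add_eq_zero_iff, one_ne_zero, and_false,
    not_false_eq_true, zero_pow, zero_mul, neg_zero, sub_self] at key
  change 0 ≤ (4 * m + 6 : ℝ) * EHardy_W (m + 1) h + 2 * EHardy_W (m + 2) (d1 h) -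
    (m + 1 / 2 : ℝ) * EHardy_W m h at key
  have p1 := EHardy_W_nonneg (m + 1) h
  have p2 := EHardy_W_nonneg (m + 2) (d1 h)
  have hm : (0 : ℝ) ≤ m := Nat.cast_nonneg m
  have hp : (0 : ℝ) < m + 1 / 2 := by positivity
  refine le_of_mul_le_mul_left ?_ hp
  nlinarith [mul_nonneg hm p1, mul_nonneg hm p2]

/-- A function is at most its mean plus the integral of a bound for its derivative. -/
theorem EHardy_sup0 {H H' B : ℝ → ℝ} (cH : ContinuousOn H I)
    (dH : ∀ x ∈ Ioo (0 : ℝ) 1, HasDerivAt H (H' x) x) (cB : ContinuousOn B I)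
    (hB : ∀ x ∈ Ioo (0 : ℝ) 1, |H' x| ≤ B x) {x : ℝ} (hx : x ∈ I) :
    H x ≤ (∫ y in (0 : ℝ)..1, H y) + ∫ y in (0 : ℝ)..1, B y := by
  obtain ⟨y, hy, hmin⟩ := isCompact_Icc.exists_isMinOn ⟨0, left_mem_Icc.2 zero_le_one⟩ cH
  have h1 : H y ≤ ∫ z in (0 : ℝ)..1, H z := by
    have := intervalIntegral.integral_mono_on zero_le_one
      (intervalIntegrable_const (μ := volume) (c := H y)) (EHardy_ii cH) fun z hz => hmin hz
    simpa using this
  have B0 : ∀ z ∈ I, 0 ≤ B z := le_of_Ioo zero_lt_one continuousOn_const cB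
    fun z hz => (abs_nonneg _).trans (hB z hz)
  have h2 : ∀ a ∈ I, ∀ b ∈ I, a ≤ b → ∫ z in a..b, B z ≤ ∫ z in (0 : ℝ)..1, B z := by
    intro a ha b hb hab
    refine intervalIntegral.integral_mono_interval ha.1 hab hb.2 ?_ (EHardy_ii cB)
    exact (ae_restrict_iff' measurableSet_Ioc).2
      (Eventually.of_forall fun z hz => B0 z (Ioc_subset_Icc_self hz))
  rcases le_total y x with h | h
  · have h3 := EHardy_le cH dH cB (fun z hz => (le_abs_self _).trans (hB z hz)) hy hx h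
    have h4 := h2 y hy x hx h
    linarith
  · have h3 := EHardy_le (H := fun z => -H z) (H' := fun z => -H' z) cH.neg
      (fun z hz => (dH z hz).neg) cB (fun z hz => (neg_le_abs _).trans (hB z hz)) hx hy h
    have h4 := h2 x hx y hy h
    linarith

theorem EHardy_sup1 (m : ℕ) {h : ℝ → ℝ} (hh : Sm h) {x : ℝ} (hx : x ∈ I) :
    om x ^ m * h x ^ 2 ≤
      2 * EHardy_W m h + m * EHardy_W (m - 1) h + EHardy_W m (d1 h) := by
  have dH : ∀ x ∈ Ioo (0 : ℝ) 1, HasDerivAt (fun x => om x ^ m * h x ^ 2)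
      ((m : ℝ) * om x ^ (m - 1) * (1 - 2 * x) * h x ^ 2 + om x ^ m * (2 * h x * d1 h x)) x := by
    intro x hx
    have h1 := (hasDerivAt_om x).pow m
    have h3 := (hh.has hx).pow 2
    refine (h1.mul h3).congr_deriv ?_
    simp only [Pi.pow_apply, Nat.cast_ofNat, Nat.add_one_sub_one, pow_one]
  have cB : ContinuousOn (fun x => (m : ℝ) * (om x ^ (m - 1) * h x ^ 2) +
      (om x ^ m * h x ^ 2 + om x ^ m * d1 h x ^ 2)) I :=
    (continuousOn_const.mul (EHardy_cW _ hh)).add ((EHardy_cW _ hh).add (EHardy_cW _ hh.d1))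
  have key := EHardy_sup0 (EHardy_cW m hh) dH cB (fun x hx => by
    have w0 : 0 ≤ om x := (om_pos hx).le
    have wm : 0 ≤ om x ^ m := pow_nonneg w0 m
    have a0 : 0 ≤ (m : ℝ) * (om x ^ (m - 1) * h x ^ 2) :=
      mul_nonneg (Nat.cast_nonneg m) (mul_nonneg (pow_nonneg w0 _) (sq_nonneg _))
    have a1 := mul_nonneg a0 hx.1.le
    have a2 := mul_nonneg a0 (sub_nonneg.2 hx.2.le)
    have a3 := mul_nonneg wm (sq_nonneg (h x - d1 h x))
    have a4 := mul_nonneg wm (sq_nonneg (h x + d1 h x))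
    rw [abs_le]
    constructor <;> nlinarith) hx
  rw [intervalIntegral.integral_add ((EHardy_iW _ hh).const_mul _)
      ((EHardy_iW _ hh).add (EHardy_iW _ hh.d1)),
    intervalIntegral.integral_add (EHardy_iW _ hh) (EHardy_iW _ hh.d1),
    intervalIntegral.integral_const_mul] at key
  change _ ≤ EHardy_W m h + ((m : ℝ) * EHardy_W (m - 1) h +
    (EHardy_W m h + EHardy_W m (d1 h))) at key
  linarith

theorem EHardy_nonneg (e j : ℕ) (g : ℝ → ℝ) : 0 ≤ TT e j g := EHardy_W_nonneg _ _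

theorem EHardy_TT_le {e j k : ℕ} (h : j ≤ k) (g : ℝ → ℝ) : TT e j g ≤ NN e k g :=
  Finset.single_le_sum (f := fun j => TT e j g) (fun i _ => EHardy_nonneg e i g)
    (Finset.mem_range.2 (Nat.lt_succ_of_le h))

theorem EHardy_step (e j : ℕ) {g : ℝ → ℝ} (hg : Sm g) :
    EHardy_W (j + e) (D (j + 1) g) ≤ 12 * (TT e (j + 1) g + TT e (j + 2) g) := by
  have h := EHardy_key (j + e) (hg.D (j + 1))
  rw [← D_succ, show j + e + 1 = j + 1 + e by ring, show j + e + 2 = j + 2 + e by ring] at h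
  exact h

theorem EHardy_der (e k : ℕ) :
    ∃ C, 0 ≤ C ∧ ∀ g, Sm g → NN e k (d1 g) ≤ C * NN e (k + 2) g := by
  refine ⟨(k + 1 : ℕ) * 24, by positivity, fun g hg => ?_⟩
  have h : ∀ j ∈ Finset.range (k + 1), TT e j (d1 g) ≤ 24 * NN e (k + 2) g := by
    intro j hj
    have hj' := Finset.mem_range.1 hj
    have h1 := EHardy_step e j hg
    have h2 := EHardy_TT_le (e := e) (show j + 1 ≤ k + 2 by omega) g
    have h3 := EHardy_TT_le (e := e) (show j + 2 ≤ k + 2 by omega) g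
    rw [EHardy_TT, ← D_succ']
    linarith
  have h2 := Finset.sum_le_card_nsmul _ _ _ h
  rw [Finset.card_range, nsmul_eq_mul] at h2
  unfold NN at h2 ⊢
  linarith

theorem EHardy_sup (e j : ℕ) : ∃ C, 0 ≤ C ∧ ∀ g, Sm g → ∀ x ∈ I,
    om x ^ (j + e) * D j g x ^ 2 ≤ C * NN e (j + 2) g := by
  refine ⟨26 + 24 * (j + e : ℕ), by positivity, fun g hg x hx => ?_⟩
  have h0 := EHardy_sup1 (j + e) (hg.D j) hx
  have h1 := EHardy_step e j hg
  have t0 := EHardy_TT_le (e := e) (show j ≤ j + 2 by omega) g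
  have t1 := EHardy_TT_le (e := e) (show j + 1 ≤ j + 2 by omega) g
  have t2 := EHardy_TT_le (e := e) (show j + 2 ≤ j + 2 by omega) g
  have h2 : ((j + e : ℕ) : ℝ) * EHardy_W (j + e - 1) (D j g) ≤
      ((j + e : ℕ) : ℝ) * (24 * NN e (j + 2) g) := by
    rcases Nat.eq_zero_or_pos (j + e) with h | h
    · rw [h]; simp
    · refine mul_le_mul_of_nonneg_left ?_ (Nat.cast_nonneg _)
      have h3 := EHardy_key (j + e - 1) (hg.D j)
      rw [← D_succ, show j + e - 1 + 1 = j + e by omega,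
        show j + e - 1 + 2 = j + 1 + e by omega, ← EHardy_TT, ← EHardy_TT] at h3
      linarith
  rw [← D_succ, ← EHardy_TT] at h0
  linarith

theorem EHardy_iter (j k : ℕ) :
    ∃ C, 0 ≤ C ∧ ∀ g, Sm g → NN 0 k (D j g) ≤ C * NN 0 (k + 2 * j) g := by
  induction j with
  | zero => exact ⟨1, zero_le_one, fun g _ => by simp [D_zero]⟩
  | succ j ih =>
    obtain ⟨C, hC, h⟩ := ih
    obtain ⟨C', hC', h'⟩ := EHardy_der 0 (k + 2 * j)
    refine ⟨C * C', mul_nonneg hC hC', fun g hg => ?_⟩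
    rw [D_succ', mul_assoc]
    exact (h _ hg.d1).trans (mul_le_mul_of_nonneg_left (h' g hg) hC)

theorem EHardy_usup (j : ℕ) : ∃ C, 0 ≤ C ∧ ∀ g, Sm g → ∀ x ∈ I,
    D j g x ^ 2 ≤ C * NN 0 (2 * j + 2) g := by
  obtain ⟨C, hC, h⟩ := EHardy_sup 0 0
  obtain ⟨C', hC', h'⟩ := EHardy_iter j 2
  refine ⟨C * C', mul_nonneg hC hC', fun g hg x hx => ?_⟩
  have h1 := h _ (hg.D j) x hx
  have h2 := mul_le_mul_of_nonneg_left (h' g hg) hC
  rw [D_zero, add_zero, pow_zero, one_mul] at h1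
  rw [mul_assoc, add_comm (2 * j) 2]
  exact h1.trans h2

theorem EHardy_add (e k : ℕ) {g h : ℝ → ℝ} (hg : Sm g) (hh : Sm h) :
    NN e k (fun x => g x + h x) ≤ 2 * (NN e k g + NN e k h) := by
  unfold NN
  rw [← Finset.sum_add_distrib, Finset.mul_sum]
  refine Finset.sum_le_sum fun j _ => ?_
  have hs : Sm (fun x => g x + h x) := ContDiffOn.add hg hh
  unfold TT
  rw [← intervalIntegral.integral_add (EHardy_iW _ (hg.D j)) (EHardy_iW _ (hh.D j)),
    ← intervalIntegral.integral_const_mul]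
  refine intervalIntegral.integral_mono_on zero_le_one (EHardy_iW _ (hs.D j))
    (((EHardy_iW _ (hg.D j)).add (EHardy_iW _ (hh.D j))).const_mul _) fun x hx => ?_
  have hj : ((j : ℕ∞) : WithTop ℕ∞) ≤ ∞ := by exact_mod_cast le_top
  have e1 : D j (fun x => g x + h x) x = D j g x + D j h x :=
    iteratedDerivWithin_fun_add hx uI ((hg x hx).of_le hj) ((hh x hx).of_le hj)
  rw [e1]
  have wm : 0 ≤ om x ^ (j + e) := pow_nonneg (om_nonneg hx) _
  nlinarith [mul_nonneg wm (sq_nonneg (D j g x - D j h x))]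

theorem EHardy_of_bound (e k : ℕ) {g : ℝ → ℝ} {M : ℝ} (hg : Sm g)
    (hM : ∀ j ≤ k, ∀ x ∈ I, |D j g x| ≤ M) : NN e k g ≤ (k + 1) * M ^ 2 := by
  have h : ∀ j ∈ Finset.range (k + 1), TT e j g ≤ M ^ 2 := by
    intro j hj
    have hj' := Nat.lt_succ_iff.1 (Finset.mem_range.1 hj)
    have := intervalIntegral.integral_mono_on zero_le_one (EHardy_iW (j + e) (hg.D j))
      (intervalIntegrable_const (μ := volume) (c := M ^ 2)) fun x hx => by
        have w1 : om x ^ (j + e) ≤ 1 := pow_le_one₀ (om_nonneg hx) (om_le.trans (by norm_num))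
        have w2 : D j g x ^ 2 ≤ M ^ 2 := by
          rw [← sq_abs]
          exact pow_le_pow_left₀ (abs_nonneg _) (hM j hj' x hx) 2
        nlinarith [sq_nonneg (D j g x)]
    simpa [TT] using this
  have h2 := Finset.sum_le_card_nsmul _ _ _ h
  rw [Finset.card_range, nsmul_eq_mul] at h2
  unfold NN
  exact_mod_cast h2

theorem hardy : HardyStmt where
  nonneg := EHardy_nonneg
  mono := fun e k l g h =>
    Finset.sum_le_sum_of_subset_of_nonneg (Finset.range_mono (Nat.succ_le_succ h))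
      fun i _ _ => EHardy_nonneg e i g
  shift := fun e k g => by
    unfold NN
    rw [Finset.sum_range_succ', add_comm]
    refine congrArg _ (Finset.sum_congr rfl fun j _ => ?_)
    rw [EHardy_TT, EHardy_TT, D_succ', show j + 1 + e = j + (e + 1) by ring]
  add := fun e k g h hg hh => EHardy_add e k hg hh
  congr := fun e k g h hgh => by
    unfold NN
    refine Finset.sum_congr rfl fun j _ => intervalIntegral.integral_congr fun x hx => ?_
    rw [uIcc_of_le zero_le_one] at hx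
    simp only [D_congr hgh j hx]
  of_bound := fun e k g M hg hM => EHardy_of_bound e k hg hM
  sup := EHardy_sup
  usup := EHardy_usup
  der := EHardy_der

end Vale.Agent.P244
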