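import Vale.Agent.P244.StmE

/-! P244: a subsequence along which all jets converge uniformly. -/

open Set Filter
open scoped ContDiff Topology BoundedContinuousFunction

namespace Vale.Agent.P244

theorem EJetLim_aa {K ι : Type} [PseudoMetricSpace K] [CompactSpace K] [Countable ι]
    (F : ℕ → ι → K → ℝ)
    (h : ∀ i, ∃ C, ∀ n p, |F n i p| ≤ C ∧ ∀ q, dist (F n i p) (F n i q) ≤ C * dist p q) :
    ∃ φ : ℕ → ℕ, StrictMono φ ∧ ∃ G : ι → K → ℝ, ∀ i, Continuous (G i) ∧
      TendstoUniformly (fun n => F (φ n) i) (G i) atTop := by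
  choose C hC using h
  have hL : ∀ n i, LipschitzWith (C i).toNNReal (F n i) := fun n i =>
    LipschitzWith.of_dist_le' fun p q => (hC i n p).2 q
  let B : ℕ → ι → (K →ᵇ ℝ) := fun n i =>
    BoundedContinuousFunction.mkOfCompact ⟨F n i, (hL n i).continuous⟩
  have hc : ∀ i, IsCompact (closure (range fun n => B n i)) := fun i => by
    refine BoundedContinuousFunction.arzela_ascoli (Icc (-C i) (C i)) isCompact_Icc _ ?_ ?_
    · rintro _ p ⟨n, rfl⟩
      exact abs_le.1 (hC i n p).1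
    · refine (LipschitzWith.uniformEquicontinuous _ (C i).toNNReal ?_).equicontinuous
      rintro ⟨_, n, rfl⟩
      exact hL n i
  obtain ⟨G, -, φ, hφ, hG⟩ := (isCompact_univ_pi hc).tendsto_subseq (x := B)
    fun n i _ => subset_closure ⟨n, rfl⟩
  exact ⟨φ, hφ, fun i => G i, fun i => ⟨(G i).continuous,
    BoundedContinuousFunction.tendsto_iff_tendstoUniformly.1 (tendsto_pi_nhds.1 hG i)⟩⟩

theorem EJetLim_aa' {ι : Type} [Countable ι] {S : Set (ℝ × ℝ)} (hS : IsCompact S)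
    (F : ℕ → ι → ℝ × ℝ → ℝ) (h : ∀ i, ∃ C, ∀ n, ∀ p ∈ S, |F n i p| ≤ C ∧
      ∀ q ∈ S, dist (F n i p) (F n i q) ≤ C * dist p q) :
    ∃ φ : ℕ → ℕ, StrictMono φ ∧ ∃ G : ι → ℝ × ℝ → ℝ, ∀ i, ContinuousOn (G i) S ∧
      TendstoUniformlyOn (fun n => F (φ n) i) (G i) atTop S := by
  have := isCompact_iff_compactSpace.1 hS
  obtain ⟨φ, hφ, G, hG⟩ := EJetLim_aa (K := S) (fun n i p => F n i p) fun i =>
    (h i).imp fun C hC n p => ⟨(hC n p p.2).1, fun q => (hC n p p.2).2 q q.2⟩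
  have e : ∀ i, Function.extend Subtype.val (G i) 0 ∘ Subtype.val = G i := fun i =>
    Function.extend_comp Subtype.val_injective _ _
  refine ⟨φ, hφ, fun i => Function.extend Subtype.val (G i) 0, fun i => ⟨?_, ?_⟩⟩
  · rw [continuousOn_iff_continuous_domRestrict]
    exact (hG i).1.congr fun p => (congrFun (e i) p).symm
  · rw [tendstoUniformlyOn_iff_tendstoUniformly_comp_coe, e]
    exact (hG i).2

theorem EJetLim_ext {g g' : ℝ → ℝ} (hg : ContinuousOn g I) (hg' : ContinuousOn g' I)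
    (h : ∀ x ∈ Ioo (0 : ℝ) 1, HasDerivAt g (g' x) x) {x : ℝ} (hx : x ∈ I) :
    HasDerivWithinAt g (g' x) I x := by
  have e : closure (Ioo (0 : ℝ) 1) = I := closure_Ioo zero_ne_one
  rw [hasDerivWithinAt_iff_hasFDerivWithinAt, ← e]
  refine hasFDerivWithinAt_closure_of_tendsto_fderiv
    (fun y hy => (h y hy).differentiableAt.differentiableWithinAt) (convex_Ioo _ _) isOpen_Ioo
    (fun y hy => (hg y (e ▸ hy)).mono Ioo_subset_Icc_self) ?_
  refine (((ContinuousLinearMap.toSpanSingletonCLE (𝕜 := ℝ) (E := ℝ)).continuous.tendsto _).comp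
    ((hg' x hx).mono Ioo_subset_Icc_self)).congr' ?_
  filter_upwards [self_mem_nhdsWithin] with y hy using (h y hy).hasFDerivAt.fderiv.symm

theorem EJetLim_sm {g : ℕ → ℝ → ℝ} (h : ∀ j, ∀ x ∈ I, HasDerivWithinAt (g j) (g (j + 1) x) I x) :
    Sm (g 0) ∧ ∀ j, ∀ x ∈ I, D j (g 0) x = g j x := by
  have h1 : ∀ (n : ℕ) j, ContDiffOn ℝ n (g j) I := fun n => by
    induction n with
    | zero => exact fun j => contDiffOn_zero.2 fun x hx => (h j x hx).continuousWithinAt
    | succ n ih =>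
      intro j
      rw [Nat.cast_succ, contDiffOn_succ_iff_derivWithin uI]
      exact ⟨fun x hx => (h j x hx).differentiableWithinAt, by simp,
        (ih (j + 1)).congr fun x hx => d1_eq hx (h j x hx)⟩
  refine ⟨contDiffOn_infty.2 fun n => h1 n 0, fun j => ?_⟩
  induction j with
  | zero => intro x _; rw [D_zero]
  | succ j ih =>
    intro x hx
    rw [D_succ, d1_congr ih hx, d1_eq hx (h j x hx)]

theorem jetLim : JetLimStmt := by
  intro T u _ hu hb
  choose C hC using hb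
  have hd : ∀ n i t j, ∀ x ∈ I, HasDerivWithinAt (D j (u n i t)) (D (j + 1) (u n i t) x) I x :=
    fun n i t j x hx => D_succ j (u n i t) ▸ ((hu n i t).D j).hasW hx
  obtain ⟨φ, hφ, G, hG⟩ := EJetLim_aa' (ι := Fin 3 × ℕ) (S := Icc 0 T ×ˢ I)
    (isCompact_Icc.prod isCompact_Icc) (fun n a p => D a.2 (u n a.1 p.1) p.2) fun a => by
      refine ⟨|C a.2| + |C (a.2 + 1)|, fun n p hp => ⟨?_, fun q hq => ?_⟩⟩
      · linarith [(hC a.2 n a.1 p.1 hp.1 p.2 hp.2).1, le_abs_self (C a.2), abs_nonneg (C (a.2 + 1))]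
      have h1 := (hC a.2 n a.1 p.1 hp.1 p.2 hp.2).2 q.1 hq.1
      have h2 := (convex_Icc (0 : ℝ) 1).norm_image_sub_le_of_norm_hasDerivWithin_le
        (hd n a.1 q.1 a.2) (fun x hx => (hC (a.2 + 1) n a.1 q.1 hq.1 x hx).1) hq.2 hp.2
      rw [← Real.dist_eq, ← Real.dist_eq] at h1
      rw [← dist_eq_norm, ← dist_eq_norm] at h2
      refine (dist_triangle _ (D a.2 (u n a.1 q.1) p.2) _).trans ?_
      rw [add_mul]
      refine add_le_add (h1.trans ?_) (h2.trans ?_) <;> gcongr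
      exacts [le_abs_self _, le_max_left _ _, le_abs_self _, le_max_right _ _]
  have key : ∀ i, ∀ t ∈ Icc 0 T, Sm (fun x => G (i, 0) (t, x)) ∧
      ∀ j, ∀ x ∈ I, D j (fun x => G (i, 0) (t, x)) x = G (i, j) (t, x) := fun i t ht => by
    have c : ∀ j, ContinuousOn (fun x => G (i, j) (t, x)) I := fun j =>
      (hG (i, j)).1.comp (by fun_prop) fun x hx => ⟨ht, hx⟩
    have v : ∀ j, TendstoUniformlyOn (fun n => D j (u (φ n) i t)) (fun x => G (i, j) (t, x))
        atTop (Ioo 0 1) := fun j =>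
      ((hG (i, j)).2.comp (Prod.mk t)).mono fun x hx => ⟨ht, Ioo_subset_Icc_self hx⟩
    refine EJetLim_sm (g := fun j x => G (i, j) (t, x)) fun j x hx =>
      EJetLim_ext (c j) (c (j + 1)) (fun y hy => ?_) hx
    exact hasDerivAt_of_tendstoUniformlyOn isOpen_Ioo (v (j + 1))
      (Eventually.of_forall fun n z hz =>
        (hd _ i t j z (Ioo_subset_Icc_self hz)).hasDerivAt (I_nhds hz))
      (fun z hz => (v j).tendsto_at hz) hy
  refine ⟨φ, hφ, fun i t x => G (i, 0) (t, x), fun i t ht => (key i t ht).1, fun i j => ?_⟩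
  have e : EqOn (G (i, j)) (fun p : ℝ × ℝ => D j (fun x => G (i, 0) (p.1, x)) p.2)
      (Icc 0 T ×ˢ I) := fun p hp => ((key i p.1 hp.1).2 j p.2 hp.2).symm
  exact ⟨(hG (i, j)).1.congr e.symm, (hG (i, j)).2.congr_right e⟩

end Vale.Agent.P244
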