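import Vale.Agent.P244.StmE

/-! P244: passing to the limit in the Galerkin sequence. -/

open Set Filter MeasureTheory
open scoped ContDiff Topology

namespace Vale.Agent.P244

theorem ELim_int {g : ℝ → ℝ} (h : ContinuousOn g I) : IntervalIntegrable g volume 0 1 :=
  h.intervalIntegrable_of_Icc zero_le_one

theorem ELim_ev (π : Polynomial ℝ) : ContinuousOn (ev π) I := π.continuous.continuousOn

theorem ELim_le {g : ℝ → ℝ} {C : ℝ} (h : ∀ x ∈ I, |g x| ≤ C) : |∫ x in (0 : ℝ)..1, g x| ≤ C := by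
  have := intervalIntegral.norm_integral_le_of_norm_le_const (a := 0) (b := 1) (C := C) (f := g)
    fun x hx => h x (by rw [uIoc_of_le zero_le_one] at hx; exact Ioc_subset_Icc_self hx)
  simpa using this

theorem ELim_lip {T C : ℝ} {g g' : ℝ → ℝ}
    (h : ∀ s ∈ Icc 0 T, HasDerivWithinAt g (g' s) (Icc 0 T) s) (hb : ∀ s ∈ Icc 0 T, |g' s| ≤ C)
    {s t : ℝ} (hs : s ∈ Icc 0 T) (ht : t ∈ Icc 0 T) : |g t - g s| ≤ C * |t - s| :=
  (convex_Icc 0 T).norm_image_sub_le_of_norm_hasDerivWithin_le h hb hs ht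

/-- differentiation under the integral -/
theorem ELim_der {T C : ℝ} {F F' : Fn} (hc : ∀ s ∈ Icc 0 T, ContinuousOn (F s) I)
    (h : ∀ s ∈ Icc 0 T, ∀ x ∈ I, HasDerivWithinAt (fun σ => F σ x) (F' s x) (Icc 0 T) s)
    (hb : ∀ s ∈ Icc 0 T, ∀ x ∈ I, |F' s x| ≤ C) {t : ℝ} (ht : t ∈ Icc 0 T) :
    HasDerivWithinAt (fun s => ∫ x in (0 : ℝ)..1, F s x) (∫ x in (0 : ℝ)..1, F' t x)
      (Icc 0 T) t := by
  rw [hasDerivWithinAt_iff_tendsto_slope]
  have hI : ∀ x ∈ uIoc (0 : ℝ) 1, x ∈ I := fun x hx => by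
    rw [uIoc_of_le zero_le_one] at hx; exact Ioc_subset_Icc_self hx
  have key := intervalIntegral.tendsto_integral_filter_of_dominated_convergence (μ := volume)
    (a := 0) (b := 1) (l := 𝓝[Icc 0 T \ {t}] t) (F := fun s x => slope (fun σ => F σ x) t s)
    (f := F' t) (fun _ => C) ?_ ?_ intervalIntegrable_const ?_
  · refine key.congr' ?_
    filter_upwards [self_mem_nhdsWithin] with s hs
    simp only [slope_def_field, div_eq_mul_inv]
    rw [intervalIntegral.integral_mul_const,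
      intervalIntegral.integral_sub (ELim_int (hc s hs.1)) (ELim_int (hc t ht))]
  · filter_upwards [self_mem_nhdsWithin] with s hs
    simp only [slope_def_field]
    exact (ELim_int (((hc s hs.1).sub (hc t ht)).div_const _)).def'.aestronglyMeasurable
  · filter_upwards [self_mem_nhdsWithin] with s hs
    refine Eventually.of_forall fun x hx => ?_
    have h1 := ELim_lip (fun σ hσ => h σ hσ x (hI x hx)) (fun σ hσ => hb σ hσ x (hI x hx)) ht hs.1
    have h2 : 0 < |s - t| := abs_pos.2 (sub_ne_zero.2 hs.2)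
    rw [slope_def_field, Real.norm_eq_abs, abs_div, div_le_iff₀ h2]
    exact h1
  · exact Eventually.of_forall fun x hx =>
      hasDerivWithinAt_iff_tendsto_slope.1 (h t ht x (hI x hx))

/-- a continuous function orthogonal to all polynomials vanishes -/
theorem ELim_zero {g : ℝ → ℝ} (hg : ContinuousOn g I)
    (h : ∀ π : Polynomial ℝ, ∫ x in (0 : ℝ)..1, g x * ev π x = 0) : ∀ x ∈ I, g x = 0 := by
  obtain ⟨M, hM⟩ := isCompact_Icc.exists_bound_of_continuousOn hg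
  have hM0 : 0 ≤ M := (norm_nonneg _).trans (hM 0 (left_mem_Icc.2 zero_le_one))
  have h1 : ∫ x in (0 : ℝ)..1, g x * g x ≤ 0 := by
    refine le_of_forall_pos_le_add fun ε hε => ?_
    obtain ⟨p, hp⟩ := exists_polynomial_near_of_continuousOn 0 1 g hg (ε / (M + 1)) (by positivity)
    have e : ∫ x in (0 : ℝ)..1, g x * g x = ∫ x in (0 : ℝ)..1, (g x * g x - g x * ev p x) := by
      rw [intervalIntegral.integral_sub (ELim_int (hg.fun_mul hg))
        (ELim_int (hg.fun_mul (ELim_ev p))), h p, sub_zero]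
    rw [e, zero_add]
    refine (le_abs_self _).trans (ELim_le fun x hx => ?_)
    rw [← mul_sub, abs_mul, abs_sub_comm]
    calc |g x| * |ev p x - g x| ≤ (M + 1) * (ε / (M + 1)) :=
          mul_le_mul ((hM x hx).trans (by linarith)) (hp x hx).le (abs_nonneg _) (by linarith)
      _ = ε := by field_simp
  intro x hx
  by_contra hne
  have := intervalIntegral.integral_pos (f := fun x => g x * g x) zero_lt_one (hg.mul hg)
    (fun y _ => mul_self_nonneg _) ⟨x, hx, mul_self_pos.2 hne⟩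
  linarith

/-- the jet of order two -/
noncomputable def ELim_jet (g : Fin 3 → Fn) (p : ℝ × ℝ) : ℝ × V3 × V3 × V3 :=
  (p.2, fun l => D 0 (g l p.1) p.2, fun l => D 1 (g l p.1) p.2, fun l => D 2 (g l p.1) p.2)

/-- the right side as a function of the jet -/
noncomputable def ELim_F (d : ℝ) (N : ℝ × V3 × V3 → V3) (i : Fin 3) (q : ℝ × V3 × V3 × V3) : ℝ :=
  4 * (1 - om q.1 * q.2.1 2) * (om q.1 * q.2.2.2 i + 2 * (1 - 2 * q.1) * q.2.2.1 i) +
    be d q.1 * q.2.2.1 i + N (q.1, q.2.1, fun l => om q.1 * q.2.2.1 l) i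

theorem ELim_F_cont (d : ℝ) {N : ℝ × V3 × V3 → V3} (hN : Continuous N) (i : Fin 3) :
    Continuous (ELim_F d N i) := by
  unfold ELim_F om be
  fun_prop

theorem ELim_rhs (d : ℝ) (N : ℝ × V3 × V3 → V3) (g : Fin 3 → Fn) (i : Fin 3) (t x : ℝ) :
    rhs d N (sl g t) i x = ELim_F d N i (ELim_jet g (t, x)) := by
  simp only [ELim_F, ELim_jet, D_zero, D_one, D_two]
  rfl

theorem ELim_norm {a : ℝ} {b c e : V3} {R : ℝ} (ha : |a| ≤ R)
    (h : ∀ l, |b l| ≤ R ∧ |c l| ≤ R ∧ |e l| ≤ R) : ‖(a, b, c, e)‖ ≤ R := by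
  have hR : 0 ≤ R := (abs_nonneg _).trans ha
  simp only [Prod.norm_def, max_le_iff, pi_norm_le_iff_of_nonneg hR, Real.norm_eq_abs]
  exact ⟨ha, fun l => (h l).1, fun l => (h l).2.1, fun l => (h l).2.2⟩

theorem ELim_unif {T : ℝ} {v : ℕ → Fin 3 → Fn} {f : Fin 3 → Fn}
    (hc : ∀ i j, ContinuousOn (fun p : ℝ × ℝ => D j (f i p.1) p.2) (Icc 0 T ×ˢ I))
    (hu : ∀ i j, TendstoUniformlyOn (fun n (p : ℝ × ℝ) => D j (v n i p.1) p.2)
      (fun p : ℝ × ℝ => D j (f i p.1) p.2) atTop (Icc 0 T ×ˢ I))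
    {G : ℝ × V3 × V3 × V3 → ℝ} (hG : Continuous G) :
    ContinuousOn (fun p => G (ELim_jet f p)) (Icc 0 T ×ˢ I) ∧
      TendstoUniformlyOn (fun n p => G (ELim_jet (v n) p)) (fun p => G (ELim_jet f p)) atTop
        (Icc 0 T ×ˢ I) := by
  have h1 : ContinuousOn (ELim_jet f) (Icc 0 T ×ˢ I) :=
    continuousOn_snd.prodMk ((continuousOn_pi.2 fun l => hc l 0).prodMk
      ((continuousOn_pi.2 fun l => hc l 1).prodMk (continuousOn_pi.2 fun l => hc l 2)))
  have h2 : ∀ ε > 0, ∀ᶠ n in atTop, ∀ p ∈ Icc 0 T ×ˢ I,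
      ‖ELim_jet f p - ELim_jet (v n) p‖ ≤ ε := by
    intro ε hε
    have h3 : ∀ j, ∀ᶠ n in atTop, ∀ l, ∀ p ∈ Icc 0 T ×ˢ I,
        dist (D j (f l p.1) p.2) (D j (v n l p.1) p.2) < ε := fun j =>
      eventually_all.2 fun l => Metric.tendstoUniformlyOn_iff.1 (hu l j) ε hε
    filter_upwards [h3 0, h3 1, h3 2] with n a0 a1 a2 p hp
    exact ELim_norm (by simpa [ELim_jet] using hε.le) fun l =>
      ⟨(a0 l p hp).le, (a1 l p hp).le, (a2 l p hp).le⟩
  have h4 : TendstoUniformlyOn (fun n p => ELim_jet (v n) p) (ELim_jet f) atTop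
      (Icc 0 T ×ˢ I) := by
    refine Metric.tendstoUniformlyOn_iff.2 fun ε hε => ?_
    filter_upwards [h2 (ε / 2) (by positivity)] with n hn p hp
    rw [dist_eq_norm]
    linarith [hn p hp]
  obtain ⟨M, hM⟩ := (isCompact_Icc.prod isCompact_Icc).exists_bound_of_continuousOn h1
  refine ⟨hG.comp_continuousOn h1, UniformContinuousOn.comp_tendstoUniformlyOn_eventually
    (s := Metric.closedBall 0 (M + 1)) ?_ ?_
    ((isCompact_closedBall _ _).uniformContinuousOn_of_continuous hG.continuousOn) h4⟩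
  · filter_upwards [h2 1 one_pos] with n hn p hp
    rw [mem_closedBall_zero_iff]
    have := norm_sub_norm_le (ELim_jet (v n) p) (ELim_jet f p)
    rw [norm_sub_rev] at this
    linarith [hn p hp, hM p hp]
  · intro p hp
    rw [mem_closedBall_zero_iff]
    linarith [hM p hp]

/-- a time primitive of a jointly continuous function -/
theorem ELim_prim {T : ℝ} (hT : 0 < T) {r : ℝ × ℝ → ℝ} (hr : ContinuousOn r (Icc 0 T ×ˢ I)) :
    ∃ R : Fn, (∀ x, R 0 x = 0) ∧ (∀ s, Continuous (R s)) ∧ ∀ s ∈ Icc 0 T, ∀ x ∈ I,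
      HasDerivWithinAt (fun σ => R σ x) (r (s, x)) (Icc 0 T) s := by
  let c : ℝ × ℝ → ℝ × ℝ := fun p => (max 0 (min p.1 T), max 0 (min p.2 1))
  have hc : Continuous c := by fun_prop
  have hm : ∀ p, c p ∈ Icc 0 T ×ˢ I := fun p =>
    ⟨⟨le_max_left _ _, max_le hT.le (min_le_right _ _)⟩,
      ⟨le_max_left _ _, max_le zero_le_one (min_le_right _ _)⟩⟩
  have hrc : Continuous fun p => r (c p) := hr.comp_continuous hc hm
  refine ⟨fun s x => ∫ σ in (0 : ℝ)..s, r (c (σ, x)), fun x => by simp, fun s => ?_,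
    fun s hs x hx => ?_⟩
  · exact intervalIntegral.continuous_parametric_intervalIntegral_of_continuous'
      (f := fun x σ => r (c (σ, x))) (hrc.comp continuous_swap) 0 s
  · have h1 : Continuous fun σ => r (c (σ, x)) := hrc.comp (by fun_prop)
    have h2 := (h1.integral_hasStrictDerivAt 0 s).hasDerivAt.hasDerivWithinAt (s := Icc 0 T)
    have e : c (s, x) = (s, x) := by
      simp only [c, min_eq_left hs.2, min_eq_left hx.2, max_eq_right hs.1, max_eq_right hx.1]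
    rwa [e] at h2

theorem ELim_key {T C : ℝ} {u w r : ℕ → Fn} {f R ρ : Fn} {f0 : ℝ → ℝ} {π : ℝ → ℝ}
    (hπ : ContinuousOn π I) (hf0 : ContinuousOn f0 I)
    (hu : ∀ n, ∀ s ∈ Icc 0 T, ContinuousOn (u n s) I)
    (hw : ∀ n, ∀ s ∈ Icc 0 T, ContinuousOn (w n s) I)
    (hr : ∀ n, ∀ s ∈ Icc 0 T, ContinuousOn (r n s) I)
    (hf : ∀ s ∈ Icc 0 T, ContinuousOn (f s) I) (hR : ∀ s ∈ Icc 0 T, ContinuousOn (R s) I)
    (hρ : ∀ s ∈ Icc 0 T, ContinuousOn (ρ s) I) (hR0 : ∀ x, R 0 x = 0)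
    (du : ∀ n, ∀ s ∈ Icc 0 T, ∀ x ∈ I, HasDerivWithinAt (fun σ => u n σ x) (w n s x) (Icc 0 T) s)
    (dR : ∀ s ∈ Icc 0 T, ∀ x ∈ I, HasDerivWithinAt (fun σ => R σ x) (ρ s x) (Icc 0 T) s)
    (bd : ∀ n, ∀ s ∈ Icc 0 T, ∀ x ∈ I, |w n s x - ρ s x| ≤ C)
    (lim : ∀ ε > 0, ∀ᶠ n in atTop, ∀ s ∈ Icc 0 T, ∀ x ∈ I,
      |f s x - u n s x| ≤ ε ∧ |ρ s x - r n s x| ≤ ε)
    (orth : ∀ᶠ n in atTop, (∀ s ∈ Icc 0 T, ∫ x in (0 : ℝ)..1, (w n s x - r n s x) * π x = 0) ∧
      ∫ x in (0 : ℝ)..1, (u n 0 x - f0 x) * π x = 0)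
    {t : ℝ} (ht : t ∈ Icc 0 T) : ∫ x in (0 : ℝ)..1, (f t x - f0 x - R t x) * π x = 0 := by
  obtain ⟨M, hM⟩ := isCompact_Icc.exists_bound_of_continuousOn hπ
  have hM0 : 0 ≤ M := (norm_nonneg _).trans (hM 0 (left_mem_Icc.2 zero_le_one))
  have hT : 0 ≤ T := ht.1.trans ht.2
  have h0 : (0 : ℝ) ∈ Icc 0 T := left_mem_Icc.2 hT
  have mul : ∀ {a ε x : ℝ}, x ∈ I → |a| ≤ ε → |a * π x| ≤ ε * M := fun hx ha => by
    rw [abs_mul]
    exact mul_le_mul ha (hM _ hx) (abs_nonneg _) ((abs_nonneg _).trans ha)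
  refine abs_nonpos_iff.1 (le_of_forall_pos_le_add fun η hη => ?_)
  have hK : 0 < (M + 1) * (T + 1) := by positivity
  set ε := η / ((M + 1) * (T + 1)) with hε
  have hε0 : 0 < ε := by positivity
  obtain ⟨n, hn, ho, hi⟩ := ((lim ε hε0).and orth).exists
  have h1 := fun s hs => ELim_der (T := T) (C := C * M)
    (F := fun s x => (u n s x - R s x) * π x) (F' := fun s x => (w n s x - ρ s x) * π x)
    (fun s hs => ((hu n s hs).sub (hR s hs)).mul hπ)
    (fun s hs x hx => ((du n s hs x hx).sub (dR s hs x hx)).mul_const _)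
    (fun s hs x hx => mul hx (bd n s hs x hx)) (t := s) hs
  have h2 : ∀ s ∈ Icc 0 T, |∫ x in (0 : ℝ)..1, (w n s x - ρ s x) * π x| ≤ ε * M := by
    intro s hs
    have e : ∫ x in (0 : ℝ)..1, (w n s x - ρ s x) * π x =
        (∫ x in (0 : ℝ)..1, (w n s x - r n s x) * π x) -
          ∫ x in (0 : ℝ)..1, (ρ s x - r n s x) * π x := by
      rw [← intervalIntegral.integral_sub
        (ELim_int (((hw n s hs).fun_sub (hr n s hs)).fun_mul hπ))
        (ELim_int (((hρ s hs).fun_sub (hr n s hs)).fun_mul hπ))]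
      exact intervalIntegral.integral_congr fun x _ => by ring
    rw [e, ho s hs, zero_sub, abs_neg]
    exact ELim_le fun x hx => mul hx (hn s hs x hx).2
  have h3 := ELim_lip h1 h2 h0 ht
  have h4 : |∫ x in (0 : ℝ)..1, (f t x - u n t x) * π x| ≤ ε * M :=
    ELim_le fun x hx => mul hx (hn t ht x hx).1
  have i1 := ELim_int (((hf t ht).sub (hu n t ht)).mul hπ)
  have i2 := ELim_int (((hu n t ht).sub (hR t ht)).mul hπ)
  have i3 := ELim_int (((hu n 0 h0).sub (hR 0 h0)).mul hπ)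
  have i4 := ELim_int (((hu n 0 h0).sub hf0).mul hπ)
  have e : ∫ x in (0 : ℝ)..1, (f t x - f0 x - R t x) * π x =
      (∫ x in (0 : ℝ)..1, (f t x - u n t x) * π x) +
        ((∫ x in (0 : ℝ)..1, (u n t x - R t x) * π x) -
          ∫ x in (0 : ℝ)..1, (u n 0 x - R 0 x) * π x) +
        ∫ x in (0 : ℝ)..1, (u n 0 x - f0 x) * π x := by
    have := (intervalIntegral.integral_add (i1.add (i2.sub i3)) i4)
    rw [intervalIntegral.integral_add i1 (i2.sub i3), intervalIntegral.integral_sub i2 i3] at this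
    refine Eq.trans (intervalIntegral.integral_congr fun x _ => ?_) this
    simp only [Pi.mul_apply, Pi.sub_apply, hR0]
    ring
  rw [e, hi, add_zero, zero_add]
  refine (abs_add_le _ _).trans ?_
  rw [sub_zero, abs_of_nonneg ht.1] at h3
  have h5 : ε * M * t ≤ ε * M * T := mul_le_mul_of_nonneg_left ht.2 (by positivity)
  have h6 : ε * ((M + 1) * (T + 1)) = η := by rw [hε]; field_simp
  nlinarith [mul_nonneg hε0.le hT]

theorem lim (hJ : JetLimStmt) (hs : ∀ d N, ContDiff ℝ ∞ N → ∀ f : Fin 3 → ℝ → ℝ,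
    (∀ i, Sm (f i)) → ∀ i, Sm (rhs d N f i)) : LimStmt := by
  intro d N f0 T δ u w hN hT hf0 hG
  obtain ⟨φ, hφ, f, hsm, hf⟩ := hJ T u hT (fun n i t => (hG.sm n i t).1) fun j => by
    obtain ⟨C, hC⟩ := hG.bd j
    exact ⟨C, fun n i t ht x hx => ⟨(hC n i t ht x hx).1, fun s hs' =>
      ELim_lip (fun σ hσ => hG.der n i j σ hσ x hx) (fun σ hσ => (hC n i σ hσ x hx).2) hs' ht⟩⟩
  have h0 : (0 : ℝ) ∈ Icc 0 T := left_mem_Icc.2 hT.le
  have hu0 : ∀ i, ∀ ε > 0, ∀ᶠ n in atTop, ∀ s ∈ Icc 0 T, ∀ x ∈ I,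
      |f i s x - u (φ n) i s x| ≤ ε := by
    intro i ε hε
    filter_upwards [Metric.tendstoUniformlyOn_iff.1 (hf i 0).2 ε hε] with n hn s hs' x hx
    have := hn (s, x) ⟨hs', hx⟩
    simp only [D_zero] at this
    exact this.le
  have main : ∀ i, ∃ R : Fn, (∀ x, R 0 x = 0) ∧ (∀ s ∈ Icc 0 T, ∀ x ∈ I,
      HasDerivWithinAt (fun σ => R σ x) (rhs d N (sl f s) i x) (Icc 0 T) s) ∧
      ∀ t ∈ Icc 0 T, ∀ x ∈ I, f i t x - f0 i x - R t x = 0 := by
    intro i
    obtain ⟨hc, hl⟩ := ELim_unif (v := fun n => u (φ n)) (fun i j => (hf i j).1)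
      (fun i j => (hf i j).2) (ELim_F_cont d hN.continuous i)
    obtain ⟨R, hR0, hRc, hR⟩ := ELim_prim hT hc
    simp only [← ELim_rhs] at hR
    obtain ⟨C, hC⟩ := hG.bd 0
    obtain ⟨M, hM⟩ := (isCompact_Icc.prod isCompact_Icc).exists_bound_of_continuousOn hc
    refine ⟨R, hR0, hR, fun t ht => ELim_zero
      (((hsm i t ht).cont.sub (hf0 i).cont).sub (hRc t).continuousOn) fun π => ?_⟩
    refine ELim_key (T := T) (C := C + M) (u := fun n => u (φ n) i) (w := fun n => w (φ n) i)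
      (r := fun n s => rhs d N (sl (u (φ n)) s) i) (f := f i) (ρ := fun s => rhs d N (sl f s) i)
      (ELim_ev π) (hf0 i).cont (fun n s _ => (hG.sm _ i s).1.cont)
      (fun n s _ => (hG.sm _ i s).2.cont)
      (fun n s _ => (hs d N hN _ (fun l => (hG.sm _ l s).1) i).cont)
      (fun s hs' => (hsm i s hs').cont) (fun s _ => (hRc s).continuousOn)
      (fun s hs' => (hs d N hN _ (fun l => hsm l s hs') i).cont) hR0 (fun n s hs' x hx => ?_) hR
      (fun n s hs' x hx => ?_) (fun ε hε => ?_) ?_ ht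
    · simpa only [D_zero] using hG.der (φ n) i 0 s hs' x hx
    · have h1 := (hC (φ n) i s hs' x hx).2
      have h2 := hM (s, x) ⟨hs', hx⟩
      rw [← ELim_rhs, Real.norm_eq_abs] at h2
      rw [D_zero] at h1
      exact (abs_sub _ _).trans (add_le_add h1 h2)
    · filter_upwards [hu0 i ε hε, Metric.tendstoUniformlyOn_iff.1 hl ε hε] with n h1 h2 s hs' x hx
      have := h2 (s, x) ⟨hs', hx⟩
      rw [← ELim_rhs, ← ELim_rhs] at this
      exact ⟨h1 s hs' x hx, this.le⟩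
    · filter_upwards [eventually_ge_atTop π.natDegree] with n hn
      have hn' : π.natDegree ≤ φ n := hn.trans (hφ.id_le n)
      exact ⟨fun s hs' => hG.orth _ i s hs' π hn', hG.init _ i π hn'⟩
  have init : ∀ i, ∀ x ∈ I, f i 0 x = f0 i x := fun i x hx => by
    obtain ⟨R, hR0, -, hR⟩ := main i
    have := hR 0 h0 x hx
    rw [hR0] at this
    linarith
  refine ⟨f, ⟨hsm, fun i j => (hf i j).1, init, fun i t ht x hx => ?_⟩, fun i t ht x hx => ?_⟩
  · obtain ⟨R, -, hd, hR⟩ := main i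
    exact ((hd t ht x hx).const_add (f0 i x)).congr_of_mem
      (fun s hs' => by linarith [hR s hs' x hx]) ht
  · rw [← init i x hx]
    refine le_of_forall_pos_le_add fun ε hε => ?_
    obtain ⟨n, hn⟩ := (hu0 i (ε / 2) (by positivity)).exists
    have h1 := abs_le.1 (hn t ht x hx)
    have h2 := abs_le.1 (hn 0 h0 x hx)
    have h3 := abs_le.1 (hG.near (φ n) i t ht x hx)
    exact abs_le.2 ⟨by linarith, by linarith⟩

end Vale.Agent.P244
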