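import Vale.Agent.P244.StmE

/-! P244: multiplication estimates in the weighted norms. -/

open Set Filter
open scoped ContDiff Topology

namespace Vale.Agent.P244

theorem EMul_ii {g : ℝ → ℝ} (hg : Sm g) (a j : ℕ) :
    IntervalIntegrable (fun x => om x ^ a * D j g x ^ 2) MeasureTheory.volume 0 1 :=
  ((contDiff_om.continuous.continuousOn.pow a).mul
    ((hg.D j).cont.pow 2)).intervalIntegrable_of_Icc zero_le_one

theorem EMul_le3 {h g₁ g₂ g₃ : ℝ → ℝ} (hh : Sm h) (h₁ : Sm g₁) (h₂ : Sm g₂) (h₃ : Sm g₃)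
    {e j e₁ j₁ e₂ j₂ e₃ j₃ : ℕ} {a b c : ℝ}
    (hp : ∀ x ∈ I, om x ^ (j + e) * D j h x ^ 2 ≤ a * (om x ^ (j₁ + e₁) * D j₁ g₁ x ^ 2) +
      b * (om x ^ (j₂ + e₂) * D j₂ g₂ x ^ 2) + c * (om x ^ (j₃ + e₃) * D j₃ g₃ x ^ 2)) :
    TT e j h ≤ a * TT e₁ j₁ g₁ + b * TT e₂ j₂ g₂ + c * TT e₃ j₃ g₃ := by
  have i1 := (EMul_ii h₁ (j₁ + e₁) j₁).const_mul a
  have i2 := (EMul_ii h₂ (j₂ + e₂) j₂).const_mul b
  have i3 := (EMul_ii h₃ (j₃ + e₃) j₃).const_mul c
  refine (intervalIntegral.integral_mono_on zero_le_one (EMul_ii hh _ _) ((i1.add i2).add i3)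
    hp).trans_eq ?_
  rw [intervalIntegral.integral_add (i1.add i2) i3, intervalIntegral.integral_add i1 i2,
    intervalIntegral.integral_const_mul, intervalIntegral.integral_const_mul,
    intervalIntegral.integral_const_mul]
  rfl

theorem EMul_le1 {h g : ℝ → ℝ} (hh : Sm h) (hg : Sm g) {e j e₁ j₁ : ℕ} {a : ℝ}
    (hp : ∀ x ∈ I, om x ^ (j + e) * D j h x ^ 2 ≤ a * (om x ^ (j₁ + e₁) * D j₁ g x ^ 2)) :
    TT e j h ≤ a * TT e₁ j₁ g := by
  simpa using EMul_le3 (b := 0) (c := 0) (e₂ := 0) (j₂ := 0) (e₃ := 0) (j₃ := 0) hh hg hg hg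
    fun x hx => by simpa using hp x hx

theorem EMul_sum {e k : ℕ} {Φ : (ℝ → ℝ) → ℝ → ℝ} {R : (ℝ → ℝ) → ℝ}
    (h : ∀ j ≤ k, ∃ C, 0 ≤ C ∧ ∀ g, Sm g → TT e j (Φ g) ≤ C * R g) :
    ∃ C, 0 ≤ C ∧ ∀ g, Sm g → NN e k (Φ g) ≤ C * R g := by
  choose! C h0 hC using h
  refine ⟨∑ j ∈ Finset.range (k + 1), C j, Finset.sum_nonneg fun j hj =>
    h0 j (Nat.lt_succ_iff.1 (Finset.mem_range.1 hj)), fun g hg => ?_⟩
  rw [Finset.sum_mul]
  exact Finset.sum_le_sum fun j hj => hC j (Nat.lt_succ_iff.1 (Finset.mem_range.1 hj)) g hg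

theorem EMul_single (hH : HardyStmt) {e j k : ℕ} (h : j ≤ k) (g : ℝ → ℝ) : TT e j g ≤ NN e k g :=
  Finset.single_le_sum (f := fun j => TT e j g) (fun _ _ => hH.nonneg _ _ _)
    (Finset.mem_range.2 (Nat.lt_succ_of_le h))

theorem EMul_nn (hH : HardyStmt) (e k : ℕ) (g : ℝ → ℝ) : 0 ≤ NN e k g :=
  Finset.sum_nonneg fun _ _ => hH.nonneg _ _ _

theorem EMul_om1 (x : ℝ) : om x ≤ 1 := om_le.trans (by norm_num)

theorem EMul_wt {g : ℝ → ℝ} (hg : Sm g) (e k : ℕ) : NN (e + 1) k g ≤ NN e k g :=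
  Finset.sum_le_sum fun j _ => (EMul_le1 (a := 1) hg hg fun x hx => by
    rw [one_mul]
    exact mul_le_mul_of_nonneg_right
      (pow_le_pow_of_le_one (om_nonneg hx) (EMul_om1 x) (by omega)) (sq_nonneg _)).trans_eq
    (one_mul _)

theorem EMul_lin (x : ℝ) : HasDerivAt (fun y : ℝ => 1 - 2 * y) (-2) x := by
  simpa using ((hasDerivAt_id x).const_mul 2).const_sub 1

theorem EMul_step {g : ℝ → ℝ} (hg : Sm g) (j : ℕ) (a b : ℝ) {x : ℝ} (hx : x ∈ I) :
    d1 (fun y => om y * D (j + 2) g y + a * (1 - 2 * y) * D (j + 1) g y - b * D j g y) x =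
      om x * D (j + 3) g x + (a + 1) * (1 - 2 * x) * D (j + 2) g x -
        (b + 2 * a) * D (j + 1) g x := by
  have h1 := (hasDerivAt_om x).hasDerivWithinAt.mul ((hg.D (j + 2)).hasW hx)
  have h2 := ((EMul_lin x).const_mul a).hasDerivWithinAt.mul ((hg.D (j + 1)).hasW hx)
  have h3 := ((hg.D j).hasW hx).const_mul b
  simp only [← D_succ] at h1 h2 h3
  refine (d1_eq hx ((h1.add h2).sub h3)).trans ?_
  ring

theorem EMul_jet (j : ℕ) {g : ℝ → ℝ} (hg : Sm g) : ∀ x ∈ I,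
    D j (fun x => om x * d1 (d1 g) x + 2 * (1 - 2 * x) * d1 g x) x =
      om x * D (j + 2) g x + (j + 2) * (1 - 2 * x) * D (j + 1) g x - j * (j + 3) * D j g x := by
  induction j with
  | zero => intro x _; simp [D_zero, D_one, D_two]
  | succ j ih =>
    intro x hx
    rw [D_succ, d1_congr ih hx, EMul_step hg j _ _ hx]
    push_cast
    ring

theorem EMul_jeta (j : ℕ) {g : ℝ → ℝ} (hg : Sm g) : ∀ x ∈ I,
    D (j + 1) (fun x => om x * d1 g x) x =
      om x * D (j + 2) g x + (j + 1) * (1 - 2 * x) * D (j + 1) g x - j * (j + 1) * D j g x := by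
  induction j with
  | zero =>
    intro x hx
    rw [zero_add, D_one, zero_add, D_two, D_one]
    refine (d1_eq hx ((hasDerivAt_om x).hasDerivWithinAt.mul (hg.d1.hasW hx))).trans ?_
    push_cast
    ring
  | succ j ih =>
    intro x hx
    rw [D_succ, d1_congr ih hx, EMul_step hg j _ _ hx]
    push_cast
    ring

theorem EMul_jetb (j : ℕ) (d : ℝ) {g : ℝ → ℝ} (hg : Sm g) : ∀ x ∈ I,
    D j (fun x => be d x * d1 g x) x = be d x * D (j + 1) g x - j * (2 * d + 2) * D j g x := by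
  induction j with
  | zero => intro x _; simp [D_zero, D_one]
  | succ j ih =>
    intro x hx
    have h0 : HasDerivAt (be d) (-(2 * d + 2)) x := by
      have := (((hasDerivAt_id x).const_sub 1).const_mul (2 * d)).sub
        ((hasDerivAt_id x).const_mul 2)
      exact this.congr_deriv (by ring)
    have h1 := h0.hasDerivWithinAt.mul ((hg.D (j + 1)).hasW hx)
    have h3 := ((hg.D j).hasW hx).const_mul (j * (2 * d + 2))
    simp only [← D_succ] at h1 h3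
    rw [D_succ, d1_congr ih hx]
    refine (d1_eq hx (h1.sub h3)).trans ?_
    push_cast
    ring

theorem EMul_coef0 (e : ℕ) {c : ℝ → ℝ} (hc : Sm c) :
    ∃ C, 0 ≤ C ∧ ∀ g, Sm g → TT e 0 (fun x => c x * g x) ≤ C * TT e 0 g := by
  obtain ⟨M, hM⟩ := isCompact_Icc.exists_bound_of_continuousOn hc.cont
  refine ⟨M ^ 2, sq_nonneg _, fun g hg => EMul_le1 (ContDiffOn.mul hc hg) hg fun x hx => ?_⟩
  have h1 : c x ^ 2 ≤ M ^ 2 := sq_le_sq' (abs_le.1 (hM x hx)).1 (abs_le.1 (hM x hx)).2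
  have h2 : 0 ≤ om x ^ (0 + e) * g x ^ 2 := mul_nonneg (pow_nonneg (om_nonneg hx) _) (sq_nonneg _)
  simp only [D_zero]
  nlinarith

theorem EMul_coef (hH : HardyStmt) (k : ℕ) : ∀ e c, Sm c →
    ∃ C, 0 ≤ C ∧ ∀ g, Sm g → NN e k (fun x => c x * g x) ≤ C * NN e k g := by
  induction k with
  | zero => intro e c hc; simpa [NN] using EMul_coef0 e hc
  | succ k ih =>
    intro e c hc
    obtain ⟨C0, p0, h0⟩ := EMul_coef0 e hc
    obtain ⟨C1, p1, h1⟩ := ih (e + 1) (d1 c) hc.d1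
    obtain ⟨C2, p2, h2⟩ := ih (e + 1) c hc
    refine ⟨C0 + 2 * (C1 + C2), by positivity, fun g hg => ?_⟩
    have e1 : NN (e + 1) k (d1 fun x => c x * g x) =
        NN (e + 1) k fun x => d1 c x * g x + c x * d1 g x :=
      hH.congr _ _ _ _ fun x hx => d1_eq hx ((hc.hasW hx).mul (hg.hasW hx))
    have a := hH.add (e + 1) k _ _ (ContDiffOn.mul hc.d1 hg) (ContDiffOn.mul hc hg.d1)
    have b0 := (h0 g hg).trans (mul_le_mul_of_nonneg_left
      (EMul_single hH (Nat.zero_le (k + 1)) g) p0)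
    have b1 := (h1 g hg).trans (mul_le_mul_of_nonneg_left
      ((EMul_wt hg e k).trans (hH.mono e k (k + 1) g k.le_succ)) p1)
    have b2 := (h2 _ hg.d1).trans (mul_le_mul_of_nonneg_left
      (show NN (e + 1) k (d1 g) ≤ NN e (k + 1) g by
        rw [hH.shift]; exact le_add_of_nonneg_left (hH.nonneg _ _ _)) p2)
    rw [hH.shift e k fun x => c x * g x, e1]
    linarith

theorem EMul_sq {x : ℝ} (hx : x ∈ I) (a b u v w : ℝ) :
    (u + a * (1 - 2 * x) * v - b * w) ^ 2 ≤ 3 * u ^ 2 + 3 * a ^ 2 * v ^ 2 + 3 * b ^ 2 * w ^ 2 := by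
  have h1 : (1 - 2 * x) ^ 2 ≤ 1 := by nlinarith [hx.1, hx.2]
  have h2 := mul_le_mul_of_nonneg_left h1 (sq_nonneg (a * v))
  nlinarith [sq_nonneg (u - a * (1 - 2 * x) * v), sq_nonneg (u + b * w),
    sq_nonneg (a * (1 - 2 * x) * v + b * w)]

theorem EMul_omd (hH : HardyStmt) (k : ℕ) : ∃ C, 0 ≤ C ∧ ∀ g, Sm g →
    NN 0 k (fun x => om x * d1 g x) ≤ C * NN 0 (k + 1) g := by
  refine EMul_sum (Φ := fun g x => om x * d1 g x) fun j hj => ?_
  have hs : ∀ g, Sm g → Sm fun x => om x * d1 g x := fun g hg =>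
    ContDiffOn.mul contDiff_om.contDiffOn hg.d1
  cases j with
  | zero =>
    refine ⟨1, zero_le_one, fun g hg => (EMul_le1 (e₁ := 0) (j₁ := 1) (a := 1) (hs g hg) hg
      fun x hx => ?_).trans (mul_le_mul_of_nonneg_left (EMul_single hH (by omega) g) zero_le_one)⟩
    have := mul_le_mul_of_nonneg_left (EMul_om1 x)
      (mul_nonneg (om_nonneg hx) (sq_nonneg (d1 g x)))
    simp only [D_zero, D_one, add_zero, pow_zero, pow_one]
    linarith
  | succ j =>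
    refine ⟨3 + 3 * ((j : ℝ) + 1) ^ 2 + 3 * ((j : ℝ) * (j + 1)) ^ 2, by positivity, fun g hg =>
      (EMul_le3 (e₁ := 0) (j₁ := j + 2) (e₂ := 0) (j₂ := j + 1) (e₃ := 0) (j₃ := j) (a := 3)
        (b := 3 * ((j : ℝ) + 1) ^ 2) (c := 3 * ((j : ℝ) * (j + 1)) ^ 2) (hs g hg) hg hg hg
        fun x hx => ?_).trans ?_⟩
    · rw [EMul_jeta j hg x hx]
      have w0 := om_nonneg hx
      refine (mul_le_mul_of_nonneg_left (EMul_sq hx _ _ _ _ _) (pow_nonneg w0 _)).trans ?_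
      have a1 := mul_le_mul_of_nonneg_left (EMul_om1 x)
        (mul_nonneg (pow_nonneg w0 (j + 2)) (sq_nonneg (D (j + 2) g x)))
      have a2 := mul_le_mul_of_nonneg_left (EMul_om1 x)
        (mul_nonneg (pow_nonneg w0 j) (sq_nonneg ((j : ℝ) * (j + 1) * D j g x)))
      simp only [add_zero, pow_succ] at a1 a2 ⊢
      linarith
    · rw [add_mul, add_mul]
      gcongr <;> exact EMul_single hH (by omega) g

theorem EMul_omdd (hH : HardyStmt) (k : ℕ) : ∃ C, 0 ≤ C ∧ ∀ g, Sm g →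
    NN 0 k (fun x => om x * d1 (d1 g) x + 2 * (1 - 2 * x) * d1 g x) ≤ C * NN 0 (k + 2) g := by
  obtain ⟨C, hC, hd⟩ := hH.der 0 k
  refine EMul_sum (Φ := fun g x => om x * d1 (d1 g) x + 2 * (1 - 2 * x) * d1 g x) fun j hj => ?_
  refine ⟨3 + 3 * ((j : ℝ) + 2) ^ 2 * C + 3 * ((j : ℝ) * (j + 3)) ^ 2, by positivity, fun g hg =>
    (EMul_le3 (e₁ := 0) (j₁ := j + 2) (e₂ := 0) (j₂ := j) (e₃ := 0) (j₃ := j) (a := 3)
      (b := 3 * ((j : ℝ) + 2) ^ 2) (c := 3 * ((j : ℝ) * (j + 3)) ^ 2)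
      ((ContDiffOn.mul contDiff_om.contDiffOn hg.d1.d1).add
        (ContDiffOn.mul (by fun_prop) hg.d1)) hg hg.d1 hg fun x hx => ?_).trans ?_⟩
  · rw [EMul_jet j hg x hx, ← D_succ']
    refine (mul_le_mul_of_nonneg_left (EMul_sq hx _ _ _ _ _)
      (pow_nonneg (om_nonneg hx) _)).trans_eq ?_
    ring
  · rw [add_mul, add_mul, mul_assoc _ C]
    gcongr
    exacts [EMul_single hH (by omega) g, (EMul_single hH hj _).trans (hd g hg),
      EMul_single hH (by omega) g]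

theorem mul (hH : HardyStmt) : MulStmt :=
  ⟨fun e k c => EMul_coef hH k e c, EMul_omd hH, EMul_omdd hH, fun j _ hg => EMul_jet j hg,
    fun j d _ hg => EMul_jetb j d hg⟩

end Vale.Agent.P244
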