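import Vale.Agent.P244.StmE

/-! P244: global existence for an ODE with an a priori bound. -/

open Set Filter
open scoped ContDiff Topology NNReal

namespace Vale.Agent.P244

section
variable {E : Type} [NormedAddCommGroup E] [NormedSpace ℝ E]

/-- Radial retraction onto the closed ball of radius `ρ`. -/
noncomputable def EOde_ret (ρ : ℝ) (x : E) : E := (ρ / max ρ ‖x‖) • x

theorem EOde_ret_eq {ρ : ℝ} (hρ : 0 < ρ) {x : E} (hx : ‖x‖ ≤ ρ) : EOde_ret ρ x = x := by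
  rw [EOde_ret, max_eq_left hx, div_self hρ.ne', one_smul]

theorem EOde_ret_norm {ρ : ℝ} (hρ : 0 < ρ) (x : E) : ‖EOde_ret ρ x‖ ≤ ρ := by
  have h1 : 0 < max ρ ‖x‖ := lt_max_of_lt_left hρ
  rw [EOde_ret, norm_smul, Real.norm_of_nonneg (by positivity), div_mul_eq_mul_div,
    div_le_iff₀ h1]
  exact mul_le_mul_of_nonneg_left (le_max_right _ _) hρ.le

theorem EOde_ret_lip {ρ : ℝ} (hρ : 0 < ρ) : LipschitzWith 2 (EOde_ret (E := E) ρ) := by
  refine LipschitzWith.of_dist_le_mul fun x y => ?_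
  rw [dist_eq_norm, dist_eq_norm]
  have ha : 0 < max ρ ‖x‖ := lt_max_of_lt_left hρ
  have hb : 0 < max ρ ‖y‖ := lt_max_of_lt_left hρ
  have hab : |max ρ ‖y‖ - max ρ ‖x‖| ≤ ‖x - y‖ := by
    rw [max_comm ρ, max_comm ρ, norm_sub_rev]
    exact (abs_max_sub_max_le_abs _ _ _).trans (abs_norm_sub_norm_le _ _)
  have ha' : ρ / max ρ ‖x‖ ≤ 1 := (div_le_one ha).2 (le_max_left _ _)
  have hb' : ‖y‖ / max ρ ‖y‖ ≤ 1 := (div_le_one hb).2 (le_max_right _ _)
  unfold EOde_ret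
  generalize max ρ ‖x‖ = a at *
  generalize max ρ ‖y‖ = b at *
  have e : (ρ / a) • x - (ρ / b) • y = (ρ / a) • (x - y) + (ρ / a * (b - a) / b) • y := by
    have : ρ / a * (b - a) / b = ρ / a - ρ / b := by field_simp
    rw [this, smul_sub, sub_smul]
    abel
  have h0 : 0 ≤ ρ / a := by positivity
  have h1 : ‖(ρ / a) • (x - y)‖ ≤ ‖x - y‖ := by
    rw [norm_smul, Real.norm_of_nonneg h0]
    exact mul_le_of_le_one_left (norm_nonneg _) ha'
  have h2 : ‖(ρ / a * (b - a) / b) • y‖ ≤ ‖x - y‖ := by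
    rw [norm_smul, Real.norm_eq_abs, abs_div, abs_mul, abs_of_nonneg h0, abs_of_pos hb]
    have e2 : ρ / a * |b - a| / b * ‖y‖ = ρ / a * (‖y‖ / b) * |b - a| := by ring
    rw [e2]
    exact (mul_le_of_le_one_left (abs_nonneg _) (mul_le_one₀ ha' (by positivity) hb')).trans hab
  rw [e]
  have := norm_add_le_of_le h1 h2
  push_cast
  linarith

/-- Global solutions for bounded Lipschitz fields. -/
theorem EOde_glob [CompleteSpace E] {W : E → E} {K L : ℝ≥0} (hW : LipschitzWith K W)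
    (hL : ∀ x, ‖W x‖ ≤ L) (c0 : E) {T : ℝ} (hT : 0 < T) :
    ∃ c : ℝ → E, c 0 = c0 ∧ ∀ s ∈ Icc 0 T, HasDerivWithinAt c (W (c s)) (Icc 0 T) s := by
  have h : IsPicardLindelof (fun _ => W) (tmin := 0) (tmax := T) ⟨0, le_rfl, hT.le⟩ c0
      (L * T.toNNReal) 0 L K :=
    ⟨fun _ _ => hW.lipschitzOnWith, fun _ _ => continuousOn_const, fun _ _ x _ => hL x, by
      simp [hT.le]⟩
  exact h.exists_eq_forall_mem_Icc_hasDerivWithinAt₀

end

theorem ode : OdeStmt := by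
  intro E _ _ _ V hV c0 T R hT hR
  have : CompleteSpace E := FiniteDimensional.complete ℝ E
  obtain ⟨ρ, hρ, hρ0, hρR⟩ : ∃ ρ : ℝ, 0 < ρ ∧ ‖c0‖ < ρ ∧ R < ρ :=
    ⟨max ‖c0‖ R + 1, by linarith [le_max_left ‖c0‖ R, norm_nonneg c0],
      by linarith [le_max_left ‖c0‖ R], by linarith [le_max_right ‖c0‖ R]⟩
  obtain ⟨K, hK⟩ := hV ρ
  have hm : ∀ x : E, EOde_ret ρ x ∈ Metric.closedBall (0 : E) ρ := fun x =>
    mem_closedBall_zero_iff.2 (EOde_ret_norm hρ x)
  have hW : LipschitzWith (K * 2) fun x => V (EOde_ret ρ x) :=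
    lipschitzOnWith_univ.1 (hK.comp (EOde_ret_lip hρ).lipschitzOnWith fun x _ => hm x)
  have hL : ∀ x, ‖V (EOde_ret ρ x)‖ ≤ (‖V 0‖₊ + K * ρ.toNNReal : ℝ≥0) := by
    intro x
    have h1 := hK.dist_le_mul _ (hm x) 0 (Metric.mem_closedBall_self hρ.le)
    rw [dist_eq_norm, dist_zero_right] at h1
    have h2 := mul_le_mul_of_nonneg_left (EOde_ret_norm hρ x) K.coe_nonneg
    have h3 := norm_le_norm_add_norm_sub' (V (EOde_ret ρ x)) (V 0)
    push_cast
    rw [Real.coe_toNNReal _ hρ.le]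
    linarith
  obtain ⟨c, hc0, hc⟩ := EOde_glob hW hL c0 hT
  have hcont : ContinuousOn c (Icc 0 T) := fun s hs => (hc s hs).continuousWithinAt
  have key : ∀ s ∈ Icc 0 T, ‖c s‖ < ρ := by
    by_contra hne
    push Not at hne
    have hS : IsCompact (Icc 0 T ∩ (fun s => ‖c s‖) ⁻¹' Ici ρ) :=
      isCompact_Icc.of_isClosed_subset
        (hcont.norm.preimage_isClosed_of_isClosed isClosed_Icc isClosed_Ici) inter_subset_left
    obtain ⟨t, ⟨ht, htρ⟩, hmin⟩ := hS.exists_isLeast hne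
    have htρ' : ρ ≤ ‖c t‖ := htρ
    have ht0 : 0 < t := by
      refine ht.1.lt_of_ne fun e => ?_
      rw [← e, hc0] at htρ'
      linarith
    have hlt : ∀ s ∈ Ico 0 t, ‖c s‖ ≤ ρ := by
      intro s hs
      by_contra hs'
      exact absurd (hmin ⟨⟨hs.1, hs.2.le.trans ht.2⟩, (not_le.1 hs').le⟩) (not_le.2 hs.2)
    have hsub : Icc 0 t ⊆ Icc 0 T := Icc_subset_Icc_right ht.2
    have hle : ∀ s ∈ Icc 0 t, ‖c s‖ ≤ ρ := by
      have h1 : ContinuousOn (fun s => ‖c s‖) (closure (Ico 0 t)) := by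
        rw [closure_Ico ht0.ne]
        exact (hcont.mono hsub).norm
      intro s hs
      rw [← closure_Ico ht0.ne] at hs
      exact le_on_closure hlt h1 continuousOn_const hs
    have := hR t ⟨ht0, ht.2⟩ c hc0 (fun s hs => by
      have h := (hc s (hsub hs)).mono hsub
      rwa [EOde_ret_eq hρ (hle s hs)] at h) t ⟨ht0.le, le_rfl⟩
    linarith
  refine ⟨c, hc0, fun s hs => ?_⟩
  have h := hc s hs
  rwa [EOde_ret_eq hρ (key s hs).le] at h

end Vale.Agent.P244
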