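import Vale.Agent.P244.StmE

/-! P244: time derivatives of jets and energies along a Galerkin solution. -/

open Set Filter Polynomial
open scoped ContDiff Topology

namespace Vale.Agent.P244

theorem EPEn_sm (p : ℝ[X]) : Sm (ev p) := by
  refine Sm.of_contDiff ?_
  have := p.contDiff_aeval (𝕜 := ℝ) ∞
  simp only [coe_aeval_eq_eval] at this
  exact this

theorem EPEn_D (p : ℝ[X]) (j : ℕ) {x : ℝ} (hx : x ∈ I) :
    D j (ev p) x = (derivative^[j] p).eval x := by
  induction j generalizing x with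
  | zero => rw [D_zero]; rfl
  | succ j ih =>
    rw [D_succ, d1_congr (fun y hy => ih hy) hx, Function.iterate_succ_apply']
    exact d1_eq' hx (Polynomial.hasDerivAt _ x)

theorem EPEn_exp {p : ℝ[X]} {n : ℕ} (h : p.natDegree ≤ n) (j : ℕ) {x : ℝ} (hx : x ∈ I) :
    D j (ev p) x = ∑ a ∈ Finset.range (n + 1), p.coeff a * D j (ev (X ^ a)) x := by
  simp only [EPEn_D _ j hx]
  conv_lhs => rw [p.as_sum_range_C_mul_X_pow' (Nat.lt_succ_of_le h)]
  simp only [iterate_derivative_sum, iterate_derivative_C_mul, eval_finsetSum, eval_mul, eval_C]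

/-- The weighted bilinear form. -/
noncomputable def EPEn_B (j : ℕ) (g h : ℝ → ℝ) : ℝ :=
  ∫ x in (0 : ℝ)..1, om x ^ j * (D j g x * D j h x)

theorem EPEn_int (j : ℕ) {g h : ℝ → ℝ} (hg : Sm g) (hh : Sm h) :
    IntervalIntegrable (fun x => om x ^ j * (D j g x * D j h x)) MeasureTheory.volume 0 1 :=
  ((contDiff_om.continuous.continuousOn.pow j).mul
    ((hg.D j).cont.mul (hh.D j).cont)).intervalIntegrable_of_Icc zero_le_one

theorem EPEn_comm (j : ℕ) (g h : ℝ → ℝ) : EPEn_B j g h = EPEn_B j h g := by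
  simp only [EPEn_B, mul_comm (D j g _)]

theorem EPEn_Bexp {p q : ℝ[X]} {n : ℕ} (hp : p.natDegree ≤ n) (hq : q.natDegree ≤ n) (j : ℕ) :
    EPEn_B j (ev p) (ev q) = ∑ a ∈ Finset.range (n + 1), ∑ b ∈ Finset.range (n + 1),
      p.coeff a * q.coeff b * EPEn_B j (ev (X ^ a)) (ev (X ^ b)) := by
  have hi : ∀ a b, IntervalIntegrable (fun x => p.coeff a * q.coeff b *
      (om x ^ j * (D j (ev (X ^ a)) x * D j (ev (X ^ b)) x))) MeasureTheory.volume 0 1 :=
    fun a b => (EPEn_int j (EPEn_sm _) (EPEn_sm _)).const_mul _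
  simp only [EPEn_B, ← intervalIntegral.integral_const_mul]
  rw [Finset.sum_congr rfl fun a _ => (intervalIntegral.integral_finsetSum fun b _ => hi a b).symm,
    ← intervalIntegral.integral_finsetSum fun a _ => ?_]
  · refine intervalIntegral.integral_congr fun x hx => ?_
    rw [uIcc_of_le zero_le_one] at hx
    simp only [EPEn_exp hp j hx, EPEn_exp hq j hx, Finset.sum_mul_sum]
    simp only [Finset.mul_sum]
    exact Finset.sum_congr rfl fun a _ => Finset.sum_congr rfl fun b _ => by ring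
  · simpa only [Finset.sum_fn] using IntervalIntegrable.sum (Finset.range (n + 1)) fun b _ => hi a b

theorem EPEn_orth {n : ℕ} {g : ℝ → ℝ} {p q : ℝ[X]} (hg : Sm g) (h : IsProj n g p)
    (hq : q.natDegree ≤ n) (j : ℕ) : EPEn_B j (ev q) (ev p) = EPEn_B j (ev q) g := by
  have h1 := h.2.2 q hq j
  rw [eq_comm, ← sub_eq_zero, EPEn_B, EPEn_B, ← intervalIntegral.integral_sub
    (EPEn_int j (EPEn_sm q) hg) (EPEn_int j (EPEn_sm q) (EPEn_sm p)), ← h1]
  congr 1
  funext x
  ring

theorem pen (hs : ∀ d N, ContDiff ℝ ∞ N → ∀ f : Fin 3 → ℝ → ℝ, (∀ i, Sm (f i)) →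
    ∀ i, Sm (rhs d N f i)) : PEnStmt := by
  refine ⟨fun d N n T u w h t ht i j x hx => ?_, fun d N n T u w hN h t ht k => ?_⟩
  · simp only [fun s => EPEn_exp (h.deg s i) j hx, EPEn_exp (h.proj t ht i).1 j hx]
    exact HasDerivWithinAt.fun_sum fun a _ => (h.der t ht i a).mul_const _
  · rw [Finset.mul_sum]
    refine HasDerivWithinAt.fun_sum fun i _ => ?_
    rw [Finset.mul_sum]
    refine HasDerivWithinAt.fun_sum fun j _ => ?_
    have e : ∀ s, TT 0 j (ev (u s i)) = EPEn_B j (ev (u s i)) (ev (u s i)) := fun s => by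
      simp only [TT, EPEn_B, add_zero, sq]
    have hw := (h.proj t ht i).1
    simp only [e, fun s => EPEn_Bexp (h.deg s i) (h.deg s i) j]
    refine (HasDerivWithinAt.fun_sum fun a _ => HasDerivWithinAt.fun_sum fun b _ =>
      ((h.der t ht i a).fun_mul (h.der t ht i b)).mul_const _).congr_deriv ?_
    simp only [add_mul, Finset.sum_add_distrib]
    rw [← EPEn_Bexp hw (h.deg t i), ← EPEn_Bexp (h.deg t i) hw, EPEn_comm, ← two_mul,
      EPEn_orth (hs d N hN _ (fun l => EPEn_sm _) i) (h.proj t ht i) (h.deg t i)]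
    rfl

end Vale.Agent.P244
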