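import Vale.Agent.P244.StmE

/-! P244: the energy estimate for the principal part. -/

open Set Filter MeasureTheory
open scoped ContDiff Topology

namespace Vale.Agent.P244

theorem EPrin_T1 {c A J W w a a' u0 u1 : ℝ} (hc : 0 < c) (hW : 0 ≤ W) (hw : 0 ≤ w) (hw1 : w ≤ 1)
    (hca : c ≤ a) (ha' : |a'| ≤ A) :
    (J - 1) * a' * (W * w) * u0 * u1 - a * (W * w) * u1 ^ 2 ≤
      -(c / 2) * (W * w * u1 ^ 2) + (J - 1) ^ 2 * A ^ 2 / (2 * c) * (W * u0 ^ 2) := by
  have h1 : ∀ X : ℝ, X * u1 - c / 2 * u1 ^ 2 ≤ X ^ 2 / (2 * c) := fun X => by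
    rw [le_div_iff₀ (by positivity)]; nlinarith [sq_nonneg (X - c * u1)]
  have h2 := mul_le_mul_of_nonneg_left (h1 ((J - 1) * a' * u0)) (mul_nonneg hW hw)
  have h3 : a' ^ 2 ≤ A ^ 2 := sq_le_sq' (abs_le.1 ha').1 (abs_le.1 ha').2
  have h4 : W * w * (((J - 1) * a' * u0) ^ 2 / (2 * c)) ≤
      (J - 1) ^ 2 * A ^ 2 / (2 * c) * (W * u0 ^ 2) := by
    have h5 : w * a' ^ 2 ≤ A ^ 2 := by nlinarith [sq_nonneg a']
    have h6 : 0 ≤ (J - 1) ^ 2 * (W * u0 ^ 2) / (2 * c) := by positivity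
    calc _ = (J - 1) ^ 2 * (W * u0 ^ 2) / (2 * c) * (w * a' ^ 2) := by ring
      _ ≤ (J - 1) ^ 2 * (W * u0 ^ 2) / (2 * c) * A ^ 2 := mul_le_mul_of_nonneg_left h5 h6
      _ = _ := by ring
  have h7 : c * (W * w * u1 ^ 2) ≤ a * (W * w * u1 ^ 2) :=
    mul_le_mul_of_nonneg_right hca (by positivity)
  linarith

theorem EPrin_T2 {A d J x a a' : ℝ} (hd : 0 ≤ d) (hJ : 0 ≤ J) (hx : x ∈ I) (h0 : 0 ≤ a)
    (ha : |a| ≤ A) (ha' : |a'| ≤ A) :
    -(a * (J * (J + 3))) + J * (J + 1) * (a' * (1 - 2 * x)) -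
      J * (2 * d + 2) - (a' * (1 - 2 * x) - 2 * a - (2 * d + 2)) / 2 ≤
      J * (J + 1) * A + 2 * A + d + 1 := by
  have h1 : |a' * (1 - 2 * x)| ≤ A := by
    rw [abs_mul]
    have h2 : |1 - 2 * x| ≤ 1 := abs_le.2 ⟨by linarith [hx.2], by linarith [hx.1]⟩
    nlinarith [abs_nonneg a']
  have h3 := mul_le_mul_of_nonneg_left (abs_le.1 h1).2 (show 0 ≤ J * (J + 1) by positivity)
  have h4 : 0 ≤ a * (J * (J + 3)) := by positivity
  have h5 : 0 ≤ J * (2 * d + 2) := by positivity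
  linarith [(abs_le.1 h1).1, (abs_le.1 ha).2]

theorem EPrin_T3 {d J W P x a u0 : ℝ} (hd : 0 ≤ d) (hP : 0 ≤ P) (hPW : P * om x = J * W)
    (h0 : 0 ≤ a) : -((a * (1 - 2 * x) + be d x) * (P * (1 - 2 * x)) * u0 ^ 2 / 2) ≤
      (d + 1) * J * (W * u0 ^ 2) := by
  have h1 : -((2 * d + 2) * om x) ≤ (a * (1 - 2 * x) + be d x) * (1 - 2 * x) := by
    have h2 : 0 ≤ a * (1 - 2 * x) ^ 2 := by positivity
    have h3 : 0 ≤ d * (1 - x) ^ 2 := by positivity
    unfold be om; nlinarith [sq_nonneg x]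
  have h4 := mul_le_mul_of_nonneg_left h1 (show 0 ≤ P * u0 ^ 2 by positivity)
  have h5 : P * u0 ^ 2 * ((2 * d + 2) * om x) = 2 * ((d + 1) * J * (W * u0 ^ 2)) := by
    calc _ = (P * om x) * (u0 ^ 2 * (2 * d + 2)) := by ring
      _ = _ := by rw [hPW]; ring
  linarith

theorem EPrin_T4 {A Q W V a' u0 um : ℝ} (hW : 0 ≤ W) (hV : W ≤ V) (ha' : |a'| ≤ A) :
    -(Q * a' * W * u0 * um) ≤ |Q| * A * (W * u0 ^ 2 + V * um ^ 2) := by
  have hA : 0 ≤ A := (abs_nonneg _).trans ha'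
  have h1 : |W * (u0 * um)| ≤ W * u0 ^ 2 + V * um ^ 2 := by
    have h2 : |u0 * um| ≤ u0 ^ 2 + um ^ 2 :=
      abs_le.2 ⟨by nlinarith [sq_nonneg (u0 + um)], by nlinarith [sq_nonneg (u0 - um)]⟩
    rw [abs_mul, abs_of_nonneg hW]
    linarith [mul_le_mul_of_nonneg_left h2 hW, mul_le_mul_of_nonneg_right hV (sq_nonneg um)]
  calc _ ≤ |Q * a' * (W * (u0 * um))| := by
        refine le_trans (le_of_eq ?_) (neg_le_abs _); ring
    _ = |Q| * |a'| * |W * (u0 * um)| := by rw [abs_mul, abs_mul]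
    _ ≤ _ := by gcongr

theorem EPrin_pt {c A d J W P V x a a' u0 u1 um cm : ℝ} (hc : 0 < c) (hd : 0 ≤ d) (hJ : 0 ≤ J)
    (hx : x ∈ I) (hW : 0 ≤ W) (hP : 0 ≤ P) (hPW : P * om x = J * W) (hV : W ≤ V)
    (hca : c ≤ a) (ha : |a| ≤ A) (ha' : |a'| ≤ A) :
    ((J - 1) * a' * (W * om x) * u0 * u1 - a * (W * om x) * u1 ^ 2) +
      W * u0 ^ 2 * (-(a * (J * (J + 3))) + J * (J + 1) * (a' * (1 - 2 * x)) - J * (2 * d + 2) -
        (a' * (1 - 2 * x) - 2 * a - (2 * d + 2)) / 2) -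
      (a * (1 - 2 * x) + be d x) * (P * (1 - 2 * x)) * u0 ^ 2 / 2 -
      J * (J - 1) * (J + 2) * a' * W * u0 * um + W * u0 * cm ≤
    -(c / 2) * (W * om x * u1 ^ 2) +
      ((J - 1) ^ 2 * A ^ 2 / (2 * c) + (J * (J + 1) * A + 2 * A + d + 1) + (d + 1) * J +
        |J * (J - 1) * (J + 2)| * A + 1) * (W * u0 ^ 2 + V * um ^ 2) + W * cm ^ 2 := by
  have hA : 0 ≤ A := (abs_nonneg _).trans ha
  have hV0 : 0 ≤ V := hW.trans hV
  have h0 : 0 ≤ a := hc.le.trans hca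
  have T1 := EPrin_T1 (J := J) (u0 := u0) (u1 := u1) hc hW (om_nonneg hx)
    (om_le.trans (by norm_num)) hca ha'
  have T2 := mul_le_mul_of_nonneg_left (EPrin_T2 hd hJ hx h0 ha ha')
    (show 0 ≤ W * u0 ^ 2 by positivity)
  have T3 := EPrin_T3 (u0 := u0) hd hP hPW h0
  have T4 := EPrin_T4 (Q := J * (J - 1) * (J + 2)) (u0 := u0) (um := um) hW hV ha'
  have h1 : u0 * cm ≤ u0 ^ 2 + cm ^ 2 := by nlinarith [sq_nonneg (u0 - cm)]
  have T5 := mul_le_mul_of_nonneg_left h1 hW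
  have h8 : 0 ≤ ((J - 1) ^ 2 * A ^ 2 / (2 * c) + (J * (J + 1) * A + 2 * A + d + 1) +
      (d + 1) * J + 1) * (V * um ^ 2) := by positivity
  linarith

/-- The principal operator. -/
noncomputable def EPrin_L (u : ℝ → ℝ) : ℝ → ℝ :=
  fun y => om y * d1 (d1 u) y + 2 * (1 - 2 * y) * d1 u y

theorem EPrin_smL {u : ℝ → ℝ} (hu : Sm u) : Sm (EPrin_L u) :=
  (contDiff_om.contDiffOn.mul hu.d1.d1).add
    (ContDiffOn.mul (f := fun y : ℝ => 2 * (1 - 2 * y)) (by fun_prop) hu.d1)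

theorem EPrin_j (hM : MulStmt) {c A d : ℝ} (hc : 0 < c) (hd : 0 ≤ d) (j : ℕ) :
    ∃ K, 0 ≤ K ∧ ∀ a u, Sm a → Sm u → (∀ x ∈ I, c ≤ a x ∧ |a x| ≤ A ∧ |d1 a x| ≤ A) →
      ∫ x in (0 : ℝ)..1, om x ^ j * (D j u x * D j (fun y =>
        a y * EPrin_L u y + be d y * d1 u y) x) ≤
      -(c / 2) * TT 0 (j + 1) u + K * (TT 0 j u + TT 0 (j - 1) u) +
        ∫ x in (0 : ℝ)..1, om x ^ j * (D j (fun y => a y * EPrin_L u y) x - a x * D j (EPrin_L u) x -
          j * d1 a x * D (j - 1) (EPrin_L u) x) ^ 2 := by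
  set K : ℝ := ((j : ℝ) - 1) ^ 2 * A ^ 2 / (2 * c) + (j * (j + 1) * |A| + 2 * |A| + d + 1) +
    (d + 1) * j + |(j : ℝ) * (j - 1) * (j + 2)| * |A| + 1 with hK
  refine ⟨K, by positivity, fun a u ha hu hb => ?_⟩
  have hL := EPrin_smL hu
  have haL : Sm fun y => a y * EPrin_L u y := ContDiffOn.mul ha hL
  have hbe : Sm (be d) := Sm.of_contDiff (by unfold be; fun_prop)
  have hbu : Sm fun y => be d y * d1 u y := ContDiffOn.mul hbe hu.d1
  have hs : Sm fun y => a y * EPrin_L u y + be d y * d1 u y := ContDiffOn.add haL hbu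
  have c0 := (hu.D j).cont
  have c1 := (hu.D (j + 1)).cont
  have c2 := (hu.D (j + 2)).cont
  have cm := (hu.D (j - 1)).cont
  have ca := ha.cont
  have ca' := ha.d1.cont
  have cs := (hs.D j).cont
  have cb := hbe.cont
  have c3 := (haL.D j).cont
  have c4 := (hL.D j).cont
  have c5 := (hL.D (j - 1)).cont
  have cw : ContinuousOn om I := contDiff_om.continuous.continuousOn
  set F : ℝ → ℝ := fun x => a x * om x ^ (j + 1) * D j u x * D (j + 1) u x +
    (a x * (1 - 2 * x) + be d x) * om x ^ j * D j u x ^ 2 / 2 with hF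
  set F' : ℝ → ℝ := fun x => d1 a x * om x ^ (j + 1) * D j u x * D (j + 1) u x +
    a x * ((j + 1) * om x ^ j * (1 - 2 * x)) * D j u x * D (j + 1) u x +
    a x * om x ^ (j + 1) * D (j + 1) u x ^ 2 + a x * om x ^ (j + 1) * D j u x * D (j + 2) u x +
    (d1 a x * (1 - 2 * x) - 2 * a x - (2 * d + 2)) * om x ^ j * D j u x ^ 2 / 2 +
    (a x * (1 - 2 * x) + be d x) * (j * om x ^ (j - 1) * (1 - 2 * x)) * D j u x ^ 2 / 2 +
    (a x * (1 - 2 * x) + be d x) * om x ^ j * D j u x * D (j + 1) u x with hF'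
  have cF' : ContinuousOn F' I := by rw [hF']; fun_prop
  have hint : ∫ x in (0 : ℝ)..1, F' x = F 1 - F 0 := by
    refine intervalIntegral.integral_eq_sub_of_hasDerivAt_of_le zero_le_one
      (by rw [hF]; fun_prop) (fun x hx => ?_) (cF'.intervalIntegrable_of_Icc zero_le_one)
    have e0 : HasDerivAt (D j u) (D (j + 1) u x) x := by rw [D_succ]; exact (hu.D j).has hx
    have e1 : HasDerivAt (D (j + 1) u) (D (j + 2) u x) x := by
      rw [D_succ (j + 1)]; exact (hu.D (j + 1)).has hx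
    have e2 := ha.has hx
    have e3 := hasDerivAt_om x
    have e4 : HasDerivAt (fun y : ℝ => 1 - 2 * y) (-2) x := by
      simpa using ((hasDerivAt_id x).const_mul 2).const_sub 1
    have e5 : HasDerivAt (be d) (-(2 * d + 2)) x := by
      have := (((hasDerivAt_id x).const_sub 1).const_mul (2 * d)).sub
        ((hasDerivAt_id x).const_mul 2)
      exact this.congr_deriv (by ring)
    have e6 := (((e2.mul (e3.pow (j + 1))).mul e0).mul e1).add
      (((((e2.mul e4).add e5).mul (e3.pow j)).mul (e0.pow 2)).div_const 2)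
    refine HasDerivAt.congr_deriv e6 ?_
    simp only [hF', Pi.mul_apply, Pi.pow_apply, Pi.add_apply, Nat.cast_add,
      Nat.cast_one, Nat.cast_ofNat, Nat.add_one_sub_one]
    ring
  have hbd : F 1 - F 0 ≤ 0 := by
    have h1 := (hb 1 ⟨zero_le_one, le_rfl⟩).1
    have h0 := (hb 0 ⟨le_rfl, zero_le_one⟩).1
    have hz : (0 : ℝ) ≤ 0 ^ j := by positivity
    simp only [hF, om_zero, om_one, be, pow_succ, mul_zero, zero_mul, zero_add]
    have h2 : 0 ≤ (a 1 + 2) * 0 ^ j * D j u 1 ^ 2 :=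
      mul_nonneg (mul_nonneg (by linarith) hz) (sq_nonneg _)
    have h3 : 0 ≤ (a 0 + 2 * d) * 0 ^ j * D j u 0 ^ 2 :=
      mul_nonneg (mul_nonneg (by linarith) hz) (sq_nonneg _)
    nlinarith
  set cmm : ℝ → ℝ := fun x => D j (fun y => a y * EPrin_L u y) x - a x * D j (EPrin_L u) x -
    j * d1 a x * D (j - 1) (EPrin_L u) x with hcm
  have ccm : ContinuousOn cmm I := by rw [hcm]; fun_prop
  have hpt : ∀ x ∈ I, om x ^ j * (D j u x * D j (fun y =>
      a y * EPrin_L u y + be d y * d1 u y) x) ≤ F' x + (-(c / 2) * (om x ^ (j + 1 + 0) *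
      D (j + 1) u x ^ 2) + K * (om x ^ (j + 0) * D j u x ^ 2 +
        om x ^ (j - 1 + 0) * D (j - 1) u x ^ 2) + om x ^ j * cmm x ^ 2) := by
    intro x hx
    have hw := om_nonneg hx
    have hw1 : om x ≤ 1 := om_le.trans (by norm_num)
    have e1 : D j (fun y => a y * EPrin_L u y + be d y * d1 u y) x =
        D j (fun y => a y * EPrin_L u y) x + D j (fun y => be d y * d1 u y) x :=
      iteratedDerivWithin_fun_add hx uI ((haL x hx).of_le (by exact_mod_cast le_top))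
        ((hbu x hx).of_le (by exact_mod_cast le_top))
    have e2 : D j (EPrin_L u) x = _ := hM.jet j u hu x hx
    have e3 := hM.jetb j d u hu x hx
    have e4 : j * D (j - 1) (EPrin_L u) x = j * (om x * D (j + 1) u x +
        (j + 1) * (1 - 2 * x) * D j u x - (j - 1) * (j + 2) * D (j - 1) u x) := by
      cases j with
      | zero => simp
      | succ m =>
        have e5 : D m (EPrin_L u) x = _ := hM.jet m u hu x hx
        rw [Nat.add_sub_cancel, e5]; push_cast; ring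
    have e6 : D j (fun y => a y * EPrin_L u y) x =
        cmm x + a x * D j (EPrin_L u) x + d1 a x * (j * D (j - 1) (EPrin_L u) x) := by
      simp only [hcm]; ring
    have hPW : j * om x ^ (j - 1) * om x = j * om x ^ j := by
      cases j with
      | zero => simp
      | succ m => rw [Nat.add_sub_cancel, pow_succ]; ring
    obtain ⟨h1, h2, h3⟩ := hb x hx
    have key := EPrin_pt (u0 := D j u x) (u1 := D (j + 1) u x) (um := D (j - 1) u x) (cm := cmm x)
      hc hd (Nat.cast_nonneg j) hx (pow_nonneg hw j) (by positivity) hPW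
      (pow_le_pow_of_le_one hw hw1 (Nat.sub_le j 1)) h1 (h2.trans (le_abs_self A))
      (h3.trans (le_abs_self A))
    rw [sq_abs, ← hK] at key
    rw [e1, e6, e4, e2, e3]
    simp only [hF', add_zero, pow_succ (om x) j]
    linarith
  have ii : ∀ {g : ℝ → ℝ}, ContinuousOn g I → IntervalIntegrable g volume 0 1 :=
    fun h => h.intervalIntegrable_of_Icc zero_le_one
  refine (intervalIntegral.integral_mono_on zero_le_one (ii (by fun_prop)) (ii (by fun_prop))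
    hpt).trans ?_
  rw [intervalIntegral.integral_add (ii cF') (ii (by fun_prop)), hint,
    intervalIntegral.integral_add (ii (by fun_prop)) (ii (by fun_prop)),
    intervalIntegral.integral_add (ii (by fun_prop)) (ii (by fun_prop)),
    intervalIntegral.integral_const_mul, intervalIntegral.integral_const_mul,
    intervalIntegral.integral_add (ii (by fun_prop)) (ii (by fun_prop))]
  unfold TT
  linarith

theorem prin (hH : HardyStmt) (hM : MulStmt) (hA : AlgStmt) : PrinStmt := by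
  intro d hd k hk c hc Mb
  obtain ⟨C0, hC0, h0⟩ := hH.usup 0
  obtain ⟨C1, hC1, h1⟩ := hH.usup 1
  obtain ⟨Cc, hCc, hcom⟩ := hA.com k hk
  obtain ⟨C2, hC2, h2⟩ := hM.omdd (k - 3)
  obtain ⟨C3, hC3, h3⟩ := hM.omdd (k - 2)
  choose K hK0 hK using fun j => EPrin_j hM (A := 1 + C0 * Mb + C1 * Mb) hc hd j
  have hsK : 0 ≤ ∑ j ∈ Finset.range (k + 1), K j := Finset.sum_nonneg fun j _ => hK0 j
  refine ⟨2 * ∑ j ∈ Finset.range (k + 1), K j + (k + 1) * (Cc * ((C2 + C3) * |Mb|)),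
    by positivity, fun a u ha hu hca hMa hMu => ?_⟩
  have nn : ∀ e k g, 0 ≤ NN e k g := fun e k g => Finset.sum_nonneg fun j _ => hH.nonneg e j g
  have hMb : 0 ≤ Mb := (nn _ _ _).trans hMa
  rw [abs_of_nonneg hMb]
  have hb : ∀ x ∈ I, c ≤ a x ∧ |a x| ≤ 1 + C0 * Mb + C1 * Mb ∧
      |d1 a x| ≤ 1 + C0 * Mb + C1 * Mb := by
    intro x hx
    have e0 := (h0 a ha x hx).trans (mul_le_mul_of_nonneg_left
      ((hH.mono 0 _ (k - 1) a (by omega)).trans hMa) hC0)
    have e1 := (h1 a ha x hx).trans (mul_le_mul_of_nonneg_left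
      ((hH.mono 0 _ (k - 1) a (by omega)).trans hMa) hC1)
    rw [D_zero] at e0
    rw [D_one] at e1
    have p0 := mul_nonneg hC0 hMb
    have p1 := mul_nonneg hC1 hMb
    exact ⟨hca x hx, abs_le.2 ⟨by nlinarith [sq_nonneg (a x + 1)], by nlinarith [sq_nonneg (a x - 1)]⟩,
      abs_le.2 ⟨by nlinarith [sq_nonneg (d1 a x + 1)], by nlinarith [sq_nonneg (d1 a x - 1)]⟩⟩
  have hT : ∀ j ≤ k, TT 0 j u ≤ NN 0 k u := fun j hj =>
    Finset.single_le_sum (f := fun j => TT 0 j u) (fun j _ => hH.nonneg 0 j u)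
      (Finset.mem_range.2 (by omega))
  have na := nn 0 k a
  have nu := nn 0 k u
  have hL2 : NN 0 (k - 3) (EPrin_L u) ≤ C2 * Mb := (h2 u hu).trans (mul_le_mul_of_nonneg_left
    ((hH.mono 0 _ (k - 1) u (by omega)).trans hMu) hC2)
  have hL3 : NN 0 (k - 2) (EPrin_L u) ≤ C3 * NN 0 k u := (h3 u hu).trans
    (mul_le_mul_of_nonneg_left (hH.mono 0 _ k u (by omega)) hC3)
  have hE : Cc * (NN 0 k a * NN 0 (k - 3) (EPrin_L u) +
      NN 0 (k - 1) a * NN 0 (k - 2) (EPrin_L u)) ≤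
      Cc * ((C2 + C3) * Mb) * (1 + NN 0 k a + NN 0 k u) := by
    rw [mul_assoc]
    refine mul_le_mul_of_nonneg_left ?_ hCc
    have e1 := mul_le_mul_of_nonneg_left hL2 na
    have e2 := mul_le_mul hMa hL3 (nn _ _ _) hMb
    have p2 := mul_nonneg hC2 hMb
    have p3 := mul_nonneg hC3 hMb
    nlinarith [mul_nonneg p2 nu, mul_nonneg p3 na]
  have hj : ∀ j ∈ Finset.range (k + 1), ∫ x in (0 : ℝ)..1, om x ^ j * (D j u x * D j (fun y =>
      a y * EPrin_L u y + be d y * d1 u y) x) ≤ -(c / 2) * TT 0 (j + 1) u +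
      (2 * K j + Cc * ((C2 + C3) * Mb)) * (1 + NN 0 k a + NN 0 k u) := by
    intro j hj
    have hjk : j ≤ k := Nat.lt_succ_iff.1 (Finset.mem_range.1 hj)
    have e1 := hK j a u ha hu hb
    have e2 := (hcom a _ ha (EPrin_smL hu) j hjk).trans hE
    have e3 : K j * (TT 0 j u + TT 0 (j - 1) u) ≤ K j * (2 * (1 + NN 0 k a + NN 0 k u)) :=
      mul_le_mul_of_nonneg_left (by linarith [hT j hjk, hT (j - 1) (by omega)]) (hK0 j)
    linarith
  refine (Finset.sum_le_sum hj).trans ?_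
  rw [Finset.sum_add_distrib, ← Finset.mul_sum, ← Finset.sum_mul, Finset.sum_add_distrib,
    ← Finset.mul_sum, Finset.sum_const, Finset.card_range, nsmul_eq_mul, Nat.cast_add, Nat.cast_one]
  have e4 : TT 0 (k + 1) u ≤ ∑ j ∈ Finset.range (k + 1), TT 0 (j + 1) u :=
    Finset.single_le_sum (f := fun j => TT 0 (j + 1) u) (fun j _ => hH.nonneg 0 _ u)
      (Finset.self_mem_range_succ k)
  nlinarith

end Vale.Agent.P244
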