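import Vale.Agent.P244.StmE

/-! P244: the orthogonal projection on polynomials of bounded degree. -/

open Set Filter Polynomial
open scoped ContDiff Topology

namespace Vale.Agent.P244

theorem EProj_ii {f : ℝ → ℝ} (h : ContinuousOn f I) : IntervalIntegrable f MeasureTheory.volume 0 1 :=
  h.intervalIntegrable_of_Icc zero_le_one

theorem EProj_congr {f g : ℝ → ℝ} (h : ∀ x ∈ I, f x = g x) :
    ∫ x in (0 : ℝ)..1, f x = ∫ x in (0 : ℝ)..1, g x :=
  intervalIntegral.integral_congr fun x hx => h x (by rwa [uIcc_of_le zero_le_one] at hx)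

theorem EProj_cont (p : ℝ[X]) : Continuous (ev p) := p.continuous

theorem EProj_sm (p : ℝ[X]) : Sm (ev p) := Sm.of_contDiff (p.contDiff_aeval ∞)

theorem EProj_D (p : ℝ[X]) (j : ℕ) : ∀ x ∈ I, D j (ev p) x = ev (derivative^[j] p) x := by
  induction j with
  | zero => intro x _; rw [D_zero]; rfl
  | succ j ih =>
    intro x hx
    rw [D_succ, d1_congr ih hx, Function.iterate_succ_apply']
    exact d1_eq' hx (Polynomial.hasDerivAt _ x)

theorem EProj_Dsub {g h : ℝ → ℝ} (hg : Sm g) (hh : Sm h) (j : ℕ) :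
    ∀ x ∈ I, D j (fun y => g y - h y) x = D j g x - D j h x := by
  induction j with
  | zero => intro x _; simp only [D_zero]
  | succ j ih =>
    intro x hx
    rw [D_succ, d1_congr ih hx, D_succ, D_succ]
    exact d1_eq hx (((hg.D j).hasW hx).sub ((hh.D j).hasW hx))

theorem EProj_omc (j : ℕ) : ContinuousOn (fun x => om x ^ j) I :=
  (contDiff_om.continuous.pow j).continuousOn

theorem EProj_level {n : ℕ} {h : ℝ → ℝ} (hh : Sm h)
    (h0 : ∀ π : ℝ[X], π.natDegree ≤ n → ∫ x in (0 : ℝ)..1, h x * ev π x = 0) (i : ℕ) :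
    ∀ q : ℝ[X], q.natDegree + i ≤ n → ∫ x in (0 : ℝ)..1, om x ^ i * (D i h x * ev q x) = 0 := by
  induction i with
  | zero => intro q hq; simpa [D_zero] using h0 q hq
  | succ i ih =>
    intro q hq
    set r : ℝ[X] := C ((i : ℝ) + 1) * (1 - C 2 * X) * q + X * (1 - X) * derivative q with hr
    have d1' : (C ((i : ℝ) + 1) * (1 - C 2 * X)).natDegree ≤ 1 := by compute_degree
    have d2 : (X * (1 - X) : ℝ[X]).natDegree ≤ 2 := by compute_degree
    have dr : r.natDegree ≤ q.natDegree + 1 := by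
      refine (natDegree_add_le _ _).trans (max_le (natDegree_mul_le.trans (by omega)) ?_)
      by_cases h1 : q.natDegree = 0
      · rw [derivative_of_natDegree_zero h1]; simp
      · have := natDegree_derivative_le q
        exact natDegree_mul_le.trans (by omega)
    have c1 := (EProj_omc (i + 1)).fun_mul ((hh.D (i + 1)).cont.fun_mul (EProj_cont q).continuousOn)
    have c2 := (EProj_omc i).fun_mul ((hh.D i).cont.fun_mul (EProj_cont r).continuousOn)
    have h1 := intervalIntegral.integral_eq_sub_of_hasDerivAt_of_le zero_le_one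
      (f := fun x => om x ^ (i + 1) * (D i h x * ev q x))
      (f' := fun x => om x ^ (i + 1) * (D (i + 1) h x * ev q x) + om x ^ i * (D i h x * ev r x))
      ((EProj_omc (i + 1)).mul ((hh.D i).cont.mul (EProj_cont q).continuousOn))
      (fun x hx => (((hasDerivAt_om x).pow (i + 1)).mul
        (((hh.D i).has hx).mul (q.hasDerivAt x))).congr_deriv (by
          simp only [hr, ev, D_succ, eval_add, eval_mul, eval_sub, eval_C, eval_X, eval_one,
            Pi.pow_apply, Pi.mul_apply, Nat.add_sub_cancel, Nat.cast_add, Nat.cast_one]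
          rw [show x * (1 - x) = om x from rfl]
          ring)) (EProj_ii (c1.add c2))
    rw [intervalIntegral.integral_add (EProj_ii c1) (EProj_ii c2), ih r (by omega)] at h1
    simpa [om_zero, om_one] using h1

theorem EProj_pyth (j : ℕ) {u v : ℝ → ℝ} (hu : ContinuousOn u I) (hv : ContinuousOn v I)
    (h : ∫ x in (0 : ℝ)..1, om x ^ j * (u x * v x) = 0) :
    ∫ x in (0 : ℝ)..1, om x ^ j * v x ^ 2 ≤ ∫ x in (0 : ℝ)..1, om x ^ j * (u x + v x) ^ 2 := by
  have c1 := EProj_ii ((EProj_omc j).fun_mul (hv.fun_pow 2))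
  have c2 := (EProj_ii ((EProj_omc j).fun_mul (hu.fun_mul hv))).const_mul 2
  calc _ = ∫ x in (0 : ℝ)..1, (om x ^ j * v x ^ 2 + 2 * (om x ^ j * (u x * v x))) := by
        rw [intervalIntegral.integral_add c1 c2, intervalIntegral.integral_const_mul, h]; simp
    _ ≤ _ := intervalIntegral.integral_mono_on zero_le_one (c1.add c2)
        (EProj_ii ((EProj_omc j).fun_mul ((hu.fun_add hv).fun_pow 2))) fun x hx => by
          nlinarith [mul_nonneg (pow_nonneg (om_nonneg hx) j) (sq_nonneg (u x))]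

theorem EProj_isProj {n : ℕ} {g : ℝ → ℝ} (hg : Sm g) {p : ℝ[X]} (hp : p.natDegree ≤ n)
    (h0 : ∀ π : ℝ[X], π.natDegree ≤ n → ∫ x in (0 : ℝ)..1, (g x - ev p x) * ev π x = 0) :
    IsProj n g p := by
  have key : ∀ π : ℝ[X], π.natDegree ≤ n → ∀ j,
      ∫ x in (0 : ℝ)..1, om x ^ j * ((D j g x - D j (ev p) x) * D j (ev π) x) = 0 := by
    intro π hπ j
    rw [EProj_congr (g := fun x => om x ^ j * (D j (fun y => g y - ev p y) x *
      ev (derivative^[j] π) x)) fun x hx => by
        rw [EProj_Dsub hg (EProj_sm p) j x hx, EProj_D π j x hx]]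
    rcases lt_or_ge π.natDegree j with h | h
    · simp [iterate_derivative_eq_zero h, ev]
    · have := natDegree_iterate_derivative π j
      exact EProj_level (ContDiffOn.sub hg (EProj_sm p)) h0 j _ (by omega)
  refine ⟨hp, fun j => ?_, key⟩
  have := EProj_pyth j ((hg.D j).cont.sub ((EProj_sm p).D j).cont) ((EProj_sm p).D j).cont
    (key p hp j)
  simpa [TT] using this

/-- Moments. -/
noncomputable def EProj_mom (n : ℕ) (g : ℝ → ℝ) : Fin (n + 1) → ℝ :=
  fun b => ∫ x in (0 : ℝ)..1, g x * x ^ (b : ℕ)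

theorem EProj_mom_sub (n : ℕ) {g h : ℝ → ℝ} (hg : ContinuousOn g I) (hh : ContinuousOn h I) :
    EProj_mom n (fun x => g x - h x) = EProj_mom n g - EProj_mom n h := by
  funext b
  simp only [EProj_mom, sub_mul, Pi.sub_apply]
  exact intervalIntegral.integral_sub (EProj_ii (hg.mul (by fun_prop)))
    (EProj_ii (hh.mul (by fun_prop)))

theorem EProj_orth {n : ℕ} {h : ℝ → ℝ} (hh : ContinuousOn h I) (h0 : EProj_mom n h = 0)
    (π : ℝ[X]) (hπ : π.natDegree ≤ n) : ∫ x in (0 : ℝ)..1, h x * ev π x = 0 := by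
  have h1 : ∀ x, h x * ev π x = ∑ b ∈ Finset.range (n + 1), π.coeff b * (h x * x ^ b) := fun x => by
    rw [ev, eval_eq_sum_range' (Nat.lt_succ_of_le hπ), Finset.mul_sum]
    exact Finset.sum_congr rfl fun b _ => by ring
  simp only [h1]
  rw [intervalIntegral.integral_finsetSum fun b _ =>
    (EProj_ii (hh.fun_mul (by fun_prop : ContinuousOn (fun x : ℝ => x ^ b) I))).const_mul _]
  refine Finset.sum_eq_zero fun b hb => ?_
  have := congrFun h0 ⟨b, Finset.mem_range.1 hb⟩
  rw [intervalIntegral.integral_const_mul]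
  exact mul_eq_zero_of_right _ this

theorem EProj_mom_sq (n : ℕ) {g : ℝ → ℝ} (hg : ContinuousOn g I) (b : Fin (n + 1)) :
    EProj_mom n g b ^ 2 ≤ TT 0 0 g := by
  set M := EProj_mom n g b with hM
  have c1 : ContinuousOn (fun x => g x * x ^ (b : ℕ)) I := hg.mul (by fun_prop)
  have h1 := intervalIntegral.integral_mono_on zero_le_one
    (f := fun x => 2 * M * (g x * x ^ (b : ℕ)) - M ^ 2) (g := fun x => g x ^ 2)
    (((EProj_ii c1).const_mul _).sub (by simp)) (EProj_ii (hg.pow 2)) fun x hx => by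
      have h2 : (x ^ (b : ℕ)) ^ 2 ≤ 1 := pow_le_one₀ (pow_nonneg hx.1 _) (pow_le_one₀ hx.1 hx.2)
      nlinarith [sq_nonneg (g x * x ^ (b : ℕ) - M), mul_le_mul_of_nonneg_left h2 (sq_nonneg (g x))]
  rw [intervalIntegral.integral_sub ((EProj_ii c1).const_mul _) (by simp),
    intervalIntegral.integral_const_mul] at h1
  simp only [TT, D_zero, add_zero, pow_zero, one_mul]
  have h3 : ∫ x in (0 : ℝ)..1, g x * x ^ (b : ℕ) = M := rfl
  rw [h3] at h1
  simp only [intervalIntegral.integral_const, sub_zero, one_smul] at h1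
  nlinarith

theorem EProj_inv (n : ℕ) : ∃ Ψ : (Fin (n + 1) → ℝ) →L[ℝ] Fin (n + 1) → ℝ,
    (∀ m, EProj_mom n (ev (ofFn (n + 1) (Ψ m))) = m) ∧
      ∀ c, Ψ (EProj_mom n (ev (ofFn (n + 1) c))) = c := by
  let Φ : (Fin (n + 1) → ℝ) →ₗ[ℝ] Fin (n + 1) → ℝ :=
    { toFun := fun c => EProj_mom n (ev (ofFn (n + 1) c))
      map_add' := fun c c' => by
        funext b
        simp only [EProj_mom, ev, map_add, eval_add, add_mul, Pi.add_apply]
        exact intervalIntegral.integral_add (Continuous.intervalIntegrable (by fun_prop) _ _)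
          (Continuous.intervalIntegrable (by fun_prop) _ _)
      map_smul' := fun t c => by
        funext b
        simp only [EProj_mom, ev, map_smul, eval_smul, smul_eq_mul, mul_assoc, Pi.smul_apply,
          RingHom.id_apply, intervalIntegral.integral_const_mul] }
  have hi : Function.Injective Φ := by
    refine (injective_iff_map_eq_zero _).2 fun c hc => injective_ofFn (n + 1) ?_
    rw [map_zero]
    set p := ofFn (n + 1) c
    have h1 := EProj_orth (EProj_cont p).continuousOn hc p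
      (Nat.le_of_lt_succ (ofFn_natDegree_lt (by omega) c))
    refine eq_zero_of_infinite_isRoot _ ((Icc_infinite zero_lt_one).mono fun x hx => ?_)
    by_contra hx0
    have := intervalIntegral.integral_lt_integral_of_continuousOn_of_le_of_exists_lt
      (f := fun _ => 0) (g := fun x => ev p x * ev p x) zero_lt_one continuousOn_const
      ((EProj_cont p).mul (EProj_cont p)).continuousOn (fun y _ => mul_self_nonneg _)
      ⟨x, hx, mul_self_pos.2 hx0⟩
    rw [h1] at this
    simp at this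
  let e := LinearEquiv.ofInjectiveEndo Φ hi
  exact ⟨LinearMap.toContinuousLinearMap e.symm.toLinearMap, e.apply_symm_apply,
    e.symm_apply_apply⟩

theorem EProj_coeff {n : ℕ} (c : Fin n → ℝ) (a : ℕ) : |(ofFn n c).coeff a| ≤ ‖c‖ := by
  rcases lt_or_ge a n with h | h
  · rw [ofFn_coeff_eq_val_of_lt c h]; exact norm_le_pi_norm c _
  · rw [ofFn_coeff_eq_zero_of_ge c h, abs_zero]; exact norm_nonneg _

theorem EProj_anti (q : ℝ[X]) : ∃ π : ℝ[X], derivative π = q := by
  induction q using Polynomial.induction_on' with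
  | add p q hp hq =>
    obtain ⟨a, ha⟩ := hp
    obtain ⟨b, hb⟩ := hq
    exact ⟨a + b, by rw [map_add, ha, hb]⟩
  | monomial n a =>
    exact ⟨monomial (n + 1) (a / (n + 1)), by
      rw [derivative_monomial_succ, div_mul_cancel₀ _ (by positivity)]⟩

theorem EProj_weier {η : ℝ} (hη : 0 < η) (k : ℕ) : ∀ g, Sm g → ∃ π : ℝ[X], ∀ j ≤ k, ∀ x ∈ I,
    |D j g x - D j (ev π) x| ≤ η := by
  induction k with
  | zero =>
    intro g hg
    obtain ⟨π, h⟩ := exists_polynomial_near_of_continuousOn 0 1 g hg.cont η hη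
    refine ⟨π, fun j hj x hx => ?_⟩
    rw [Nat.le_zero.1 hj, D_zero, D_zero, abs_sub_comm]
    exact (h x hx).le
  | succ k ih =>
    intro g hg
    obtain ⟨q, hq⟩ := ih _ hg.d1
    obtain ⟨r, hr⟩ := EProj_anti q
    have hd : ∀ x, HasDerivAt (ev (r + C (g 0 - r.eval 0))) (ev q x) x := fun x =>
      (Polynomial.hasDerivAt _ x).congr_deriv (by simp [hr, ev])
    refine ⟨r + C (g 0 - r.eval 0), fun j hj x hx => ?_⟩
    rcases j with _ | j
    · have h1 := norm_image_sub_le_of_norm_deriv_le_segment' (C := η)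
        (fun y hy => (hg.hasW hy).sub (hd y).hasDerivWithinAt)
        (fun y hy => by simpa [D_zero] using hq 0 (Nat.zero_le _) y (Ico_subset_Icc_self hy)) x hx
      have h2 : g 0 - ev (r + C (g 0 - r.eval 0)) 0 = 0 := by simp [ev]
      rw [Pi.sub_apply, Pi.sub_apply, h2, sub_zero, sub_zero] at h1
      rw [D_zero, D_zero]
      exact h1.trans (mul_le_of_le_one_right hη.le hx.2)
    · rw [D_succ', D_succ', D_congr (fun y hy => d1_eq' hy (hd y)) j hx]
      exact hq j (by omega) x hx

theorem proj (hH : HardyStmt) : ProjStmt := by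
  refine ⟨fun n => ?_, fun n => ?_, fun g hg p hp ε hε => ?_⟩
  · obtain ⟨Ψ, h1, -⟩ := EProj_inv n
    refine ⟨fun g => ofFn (n + 1) (Ψ (EProj_mom n g)), fun g hg => EProj_isProj hg
      (Nat.le_of_lt_succ (ofFn_natDegree_lt (by omega) _)) (EProj_orth
        (hg.cont.sub (EProj_cont _).continuousOn) ?_), ‖Ψ‖, norm_nonneg _,
      fun g h hg hh ε hε a => ?_⟩
    · rw [EProj_mom_sub n hg.cont (EProj_cont _).continuousOn, h1, sub_self]
    · have h0 : 0 ≤ ε := (abs_nonneg _).trans (hε 0 ⟨le_rfl, zero_le_one⟩)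
      rw [← coeff_sub, ← map_sub, ← map_sub, ← EProj_mom_sub n hg.cont hh.cont]
      refine (EProj_coeff _ a).trans ((Ψ.le_opNorm _).trans (mul_le_mul_of_nonneg_left
        ((pi_norm_le_iff_of_nonneg h0).2 fun b => ?_) (norm_nonneg _)))
      refine (intervalIntegral.norm_integral_le_of_norm_le_const (C := ε) fun x hx => ?_).trans
        (by simp)
      rw [uIoc_of_le zero_le_one] at hx
      rw [norm_mul, Real.norm_of_nonneg (pow_nonneg hx.1.le _)]
      exact (mul_le_of_le_one_right (norm_nonneg _) (pow_le_one₀ hx.1.le hx.2)).trans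
        (hε x (Ioc_subset_Icc_self hx))
  · obtain ⟨Ψ, -, h2⟩ := EProj_inv n
    refine ⟨‖Ψ‖ ^ 2, sq_nonneg _, fun p hp a => ?_⟩
    have h3 := ofFn_comp_toFn_eq_id_of_natDegree_lt (Nat.lt_succ_of_le hp)
    have h4 := EProj_coeff (toFn (n + 1) p) a
    rw [h3, ← h2 (toFn (n + 1) p), h3] at h4
    have h5 : ‖EProj_mom n (ev p)‖ ≤ √(TT 0 0 (ev p)) :=
      (pi_norm_le_iff_of_nonneg (Real.sqrt_nonneg _)).2 fun b =>
        Real.abs_le_sqrt (EProj_mom_sq n (EProj_cont p).continuousOn b)
    have h6 := pow_le_pow_left₀ (abs_nonneg _) (h4.trans ((Ψ.le_opNorm _).trans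
      (mul_le_mul_of_nonneg_left h5 (norm_nonneg _)))) 2
    rwa [sq_abs, mul_pow, Real.sq_sqrt (hH.nonneg _ _ _)] at h6
  · obtain ⟨C, hC, hs⟩ := hH.sup 0 0
    obtain ⟨c, hc, h1⟩ := exists_pos_mul_lt (pow_pos hε 2) (C * 3)
    obtain ⟨π, hπ⟩ := EProj_weier (Real.sqrt_pos.2 hc) 2 g hg
    refine ⟨π.natDegree, fun n hn x hx => ?_⟩
    have s1 := EProj_sm (p n)
    have s2 := EProj_sm π
    have h2 := hH.of_bound 0 2 _ √c (ContDiffOn.sub hg s2) fun j hj y hy => by
      rw [EProj_Dsub hg s2 j y hy]; exact hπ j hj y hy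
    have h3 : NN 0 2 (fun y => g y - ev (p n) y) ≤ NN 0 2 fun y => g y - ev π y := by
      refine Finset.sum_le_sum fun j _ => ?_
      have h4 := (hp n).2.2 (p n - π) ((natDegree_sub_le _ _).trans (max_le (hp n).1 hn)) j
      have h5 : ev (p n - π) = fun y => ev (p n) y - ev π y := by funext y; simp [ev]
      have h6 := EProj_pyth j ((s1.D j).cont.sub (s2.D j).cont) ((hg.D j).cont.sub (s1.D j).cont)
        ((EProj_congr fun y hy => by
          rw [h5, EProj_Dsub s1 s2 j y hy]; simp only [Pi.sub_apply]; ring).trans h4)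
      unfold TT
      rw [EProj_congr (g := fun y => om y ^ j * (D j g y - D j (ev (p n)) y) ^ 2)
        fun y hy => by rw [EProj_Dsub hg s1 j y hy, add_zero]]
      refine h6.trans (le_of_eq (EProj_congr fun y hy => ?_))
      rw [EProj_Dsub hg s2 j y hy, add_zero]
      simp only [Pi.sub_apply]
      ring
    have h7 := hs _ (ContDiffOn.sub hg s1) x hx
    rw [Real.sq_sqrt hc.le] at h2
    simp only [add_zero, pow_zero, one_mul, D_zero, zero_add] at h7
    have h8 := mul_le_mul_of_nonneg_left (h3.trans h2) hC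
    rw [abs_sub_comm]
    refine abs_le_of_sq_le_sq' ?_ hε.le |> fun h => abs_le.2 h
    push_cast at h8
    linarith

end Vale.Agent.P244
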