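import Vale.Agent.P244.StmE

/-! P244: a solution with continuous jets is jointly smooth. -/

open Set Filter MeasureTheory
open scoped ContDiff Topology

namespace Vale.Agent.P244

theorem EUp_ftc {a b y : ℝ} {g g' : ℝ → ℝ}
    (h : ∀ y ∈ Icc a b, HasDerivWithinAt g (g' y) (Icc a b) y) (hc : ContinuousOn g' (Icc a b))
    (hy : y ∈ Icc a b) : ∫ s in a..y, g' s = g y - g a := by
  have hs : Icc a y ⊆ Icc a b := Icc_subset_Icc_right hy.2
  refine intervalIntegral.integral_eq_sub_of_hasDerivAt_of_le hy.1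
    (fun s hs' => ((h s (hs hs')).continuousWithinAt).mono hs) (fun s hs' => ?_)
    ((hc.mono hs).intervalIntegrable_of_Icc hy.1)
  exact (h s (hs (Ioo_subset_Icc_self hs'))).hasDerivAt (Icc_mem_nhds hs'.1 (hs'.2.trans_le hy.2))

theorem EUp_swap {T : ℝ} (hT : 0 < T) {u w ux wx : Fn}
    (hw : ContinuousOn (fun p : ℝ × ℝ => w p.1 p.2) (Icc 0 T ×ˢ I))
    (hwx : ContinuousOn (fun p : ℝ × ℝ => wx p.1 p.2) (Icc 0 T ×ˢ I))
    (du : ∀ t ∈ Icc 0 T, ∀ x ∈ I, HasDerivWithinAt (u t) (ux t x) I x)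
    (dw : ∀ t ∈ Icc 0 T, ∀ x ∈ I, HasDerivWithinAt (w t) (wx t x) I x)
    (hut : ∀ t ∈ Icc 0 T, ∀ x ∈ I, HasDerivWithinAt (fun s => u s x) (w t x) (Icc 0 T) t) :
    ∀ t ∈ Icc 0 T, ∀ x ∈ I, HasDerivWithinAt (fun s => ux s x) (wx t x) (Icc 0 T) t := by
  set F : ℝ → ℝ → ℝ := fun s y => wx (projIcc 0 T hT.le s) (projIcc 0 1 zero_le_one y) with hF
  have hFc : Continuous F.uncurry := by
    refine hwx.comp_continuous
      (f := fun p : ℝ × ℝ => (((projIcc 0 T hT.le p.1 : ℝ), (projIcc 0 1 zero_le_one p.2 : ℝ)) : ℝ × ℝ))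
      ?_ fun p => ⟨(projIcc 0 T hT.le p.1).2, (projIcc 0 1 zero_le_one p.2).2⟩
    exact ((continuous_subtype_val.comp continuous_projIcc).comp continuous_fst).prodMk
      ((continuous_subtype_val.comp continuous_projIcc).comp continuous_snd)
  have hFe : ∀ s ∈ Icc 0 T, ∀ y ∈ I, F s y = wx s y := fun s hs y hy => by
    simp only [hF, projIcc_of_mem _ hs, projIcc_of_mem _ hy]
  have h0T : (0 : ℝ) ∈ Icc 0 T := ⟨le_rfl, hT.le⟩
  have h01 : (0 : ℝ) ∈ I := ⟨le_rfl, zero_le_one⟩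
  have hwc : ∀ x ∈ I, ContinuousOn (fun s => w s x) (Icc 0 T) := fun x hx =>
    hw.comp (f := fun s : ℝ => (s, x)) (by fun_prop) fun s hs => ⟨hs, hx⟩
  have hwxc : ∀ s ∈ Icc 0 T, ContinuousOn (wx s) I := fun s hs =>
    hwx.comp (f := fun y : ℝ => (s, y)) (by fun_prop) fun y hy => ⟨hs, hy⟩
  have key : ∀ t ∈ Icc 0 T, ∀ x ∈ I, ux t x = ux 0 x + ∫ s in (0 : ℝ)..t, F s x := by
    intro t ht x hx
    have hG : Continuous fun y => ∫ s in (0 : ℝ)..t, F s y :=
      intervalIntegral.continuous_parametric_intervalIntegral_of_continuous'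
        (f := fun y s => F s y) (hFc.comp continuous_swap) 0 t
    have hsub : uIcc 0 t ⊆ Icc 0 T := by
      rw [uIcc_of_le ht.1]; exact Icc_subset_Icc_right ht.2
    have e : ∀ y ∈ I, u t y = u 0 y + ((∫ s in (0 : ℝ)..t, w s 0) +
        ∫ z in (0 : ℝ)..y, ∫ s in (0 : ℝ)..t, F s z) := by
      intro y hy
      have e1 := EUp_ftc (fun s hs => hut s hs y hy) (hwc y hy) ht
      have hsy : uIcc 0 y ⊆ I := by
        rw [uIcc_of_le hy.1]; exact Icc_subset_Icc_right hy.2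
      have e2 : ∫ s in (0 : ℝ)..t, w s y = ∫ s in (0 : ℝ)..t, (w s 0 + ∫ z in (0 : ℝ)..y, F s z) := by
        refine intervalIntegral.integral_congr fun s hs => ?_
        have e3 := EUp_ftc (dw s (hsub hs)) (hwxc s (hsub hs)) hy
        have e4 : ∫ z in (0 : ℝ)..y, F s z = ∫ z in (0 : ℝ)..y, wx s z :=
          intervalIntegral.integral_congr fun z hz => hFe s (hsub hs) z (hsy hz)
        simp only [e4, e3]; ring
      have hc2 : Continuous fun s => ∫ z in (0 : ℝ)..y, F s z :=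
        intervalIntegral.continuous_parametric_intervalIntegral_of_continuous' hFc 0 y
      rw [intervalIntegral.integral_add (((hwc 0 h01).mono hsub).intervalIntegrable)
        (hc2.intervalIntegrable _ _), intervalIntegral_intervalIntegral_swap] at e2
      · linarith
      · exact (hFc.continuousOn.integrableOn_compact (isCompact_uIcc.prod isCompact_uIcc)).mono_set
          (prod_mono uIoc_subset_uIcc uIoc_subset_uIcc)
    have d1 := ((du 0 h0T x hx).add (((hG.integral_hasStrictDerivAt 0 x).hasDerivAt.const_add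
      (∫ s in (0 : ℝ)..t, w s 0)).hasDerivWithinAt)).congr e (e x hx)
    exact (uI x hx).eq_deriv _ (du t ht x hx) d1
  intro t ht x hx
  have hc3 : Continuous fun s => F s x := hFc.comp (continuous_id.prodMk continuous_const)
  have d2 := ((hc3.integral_hasStrictDerivAt 0 t).hasDerivAt.const_add (ux 0 x)).hasDerivWithinAt (s := Icc 0 T)
  rw [hFe t ht x hx] at d2
  exact d2.congr (fun s hs => key s hs x hx) (key t ht x hx)

/-- Closure properties of the class of jet functions. -/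
structure EUp_Cl (T : ℝ) (f : Fin 3 → Fn) (P : Fn → Prop) : Prop where
  x : P fun _ x => x
  jet : ∀ i j, P fun t => D j (f i t)
  comp : ∀ (ι : Type) [Fintype ι] (G : (ι → ℝ) → ℝ), ContDiff ℝ ∞ G → ∀ u : ι → Fn,
    (∀ k, P (u k)) → P fun t x => G fun k => u k t x
  congr : ∀ u v : Fn, P u → (∀ t ∈ Icc 0 T, ∀ x ∈ I, v t x = u t x) → P v

/-- The smallest closed class. -/
def EUp_A (T : ℝ) (f : Fin 3 → Fn) (u : Fn) : Prop := ∀ P, EUp_Cl T f P → P u

theorem EUp_cl (T : ℝ) (f : Fin 3 → Fn) : EUp_Cl T f (EUp_A T f) :=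
  ⟨fun _ h => h.x, fun i j _ h => h.jet i j,
    fun ι _ G hG u hu P h => h.comp ι G hG u fun k => hu k P h,
    fun u v hu e P h => h.congr u v (hu P h) e⟩

theorem EUp_const (T : ℝ) (f : Fin 3 → Fn) (c : ℝ) : EUp_A T f fun _ _ => c :=
  (EUp_cl T f).comp Empty (fun _ => c) contDiff_const (fun k => k.elim) fun k => k.elim

theorem EUp_chain {ι : Type} [Fintype ι] {G : (ι → ℝ) → ℝ} (hG : ContDiff ℝ ∞ G)
    {c : ι → ℝ → ℝ} {c' : ι → ℝ} {s : Set ℝ} {y : ℝ} (h : ∀ k, HasDerivWithinAt (c k) (c' k) s y) :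
    HasDerivWithinAt (fun y => G fun k => c k y) (fderiv ℝ G (fun k => c k y) c') s y :=
  HasFDerivAt.comp_hasDerivWithinAt (f := fun y k => c k y) y
    (hG.differentiable inf_ne_zero _).hasFDerivAt (hasDerivWithinAt_pi.2 h)

theorem EUp_fd {T : ℝ} {f : Fin 3 → Fn} {ι : Type} [Fintype ι] {G : (ι → ℝ) → ℝ}
    (hG : ContDiff ℝ ∞ G) {u v : ι → Fn} (hu : ∀ k, EUp_A T f (u k)) (hv : ∀ k, EUp_A T f (v k)) :
    EUp_A T f fun t x => fderiv ℝ G (fun k => u k t x) fun k => v k t x := by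
  have h1 : ContDiff ℝ ∞ fun q : ι ⊕ ι → ℝ =>
      fderiv ℝ G (fun k => q (Sum.inl k)) fun k => q (Sum.inr k) :=
    ((hG.fderiv_right inf_add_one).comp (by fun_prop)).clm_apply (by fun_prop)
  exact (EUp_cl T f).comp (ι ⊕ ι) _ h1 (Sum.elim u v) fun k => by
    cases k with
    | inl k => exact hu k
    | inr k => exact hv k

section

variable {d : ℝ} {N : ℝ × V3 × V3 → V3} {f0 : Fin 3 → ℝ → ℝ} {T : ℝ} {f : Fin 3 → Fn}

theorem EUp_cont (h : Weak d N f0 T f) {u : Fn} (hu : EUp_A T f u) :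
    ContinuousOn (fun p : ℝ × ℝ => u p.1 p.2) (Icc 0 T ×ˢ I) := by
  refine hu (fun u => ContinuousOn (fun p : ℝ × ℝ => u p.1 p.2) (Icc 0 T ×ˢ I))
    ⟨continuousOn_snd, h.cont, fun ι _ G hG u hu => ?_, fun u v hu e => ?_⟩
  · exact hG.continuous.comp_continuousOn (continuousOn_pi.2 hu)
  · exact hu.congr fun p hp => e p.1 hp.1 p.2 hp.2

theorem EUp_dx (h : Weak d N f0 T f) {u : Fn} (hu : EUp_A T f u) :
    ∃ v, EUp_A T f v ∧ ∀ t ∈ Icc 0 T, ∀ x ∈ I, HasDerivWithinAt (u t) (v t x) I x := by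
  have hc := EUp_cl T f
  refine (hu (fun u => EUp_A T f u ∧ ∃ v, EUp_A T f v ∧
      ∀ t ∈ Icc 0 T, ∀ x ∈ I, HasDerivWithinAt (u t) (v t x) I x)
    ⟨⟨hc.x, _, EUp_const T f 1, fun t _ x _ => hasDerivWithinAt_id x I⟩,
      fun i j => ⟨hc.jet i j, _, hc.jet i (j + 1), fun t ht x hx => ?_⟩,
      fun ι _ G hG u hu => ?_, fun u v hu e => ?_⟩).2
  · rw [D_succ]; exact ((h.sm i t ht).D j).hasW hx
  · choose v hv hv' using fun k => (hu k).2
    exact ⟨hc.comp ι G hG u fun k => (hu k).1, _, EUp_fd hG (fun k => (hu k).1) hv,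
      fun t ht x hx => EUp_chain hG fun k => hv' k t ht x hx⟩
  · obtain ⟨hu, w, hw, hw'⟩ := hu
    exact ⟨hc.congr u v hu e, w, hw, fun t ht x hx =>
      (hw' t ht x hx).congr (e t ht) (e t ht x hx)⟩

theorem EUp_D (h : Weak d N f0 T f) {u : Fn} (hu : EUp_A T f u) (j : ℕ) :
    EUp_A T f (fun t => D j (u t)) ∧ ∀ t ∈ Icc 0 T, ∀ x ∈ I,
      HasDerivWithinAt (D j (u t)) (D (j + 1) (u t) x) I x := by
  have key : ∀ v, EUp_A T f v → EUp_A T f (fun t => d1 (v t)) ∧ ∀ t ∈ Icc 0 T, ∀ x ∈ I,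
      HasDerivWithinAt (v t) (d1 (v t) x) I x := by
    intro v hv
    obtain ⟨w, hw, hw'⟩ := EUp_dx h hv
    have e : ∀ t ∈ Icc 0 T, ∀ x ∈ I, d1 (v t) x = w t x := fun t ht x hx =>
      d1_eq hx (hw' t ht x hx)
    exact ⟨(EUp_cl T f).congr w _ hw e, fun t ht x hx => e t ht x hx ▸ hw' t ht x hx⟩
  have h1 : EUp_A T f fun t => D j (u t) := by
    induction j with
    | zero => simpa only [D_zero] using hu
    | succ j ih => simpa only [D_succ] using (key _ ih).1
  exact ⟨h1, by simpa only [D_succ] using (key _ h1).2⟩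

theorem EUp_rhs (hN : ContDiff ℝ ∞ N) (i : Fin 3) :
    EUp_A T f fun t => rhs d N (sl f t) i := by
  have hc := EUp_cl T f
  have h1 : ContDiff ℝ ∞ fun q : Option (Fin 3 × Fin 3) → ℝ =>
      4 * (1 - om (q none) * q (some (2, 0))) *
        (om (q none) * q (some (i, 2)) + 2 * (1 - 2 * q none) * q (some (i, 1))) +
        be d (q none) * q (some (i, 1)) +
        N (q none, fun l => q (some (l, 0)), fun l => om (q none) * q (some (l, 1))) i := by
    have h2 : ContDiff ℝ ∞ fun q : Option (Fin 3 × Fin 3) → ℝ =>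
        N (q none, fun l => q (some (l, 0)), fun l => om (q none) * q (some (l, 1))) i := by
      refine (contDiff_pi.1 hN i).comp ?_
      unfold om; fun_prop
    refine ContDiff.add ?_ h2
    unfold om be; fun_prop
  refine hc.congr _ _ (hc.comp _ _ h1
    (fun k => k.elim (fun _ x => x) fun p t => D p.2 (f p.1 t)) fun k => ?_) fun t _ x _ => ?_
  · cases k with
    | none => exact hc.x
    | some p => exact hc.jet p.1 p.2
  · simp only [Option.elim, Fin.val_zero, Fin.val_one, Fin.val_two, D_zero, D_one, D_two]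
    rfl

theorem EUp_dtjet (hN : ContDiff ℝ ∞ N) (hT : 0 < T) (h : Weak d N f0 T f) (i : Fin 3) (j : ℕ) :
    ∀ t ∈ Icc 0 T, ∀ x ∈ I, HasDerivWithinAt (fun s => D j (f i s) x)
      (D j (rhs d N (sl f t) i) x) (Icc 0 T) t := by
  have hr : EUp_A T f fun t => rhs d N (sl f t) i := EUp_rhs hN i
  induction j with
  | zero => simpa only [D_zero] using h.eqn i
  | succ j ih =>
    exact EUp_swap hT (u := fun t => D j (f i t)) (w := fun t => D j (rhs d N (sl f t) i))
      (ux := fun t => D (j + 1) (f i t)) (wx := fun t => D (j + 1) (rhs d N (sl f t) i))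
      (EUp_cont h (EUp_D h hr j).1) (EUp_cont h (EUp_D h hr (j + 1)).1)
      (fun t ht x hx => by rw [D_succ]; exact ((h.sm i t ht).D j).hasW hx) (EUp_D h hr j).2 ih

theorem EUp_dt (hN : ContDiff ℝ ∞ N) (hT : 0 < T) (h : Weak d N f0 T f) {u : Fn}
    (hu : EUp_A T f u) : ∃ v, EUp_A T f v ∧ ∀ t ∈ Icc 0 T, ∀ x ∈ I,
      HasDerivWithinAt (fun s => u s x) (v t x) (Icc 0 T) t := by
  have hc := EUp_cl T f
  refine (hu (fun u => EUp_A T f u ∧ ∃ v, EUp_A T f v ∧
      ∀ t ∈ Icc 0 T, ∀ x ∈ I, HasDerivWithinAt (fun s => u s x) (v t x) (Icc 0 T) t)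
    ⟨⟨hc.x, _, EUp_const T f 0, fun t _ x _ => hasDerivWithinAt_const t _ x⟩,
      fun i j => ⟨hc.jet i j, _, (EUp_D h (EUp_rhs hN i) j).1, EUp_dtjet hN hT h i j⟩,
      fun ι _ G hG u hu => ?_, fun u v hu e => ?_⟩).2
  · choose v hv hv' using fun k => (hu k).2
    exact ⟨hc.comp ι G hG u fun k => (hu k).1, _, EUp_fd hG (fun k => (hu k).1) hv,
      fun t ht x hx => EUp_chain (c := fun k s => u k s x) hG fun k => hv' k t ht x hx⟩
  · obtain ⟨hu, w, hw, hw'⟩ := hu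
    exact ⟨hc.congr u v hu e, w, hw, fun t ht x hx =>
      (hw' t ht x hx).congr (fun s hs => e s hs x hx) (e t ht x hx)⟩

end

theorem up (hC : ClosedStmt) : UpStmt := by
  intro d N f0 T f hN hT h i
  refine hC T {u | EUp_A T f u} hT (fun u hu => ⟨EUp_cont h hu, EUp_dx h hu, EUp_dt hN hT h hu⟩) _ ?_
  have := (EUp_cl T f).jet i 0
  simp only [D_zero] at this
  exact this

end Vale.Agent.P244
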