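import Vale.Agent.P244.StmL

/-! P244: basic facts on the Laguerre inner product. -/

open Set Filter MeasureTheory
open scoped ContDiff Topology

namespace Vale.Agent.P244

theorem LBasic_gint (n : ℕ) : IntegrableOn (fun y : ℝ => y ^ n * Real.exp (-y)) (Ioi 0) := by
  have := Real.GammaIntegral_convergent (s := n + 1) (by positivity)
  simpa only [add_sub_cancel_right, Real.rpow_natCast, mul_comm] using this

theorem LBasic_gval (n : ℕ) : ∫ y in Ioi (0 : ℝ), y ^ n * Real.exp (-y) = n.factorial := by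
  have := Real.Gamma_eq_integral (s := n + 1) (by positivity)
  rw [Real.Gamma_nat_eq_factorial] at this
  simpa only [add_sub_cancel_right, Real.rpow_natCast, mul_comm] using this.symm

theorem LBasic_wt0 (k : ℕ) {y : ℝ} (hy : 0 ≤ y) : 0 ≤ wt k y := by unfold wt; positivity

theorem LBasic_wtc (k : ℕ) : Continuous (wt k) := by unfold wt; fun_prop

theorem LBasic_int (k : ℕ) (P : ℝ → ℝ) (h : Bd P) :
    IntegrableOn (fun y => P y * wt k y) (Ioi 0) := by
  obtain ⟨hc, C, N, hC⟩ := h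
  refine Integrable.mono' ((((LBasic_gint (k - 1)).add (LBasic_gint (N + (k - 1)))).const_mul
    (|C| * 2 ^ (N - 1) / (k - 1).factorial)))
    ((hc.mul (LBasic_wtc k).continuousOn).aestronglyMeasurable measurableSet_Ioi)
    ((ae_restrict_mem measurableSet_Ioi).mono fun y (hy : 0 < y) => ?_)
  rw [Real.norm_eq_abs, abs_mul, abs_of_nonneg (LBasic_wt0 k hy.le)]
  have h1 : |P y| ≤ |C| * (2 ^ (N - 1) * (1 ^ N + y ^ N)) :=
    (hC y hy).trans (mul_le_mul (le_abs_self C) (add_pow_le zero_le_one hy.le N) (by positivity)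
      (abs_nonneg C))
  refine (mul_le_mul_of_nonneg_right h1 (LBasic_wt0 k hy.le)).trans (le_of_eq ?_)
  simp only [wt, Pi.add_apply]
  ring

theorem LBasic_mul (P R : ℝ → ℝ) (hP : Bd P) (hR : Bd R) : Bd fun y => P y * R y := by
  obtain ⟨c1, C, N, hC⟩ := hP
  obtain ⟨c2, C', N', hC'⟩ := hR
  refine ⟨c1.mul c2, C * C', N + N', fun y hy => ?_⟩
  rw [abs_mul]
  exact (mul_le_mul (hC y hy) (hC' y hy) (abs_nonneg _) ((abs_nonneg _).trans (hC y hy))).trans
    (le_of_eq (by ring))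

theorem LBasic_lin (P R : ℝ → ℝ) (a b : ℝ) (hP : Bd P) (hR : Bd R) :
    Bd fun y => a * P y + b * R y := by
  obtain ⟨c1, C, N, hC⟩ := hP
  obtain ⟨c2, C', N', hC'⟩ := hR
  refine ⟨(continuousOn_const.mul c1).add (continuousOn_const.mul c2),
    |a| * |C| + |b| * |C'|, N + N', fun y hy => ?_⟩
  have h1 : |P y| ≤ |C| * (1 + y) ^ (N + N') := (hC y hy).trans (mul_le_mul (le_abs_self C)
    (pow_le_pow_right₀ (by linarith) (by omega)) (by positivity) (abs_nonneg C))
  have h2 : |R y| ≤ |C'| * (1 + y) ^ (N + N') := (hC' y hy).trans (mul_le_mul (le_abs_self C')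
    (pow_le_pow_right₀ (by linarith) (by omega)) (by positivity) (abs_nonneg C'))
  refine (abs_add_le _ _).trans ?_
  rw [abs_mul, abs_mul]
  linarith [mul_le_mul_of_nonneg_left h1 (abs_nonneg a), mul_le_mul_of_nonneg_left h2 (abs_nonneg b)]

theorem LBasic_pow (i : ℕ) : Bd fun y => y ^ i :=
  ⟨by fun_prop, 1, i, fun y hy => by
    rw [abs_of_nonneg (by positivity), one_mul]; exact pow_le_pow_left₀ hy.le (by linarith) i⟩

theorem LBasic_congr {P R : ℝ → ℝ} (h : Bd P) (e : ∀ y > 0, R y = P y) : Bd R := by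
  obtain ⟨c1, C, N, hC⟩ := h
  exact ⟨c1.congr e, C, N, fun y hy => e y hy ▸ hC y hy⟩

theorem LBasic_cs0 {G : ℝ → ℝ} (h : Cs G) : Bd G := by
  obtain ⟨h1, Y, hY⟩ := h
  obtain ⟨C, hC⟩ := (isCompact_Icc (a := 0) (b := Y)).exists_bound_of_continuousOn
    (h1.continuousOn.mono Icc_subset_Ici_self)
  refine ⟨h1.continuousOn.mono Ioi_subset_Ici_self, |C|, 0, fun y hy => ?_⟩
  rcases le_total y Y with h | h
  · simpa using (hC y ⟨hy.le, h⟩).trans (le_abs_self C)
  · simp [hY y h]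

theorem LBasic_cs1 {G : ℝ → ℝ} (h : Cs G) :
    Cs (derivWithin G (Ici 0)) ∧ ∀ y > 0, deriv G y = derivWithin G (Ici 0) y := by
  obtain ⟨h1, Y, hY⟩ := h
  have e : ∀ y > 0, deriv G y = derivWithin G (Ici 0) y := fun y hy =>
    (derivWithin_of_mem_nhds (Ici_mem_nhds hy)).symm
  refine ⟨⟨h1.derivWithin (uniqueDiffOn_Ici 0) inf_add_one, |Y| + 1, fun y hy => ?_⟩, e⟩
  have h2 := le_abs_self Y
  have h3 := abs_nonneg Y
  have h4 : G =ᶠ[𝓝 y] fun _ => 0 := by
    filter_upwards [Ici_mem_nhds (show Y < y by linarith)] with z hz using hY z hz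
  rw [← e y (by linarith), h4.deriv_eq, deriv_const]

theorem LBasic_dcongr {G H : ℝ → ℝ} (e : ∀ y > 0, G y = H y) : ∀ y > 0, deriv G y = deriv H y :=
  fun y hy => EventuallyEq.deriv_eq (by
    filter_upwards [Ioi_mem_nhds hy] with z hz using e z hz)

theorem LBasic_ky (k : ℕ) : Bd fun y => (k : ℝ) - y :=
  LBasic_congr (LBasic_lin _ _ k (-1) (LBasic_pow 0) (LBasic_pow 1)) fun y _ => by ring

theorem LBasic_id : Bd fun y => y := LBasic_congr (LBasic_pow 1) fun y _ => by ring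

theorem LBasic_add {P R : ℝ → ℝ} (hP : Bd P) (hR : Bd R) : Bd fun y => P y + R y :=
  LBasic_congr (LBasic_lin _ _ 1 1 hP hR) fun y _ => by ring

theorem LBasic_cs (k : ℕ) (G : ℝ → ℝ) (h : Cs G) :
    Bd G ∧ Bd (deriv G) ∧ Bd (deriv (deriv G)) ∧ Bd (LL k G) := by
  obtain ⟨h1, e1⟩ := LBasic_cs1 h
  obtain ⟨h2, e2⟩ := LBasic_cs1 h1
  have b1 : Bd (deriv G) := LBasic_congr (LBasic_cs0 h1) e1
  have b2 : Bd (deriv (deriv G)) := LBasic_congr (LBasic_cs0 h2) fun y hy =>
    (LBasic_dcongr e1 y hy).trans (e2 y hy)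
  exact ⟨LBasic_cs0 h, b1, b2,
    LBasic_add (LBasic_mul _ _ LBasic_id b2) (LBasic_mul _ _ (LBasic_ky k) b1)⟩

/-- A cubic polynomial. -/
def LBasic_cub (a b c d : ℝ) : ℝ → ℝ := fun y => a + b * y + c * y ^ 2 + d * y ^ 3

theorem LBasic_cub_bd (a b c d : ℝ) : Bd (LBasic_cub a b c d) :=
  LBasic_congr (LBasic_add (LBasic_lin _ _ a b (LBasic_pow 0) (LBasic_pow 1))
    (LBasic_lin _ _ c d (LBasic_pow 2) (LBasic_pow 3))) fun y _ => by unfold LBasic_cub; ring

theorem LBasic_cub_d (a b c d : ℝ) : deriv (LBasic_cub a b c d) = LBasic_cub b (2 * c) (3 * d) 0 := by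
  funext y
  have := ((((hasDerivAt_id y).const_mul b).const_add a).add
    ((hasDerivAt_pow 2 y).const_mul c)).add ((hasDerivAt_pow 3 y).const_mul d)
  refine (HasDerivAt.deriv this).trans ?_
  simp [LBasic_cub]; ring

theorem LBasic_e0 (k : ℕ) : ee k 0 = LBasic_cub 1 0 0 0 := by
  funext y; simp [ee, LBasic_cub]

theorem LBasic_e1 (k : ℕ) : ee k 1 = LBasic_cub (k * (√k)⁻¹) (-(√k)⁻¹) 0 0 := by
  funext y; simp only [ee, LBasic_cub, Matrix.cons_val]; ring

theorem LBasic_e2 (k : ℕ) : ee k 2 = LBasic_cub (k * (k + 1) * (√(2 * k * (k + 1)))⁻¹)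
    (-2 * (k + 1) * (√(2 * k * (k + 1)))⁻¹) (√(2 * k * (k + 1)))⁻¹ 0 := by
  funext y; simp only [ee, LBasic_cub, Matrix.cons_val]
  generalize √(2 * (k : ℝ) * (k + 1)) = s; ring

theorem LBasic_e3 (k : ℕ) : ee k 3 = LBasic_cub
    (k * (k + 1) * (k + 2) * (√(6 * k * (k + 1) * (k + 2)))⁻¹)
    (-3 * (k + 1) * (k + 2) * (√(6 * k * (k + 1) * (k + 2)))⁻¹)
    (3 * (k + 2) * (√(6 * k * (k + 1) * (k + 2)))⁻¹) (-(√(6 * k * (k + 1) * (k + 2)))⁻¹) := by
  funext y; simp only [ee, LBasic_cub, Matrix.cons_val]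
  generalize √(6 * (k : ℝ) * (k + 1) * (k + 2)) = s; ring

theorem LBasic_ecub (k : ℕ) (j : Fin 4) : ∃ a b c d, ee k j = LBasic_cub a b c d := by
  fin_cases j
  exacts [⟨_, _, _, _, LBasic_e0 k⟩, ⟨_, _, _, _, LBasic_e1 k⟩, ⟨_, _, _, _, LBasic_e2 k⟩,
    ⟨_, _, _, _, LBasic_e3 k⟩]

theorem LBasic_pw (k i : ℕ) (y : ℝ) :
    y ^ i * wt k y = ((k - 1).factorial : ℝ)⁻¹ * (y ^ (k - 1 + i) * Real.exp (-y)) := by
  unfold wt; ring

theorem LBasic_mom (k : ℕ) (hk : 1 ≤ k) (i : ℕ) :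
    ∫ y in Ioi (0 : ℝ), y ^ i * wt k y = k.ascFactorial i := by
  simp only [LBasic_pw]
  rw [integral_const_mul, LBasic_gval, show k - 1 + i = k + i - 1 by omega,
    ← Nat.factorial_mul_ascFactorial' k i hk]
  push_cast
  field_simp

theorem LBasic_ipcub (k : ℕ) (hk : 1 ≤ k) (a b c d a' b' c' d' : ℝ) :
    ip k (LBasic_cub a b c d) (LBasic_cub a' b' c' d') = a * a' + (a * b' + b * a') * k +
      (a * c' + b * b' + c * a') * (k * (k + 1)) +
      (a * d' + b * c' + c * b' + d * a') * (k * (k + 1) * (k + 2)) +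
      (b * d' + c * c' + d * b') * (k * (k + 1) * (k + 2) * (k + 3)) +
      (c * d' + d * c') * (k * (k + 1) * (k + 2) * (k + 3) * (k + 4)) +
      d * d' * (k * (k + 1) * (k + 2) * (k + 3) * (k + 4) * (k + 5)) := by
  let q : Fin 7 → ℝ := ![a * a', a * b' + b * a', a * c' + b * b' + c * a',
    a * d' + b * c' + c * b' + d * a', b * d' + c * c' + d * b', c * d' + d * c', d * d']
  have e : ∀ y, LBasic_cub a b c d y * LBasic_cub a' b' c' d' y * wt k y =
      ∑ i : Fin 7, q i * (y ^ (i : ℕ) * wt k y) := fun y => by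
    simp [q, Fin.sum_univ_succ, LBasic_cub]; ring
  simp only [ip, e]
  rw [integral_finsetSum _ fun (i : Fin 7) _ => (LBasic_int k _ (LBasic_pow i)).const_mul _]
  simp only [integral_const_mul, LBasic_mom k hk]
  simp [q, Fin.sum_univ_succ, Nat.ascFactorial_succ]
  ring

theorem LBasic_sq {x : ℝ} (hx : 0 < x) : (√x)⁻¹ * (√x)⁻¹ * x = 1 := by
  rw [← mul_inv, Real.mul_self_sqrt hx.le, inv_mul_cancel₀ hx.ne']

theorem LBasic_orth (k : ℕ) (hk : 1 ≤ k) (i j : Fin 4) :
    ip k (ee k i) (ee k j) = if i = j then 1 else 0 := by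
  have h0 : (0 : ℝ) < k := by exact_mod_cast hk
  have s1 := LBasic_sq h0
  have s2 := LBasic_sq (x := 2 * k * (k + 1)) (by positivity)
  have s3 := LBasic_sq (x := 6 * k * (k + 1) * (k + 2)) (by positivity)
  have e0 := LBasic_e0 k
  have e1 := LBasic_e1 k
  have e2 := LBasic_e2 k
  have e3 := LBasic_e3 k
  generalize (√(k : ℝ))⁻¹ = r1 at *
  generalize (√(2 * (k : ℝ) * (k + 1)))⁻¹ = r2 at *
  generalize (√(6 * (k : ℝ) * (k + 1) * (k + 2)))⁻¹ = r3 at *
  fin_cases i <;> fin_cases j <;>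
    simp only [Fin.zero_eta, Fin.mk_one, Fin.reduceFinMk, e0, e1, e2, e3, LBasic_ipcub k hk,
      Fin.reduceEq, if_true, if_false] <;>
    first | ring1 | linear_combination s1 | linear_combination s2 | linear_combination s3

theorem LBasic_eig (k : ℕ) (j : Fin 4) (y : ℝ) : LL k (ee k j) y = -((j : ℕ) : ℝ) * ee k j y := by
  fin_cases j <;>
    simp only [Fin.zero_eta, Fin.mk_one, Fin.reduceFinMk, LL, LBasic_e0, LBasic_e1, LBasic_e2,
      LBasic_e3, LBasic_cub_d] <;>
    simp only [LBasic_cub] <;> norm_num <;> ring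

theorem LBasic_span (k : ℕ) (hk : 1 ≤ k) (i : ℕ) (hi : i < 4) :
    ∃ c : Fin 4 → ℝ, ∀ y : ℝ, y ^ i = ∑ j, c j * ee k j y := by
  have h0 : (0 : ℝ) < k := by exact_mod_cast hk
  have s1 : √(k : ℝ) ≠ 0 := by positivity
  have s2 : √(2 * (k : ℝ) * (k + 1)) ≠ 0 := by positivity
  have s3 : √(6 * (k : ℝ) * (k + 1) * (k + 2)) ≠ 0 := by positivity
  simp only [Fin.sum_univ_four, ee, Matrix.cons_val]
  generalize √(k : ℝ) = r1 at *
  generalize √(2 * (k : ℝ) * (k + 1)) = r2 at *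
  generalize √(6 * (k : ℝ) * (k + 1) * (k + 2)) = r3 at *
  interval_cases i
  · exact ⟨![1, 0, 0, 0], fun y => by simp⟩
  · exact ⟨![k, -r1, 0, 0], fun y => by simp only [Matrix.cons_val]; field_simp; ring⟩
  · exact ⟨![k * (k + 1), -2 * (k + 1) * r1, r2, 0], fun y => by
      simp only [Matrix.cons_val]; field_simp; ring⟩
  · exact ⟨![k * (k + 1) * (k + 2), -3 * (k + 1) * (k + 2) * r1, 3 * (k + 2) * r2, -r3], fun y => by
      simp only [Matrix.cons_val]; field_simp; ring⟩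

theorem LBasic_ibp (k : ℕ) (hk : 1 ≤ k) (G H : ℝ → ℝ) (hG : ContDiffOn ℝ 1 G (Ioi 0))
    (hH : ContDiffOn ℝ 1 H (Ioi 0)) (bG : Bd G) (bH : Bd H) (bG' : Bd fun y => y * deriv G y)
    (bH' : Bd fun y => y * deriv H y) :
    ip k G (fun y => y * deriv H y + (k - y) * H y) = -ip k (fun y => y * deriv G y) H := by
  have i1 := LBasic_int k _ (LBasic_mul _ _ bG (LBasic_add bH' (LBasic_mul _ _ (LBasic_ky k) bH)))
  have i2 := LBasic_int k _ (LBasic_mul _ _ bG' bH)
  have i3 := LBasic_int k _ (LBasic_mul _ _ (LBasic_mul _ _ bG bH) LBasic_id)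
  have hd : ∀ y ∈ Ioi (0 : ℝ), HasDerivAt (fun y => G y * H y * y * wt k y)
      (G y * (y * deriv H y + (k - y) * H y) * wt k y + y * deriv G y * H y * wt k y) y := by
    intro y hy
    obtain ⟨m, rfl⟩ : ∃ m, k = m + 1 := ⟨k - 1, by omega⟩
    have g1 := ((hG.contDiffAt (Ioi_mem_nhds hy)).differentiableAt one_ne_zero).hasDerivAt
    have g2 := ((hH.contDiffAt (Ioi_mem_nhds hy)).differentiableAt one_ne_zero).hasDerivAt
    have g3 := (((g1.mul g2).mul (hasDerivAt_pow (m + 1) y)).mul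
      (hasDerivAt_neg y).exp).div_const (m.factorial : ℝ)
    have e : (fun y => G y * H y * y * wt (m + 1) y) =
        fun y => G y * H y * y ^ (m + 1) * Real.exp (-y) / m.factorial := by
      funext y; simp only [wt, Nat.add_sub_cancel]; ring
    rw [e]
    refine HasDerivAt.congr_deriv g3 ?_
    simp only [wt, Nat.add_sub_cancel, Pi.mul_apply]
    push_cast; ring
  have h0 : ContinuousWithinAt (fun y => G y * H y * y * wt k y) (Ici 0) 0 := by
    obtain ⟨-, C, N, hC⟩ := LBasic_mul _ _ bG bH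
    have c1 : Continuous fun y : ℝ => C * (1 + y) ^ N * y * wt k y := by
      have := LBasic_wtc k
      fun_prop
    have c2 := (c1.continuousWithinAt (s := Ici 0) (x := 0)).tendsto
    simp only [ContinuousWithinAt, mul_zero, zero_mul] at c2 ⊢
    refine squeeze_zero_norm' (eventually_mem_nhdsWithin.mono fun y (hy : 0 ≤ y) => ?_) c2
    rcases hy.lt_or_eq with h | h
    · rw [Real.norm_eq_abs, abs_mul, abs_mul, abs_of_pos h, abs_of_nonneg (LBasic_wt0 k hy)]
      have := LBasic_wt0 k hy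
      have := hC y h
      gcongr
    · simp [← h]
  have key := integral_Ioi_of_hasDerivAt_of_tendsto h0 hd (i1.add i2)
    (tendsto_zero_of_hasDerivAt_of_integrableOn_Ioi hd (i1.add i2) i3)
  rw [integral_add i1 i2] at key
  simp only [ip]
  linarith [key]

theorem LBasic_cauchy (k : ℕ) (P R : ℝ → ℝ) (hP : Bd P) (hR : Bd R) :
    ip k P R ^ 2 ≤ ip k P P * ip k R R := by
  have i1 := LBasic_int k _ (LBasic_mul _ _ hP hP)
  have i2 := LBasic_int k _ (LBasic_mul _ _ hP hR)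
  have i3 := LBasic_int k _ (LBasic_mul _ _ hR hR)
  have := discrim_le_zero (a := ip k P P) (b := 2 * ip k P R) (c := ip k R R) fun s => by
    have e : ip k P P * (s * s) + 2 * ip k P R * s + ip k R R = ∫ y in Ioi (0 : ℝ),
        (s * s * (P y * P y * wt k y) + 2 * s * (P y * R y * wt k y)) + R y * R y * wt k y := by
      rw [integral_add (by exact (i1.const_mul _).add (i2.const_mul _)) i3,
        integral_add (i1.const_mul _) (i2.const_mul _), integral_const_mul, integral_const_mul]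
      simp only [ip]; ring
    rw [e]
    refine setIntegral_nonneg measurableSet_Ioi fun y (hy : 0 < y) => ?_
    have := mul_nonneg (sq_nonneg (s * P y + R y)) (LBasic_wt0 k hy.le)
    linarith
  rw [discrim] at this
  linarith

theorem lBasic : LBasicStmt := by
  refine ⟨fun k _ => LBasic_int k, LBasic_mul, LBasic_lin, LBasic_pow, LBasic_cs, fun k j => ?_,
    LBasic_mom, LBasic_orth, LBasic_eig, LBasic_span, LBasic_ibp, fun k _ => LBasic_cauchy k,
    fun k G H e => ?_, fun k G c => ?_⟩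
  · obtain ⟨a, b, c, d, e⟩ := LBasic_ecub k j
    rw [e, LBasic_cub_d, LBasic_cub_d]
    exact ⟨by unfold LBasic_cub; fun_prop, LBasic_cub_bd _ _ _ _, LBasic_cub_bd _ _ _ _,
      LBasic_cub_bd _ _ _ _⟩
  · have h1 : ∀ j, am k G j = am k H j := fun j =>
      setIntegral_congr_fun measurableSet_Ioi fun y hy => by simp only [e y hy]
    have h2 : Qm k G = Qm k H :=
      setIntegral_congr_fun measurableSet_Ioi fun y hy => by simp only [LBasic_dcongr e y hy]
    exact ⟨h1, by simp only [SS, h1, h2]⟩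
  · have h1 : ∀ j, am k (fun y => c * G y) j = c * am k G j := fun j => by
      simp only [am, ip, mul_assoc, integral_const_mul]
    have h2 : Qm k (fun y => c * G y) = c ^ 2 * Qm k G := by
      simp only [Qm, ip, deriv_const_mul_field', ← integral_const_mul]
      congr 1; funext y; ring
    refine ⟨h1, ?_⟩
    simp only [SS, h1, h2, Fin.sum_univ_four]; ring

end Vale.Agent.P244
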