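import Vale.Agent.P244.StmL

/-! P244: the cone lemma. -/

open Set Filter MeasureTheory
open scoped ContDiff Topology

namespace Vale.Agent.P244

theorem LCone_gron {f : ℝ → ℝ} {q T t1 t2 : ℝ} (h12 : t2 ≤ t1) (hT : t1 < T)
    (h : ∀ t ∈ Icc 0 t2, ∃ g, HasDerivWithinAt f (g / (T - t)) (Icc 0 t1) t ∧ g ≤ -q * f t) :
    ∀ t ∈ Icc 0 t2, f t ≤ f 0 * ((T - t) / T) ^ q := by
  intro t ht
  have T0 : 0 < T := by linarith [ht.1, ht.2]
  choose! g hg hq using h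
  have p : ∀ s ∈ Icc 0 t2, 0 < (T - s) / T := fun s hs => div_pos (by linarith [hs.2]) T0
  have d : ∀ s ∈ Icc 0 t2, HasDerivWithinAt (fun u => f u * ((T - u) / T) ^ (-q))
      (g s / (T - s) * ((T - s) / T) ^ (-q) +
        f s * (-1 / T * -q * ((T - s) / T) ^ (-q - 1))) (Icc 0 t1) s := fun s hs =>
    (hg s hs).mul ((((hasDerivAt_id' s).const_sub T).div_const T).rpow_const
      (Or.inl (p s hs).ne')).hasDerivWithinAt
  have e := image_le_of_deriv_right_le_deriv_boundary (B := fun _ => f 0) (B' := fun _ => 0)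
    (fun s hs => (d s hs).continuousWithinAt.mono (Icc_subset_Icc_right h12))
    (fun s hs => (d s (Ico_subset_Icc_self hs)).mono_of_mem_nhdsWithin
      (Icc_mem_nhdsGE_of_mem ⟨hs.1, hs.2.trans_le h12⟩))
    (by simp [T0.ne']) continuousOn_const (fun s _ => hasDerivWithinAt_const _ _ _)
    (fun s hs => by
      have hs' := Ico_subset_Icc_self hs
      have s0 : 0 < T - s := by linarith [hs.2]
      have w := Real.rpow_pos_of_pos (p s hs') (-q)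
      rw [Real.rpow_sub_one (p s hs').ne']
      generalize ((T - s) / T) ^ (-q) = z at w
      have : g s / (T - s) * z + f s * (-1 / T * -q * (z / ((T - s) / T))) =
          z / (T - s) * (g s + q * f s) := by field_simp
      rw [this]
      exact mul_nonpos_of_nonneg_of_nonpos (by positivity) (by linarith [hq s hs'])) ht
  rwa [Real.rpow_neg (p t ht).le, ← div_eq_mul_inv,
    div_le_iff₀ (Real.rpow_pos_of_pos (p t ht) q)] at e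

theorem LCone_alg {θ Λ P r S b : ℝ} {a p : Fin 4 → ℝ} (hθ : θ ∈ Ioc (0 : ℝ) (1 / 100))
    (h0 : 0 ≤ S) (h1 : 4 * S ≤ Λ) (h2 : ∑ j, p j ^ 2 ≤ P) (h3 : r ^ 2 ≤ 4 * Λ * P)
    (h4 : P ≤ θ / 1000 * (Λ + ∑ j, a j ^ 2 + b ^ 2)) (hb : |b| ≤ 2 * a 3) (hG : G1 θ a S ≤ 0) :
    -(Λ / 4 + 4 * P) ≤ r ∧ r ≤ Λ / 4 + 4 * P ∧ P ≤ Λ / 80000 + θ * a 3 ^ 2 / 199 ∧
      p 0 ^ 2 + p 1 ^ 2 + p 2 ^ 2 + p 3 ^ 2 ≤ P ∧ 0 ≤ θ * a 3 ^ 2 ∧
      θ * a 3 ^ 2 ≤ a 3 ^ 2 / 100 := by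
  have P0 : 0 ≤ P := (Finset.sum_nonneg fun j _ => sq_nonneg _).trans h2
  have e := abs_le.1 (abs_le_of_sq_le_sq (a := r) (b := Λ / 4 + 4 * P)
    (by nlinarith [sq_nonneg (Λ / 4 - 4 * P)]) (by linarith))
  have b2 : b ^ 2 ≤ (2 * a 3) ^ 2 := sq_le_sq' (abs_le.1 hb).1 (abs_le.1 hb).2
  have t1 : θ * a 3 ^ 2 ≤ a 3 ^ 2 / 100 := by nlinarith [hθ.2, sq_nonneg (a 3)]
  have t0 : 0 ≤ θ * a 3 ^ 2 := mul_nonneg hθ.1.le (sq_nonneg _)
  rw [Fin.sum_univ_four] at h2 h4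
  unfold G1 at hG
  refine ⟨e.1, e.2, ?_, h2, t0, t1⟩
  have h5 := mul_le_mul_of_nonneg_left (show Λ + (a 0 ^ 2 + a 1 ^ 2 + a 2 ^ 2 + a 3 ^ 2) + b ^ 2 ≤
    5 / 4 * Λ + 501 / 100 * a 3 ^ 2 by linarith) (show 0 ≤ θ / 1000 by linarith [hθ.1])
  have h6 : θ * Λ ≤ 1 / 100 * Λ := mul_le_mul_of_nonneg_right hθ.2 (by linarith)
  linarith

theorem LCone_est {θ T t1 t2 A : ℝ} {a : ℝ → Fin 4 → ℝ} {S b : ℝ → ℝ}
    (hθ : θ ∈ Ioc (0 : ℝ) (1 / 100)) (h12 : t2 ≤ t1) (hT : t1 < T) (hA : 0 < A) (ha : a 0 3 = A)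
    (hS : S 0 ≤ θ * A ^ 2 / 2) (h : ∀ t ∈ Icc 0 t2, CH T (θ / 1000) (b t) a S (Icc 0 t1) t ∧
      G1 θ (a t) (S t) ≤ 0 ∧ |b t| ≤ 2 * a t 3) :
    ∀ t ∈ Icc 0 t2, S t ≤ θ * a t 3 ^ 2 ∧ 9 / 10 * A * ((T - t) / T) ^ (151 / 50 : ℝ) ≤ a t 3 ∧
      a t 3 ≤ 2 * A * ((T - t) / T) ^ (149 / 50 : ℝ) := by
  have k : ∀ c d q : ℝ, (∀ Λ P r x s p : ℝ, -(Λ / 4 + 4 * P) ≤ r → r ≤ Λ / 4 + 4 * P →
      P ≤ Λ / 80000 + θ * x ^ 2 / 199 → p ^ 2 ≤ P → 0 ≤ θ * x ^ 2 → θ * x ^ 2 ≤ x ^ 2 / 100 →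
      0 ≤ s → 4 * s ≤ Λ →
      c * (2 * x * (-3 * x + p)) + d * (-2 * Λ + r) ≤ -q * (c * x ^ 2 + d * s)) →
      ∀ t ∈ Icc 0 t2, c * a t 3 ^ 2 + d * S t ≤ (c * A ^ 2 + d * S 0) * ((T - t) / T) ^ q := by
    intro c d q H
    rw [← ha]
    refine LCone_gron (f := fun t => c * a t 3 ^ 2 + d * S t) h12 hT fun t ht => ?_
    obtain ⟨⟨Λ, P, r, p, d1, d2, h0, h1, h2, h3, h4⟩, hG, hb⟩ := h t ht
    obtain ⟨e1, e2, e3, e4, e5, e6⟩ := LCone_alg hθ h0 h1 h2 h3 h4 hb hG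
    refine ⟨_, ?_, H Λ P r (a t 3) (S t) (p 3) e1 e2 e3
      (by linarith [sq_nonneg (p 0), sq_nonneg (p 1), sq_nonneg (p 2)]) e5 e6 h0 h1⟩
    refine ((((d1 3).fun_pow 2).const_mul c).fun_add (d2.const_mul d)).congr_deriv ?_
    simp only [show ((3 : Fin 4) : ℕ) = 3 from rfl]
    push_cast
    ring
  intro t ht
  have T0 : 0 < T := by linarith [ht.1, ht.2]
  have ρ : 0 < (T - t) / T := div_pos (by linarith [ht.2]) T0
  obtain ⟨⟨-, -, -, -, -, -, s0, -⟩, -, -⟩ := h 0 ⟨le_rfl, ht.1.trans ht.2⟩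
  obtain ⟨⟨-, -, -, -, -, -, st, -⟩, -, hb⟩ := h t ht
  have x0 : 0 ≤ a t 3 := by linarith [abs_nonneg (b t)]
  have A2 : θ * A ^ 2 ≤ 1 / 100 * A ^ 2 := mul_le_mul_of_nonneg_right hθ.2 (sq_nonneg A)
  have A0 : 0 ≤ θ * A ^ 2 := mul_nonneg hθ.1.le (sq_nonneg A)
  have sq : ∀ q : ℝ, (((T - t) / T) ^ q) ^ 2 = ((T - t) / T) ^ (q * 2) := fun q => by
    rw [Real.rpow_mul ρ.le, Real.rpow_two]
  refine ⟨?_, ?_, ?_⟩
  · have e := k (-θ) 1 (13 / 2) (fun Λ P r x s p e1 e2 e3 e4 e5 e6 e7 e8 => by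
      have f1 := mul_nonneg hθ.1.le (sq_nonneg (x / 2 + 2 * p))
      have f2 : θ * p ^ 2 ≤ 1 / 100 * P := mul_le_mul hθ.2 e4 (sq_nonneg p) (by norm_num)
      nlinarith) t ht
    have := mul_nonpos_of_nonpos_of_nonneg (show -θ * A ^ 2 + 1 * S 0 ≤ 0 by linarith)
      (Real.rpow_pos_of_pos ρ (13 / 2)).le
    linarith
  · have e := k (-1) 1 (151 / 50 * 2) (fun Λ P r x s p e1 e2 e3 e4 e5 e6 e7 e8 => by
      nlinarith [sq_nonneg (x / 10 + 10 * p)]) t ht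
    refine abs_le_of_sq_le_sq' ?_ x0 |>.2
    rw [mul_pow, sq]
    have := mul_le_mul_of_nonneg_right (show -1 * A ^ 2 + 1 * S 0 ≤ -(9 / 10 * A) ^ 2 by
      nlinarith) (Real.rpow_pos_of_pos ρ (151 / 50 * 2)).le
    linarith
  · have e := k 1 1 (149 / 50 * 2) (fun Λ P r x s p e1 e2 e3 e4 e5 e6 e7 e8 => by
      nlinarith [sq_nonneg (x / 10 - 10 * p)]) t ht
    refine abs_le_of_sq_le_sq' ?_ (by positivity) |>.2
    rw [mul_pow, sq]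
    have := mul_le_mul_of_nonneg_right (show 1 * A ^ 2 + 1 * S 0 ≤ (2 * A) ^ 2 by
      nlinarith) (Real.rpow_pos_of_pos ρ (149 / 50 * 2)).le
    linarith

theorem cone : ConeStmt := by
  intro θ hθ
  refine ⟨θ / 1000, by linarith [hθ.1], fun T t1 A a S h0 hT hA ha hS h => ?_,
    fun T t b a S J ht ⟨Λ, P, r, p, d1, d2, h0, h1, h2, h3, h4⟩ hx hb hG => ?_⟩
  · have T0 : 0 < T := h0.trans hT
    have ρ : ∀ t ∈ Icc 0 t1, 0 < (T - t) / T := fun t ht => div_pos (by linarith [ht.2]) T0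
    have E : ∀ t2, t2 ≤ t1 → Icc 0 t2 ⊆ {t | A * ((T - t) / T) ^ 4 ≤ 2 * a t 3} → _ :=
      fun t2 h12 hs => LCone_est (b := fun t => A * ((T - t) / T) ^ 4) hθ h12 hT hA ha hS
        fun t ht => ⟨(h t (Icc_subset_Icc_right h12 ht)).1, (h t (Icc_subset_Icc_right h12 ht)).2,
          (abs_of_nonneg (by positivity)).trans_le (hs ht)⟩
    have c : ContinuousOn (fun t => 2 * a t 3) (Icc 0 t1) := fun t ht => by
      obtain ⟨⟨_, _, _, _, d1, -⟩, -⟩ := h t ht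
      exact continuousWithinAt_const.mul (d1 3).continuousWithinAt
    have c' : ContinuousOn (fun t => A * ((T - t) / T) ^ 4) (Icc 0 t1) := by fun_prop
    have cl : IsClosed ({t | A * ((T - t) / T) ^ 4 ≤ 2 * a t 3} ∩ Icc 0 t1) := by
      rw [inter_comm]
      exact isClosed_Icc.isClosed_le c' c
    have hs := cl.Icc_subset_of_forall_mem_nhdsGT_of_Icc_subset
      (by simp only [mem_ofPred_eq, ha, sub_zero, div_self T0.ne']; linarith) fun t ht hs => by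
        have ht' := Ico_subset_Icc_self ht
        have e := (E t ht.2.le hs t ⟨ht.1, le_rfl⟩).2.1
        have e2 : ((T - t) / T) ^ ((4 : ℕ) : ℝ) ≤ ((T - t) / T) ^ (151 / 50 : ℝ) :=
          Real.rpow_le_rpow_of_exponent_ge (ρ t ht')
            ((div_le_one T0).2 (by linarith [ht.1])) (by norm_num)
        rw [Real.rpow_natCast] at e2
        have e3 : A * ((T - t) / T) ^ 4 < 2 * a t 3 := by
          nlinarith [mul_pos hA (pow_pos (ρ t ht') 4)]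
        have e4 := ((c' t ht').eventually_lt (c t ht') e3).filter_mono
          (nhdsWithin_le_of_mem (Icc_mem_nhdsGT_of_mem ht))
        exact e4.mono fun s h => h.le
    intro t ht
    obtain ⟨e1, e2, e3⟩ := E t1 le_rfl hs t ht
    refine ⟨e1, le_trans ?_ e2, e3⟩
    exact mul_le_mul_of_nonneg_right (by linarith) (Real.rpow_pos_of_pos (ρ t ht) _).le
  · obtain ⟨e1, e2, e3, e4, e5, e6⟩ := LCone_alg hθ h0 h1 h2 h3 h4 hb hG.le
    refine ⟨(2 * a t 0 * p 0 + 2 * a t 1 * (-a t 1 + p 1) + 2 * a t 2 * (-2 * a t 2 + p 2) -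
      (-2 * Λ + r) - θ * (2 * a t 3 * (-3 * a t 3 + p 3))) / (T - t),
      div_pos ?_ (sub_pos.2 ht), ?_⟩
    · unfold G1 at hG
      have f0 := mul_pos hθ.1 (pow_pos hx 2)
      have f1 := mul_nonneg hθ.1.le (sq_nonneg (a t 3 - 2 * p 3))
      have f2 : θ * p 3 ^ 2 ≤ 1 / 100 * p 3 ^ 2 := mul_le_mul_of_nonneg_right hθ.2 (sq_nonneg _)
      nlinarith [sq_nonneg (a t 0 + 2 * p 0), sq_nonneg (a t 1 + 2 * p 1),
        sq_nonneg (a t 2 + 2 * p 2), sq_nonneg (a t 0), sq_nonneg (a t 1), sq_nonneg (p 3)]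
    · refine (((((((d1 0).fun_pow 2).fun_add ((d1 1).fun_pow 2)).fun_add
        ((d1 2).fun_pow 2)).fun_sub d2).fun_sub
          (((d1 3).fun_pow 2).const_mul θ))).congr_deriv ?_
      simp only [show ((3 : Fin 4) : ℕ) = 3 from rfl, show ((2 : Fin 4) : ℕ) = 2 from rfl,
        show ((1 : Fin 4) : ℕ) = 1 from rfl, show ((0 : Fin 4) : ℕ) = 0 from rfl]
      push_cast
      ring

end Vale.Agent.P244
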