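import Vale.Agent.P244.StmL

/-! P244: the spectral gap above the first four Laguerre modes. -/

open Set Filter MeasureTheory
open scoped ContDiff Topology

namespace Vale.Agent.P244

theorem LGap_comm (k : ℕ) (P R : ℝ → ℝ) : ip k P R = ip k R P := by
  simp only [ip, mul_comm (P _)]

theorem LGap_congr (k : ℕ) {P P' : ℝ → ℝ} (R : ℝ → ℝ) (e : ∀ y > 0, P y = P' y) :
    ip k P R = ip k P' R :=
  setIntegral_congr_fun measurableSet_Ioi fun y hy => by simp only [e y hy]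

theorem LGap_nonneg (k : ℕ) (P : ℝ → ℝ) : 0 ≤ ip k P P :=
  setIntegral_nonneg measurableSet_Ioi fun y (hy : 0 < y) =>
    mul_nonneg (mul_self_nonneg _) (by unfold wt; positivity)

theorem LGap_bcongr {P R : ℝ → ℝ} (h : Bd P) (e : ∀ y > 0, R y = P y) : Bd R := by
  obtain ⟨c1, C, N, hC⟩ := h
  exact ⟨c1.congr e, C, N, fun y hy => e y hy ▸ hC y hy⟩

theorem LGap_dcongr {G H : ℝ → ℝ} (e : ∀ y > 0, G y = H y) : ∀ y > 0, deriv G y = deriv H y :=
  fun y hy => EventuallyEq.deriv_eq (by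
    filter_upwards [Ioi_mem_nhds hy] with z hz using e z hz)

/-- Smooth on the half line, with two derivatives of polynomial growth. -/
structure LGap_good (G : ℝ → ℝ) : Prop where
  sm : ContDiffOn ℝ ∞ G (Ioi 0)
  b0 : Bd G
  b1 : Bd (deriv G)
  b2 : Bd (deriv (deriv G))

theorem LGap_dlin {G H : ℝ → ℝ} (hG : ContDiffOn ℝ ∞ G (Ioi 0)) (hH : ContDiffOn ℝ ∞ H (Ioi 0))
    (a b : ℝ) : ∀ y > 0, deriv (fun y => a * G y + b * H y) y = a * deriv G y + b * deriv H y :=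
  fun _ hy => ((((hG.contDiffAt (Ioi_mem_nhds hy)).differentiableAt
    inf_ne_zero).hasDerivAt.const_mul a).add (((hH.contDiffAt (Ioi_mem_nhds hy)).differentiableAt
    inf_ne_zero).hasDerivAt.const_mul b)).deriv

section

variable (hL : LBasicStmt) {k : ℕ} (hk : 1 ≤ k)
include hL

theorem LGap_id : Bd fun y => y := LGap_bcongr (hL.pow 1) fun y _ => by ring

theorem LGap_glin {G H : ℝ → ℝ} (hG : LGap_good G) (hH : LGap_good H) (a b : ℝ) (k : ℕ) :
    LGap_good (fun y => a * G y + b * H y) ∧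
      ∀ y > 0, LL k (fun y => a * G y + b * H y) y = a * LL k G y + b * LL k H y := by
  have d1 := LGap_dlin hG.sm hH.sm a b
  have d2 : ∀ y > 0, deriv (deriv fun y => a * G y + b * H y) y =
      a * deriv (deriv G) y + b * deriv (deriv H) y := fun y hy =>
    (LGap_dcongr d1 y hy).trans (LGap_dlin (hG.sm.deriv_of_isOpen isOpen_Ioi inf_add_one)
      (hH.sm.deriv_of_isOpen isOpen_Ioi inf_add_one) a b y hy)
  refine ⟨⟨(contDiffOn_const.mul hG.sm).add (contDiffOn_const.mul hH.sm), hL.lin _ _ a b hG.b0 hH.b0,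
    LGap_bcongr (hL.lin _ _ a b hG.b1 hH.b1) d1, LGap_bcongr (hL.lin _ _ a b hG.b2 hH.b2) d2⟩,
    fun y hy => ?_⟩
  simp only [LL, d1 y hy, d2 y hy]; ring

theorem LGap_ge (k : ℕ) (j : Fin 4) : LGap_good (ee k j) :=
  ⟨(hL.ee_bd k j).1.contDiffOn, (hL.ee_bd k j).2.1, (hL.ee_bd k j).2.2.1, (hL.ee_bd k j).2.2.2⟩

theorem LGap_gH {G : ℝ → ℝ} (hG : LGap_good G) (a : Fin 4 → ℝ) (k : ℕ) :
    LGap_good (fun y => G y - ∑ j, a j * ee k j y) ∧
      ∀ y > 0, LL k (fun y => G y - ∑ j, a j * ee k j y) y =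
        LL k G y - ∑ j : Fin 4, (-((j : ℕ) : ℝ) * a j) * ee k j y := by
  obtain ⟨g1, l1⟩ := LGap_glin hL (LGap_ge hL k 0) (LGap_ge hL k 1) (a 0) (a 1) k
  obtain ⟨g2, l2⟩ := LGap_glin hL (LGap_ge hL k 2) (LGap_ge hL k 3) (a 2) (a 3) k
  obtain ⟨g3, l3⟩ := LGap_glin hL g1 g2 1 1 k
  obtain ⟨g4, l4⟩ := LGap_glin hL hG g3 1 (-1) k
  have e : (fun y => G y - ∑ j, a j * ee k j y) = fun y => 1 * G y + -1 *
      (1 * (a 0 * ee k 0 y + a 1 * ee k 1 y) + 1 * (a 2 * ee k 2 y + a 3 * ee k 3 y)) := by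
    funext y; rw [Fin.sum_univ_four]; ring
  rw [e]
  refine ⟨g4, fun y hy => ?_⟩
  rw [l4 y hy, l3 y hy, l1 y hy, l2 y hy, Fin.sum_univ_four]
  simp only [hL.eig]; ring

theorem LGap_bLL {G : ℝ → ℝ} (hG : LGap_good G) (k : ℕ) : Bd (LL k G) :=
  LGap_bcongr (hL.lin _ _ 1 1 (hL.mul _ _ (LGap_id hL) hG.b2)
    (hL.mul _ _ (hL.lin _ _ k (-1) (hL.pow 0) (hL.pow 1)) hG.b1)) fun y _ => by unfold LL; ring

include hk

theorem LGap_lin {P R S : ℝ → ℝ} (hP : Bd P) (hR : Bd R) (hS : Bd S) (a b : ℝ) :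
    ip k (fun y => a * P y + b * R y) S = a * ip k P S + b * ip k R S := by
  simp only [ip]
  rw [← integral_const_mul, ← integral_const_mul, ← integral_add
    ((hL.int k hk _ (hL.mul _ _ hP hS)).const_mul a) ((hL.int k hk _ (hL.mul _ _ hR hS)).const_mul b)]
  congr 1; funext y; ring

theorem LGap_sub {P S : ℝ → ℝ} (hP : Bd P) (hS : Bd S) (a : Fin 4 → ℝ) :
    Bd (fun y => P y - ∑ j, a j * ee k j y) ∧
      ip k (fun y => P y - ∑ j, a j * ee k j y) S = ip k P S - ∑ j, a j * ip k S (ee k j) := by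
  have b := fun j => (hL.ee_bd k j).2.1
  have e : (fun y => P y - ∑ j, a j * ee k j y) = fun y => 1 * P y + -1 *
      (1 * (a 0 * ee k 0 y + a 1 * ee k 1 y) + 1 * (a 2 * ee k 2 y + a 3 * ee k 3 y)) := by
    funext y; rw [Fin.sum_univ_four]; ring
  have b1 := hL.lin _ _ (a 0) (a 1) (b 0) (b 1)
  have b2 := hL.lin _ _ (a 2) (a 3) (b 2) (b 3)
  have b3 := hL.lin _ _ 1 1 b1 b2
  rw [e]
  refine ⟨hL.lin _ _ 1 (-1) hP b3, ?_⟩
  rw [LGap_lin hL hk hP b3 hS, LGap_lin hL hk b1 b2 hS, LGap_lin hL hk (b 0) (b 1) hS,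
    LGap_lin hL hk (b 2) (b 3) hS, Fin.sum_univ_four]
  simp only [LGap_comm k S]; ring

theorem LGap_sube {P : ℝ → ℝ} (hP : Bd P) (a : Fin 4 → ℝ) (i : Fin 4) :
    ip k (fun y => P y - ∑ j, a j * ee k j y) (ee k i) = ip k P (ee k i) - a i := by
  rw [(LGap_sub hL hk hP (hL.ee_bd k i).2.1 a).2]
  simp [hL.orth k hk]

theorem LGap_pyth {P R : ℝ → ℝ} (hP : Bd P) (hR : Bd R) (a b : Fin 4 → ℝ) :
    ip k (fun y => P y - ∑ j, a j * ee k j y) (fun y => R y - ∑ j, b j * ee k j y) =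
      ip k P R - ∑ j, (b j * ip k P (ee k j) + a j * ip k R (ee k j) - a j * b j) := by
  rw [(LGap_sub hL hk hP (LGap_sub hL hk hR hP b).1 a).2, LGap_comm k P,
    (LGap_sub hL hk hR hP b).2, LGap_comm k R]
  simp only [LGap_sube hL hk hR]
  simp only [Fin.sum_univ_four]; ring

theorem LGap_sa {G H : ℝ → ℝ} (hG : LGap_good G) (hH : LGap_good H) :
    ip k G (LL k H) = -ip k (fun y => y * deriv G y) (deriv H) :=
  hL.ibp k hk G (deriv H) (hG.sm.of_le one_le_inf)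
    ((hH.sm.deriv_of_isOpen isOpen_Ioi inf_add_one).of_le one_le_inf) hG.b0 hH.b1
    (hL.mul _ _ (LGap_id hL) hG.b1) (hL.mul _ _ (LGap_id hL) hH.b2)

theorem LGap_sa' {G H : ℝ → ℝ} (hG : LGap_good G) (hH : LGap_good H) :
    ip k (LL k G) H = ip k G (LL k H) := by
  rw [LGap_comm, LGap_sa hL hk hH hG, LGap_sa hL hk hG hH]
  simp only [ip]
  congr 2; funext y; ring

end

theorem gap (hL : LBasicStmt) (hA : GapAbsStmt) : GapStmt := by
  intro k hk2 G hG
  have hk : 1 ≤ k := by omega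
  obtain ⟨b0, b1, b2, b3⟩ := hL.cs k G hG
  have g : LGap_good G := ⟨hG.1.mono Ioi_subset_Ici_self, b0, b1, b2⟩
  obtain ⟨gH, lH⟩ := LGap_gH hL g (am k G) k
  have eig : ∀ j, ip k (LL k G) (ee k j) = -((j : ℕ) : ℝ) * am k G j := fun j => by
    rw [LGap_sa' hL hk g (LGap_ge hL k j)]
    simp only [ip, am, hL.eig, ← integral_const_mul]
    congr 1; funext y; ring
  have ha : ∀ j, ip k G (ee k j) = am k G j := fun _ => rfl
  have h0 := LGap_pyth hL hk b0 b0 (am k G) (am k G)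
  have h1 := LGap_pyth hL hk b3 b0 (fun j => -((j : ℕ) : ℝ) * am k G j) (am k G)
  have h2 := LGap_pyth hL hk b3 b3 (fun j => -((j : ℕ) : ℝ) * am k G j)
    fun j => -((j : ℕ) : ℝ) * am k G j
  rw [← LGap_congr k _ lH] at h1
  rw [← LGap_congr k _ lH, LGap_comm, ← LGap_congr k _ lH] at h2
  set H : ℝ → ℝ := fun y => G y - ∑ j, am k G j * ee k j y with hH
  have e0 : ip k H H = ip k G G - ∑ j, am k G j ^ 2 := by
    rw [h0]; simp only [ha, Fin.sum_univ_four]; ring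
  have e1 : ip k H (LL k H) = -SS k G := by
    rw [LGap_comm, h1, LGap_comm, LGap_sa hL hk g g]
    simp only [ha, eig, SS, Qm, Fin.sum_univ_four]; ring
  have e2 : ip k (LL k H) (LL k H) = Lam k G := by
    rw [h2]; simp only [eig, Lam, Fin.sum_univ_four]; ring
  have e3 : Qm k H = SS k G := by
    have := LGap_sa hL hk gH gH
    rw [e1] at this
    exact (neg_inj.1 this).symm
  have n0 := LGap_nonneg k H
  have gp : 4 * ip k H H ≤ SS k G := by
    have := hA 4 k hk2 H ⟨gH.sm.of_le one_le_inf, gH.b0, hL.mul _ _ (LGap_id hL) gH.b1⟩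
      fun i hi => by
        obtain ⟨c, hc⟩ := hL.span k hk i hi
        have e := (LGap_sub hL hk (hL.pow i) gH.b0 c).2
        have z : ∀ j, ip k H (ee k j) = 0 := fun j => by rw [LGap_sube hL hk b0, ha, sub_self]
        simp only [z, mul_zero, Finset.sum_const_zero, sub_zero, ← hc, sub_self] at e
        rw [LGap_comm, ← e]
        simp [ip]
    rw [e3] at this
    exact_mod_cast this
  refine ⟨eig, e0, e3, e0 ▸ n0, e0 ▸ gp, ?_, fun P hP => ?_, fun P hP => ?_⟩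
  · have c := hL.cauchy k hk _ _ gH.b0 (LGap_bLL hL gH k)
    have n1 := LGap_nonneg k (LL k H)
    rw [e1, e2] at *
    rcases (show 0 ≤ SS k G by linarith).lt_or_eq with h | h
    · refine le_of_mul_le_mul_left ?_ h
      nlinarith [mul_le_mul_of_nonneg_right gp n1]
    · linarith
  · have := LGap_nonneg k fun y => P y - ∑ j, ip k P (ee k j) * ee k j y
    rw [LGap_pyth hL hk hP hP] at this
    simp only [Fin.sum_univ_four] at this ⊢
    linarith
  · have c := hL.cauchy k hk _ _ (LGap_bLL hL gH k) hP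
    rw [e2, LGap_congr k _ lH, (LGap_sub hL hk b3 hP _).2] at c
    refine le_trans (le_of_eq ?_) c
    simp only [Fin.sum_univ_four]; ring

end Vale.Agent.P244
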