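import Vale.Agent.P244.StmL

/-! P244: the spectral gap of the Laguerre operator, by duality. -/

open Set Filter MeasureTheory
open scoped ContDiff Topology

namespace Vale.Agent.P244

theorem LGapAbs_wt_succ {k : ℕ} (hk : 1 ≤ k) (y : ℝ) : wt (k + 1) y = y * wt k y / k := by
  obtain ⟨j, rfl⟩ : ∃ j, k = j + 1 := ⟨k - 1, by omega⟩
  have h1 : ((j.factorial : ℕ) : ℝ) ≠ 0 := by exact_mod_cast j.factorial_ne_zero
  simp only [wt, Nat.add_sub_cancel, Nat.factorial_succ, pow_succ]
  push_cast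
  field_simp

theorem LGapAbs_wt_pos (k : ℕ) {y : ℝ} (hy : 0 < y) : 0 < wt k y := by
  unfold wt
  have h1 : (0 : ℝ) < ((k - 1).factorial : ℕ) := by exact_mod_cast (k - 1).factorial_pos
  positivity

theorem LGapAbs_wt_cont (k : ℕ) : Continuous (wt k) := by
  unfold wt
  fun_prop

theorem LGapAbs_yw (k : ℕ) (hk : 1 ≤ k) (y : ℝ) :
    HasDerivAt (fun s => s * wt k s) ((k - y) * wt k y) y := by
  obtain ⟨j, rfl⟩ : ∃ j, k = j + 1 := ⟨k - 1, by omega⟩
  have e : (fun s : ℝ => s * wt (j + 1) s) =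
      fun s => s ^ (j + 1) * Real.exp (-s) / (j.factorial : ℕ) := by
    funext s
    simp only [wt, Nat.add_sub_cancel, pow_succ]
    ring
  rw [e]
  have h := ((hasDerivAt_pow (j + 1) y).mul (hasDerivAt_neg y).exp).div_const
    ((j.factorial : ℕ) : ℝ)
  refine h.congr_deriv ?_
  simp only [wt, Nat.add_sub_cancel, pow_succ]
  push_cast
  ring

/-- The tail integral. -/
noncomputable def LGapAbs_U (k : ℕ) (G : ℝ → ℝ) (y : ℝ) : ℝ := ∫ s in Ioi y, G s * wt k s

/-- The solution of the adjoint equation. -/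
noncomputable def LGapAbs_H (k : ℕ) (G : ℝ → ℝ) (y : ℝ) : ℝ := LGapAbs_U k G y / (y * wt k y)

theorem LGapAbs_U_has {k : ℕ} {G : ℝ → ℝ} (hc : ContinuousOn G (Ioi 0))
    (hi : IntegrableOn (fun s => G s * wt k s) (Ioi 0)) {y : ℝ} (hy : 0 < y) :
    HasDerivAt (LGapAbs_U k G) (-(G y * wt k y)) y := by
  have hc' : ContinuousOn (fun s => G s * wt k s) (Ioi 0) :=
    hc.mul (LGapAbs_wt_cont k).continuousOn
  have h1 : HasDerivAt (fun u => ∫ s in y..u, G s * wt k s) (G y * wt k y) y :=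
    intervalIntegral.integral_hasDerivAt_right IntervalIntegrable.refl
      (hc'.stronglyMeasurableAtFilter isOpen_Ioi y hy) (hc'.continuousAt (Ioi_mem_nhds hy))
  refine ((h1.const_sub (LGapAbs_U k G y)).congr_of_eventuallyEq ?_)
  filter_upwards [Ioi_mem_nhds hy] with u hu
  have := intervalIntegral.integral_Ioi_sub_Ioi' (hi.mono_set (Ioi_subset_Ioi hy.le))
    (hi.mono_set (Ioi_subset_Ioi (le_of_lt hu)))
  unfold LGapAbs_U
  linarith

theorem LGapAbs_H_has {k : ℕ} (hk : 1 ≤ k) {G : ℝ → ℝ} (hc : ContinuousOn G (Ioi 0))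
    (hi : IntegrableOn (fun s => G s * wt k s) (Ioi 0)) {y : ℝ} (hy : 0 < y) :
    HasDerivAt (LGapAbs_H k G) ((-G y - (k - y) * LGapAbs_H k G y) / y) y := by
  have hw := LGapAbs_wt_pos k hy
  have h := (LGapAbs_U_has hc hi hy).div (LGapAbs_yw k hk y) (mul_pos hy hw).ne'
  refine h.congr_deriv ?_
  unfold LGapAbs_H
  field_simp

theorem LGapAbs_H_cont {k : ℕ} (hk : 1 ≤ k) {G : ℝ → ℝ} (hc : ContinuousOn G (Ioi 0))
    (hi : IntegrableOn (fun s => G s * wt k s) (Ioi 0)) : ContinuousOn (LGapAbs_H k G) (Ioi 0) :=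
  fun _ hy => (LGapAbs_H_has hk hc hi hy).continuousAt.continuousWithinAt

theorem LGapAbs_H_c1 {k : ℕ} (hk : 1 ≤ k) {G : ℝ → ℝ} (hc : ContinuousOn G (Ioi 0))
    (hi : IntegrableOn (fun s => G s * wt k s) (Ioi 0)) :
    ContDiffOn ℝ 1 (LGapAbs_H k G) (Ioi 0) := by
  rw [show (1 : WithTop ℕ∞) = 0 + 1 from rfl, contDiffOn_succ_iff_deriv_of_isOpen isOpen_Ioi]
  refine ⟨fun y hy => (LGapAbs_H_has hk hc hi hy).differentiableAt.differentiableWithinAt,
    by simp, ?_⟩
  rw [contDiffOn_zero]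
  have h1 : ContinuousOn (fun y => (-G y - (k - y) * LGapAbs_H k G y) / y) (Ioi 0) :=
    (hc.neg.sub ((continuousOn_const.sub continuousOn_id).mul (LGapAbs_H_cont hk hc hi))).div
      continuousOn_id fun y hy => ne_of_gt hy
  exact h1.congr fun y hy => (LGapAbs_H_has hk hc hi hy).deriv

theorem LGapAbs_H_eq {k : ℕ} (hk : 1 ≤ k) {G : ℝ → ℝ} (hc : ContinuousOn G (Ioi 0))
    (hi : IntegrableOn (fun s => G s * wt k s) (Ioi 0)) {y : ℝ} (hy : 0 < y) :
    y * deriv (LGapAbs_H k G) y + (k - y) * LGapAbs_H k G y = -G y := by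
  rw [(LGapAbs_H_has hk hc hi hy).deriv]
  field_simp
  ring

theorem LGapAbs_small {k : ℕ} {G : ℝ → ℝ} {C : ℝ} {N : ℕ} (hC : 0 ≤ C)
    (hG : ∀ y > 0, |G y| ≤ C * (1 + y) ^ N)
    (hi : IntegrableOn (fun s => G s * wt k s) (Ioi 0)) (h0 : LGapAbs_U k G 0 = 0) {y : ℝ}
    (hy : 0 < y) (hy1 : y ≤ 1) : |LGapAbs_H k G y| ≤ C * 2 ^ N * Real.exp 1 := by
  have hf : (0 : ℝ) < ((k - 1).factorial : ℕ) := by exact_mod_cast (k - 1).factorial_pos
  have e : LGapAbs_U k G y = -∫ s in (0 : ℝ)..y, G s * wt k s := by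
    have := intervalIntegral.integral_Ioi_sub_Ioi hi hy.le
    unfold LGapAbs_U at h0 ⊢
    linarith
  have b : ‖∫ s in (0 : ℝ)..y, G s * wt k s‖ ≤
      C * 2 ^ N * (y ^ (k - 1) / ((k - 1).factorial : ℕ)) * |y - 0| := by
    refine intervalIntegral.norm_integral_le_of_norm_le_const fun s hs => ?_
    rw [uIoc_of_le hy.le] at hs
    rw [Real.norm_eq_abs, abs_mul, abs_of_pos (LGapAbs_wt_pos k hs.1)]
    have h1 : |G s| ≤ C * 2 ^ N := (hG s hs.1).trans (by
      have := hs.1
      gcongr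
      linarith [hs.2])
    have h2 : wt k s ≤ y ^ (k - 1) / ((k - 1).factorial : ℕ) := by
      unfold wt
      have h3 : Real.exp (-s) ≤ 1 := Real.exp_le_one_iff.2 (by linarith [hs.1])
      have h4 : s ^ (k - 1) ≤ y ^ (k - 1) := pow_le_pow_left₀ hs.1.le hs.2 _
      have h5 : 0 ≤ s ^ (k - 1) := pow_nonneg hs.1.le _
      gcongr
      nlinarith [Real.exp_pos (-s)]
    exact mul_le_mul h1 h2 (LGapAbs_wt_pos k hs.1).le (by positivity)
  have hw := LGapAbs_wt_pos k hy
  rw [sub_zero, abs_of_pos hy, Real.norm_eq_abs] at b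
  unfold LGapAbs_H
  rw [abs_div, abs_of_pos (mul_pos hy hw), div_le_iff₀ (mul_pos hy hw), e, abs_neg]
  refine b.trans ?_
  have h6 : 1 ≤ Real.exp 1 * Real.exp (-y) := by
    rw [← Real.exp_add]
    exact Real.one_le_exp (by linarith)
  have h7 : 0 ≤ C * 2 ^ N * (y ^ (k - 1) / ((k - 1).factorial : ℕ)) * y := by positivity
  calc _ ≤ C * 2 ^ N * (y ^ (k - 1) / ((k - 1).factorial : ℕ)) * y *
        (Real.exp 1 * Real.exp (-y)) := le_mul_of_one_le_right h7 h6
    _ = _ := by unfold wt; ring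

theorem LGapAbs_large (hL : LBasicStmt) {k : ℕ} {G : ℝ → ℝ} {C : ℝ} {N : ℕ} (hC : 0 ≤ C)
    (hG : ∀ y > 0, |G y| ≤ C * (1 + y) ^ N) {y : ℝ} (hy1 : 1 ≤ y) :
    |LGapAbs_H k G y| ≤
      C * (∫ u in Ioi (0 : ℝ), (1 + u) ^ (N + (k - 1)) * wt 1 u) * (1 + y) ^ N := by
  have hy : 0 < y := by linarith
  have hf : (0 : ℝ) < ((k - 1).factorial : ℕ) := by exact_mod_cast (k - 1).factorial_pos
  have hb : Bd fun u : ℝ => (1 + u) ^ (N + (k - 1)) :=
    ⟨by fun_prop, 1, N + (k - 1), fun u hu => by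
      rw [one_mul, abs_of_pos (by positivity)]⟩
  have hi := hL.int 1 le_rfl _ hb
  have e : LGapAbs_U k G y = ∫ u in Ioi (0 : ℝ), G (u + y) * wt k (u + y) := by
    have := (measurePreserving_add_right (volume : Measure ℝ) y).setIntegral_preimage_emb
      (measurableEmbedding_addRight y) (fun s => G s * wt k s) (Ioi y)
    rw [preimage_add_const_Ioi, sub_self] at this
    exact this.symm
  have hw := LGapAbs_wt_pos k hy
  have b : ‖∫ u in Ioi (0 : ℝ), G (u + y) * wt k (u + y)‖ ≤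
      ∫ u in Ioi (0 : ℝ), C * (1 + y) ^ N * wt k y * ((1 + u) ^ (N + (k - 1)) * wt 1 u) := by
    refine norm_integral_le_of_norm_le (hi.const_mul _) ?_
    filter_upwards [ae_restrict_mem measurableSet_Ioi] with u hu
    have hu : 0 < u := hu
    rw [Real.norm_eq_abs, abs_mul, abs_of_pos (LGapAbs_wt_pos k (by linarith))]
    have h1 : |G (u + y)| ≤ C * ((1 + y) * (1 + u)) ^ N := (hG _ (by linarith)).trans (by
      gcongr
      nlinarith)
    have h2 : wt k (u + y) ≤
        (y * (1 + u)) ^ (k - 1) * Real.exp (-(u + y)) / ((k - 1).factorial : ℕ) := by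
      unfold wt
      gcongr
      nlinarith
    refine (mul_le_mul h1 h2 (LGapAbs_wt_pos k (by linarith)).le (by positivity)).trans_eq ?_
    simp only [wt, neg_add, Real.exp_add, mul_pow, pow_add]
    simp
    ring
  rw [integral_const_mul, Real.norm_eq_abs] at b
  have hI : 0 ≤ ∫ u in Ioi (0 : ℝ), (1 + u) ^ (N + (k - 1)) * wt 1 u :=
    setIntegral_nonneg measurableSet_Ioi fun u hu => by
      have hu : 0 < u := hu
      have := LGapAbs_wt_pos 1 hu
      positivity
  unfold LGapAbs_H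
  rw [abs_div, abs_of_pos (mul_pos hy hw), div_le_iff₀ (mul_pos hy hw), e]
  refine b.trans ?_
  have h7 : 0 ≤ C * (1 + y) ^ N * wt k y *
      ∫ u in Ioi (0 : ℝ), (1 + u) ^ (N + (k - 1)) * wt 1 u := by positivity
  calc _ ≤ (C * (1 + y) ^ N * wt k y *
      ∫ u in Ioi (0 : ℝ), (1 + u) ^ (N + (k - 1)) * wt 1 u) * y := le_mul_of_one_le_right h7 hy1
    _ = _ := by ring

theorem LGapAbs_H_bd (hL : LBasicStmt) {k : ℕ} (hk : 1 ≤ k) {G : ℝ → ℝ} (hG : Bd G)
    (h0 : LGapAbs_U k G 0 = 0) : Bd (LGapAbs_H k G) := by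
  have hi := hL.int k hk G hG
  refine ⟨LGapAbs_H_cont hk hG.1 hi, ?_⟩
  obtain ⟨C, N, hC⟩ := hG.2
  have hC0 : 0 ≤ C := by
    have h1 := (abs_nonneg _).trans (hC 1 one_pos)
    exact nonneg_of_mul_nonneg_left h1 (by positivity)
  have hI : 0 ≤ ∫ u in Ioi (0 : ℝ), (1 + u) ^ (N + (k - 1)) * wt 1 u :=
    setIntegral_nonneg measurableSet_Ioi fun u hu => by
      have hu : 0 < u := hu
      have := LGapAbs_wt_pos 1 hu
      positivity
  refine ⟨C * 2 ^ N * Real.exp 1 + C * ∫ u in Ioi (0 : ℝ), (1 + u) ^ (N + (k - 1)) * wt 1 u, N,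
    fun y hy => ?_⟩
  have h1 : 1 ≤ (1 + y) ^ N := one_le_pow₀ (by linarith)
  have h2 : 0 ≤ C * 2 ^ N * Real.exp 1 := by positivity
  have h3 := mul_nonneg hC0 hI
  rcases le_total y 1 with h | h
  · have := LGapAbs_small hC0 hC hi h0 hy h
    nlinarith
  · have := LGapAbs_large hL (k := k) hC0 hC h
    nlinarith

theorem LGapAbs_bd_congr {P R : ℝ → ℝ} (h : Bd P) (e : ∀ y > 0, R y = P y) : Bd R := by
  obtain ⟨h1, C, N, h2⟩ := h
  exact ⟨h1.congr fun y hy => e y hy, C, N, fun y hy => by rw [e y hy]; exact h2 y hy⟩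

theorem LGapAbs_bd_lin (hL : LBasicStmt) (k : ℕ) : Bd fun y : ℝ => (k : ℝ) - y :=
  LGapAbs_bd_congr (hL.lin _ _ k (-1) (hL.pow 0) (hL.pow 1)) fun y _ => by ring

theorem LGapAbs_int_Q (hL : LBasicStmt) {k : ℕ} (hk : 2 ≤ k) {G : ℝ → ℝ}
    (hG : Bd fun y => y * deriv G y) :
    IntegrableOn (fun y => y * deriv G y * deriv G y * wt k y) (Ioi 0) := by
  obtain ⟨j, rfl⟩ : ∃ j, k = j + 1 := ⟨k - 1, by omega⟩
  have hj : 1 ≤ j := by omega
  have h := (hL.int j hj _ (hL.mul _ _ hG hG)).div_const (j : ℝ)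
  refine IntegrableOn.congr_fun h (fun y _ => ?_) measurableSet_Ioi
  simp only [LGapAbs_wt_succ hj]
  ring

/-- The Bochner identity. -/
theorem LGapAbs_boch (hL : LBasicStmt) {k : ℕ} (hk : 1 ≤ k) {G H : ℝ → ℝ} (hH : C1g H)
    (e : ∀ y > 0, y * deriv H y + (k - y) * H y = -G y) :
    ip k G G = (∫ y in Ioi (0 : ℝ), y * deriv H y * (y * deriv H y) * wt k y) +
      ∫ y in Ioi (0 : ℝ), y * H y * H y * wt k y := by
  obtain ⟨h1, h2, h3⟩ := hH
  have hl := LGapAbs_bd_lin hL k
  have hd : ∀ y > 0, deriv (fun s => (k - s) * H s) y = -H y + (k - y) * deriv H y := by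
    intro y hy
    have hH : HasDerivAt H (deriv H y) y :=
      ((h1.differentiableOn one_ne_zero).differentiableAt (Ioi_mem_nhds hy)).hasDerivAt
    have := (((hasDerivAt_id y).const_sub (k : ℝ)).mul hH).deriv
    simp only [id] at this
    refine Eq.trans this ?_
    ring
  have hy1 : Bd fun y : ℝ => y * H y :=
    LGapAbs_bd_congr (hL.mul _ _ (hL.pow 1) h2) fun y _ => by ring
  have hF : Bd fun y => (k - y) * H y := hL.mul _ _ hl h2
  have hF' : Bd fun y => y * deriv (fun s => (k - s) * H s) y :=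
    LGapAbs_bd_congr (hL.lin _ _ (-1) 1 hy1 (hL.mul _ _ hl h3)) fun y hy => by
      rw [hd y hy]; ring
  have ibp := hL.ibp k hk (fun s => (k - s) * H s) H
    ((contDiffOn_const.sub contDiffOn_id).mul h1) h1 hF h2 hF' h3
  have i1 := hL.int k hk _ (hL.mul _ _ h3 h3)
  have i2 := hL.int k hk _ (hL.mul _ _ hy1 h2)
  have i3 := hL.int k hk _ (hL.mul _ _ hF (hL.lin _ _ 1 1 h3 hF))
  have i4 := hL.int k hk _ (hL.mul _ _ hF' h2)
  simp only [one_mul] at i3
  unfold ip at ibp ⊢
  have fin : ∫ y in Ioi (0 : ℝ), G y * G y * wt k y = ∫ y in Ioi (0 : ℝ),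
      ((y * deriv H y * (y * deriv H y) * wt k y + y * H y * H y * wt k y) +
      ((k - y) * H y * (y * deriv H y + (k - y) * H y) * wt k y +
        y * deriv (fun s => (k - s) * H s) y * H y * wt k y)) := by
    refine setIntegral_congr_fun measurableSet_Ioi fun y hy => ?_
    have h4 : G y = -(y * deriv H y + (k - y) * H y) := by rw [e y hy, neg_neg]
    rw [h4, hd y hy]
    ring
  have j1 := integral_add (i1.add i2) (i3.add i4)
  simp only [Pi.add_apply] at j1
  rw [fin, j1, integral_add i1 i2, integral_add i3 i4, ibp]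
  ring

theorem gapAbs (hL : LBasicStmt) : GapAbsStmt := by
  intro m
  induction m with
  | zero =>
    intro k _ G _ _
    rw [Nat.cast_zero, zero_mul]
    refine setIntegral_nonneg measurableSet_Ioi fun y hy => ?_
    have hy : 0 < y := hy
    have := LGapAbs_wt_pos k hy
    have h2 := mul_self_nonneg (deriv G y)
    rw [mul_assoc y]
    positivity
  | succ m ih =>
    intro k hk G hG ho
    have hk1 : 1 ≤ k := by omega
    have hk0 : (0 : ℝ) < k := by exact_mod_cast hk1
    obtain ⟨g1, g2, g3⟩ := hG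
    have hi := hL.int k hk1 G g2
    have h0 : LGapAbs_U k G 0 = 0 := by
      have := ho 0 (Nat.succ_pos m)
      simpa only [ip, pow_zero, mul_one, LGapAbs_U] using this
    have hb := LGapAbs_H_bd hL hk1 g2 h0
    have hc := LGapAbs_H_c1 hk1 g2.1 hi
    have e : ∀ y > (0 : ℝ), _ := fun y hy => LGapAbs_H_eq hk1 g2.1 hi (y := y) hy
    set H := LGapAbs_H k G
    have hl := LGapAbs_bd_lin hL k
    have hb' : Bd fun y => y * deriv H y :=
      LGapAbs_bd_congr (hL.lin _ _ (-1) (-1) g2 (hL.mul _ _ hl hb)) fun y hy => by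
        have := e y hy
        linarith
    have hH : C1g H := ⟨hc, hb, hb'⟩
    have key : ∀ F, ip k F (fun y => y * deriv H y + (k - y) * H y) = -ip k F G := by
      intro F
      unfold ip
      rw [← integral_neg]
      refine setIntegral_congr_fun measurableSet_Ioi fun y hy => ?_
      simp only [e y hy]
      ring
    have ha : ip k G G = ip k (fun y => y * deriv G y) H := by
      have := hL.ibp k hk1 G H g1 hc g2 hb g3 hb'
      rw [key] at this
      linarith
    have hB := LGapAbs_boch hL hk1 hH e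
    have horth : ∀ i < m, ip (k + 1) H (fun y => y ^ i) = 0 := by
      intro i hi'
      have hd : ∀ y : ℝ, y * deriv (fun s : ℝ => s ^ (i + 1)) y = (i + 1) * y ^ (i + 1) := by
        intro y
        rw [(hasDerivAt_pow (i + 1) y).deriv, Nat.add_sub_cancel]
        push_cast
        ring
      have hp : Bd fun y : ℝ => y * deriv (fun s : ℝ => s ^ (i + 1)) y :=
        LGapAbs_bd_congr (hL.lin _ _ (i + 1) 0 (hL.pow (i + 1)) (hL.pow 0)) fun y _ => by
          rw [hd]; ring
      have h1 := hL.ibp k hk1 (fun s => s ^ (i + 1)) H (by fun_prop) hc (hL.pow _) hb hp hb'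
      have h2 : ip k (fun s => s ^ (i + 1)) G = 0 := by
        rw [← ho (i + 1) (by omega)]
        unfold ip
        simp only [mul_comm]
      rw [key, h2, neg_inj] at h1
      have h3 : ip k (fun y => y * deriv (fun s : ℝ => s ^ (i + 1)) y) H =
          ((i + 1) * k) * ip (k + 1) H (fun y => y ^ i) := by
        unfold ip
        rw [← integral_const_mul]
        refine setIntegral_congr_fun measurableSet_Ioi fun y _ => ?_
        simp only [hd, LGapAbs_wt_succ hk1]
        field_simp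
        ring
      rw [h3] at h1
      exact (mul_eq_zero.1 h1.symm).resolve_left (by positivity)
    have hind := ih (k + 1) (by omega) H hH horth
    have e1 : ip (k + 1) H H = (∫ y in Ioi (0 : ℝ), y * H y * H y * wt k y) / k := by
      unfold ip
      rw [← integral_div]
      refine setIntegral_congr_fun measurableSet_Ioi fun y _ => ?_
      simp only [LGapAbs_wt_succ hk1]
      ring
    have e2 : Qm (k + 1) H =
        (∫ y in Ioi (0 : ℝ), y * deriv H y * (y * deriv H y) * wt k y) / k := by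
      unfold Qm ip
      rw [← integral_div]
      refine setIntegral_congr_fun measurableSet_Ioi fun y _ => ?_
      simp only [LGapAbs_wt_succ hk1]
      ring
    rw [e1, e2, ← mul_div_assoc, div_le_div_iff_of_pos_right hk0] at hind
    have hy1 : Bd fun y : ℝ => y * H y :=
      LGapAbs_bd_congr (hL.mul _ _ (hL.pow 1) hb) fun y _ => by ring
    have i1 := LGapAbs_int_Q hL hk g3
    have i2 := (hL.int k hk1 _ (hL.mul _ _ g3 hb)).const_mul (2 * ((m : ℝ) + 1))
    have i3 := (hL.int k hk1 _ (hL.mul _ _ hy1 hb)).const_mul (((m : ℝ) + 1) ^ 2)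
    have hs : 0 ≤ Qm k G - 2 * ((m : ℝ) + 1) * ip k (fun y => y * deriv G y) H +
        ((m : ℝ) + 1) ^ 2 * ∫ y in Ioi (0 : ℝ), y * H y * H y * wt k y := by
      unfold Qm ip
      have j1 := integral_add (i1.sub i2) i3
      simp only [Pi.sub_apply] at j1
      rw [← integral_const_mul, ← integral_const_mul, ← integral_sub i1 i2, ← j1]
      refine setIntegral_nonneg measurableSet_Ioi fun y hy => ?_
      have hy : 0 < y := hy
      have h1 := LGapAbs_wt_pos k hy
      have h2 : 0 ≤ y * (deriv G y - (m + 1) * H y) ^ 2 * wt k y := by positivity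
      refine h2.trans_eq ?_
      ring
    rw [← ha] at hs
    push_cast
    have hm : (0 : ℝ) ≤ m + 1 := by positivity
    nlinarith

end Vale.Agent.P244
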