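import Vale.Agent.P244.StmL

/-! P244: the modes of the initial datum, stability of the modes. -/

open Set Filter MeasureTheory
open scoped ContDiff Topology

namespace Vale.Agent.P244

lemma LIniStab_wt (k : ℕ) {y : ℝ} (hy : 0 < y) : 0 ≤ wt k y := by
  unfold wt; positivity

lemma LIniStab_bdd {f : ℝ → ℝ} (hf : Continuous f) {C : ℝ} (h : ∀ y, |f y| ≤ C) : Bd f :=
  ⟨hf.continuousOn, C, 0, fun y _ => by simpa using h y⟩

lemma LIniStab_const (c : ℝ) : Bd fun _ => c := LIniStab_bdd continuous_const fun _ => le_rfl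

lemma LIniStab_add (hL : LBasicStmt) {f g : ℝ → ℝ} (hf : Bd f) (hg : Bd g) :
    Bd fun y => f y + g y := by simpa using hL.lin f g 1 1 hf hg

lemma LIniStab_id (hL : LBasicStmt) : Bd fun y => y := by simpa using hL.pow 1

lemma LIniStab_sum (hL : LBasicStmt) {f : Fin 4 → ℝ → ℝ} (hf : ∀ j, Bd (f j)) :
    Bd fun y => ∑ j, f j y := by
  simp only [Fin.sum_univ_four]
  exact LIniStab_add hL (LIniStab_add hL (LIniStab_add hL (hf 0) (hf 1)) (hf 2)) (hf 3)

lemma LIniStab_diff (hL : LBasicStmt) {k : ℕ} (hk : 1 ≤ k) {f g f' g' b : ℝ → ℝ} (hf : Bd f)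
    (hg : Bd g) (hf' : Bd f') (hg' : Bd g') (hb : Bd b)
    (h : ∀ y > 0, |f y * g y - f' y * g' y| ≤ b y) :
    |ip k f g - ip k f' g'| ≤ ∫ y in Ioi (0 : ℝ), b y * wt k y := by
  unfold ip
  rw [← integral_sub (hL.int k hk _ (hL.mul _ _ hf hg)) (hL.int k hk _ (hL.mul _ _ hf' hg'))]
  rw [← Real.norm_eq_abs]
  refine norm_integral_le_of_norm_le (hL.int k hk _ hb) ?_
  filter_upwards [ae_restrict_mem measurableSet_Ioi] with y hy
  rw [← sub_mul, Real.norm_eq_abs, abs_mul, abs_of_nonneg (LIniStab_wt k hy)]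
  exact mul_le_mul_of_nonneg_right (h y hy) (LIniStab_wt k hy)

lemma LIniStab_abs (x : ℝ) : |x| ≤ 1 + x * x := by
  rw [← abs_mul_abs_self]; nlinarith [sq_nonneg (|x| - 1), abs_nonneg x]

lemma LIniStab_two (hL : LBasicStmt) {k : ℕ} (hk : 1 ≤ k) (j : Fin 4) (c : ℝ) :
    ∫ y in Ioi (0 : ℝ), c * (1 + ee k j y * ee k j y) * wt k y = 2 * c := by
  have h1 := hL.mom k hk 0
  have h2 := hL.orth k hk j j
  have he := (hL.ee_bd k j).2.1
  simp only [ip, if_true] at h2
  have e : (fun y => c * (1 + ee k j y * ee k j y) * wt k y) =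
      fun y => c * (y ^ 0 * wt k y + ee k j y * ee k j y * wt k y) := by
    funext y; ring
  rw [e, integral_const_mul, integral_add (hL.int k hk _ (hL.pow 0))
    (hL.int k hk _ (hL.mul _ _ he he)), h1, h2]
  simp only [Nat.ascFactorial_zero, Nat.cast_one]
  ring

lemma LIniStab_am (hL : LBasicStmt) {k : ℕ} (hk : 1 ≤ k) {G H : ℝ → ℝ} (hG : Bd G) (hH : Bd H)
    {c : ℝ} (h : ∀ y > 0, |G y - H y| ≤ c) (j : Fin 4) : |am k G j - am k H j| ≤ 2 * c := by
  have he := (hL.ee_bd k j).2.1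
  rw [← LIniStab_two hL hk j c]
  refine LIniStab_diff hL hk hG he hH he (hL.mul _ _ (LIniStab_const c)
    (LIniStab_add hL (LIniStab_const 1) (hL.mul _ _ he he))) fun y hy => ?_
  rw [← sub_mul, abs_mul]
  exact mul_le_mul (h y hy) (LIniStab_abs _) (abs_nonneg _) ((abs_nonneg _).trans (h y hy))

lemma LIniStab_sq {a b c ε : ℝ} (h : |a - b| ≤ ε) (hb : |b| ≤ c) :
    |a ^ 2 - b ^ 2| ≤ ε * (2 * c + ε) := by
  have e : a ^ 2 - b ^ 2 = (a - b) * (2 * b + (a - b)) := by ring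
  rw [e, abs_mul]
  refine mul_le_mul h ((abs_add_le _ _).trans ?_) (abs_nonneg _) ((abs_nonneg _).trans h)
  rw [abs_mul, abs_two]
  linarith

theorem modeStab (hL : LBasicStmt) : ModeStabStmt := by
  intro k hk M
  have hk1 : 1 ≤ k := by omega
  refine ⟨2 + (2 * |M| + 1) * k + 6 * (2 * (4 * |M| + 2)), by positivity,
    fun G H hG hH ε hε h => ?_⟩
  obtain ⟨g0, g1, -⟩ := hL.cs k G hG
  obtain ⟨h0, h1, -⟩ := hL.cs k H hH
  have hM : 0 ≤ |M| := abs_nonneg M
  have ha := LIniStab_am hL hk1 g0 h0 fun y hy => (h y hy).2.2.1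
  have hb : ∀ j, |am k H j| ≤ 2 * |M| := fun j => by
    have := LIniStab_am hL hk1 h0 (LIniStab_const 0) (c := |M|)
      (fun y hy => by simpa using (h y hy).1.trans (le_abs_self M)) j
    simpa [am, ip] using this
  have hs : ∀ j, |am k G j ^ 2 - am k H j ^ 2| ≤ 2 * (4 * |M| + 2) * ε := fun j =>
    (LIniStab_sq (ha j) (hb j)).trans (by nlinarith [hε.1, hε.2])
  have hq : |Qm k G - Qm k H| ≤ (2 * |M| + 1) * k * ε := by
    have hy := LIniStab_id hL
    refine (LIniStab_diff hL hk1 (hL.mul _ _ hy g1) g1 (hL.mul _ _ hy h1) h1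
      (hL.mul _ _ (LIniStab_const ((2 * |M| + 1) * ε)) (hL.pow 1)) fun y hy => ?_).trans ?_
    · have e : y * deriv G y * deriv G y - y * deriv H y * deriv H y =
          (deriv G y ^ 2 - deriv H y ^ 2) * y := by ring
      rw [e, abs_mul, abs_of_pos hy, pow_one]
      refine mul_le_mul_of_nonneg_right ((LIniStab_sq (h y hy).2.2.2
        ((h y hy).2.1.trans (le_abs_self M))).trans ?_) hy.le
      nlinarith [hε.1, hε.2]
    · simp only [mul_assoc]
      rw [integral_const_mul, integral_const_mul, hL.mom k hk1 1]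
      simp [mul_comm, Nat.ascFactorial_succ]
  refine ⟨fun j => (ha j).trans (mul_le_mul_of_nonneg_right ?_ hε.1), ?_⟩
  · have : 0 ≤ (2 * |M| + 1) * k := by positivity
    linarith
  · simp only [SS, Fin.sum_univ_four]
    have s1 := abs_le.1 (hs 1)
    have s2 := abs_le.1 (hs 2)
    have s3 := abs_le.1 (hs 3)
    have s4 := abs_le.1 hq
    have := hε.1
    simp only [Fin.val_zero, Fin.val_one, Fin.val_two, show ((3 : Fin 4) : ℕ) = 3 from rfl]
    push_cast
    rw [abs_le]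
    constructor <;> linarith

lemma LIniStab_chi : ContDiff ℝ ∞ chi :=
  contDiff_const.sub (Real.smoothTransition.contDiff.comp (contDiff_id.sub contDiff_const))

lemma LIniStab_chi01 (r : ℝ) : 0 ≤ chi r ∧ chi r ≤ 1 := by
  unfold chi
  exact ⟨by linarith [Real.smoothTransition.le_one (r - 1)],
    by linarith [Real.smoothTransition.nonneg (r - 1)]⟩

lemma LIniStab_chi1 {r : ℝ} (h : r < 1) : chi r = 1 ∧ deriv chi r = 0 := by
  have e : chi =ᶠ[𝓝 r] fun _ => 1 := by
    filter_upwards [Iio_mem_nhds h] with s hs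
    simp [chi, Real.smoothTransition.zero_of_nonpos (sub_nonpos.2 (le_of_lt hs))]
  exact ⟨e.eq_of_nhds, by rw [e.deriv_eq]; simp⟩

lemma LIniStab_chid : ∃ C : ℝ, 0 ≤ C ∧ ∀ r, |deriv chi r| ≤ C := by
  obtain ⟨C, hC⟩ := (isCompact_Icc (a := (1 : ℝ)) (b := 2)).exists_bound_of_continuousOn
    (LIniStab_chi.continuous_deriv (by simp)).continuousOn
  refine ⟨|C|, abs_nonneg _, fun r => ?_⟩
  by_cases h1 : r < 1
  · simp [(LIniStab_chi1 h1).2]
  by_cases h2 : 2 < r
  · have e : chi =ᶠ[𝓝 r] fun _ => 0 := by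
      filter_upwards [Ioi_mem_nhds h2] with s hs
      have : (2 : ℝ) < s := hs
      simp [chi, Real.smoothTransition.one_of_one_le (show (1 : ℝ) ≤ s - 1 by linarith)]
    rw [e.deriv_eq]; simp
  · exact (hC r ⟨not_lt.1 h1, not_lt.1 h2⟩).trans (le_abs_self C)

lemma LIniStab_ipsum (hL : LBasicStmt) {k : ℕ} (hk : 1 ≤ k) {F : ℝ → ℝ} (hF : Bd F)
    (d : Fin 4 → ℝ) : ip k F (fun y => ∑ j, d j * ee k j y) = ∑ j, d j * ip k F (ee k j) := by
  unfold ip
  simp only [← integral_const_mul]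
  rw [← integral_finsetSum _ fun j _ =>
    (hL.int k hk _ (hL.mul _ _ hF (hL.ee_bd k j).2.1)).const_mul (d j)]
  refine integral_congr_ae (ae_of_all _ fun y => ?_)
  simp only [Finset.mul_sum, Finset.sum_mul]
  exact Finset.sum_congr rfl fun j _ => by ring

lemma LIniStab_dsum {f : Fin 4 → ℝ → ℝ} (hf : ∀ j, Differentiable ℝ (f j)) (c : Fin 4 → ℝ) :
    deriv (fun y => ∑ j, c j * f j y) = fun y => ∑ j, c j * deriv (f j) y := by
  funext y
  exact (HasDerivAt.fun_sum fun j _ => ((hf j y).hasDerivAt.const_mul (c j))).deriv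

lemma LIniStab_pol (hL : LBasicStmt) {k : ℕ} (hk : 1 ≤ k) (c : Fin 4 → ℝ) :
    (∀ j, am k (fun y => ∑ j, c j * ee k j y) j = c j) ∧
      Qm k (fun y => ∑ j, c j * ee k j y) = ∑ j : Fin 4, (j : ℕ) * c j ^ 2 := by
  have e0 := fun j => (hL.ee_bd k j).1
  have e1 : ∀ j, ContDiff ℝ ∞ (deriv (ee k j)) := fun j => (contDiff_infty_iff_deriv.1 (e0 j)).2
  have d0 := LIniStab_dsum (fun j => (e0 j).differentiable (by simp)) c
  have d1 := LIniStab_dsum (fun j => (e1 j).differentiable (by simp)) c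
  have b0 := LIniStab_sum hL fun j => hL.mul _ _ (LIniStab_const (c j)) (hL.ee_bd k j).2.1
  have b1 := LIniStab_sum hL fun j => hL.mul _ _ (LIniStab_const (c j)) (hL.ee_bd k j).2.2.1
  have b2 := LIniStab_sum hL fun j => hL.mul _ _ (LIniStab_const (c j)) (hL.ee_bd k j).2.2.2
  have ha : ∀ j, am k (fun y => ∑ j, c j * ee k j y) j = c j := fun j => by
    have : am k (fun y => ∑ j, c j * ee k j y) j =
        ip k (ee k j) (fun y => ∑ j, c j * ee k j y) := by
      unfold am ip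
      exact integral_congr_ae (ae_of_all _ fun y => by ring)
    rw [this, LIniStab_ipsum hL hk (hL.ee_bd k j).2.1]
    simp [hL.orth k hk]
  refine ⟨ha, ?_⟩
  have hi := hL.ibp k hk (fun y => ∑ j, c j * ee k j y) (fun y => ∑ j, c j * deriv (ee k j) y)
    ((ContDiff.sum fun j _ => contDiff_const.mul (e0 j)).of_le (by simp)).contDiffOn
    ((ContDiff.sum fun j _ => contDiff_const.mul (e1 j)).of_le (by simp)).contDiffOn b0 b1
    (by rw [d0]; exact hL.mul _ _ (LIniStab_id hL) b1)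
    (by rw [d1]; exact hL.mul _ _ (LIniStab_id hL) b2)
  have e : (fun y => y * deriv (fun y => ∑ j, c j * deriv (ee k j) y) y +
      (k - y) * ∑ j, c j * deriv (ee k j) y) =
        fun y => ∑ j : Fin 4, (-((j : ℕ) : ℝ) * c j) * ee k j y := by
    funext y
    rw [d1]
    simp only [Finset.mul_sum, ← Finset.sum_add_distrib]
    refine Finset.sum_congr rfl fun j _ => ?_
    have := hL.eig k j y
    unfold LL at this
    linear_combination c j * this
  rw [e, LIniStab_ipsum hL hk b0] at hi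
  unfold Qm
  rw [← d0] at hi
  rw [← neg_inj, ← hi, ← Finset.sum_neg_distrib]
  refine Finset.sum_congr rfl fun j _ => ?_
  have := ha j
  unfold am at this
  rw [this]
  ring

lemma LIniStab_lin {f c : Fin 4 → ℝ} (hc : ∀ j, |c j| ≤ 1) :
    |∑ j, c j * f j| ≤ ∑ j, (1 + f j * f j) :=
  (Finset.abs_sum_le_sum_abs _ _).trans (Finset.sum_le_sum fun j _ => by
    rw [abs_mul]
    exact (mul_le_of_le_one_left (abs_nonneg _) (hc j)).trans (LIniStab_abs _))

lemma LIniStab_gen (hL : LBasicStmt) {k : ℕ} (hk : 1 ≤ k) {B P : ℝ → ℝ} {C Y : ℝ} (hC0 : 0 ≤ C)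
    (hC : ∀ r, |deriv chi r| ≤ C) (hY : 1 ≤ Y) (hB : Bd B) (b0 : Bd P) (b1 : Bd (deriv P))
    (dP : Differentiable ℝ P) (q0 : ∀ y, |P y| ≤ B y) (q1 : ∀ y, |deriv P y| ≤ B y)
    (q2 : ∀ j y, |ee k j y| ≤ B y) :
    (∀ j, |am k (fun y => P y * chi (y / Y)) j - am k P j| ≤
      (∫ y in Ioi (0 : ℝ), y * (B y * B y) * wt k y) / Y) ∧
    |Qm k (fun y => P y * chi (y / Y)) - Qm k P| ≤
      (∫ y in Ioi (0 : ℝ), y * (y * ((1 + C) ^ 2 * (B y * B y))) * wt k y) / Y := by
  have hY0 : 0 < Y := by linarith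
  have hy := LIniStab_id hL
  have hBB := hL.mul _ _ hB hB
  have B0 : ∀ y, 0 ≤ B y := fun y => (abs_nonneg _).trans (q0 y)
  have c0 : Bd fun y => chi (y / Y) :=
    LIniStab_bdd (LIniStab_chi.continuous.comp (continuous_id.div_const Y)) (C := 1) fun y => by
      rw [abs_of_nonneg (LIniStab_chi01 _).1]; exact (LIniStab_chi01 _).2
  have c2 : ∀ y, |deriv chi (y / Y) * (1 / Y)| ≤ C := fun y => by
    rw [abs_mul, abs_of_pos (one_div_pos.2 hY0)]
    exact (mul_le_of_le_one_right (abs_nonneg _) ((div_le_one hY0).2 hY)).trans (hC _)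
  have c1 : Bd fun y => deriv chi (y / Y) * (1 / Y) :=
    LIniStab_bdd (((LIniStab_chi.continuous_deriv (by simp)).comp
      (continuous_id.div_const Y)).mul continuous_const) c2
  have dG : deriv (fun y => P y * chi (y / Y)) =
      fun y => deriv P y * chi (y / Y) + P y * (deriv chi (y / Y) * (1 / Y)) := by
    funext y
    exact ((dP y).hasDerivAt.fun_mul
      (((LIniStab_chi.differentiable (by simp)) (y / Y)).hasDerivAt.comp y
        ((hasDerivAt_id y).div_const Y))).deriv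
  have g0 := hL.mul _ _ b0 c0
  have g1 := LIniStab_add hL (hL.mul _ _ b1 c0) (hL.mul _ _ b0 c1)
  have hdiv : ∀ f : ℝ → ℝ, (∫ y in Ioi (0 : ℝ), f y * wt k y) / Y =
      ∫ y in Ioi (0 : ℝ), Y⁻¹ * f y * wt k y := fun f => by
    simp only [mul_assoc]
    rw [integral_const_mul, div_eq_inv_mul]
  have hge : ∀ y x : ℝ, ¬ y < Y → 0 ≤ x → x ≤ Y⁻¹ * (y * x) := fun y x h hx => by
    rw [← mul_assoc]
    refine le_mul_of_one_le_left hx ?_
    rw [← div_eq_inv_mul, one_le_div hY0]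
    exact not_lt.1 h
  refine ⟨fun j => ?_, ?_⟩
  · have he := (hL.ee_bd k j).2.1
    rw [hdiv]
    refine LIniStab_diff hL hk g0 he b0 he
      (hL.mul _ _ (LIniStab_const _) (hL.mul _ _ hy hBB)) fun y hy => ?_
    have hb := B0 y
    by_cases h : y < Y
    · rw [(LIniStab_chi1 ((div_lt_one hY0).2 h)).1, mul_one, sub_self, abs_zero]
      positivity
    · refine le_trans ?_ (hge y _ h (by positivity))
      have e : P y * chi (y / Y) * ee k j y - P y * ee k j y =
          P y * ee k j y * (chi (y / Y) - 1) := by ring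
      have := LIniStab_chi01 (y / Y)
      rw [e, abs_mul, abs_mul]
      refine (mul_le_of_le_one_right (by positivity) (abs_le.2 ⟨by linarith, by linarith⟩)).trans ?_
      exact mul_le_mul (q0 y) (q2 j y) (abs_nonneg _) hb
  · rw [hdiv]
    unfold Qm
    rw [dG]
    refine LIniStab_diff hL hk (hL.mul _ _ hy g1) g1 (hL.mul _ _ hy b1) b1
      (hL.mul _ _ (LIniStab_const _) (hL.mul _ _ hy (hL.mul _ _ hy
        (hL.mul _ _ (LIniStab_const ((1 + C) ^ 2)) hBB)))) fun y hy => ?_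
    beta_reduce
    have hb := B0 y
    by_cases h : y < Y
    · obtain ⟨e1, e2⟩ := LIniStab_chi1 ((div_lt_one hY0).2 h)
      rw [e1, e2, mul_one, zero_mul, mul_zero, add_zero, sub_self, abs_zero]
      positivity
    · refine le_trans ?_ (hge y _ h (by positivity))
      have a1 : |deriv P y * chi (y / Y) + P y * (deriv chi (y / Y) * (1 / Y))| ≤
          (1 + C) * B y := by
        refine (abs_add_le _ _).trans ?_
        rw [abs_mul, abs_mul (P y), abs_of_nonneg (LIniStab_chi01 _).1]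
        have t1 := (mul_le_of_le_one_right (abs_nonneg _) (LIniStab_chi01 (y / Y)).2).trans (q1 y)
        have t2 := mul_le_mul (q0 y) (c2 y) (abs_nonneg _) hb
        linarith
      have a2 : |deriv P y| ≤ (1 + C) * B y := (q1 y).trans (by nlinarith)
      generalize deriv P y * chi (y / Y) + P y * (deriv chi (y / Y) * (1 / Y)) = u at a1
      generalize deriv P y = v at a2
      have u2 := sq_le_sq' (abs_le.1 a1).1 (abs_le.1 a1).2
      have v2 := sq_le_sq' (abs_le.1 a2).1 (abs_le.1 a2).2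
      have e : y * u * u - y * v * v = y * (u ^ 2 - v ^ 2) := by ring
      rw [e, abs_mul, abs_of_pos hy]
      refine mul_le_mul_of_nonneg_left (abs_le.2 ⟨?_, ?_⟩) hy.le
      · nlinarith [sq_nonneg u]
      · nlinarith [sq_nonneg v]

lemma LIniStab_cut (hL : LBasicStmt) {k : ℕ} (hk : 1 ≤ k) : ∃ K : ℝ, 0 < K ∧ ∀ Y ≥ 1,
    ∀ c : Fin 4 → ℝ, (∀ j, |c j| ≤ 1) →
      (∀ j, |am k (fun y => (∑ j, c j * ee k j y) * chi (y / Y)) j - c j| ≤ K / Y) ∧
      |Qm k (fun y => (∑ j, c j * ee k j y) * chi (y / Y)) - ∑ j : Fin 4, (j : ℕ) * c j ^ 2| ≤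
        K / Y := by
  obtain ⟨C, hC0, hC⟩ := LIniStab_chid
  have e0 := fun j => (hL.ee_bd k j).1
  obtain ⟨B, hB, hB0, hB1⟩ : ∃ B : ℝ → ℝ, Bd B ∧ (∀ y, ∑ j, (1 + ee k j y * ee k j y) ≤ B y) ∧
      ∀ y, ∑ j, (1 + deriv (ee k j) y * deriv (ee k j) y) ≤ B y := by
    have p : ∀ f : Fin 4 → ℝ, 0 ≤ ∑ j, (1 + f j * f j) := fun f =>
      Finset.sum_nonneg fun j _ => by nlinarith [mul_self_nonneg (f j)]
    refine ⟨_, LIniStab_add hL
      (LIniStab_sum hL fun j => LIniStab_add hL (LIniStab_const 1)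
        (hL.mul _ _ (hL.ee_bd k j).2.1 (hL.ee_bd k j).2.1))
      (LIniStab_sum hL fun j => LIniStab_add hL (LIniStab_const 1)
        (hL.mul _ _ (hL.ee_bd k j).2.2.1 (hL.ee_bd k j).2.2.1)), fun y => ?_, fun y => ?_⟩
    · exact le_add_of_nonneg_right (p fun j => deriv (ee k j) y)
    · exact le_add_of_nonneg_left (p fun j => ee k j y)
  refine ⟨|∫ y in Ioi (0 : ℝ), y * (B y * B y) * wt k y| +
    |∫ y in Ioi (0 : ℝ), y * (y * ((1 + C) ^ 2 * (B y * B y))) * wt k y| + 1, by positivity,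
    fun Y hY c hc => ?_⟩
  have hY0 : 0 < Y := by linarith
  obtain ⟨p1, p2⟩ := LIniStab_pol hL hk c
  have d0 := LIniStab_dsum (fun j => (e0 j).differentiable (by simp)) c
  have b0 := LIniStab_sum hL fun j => hL.mul _ _ (LIniStab_const (c j)) (hL.ee_bd k j).2.1
  have b1 := LIniStab_sum hL fun j => hL.mul _ _ (LIniStab_const (c j)) (hL.ee_bd k j).2.2.1
  have dP : Differentiable ℝ fun y => ∑ j, c j * ee k j y :=
    (ContDiff.sum fun j _ => contDiff_const.mul (e0 j)).differentiable (by simp)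
  have q0 : ∀ y, |∑ j, c j * ee k j y| ≤ B y := fun y => (LIniStab_lin hc).trans (hB0 y)
  have q1 : ∀ y, |deriv (fun y => ∑ j, c j * ee k j y) y| ≤ B y := fun y => by
    rw [d0]; exact (LIniStab_lin hc).trans (hB1 y)
  have q2 : ∀ j y, |ee k j y| ≤ B y := fun j y => (LIniStab_abs _).trans
    ((Finset.single_le_sum (f := fun j => 1 + ee k j y * ee k j y)
      (fun j _ => by nlinarith [mul_self_nonneg (ee k j y)]) (Finset.mem_univ j)).trans (hB0 y))
  rw [← d0] at b1
  obtain ⟨r1, r2⟩ := LIniStab_gen hL hk hC0 hC hY hB b0 b1 dP q0 q1 q2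
  rw [p2] at r2
  refine ⟨fun j => ?_, r2.trans (div_le_div_of_nonneg_right ?_ hY0.le)⟩
  · have := r1 j
    rw [p1 j] at this
    refine this.trans (div_le_div_of_nonneg_right ((le_abs_self _).trans ?_) hY0.le)
    rw [add_assoc]
    exact le_add_of_nonneg_right (by positivity)
  · refine (le_abs_self _).trans ?_
    rw [add_right_comm]
    exact le_add_of_nonneg_left (by positivity)

theorem iniMode (hL : LBasicStmt) (hP : PolyStmt) : IniModeStmt := by
  intro k hk ε hε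
  obtain ⟨K, hK, h⟩ := LIniStab_cut hL (show 1 ≤ k by omega)
  refine ⟨1 + K + K * 19 / ε, by positivity, fun Y hY α hα => ?_⟩
  have h19 : 0 < K * 19 / ε := by positivity
  have hY0 : 0 < Y := by linarith
  have k1 : K / Y ≤ 1 := (div_le_one hY0).2 (by linarith)
  have k2 : 19 * (K / Y) ≤ ε := by
    have : K * 19 / ε ≤ Y := by linarith
    rw [div_le_iff₀ hε] at this
    rw [← mul_div_assoc, div_le_iff₀ hY0]
    linarith
  have k0 : 0 < K / Y := by positivity
  have hc : ∀ j, |(![α 0, α 1, α 2, 1] : Fin 4 → ℝ) j| ≤ 1 := fun j => by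
    fin_cases j
    · exact hα 0
    · exact hα 1
    · exact hα 2
    · simp
  obtain ⟨h1, h2⟩ := h Y (by linarith) _ hc
  have e : (fun y => (∑ j, (![α 0, α 1, α 2, 1] : Fin 4 → ℝ) j * ee k j y) * chi (y / Y)) =
      fun y => pol k α y * chi (y / Y) := by
    funext y
    simp [pol, Fin.sum_univ_four]
  rw [e] at h1 h2
  have hs : ∀ j, |am k (fun y => pol k α y * chi (y / Y)) j ^ 2 -
      (![α 0, α 1, α 2, 1] : Fin 4 → ℝ) j ^ 2| ≤ 3 * (K / Y) := fun j =>
    (LIniStab_sq (h1 j) (hc j)).trans (by nlinarith)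
  refine ⟨(h1 0).trans (by linarith), (h1 1).trans (by linarith), (h1 2).trans (by linarith),
    (h1 3).trans (by linarith), ?_⟩
  have s1 := (abs_le.1 (hs 1)).1
  have s2 := (abs_le.1 (hs 2)).1
  have s3 := (abs_le.1 (hs 3)).1
  have s4 := (abs_le.1 h2).2
  simp only [SS, Fin.sum_univ_four, Fin.val_zero, Fin.val_one, Fin.val_two,
    show ((3 : Fin 4) : ℕ) = 3 from rfl] at s4 ⊢
  simp only [Matrix.cons_val_zero, Matrix.cons_val_one, Matrix.cons_val] at s1 s2 s3 s4
  push_cast at s4 ⊢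
  linarith

end Vale.Agent.P244
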