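import Vale.Agent.P244.StmL

/-! P244: a second order differential inequality forces a large value. -/

open Set Filter
open scoped ContDiff Topology

namespace Vale.Agent.P244

/-- The second derivative test. -/
theorem LInterp_second {q q' : ℝ → ℝ} {x c : ℝ} (h1 : ∀ᶠ y in 𝓝 x, HasDerivAt q (q' y) y)
    (h2 : HasDerivAt q' c x) (hm : IsLocalMax q x) : q' x = 0 ∧ c ≤ 0 := by
  have h0 : q' x = 0 := hm.hasDerivAt_eq_zero h1.self_of_nhds
  refine ⟨h0, ?_⟩
  by_contra hc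
  have e1 : deriv q =ᶠ[𝓝 x] q' := h1.mono fun y hy => hy.deriv
  have e2 : deriv (deriv q) x = c := by rw [e1.deriv_eq, h2.deriv]
  have h3 := isLocalMin_of_deriv_deriv_pos (f := q) (x₀ := x) (by rw [e2]; exact not_le.1 hc)
    (by rw [e1.self_of_nhds, h0]) h1.self_of_nhds.continuousAt
  have h4 : q =ᶠ[𝓝 x] fun _ => q x := (hm.and h3).mono fun y hy => le_antisymm hy.1 hy.2
  have h5 : deriv q =ᶠ[𝓝 x] fun _ => 0 := by
    filter_upwards [h4.eventuallyEq_nhds] with y hy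
    rw [hy.deriv_eq, deriv_const]
  rw [h5.deriv_eq, deriv_const] at e2
  exact hc e2.ge

/-- The arithmetic at an interior maximum. -/
theorem LInterp_int {c C τ h k l a b e g0 g1 g2 c' s : ℝ} (hC : 0 < C) (hτ : 0 < τ)
    (hh : 0 < h) (hk : k * (2 * C * τ) = h) (hl : l * (2 * C) ≤ c) (hc' : c' * (2 * C) ≤ 1)
    (ha : c * τ ≤ a) (ha' : a ≤ C * τ) (hb : |b| ≤ C) (he : |e| ≤ C / τ)
    (hg0 : |g0| < c' * h * τ) (hs : |s| ≤ l * τ) (hg1 : g1 - k / 2 * s = 0) (hg2 : g2 - k / 2 ≤ 0)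
    (hc : 0 < c) (H : h ≤ a * g2 + b * g1 + e * g0) : False := by
  have hk0 : 0 < k := by
    by_contra h1
    have : k * (2 * C * τ) ≤ 0 := mul_nonpos_of_nonpos_of_nonneg (not_lt.1 h1) (by positivity)
    linarith
  have ha0 : 0 < a := lt_of_lt_of_le (by positivity) ha
  have h1 : e * g0 ≤ h / 2 := by
    have h2 : e * g0 ≤ C / τ * (c' * h * τ) := by
      refine (le_abs_self _).trans ?_
      rw [abs_mul]
      exact mul_le_mul he hg0.le (abs_nonneg _) (by positivity)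
    have h3 : C / τ * (c' * h * τ) = c' * (2 * C) * (h / 2) := by field_simp
    have h4 : c' * (2 * C) * (h / 2) ≤ 1 * (h / 2) :=
      mul_le_mul_of_nonneg_right hc' (by positivity)
    linarith
  have h2 : b * g1 ≤ k / 4 * (c * τ) := by
    have h3 : g1 = k / 2 * s := by linarith
    have h4 : b * g1 ≤ C * (k / 2 * (l * τ)) := by
      refine (le_abs_self _).trans ?_
      rw [abs_mul, h3, abs_mul, abs_of_pos (by positivity : 0 < k / 2)]
      exact mul_le_mul hb (mul_le_mul_of_nonneg_left hs (by positivity)) (by positivity) hC.le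
    have h5 : C * (k / 2 * (l * τ)) = l * (2 * C) * (k / 4 * τ) := by ring
    have h6 : l * (2 * C) * (k / 4 * τ) ≤ c * (k / 4 * τ) :=
      mul_le_mul_of_nonneg_right hl (by positivity)
    linarith
  have h3 : a * g2 ≤ C * τ * (k / 2) :=
    (mul_le_mul_of_nonneg_left (by linarith : g2 ≤ k / 2) ha0.le).trans
      (mul_le_mul_of_nonneg_right ha' (by positivity))
  have h4 : k / 4 * (c * τ) ≤ k / 4 * (C * τ) :=
    mul_le_mul_of_nonneg_left (ha.trans ha') (by positivity)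
  have h5 : 0 < k * (C * τ) := by positivity
  nlinarith

/-- The arithmetic at an end point. -/
theorem LInterp_end {C τ h k l g0 g1 c' : ℝ} (hC : 0 < C) (hτ : 0 < τ)
    (hh : 0 < h) (hk : k * (2 * C * τ) = h) (hc' : c' * (16 * C) ≤ l ^ 2)
    (hg0 : |g0| < c' * h * τ) (hg1 : |g1| < c' * h * τ)
    (H : g0 ≤ g1 - k / 4 * (l * τ) ^ 2) : False := by
  have h1 := (abs_lt.1 hg0).1
  have h2 := (abs_lt.1 hg1).2
  have h3 : k / 4 * (l * τ) ^ 2 * (8 * C) = l ^ 2 * (h * τ) := by rw [← hk]; ring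
  have h4 : c' * (16 * C) * (h * τ) ≤ l ^ 2 * (h * τ) :=
    mul_le_mul_of_nonneg_right hc' (by positivity)
  have h5 : k / 4 * (l * τ) ^ 2 * (8 * C) < 2 * (c' * h * τ) * (8 * C) :=
    mul_lt_mul_of_pos_right (by linarith) (by positivity)
  nlinarith

theorem interp : InterpStmt := by
  intro c hc C hC l hl
  obtain ⟨l', hl0, hl1, hl2⟩ : ∃ l' : ℝ, 0 < l' ∧ l' ≤ l / 2 ∧ l' * (2 * C) ≤ c :=
    ⟨min (l / 2) (c / (2 * C)), by positivity, min_le_left _ _,
      (le_div_iff₀ (by positivity)).1 (min_le_right _ _)⟩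
  obtain ⟨c', hc0, hc1, hc2⟩ : ∃ c' : ℝ, 0 < c' ∧ c' * (2 * C) ≤ 1 ∧ c' * (16 * C) ≤ l' ^ 2 :=
    ⟨min (1 / (2 * C)) (l' ^ 2 / (16 * C)), by positivity,
      (le_div_iff₀ (by positivity)).1 (min_le_left _ _),
      (le_div_iff₀ (by positivity)).1 (min_le_right _ _)⟩
  refine ⟨c', hc0, fun g a b e τ h xs hg hτ hh hxs hxe H => ?_⟩
  have hlτ : 0 < l * τ := by positivity
  have hlτ' : 0 < l' * τ := by positivity
  rcases hh.eq_or_lt with rfl | hh
  · exact ⟨xs, ⟨le_rfl, by linarith⟩, by simp⟩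
  by_contra hcon
  push Not at hcon
  obtain ⟨k, hk⟩ : ∃ k : ℝ, k * (2 * C * τ) = h := ⟨h / (2 * C * τ), by field_simp⟩
  have hsub : ∀ x ∈ Icc xs (xs + 2 * (l' * τ)), x ∈ Icc xs (xs + l * τ) := fun x hx =>
    ⟨hx.1, hx.2.trans (by nlinarith)⟩
  have hI : ∀ x ∈ Icc xs (xs + l * τ), x ∈ Ioo (0 : ℝ) 1 := fun x hx =>
    ⟨hxs.trans_le hx.1, hx.2.trans_lt hxe⟩
  have hq : ∀ y ∈ Ioo (0 : ℝ) 1, HasDerivAt (fun x => g x - k / 4 * (x - (xs + l' * τ)) ^ 2)
      (d1 g y - k / 2 * (y - (xs + l' * τ))) y := by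
    intro y hy
    refine ((hg.has hy).sub ((((hasDerivAt_id y).sub_const (xs + l' * τ)).pow 2).const_mul
      (k / 4))).congr_deriv ?_
    simp only [id]
    ring
  obtain ⟨x, hx, hmax⟩ := (isCompact_Icc (a := xs) (b := xs + 2 * (l' * τ))).exists_isMaxOn
    ⟨xs, le_rfl, by linarith⟩ (f := fun x => g x - k / 4 * (x - (xs + l' * τ)) ^ 2)
    fun y hy => (hq y (hI y (hsub y hy))).continuousAt.continuousWithinAt
  have hm : xs + l' * τ ∈ Icc xs (xs + 2 * (l' * τ)) := ⟨by linarith, by linarith⟩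
  have hmx : g (xs + l' * τ) - k / 4 * (xs + l' * τ - (xs + l' * τ)) ^ 2 ≤
      g x - k / 4 * (x - (xs + l' * τ)) ^ 2 := hmax hm
  rw [sub_self, zero_pow two_ne_zero, mul_zero, sub_zero] at hmx
  rcases hx.1.eq_or_lt with h1 | h1
  · refine LInterp_end hC hτ hh hk hc2 (hcon _ (hsub _ hm)) (hcon _ (hsub _ hx)) (hmx.trans_eq ?_)
    rw [← h1]; ring
  rcases hx.2.eq_or_lt with h2 | h2
  · refine LInterp_end hC hτ hh hk hc2 (hcon _ (hsub _ hm)) (hcon _ (hsub _ hx)) (hmx.trans_eq ?_)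
    rw [h2]; ring
  have hx' := hI x (hsub x hx)
  have h3 : HasDerivAt (fun y => d1 g y - k / 2 * (y - (xs + l' * τ))) (d1 (d1 g) x - k / 2) x := by
    refine ((hg.d1.has hx').sub (((hasDerivAt_id x).sub_const (xs + l' * τ)).const_mul
      (k / 2))).congr_deriv ?_
    ring
  obtain ⟨h4, h5⟩ := LInterp_second
    (Eventually.mono (Ioo_mem_nhds hx'.1 hx'.2) fun y hy => hq y hy) h3
    (hmax.isLocalMax (Icc_mem_nhds h1 h2))
  obtain ⟨a1, a2, a3, a4, a5⟩ := H x (hsub x hx)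
  exact LInterp_int hC hτ hh hk hl2 hc1 a1 a2 a3 a4 (hcon x (hsub x hx))
    (abs_le.2 ⟨by linarith, by linarith⟩) h4 h5 hc a5

end Vale.Agent.P244
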