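import Vale.Agent.P244.StmL

/-! P244: the interior Lipschitz estimate, by doubling of variables. -/

open Set Filter
open scoped ContDiff Topology

namespace Vale.Agent.P244

theorem LLip_left {g : ℝ → ℝ} {c a b : ℝ} {S : Set ℝ} (h : HasDerivWithinAt g c S b)
    (hab : a < b) (hS : Ioo a b ⊆ S) (hle : ∀ s ∈ Ioo a b, g s ≤ g b) : 0 ≤ c := by
  have h1 := (hasDerivWithinAt_iff_tendsto_slope' (by simp)).1 (h.mono hS)
  rw [nhdsWithin_Ioo_eq_nhdsLT hab] at h1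
  refine ge_of_tendsto h1 ?_
  filter_upwards [Ioo_mem_nhdsLT hab] with s h3
  rw [slope_def_field]
  exact div_nonneg_of_nonpos (sub_nonpos.2 (hle s h3)) (sub_nonpos.2 h3.2.le)

theorem LLip_second {g g' : ℝ → ℝ} {q : ℝ} (hg : ∀ᶠ s in 𝓝 (0 : ℝ), HasDerivAt g (g' s) s)
    (hq : HasDerivAt g' q 0) (hm : IsLocalMax g 0) : g' 0 = 0 ∧ q ≤ 0 := by
  have h0 : g' 0 = 0 := hm.hasDerivAt_eq_zero hg.self_of_nhds
  refine ⟨h0, ?_⟩
  by_contra hc
  have h1 : deriv g =ᶠ[𝓝 0] g' := hg.mono fun y hy => hy.deriv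
  have h2 : deriv (deriv g) 0 = q := by rw [h1.deriv_eq, hq.deriv]
  have h3 := isLocalMin_of_deriv_deriv_pos (f := g) (x₀ := 0) (by rw [h2]; exact not_le.1 hc)
    (by rw [h1.self_of_nhds, h0]) hg.self_of_nhds.continuousAt
  have h4 : g =ᶠ[𝓝 0] fun _ => g 0 := (hm.and h3).mono fun y hy => le_antisymm hy.1 hy.2
  have h5 : deriv g =ᶠ[𝓝 0] fun _ => 0 := by
    filter_upwards [h4.eventuallyEq_nhds] with y hy
    rw [hy.deriv_eq, deriv_const]
  rw [h5.deriv_eq, deriv_const] at h2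
  exact hc h2.ge

theorem LLip_lin (p a s : ℝ) : HasDerivAt (fun s : ℝ => p + a * s) a s := by
  simpa using ((hasDerivAt_id s).const_mul a).const_add p

/-- first and second order conditions at an interior maximum -/
theorem LLip_dir {f f' f'' : ℝ → ℝ} {xs L r0 La Q K y r : ℝ}
    (h1 : ∀ x ∈ Icc (xs - L) (xs + L + r0), HasDerivAt f (f' x) x)
    (h2 : ∀ x ∈ Icc (xs - L) (xs + L + r0), HasDerivAt f' (f'' x) x)
    (hy : y ∈ Ioo (xs - L) (xs + L)) (hr : r ∈ Ioo 0 r0)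
    (hm : ∀ y' ∈ Icc (xs - L) (xs + L), ∀ r' ∈ Icc 0 r0,
      f (y' + r') - f y' - (La * r' - Q * r' ^ 2) - K * (y' - xs) ^ 2 ≤
        f (y + r) - f y - (La * r - Q * r ^ 2) - K * (y - xs) ^ 2) (a b : ℝ) :
    a * f' (y + r) + b * f' y - (a + b) * (La - 2 * Q * r) + 2 * K * b * (y - xs) = 0 ∧
      a ^ 2 * f'' (y + r) - b ^ 2 * f'' y + 2 * Q * (a + b) ^ 2 - 2 * K * b ^ 2 ≤ 0 := by
  have e1 : ∀ᶠ s in 𝓝 (0 : ℝ), y + -b * s ∈ Ioo (xs - L) (xs + L) :=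
    (LLip_lin y (-b) 0).continuousAt.eventually (isOpen_Ioo.mem_nhds (by simpa using hy))
  have e2 : ∀ᶠ s in 𝓝 (0 : ℝ), r + (a + b) * s ∈ Ioo 0 r0 :=
    (LLip_lin r (a + b) 0).continuousAt.eventually (isOpen_Ioo.mem_nhds (by simpa using hr))
  have m1 : ∀ s, y + -b * s ∈ Ioo (xs - L) (xs + L) → r + (a + b) * s ∈ Ioo 0 r0 →
      y + -b * s ∈ Icc (xs - L) (xs + L + r0) ∧ y + r + a * s ∈ Icc (xs - L) (xs + L + r0) :=
    fun s p q => ⟨⟨p.1.le, by linarith [p.2, hr.1, hr.2]⟩,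
      ⟨by linarith [p.1, q.1], by linarith [p.2, q.2]⟩⟩
  have m0 := m1 0 (by simpa using hy) (by simpa using hr)
  have key := LLip_second
    (g := fun s => f (y + r + a * s) - f (y + -b * s) -
      (La * (r + (a + b) * s) - Q * (r + (a + b) * s) ^ 2) - K * (y + -b * s - xs) ^ 2)
    (g' := fun s => f' (y + r + a * s) * a - f' (y + -b * s) * -b -
      (La * (a + b) - Q * (2 * (r + (a + b) * s) * (a + b))) - K * (2 * (y + -b * s - xs) * -b))
    (q := f'' (y + r + a * 0) * a * a - f'' (y + -b * 0) * -b * -b -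
      (0 - Q * (2 * (a + b) * (a + b))) - K * (2 * -b * -b)) ?_ ?_ ?_
  · simp only [mul_zero, add_zero] at key
    exact ⟨by linarith [key.1], by linarith [key.2]⟩
  · filter_upwards [e1, e2] with s p q
    obtain ⟨p1, p2⟩ := m1 s p q
    have d1 := (h1 _ p2).comp s (LLip_lin (y + r) a s)
    have d2 := (h1 _ p1).comp s (LLip_lin y (-b) s)
    have d3 := LLip_lin r (a + b) s
    have d4 := (LLip_lin y (-b) s).sub_const xs
    have d5 := ((d1.sub d2).sub ((d3.const_mul La).sub ((d3.pow 2).const_mul Q))).sub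
      ((d4.pow 2).const_mul K)
    refine d5.congr_deriv ?_
    norm_num
  · have d1 := ((h2 _ m0.2).comp 0 (LLip_lin (y + r) a 0)).mul_const a
    have d2 := ((h2 _ m0.1).comp 0 (LLip_lin y (-b) 0)).mul_const (-b)
    have d3 := (((LLip_lin r (a + b) 0).const_mul 2).mul_const (a + b)).const_mul Q
    have d4 := ((((LLip_lin y (-b) 0).sub_const xs).const_mul 2).mul_const (-b)).const_mul K
    exact ((d1.sub d2).sub ((hasDerivAt_const (0 : ℝ) (La * (a + b))).sub d3)).sub d4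
  · filter_upwards [e1, e2] with s p q
    have := hm _ (Ioo_subset_Icc_self p) _ (Ioo_subset_Icc_self q)
    have e : y + -b * s + (r + (a + b) * s) = y + r + a * s := by ring
    rw [e] at this
    simpa only [mul_zero, add_zero] using this

/-- the one-sided estimate -/
theorem LLip_core {u ut ux uxx A B : Fn} {t0 tb xs L r0 Q K Kt lo hi C M E : ℝ} {S : Set ℝ}
    (ht : t0 ≤ tb) (hS : Icc t0 tb ⊆ S) (hL : 0 ≤ L) (hr0 : 0 ≤ r0) (hQ : 0 ≤ Q) (hK : 0 ≤ K)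
    (hKt : 0 ≤ Kt) (hlo : 0 ≤ lo) (hC : 0 ≤ C)
    (b1 : 2 * M ≤ Q * r0 ^ 2) (b2 : 2 * M ≤ K * L ^ 2) (b3 : 2 * M ≤ Kt * (tb - t0))
    (b4 : Kt + 2 * E + 2 * K * hi + 4 * C * (Q * r0) + 2 * C * (K * L) < 4 * Q * lo)
    (hc : ContinuousOn (fun p : ℝ × ℝ => u p.1 p.2) (Icc t0 tb ×ˢ Icc (xs - L) (xs + L + r0)))
    (H : ∀ t ∈ Icc t0 tb, ∀ x ∈ Icc (xs - L) (xs + L + r0),
      HasDerivAt (u t) (ux t x) x ∧ HasDerivAt (ux t) (uxx t x) x ∧
      HasDerivWithinAt (fun s => u s x) (ut t x) S t ∧ lo ≤ A t x ∧ A t x ≤ hi ∧ |B t x| ≤ C ∧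
      |u t x| ≤ M ∧ |ut t x - A t x * uxx t x - B t x * ux t x| ≤ E) :
    ∀ r ∈ Icc 0 r0, u tb (xs + r) - u tb xs ≤ 2 * Q * r0 * r := by
  intro ρ hρ
  by_contra hn
  push Not at hn
  have mem : ∀ y ∈ Icc (xs - L) (xs + L), ∀ r ∈ Icc 0 r0,
      y ∈ Icc (xs - L) (xs + L + r0) ∧ y + r ∈ Icc (xs - L) (xs + L + r0) := fun y p r q =>
    ⟨⟨p.1, by linarith [p.2]⟩, ⟨by linarith [p.1, q.1], by linarith [p.2, q.2]⟩⟩
  have hW : ContinuousOn (fun p : ℝ × ℝ × ℝ => u p.1 (p.2.1 + p.2.2) - u p.1 p.2.1 -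
      (2 * Q * r0 * p.2.2 - Q * p.2.2 ^ 2) - K * (p.2.1 - xs) ^ 2 - Kt * (tb - p.1))
      (Icc t0 tb ×ˢ Icc (xs - L) (xs + L) ×ˢ Icc 0 r0) := by
    refine (((ContinuousOn.sub ?_ ?_).sub (by fun_prop)).sub (by fun_prop)).sub (by fun_prop)
    · exact hc.comp (f := fun p : ℝ × ℝ × ℝ => (p.1, p.2.1 + p.2.2)) (by fun_prop)
        fun p hp => ⟨hp.1, (mem _ hp.2.1 _ hp.2.2).2⟩
    · exact hc.comp (f := fun p : ℝ × ℝ × ℝ => (p.1, p.2.1)) (by fun_prop)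
        fun p hp => ⟨hp.1, (mem _ hp.2.1 _ hp.2.2).1⟩
  have hxs : xs ∈ Icc (xs - L) (xs + L) := ⟨by linarith, by linarith⟩
  obtain ⟨⟨t, y, r⟩, ⟨h1, h2, h3⟩, hmax⟩ :=
    (isCompact_Icc.prod (isCompact_Icc.prod isCompact_Icc)).exists_isMaxOn
      ⟨(tb, xs, ρ), right_mem_Icc.2 ht, hxs, hρ⟩ hW
  simp only at h1 h2 h3
  have hm : ∀ t' ∈ Icc t0 tb, ∀ y' ∈ Icc (xs - L) (xs + L), ∀ r' ∈ Icc 0 r0,
      u t' (y' + r') - u t' y' - (2 * Q * r0 * r' - Q * r' ^ 2) - K * (y' - xs) ^ 2 -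
        Kt * (tb - t') ≤
      u t (y + r) - u t y - (2 * Q * r0 * r - Q * r ^ 2) - K * (y - xs) ^ 2 - Kt * (tb - t) :=
    fun t' p y' q r' w => hmax (show (t', y', r') ∈ _ from ⟨p, q, w⟩)
  have hpos : 0 < u t (y + r) - u t y - (2 * Q * r0 * r - Q * r ^ 2) - K * (y - xs) ^ 2 -
      Kt * (tb - t) := by
    have := hm tb (right_mem_Icc.2 ht) xs hxs ρ hρ
    have h4 : 0 ≤ Q * ρ ^ 2 := by positivity
    simp only [sub_self, mul_zero, sub_zero, ne_eq, OfNat.ofNat_ne_zero, not_false_eq_true,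
      zero_pow] at this
    linarith
  obtain ⟨my, mx⟩ := mem y h2 r h3
  obtain ⟨-, -, tx, ax, -, bx, mux, ex⟩ := H t h1 _ mx
  obtain ⟨-, -, ty, ay, ay', by', muy, ey⟩ := H t h1 _ my
  have p1 : 0 ≤ 2 * Q * r0 * r - Q * r ^ 2 := by
    have : 0 ≤ Q * r * (2 * r0 - r) := mul_nonneg (mul_nonneg hQ h3.1) (by linarith [h3.2])
    linarith
  have p2 : 0 ≤ K * (y - xs) ^ 2 := by positivity
  have p3 : 0 ≤ Kt * (tb - t) := mul_nonneg hKt (sub_nonneg.2 h1.2)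
  have p4 : u t (y + r) - u t y ≤ 2 * M := by linarith [(abs_le.1 mux).2, (abs_le.1 muy).1]
  have hr : r ∈ Ioo 0 r0 := by
    refine ⟨lt_of_le_of_ne h3.1 fun e => ?_, lt_of_le_of_ne h3.2 fun e => ?_⟩
    · subst e
      simp only [add_zero, sub_self] at hpos
      linarith
    · subst e
      linarith
  have hy : y ∈ Ioo (xs - L) (xs + L) := by
    refine ⟨lt_of_le_of_ne h2.1 fun e => ?_, lt_of_le_of_ne h2.2 fun e => ?_⟩
    · have : K * (y - xs) ^ 2 = K * L ^ 2 := by rw [← e]; ring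
      linarith
    · have : K * (y - xs) ^ 2 = K * L ^ 2 := by rw [e]; ring
      linarith
  have htt : t0 < t := lt_of_le_of_ne h1.1 fun e => by
    subst e
    linarith
  have dir := LLip_dir (La := 2 * Q * r0) (Q := Q) (K := K) (fun x hx => (H t h1 x hx).1)
    (fun x hx => (H t h1 x hx).2.1) hy hr fun y' q r' w => by linarith [hm t h1 y' q r' w]
  have f1 := (dir 1 0).1
  have f2 := (dir 0 1).1
  have f3 := (dir √(A t (y + r)) √(A t y)).2
  have s1 := Real.sq_sqrt (hlo.trans ax)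
  have s2 := Real.sq_sqrt (hlo.trans ay)
  have s3 : 2 * lo ≤ (√(A t (y + r)) + √(A t y)) ^ 2 := by
    have : 0 ≤ √(A t (y + r)) * √(A t y) := by positivity
    linarith [add_sq √(A t (y + r)) √(A t y)]
  rw [s1, s2] at f3
  have f4 : 0 ≤ ut t (y + r) - ut t y - Kt * (0 - 1) := by
    refine LLip_left (g := fun s => u s (y + r) - u s y - Kt * (tb - s)) ((tx.sub ty).sub
      (((hasDerivAt_const t tb).sub (hasDerivAt_id t)).const_mul Kt).hasDerivWithinAt) htt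
      (fun s hs => hS ⟨hs.1.le, hs.2.le.trans h1.2⟩) fun s hs => ?_
    have := hm s ⟨hs.1.le, hs.2.le.trans h1.2⟩ y h2 r h3
    show u s (y + r) - u s y - Kt * (tb - s) ≤ u t (y + r) - u t y - Kt * (tb - t)
    linarith
  have q1 : 0 ≤ Q * r := mul_nonneg hQ h3.1
  have q2 : Q * r ≤ Q * r0 := mul_le_mul_of_nonneg_left h3.2 hQ
  have q3 : K * (y - xs) ≤ K * L := mul_le_mul_of_nonneg_left (by linarith [h2.2]) hK
  have q4 : K * -L ≤ K * (y - xs) := mul_le_mul_of_nonneg_left (by linarith [h2.1]) hK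
  have g1 : |ux t (y + r)| ≤ 2 * (Q * r0) := abs_le.2 ⟨by linarith, by linarith⟩
  have g2 : |ux t y| ≤ 2 * (Q * r0) + 2 * (K * L) := abs_le.2 ⟨by linarith, by linarith⟩
  have g3 : |B t (y + r) * ux t (y + r)| ≤ C * (2 * (Q * r0)) := by
    rw [abs_mul]; exact mul_le_mul bx g1 (abs_nonneg _) hC
  have g4 : |B t y * ux t y| ≤ C * (2 * (Q * r0) + 2 * (K * L)) := by
    rw [abs_mul]; exact mul_le_mul by' g2 (abs_nonneg _) hC
  have g5 : Q * (2 * lo) ≤ Q * (√(A t (y + r)) + √(A t y)) ^ 2 := mul_le_mul_of_nonneg_left s3 hQ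
  have g6 : K * A t y ≤ K * hi := mul_le_mul_of_nonneg_left ay' hK
  linarith [(abs_le.1 ex).2, (abs_le.1 ey).1, (abs_le.1 g3).2, (abs_le.1 g4).1]

theorem lip : LipStmt := by
  intro c hc C hC
  obtain ⟨c1, h1, h2, h3⟩ : ∃ c1 : ℝ, 0 < c1 ∧ c1 ≤ c / 2 ∧ C * c1 ≤ c / 2 := by
    refine ⟨min (c / 2) (c / 2 / C), by positivity, min_le_left _ _, ?_⟩
    rw [mul_comm, ← le_div_iff₀ hC]
    exact min_le_right _ _
  obtain ⟨X, hX, hXe⟩ : ∃ X : ℝ, 0 < X ∧ X = 2 / c + 2 * C + 16 * C / c ^ 2 + 8 * C / c :=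
    ⟨_, by positivity, rfl⟩
  obtain ⟨N, hN, n1, n2⟩ : ∃ N : ℝ, 0 < N ∧ 2 ≤ N * c1 ^ 2 ∧ X ≤ N * c := by
    refine ⟨max (2 / c1 ^ 2) (X / c), lt_max_of_lt_left (by positivity), ?_, ?_⟩
    · rw [← div_le_iff₀ (by positivity)]; exact le_max_left _ _
    · rw [← div_le_iff₀ hc]; exact le_max_right _ _
  refine ⟨2 * N * c1, by positivity, ?_⟩
  intro T τ M tb xs u A B hT hτ hM hu t1 t2 x1 x2 H r hr
  have hcτ : 0 < c * τ := mul_pos hc hτ
  have hc1 : c1 * τ ≤ c / 2 * τ := mul_le_mul_of_nonneg_right h2 hτ.le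
  have hr' : r ∈ Icc 0 (c1 * τ) := by
    refine ⟨hr.1, hr.2.trans ?_⟩
    rw [div_le_iff₀ (by positivity)]
    have : 2 * τ ≤ N * c1 ^ 2 * τ := mul_le_mul_of_nonneg_right n1 hτ.le
    linarith
  have hS : Icc (tb - c * τ) tb ⊆ Icc 0 T := Icc_subset_Icc (by linarith) t2
  have hB : Icc (xs - c * τ / 2) (xs + c * τ / 2 + c1 * τ) ⊆ Icc (xs - c * τ) (xs + c * τ) :=
    Icc_subset_Icc (by linarith) (by linarith)
  have hO : Icc (xs - c * τ) (xs + c * τ) ⊆ Ioo 0 1 := Icc_subset_Ioo x1 x2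
  have hcont := hu.cont.mono (prod_mono hS ((hB.trans hO).trans Ioo_subset_Icc_self))
  have b1 : 2 * M ≤ N * M / τ ^ 2 * (c1 * τ) ^ 2 := by
    have e : N * M / τ ^ 2 * (c1 * τ) ^ 2 = N * c1 ^ 2 * M := by field_simp
    rw [e]
    exact mul_le_mul_of_nonneg_right n1 hM.le
  have b2 : 2 * M ≤ 8 * M / (c * τ) ^ 2 * (c * τ / 2) ^ 2 := le_of_eq (by field_simp; norm_num)
  have b3 : 2 * M ≤ 2 * M / (c * τ) * (tb - (tb - c * τ)) := le_of_eq (by
    rw [sub_sub_cancel]; field_simp)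
  have b4 : 2 * M / (c * τ) + 2 * (C * M / τ) + 2 * (8 * M / (c * τ) ^ 2) * (C * τ) +
      4 * C * (N * M / τ ^ 2 * (c1 * τ)) + 2 * C * (8 * M / (c * τ) ^ 2 * (c * τ / 2)) <
      4 * (N * M / τ ^ 2) * (c * τ) := by
    have e1 : 2 * M / (c * τ) + 2 * (C * M / τ) + 2 * (8 * M / (c * τ) ^ 2) * (C * τ) +
        4 * C * (N * M / τ ^ 2 * (c1 * τ)) + 2 * C * (8 * M / (c * τ) ^ 2 * (c * τ / 2)) =
        (X + 4 * (N * (C * c1))) * (M / τ) := by
      rw [hXe]; field_simp; ring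
    have e2 : 4 * (N * M / τ ^ 2) * (c * τ) = 4 * (N * c) * (M / τ) := by field_simp
    rw [e1, e2]
    have : N * (C * c1) ≤ N * (c / 2) := mul_le_mul_of_nonneg_left h3 hN.le
    exact mul_lt_mul_of_pos_right (by linarith) (div_pos hM hτ)
  have e : 2 * N * c1 * M * r / τ = 2 * (N * M / τ ^ 2) * (c1 * τ) * r := by field_simp
  have k1 := LLip_core (u := u) (ut := dt T u) (ux := dx u) (uxx := dx (dx u)) (A := A) (B := B)
    (by linarith) hS (by positivity) (by positivity) (by positivity) (by positivity)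
    (by positivity) hcτ.le hC.le b1 b2 b3 b4 hcont (fun t ht x hx => by
      obtain ⟨a1, a2, a3, a4, a5⟩ := H t ht x (hB hx)
      have hx' := hO (hB hx)
      exact ⟨hu.hasX (hS ht) hx', (hu.dx hT).hasX (hS ht) hx',
        hu.hasT (hS ht) (Ioo_subset_Icc_self hx'), a1, a2, a3, a4, a5⟩) r hr'
  have k2 := LLip_core (u := fun t x => -u t x) (ut := fun t x => -dt T u t x)
    (ux := fun t x => -dx u t x) (uxx := fun t x => -dx (dx u) t x) (A := A) (B := B)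
    (by linarith) hS (by positivity) (by positivity) (by positivity) (by positivity)
    (by positivity) hcτ.le hC.le b1 b2 b3 b4 hcont.neg (fun t ht x hx => by
      obtain ⟨a1, a2, a3, a4, a5⟩ := H t ht x (hB hx)
      have hx' := hO (hB hx)
      refine ⟨(hu.hasX (hS ht) hx').neg, ((hu.dx hT).hasX (hS ht) hx').neg,
        (hu.hasT (hS ht) (Ioo_subset_Icc_self hx')).neg, a1, a2, a3, by rwa [abs_neg], ?_⟩
      have e' : -dt T u t x - A t x * -dx (dx u) t x - B t x * -dx u t x = -box T A B u t x := by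
        unfold box; ring
      rwa [e', abs_neg]) r hr'
  rw [e]
  exact abs_le.2 ⟨by linarith, k1⟩

end Vale.Agent.P244
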