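import Vale.Agent.P244.StmL

/-! P244: time derivatives of the Laguerre modes. -/

open Set Filter MeasureTheory
open scoped ContDiff Topology

namespace Vale.Agent.P244

/-- Differentiation under the integral sign within a convex set. -/
theorem LModeDer_int {μ : Measure ℝ} {J : Set ℝ} (hJ : Convex ℝ J) {K K' : ℝ → ℝ → ℝ} {b : ℝ → ℝ}
    {t : ℝ} (ht : t ∈ J) (hi : ∀ s ∈ J, Integrable (K s) μ) (hb : Integrable b μ)
    (hd : ∀ᵐ y ∂μ, ∀ s ∈ J, HasDerivWithinAt (fun r => K r y) (K' s y) J s ∧ ‖K' s y‖ ≤ b y) :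
    HasDerivWithinAt (fun s => ∫ y, K s y ∂μ) (∫ y, K' t y ∂μ) J t := by
  rw [hasDerivWithinAt_iff_tendsto_slope]
  have h1 : Tendsto (fun s => ∫ y, slope (fun r => K r y) t s ∂μ) (𝓝[J \ {t}] t)
      (𝓝 (∫ y, K' t y ∂μ)) := by
    refine tendsto_integral_filter_of_dominated_convergence b ?_ ?_ hb
      (hd.mono fun y hy => hasDerivWithinAt_iff_tendsto_slope.1 (hy t ht).1)
    · filter_upwards [self_mem_nhdsWithin] with s hs
      simp only [slope_def_field]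
      exact (((hi s hs.1).sub (hi t ht)).div_const _).1
    · filter_upwards [self_mem_nhdsWithin] with s hs
      refine hd.mono fun y hy => ?_
      have h2 := hJ.norm_image_sub_le_of_norm_hasDerivWithin_le (fun r hr => (hy r hr).1)
        (fun r hr => (hy r hr).2) ht hs.1
      rw [slope_def_field, norm_div]
      exact (div_le_iff₀ (norm_pos_iff.2 (sub_ne_zero.2 hs.2))).2 h2
  refine h1.congr' ?_
  filter_upwards [self_mem_nhdsWithin] with s hs
  simp only [slope_def_field]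
  rw [integral_div, integral_sub (hi s hs.1) (hi t ht)]

/-- Jointly smooth on `[0,T] × [0,∞)`. -/
def LModeDer_J (T : ℝ) (u : Fn) : Prop :=
  ContDiffOn ℝ ∞ (fun p : ℝ × ℝ => u p.1 p.2) (Icc 0 T ×ˢ Ici 0)

/-- Zero beyond `Y`. -/
def LModeDer_Z (T Y : ℝ) (u : Fn) : Prop := ∀ t ∈ Icc 0 T, ∀ y > Y, u t y = 0

/-- Space derivative within `[0,∞)`. -/
noncomputable def LModeDer_py (u : Fn) : Fn := fun t => derivWithin (u t) (Ici 0)

variable {T Y t y : ℝ} {u : Fn}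

theorem LModeDer_u (hT : 0 < T) : UniqueDiffOn ℝ (Icc 0 T ×ˢ Ici (0 : ℝ)) :=
  (uniqueDiffOn_Icc hT).prod (uniqueDiffOn_Ici 0)

theorem LModeDer_sm (h : LModeDer_J T u) (ht : t ∈ Icc 0 T) : ContDiffOn ℝ ∞ (u t) (Ici 0) :=
  ContDiffOn.comp (g := fun p : ℝ × ℝ => u p.1 p.2) (f := fun x : ℝ => (t, x)) h
    (by fun_prop) (fun _ hx => ⟨ht, hx⟩)

theorem LModeDer_hasT (h : LModeDer_J T u) (ht : t ∈ Icc 0 T) (hy : 0 ≤ y) :
    HasDerivWithinAt (fun s => u s y) (dt T u t y) (Icc 0 T) t :=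
  ((ContDiffOn.comp (g := fun p : ℝ × ℝ => u p.1 p.2) (f := fun s : ℝ => (s, y)) h
    (by fun_prop) (fun _ hs => ⟨hs, hy⟩)).differentiableOn inf_ne_zero t ht).hasDerivWithinAt

theorem LModeDer_deriv (u : Fn) (t : ℝ) (hy : 0 < y) : deriv (u t) y = LModeDer_py u t y :=
  (derivWithin_of_mem_nhds (Ici_mem_nhds hy)).symm

theorem LModeDer_hasF (h : LModeDer_J T u) (ht : t ∈ Icc 0 T) (hy : 0 ≤ y) :
    HasFDerivWithinAt (fun p : ℝ × ℝ => u p.1 p.2)
      (fderivWithin ℝ (fun p : ℝ × ℝ => u p.1 p.2) (Icc 0 T ×ˢ Ici 0) (t, y))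
      (Icc 0 T ×ˢ Ici 0) (t, y) :=
  ((ContDiffOn.differentiableOn h inf_ne_zero) (t, y) ⟨ht, hy⟩).hasFDerivWithinAt

theorem LModeDer_py_eq (h : LModeDer_J T u) (ht : t ∈ Icc 0 T) (hy : 0 ≤ y) :
    LModeDer_py u t y =
      fderivWithin ℝ (fun p : ℝ × ℝ => u p.1 p.2) (Icc 0 T ×ˢ Ici 0) (t, y) (0, 1) := by
  have h1 : HasDerivWithinAt (fun x : ℝ => (t, x)) ((0 : ℝ), (1 : ℝ)) (Ici 0) y :=
    ((hasDerivAt_const y t).prodMk (hasDerivAt_id y)).hasDerivWithinAt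
  exact ((LModeDer_hasF h ht hy).comp_hasDerivWithinAt y h1 fun _ hx => ⟨ht, hx⟩).derivWithin
    (uniqueDiffOn_Ici 0 y hy)

theorem LModeDer_dt_eq (h : LModeDer_J T u) (hT : 0 < T) (ht : t ∈ Icc 0 T) (hy : 0 ≤ y) :
    dt T u t y =
      fderivWithin ℝ (fun p : ℝ × ℝ => u p.1 p.2) (Icc 0 T ×ˢ Ici 0) (t, y) (1, 0) := by
  have h1 : HasDerivWithinAt (fun s : ℝ => (s, y)) ((1 : ℝ), (0 : ℝ)) (Icc 0 T) t :=
    ((hasDerivAt_id t).prodMk (hasDerivAt_const t y)).hasDerivWithinAt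
  have h2 := HasFDerivWithinAt.comp_hasDerivWithinAt (f := fun s : ℝ => (s, y)) t
    (LModeDer_hasF h ht hy) h1 fun s hs => show (s, y) ∈ Icc 0 T ×ˢ Ici 0 from ⟨hs, hy⟩
  exact dt_eq hT ht h2

theorem LModeDer_fd (h : LModeDer_J T u) (hT : 0 < T) :
    ContDiffOn ℝ ∞ (fderivWithin ℝ (fun p : ℝ × ℝ => u p.1 p.2) (Icc 0 T ×ˢ Ici 0))
      (Icc 0 T ×ˢ Ici 0) :=
  ContDiffOn.fderivWithin h (LModeDer_u hT) inf_add_one

theorem LModeDer_Jpy (h : LModeDer_J T u) (hT : 0 < T) : LModeDer_J T (LModeDer_py u) :=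
  ContDiffOn.congr ((LModeDer_fd h hT).clm_apply contDiffOn_const)
    fun _ hp => LModeDer_py_eq h hp.1 hp.2

theorem LModeDer_Jdt (h : LModeDer_J T u) (hT : 0 < T) : LModeDer_J T (dt T u) :=
  ContDiffOn.congr ((LModeDer_fd h hT).clm_apply contDiffOn_const)
    fun _ hp => LModeDer_dt_eq h hT hp.1 hp.2

theorem LModeDer_comm (h : LModeDer_J T u) (hT : 0 < T) (ht : t ∈ Icc 0 T) (hy : 0 ≤ y) :
    dt T (LModeDer_py u) t y = LModeDer_py (dt T u) t y := by
  set U := fun p : ℝ × ℝ => u p.1 p.2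
  set s := Icc 0 T ×ˢ Ici (0 : ℝ)
  have hp : (t, y) ∈ s := ⟨ht, hy⟩
  have hF := ((LModeDer_fd h hT).differentiableOn inf_ne_zero (t, y) hp).hasFDerivWithinAt
  have key : ∀ a b : ℝ × ℝ, fderivWithin ℝ (fun p => fderivWithin ℝ U s p a) s (t, y) b =
      fderivWithin ℝ (fderivWithin ℝ U s) s (t, y) b a := by
    intro a b
    have := (hF.clm_apply (hasFDerivWithinAt_const a (t, y) s)).fderivWithin (LModeDer_u hT _ hp)
    rw [this]
    simp only [ContinuousLinearMap.comp_zero, zero_add, ContinuousLinearMap.flip_apply]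
    rfl
  have hs : IsSymmSndFDerivWithinAt ℝ U s (t, y) := by
    refine ContDiffWithinAt.isSymmSndFDerivWithinAt (n := ∞) (h (t, y) hp) ?_ (LModeDer_u hT) ?_ hp
    · simp only [minSmoothness_of_isRCLikeNormedField]
      exact WithTop.coe_le_coe.2 (le_top : (2 : ℕ∞) ≤ ⊤)
    · rw [interior_prod_eq, closure_prod_eq, interior_Icc, interior_Ici, closure_Ioo hT.ne,
        closure_Ioi]
      exact hp
  rw [LModeDer_dt_eq (LModeDer_Jpy h hT) hT ht hy, LModeDer_py_eq (LModeDer_Jdt h hT) ht hy,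
    fderivWithin_congr' (f := fun p => fderivWithin ℝ U s p (0, 1))
      (fun p hp => LModeDer_py_eq h hp.1 hp.2) hp,
    fderivWithin_congr' (f := fun p => fderivWithin ℝ U s p (1, 0))
      (fun p hp => LModeDer_dt_eq h hT hp.1 hp.2) hp, key, key]
  exact hs _ _

theorem LModeDer_Zdt (z : LModeDer_Z T Y u) : LModeDer_Z T Y (dt T u) := fun t ht y hy => by
  rw [dt_congr (v := fun _ _ => 0) ht fun s hs => z s hs y hy]
  simp [dt]

theorem LModeDer_Zpy (z : LModeDer_Z T Y u) : LModeDer_Z T Y (LModeDer_py u) := fun t ht y hy => by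
  have e : u t =ᶠ[𝓝 y] fun _ => 0 := (eventually_gt_nhds hy).mono fun x hx => z t ht x hx
  rw [LModeDer_py, e.derivWithin_eq_of_nhds]
  simp

theorem LModeDer_cs (h : LModeDer_J T u) (z : LModeDer_Z T Y u) (ht : t ∈ Icc 0 T) : Cs (u t) :=
  ⟨LModeDer_sm h ht, Y + 1, fun y hy => z t ht y (by linarith)⟩

theorem LModeDer_bdd (h : LModeDer_J T u) (z : LModeDer_Z T Y u) :
    ∃ C, ∀ t ∈ Icc 0 T, ∀ y, 0 ≤ y → |u t y| ≤ C := by
  obtain ⟨C, hC⟩ := (isCompact_Icc.prod (isCompact_Icc (a := 0) (b := Y))).exists_bound_of_continuousOn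
    (h.continuousOn.mono (prod_mono subset_rfl Icc_subset_Ici_self))
  refine ⟨|C|, fun t ht y hy => ?_⟩
  rcases le_or_gt y Y with h1 | h1
  · exact (hC (t, y) ⟨ht, hy, h1⟩).trans (le_abs_self C)
  · rw [z t ht y h1, abs_zero]; exact abs_nonneg C

theorem LModeDer_ip (hL : LBasicStmt) {k : ℕ} (hk : 1 ≤ k) (hT : 0 < T) (h : LModeDer_J T u)
    (z : LModeDer_Z T Y u) {P : ℝ → ℝ} (hP : Bd P) (ht : t ∈ Icc 0 T) :
    HasDerivWithinAt (fun s => ip k (u s) P) (ip k (dt T u t) P) (Icc 0 T) t := by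
  obtain ⟨C, hC⟩ := LModeDer_bdd (LModeDer_Jdt h hT) (LModeDer_Zdt z)
  refine LModeDer_int (K := fun s y => u s y * P y * wt k y)
    (K' := fun s y => dt T u s y * P y * wt k y) (convex_Icc 0 T) ht
    (fun s hs => hL.int k hk _ (hL.mul _ _ (hL.cs k _ (LModeDer_cs h z hs)).1 hP))
    ((hL.int k hk P hP).norm.const_mul C) ?_
  refine (ae_restrict_iff' measurableSet_Ioi).2 (ae_of_all _ fun y hy s hs =>
    ⟨((LModeDer_hasT h hs (le_of_lt hy)).mul_const _).mul_const _, ?_⟩)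
  rw [mul_assoc, norm_mul]
  exact mul_le_mul_of_nonneg_right (hC s hs y (le_of_lt hy)) (norm_nonneg _)

theorem modeDer (hL : LBasicStmt) : ModeDerStmt := by
  intro k hk T Y F hT h z0 t ht
  have hk1 : 1 ≤ k := by omega
  have z : LModeDer_Z T Y F := fun s hs y hy => z0 s hs y hy.le
  have c0 := LModeDer_cs h z ht
  have c1 := LModeDer_cs (LModeDer_Jdt h hT) (LModeDer_Zdt z) ht
  have bid : Bd fun y => y := by simpa only [pow_one] using hL.pow 1
  refine ⟨c0, (hL.cs k _ c1).1, fun j => LModeDer_ip hL hk1 hT h z (hL.ee_bd k j).2.1 ht, ?_⟩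
  have jp := LModeDer_Jpy h hT
  have h1 := LModeDer_ip (u := fun s y => LModeDer_py F s y * LModeDer_py F s y) (Y := Y) hL hk1 hT
    (ContDiffOn.mul jp jp) (fun s hs y hy => mul_eq_zero_of_left (LModeDer_Zpy z s hs y hy) _) bid ht
  have e1 : (fun s => Qm k (F s)) =
      fun s => ip k (fun y => LModeDer_py F s y * LModeDer_py F s y) fun y => y :=
    funext fun s => setIntegral_congr_fun measurableSet_Ioi fun y hy => by
      simp only [LModeDer_deriv F s hy]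
      ring
  have h2 := hL.ibp k hk1 (dt T F t) (deriv (F t))
    ((c1.1.mono Ioi_subset_Ici_self).of_le one_le_inf)
    ((c0.1.mono Ioi_subset_Ici_self).deriv_of_isOpen isOpen_Ioi
      (WithTop.coe_le_coe.2 (le_top : ((1 + 1 : ℕ∞)) ≤ ⊤)))
    (hL.cs k _ c1).1 (hL.cs k _ c0).2.1 (hL.mul _ _ bid (hL.cs k _ c1).2.1)
    (hL.mul _ _ bid (hL.cs k _ c0).2.2.1)
  have e2 : ip k (LL k (F t)) (dt T F t) =
      ip k (dt T F t) fun y => y * deriv (deriv (F t)) y + (k - y) * deriv (F t) y :=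
    setIntegral_congr_fun measurableSet_Ioi fun y _ => by
      simp only [LL]
      ring
  rw [e1]
  refine h1.congr_deriv ?_
  rw [e2, h2, neg_mul_neg, ip, ip, ← integral_const_mul]
  refine setIntegral_congr_fun measurableSet_Ioi fun y hy => ?_
  have h3 := LModeDer_hasT jp ht (le_of_lt hy)
  simp only [dt_eq (u := fun s y => LModeDer_py F s y * LModeDer_py F s y) hT ht (h3.mul h3),
    LModeDer_deriv F t hy, LModeDer_deriv (dt T F) t hy, LModeDer_comm h hT ht (le_of_lt hy)]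
  ring

end Vale.Agent.P244
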