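import Vale.Agent.P244.StmL

/-! P244: the perturbation bound in the Laguerre norm. -/

open Set Filter MeasureTheory
open scoped ContDiff Topology

namespace Vale.Agent.P244

theorem LPert_wt0 (k : ℕ) {y : ℝ} (hy : 0 < y) : 0 ≤ wt k y := by unfold wt; positivity

theorem LPert_wt (n : ℕ) (y : ℝ) : y * wt (n + 1) y = (n + 1) * wt (n + 2) y := by
  simp only [wt, Nat.add_sub_cancel, show n + 2 - 1 = n + 1 from rfl, Nat.factorial_succ]
  push_cast
  field_simp
  ring

theorem LPert_comm (k : ℕ) (P R : ℝ → ℝ) : ip k P R = ip k R P := by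
  simp only [ip, mul_comm (P _)]

theorem LPert_congr (k : ℕ) {P P' : ℝ → ℝ} (R : ℝ → ℝ) (e : ∀ y > 0, P y = P' y) :
    ip k P R = ip k P' R :=
  setIntegral_congr_fun measurableSet_Ioi fun y hy => by simp only [e y hy]

theorem LPert_nonneg (k : ℕ) (P : ℝ → ℝ) : 0 ≤ ip k P P :=
  setIntegral_nonneg measurableSet_Ioi fun _ hy =>
    mul_nonneg (mul_self_nonneg _) (LPert_wt0 k hy)

theorem LPert_bcongr {P R : ℝ → ℝ} (h : Bd P) (e : ∀ y > 0, R y = P y) : Bd R := by
  obtain ⟨c1, C, N, hC⟩ := h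
  exact ⟨c1.congr e, C, N, fun y hy => e y hy ▸ hC y hy⟩

theorem LPert_shift (n : ℕ) (P R : ℝ → ℝ) :
    ip (n + 1) (fun y => y * P y) R = (n + 1) * ip (n + 2) P R := by
  simp only [ip, ← integral_const_mul]
  congr 1; funext y
  linear_combination P y * R y * LPert_wt n y

section

variable (hL : LBasicStmt) {k : ℕ} (hk : 1 ≤ k)
include hL

theorem LPert_id : Bd fun y => y := LPert_bcongr (hL.pow 1) fun y _ => by ring

theorem LPert_ky (k : ℕ) : Bd fun y => (k : ℝ) - y :=
  LPert_bcongr (hL.lin _ _ k (-1) (hL.pow 0) (hL.pow 1)) fun y _ => by ring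

include hk

theorem LPert_lin {P R S : ℝ → ℝ} (hP : Bd P) (hR : Bd R) (hS : Bd S) (a b : ℝ) :
    ip k (fun y => a * P y + b * R y) S = a * ip k P S + b * ip k R S := by
  simp only [ip]
  rw [← integral_const_mul, ← integral_const_mul, ← integral_add
    ((hL.int k hk _ (hL.mul _ _ hP hS)).const_mul a) ((hL.int k hk _ (hL.mul _ _ hR hS)).const_mul b)]
  congr 1; funext y; ring

theorem LPert_hardy {H : ℝ → ℝ} (hH : ContDiffOn ℝ 1 H (Ioi 0)) (b0 : Bd H)
    (b1 : Bd fun y => y * deriv H y) : (k : ℝ) ^ 2 * ip k H H ≤ 2 * k * ip k (fun y => y * H y) H +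
      4 * ip k (fun y => y * deriv H y) (fun y => y * deriv H y) := by
  have e := hL.ibp k hk H H hH hH b0 b0 b1 b1
  have b2 := hL.mul _ _ (LPert_id hL) b0
  have e1 : (fun y => y * deriv H y + (k - y) * H y) =
      fun y => 1 * (y * deriv H y) + 1 * (k * H y + -1 * (y * H y)) := by funext y; ring
  rw [LPert_comm, e1, LPert_lin hL hk b1 (hL.lin _ _ _ _ b0 b2) b0, LPert_lin hL hk b0 b2 b0] at e
  have n := LPert_nonneg k fun y => k * H y + 2 * (y * deriv H y)
  have b3 := hL.lin _ _ k 2 b0 b1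
  rw [LPert_lin hL hk b0 b1 b3, LPert_comm k H, LPert_comm k (fun y => y * deriv H y),
    LPert_lin hL hk b0 b1 b0, LPert_lin hL hk b0 b1 b1, LPert_comm k H fun y => y * deriv H y] at n
  have e2 := congrArg (fun x => (k : ℝ) * x) e
  linarith

theorem LPert_boch {G : ℝ → ℝ} (hG : Cs G) : ip k (LL k G) (LL k G) =
    ip k (fun y => y * deriv (deriv G) y) (fun y => y * deriv (deriv G) y) + Qm k G := by
  obtain ⟨b0, b1, b2, b3⟩ := hL.cs k G hG
  have s1 : ContDiffOn ℝ ∞ (deriv G) (Ioi 0) :=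
    (hG.1.mono Ioi_subset_Ici_self).deriv_of_isOpen isOpen_Ioi inf_add_one
  have c1 := hL.mul _ _ (LPert_id hL) b1
  have c2 := hL.mul _ _ (LPert_id hL) b2
  have c3 := hL.mul _ _ (LPert_ky hL k) b1
  have c4 := hL.mul _ _ (LPert_ky hL k) c2
  have d : ∀ y > 0, y * deriv (fun y => (k - y) * deriv G y) y =
      -1 * (y * deriv G y) + 1 * ((k - y) * (y * deriv (deriv G) y)) := fun y hy => by
    have := ((hasDerivAt_id y).const_sub (k : ℝ)).mul
      ((s1.contDiffAt (Ioi_mem_nhds hy)).differentiableAt inf_ne_zero).hasDerivAt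
    rw [show deriv (fun y => (k - y) * deriv G y) y = _ from this.deriv]; simp only [id]; ring
  have e := hL.ibp k hk (fun y => (k - y) * deriv G y) (deriv G)
    (((contDiffOn_const.sub contDiffOn_id).mul s1).of_le one_le_inf) (s1.of_le one_le_inf) c3 b1
    (LPert_bcongr (hL.lin _ _ _ _ c1 c4) d) c2
  rw [LPert_congr k _ d, LPert_lin hL hk c1 c4 b1] at e
  have e1 : ∀ S, Bd S → ip k (LL k G) S = ip k (fun y => y * deriv (deriv G) y) S +
      ip k (fun y => (k - y) * deriv G y) S := fun S hS => by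
    rw [LPert_congr k S (P' := fun y => 1 * (y * deriv (deriv G) y) + 1 * ((k - y) * deriv G y))
      fun y _ => by unfold LL; ring, LPert_lin hL hk c2 c3 hS]
    ring
  have e2 : ip k (fun y => (k - y) * deriv G y) (fun y => y * deriv (deriv G) y) =
      ip k (fun y => (k - y) * (y * deriv (deriv G) y)) (deriv G) := by
    simp only [ip]; congr 1; funext y; ring
  have e3 : ip k (fun y => (k - y) * deriv G y) (LL k G) = _ := e
  rw [e1 _ b3, LPert_comm k _ (LL k G), e1 _ c2, e2, e3, Qm]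
  ring

end

theorem LPert_sq {p a b c d : ℝ} (h : |p| ≤ a + b + c + d) :
    p * p ≤ 4 * (a ^ 2 + b ^ 2 + c ^ 2 + d ^ 2) := by
  have := pow_le_pow_left₀ (abs_nonneg p) h 2
  rw [sq_abs] at this
  nlinarith [sq_nonneg (a - b), sq_nonneg (a - c), sq_nonneg (a - d), sq_nonneg (b - c),
    sq_nonneg (b - d), sq_nonneg (c - d)]

theorem LPert_num {n A0 A1 Q B U1 U2 S : ℝ} (hn : 1 ≤ n) (hS : 0 ≤ S) (h0 : A0 ≤ S) (hQ : Q ≤ 3 * S)
    (hB : B ≤ 9 * S) (ha : (n + 2) ^ 2 * A1 ≤ 2 * (n + 2) * Q + 4 * B)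
    (hb : (n + 1) ^ 2 * U1 ≤ 2 * (n + 1) * ((n + 1) * A0) + 4 * ((n + 1) * Q))
    (hc : n ^ 2 * U2 ≤ 2 * n * (n * U1) + 4 * (n * ((n + 1) * A1))) :
    n * (36 * A1 + 36 / (n * (n + 1)) * U2) ≤ 2952 * S := by
  have nS : S ≤ n * S := by nlinarith
  have a1 : (n + 2) * A1 ≤ 18 * S := by
    refine le_of_mul_le_mul_left ?_ (show 0 < n + 2 by linarith)
    nlinarith [mul_le_mul_of_nonneg_left hQ (show 0 ≤ n + 2 by linarith)]
  have a2 : n * A1 ≤ 18 * S := by
    rcases le_total A1 0 with h | h <;> nlinarith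
  have a3 : A1 ≤ 6 * S := by
    rcases le_total A1 0 with h | h <;> nlinarith
  have u1 : U1 ≤ 8 * S := by
    refine le_of_mul_le_mul_left (le_of_mul_le_mul_left ?_ (show 0 < n + 1 by linarith))
      (show 0 < n + 1 by linarith)
    nlinarith [mul_le_mul_of_nonneg_left hQ (show 0 ≤ n + 1 by linarith),
      mul_le_mul_of_nonneg_left h0 (sq_nonneg (n + 1)),
      mul_le_mul_of_nonneg_left nS (show 0 ≤ n + 1 by linarith)]
  have u2 : U2 ≤ 64 * S := by
    refine le_of_mul_le_mul_left (le_of_mul_le_mul_left ?_ (show 0 < n by linarith))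
      (show 0 < n by linarith)
    nlinarith [mul_le_mul_of_nonneg_left u1 (sq_nonneg n),
      mul_le_mul_of_nonneg_left a3 (show 0 ≤ n * (n + 1) by positivity),
      mul_le_mul_of_nonneg_left nS (show 0 ≤ n by linarith)]
  have u3 : n * (36 / (n * (n + 1)) * U2) ≤ 36 * (64 * S) := by
    have e : n * (36 / (n * (n + 1)) * U2) = 36 * U2 / (n + 1) := by field_simp
    rw [e, div_le_iff₀ (by linarith)]
    nlinarith
  linarith

theorem pert (hL : LBasicStmt) (hG : GapStmt) : PertStmt := by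
  intro ε hε
  refine ⟨⌈2952 / ε⌉₊ + 3, fun k hk G P hc hP η c Y hη hc0 hY h => ?_⟩
  obtain ⟨m, rfl⟩ : ∃ m, k = m + 3 := ⟨k - 3, by omega⟩
  have hm : 2952 / ε ≤ m := (Nat.le_ceil _).trans (by exact_mod_cast (by omega))
  have g := hG (m + 3) (by omega) G hc
  obtain ⟨b0, b1, b2, -⟩ := hL.cs (m + 3) G hc
  have s0 : ContDiffOn ℝ ∞ G (Ioi 0) := hc.1.mono Ioi_subset_Ici_self
  have s1 := s0.deriv_of_isOpen isOpen_Ioi inf_add_one
  have c1 := hL.mul _ _ (LPert_id hL) b1
  have c2 := hL.mul _ _ (LPert_id hL) b2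
  have ha := LPert_hardy hL (k := m + 3) (by omega) (s1.of_le one_le_inf) b1 c2
  have hb := LPert_hardy hL (k := m + 2) (by omega) (s0.of_le one_le_inf) b0 c1
  have hd := LPert_hardy hL (k := m + 1) (by omega) (s0.of_le one_le_inf) b0 c1
  rw [LPert_shift (m + 1), LPert_shift (m + 1), LPert_comm _ (deriv G)] at hb
  rw [LPert_shift m, LPert_shift m, LPert_comm _ (deriv G), LPert_shift (m + 1)] at hd
  have bo := LPert_boch hL (k := m + 3) (by omega) hc
  have q0 : 0 ≤ Qm (m + 3) G := setIntegral_nonneg measurableSet_Ioi fun y (hy : 0 < y) =>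
    mul_nonneg (by nlinarith [mul_nonneg hy.le (sq_nonneg (deriv G y))]) (LPert_wt0 _ hy)
  have n1 := g.nonneg
  have n2 := g.gap
  have n3 := g.gap2
  set S := Lam (m + 3) G + ∑ j, am (m + 3) G j ^ 2 with hS
  have sq := fun j => sq_nonneg (am (m + 3) G j)
  have hA : 0 ≤ ∑ j, am (m + 3) G j ^ 2 := Finset.sum_nonneg fun j _ => sq j
  have hS0 : 0 ≤ S := by linarith
  have hQ : Qm (m + 3) G ≤ 3 * S := by
    have e : Qm (m + 3) G = SS (m + 3) G + ∑ j : Fin 4, (j : ℕ) * am (m + 3) G j ^ 2 := by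
      unfold SS; ring
    rw [e, hS]
    simp only [Fin.sum_univ_four] at *
    norm_num
    linarith [sq 0, sq 1, sq 2]
  have hB : ip (m + 3) (fun y => y * deriv (deriv G) y) (fun y => y * deriv (deriv G) y) ≤
      9 * S := by
    have e : ip (m + 3) (LL (m + 3) G) (LL (m + 3) G) =
        Lam (m + 3) G + ∑ j : Fin 4, ((j : ℕ) : ℝ) ^ 2 * am (m + 3) G j ^ 2 := by
      unfold Lam; ring
    rw [e] at bo
    rw [hS]
    simp only [Fin.sum_univ_four] at *
    norm_num at bo
    linarith [sq 0, sq 1, sq 2]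
  have hm0 : (0 : ℝ) ≤ m := Nat.cast_nonneg m
  have num := LPert_num (n := m + 1) (A0 := ip (m + 3) G G) (Q := Qm (m + 3) G)
    (A1 := ip (m + 3) (deriv G) (deriv G)) (U1 := ip (m + 2) G G) (U2 := ip (m + 1) G G)
    (by linarith) hS0 (by linarith) hQ hB (by push_cast at ha; unfold Qm; linarith)
    (by push_cast at hb; unfold Qm; linarith) (by push_cast at hd; linarith)
  have num2 : 36 * ip (m + 3) (deriv G) (deriv G) +
      36 / (((m : ℝ) + 1) * (m + 1 + 1)) * ip (m + 1) G G ≤ ε * S := by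
    refine le_of_mul_le_mul_left (num.trans ?_) (show (0 : ℝ) < m + 1 by linarith)
    rw [div_le_iff₀ hε] at hm
    nlinarith [mul_nonneg hε.le hS0]
  have i1 := (hL.int (m + 3) (by omega) _ (hL.mul _ _ c2 c2)).const_mul (4 * η ^ 2)
  have i2 := (hL.int (m + 3) (by omega) _ (hL.mul _ _ b1 b1)).const_mul 36
  have i3 := (hL.int (m + 1) (by omega) _ (hL.mul _ _ b0 b0)).const_mul
    (36 / (((m : ℝ) + 1) * (m + 1 + 1)))
  have i4 : Integrable (fun y => 4 * c ^ 2 * (Ici Y).indicator (wt (m + 3)) y)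
      (volume.restrict (Ioi 0)) := by
    have := hL.int (m + 3) (by omega) _ (hL.pow 0)
    simp only [pow_zero, one_mul] at this
    exact (Integrable.indicator this measurableSet_Ici).const_mul _
  have key := setIntegral_mono_on (hL.int (m + 3) (by omega) _ (hL.mul _ _ hP hP))
    (((i1.add i2).add i3).add i4) measurableSet_Ioi fun y (hy : 0 < y) => by
      have w := LPert_wt0 (m + 3) hy
      have e1 := LPert_sq (p := P y) (a := η * (y * |deriv (deriv G) y|)) (b := 3 * |deriv G y|)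
        (c := 3 * (|G y| / y)) (d := if Y ≤ y then c else 0) (by linarith [h y hy])
      refine (mul_le_mul_of_nonneg_right e1 w).trans (le_of_eq ?_)
      have e2 : wt (m + 1) y = (m + 1) * (m + 1 + 1) * wt (m + 3) y / y ^ 2 := by
        have t1 := LPert_wt m y
        have t2 := LPert_wt (m + 1) y
        push_cast at t2
        rw [eq_div_iff (by positivity)]
        linear_combination y * t1 + (m + 1) * t2
      simp only [Pi.add_apply, e2, indicator, mem_Ici, mul_pow, div_pow, sq_abs]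
      split_ifs <;> field_simp <;> ring
  simp only [Pi.add_apply] at key
  rw [integral_add (by exact (i1.add i2).add i3) i4, integral_add (by exact i1.add i2) i3,
    integral_add i1 i2, integral_const_mul, integral_const_mul, integral_const_mul,
    integral_const_mul, setIntegral_indicator measurableSet_Ici,
    inter_eq_right.2 (show Ici Y ⊆ Ioi 0 from fun y hy => hY.trans_le hy),
    integral_Ici_eq_integral_Ioi] at key
  have t := mul_le_mul_of_nonneg_left hB (show 0 ≤ 4 * η ^ 2 by positivity)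
  simp only [ip, tail] at num2 t ⊢
  linarith

end Vale.Agent.P244
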