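import Vale.Agent.P244.StmL

/-! P244: bounds for the cubic Laguerre combination. -/

open Set Filter MeasureTheory
open scoped ContDiff Topology

namespace Vale.Agent.P244

theorem LPoly_sum (k : ℕ) (a : Fin 4 → ℝ) (y : ℝ) : ∑ j, a j * ee k j y =
    a 0 + a 1 * ((k - y) / √k) + a 2 * (((k - y) ^ 2 + 2 * (k - y) - k) / √(2 * k * (k + 1))) +
      a 3 * (((k - y) ^ 3 + 6 * (k - y) ^ 2 - (3 * k - 6) * (k - y) - 4 * k) /
        √(6 * k * (k + 1) * (k + 2))) := by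
  rw [Fin.sum_univ_four]
  simp only [ee, Matrix.cons_val_zero, Matrix.cons_val_one, Matrix.cons_val]
  ring

theorem LPoly_abs {x b c : ℝ} (hb : 0 ≤ b) (hc : 0 ≤ c) (h : x ^ 2 + c ≤ b ^ 2 / 50) :
    |x| ≤ b / 7 := abs_le_of_sq_le_sq' (by nlinarith) (by positivity) |> abs_le.2

theorem LPoly_mul {x e b m : ℝ} (hx : |x| ≤ b / 7) (he : |e| ≤ m) :
    -(b / 7 * m) ≤ x * e ∧ x * e ≤ b / 7 * m := by
  rw [← abs_le, abs_mul]
  exact mul_le_mul hx he (abs_nonneg _) ((abs_nonneg _).trans hx)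

theorem LPoly_coef {a : Fin 4 → ℝ} (h0 : 0 ≤ a 3)
    (h : a 0 ^ 2 + a 1 ^ 2 + a 2 ^ 2 ≤ a 3 ^ 2 / 50) :
    |a 0| ≤ a 3 / 7 ∧ |a 1| ≤ a 3 / 7 ∧ |a 2| ≤ a 3 / 7 :=
  ⟨LPoly_abs h0 (c := a 1 ^ 2 + a 2 ^ 2) (by positivity) (by linarith),
    LPoly_abs h0 (c := a 0 ^ 2 + a 2 ^ 2) (by positivity) (by linarith),
    LPoly_abs h0 (c := a 0 ^ 2 + a 1 ^ 2) (by positivity) (by linarith)⟩

theorem LPoly_den {k : ℝ} (hk : 10 ≤ k) : 3 ≤ √k ∧ √k * √k = k ∧ k ≤ √(2 * k * (k + 1)) ∧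
    2 * k * √k ≤ √(6 * k * (k + 1) * (k + 2)) ∧ √(6 * k * (k + 1) * (k + 2)) ≤ 3 * k * √k := by
  have h0 : 0 ≤ k := by linarith
  have h1 : √k * √k = k := Real.mul_self_sqrt h0
  have h2 : ∀ c : ℝ, (c * k * √k) ^ 2 = c ^ 2 * k ^ 3 := fun c => by
    rw [mul_pow, Real.sq_sqrt h0]; ring
  refine ⟨Real.le_sqrt_of_sq_le (by linarith), h1, Real.le_sqrt_of_sq_le (by nlinarith),
    Real.le_sqrt_of_sq_le ?_, Real.sqrt_le_iff.2 ⟨by positivity, ?_⟩⟩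
  · rw [h2]
    nlinarith [mul_nonneg h0 h0, pow_nonneg h0 3]
  · rw [h2]
    nlinarith [mul_nonneg h0 h0, mul_le_mul_of_nonneg_right hk (mul_nonneg h0 h0),
      mul_le_mul_of_nonneg_right hk h0]

theorem LPoly_low {k u d2 d3 r : ℝ} (hr : 3 ≤ r) (hk : r * r = k) (h2 : k ≤ d2)
    (h3 : 2 * k * r ≤ d3) (h3' : d3 ≤ 3 * k * r) (hu : 300 * r ≤ u) :
    300 ≤ u / r ∧ |(u ^ 2 + 2 * u - k) / d2| ≤ 2 * (u / r) ^ 2 ∧
      (u / r) ^ 3 / 4 ≤ (u ^ 3 + 6 * u ^ 2 - (3 * k - 6) * u - 4 * k) / d3 := by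
  have r0 : 0 < r := by linarith
  have hs : 300 ≤ u / r := by rwa [le_div_iff₀ r0]
  obtain ⟨s, rfl⟩ : ∃ s, u = s * r := ⟨u / r, by field_simp⟩
  rw [mul_div_cancel_right₀ _ r0.ne'] at hs ⊢
  subst hk
  have k0 : 0 < r * r := by positivity
  have d0 : 0 < d3 := lt_of_lt_of_le (by positivity) h3
  have s0 : 0 < s := by linarith
  have q1 : 2 * (s * r) ≤ (s * r) ^ 2 := by nlinarith
  have q2 : r * r ≤ (s * r) ^ 2 := by nlinarith
  refine ⟨hs, ?_, ?_⟩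
  · rw [abs_div, abs_of_pos (by linarith : 0 < d2), div_le_iff₀ (by linarith), abs_le]
    have := mul_le_mul_of_nonneg_left h2 (by positivity : 0 ≤ 2 * s ^ 2)
    have : 0 < s * r := by positivity
    constructor <;> nlinarith
  · rw [le_div_iff₀ d0]
    have b1 := mul_le_mul_of_nonneg_left h3' (by positivity : 0 ≤ s ^ 3 / 4)
    have b2 : 3 * s + 2 ≤ s ^ 3 / 4 := by nlinarith [mul_le_mul hs hs (by norm_num) s0.le]
    have b3 := mul_le_mul_of_nonneg_right b2 (by positivity : 0 ≤ r * r * r)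
    have b4 : 4 * (r * r) ≤ 2 * (r * r * r) := by nlinarith
    have b5 : 0 ≤ 6 * (s * r) ^ 2 + 6 * (s * r) := by positivity
    nlinarith

theorem LPoly_up {k u d2 d3 r : ℝ} (hr : 3 ≤ r) (hk : r * r = k) (h2 : k ≤ d2)
    (h3 : 2 * k * r ≤ d3) (hu0 : 0 ≤ u) (hu : u ≤ k) :
    |u / r| ≤ r ∧ |(u ^ 2 + 2 * u - k) / d2| ≤ 2 * k ∧
      (u ^ 3 + 6 * u ^ 2 - (3 * k - 6) * u - 4 * k) / d3 ≤ k * r := by
  have r0 : 0 < r := by linarith
  have k9 : 9 ≤ k := by nlinarith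
  have d0 : 0 < d3 := lt_of_lt_of_le (by positivity) h3
  have u2 : u ^ 2 ≤ k ^ 2 := pow_le_pow_left₀ hu0 hu 2
  have u3 : u ^ 3 ≤ k ^ 3 := pow_le_pow_left₀ hu0 hu 3
  refine ⟨?_, ?_, ?_⟩
  · rw [abs_of_nonneg (by positivity), div_le_iff₀ r0]
    linarith
  · rw [abs_div, abs_of_pos (by linarith : 0 < d2), div_le_iff₀ (by linarith), abs_le]
    have := mul_le_mul_of_nonneg_left h2 (by linarith : 0 ≤ 2 * k)
    constructor <;> nlinarith
  · rw [div_le_iff₀ d0]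
    have b1 := mul_le_mul_of_nonneg_left h3 (by positivity : 0 ≤ k * r)
    have b2 : k * r * (2 * k * r) = 2 * k ^ 3 := by rw [← hk]; ring
    have b3 : 0 ≤ (3 * k - 6) * u := mul_nonneg (by linarith) hu0
    have b4 : 6 * k ^ 2 ≤ k ^ 3 := by nlinarith [sq_nonneg k]
    nlinarith

theorem LPoly_wt (k : ℕ) {y : ℝ} (hy : 0 < y) : 0 ≤ wt k y := by
  unfold wt; positivity

theorem poly (hL : LBasicStmt) : PolyStmt := by
  refine ⟨fun k hk a h0 h y hy => ?_, fun k hk a h0 h y hy => ?_, fun k hk => ?_⟩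
  · obtain ⟨d1, d2, d3, d4, d5⟩ := LPoly_den (k := k) (by exact_mod_cast hk)
    obtain ⟨c0, c1, c2⟩ := LPoly_coef h0 h
    obtain ⟨e1, e2, e3⟩ := LPoly_low (u := k - y) d1 d2 d3 d4 d5 (by linarith)
    rw [LPoly_sum]
    generalize ((k : ℝ) - y) / √k = s at e1 e2 e3 ⊢
    have m1 := (LPoly_mul c1 (abs_of_nonneg (by linarith : 0 ≤ s)).le).1
    have m2 := (LPoly_mul c2 e2).1
    have m3 := mul_le_mul_of_nonneg_left e3 h0
    have m0 := (abs_le.1 c0).1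
    have m4 : 2 + (1 + s + 2 * s ^ 2) / 7 ≤ s ^ 3 / 4 := by
      nlinarith [mul_le_mul_of_nonneg_right e1 (sq_nonneg s)]
    nlinarith [mul_le_mul_of_nonneg_left m4 h0]
  · obtain ⟨d1, d2, d3, d4, -⟩ := LPoly_den (k := k) (by exact_mod_cast hk)
    obtain ⟨c0, c1, c2⟩ := LPoly_coef h0 h
    obtain ⟨e1, e2, e3⟩ := LPoly_up (u := k - y) d1 d2 d3 d4 (by linarith [hy.2])
      (by linarith [hy.1])
    rw [LPoly_sum]
    have m1 := (LPoly_mul c1 e1).2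
    have m2 := (LPoly_mul c2 e2).2
    have m3 := mul_le_mul_of_nonneg_left e3 h0
    have m0 := (abs_le.1 c0).2
    have hk' : (10 : ℝ) ≤ k := by exact_mod_cast hk
    have m4 : (1 + √k + 2 * k) / 7 ≤ k * √k := by nlinarith
    nlinarith [mul_le_mul_of_nonneg_left m4 h0]
  · refine ⟨k.ascFactorial 80, Nat.cast_nonneg _, fun Y hY => ?_⟩
    have i1 := hL.int k hk _ (hL.pow 80)
    have i0 := hL.int k hk _ (hL.pow 0)
    simp only [pow_zero, one_mul] at i0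
    have hs : Ioi Y ⊆ Ioi 0 := Ioi_subset_Ioi hY.le
    rw [le_div_iff₀ (by positivity), ← hL.mom k hk 80, tail, ← integral_mul_const]
    refine (setIntegral_mono_on ((i0.mono_set hs).mul_const _) (i1.mono_set hs) measurableSet_Ioi
      fun y hy => ?_).trans (setIntegral_mono_set i1 ?_ hs.eventuallyLE)
    · rw [mul_comm]
      exact mul_le_mul_of_nonneg_right (pow_le_pow_left₀ hY.le (le_of_lt hy) 80)
        (LPoly_wt k (hs hy))
    · filter_upwards [ae_restrict_mem measurableSet_Ioi] with y hy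
      exact mul_nonneg (pow_nonneg (le_of_lt hy) _) (LPoly_wt k hy)

theorem out (hS : SobStmt) (hP : PolyStmt) : OutStmt := by
  obtain ⟨C, k0, hC, h1⟩ := hS.unif
  refine ⟨min (1 / 100) (1 / (4 * C)), by positivity, fun θ hθ => ⟨max k0 10, fun k hk => ?_⟩⟩
  have k1 : k0 ≤ k := (le_max_left _ _).trans hk
  have k2 : 10 ≤ k := (le_max_right _ _).trans hk
  have t1 : θ ≤ 1 / 100 := hθ.2.trans (min_le_left _ _)
  have t2 : θ * (4 * C) ≤ 1 := (le_div_iff₀ (by positivity)).1 (hθ.2.trans (min_le_right _ _))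
  obtain ⟨C', hC', h2⟩ := hS.loc k (by omega)
  refine ⟨C' + 1, by positivity, fun G hG g1 g2 g3 => ?_⟩
  unfold G1 at g1
  have s0 := sq_nonneg (am k G 3)
  have s1 := mul_le_mul_of_nonneg_right t1 s0
  have g4 : am k G 0 ^ 2 + am k G 1 ^ 2 + am k G 2 ^ 2 ≤ am k G 3 ^ 2 / 50 := by linarith
  refine ⟨fun y y1 y2 => ?_, fun y hy => ?_⟩
  · have b1 := hP.low k k2 _ g3 g4 y y2
    have b2 := h1 k k1 G hG y (abs_le.2 ⟨by linarith, by linarith [Real.sqrt_nonneg (k : ℝ)]⟩)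
    have b3 : (G y - ∑ j, am k G j * ee k j y) ^ 2 ≤ (am k G 3 / 2) ^ 2 := by
      nlinarith [mul_le_mul_of_nonneg_left g2 hC.le, mul_le_mul_of_nonneg_right t2 s0]
    have b4 := (abs_le_of_sq_le_sq' b3 (by positivity)).1
    linarith
  · have b1 := h2 G hG y hy
    rw [Fin.sum_univ_four] at b1
    refine abs_le.2 (abs_le_of_sq_le_sq' (b1.trans ?_) (by positivity))
    have b2 : SS k G + (am k G 0 ^ 2 + am k G 1 ^ 2 + am k G 2 ^ 2 + am k G 3 ^ 2) ≤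
        2 * am k G 3 ^ 2 := by linarith
    nlinarith [mul_le_mul_of_nonneg_left b2 hC'.le, mul_nonneg (sq_nonneg C') s0]

end Vale.Agent.P244
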