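import Vale.Agent.P244.StmL

/-! P244: weighted Sobolev bounds. -/

open Set Filter MeasureTheory
open scoped ContDiff Topology

namespace Vale.Agent.P244

theorem LSob_congr {P R : ℝ → ℝ} (h : Bd P) (e : ∀ y > 0, R y = P y) : Bd R :=
  ⟨h.1.congr fun y hy => e y hy, by
    obtain ⟨C, N, hC⟩ := h.2
    exact ⟨C, N, fun y hy => by rw [e y hy]; exact hC y hy⟩⟩

theorem LSob_wt_pos (k : ℕ) {y : ℝ} (hy : 0 < y) : 0 < wt k y := by
  unfold wt; positivity

theorem LSob_core (hL : LBasicStmt) {k : ℕ} (hk : 1 ≤ k) {H : ℝ → ℝ}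
    (hd : ∀ s > 0, DifferentiableAt ℝ H s) (h0 : Bd H) (h1 : Bd (deriv H)) {y l m : ℝ}
    (hy : 0 < y) (hl : 0 < l) (hm : 0 < m) (hw : ∀ s ∈ Icc y (y + l), m ≤ wt k s) :
    l * H y ^ 2 ≤ 2 / m * ip k H H + l ^ 2 / (m * y) * Qm k H := by
  have b0 := hL.mul _ _ h0 h0
  have b1 : Bd fun s => s * deriv H s * deriv H s :=
    LSob_congr (hL.mul _ _ (hL.mul _ _ (hL.pow 1) h1) h1) fun s _ => by rw [pow_one]
  have i0 := hL.int k hk _ b0
  have i1 := hL.int k hk _ b1
  have hyl : y ≤ y + l := by linarith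
  have sub : uIcc y (y + l) ⊆ Ioi 0 := by
    rw [uIcc_of_le hyl]; exact fun s hs => hy.trans_le hs.1
  have c0 := h0.1.mono sub
  have c1 := h1.1.mono sub
  have ftc := intervalIntegral.integral_eq_sub_of_hasDerivAt
    (f := fun s => -((y + l - s) * H s ^ 2))
    (f' := fun s => H s ^ 2 - 2 * (y + l - s) * H s * deriv H s) (a := y) (b := y + l)
    (fun s hs => by
      have h := (((hasDerivAt_id s).const_sub (y + l)).mul
        ((hd s (sub hs)).hasDerivAt.pow 2)).neg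
      refine h.congr_deriv ?_
      simp only [id, Pi.pow_apply]
      norm_num
      ring)
    (ContinuousOn.intervalIntegrable (by fun_prop))
  have e : l * H y ^ 2 = ∫ s in Ioc y (y + l),
      (H s ^ 2 - 2 * (y + l - s) * H s * deriv H s) := by
    rw [← intervalIntegral.integral_of_le hyl, ftc]; ring
  have iS : IntegrableOn (fun s => 2 / m * (H s * H s * wt k s) +
      l ^ 2 / (m * y) * (s * deriv H s * deriv H s * wt k s)) (Ioi 0) :=
    (i0.const_mul _).add (i1.const_mul _)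
  have sub' : Ioc y (y + l) ⊆ Ioi 0 := fun s hs => hy.trans hs.1
  rw [e, ip, Qm, ip, ← integral_const_mul, ← integral_const_mul,
    ← integral_add (i0.const_mul _) (i1.const_mul _)]
  refine le_trans (setIntegral_mono_on ?_ (iS.mono_set sub') measurableSet_Ioc fun s hs => ?_)
    (setIntegral_mono_set iS ?_ sub'.eventuallyLE)
  · exact (intervalIntegrable_iff_integrableOn_Ioc_of_le hyl).1
      (ContinuousOn.intervalIntegrable (by fun_prop))
  · have w := hw s ⟨hs.1.le, hs.2⟩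
    have a1 : 2 * H s ^ 2 ≤ 2 / m * (H s * H s * wt k s) := by
      rw [div_mul_eq_mul_div, le_div_iff₀ hm]
      nlinarith [mul_le_mul_of_nonneg_left w (sq_nonneg (H s))]
    have a2 : l ^ 2 * deriv H s ^ 2 ≤ l ^ 2 / (m * y) * (s * deriv H s * deriv H s * wt k s) := by
      rw [div_mul_eq_mul_div, le_div_iff₀ (by positivity)]
      have : m * y ≤ wt k s * s := mul_le_mul w hs.1.le hy.le (hm.le.trans w)
      nlinarith [mul_le_mul_of_nonneg_left this (by positivity : 0 ≤ l ^ 2 * deriv H s ^ 2)]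
    have a3 : (y + l - s) ^ 2 ≤ l ^ 2 := pow_le_pow_left₀ (by linarith [hs.2]) (by linarith [hs.1]) 2
    nlinarith [sq_nonneg (H s + (y + l - s) * deriv H s),
      mul_le_mul_of_nonneg_right a3 (sq_nonneg (deriv H s))]
  · filter_upwards [ae_restrict_mem measurableSet_Ioi] with s hs
    have := LSob_wt_pos k hs
    have hs' : 0 < s := hs
    have a1 : 0 ≤ H s * H s := mul_self_nonneg _
    have a2 : 0 ≤ s * deriv H s * deriv H s := by
      rw [mul_assoc]; exact mul_nonneg hs'.le (mul_self_nonneg _)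
    positivity

theorem LSob_fact {k : ℕ} (hk : 1 ≤ k) :
    (k.factorial : ℝ) ≤ Real.exp 1 * √k * (k / Real.exp 1) ^ k := by
  obtain ⟨j, rfl⟩ : ∃ j, k = j + 1 := ⟨k - 1, by omega⟩
  have h := Stirling.stirlingSeq'_antitone (Nat.zero_le j)
  simp only [Function.comp, Nat.succ_eq_add_one, zero_add, Stirling.stirlingSeq_one] at h
  rw [Stirling.stirlingSeq, div_le_iff₀ (by positivity), Real.sqrt_mul (by norm_num)] at h
  refine h.trans (le_of_eq ?_)
  field_simp

theorem LSob_wt {k : ℕ} (hk : 722 ^ 2 ≤ k) {s : ℝ} (hs : |s - k| ≤ 361 * √k) :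
    Real.exp (-(2 + 2 * 361 ^ 2)) / √k ≤ wt k s := by
  have hk0 : (722 : ℝ) ^ 2 ≤ k := by exact_mod_cast hk
  have hq : (722 : ℝ) ≤ √k := Real.le_sqrt_of_sq_le hk0
  have hqq : √(k : ℝ) * √k = k := Real.mul_self_sqrt (by positivity)
  have hkp : (0 : ℝ) < k := by nlinarith
  obtain ⟨u, rfl⟩ : ∃ u : ℝ, s = k * (1 + u) := ⟨s / k - 1, by field_simp; ring⟩
  have hu : |u| * √k ≤ 361 := by
    have : (k : ℝ) * (1 + u) - k = √k * (√k * u) := by rw [← mul_assoc, hqq]; ring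
    rw [this, abs_mul, abs_mul, abs_of_pos (by linarith : 0 < √(k : ℝ)), mul_comm 361] at hs
    rw [mul_comm]
    exact le_of_mul_le_mul_left hs (by linarith)
  have hu1 : |u| ≤ 1 / 2 := by nlinarith [abs_nonneg u]
  obtain ⟨hu2, hu3⟩ := abs_le.1 hu1
  have hu4 : u ^ 2 * k ≤ 361 ^ 2 := by
    have := pow_le_pow_left₀ (by positivity) hu 2
    rwa [mul_pow, sq_abs, Real.sq_sqrt hkp.le] at this
  have hlog : u - 2 * u ^ 2 ≤ Real.log (1 + u) := by
    refine le_trans ?_ (Real.one_sub_inv_le_log_of_pos (by linarith))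
    rw [le_sub_comm, inv_eq_one_div, div_le_iff₀ (by linarith)]
    nlinarith [mul_nonneg (sq_nonneg u) (by linarith : 0 ≤ 1 + 2 * u)]
  obtain ⟨j, rfl⟩ : ∃ j, k = j + 1 := ⟨k - 1, by omega⟩
  have hf := LSob_fact (k := j + 1) (by omega)
  have hj : (0 : ℝ) ≤ j := Nat.cast_nonneg j
  have hp : Real.exp (j * (u - 2 * u ^ 2)) ≤ (1 + u) ^ j := by
    rw [← Real.exp_log (by linarith : 0 < 1 + u), ← Real.exp_nat_mul]
    gcongr
  rw [wt, Nat.add_sub_cancel, div_le_div_iff₀ (by linarith) (by positivity), mul_pow]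
  rw [Nat.factorial_succ, div_pow, ← Real.exp_nat_mul, mul_one, pow_succ, Nat.cast_mul] at hf
  have hf2 : (j.factorial : ℝ) ≤ Real.exp 1 * √((j + 1 : ℕ) : ℝ) * ((j + 1 : ℕ) : ℝ) ^ j *
      Real.exp (-((j + 1 : ℕ) : ℝ)) := by
    refine le_of_mul_le_mul_left (hf.trans (le_of_eq ?_)) hkp
    rw [Real.exp_neg]
    field_simp
  have e3 : Real.exp (-(2 + 2 * 361 ^ 2)) * (Real.exp 1 * Real.exp (-((j + 1 : ℕ) : ℝ))) ≤
      Real.exp (j * (u - 2 * u ^ 2)) * Real.exp (-(((j + 1 : ℕ) : ℝ) * (1 + u))) := by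
    rw [← Real.exp_add, ← Real.exp_add, ← Real.exp_add]
    refine Real.exp_le_exp.2 ?_
    rw [Nat.cast_add, Nat.cast_one] at hu4 ⊢
    clear hk
    nlinarith [sq_nonneg u]
  calc _ ≤ Real.exp (-(2 + 2 * 361 ^ 2)) * (Real.exp 1 * √((j + 1 : ℕ) : ℝ) *
        ((j + 1 : ℕ) : ℝ) ^ j * Real.exp (-((j + 1 : ℕ) : ℝ))) := by gcongr
    _ = (((j + 1 : ℕ) : ℝ) ^ j * √((j + 1 : ℕ) : ℝ)) * (Real.exp (-(2 + 2 * 361 ^ 2)) *
        (Real.exp 1 * Real.exp (-((j + 1 : ℕ) : ℝ)))) := by ring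
    _ ≤ (((j + 1 : ℕ) : ℝ) ^ j * √((j + 1 : ℕ) : ℝ)) * ((1 + u) ^ j *
        Real.exp (-(((j + 1 : ℕ) : ℝ) * (1 + u)))) := by
        refine mul_le_mul_of_nonneg_left (e3.trans ?_) (by positivity)
        gcongr
    _ = _ := by ring

theorem LSob_diff {G : ℝ → ℝ} (h : Cs G) {s : ℝ} (hs : 0 < s) : DifferentiableAt ℝ G s :=
  (h.1.contDiffAt (Ici_mem_nhds hs)).differentiableAt (by simp)

theorem LSob_sum (hL : LBasicStmt) {P : ℝ → ℝ} {R : Fin 4 → ℝ → ℝ} (hP : Bd P)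
    (hR : ∀ j, Bd (R j)) (a : Fin 4 → ℝ) : Bd fun y => P y - ∑ j, a j * R j y :=
  LSob_congr (hL.lin _ _ 1 (-1) hP (hL.lin _ _ 1 1 (hL.lin _ _ (a 0) (a 1) (hR 0) (hR 1))
    (hL.lin _ _ (a 2) (a 3) (hR 2) (hR 3)))) fun y _ => by
      rw [Fin.sum_univ_four]; ring

theorem sob (hL : LBasicStmt) (hG : GapStmt) : SobStmt where
  unif := by
    obtain ⟨c, hc, hw⟩ : ∃ c : ℝ, 0 < c ∧ ∀ k : ℕ, 722 ^ 2 ≤ k → ∀ s : ℝ,
        |s - k| ≤ 361 * √k → c / √k ≤ wt k s := ⟨_, Real.exp_pos _, fun _ hk _ hs => LSob_wt hk hs⟩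
    refine ⟨3 / c, 722 ^ 2, by positivity, fun k hk G hC y hy => ?_⟩
    have hk0 : (722 : ℝ) ^ 2 ≤ k := by exact_mod_cast hk
    have hq : (722 : ℝ) ≤ √k := Real.le_sqrt_of_sq_le hk0
    have hqq : √(k : ℝ) * √k = k := Real.mul_self_sqrt (by positivity)
    have g := hG k (by omega) G hC
    obtain ⟨y1, y2⟩ := abs_le.1 hy
    have hy2 : √(k : ℝ) * √k ≤ 2 * y := by nlinarith
    have hy0 : 0 < y := by nlinarith
    have de : ∀ j s, DifferentiableAt ℝ (ee k j) s := fun j s =>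
      (hL.ee_bd k j).1.differentiable (by simp) s
    have hd : ∀ s > 0, HasDerivAt (fun y => G y - ∑ j, am k G j * ee k j y)
        (deriv G s - ∑ j, am k G j * deriv (ee k j) s) s := fun s hs =>
      (LSob_diff hC hs).hasDerivAt.sub
        (HasDerivAt.fun_sum fun j _ => (de j s).hasDerivAt.const_mul _)
    have h := LSob_core hL (k := k) (by omega) (fun s hs => (hd s hs).differentiableAt)
      (LSob_sum hL (hL.cs k G hC).1 (fun j => (hL.ee_bd k j).2.1) _)
      (LSob_congr (LSob_sum hL (hL.cs k G hC).2.1 (fun j => (hL.ee_bd k j).2.2.1) (am k G))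
        fun s hs => (hd s hs).deriv) hy0 (l := √k) (m := c / √k) (by linarith) (by positivity)
      fun s hs => hw k hk s (abs_le.2 ⟨by linarith [hs.1], by linarith [hs.2]⟩)
    rw [g.h0, g.h1] at h
    have s0 : 0 ≤ SS k G := by linarith [g.gap, g.nonneg]
    refine le_of_mul_le_mul_left (h.trans ?_) (by linarith : 0 < √(k : ℝ))
    have a1 : 2 / (c / √k) * (ip k G G - ∑ j, am k G j ^ 2) ≤ √k * (1 / c * SS k G) := by
      have : 2 / (c / √k) = √k * (1 / c * 2) := by field_simp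
      rw [this, mul_assoc, mul_assoc]
      gcongr
      linarith [g.gap]
    have a2 : √k ^ 2 / (c / √k * y) * SS k G ≤ √k * (2 / c * SS k G) := by
      rw [← mul_assoc]
      refine mul_le_mul_of_nonneg_right ?_ s0
      rw [div_le_iff₀ (by positivity)]
      have : √(k : ℝ) * (2 / c) * (c / √k * y) = 2 * y := by field_simp
      rw [this, sq]
      exact hy2
    have : √(k : ℝ) * (3 / c * SS k G) = √k * (1 / c * SS k G) + √k * (2 / c * SS k G) := by ring
    linarith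
  loc := by
    intro k hk
    have hk0 : (2 : ℝ) ≤ k := by exact_mod_cast hk
    obtain ⟨s₀, hs₀, hmin⟩ := (isCompact_Icc (a := (k : ℝ) / 2) (b := 2 * k + 1)).exists_isMinOn
      (f := wt k) (nonempty_Icc.2 (by linarith)) (by unfold wt; fun_prop)
    have hm : 0 < wt k s₀ := LSob_wt_pos k (by linarith [hs₀.1])
    refine ⟨5 / wt k s₀, by positivity, fun G hC y hy => ?_⟩
    have g := hG k hk G hC
    have hy1 : 1 ≤ y := by linarith [hy.1]
    have h := LSob_core hL (k := k) (by omega) (fun s hs => LSob_diff hC hs) (hL.cs k G hC).1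
      (hL.cs k G hC).2.1 (y := y) (by linarith) one_pos hm
      fun s hs => hmin ⟨by linarith [hs.1, hy.1], by linarith [hs.2, hy.2]⟩
    have s0 : 0 ≤ SS k G := by linarith [g.gap, g.nonneg]
    have a0 : 0 ≤ ∑ j, am k G j ^ 2 := by positivity
    have q : Qm k G ≤ 3 * (SS k G + ∑ j, am k G j ^ 2) := by
      have : Qm k G = SS k G + ∑ j : Fin 4, (j : ℕ) * am k G j ^ 2 := by rw [SS]; ring
      rw [this, Fin.sum_univ_four, Fin.sum_univ_four]
      simp only [Fin.val_zero, Fin.val_one, Fin.val_two, show ((3 : Fin 4) : ℕ) = 3 from rfl]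
      push_cast
      nlinarith [sq_nonneg (am k G 0), sq_nonneg (am k G 1), sq_nonneg (am k G 2)]
    have a1 : 2 / wt k s₀ * ip k G G ≤ 2 / wt k s₀ * (SS k G + ∑ j, am k G j ^ 2) := by
      gcongr
      linarith [g.gap]
    have a2 : 1 ^ 2 / (wt k s₀ * y) * Qm k G ≤ 1 / wt k s₀ * (3 * (SS k G + ∑ j, am k G j ^ 2)) := by
      refine le_trans (mul_le_mul_of_nonneg_left q (by positivity)) ?_
      rw [one_pow]
      gcongr
      exact le_mul_of_one_le_right hm.le hy1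
    have : 5 / wt k s₀ * (SS k G + ∑ j, am k G j ^ 2) = 2 / wt k s₀ * (SS k G + ∑ j, am k G j ^ 2)
        + 1 / wt k s₀ * (3 * (SS k G + ∑ j, am k G j ^ 2)) := by ring
    linarith

end Vale.Agent.P244
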