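import Vale.Agent.P244.StmL
import Vale.Agent.P371.Brouwer

/-! P244: the topological argument. -/

open Set Filter
open scoped Topology

namespace Vale.Agent.P244

theorem LTopo_convex (r : ℝ) : Convex ℝ (Ball r) := by
  intro x hx y hy s t hs ht hst
  have h1 : x 0 ^ 2 + x 1 ^ 2 + x 2 ^ 2 ≤ r := hx
  have h2 : y 0 ^ 2 + y 1 ^ 2 + y 2 ^ 2 ≤ r := hy
  show (s * x 0 + t * y 0) ^ 2 + (s * x 1 + t * y 1) ^ 2 + (s * x 2 + t * y 2) ^ 2 ≤ r
  obtain rfl : t = 1 - s := by linarith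
  have h3 := mul_nonneg hs ht
  nlinarith [mul_nonneg h3 (sq_nonneg (x 0 - y 0)), mul_nonneg h3 (sq_nonneg (x 1 - y 1)),
    mul_nonneg h3 (sq_nonneg (x 2 - y 2)), mul_le_mul_of_nonneg_left h1 hs,
    mul_le_mul_of_nonneg_left h2 ht]

theorem LTopo_compact (r : ℝ) : IsCompact (Ball r) := by
  refine Metric.isCompact_of_isClosed_isBounded (isClosed_le (by fun_prop) continuous_const) ?_
  refine (Metric.isBounded_closedBall (x := (0 : V3)) (r := √r)).subset fun v hv => ?_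
  have h1 : v 0 ^ 2 + v 1 ^ 2 + v 2 ^ 2 ≤ r := hv
  rw [mem_closedBall_zero_iff, pi_norm_le_iff_of_nonneg (Real.sqrt_nonneg r)]
  intro i
  refine Real.abs_le_sqrt ?_
  have a0 := sq_nonneg (v 0)
  have a1 := sq_nonneg (v 1)
  have a2 := sq_nonneg (v 2)
  fin_cases i
  · show v 0 ^ 2 ≤ r
    linarith
  · show v 1 ^ 2 ≤ r
    linarith
  · show v 2 ^ 2 ≤ r
    linarith

theorem LTopo_first {T : ℝ} {g : ℝ → ℝ} (hg : ContinuousOn g (Ico 0 T)) {t : ℝ}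
    (ht : t ∈ Ico 0 T) (h0 : 0 ≤ g t) :
    ∃ s ∈ Ico 0 T, 0 ≤ g s ∧ ∀ u ∈ Ico 0 s, g u < 0 := by
  have hs : Icc 0 t ⊆ Ico 0 T := Icc_subset_Ico_right ht.2
  have hc : IsCompact (Icc 0 t ∩ g ⁻¹' Ici 0) := isCompact_Icc.of_isClosed_subset
    ((hg.mono hs).preimage_isClosed_of_isClosed isClosed_Icc isClosed_Ici) inter_subset_left
  obtain ⟨s, h1, h2⟩ := hc.exists_isLeast ⟨t, ⟨ht.1, le_rfl⟩, h0⟩
  refine ⟨s, hs h1.1, h1.2, fun u hu => not_le.1 fun h3 => ?_⟩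
  exact not_le.2 hu.2 (h2 ⟨⟨hu.1, hu.2.le.trans h1.1.2⟩, h3⟩)

theorem LTopo_pos {v : V3} (h : v ≠ 0) : 0 < v 0 ^ 2 + v 1 ^ 2 + v 2 ^ 2 := by
  refine lt_of_le_of_ne (by positivity) fun h1 => h (funext fun i => ?_)
  have a0 := sq_nonneg (v 0)
  have a1 := sq_nonneg (v 1)
  have a2 := sq_nonneg (v 2)
  fin_cases i
  · exact pow_eq_zero_iff two_ne_zero |>.1 (show v 0 ^ 2 = 0 by linarith)
  · exact pow_eq_zero_iff two_ne_zero |>.1 (show v 1 ^ 2 = 0 by linarith)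
  · exact pow_eq_zero_iff two_ne_zero |>.1 (show v 2 ^ 2 = 0 by linarith)

theorem topo : TopoStmt := by
  intro r tm G a hr h1 h2 h3 h4 h5
  by_contra hcon
  have h6 : ∀ α, ∃ s, α ∈ Ball r → s ∈ Ico 0 (tm α) ∧ 0 ≤ G α s ∧ ∀ u ∈ Ico 0 s, G α u < 0 := by
    intro α
    by_cases hα : α ∈ Ball r
    · have h7 : ∃ t ∈ Ico 0 (tm α), 0 ≤ G α t := by
        by_contra h8
        exact hcon ⟨α, hα, fun t ht => not_le.1 fun h9 => h8 ⟨t, ht, h9⟩⟩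
      obtain ⟨t, ht, h8⟩ := h7
      obtain ⟨s, hs⟩ := LTopo_first (h1 α hα).2.1 ht h8
      exact ⟨s, fun _ => hs⟩
    · exact ⟨0, fun h => (hα h).elim⟩
  choose ts hts using h6
  have hA : ContinuousOn (fun α => a α (ts α)) (Ball r) := by
    refine Metric.continuousOn_iff.2 fun α hα ε hε => ?_
    obtain ⟨t1, t2, t3⟩ := hts α hα
    obtain ⟨η, hη, k1⟩ := Metric.continuousOn_iff.1 (h1 α hα).2.2 _ t1 (ε / 2) (by linarith)
    obtain ⟨s2, p1, p2, p3, p4⟩ : ∃ s2, ts α ≤ s2 ∧ s2 < ts α + η ∧ s2 < tm α ∧ 0 < G α s2 := by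
      rcases t2.eq_or_lt with h7 | h7
      · obtain ⟨s, hs, h8, h9⟩ := h3 α hα _ t1 t3 h7.symm η hη
        exact ⟨s, hs.1.le, hs.2, h8, h9⟩
      · exact ⟨ts α, le_rfl, by linarith, t1.2, h7⟩
    obtain ⟨c, hc, k2⟩ := (isCompact_Icc (a := (0 : ℝ)) (b := ts α - η)).exists_forall_le'
      (f := fun u => -G α u) (a := 0)
      ((h1 α hα).2.1.mono fun u hu => ⟨hu.1, by linarith [hu.2, t1.2]⟩).neg
      fun u hu => neg_pos.2 (t3 u ⟨hu.1, by linarith [hu.2]⟩)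
    obtain ⟨e, he, e1, e2, e3⟩ : ∃ e : ℝ, 0 < e ∧ e ≤ ε / 2 ∧ e ≤ c / 2 ∧ e ≤ G α s2 / 2 :=
      ⟨min (ε / 2) (min (c / 2) (G α s2 / 2)), by positivity, min_le_left _ _,
        (min_le_right _ _).trans (min_le_left _ _), (min_le_right _ _).trans (min_le_right _ _)⟩
    obtain ⟨δ, hδ, k3⟩ := h2 α hα s2 ⟨t1.1.trans p1, p3⟩ e he
    refine ⟨δ, hδ, fun β hβ hd => ?_⟩
    rw [dist_eq_norm] at hd
    obtain ⟨u1, u2, u3⟩ := hts β hβ
    have q1 : ts β ≤ s2 := not_lt.1 fun h7 => by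
      have h8 := (k3 β hβ hd s2 ⟨t1.1.trans p1, le_rfl⟩ (h7.trans u1.2)
        fun u hu => u3 u ⟨hu.1, hu.2.trans h7⟩).1
      have h9 := u3 s2 ⟨t1.1.trans p1, h7⟩
      linarith [(abs_le.1 h8).1]
    obtain ⟨q2, q3⟩ := k3 β hβ hd (ts β) ⟨u1.1, q1⟩ u1.2 u3
    have q4 : ts α - η < ts β := not_le.1 fun h7 => by
      have h8 := k2 (ts β) ⟨u1.1, h7⟩
      linarith [(abs_le.1 q2).2]
    have q5 := k1 (ts β) ⟨u1.1, q1.trans_lt p3⟩ (by
      rw [Real.dist_eq, abs_lt]; constructor <;> linarith)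
    rw [← dist_eq_norm] at q3
    linarith [dist_triangle (a β (ts β)) (a α (ts β)) (a α (ts α))]
  have hq : ∀ α ∈ Ball r, 0 < a α (ts α) 0 ^ 2 + a α (ts α) 1 ^ 2 + a α (ts α) 2 ^ 2 :=
    fun α hα => LTopo_pos (h4 α hα _ (hts α hα).1 (hts α hα).2.2 (hts α hα).2.1)
  obtain ⟨k, hk⟩ : ∃ k : V3 → ℝ, k = fun α =>
    √r / √(a α (ts α) 0 ^ 2 + a α (ts α) 1 ^ 2 + a α (ts α) 2 ^ 2) := ⟨_, rfl⟩
  have hk1 : ∀ α ∈ Ball r, 0 < k α ∧
      k α ^ 2 * (a α (ts α) 0 ^ 2 + a α (ts α) 1 ^ 2 + a α (ts α) 2 ^ 2) = r := fun α hα => by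
    have h7 := hq α hα
    rw [hk]
    refine ⟨by positivity, ?_⟩
    simp only []
    rw [div_pow, Real.sq_sqrt hr.le, Real.sq_sqrt h7.le, div_mul_cancel₀ _ h7.ne']
  have hk2 : ContinuousOn k (Ball r) := by
    have c0 := (continuous_apply 0).comp_continuousOn hA
    have c1 := (continuous_apply 1).comp_continuousOn hA
    have c2 := (continuous_apply 2).comp_continuousOn hA
    rw [hk]
    exact continuousOn_const.div (((c0.pow 2).add (c1.pow 2)).add (c2.pow 2)).sqrt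
      fun α hα => (Real.sqrt_pos.2 (hq α hα)).ne'
  have hs : ∀ α ∈ Ball r, (-k α • a α (ts α)) 0 ^ 2 + (-k α • a α (ts α)) 1 ^ 2 +
      (-k α • a α (ts α)) 2 ^ 2 = r := fun α hα => by
    simp only [Pi.smul_apply, smul_eq_mul]
    linarith [(hk1 α hα).2]
  obtain ⟨α, hα, hf⟩ := Vale.Agent.P371.brouwer (LTopo_convex r) (LTopo_compact r)
    ⟨0, show (0 : ℝ) ^ 2 + 0 ^ 2 + 0 ^ 2 ≤ r by linarith⟩ (f := fun α => -k α • a α (ts α))
    (hk2.neg.smul hA) fun α hα => (hs α hα).le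
  have h7 := hs α hα
  have hf' : -k α • a α (ts α) = α := hf
  rw [hf'] at h7
  obtain ⟨h8, h9⟩ := h5 α h7
  have h10 : ts α = 0 := (hts α hα).1.1.eq_or_lt.elim Eq.symm fun h =>
    absurd h8 (not_le.2 ((hts α hα).2.2 0 ⟨le_rfl, h⟩))
  have b0 := congrFun hf' 0
  have b1 := congrFun hf' 1
  have b2 := congrFun hf' 2
  have h11 := mul_pos (hk1 α hα).1 (hq α hα)
  rw [h10] at b0 b1 b2 h11
  simp only [Pi.smul_apply, smul_eq_mul] at b0 b1 b2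
  rw [Fin.sum_univ_three] at h9
  generalize k α = κ at *
  generalize a α 0 = A at *
  rw [← b0, ← b1, ← b2] at h9
  linarith

end Vale.Agent.P244
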