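import Vale.Agent.P244.StmS

/-! P244: derivatives along a profile, and preservation of the constraint. -/

open Set Filter
open scoped ContDiff Topology

namespace Vale.Agent.P244

theorem SDictCon_has {g : ℝ → ℝ} (h : ContDiff ℝ ∞ g) (x : ℝ) :
    HasDerivWithinAt g (deriv g x) I x :=
  (h.differentiable inf_ne_zero x).hasDerivAt.hasDerivWithinAt

theorem SDictCon_chain {d : ℝ} {g : Fin 3 → ℝ → ℝ} (hO : IsOpen (Om d)) (hs : ∀ i, Sm (g i))
    {x : ℝ} (hx : x ∈ I) (hm : (x, val g x) ∈ Om d) {F : ℝ × V3 → ℝ}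
    (hF : ContDiffOn ℝ ∞ F (Om d)) :
    HasDerivWithinAt (fun y => F (bs (pt g y)))
      (fderiv ℝ F (bs (pt g x)) (1, fun i => d1 (g i) x)) I x := by
  have h1 : HasDerivWithinAt (fun y => ((y, val g y) : ℝ × V3)) (1, fun i => d1 (g i) x) I x :=
    (hasDerivWithinAt_id x I).prodMk (hasDerivWithinAt_pi.2 fun i => (hs i).hasW hx)
  have h2 : HasFDerivAt F (fderiv ℝ F (x, val g x)) (x, val g x) :=
    ((hF.differentiableOn inf_ne_zero _ hm).differentiableAt (hO.mem_nhds hm)).hasFDerivAt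
  exact h2.comp_hasDerivWithinAt x h1

theorem SDictCon_tv (g : Fin 3 → ℝ → ℝ) {x : ℝ} (hx : x ∈ Ioo (0 : ℝ) 1) :
    ((1, fun i => d1 (g i) x) : ℝ × V3) =
      tv (pt g x) + (d1 (g 0) x - g 1 x) • ((0, Pi.single 0 1) : ℝ × V3) := by
  have h := (om_pos hx).ne'
  refine Prod.ext (by simp [tv]) (funext fun i => ?_)
  fin_cases i
  · simp [tv, pt, val, Matrix.vecHead]
  · simp [tv, pt, gr, h, Matrix.vecHead, Matrix.vecTail]
  · simp [tv, pt, gr, h, Matrix.vecHead, Matrix.vecTail]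

theorem SDictCon_d1 {d : ℝ} {g : Fin 3 → ℝ → ℝ} (hO : IsOpen (Om d)) (hs : ∀ i, Sm (g i))
    {x : ℝ} (hx : x ∈ Ioo (0 : ℝ) 1) (hm : (x, val g x) ∈ Om d) {F : ℝ × V3 → ℝ}
    (hF : ContDiffOn ℝ ∞ F (Om d)) :
    d1 (fun y => F (bs (pt g y))) x = fderiv ℝ F (bs (pt g x)) (tv (pt g x)) +
      (d1 (g 0) x - g 1 x) * fderiv ℝ F (bs (pt g x)) (0, Pi.single 0 1) := by
  rw [d1_eq (Ioo_subset_Icc_self hx) (SDictCon_chain hO hs (Ioo_subset_Icc_self hx) hm hF),
    SDictCon_tv g hx, map_add, map_smul, smul_eq_mul]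

theorem SDictCon_aa {g : Fin 3 → ℝ → ℝ} (hs : ∀ i, Sm (g i)) {x : ℝ} (hx : x ∈ I) :
    HasDerivWithinAt (fun y => aa (bs (pt g y))) (aa1 (pt g x)) I x := by
  have h := ((hasDerivAt_om x).hasDerivWithinAt.fun_mul ((hs 2).hasW hx)).const_sub 1
  exact h

theorem SDictCon_zz {g : Fin 3 → ℝ → ℝ} (hs : ∀ i, Sm (g i)) {x : ℝ} (hx : x ∈ I) :
    d1 (fun y => ZZ (bs (pt g y))) x = ZZ1 (pt g x) :=
  d1_eq hx ((((hasDerivAt_om x).const_mul 4).hasDerivWithinAt.fun_mul (SDictCon_aa hs hx)))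

theorem SDictCon_ps {d : ℝ} {g : Fin 3 → ℝ → ℝ} (h : Prof d g) {x : ℝ} (hx : x ∈ I) :
    d1 (fun y => PsP (bs (pt g y))) x = Ps1 (bs (pt g x)) := by
  have h1 := (hasDerivWithinAt_id x I).fun_add
    ((SDictCon_has contDiff_gam x).fun_mul ((h.sm 0).hasW hx))
  refine (d1_eq hx h1).trans ?_
  rw [← h.con x hx]
  simp only [Ps1, bs, pt, val]
  ring

theorem SDictCon_ph {d : ℝ} {g : Fin 3 → ℝ → ℝ} (h : Prof d g) {x : ℝ} (hx : x ∈ I) :
    d1 (fun y => PhP d (bs (pt g y))) x = Ph1 d (bs (pt g x)) := by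
  have h1 := (SDictCon_has (contDiff_ph0 d) x).fun_add
    (((SDictCon_has contDiff_gam x).const_sub 1).fun_mul ((h.sm 0).hasW hx))
  refine (d1_eq hx h1).trans ?_
  rw [← h.con x hx]
  simp only [Ph1, bs, pt, val]
  ring

theorem dict (hS : SmKStmt) : DictStmt := by
  intro d hd g h x hx
  have hK := hS d hd
  have hg := SDictCon_has contDiff_gam x
  have hg' := SDictCon_has (contDiff_deriv contDiff_gam) x
  have h0 := (h.sm 0).hasW hx
  have h1 := (h.sm 1).hasW hx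
  rw [← h.con x hx] at h0
  refine ⟨SDictCon_ps h hx, SDictCon_ph h hx, SDictCon_zz h.sm hx, ?_, ?_, ?_, ?_, fun hx' => ?_,
    fun hx' => ?_⟩
  · have h2 := ((hasDerivWithinAt_id x I).const_sub 1).fun_mul (SDictCon_aa h.sm hx)
    refine (d1_eq hx h2).trans ?_
    simp only [z0', id]
    change _ = -aa (bs (pt g x)) + (1 - x) * aa1 (pt g x)
    ring
  · have h2 := ((hg'.fun_mul h0).const_add 1).fun_add (hg.fun_mul h1)
    rw [d1_congr (fun y hy => SDictCon_ps h hy) hx]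
    rw [show d1 (fun y => Ps1 (bs (pt g y))) x = _ from d1_eq hx h2]
    simp only [ZPs2, ZZ, cc, bs, pt, val, gr]
    ring
  · have h2 := ((SDictCon_has (contDiff_deriv (contDiff_ph0 d)) x).fun_sub (hg'.fun_mul h0)).fun_add
      ((hg.const_sub 1).fun_mul h1)
    rw [d1_congr (fun y hy => SDictCon_ph h hy) hx]
    rw [show d1 (fun y => Ph1 d (bs (pt g y))) x = _ from d1_eq hx h2]
    simp only [ZPh2, ZZ, cc, bs, pt, val, gr]
    ring
  · rw [← d1_congr (fun y hy => h.con y hy) hx]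
    simp only [ZZ, bs, pt, gr]
    ring
  · rw [SDictCon_d1 hK.isOpen h.sm hx' (h.mem x hx) hK.bb, ← h.con x hx, sub_self, zero_mul,
      add_zero, dBB]
  · rw [SDictCon_d1 hK.isOpen h.sm hx' (h.mem x hx) hK.gg, ← h.con x hx, sub_self, zero_mul,
      add_zero, dGG]

theorem SDictCon_lift {d : ℝ} {F : ℝ × V3 → ℝ} (hF : ContDiffOn ℝ ∞ F (Om d)) :
    ContDiffOn ℝ ∞ (fun q : Q => F (bs q)) (lift (Om d)) :=
  hF.comp (by unfold bs; fun_prop) fun _ hq => hq

theorem SDictCon_fd {d : ℝ} (hO : IsOpen (Om d)) {F : ℝ × V3 → ℝ}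
    (hF : ContDiffOn ℝ ∞ F (Om d)) :
    ContDiffOn ℝ ∞ (fun p => fderiv ℝ F p (0, Pi.single 0 1)) (Om d) :=
  (hF.fderiv_of_isOpen hO inf_add_one).clm_apply contDiffOn_const

/-- The first order coefficient of the system. -/
noncomputable def SDictCon_m (d : ℝ) (p : ℝ × V3) : ℝ := 8 * aa p * (1 - 2 * p.1) + be d p.1

theorem con (hB : BoxStmt) (hG : GronStmt) (hN : MidNStmt) (hS : SmKStmt) : ConStmt := by
  intro d hd f0 T f h h0
  have hK := hS d hd
  have hT := h.pos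
  have com : ContDiff ℝ ∞ fun p : ℝ × V3 => om p.1 := contDiff_om.comp contDiff_fst
  have caa : ContDiff ℝ ∞ aa := by
    unfold aa
    fun_prop
  have jZ : JS T (ZF f) := h.js_comp (SDictCon_lift
    (((contDiff_const.mul com).mul caa).contDiffOn : ContDiffOn ℝ ∞ ZZ (Om d)))
  have jm : JS T (evF (fun q => SDictCon_m d (bs q)) f) := h.js_comp (SDictCon_lift
    (F := SDictCon_m d) (by unfold SDictCon_m be; fun_prop))
  have jB : JS T (BF d f) := h.js_comp (SDictCon_lift hK.bb)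
  have jG : JS T (evF (fun q => GG d (bs q)) f) := h.js_comp (SDictCon_lift hK.gg)
  have jBy : JS T (evF (fun q => fderiv ℝ (BB d) (bs q) (0, Pi.single 0 1)) f) :=
    h.js_comp (SDictCon_lift (SDictCon_fd hK.isOpen hK.bb))
  have jGy : JS T (evF (fun q => fderiv ℝ (GG d) (bs q) (0, Pi.single 0 1)) f) :=
    h.js_comp (SDictCon_lift (SDictCon_fd hK.isOpen hK.gg))
  have jy := h.js 0
  have jV := h.js 1
  have jU : JS T fun t x => dx (f 0) t x - f 1 t x := (jy.dx hT).sub jV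
  have jc := ((jm.dx hT).add (jBy.mul jV)).add jGy
  have jD := (jZ.dx hT).add jm
  obtain ⟨C, hC⟩ := jc.bdd
  have hsm : ∀ t ∈ Icc 0 T, ∀ i, Sm (sl f t i) := fun t ht i => (h.js i).sm ht
  have hZ1 : ∀ t ∈ Icc 0 T, ∀ x ∈ I, dx (ZF f) t x = ZZ1 (pt (sl f t) x) := fun t ht x hx =>
    SDictCon_zz (hsm t ht) hx
  have ey : ∀ t ∈ Icc 0 T, ∀ x ∈ I, dt T (f 0) t x = ZF f t x * dx (dx (f 0)) t x +
      evF (fun q => SDictCon_m d (bs q)) f t x * (dx (f 0) t x - f 1 t x) +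
      BF d f t x * f 1 t x + evF (fun q => GG d (bs q)) f t x := fun t ht x hx => by
    rw [h.eqn t ht x hx 0]
    simp only [rhs, NL, Matrix.cons_val_zero, N0, ZF, BF, evF, SDictCon_m, ZZ, aa, al, bs, pt, val,
      sl, dx]
    ring
  have eU : ∀ t ∈ Icc 0 T, ∀ x ∈ Ioo (0 : ℝ) 1,
      box T (ZF f) (fun t x => dx (ZF f) t x + evF (fun q => SDictCon_m d (bs q)) f t x)
        (fun t x => dx (f 0) t x - f 1 t x) t x =
      (dx (evF (fun q => SDictCon_m d (bs q)) f) t x +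
        evF (fun q => fderiv ℝ (BB d) (bs q) (0, Pi.single 0 1)) f t x * f 1 t x +
        evF (fun q => fderiv ℝ (GG d) (bs q) (0, Pi.single 0 1)) f t x) *
        (dx (f 0) t x - f 1 t x) := fun t ht x hx' => by
    have hx := Ioo_subset_Icc_self hx'
    have a1 := ((((jZ.hasXW ht hx).fun_mul (((jy.dx hT).dx hT).hasXW ht hx)).fun_add
      ((jm.hasXW ht hx).fun_mul (((jy.dx hT).hasXW ht hx).fun_sub (jV.hasXW ht hx)))).fun_add
      ((jB.hasXW ht hx).fun_mul (jV.hasXW ht hx))).fun_add (jG.hasXW ht hx)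
    have a2 : dt T (dx (f 0)) t x = _ := (jy.dt_dx hT ht hx).trans
      ((d1_congr (ey t ht) hx).trans (d1_eq hx a1))
    have a3 : dx (BF d f) t x = _ := SDictCon_d1 hK.isOpen (hsm t ht) hx' (h.mem t ht x hx) hK.bb
    have a4 : dx (evF (fun q => GG d (bs q)) f) t x = _ :=
      SDictCon_d1 hK.isOpen (hsm t ht) hx' (h.mem t ht x hx) hK.gg
    have a5 : dt T (f 1) t x = ZF f t x * dx (dx (f 1)) t x +
        (dx (ZF f) t x + BF d f t x) * dx (f 1) t x + dBB d (pt (sl f t) x) * f 1 t x +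
        dGG d (pt (sl f t) x) := by
      rw [h.eqn t ht x hx 1, rhs, (hN.mid d hd (pt (sl f t) x) (h.mem t ht x hx) hx').1,
        hZ1 t ht x hx, N1m]
      have a6 : (pt (sl f t) x).2.2 1 / om (pt (sl f t) x).1 = dx (f 1) t x :=
        mul_div_cancel_left₀ _ (om_pos hx').ne'
      rw [a6]
      simp only [ZF, BF, evF, ZZ, aa, al, bs, pt, val, sl, dx]
      ring
    rw [hB.sub _ _ _ _ _ hT (jy.dx hT) jV t ht x hx, box, box, a2, a3, a4, a5]
    simp only [evF, dBB, dGG, sl, dx]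
    ring
  have key := hG T (fun t x => (dx (f 0) t x - f 1 t x) * (dx (f 0) t x - f 1 t x)) (ZF f)
    (fun t x => dx (ZF f) t x + evF (fun q => SDictCon_m d (bs q)) f t x) (2 * |C|) 0 0 hT
    (jU.mul jU) (by positivity) le_rfl le_rfl (fun t ht => ?_) (fun x hx => ?_)
    (fun t ht x hx _ => ?_)
  · refine ⟨h, fun t ht x hx => ?_⟩
    have := key t ht x hx
    simp only [zero_mul, add_zero] at this
    nlinarith [mul_self_nonneg (dx (f 0) t x - f 1 t x)]
  · refine ⟨fun x hx => ?_, ?_, ?_, ?_, ?_⟩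
    · exact mul_nonneg (mul_nonneg (by norm_num) (om_nonneg hx)) (aa_pos (h.mem t ht x hx)).le
    · simp [ZF, evF, ZZ, bs, pt, om_zero]
    · simp only [hZ1 t ht 0 (by simp)]
      simp only [evF, ZZ1, SDictCon_m, aa, bs, pt, om_zero, be]
      linarith
    · simp [ZF, evF, ZZ, bs, pt, om_one]
    · simp only [hZ1 t ht 1 (by simp)]
      simp only [evF, ZZ1, SDictCon_m, aa, bs, pt, om_one, be]
      linarith
  · have e : dx (f 0) 0 x = f 1 0 x := by
      rw [h.init 1 x hx, h0 x hx]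
      exact d1_congr (h.init 0) hx
    simp [e]
  · refine le_of_Ioo zero_lt_one (hB.cont T _ _ _ hT (jU.mul jU) t ht (jZ.sm ht).cont
      (jD.sm ht).cont) ((continuousOn_const.mul ((jU.mul jU).sm ht).cont).add continuousOn_const)
      (fun y hy' => ?_) x hx
    have hy := Ioo_subset_Icc_self hy'
    rw [hB.mul _ _ _ _ _ hT jU jU t ht y hy, eU t ht y hy']
    have b1 := (le_abs_self _).trans ((hC t ht y hy).trans (le_abs_self C))
    have b2 : 0 ≤ ZF f t y :=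
      mul_nonneg (mul_nonneg (by norm_num) (om_nonneg hy)) (aa_pos (h.mem t ht y hy)).le
    have b3 := mul_le_mul_of_nonneg_right b1 (mul_self_nonneg (dx (f 0) t y - f 1 t y))
    have b4 := mul_nonneg b2 (mul_self_nonneg (dx (fun t x => dx (f 0) t x - f 1 t x) t y))
    simp only [Pi.add_apply, Pi.mul_apply]
    nlinarith

end Vale.Agent.P244
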