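import Vale.Agent.P244.StmS

/-! P244: evolution of the Ricci eigenvalues along a solution. -/

open Set Filter
open scoped ContDiff Topology

namespace Vale.Agent.P244

theorem SEvo_comm {T : ℝ} {Z B u : Fn} {t x : ℝ} (hT : 0 < T) (ht : t ∈ Icc 0 T) (hx : x ∈ I)
    (hZ : JS T Z) (hB : JS T B) (h : JS T u) : box T Z B (dx u) t x =
      dx (box T Z B u) t x + dx Z t x * dx (dx u) t x + dx B t x * dx u t x := by
  have e : dx (box T Z B u) t x = _ := d1_eq hx ((((h.dt hT).hasXW ht hx).sub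
    ((hZ.hasXW ht hx).mul (((h.dx hT).dx hT).hasXW ht hx))).sub
    ((hB.hasXW ht hx).mul ((h.dx hT).hasXW ht hx)))
  rw [e, box, h.dt_dx hT ht hx]
  ring

theorem SEvo_abs (hB : BoxStmt) {T k : ℝ} {Z B S : Fn} {c : ℝ → ℝ} {U : Set ℝ} (hT : 0 < T)
    (hU : IsOpen U) (hUI : U ⊆ Ioo 0 1) (jZ : JS T Z) (jB : JS T B) (jS : JS T S)
    (hc : ContDiff ℝ ∞ c) (hc0 : ∀ x ∈ U, c x = 0)
    (hpos : ∀ t ∈ Icc 0 T, ∀ x ∈ I, 0 < S t x + c x)
    (hS : ∀ t ∈ Icc 0 T, ∀ x ∈ U, box T Z B S t x = -2 * k - Z t x * dx S t x ^ 2 / S t x) :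
    ∃ u P : Fn, JS T u ∧ JS T P ∧ ∀ t ∈ Icc 0 T, ∀ x ∈ U,
      u t x = 1 / S t x ∧ P t x = dx S t x / (2 * S t x) ∧
      dx P t x = dx (dx S) t x / (2 * S t x) - dx S t x ^ 2 / (2 * S t x ^ 2) ∧
      dx u t x = -2 * u t x * P t x ∧
      box T Z B u t x = 2 * k * u t x ^ 2 - 4 * u t x * Z t x * P t x ^ 2 ∧
      box T Z B P t x = 2 * k * P t x * u t x + dx Z t x * dx P t x + dx B t x * P t x := by
  set W : Fn := fun t x => S t x + c x with hW
  have jW : JS T W := jS.add (JS.ofX hc.contDiffOn)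
  have ju : JS T fun t x => (W t x)⁻¹ :=
    ContDiffOn.inv jW fun p hp => (hpos p.1 hp.1 p.2 hp.2).ne'
  have jL : JS T fun t x => Real.log (W t x) :=
    ContDiffOn.log jW fun p hp => (hpos p.1 hp.1 p.2 hp.2).ne'
  have cL := fun t ht x hx => hB.comp T Z B W Real.log (fun s => s⁻¹) (fun s => -(s ^ 2)⁻¹) (Ioi 0)
    hT jW isOpen_Ioi (fun s hs => ⟨Real.hasDerivAt_log (ne_of_gt hs), hasDerivAt_inv (ne_of_gt hs)⟩)
    t ht x hx (hpos t ht x hx)
  have cu := fun t ht x hx => hB.comp T Z B W (fun s => s⁻¹) (fun s => -(s ^ 2)⁻¹)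
    (fun s => 2 / s ^ 3) (Ioi 0) hT jW isOpen_Ioi (fun s hs => ⟨hasDerivAt_inv (ne_of_gt hs), by
      have h0 : s ≠ 0 := ne_of_gt hs
      refine (((hasDerivAt_pow 2 s).inv (pow_ne_zero 2 h0)).neg).congr_deriv ?_
      field_simp; ring⟩) t ht x hx (hpos t ht x hx)
  have hI : ∀ x ∈ U, x ∈ I := fun x hx => Ioo_subset_Icc_self (hUI hx)
  have e0 : ∀ t, ∀ x ∈ U, W t x = S t x := fun t x hx => by simp [hW, hc0 x hx]
  have e1 := fun t ht x hx => hB.congr T Z B W S t ht x (hI x hx) U (hU.mem_nhds hx)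
    fun s _ y hy => e0 s y hy.1
  have bL : ∀ t ∈ Icc 0 T, ∀ x ∈ U,
      box T Z B (fun t x => Real.log (W t x)) t x = -2 * k * (W t x)⁻¹ := fun t ht x hx => by
    have h0 : S t x ≠ 0 := by rw [← e0 t x hx]; exact (hpos t ht x (hI x hx)).ne'
    rw [(cL t ht x (hI x hx)).2, (e1 t ht x hx).2.2, (e1 t ht x hx).1, hS t ht x hx, e0 t x hx]
    field_simp; ring
  refine ⟨fun t x => (W t x)⁻¹, fun t x => 1 / 2 * dx (fun t x => Real.log (W t x)) t x, ju,
    (JS.const _).mul (jL.dx hT), fun t ht x hx => ?_⟩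
  have hx' := hI x hx
  have h0 : S t x ≠ 0 := by rw [← e0 t x hx]; exact (hpos t ht x hx').ne'
  obtain ⟨a1, a2, a3⟩ := e1 t ht x hx
  have b0 := (cu t ht x hx').1
  have b1 := (cL t ht x hx').1
  have b2 : dx (dx fun t x => Real.log (W t x)) t x =
      (W t x)⁻¹ * dx (dx W) t x + dx W t x * dx (fun t x => (W t x)⁻¹) t x := by
    rw [← hB.dx_mul T _ _ ju (jW.dx hT) t ht x hx']
    exact d1_congr (fun y hy => (cL t ht y hy).1) hx'
  have b3 : dx (fun t x => 1 / 2 * dx (fun t x => Real.log (W t x)) t x) t x =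
      1 / 2 * dx (dx fun t x => Real.log (W t x)) t x :=
    d1_eq hx' (((jL.dx hT).hasXW ht hx').const_mul _)
  have b4 : dx (box T Z B fun t x => Real.log (W t x)) t x =
      -2 * k * dx (fun t x => (W t x)⁻¹) t x :=
    (hB.congr T Z B _ _ t ht x hx' U (hU.mem_nhds hx) fun s hs y hy => bL s hs y hy.1).1.trans
      (d1_eq hx' ((ju.hasXW ht hx').const_mul _))
  rw [hB.smul T Z B _ (1 / 2) hT (jL.dx hT) t ht x hx', SEvo_comm hT ht hx' jZ jB jL, b4, b3,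
    (cu t ht x hx').2, a3, hS t ht x hx]
  simp only [b2, b1, b0, a1, a2, e0 t x hx]
  refine ⟨by simp, ?_, ?_, ?_, ?_, ?_⟩ <;> field_simp <;> ring

theorem evo (hB : BoxStmt) (hM : MidStmt) (hD : DictStmt) (hG : GeqStmt) (hA : EvoAbsStmt) :
    EvoStmt := by
  intro d hd f0 T f h t0 ht0 x0 hx0
  have hT := h.sol.pos
  have J := hG.js d hd f0 T f h.sol
  have G := hG.eq d hd f0 T f h
  obtain ⟨a, b, ha, hb, hx⟩ : ∃ a b : ℝ, 0 < a ∧ b < 1 ∧ x0 ∈ Ioo a b :=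
    ⟨x0 / 2, (1 + x0) / 2, by linarith [hx0.1], by linarith [hx0.2], by linarith [hx0.1],
      by linarith [hx0.2]⟩
  have hUI : Ioo a b ⊆ Ioo 0 1 := Ioo_subset_Ioo ha.le hb.le
  have hI : ∀ x ∈ Ioo a b, x ∈ I := fun x hx => Ioo_subset_Icc_self (hUI hx)
  set c : ℝ → ℝ := fun x => Real.smoothTransition (a - x) + Real.smoothTransition (x - b) with hc
  have c1 : ContDiff ℝ ∞ c := (Real.smoothTransition.contDiff.comp (by fun_prop)).add
    (Real.smoothTransition.contDiff.comp (by fun_prop))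
  have c2 : ∀ x ∈ Ioo a b, c x = 0 := fun x hx => by
    simp only [hc, Real.smoothTransition.zero_of_nonpos (show a - x ≤ 0 by linarith [hx.1]),
      Real.smoothTransition.zero_of_nonpos (show x - b ≤ 0 by linarith [hx.2]), add_zero]
  have c3 : ∀ x, 0 ≤ c x := fun x =>
    add_nonneg (Real.smoothTransition.nonneg _) (Real.smoothTransition.nonneg _)
  have c4 : 0 < c 0 := add_pos_of_pos_of_nonneg (Real.smoothTransition.pos_of_pos (by linarith))
    (Real.smoothTransition.nonneg _)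
  have c5 : 0 < c 1 := add_pos_of_nonneg_of_pos (Real.smoothTransition.nonneg _)
    (Real.smoothTransition.pos_of_pos (by linarith))
  obtain ⟨u, P, ju, jP, hP⟩ := SEvo_abs hB (k := d) hT isOpen_Ioo hUI J.z J.b J.ps c1 c2
    (fun t ht x hx => by
      rcases hx.1.lt_or_eq with h0 | h0
      · exact add_pos_of_pos_of_nonneg (PsP_pos (h.sol.mem t ht x hx) h0) (c3 x)
      · subst h0
        simpa [PsF, evF, PsP, Ps, bs_pt, gam_zero (x := 0) (by norm_num)] using c4)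
    fun t ht x hx => (G t ht x (hI x hx)).ps (hUI hx).1
  obtain ⟨v, R, jv, jR, hR⟩ := SEvo_abs hB (k := 1) hT isOpen_Ioo hUI J.z J.b J.ph c1 c2
    (fun t ht x hx => by
      rcases hx.2.lt_or_eq with h0 | h0
      · exact add_pos_of_pos_of_nonneg (PhP_pos (h.sol.mem t ht x hx) h0) (c3 x)
      · subst h0
        simpa [PhF, evF, PhP, Ph, bs_pt, gam_one (x := 1) (by norm_num),
          ph0_right d (x := 1) (by norm_num)] using c5)
    fun t ht x hx => by rw [mul_one]; exact (G t ht x (hI x hx)).ph (hUI hx).2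
  have key : ∀ t ∈ Icc 0 T, ∀ x ∈ Ioo a b,
      K1 (pt (sl f t) x) = kP (ZF f) P t x ∧ K2 d (pt (sl f t) x) = kP (ZF f) R t x ∧
      L1 (pt (sl f t) x) = u t x - ZF f t x * P t x ^ 2 ∧
      L2 d (pt (sl f t) x) = v t x - ZF f t x * R t x ^ 2 ∧
      MM d (pt (sl f t) x) = -(ZF f t x * P t x * R t x) ∧
      A1 (pt (sl f t) x) = ZF f t x * P t x ^ 2 ∧ A2 d (pt (sl f t) x) = ZF f t x * R t x ^ 2 := by
    intro t ht x hx
    have hq : pt (sl f t) x ∈ lift (Om d) := h.sol.mem t ht x (hI x hx)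
    have m := hM.k d hd _ hq (hUI hx)
    have dc := hD d hd _ (h.prof ht) x (hI x hx)
    obtain ⟨p1, p2, p3, -⟩ := hP t ht x hx
    obtain ⟨r1, r2, r3, -⟩ := hR t ht x hx
    have d1' : dx (PsF f) t x = Ps1 (bs (pt (sl f t) x)) := dc.ps
    have d2' : dx (PhF d f) t x = Ph1 d (bs (pt (sl f t) x)) := dc.ph
    have d3 : dx (ZF f) t x = ZZ1 (pt (sl f t) x) := dc.zz
    have d4 : ZZ (bs (pt (sl f t) x)) * dx (dx (PsF f)) t x = ZPs2 (pt (sl f t) x) := dc.ps2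
    have d5 : ZZ (bs (pt (sl f t) x)) * dx (dx (PhF d f)) t x = ZPh2 d (pt (sl f t) x) := dc.ph2
    have n1 : PsP (bs (pt (sl f t) x)) ≠ 0 := (PsP_pos hq (hUI hx).1).ne'
    have n2 : PhP d (bs (pt (sl f t) x)) ≠ 0 := (PhP_pos hq (hUI hx).2).ne'
    rw [m.k1, m.k2, m.l1, m.l2, m.mm]
    simp only [kP, p1, p2, p3, r1, r2, r3, d1', d2', d3, K1m, K2m, L1m, L2m, Mm, A1, A2, kk, ll, mx,
      ← d4, ← d5]
    generalize dx (dx (PsF f)) t x = X
    generalize dx (dx (PhF d f)) t x = Y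
    simp only [ZF, PsF, PhF, evF]
    refine ⟨?_, ?_, ?_, ?_, ?_, ?_, ?_⟩ <;> field_simp <;> ring
  have main := hA d T (ZF f) (BF d f) P R u v (evF (E0 d) f) (evF (E1 d) f) (evF (E2 d) f) _ hT
    isOpen_Ioo hUI J.z J.b jP jR ju jv (fun t ht x hx => by
      obtain ⟨-, p2, -, p4, p5, p6⟩ := hP t ht x hx
      obtain ⟨-, r2, -, r4, r5, r6⟩ := hR t ht x hx
      obtain ⟨k1, k2, k3, k4, k5, -⟩ := key t ht x hx
      have hq : pt (sl f t) x ∈ lift (Om d) := h.sol.mem t ht x (hI x hx)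
      have n1 : PsF f t x ≠ 0 := (PsP_pos hq (hUI hx).1).ne'
      have n2 : PhF d f t x ≠ 0 := (PhP_pos hq (hUI hx).2).ne'
      refine ⟨p4, r4, p5, by rw [r5]; ring, p6, by rw [r6]; ring, ?_, ?_, ?_, ?_⟩
      · refine ((G t ht x (hI x hx)).z (hUI hx)).trans ?_
        rw [p2, r2]; field_simp
      · simp only [evF, E0, k1, k2]
      · simp only [evF, E1, k1, k3, k5]; ring
      · simp only [evF, E2, k2, k4, k5]; ring) t0 ht0 x0 hx
  obtain ⟨k1, k2, k3, k4, k5, k6, k7⟩ := key t0 ht0 x0 hx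
  refine ⟨main.1.trans ?_, main.2.1.trans ?_, main.2.2.trans ?_⟩
  · simp only [evF, vE0, k1, k2, k6, k7]
  · simp only [evF, vE1, k1, k3, k5, k6]; ring
  · simp only [evF, vE2, k2, k4, k5, k7]; ring

end Vale.Agent.P244
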