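import Vale.Agent.P244.StmS

/-! P244: evolution of the scalar curvature, of the norm of Ricci and of the differences. -/

open Set Filter
open scoped ContDiff Topology

namespace Vale.Agent.P244

theorem SEvo2_lin (hB : BoxStmt) {T : ℝ} (A B : Fn) {u v w : Fn} (a b c : ℝ) (hT : 0 < T)
    (hu : JS T u) (hv : JS T v) (hw : JS T w) {t x : ℝ} (ht : t ∈ Icc 0 T) (hx : x ∈ I) :
    box T A B (fun t x => a * u t x + b * v t x + c * w t x) t x =
      a * box T A B u t x + b * box T A B v t x + c * box T A B w t x := by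
  have h1 := (JS.const a).mul hu
  have h2 := (JS.const b).mul hv
  have h3 := (JS.const c).mul hw
  rw [hB.add T A B _ _ hT (h1.add h2) h3 t ht x hx, hB.add T A B _ _ hT h1 h2 t ht x hx,
    hB.smul T A B u a hT hu t ht x hx, hB.smul T A B v b hT hv t ht x hx,
    hB.smul T A B w c hT hw t ht x hx]

theorem SEvo2_two {c k : ℝ} (h : |c| ≤ k) (a b : ℝ) : 2 * c * a * b ≤ k * (a ^ 2 + b ^ 2) := by
  rw [abs_le] at h
  nlinarith [mul_nonneg (sub_nonneg.2 h.2) (sq_nonneg (a + b)),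
    mul_nonneg (show 0 ≤ k + c by linarith [h.1]) (sq_nonneg (a - b))]

theorem SEvo2_rs (d : ℝ) (q : Q) :
    1 * vE0 d q + (d + 1) * vE1 d q + 2 * vE2 d q = 2 * SE d q := by
  unfold vE0 vE1 vE2 SE E0 E1 E2; ring

theorem SEvo2_d0 (d : ℝ) (q : Q) : 1 * vE0 d q + -1 * vE1 d q + 0 * vE2 d q = vD0 d q := by
  unfold vE0 vE1 vD0 D0 D2 E0 E1 E2; ring

theorem SEvo2_d2 (d : ℝ) (q : Q) : 0 * vE0 d q + -1 * vE1 d q + 1 * vE2 d q = vD2 d q := by
  unfold vE1 vE2 vD2 D0 D2 E0 E1 E2; ring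

theorem SEvo2_dd {d : ℝ} (hd : 0 < d) (q : Q) :
    1 * vD2 d q + -(d + 2)⁻¹ * vD0 d q + 0 * vD0 d q = cc0 d q * D0 d q + cc2 d q * D2 d q := by
  have : d + 2 ≠ 0 := by positivity
  unfold vD0 vD2 cc0 cc2
  field_simp
  ring

/-- The quadratic reaction term. -/
noncomputable def SEvo2_sq (d : ℝ) (q : Q) : ℝ :=
  4 * (2 * (d + 1) * K1 q * E0 d q * E1 d q + 4 * K2 d q * E0 d q * E2 d q +
    (d + 1) * d * L1 q * E1 d q * E1 d q + 2 * L2 d q * E2 d q * E2 d q +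
    4 * (d + 1) * MM d q * E1 d q * E2 d q)

theorem SEvo2_drop {d : ℝ} (hd : 0 < d) {q : Q} (hz : 0 ≤ ZZ (bs q)) :
    1 * (2 * E0 d q * vE0 d q) + (d + 1) * (2 * E1 d q * vE1 d q) + 2 * (2 * E2 d q * vE2 d q) ≤
      SEvo2_sq d q := by
  have h1 : 0 ≤ A1 q := by unfold A1; positivity
  have h2 : 0 ≤ A2 d q := by unfold A2; positivity
  have h3 : 0 ≤ 4 * (d + 1) * A1 q * (E0 d q - E1 d q) ^ 2 + 8 * A2 d q * (E0 d q - E2 d q) ^ 2 := by
    positivity
  have h4 : SEvo2_sq d q - (1 * (2 * E0 d q * vE0 d q) + (d + 1) * (2 * E1 d q * vE1 d q) +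
      2 * (2 * E2 d q * vE2 d q)) =
      4 * (d + 1) * A1 q * (E0 d q - E1 d q) ^ 2 + 8 * A2 d q * (E0 d q - E2 d q) ^ 2 := by
    unfold SEvo2_sq vE0 vE1 vE2; ring
  linarith

theorem SEvo2_bound {d k : ℝ} (hd : 0 < d) {q : Q} (h1 : |K1 q| ≤ k) (h2 : |K2 d q| ≤ k)
    (h3 : |L1 q| ≤ k) (h4 : |L2 d q| ≤ k) (h5 : |MM d q| ≤ k) :
    SEvo2_sq d q ≤ 4 * (d + 4) * k * SE d q := by
  have hk : 0 ≤ k := (abs_nonneg _).trans h1
  have hp : 0 ≤ d + 1 := by linarith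
  unfold SEvo2_sq SE
  generalize E0 d q = a, E1 d q = b, E2 d q = c
  have e1 := mul_le_mul_of_nonneg_left (SEvo2_two h1 a b) hp
  have e2 := SEvo2_two h2 a c
  have e3 := mul_le_mul_of_nonneg_left (SEvo2_two h3 b b) (mul_nonneg hp hd.le)
  have e4 := SEvo2_two h4 c c
  have e5 := mul_le_mul_of_nonneg_left (SEvo2_two h5 b c) hp
  have e6 : 0 ≤ k * (a ^ 2 + (d + 1) * b ^ 2 + 2 * c ^ 2) := by positivity
  linarith

theorem evo2 (hB : BoxStmt) (hG : GeqStmt) (hE : EvoStmt) : Evo2Stmt := by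
  intro d hd f0 T f h t ht
  have J := hG.js d hd f0 T f h.sol
  have hT := h.sol.pos
  have hc : ∀ u, JS T u → ContinuousOn (bx d T f u t) I := fun u hu =>
    hB.cont T _ _ u hT hu t ht (J.z.sm ht).cont (J.b.sm ht).cont
  have lin : ∀ (G : Q → ℝ) (a b c : ℝ), (∀ q, G q = a * E0 d q + b * E1 d q + c * E2 d q) →
      ∀ x ∈ Ioo (0 : ℝ) 1, bx d T f (evF G f) t x =
        a * evF (vE0 d) f t x + b * evF (vE1 d) f t x + c * evF (vE2 d) f t x := by
    intro G a b c hq x hx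
    obtain ⟨h0, h1, h2⟩ := hE d hd f0 T f h t ht x hx
    rw [← h0, ← h1, ← h2, show evF G f = fun t x => a * evF (E0 d) f t x +
      b * evF (E1 d) f t x + c * evF (E2 d) f t x from funext₂ fun t x => hq _]
    exact SEvo2_lin hB _ _ a b c hT J.e0 J.e1 J.e2 ht (Ioo_subset_Icc_self hx)
  have h0 : ∀ x ∈ Ioo (0 : ℝ) 1, bx d T f (evF (D0 d) f) t x = evF (vD0 d) f t x := fun x hx =>
    (lin _ 1 (-1) 0 (fun q => by unfold D0; ring) x hx).trans (SEvo2_d0 d _)
  have h2 : ∀ x ∈ Ioo (0 : ℝ) 1, bx d T f (evF (D2 d) f) t x = evF (vD2 d) f t x := fun x hx =>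
    (lin _ 0 (-1) 1 (fun q => by unfold D2; ring) x hx).trans (SEvo2_d2 d _)
  have hrs : ∀ x ∈ I, bx d T f (evF (Rs d) f) t x = 2 * evF (SE d) f t x :=
    eq_of_Ioo zero_lt_one (hc _ J.rs) (((JS.const 2).mul J.se).sm ht).cont fun x hx =>
      (lin _ 1 (d + 1) 2 (fun q => by unfold Rs; ring) x hx).trans (SEvo2_rs d _)
  have hsq : JS T (evF (SEvo2_sq d) f) :=
    (JS.const 4).mul ((((((((JS.const (2 * (d + 1))).mul J.k1).mul J.e0).mul J.e1).add
      ((((JS.const 4).mul J.k2).mul J.e0).mul J.e2)).add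
      ((((JS.const ((d + 1) * d)).mul J.l1).mul J.e1).mul J.e1)).add
      ((((JS.const 2).mul J.l2).mul J.e2).mul J.e2)).add
      ((((JS.const (4 * (d + 1))).mul J.mm).mul J.e1).mul J.e2))
  have hse : ∀ x ∈ I, bx d T f (evF (SE d) f) t x ≤ evF (SEvo2_sq d) f t x := by
    refine le_of_Ioo zero_lt_one (hc _ J.se) (hsq.sm ht).cont fun x hx => ?_
    have hxI : x ∈ I := Ioo_subset_Icc_self hx
    have hz := (J.sign t ht).1 x hxI
    obtain ⟨a0, a1, a2⟩ := hE d hd f0 T f h t ht x hx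
    have sq : ∀ u, JS T u → box T (ZF f) (BF d f) (fun t x => u t x * u t x) t x ≤
        2 * u t x * bx d T f u t x := by
      intro u hu
      rw [hB.mul T _ _ u u hT hu hu t ht x hxI]
      have := mul_nonneg hz (mul_self_nonneg (dx u t x))
      unfold bx
      linarith
    have b0 := sq _ J.e0
    have b1 := mul_le_mul_of_nonneg_left (sq _ J.e1) (show 0 ≤ d + 1 by linarith)
    have b2 := sq _ J.e2
    rw [a0] at b0
    rw [a1] at b1
    rw [a2] at b2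
    have e : evF (SE d) f = fun t x => 1 * (evF (E0 d) f t x * evF (E0 d) f t x) +
        (d + 1) * (evF (E1 d) f t x * evF (E1 d) f t x) +
        2 * (evF (E2 d) f t x * evF (E2 d) f t x) := by
      funext t x
      unfold evF SE
      ring
    have e' := SEvo2_lin hB (ZF f) (BF d f) 1 (d + 1) 2 hT (J.e0.mul J.e0) (J.e1.mul J.e1)
      (J.e2.mul J.e2) ht hxI
    rw [← e] at e'
    refine le_trans ?_ (SEvo2_drop hd (q := pt (sl f t) x) hz)
    unfold bx
    rw [e']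
    unfold evF at b0 b1 b2 ⊢
    linarith
  have hdd : ∀ x ∈ Ioo (0 : ℝ) 1, bx d T f (evF (DD d) f) t x =
      evF (cc0 d) f t x * evF (D0 d) f t x + evF (cc2 d) f t x * evF (D2 d) f t x := by
    intro x hx
    have e : evF (DD d) f = fun t x => 1 * evF (D2 d) f t x + -(d + 2)⁻¹ * evF (D0 d) f t x +
        0 * evF (D0 d) f t x := by
      funext t x
      unfold evF DD
      ring
    have e' := SEvo2_lin hB (ZF f) (BF d f) 1 (-(d + 2)⁻¹) 0 hT J.d2 J.d0 J.d0 ht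
      (Ioo_subset_Icc_self hx)
    rw [← e] at e'
    refine e'.trans ?_
    have a0 := h0 x hx
    have a2 := h2 x hx
    unfold bx at a0 a2
    rw [a0, a2]
    exact SEvo2_dd hd _
  intro x hx
  refine ⟨hrs x hx, fun k k1 k2 l1 l2 mm => (hse x hx).trans (SEvo2_bound hd k1 k2 l1 l2 mm),
    h0 x, h2 x, fun hx1 => ?_⟩
  rcases hx.1.eq_or_lt with rfl | hx0
  swap
  · exact hdd x ⟨hx0, hx1⟩
  have hsub : Icc (0 : ℝ) (1 / 2) ⊆ I := Icc_subset_Icc_right (by norm_num)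
  have cj : ∀ {u : Fn}, JS T u → ContinuousOn (u t) (Icc 0 (1 / 2)) := fun hu =>
    (hu.sm ht).cont.mono hsub
  have c1 : ContinuousOn (fun y => Ph1 d (bs (pt (sl f t) y))) (Icc 0 (1 / 2)) :=
    ((contDiff_deriv (contDiff_ph0 d)).continuous.continuousOn.sub
      ((contDiff_deriv contDiff_gam).continuous.continuousOn.mul (cj (h.sol.js 0)))).add
      ((continuousOn_const.sub contDiff_gam.continuous.continuousOn).mul (cj (h.sol.js 1)))
  have c2 : ContinuousOn (evF (A2 d) f t) (Icc 0 (1 / 2)) := by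
    refine ((cj J.z).mul (c1.pow 2)).div (continuousOn_const.mul ((cj J.ph).pow 2))
      fun y hy => ?_
    have := PhP_pos (h.sol.mem t ht y (hsub hy)) (show y < 1 by linarith [hy.2])
    exact mul_ne_zero four_ne_zero (pow_ne_zero 2 this.ne')
  have k1 := cj J.k1
  have k2 := cj J.k2
  have l2 := cj J.l2
  have mm := cj J.mm
  have e1 := cj J.e1
  have c3 : ContinuousOn (evF (cc0 d) f t) (Icc 0 (1 / 2)) :=
    (((c2.const_mul 2).add (k2.const_mul 2)).sub (k1.const_mul 2)).add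
      ((((c2.const_mul 4).add (k1.const_mul 2)).sub (e1.const_mul 2)).div_const _)
  have c4 : ContinuousOn (evF (cc2 d) f t) (Icc 0 (1 / 2)) :=
    ((((c2.const_mul (-2)).add (l2.const_mul 2)).sub (mm.const_mul 4)).add (e1.const_mul 2)).sub
      ((((c2.add k2).sub mm).const_mul 4).div_const _)
  exact eq_of_Ioo (by norm_num : (0 : ℝ) < 1 / 2) ((hc _ J.dd).mono hsub)
    ((c3.mul (cj J.d0)).add (c4.mul (cj J.d2)))
    (fun y hy => hdd y ⟨hy.1, by linarith [hy.2]⟩) 0 ⟨le_rfl, by norm_num⟩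

end Vale.Agent.P244
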