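import Vale.Agent.P244.StmS

/-! P244: abstract evolution of the Ricci eigenvalues. -/

open Set Filter
open scoped ContDiff Topology

namespace Vale.Agent.P244

/-- The jet data of `h` at a point. -/
structure SEvoA_J (T : ℝ) (Z B : Fn) (t x : ℝ) (h : Fn) (h' bh : ℝ) : Prop where
  js : JS T h
  d : dx h t x = h'
  b : box T Z B h t x = bh

section

variable {T : ℝ} {Z B u v : Fn} {t x u' v' bu bv : ℝ}

theorem SEvoA_self (h : JS T u) : SEvoA_J T Z B t x u (dx u t x) (box T Z B u t x) := ⟨h, rfl, rfl⟩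

theorem SEvoA_add (hB : BoxStmt) (hT : 0 < T) (ht : t ∈ Icc 0 T) (hx : x ∈ I)
    (a : SEvoA_J T Z B t x u u' bu) (b : SEvoA_J T Z B t x v v' bv) :
    SEvoA_J T Z B t x (fun t x => u t x + v t x) (u' + v') (bu + bv) :=
  ⟨a.js.add b.js, by
    rw [← a.d, ← b.d]; exact d1_eq hx ((a.js.hasXW ht hx).add (b.js.hasXW ht hx)),
    by rw [hB.add T Z B u v hT a.js b.js t ht x hx, a.b, b.b]⟩

theorem SEvoA_smul (hB : BoxStmt) (hT : 0 < T) (ht : t ∈ Icc 0 T) (hx : x ∈ I) (c : ℝ)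
    (a : SEvoA_J T Z B t x u u' bu) :
    SEvoA_J T Z B t x (fun t x => c * u t x) (c * u') (c * bu) :=
  ⟨(JS.const c).mul a.js, by rw [← a.d]; exact d1_eq hx ((a.js.hasXW ht hx).const_mul c),
    by rw [hB.smul T Z B u c hT a.js t ht x hx, a.b]⟩

theorem SEvoA_mul (hB : BoxStmt) (hT : 0 < T) (ht : t ∈ Icc 0 T) (hx : x ∈ I)
    (a : SEvoA_J T Z B t x u u' bu) (b : SEvoA_J T Z B t x v v' bv) :
    SEvoA_J T Z B t x (fun t x => u t x * v t x) (u t x * v' + v t x * u')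
      (u t x * bv + v t x * bu - 2 * Z t x * u' * v') :=
  ⟨a.js.mul b.js, by rw [hB.dx_mul T u v a.js b.js t ht x hx, a.d, b.d],
    by rw [hB.mul T Z B u v hT a.js b.js t ht x hx, a.b, b.b, a.d, b.d]⟩

theorem SEvoA_comm (hT : 0 < T) (ht : t ∈ Icc 0 T) (hx : x ∈ I) (hZ : JS T Z) (hB : JS T B)
    (h : JS T u) : box T Z B (dx u) t x =
      dx (box T Z B u) t x + dx Z t x * dx (dx u) t x + dx B t x * dx u t x := by
  have e : dx (box T Z B u) t x = _ := d1_eq hx ((((h.dt hT).hasXW ht hx).sub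
    ((hZ.hasXW ht hx).mul (((h.dx hT).dx hT).hasXW ht hx))).sub
    ((hB.hasXW ht hx).mul ((h.dx hT).hasXW ht hx)))
  rw [e, box, h.dt_dx hT ht hx]
  ring

/-- The jet of a derivative from the equation on an open set. -/
theorem SEvoA_der (hB : BoxStmt) (hT : 0 < T) (ht : t ∈ Icc 0 T) (hx : x ∈ I) (hZ : JS T Z)
    (hB' : JS T B) (h : JS T u) {U : Set ℝ} (hU : U ∈ 𝓝 x)
    (e : ∀ s ∈ Icc 0 T, ∀ y ∈ U, box T Z B u s y = v s y) (b : SEvoA_J T Z B t x v v' bv) :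
    SEvoA_J T Z B t x (dx u) (dx (dx u) t x)
      (v' + dx Z t x * dx (dx u) t x + dx B t x * dx u t x) :=
  ⟨h.dx hT, rfl, by
    rw [SEvoA_comm hT ht hx hZ hB' h,
      (hB.congr T Z B _ v t ht x hx U hU fun s hs y hy => e s hs y hy.1).1, b.d]⟩

end

theorem evoAbs (hB : BoxStmt) : EvoAbsStmt := by
  intro d T Z B P R u v e0 e1 e2 U hT hU hUI jZ jB jP jR ju jv h t ht x hx
  have hI : x ∈ I := Ioo_subset_Icc_self (hUI hx)
  have hn : U ∈ 𝓝 x := hU.mem_nhds hx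
  obtain ⟨du, dv, bu, bv, bP, bR, bZ, v0, v1, v2⟩ := h t ht x hx
  have add := fun {u v : Fn} {u' v' bu bv : ℝ} =>
    SEvoA_add (Z := Z) (B := B) (u := u) (v := v) (u' := u') (v' := v') (bu := bu) (bv := bv)
      hB hT ht hI
  have mul := fun {u v : Fn} {u' v' bu bv : ℝ} =>
    SEvoA_mul (Z := Z) (B := B) (u := u) (v := v) (u' := u') (v' := v') (bu := bu) (bv := bv)
      hB hT ht hI
  have smul := fun (c : ℝ) {u : Fn} {u' bu : ℝ} =>
    SEvoA_smul (Z := Z) (B := B) (u := u) (u' := u') (bu := bu) hB hT ht hI c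
  have Ju : SEvoA_J T Z B t x u _ _ := ⟨ju, du, bu⟩
  have Jv : SEvoA_J T Z B t x v _ _ := ⟨jv, dv, bv⟩
  have JP : SEvoA_J T Z B t x P _ _ := ⟨jP, rfl, bP⟩
  have JR : SEvoA_J T Z B t x R _ _ := ⟨jR, rfl, bR⟩
  have JZ : SEvoA_J T Z B t x Z _ _ := ⟨jZ, rfl, bZ⟩
  have sP : SEvoA_J T Z B t x _ _ _ := SEvoA_self (jP.dx hT)
  have sR : SEvoA_J T Z B t x _ _ _ := SEvoA_self (jR.dx hT)
  have sZ : SEvoA_J T Z B t x _ _ _ := SEvoA_self (jZ.dx hT)
  have sB : SEvoA_J T Z B t x _ _ _ := SEvoA_self (jB.dx hT)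
  have JP1 := SEvoA_der hB hT ht hI jZ jB jP hn
    (fun s hs y hy => (h s hs y hy).2.2.2.2.1.trans (by ring))
    (add (add (smul (2 * d) (mul JP Ju)) (mul sZ sP)) (mul sB JP))
  have JR1 := SEvoA_der hB hT ht hI jZ jB jR hn
    (fun s hs y hy => (h s hs y hy).2.2.2.2.2.1.trans (by ring))
    (add (add (smul 2 (mul JR Jv)) (mul sZ sR)) (mul sB JR))
  have JZ1 := SEvoA_der hB hT ht hI jZ jB jZ hn
    (fun s hs y hy => (h s hs y hy).2.2.2.2.2.2.1.trans (by ring))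
    (add (add (smul (-1 / 2) (mul sZ sZ)) (smul (-2) (mul (mul JZ JZ)
      (add (smul (d + 1) (mul JP JP)) (smul 2 (mul JR JR)))))) (smul (-2) (mul JZ sB)))
  have ZPP := mul JZ (mul JP JP)
  have ZRR := mul JZ (mul JR JR)
  have ZPR := mul JZ (mul JP JR)
  have kp := smul (-1) (add (add (mul JZ JP1) ZPP) (smul (1 / 2) (mul JZ1 JP)))
  have kr := smul (-1) (add (add (mul JZ JR1) ZRR) (smul (1 / 2) (mul JZ1 JR)))
  have E0 := add (smul (d + 1) kp) (smul 2 kr)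
  have E1 := add (add kp (smul d (add Ju (smul (-1) ZPP)))) (smul (-2) ZPR)
  have E2 := add (add kr (add Jv (smul (-1) ZRR))) (smul (-(d + 1)) ZPR)
  refine ⟨((hB.congr T Z B e0 _ t ht x hI U hn fun s hs y hy => ?_).2.2.trans E0.b).trans ?_,
    ((hB.congr T Z B e1 _ t ht x hI U hn fun s hs y hy => ?_).2.2.trans E1.b).trans ?_,
    ((hB.congr T Z B e2 _ t ht x hI U hn fun s hs y hy => ?_).2.2.trans E2.b).trans ?_⟩
  · rw [(h s hs y hy.1).2.2.2.2.2.2.2.1]; unfold kP; ring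
  · rw [v0, v1, v2]; unfold kP; ring
  · rw [(h s hs y hy.1).2.2.2.2.2.2.2.2.1]; unfold kP; ring
  · rw [v0, v1, v2]; unfold kP; ring
  · rw [(h s hs y hy.1).2.2.2.2.2.2.2.2.2]; unfold kP; ring
  · rw [v0, v1, v2]; unfold kP; ring

end Vale.Agent.P244
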