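import Vale.Agent.P244.StmS

/-! P244: smoothness along solutions and the basic geometric equations. -/

open Set Filter
open scoped ContDiff Topology

namespace Vale.Agent.P244

theorem SGeq_js (hS : SmKStmt) {d : ℝ} (hd : 0 < d) {f0 : Fin 3 → ℝ → ℝ} {T : ℝ} {f : Fin 3 → Fn}
    (h : Sol d (Om d) (NL d) f0 T f) : JSAll d T f := by
  have hK := hS d hd
  have hbs : ContDiff ℝ ∞ bs := by unfold bs; fun_prop
  have c1 := contDiff_om
  have c2 := contDiff_gam
  have c3 := contDiff_ph0 d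
  have k1 := hK.k1
  have k2 := hK.k2
  have l1 := hK.l1
  have l2 := hK.l2
  have mm := hK.mm
  have e0 : ContDiffOn ℝ ∞ (E0 d) (lift (Om d)) := by unfold E0; fun_prop
  have e1 : ContDiffOn ℝ ∞ (E1 d) (lift (Om d)) := by unfold E1; fun_prop
  have e2 : ContDiffOn ℝ ∞ (E2 d) (lift (Om d)) := by unfold E2; fun_prop
  have d0 : ContDiffOn ℝ ∞ (D0 d) (lift (Om d)) := by unfold D0; fun_prop
  have d2 : ContDiffOn ℝ ∞ (D2 d) (lift (Om d)) := by unfold D2; fun_prop
  refine ⟨h.js_comp (G := fun q => ZZ (bs q)) (ContDiff.contDiffOn ?_),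
    h.js_comp (G := fun q => BB d (bs q)) (hK.bb.comp hbs.contDiffOn fun _ hq => hq),
    h.js_comp (G := fun q => PsP (bs q)) (ContDiff.contDiffOn ?_),
    h.js_comp (G := fun q => PhP d (bs q)) (ContDiff.contDiffOn ?_),
    h.js_comp k1, h.js_comp k2, h.js_comp l1, h.js_comp l2, h.js_comp mm, h.js_comp e0,
    h.js_comp e1, h.js_comp e2, h.js_comp (G := Rs d) ?_, h.js_comp (G := SE d) ?_, h.js_comp d0,
    h.js_comp d2, h.js_comp (G := DD d) ?_, h.js_comp hK.jj,
    h.js_comp (G := nz) (ContDiff.contDiffOn ?_), fun t ht => ⟨fun x hx => ?_, ?_, ?_, ?_, ?_⟩⟩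
  · unfold ZZ aa bs; fun_prop
  · unfold PsP Ps bs; fun_prop
  · unfold PhP Ph bs; fun_prop
  · unfold Rs; fun_prop
  · unfold SE; fun_prop
  · unfold DD; fun_prop
  · unfold nz z0 aa bs; fun_prop
  · exact mul_nonneg (mul_nonneg (by norm_num) (om_nonneg hx)) (aa_pos (h.mem t ht x hx)).le
  · simp [ZF, evF, ZZ, bs_pt, om_zero]
  · have a := aa_pos (h.mem t ht 0 ⟨le_rfl, zero_le_one⟩)
    have g0 := gam_zero (x := 0) (by norm_num)
    have g1 := (dgam_left (x := 0) (by norm_num)).1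
    simp only [BF, evF, bs_pt, BB, RR1, ZZ, r1, Ps1, g0, g1, om_zero]
    norm_num
    linarith
  · simp [ZF, evF, ZZ, bs_pt, om_one]
  · have a := aa_pos (h.mem t ht 1 ⟨zero_le_one, le_rfl⟩)
    have g0 := gam_one (x := 1) (by norm_num)
    have g1 := (dgam_right (x := 1) (by norm_num)).1
    simp only [BF, evF, bs_pt, BB, RR2, ZZ, r2, g0, g1, om_one]
    norm_num
    nlinarith [mul_nonneg a.le (sq_nonneg (Ph1 d (1, val (sl f t) 1)))]

theorem SGeq_lin (hB : BoxStmt) {T : ℝ} (hT : 0 < T) (A B : Fn) {y : Fn} (hy : JS T y)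
    {g g' g'' h h' h'' : ℝ → ℝ} (sg : ContDiff ℝ ∞ g) (sh : ContDiff ℝ ∞ h)
    (g1 : ∀ x, HasDerivAt g (g' x) x) (g2 : ∀ x, HasDerivAt g' (g'' x) x)
    (h1 : ∀ x, HasDerivAt h (h' x) x) (h2 : ∀ x, HasDerivAt h' (h'' x) x)
    {t x : ℝ} (ht : t ∈ Icc 0 T) (hx : x ∈ I) :
    box T A B (fun t x => g x + h x * y t x) t x = -(A t x * g'' x) - B t x * g' x +
      (h x * box T A B y t x + y t x * (-(A t x * h'' x) - B t x * h' x) -
        2 * A t x * h' x * dx y t x) := by
  have jg : JS T fun _ x => g x := JS.ofX sg.contDiffOn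
  have jh : JS T fun _ x => h x := JS.ofX sh.contDiffOn
  have e : ∀ {g g' g'' : ℝ → ℝ}, (∀ x, HasDerivAt g (g' x) x) → (∀ x, HasDerivAt g' (g'' x) x) →
      d1 g x = g' x ∧ d1 (d1 g) x = g'' x := fun g1 g2 =>
    ⟨d1_eq' hx (g1 x), (d1_congr (fun y hy => d1_eq' hy (g1 y)) hx).trans (d1_eq' hx (g2 x))⟩
  have e3 : dx (fun _ x => h x) t x = h' x := (e h1 h2).1
  rw [hB.add T A B _ _ hT jg (jh.mul hy) t ht x hx, hB.mul T A B _ _ hT jh hy t ht x hx,
    hB.ofX T A B g hT t ht x hx, hB.ofX T A B h hT t ht x hx, (e g1 g2).1, (e g1 g2).2,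
    (e h1 h2).1, (e h1 h2).2, e3]

theorem SGeq_der {g : ℝ → ℝ} (h : ContDiff ℝ ∞ g) (x : ℝ) : HasDerivAt g (deriv g x) x :=
  (h.differentiable inf_ne_zero x).hasDerivAt

theorem geq (hB : BoxStmt) (hM : MidStmt) (hN : MidNStmt) (hS : SmKStmt) (hD : DictStmt) :
    GeqStmt := by
  refine ⟨fun d hd f0 T f h => SGeq_js hS hd h, fun d hd f0 T f h t ht x hx => ?_⟩
  have hT := h.sol.pos
  have hq : pt (sl f t) x ∈ lift (Om d) := h.sol.mem t ht x hx
  have dc := hD d hd _ (h.prof ht) x hx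
  have hV := h.con t ht x hx
  have d1' : dx (PsF f) t x = Ps1 (bs (pt (sl f t) x)) := dc.ps
  have d2' : dx (PhF d f) t x = Ph1 d (bs (pt (sl f t) x)) := dc.ph
  have ey : bx d T f (f 0) t x = GG d (bs (pt (sl f t) x)) := by
    simp only [bx, box, h.sol.eqn t ht x hx 0, rhs, NL, Matrix.cons_val, N0, ZF, BF, evF, ZZ]
    simp only [pt, val, sl, bs, aa, al, dx, hV]
    ring
  have gd := contDiff_deriv contDiff_gam
  refine ⟨ey, fun h0 => ?_, fun h1 => ?_, fun hx' => ?_⟩
  · have e := SGeq_lin hB hT (ZF f) (BF d f) (h.sol.js 0) contDiff_id contDiff_gam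
      hasDerivAt_id (fun x => hasDerivAt_const x 1) (SGeq_der contDiff_gam) (SGeq_der gd) ht hx
    have g1 : -(BB d (bs (pt (sl f t) x)) * (1 + deriv gam x * f 0 t x)) +
        gam x * GG d (bs (pt (sl f t) x)) - ZZ (bs (pt (sl f t) x)) * cc (bs (pt (sl f t) x)) =
        -2 * d - ZZ (bs (pt (sl f t) x)) * Ps1 (bs (pt (sl f t) x)) ^ 2 /
          PsP (bs (pt (sl f t) x)) := by
      rcases hx.2.lt_or_eq with h1 | h1
      · exact (hM.k d hd _ hq ⟨h0, h1⟩).g1
      · subst h1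
        have g0 := gam_one (x := 1) (by norm_num)
        have g1 := (dgam_right (x := 1) (by norm_num)).1
        have g2 := (dph0_right d (x := 1) (by norm_num)).1
        simp only [bs_pt, BB, GG, RR1, ZZ, r1, g0, g1, g2, om_one]
        norm_num
        ring
    rw [d1']
    refine Eq.trans ?_ g1
    refine Eq.trans e ?_
    rw [show box T (ZF f) (BF d f) (f 0) t x = _ from ey, ← hV]
    simp only [ZF, BF, evF, cc, bs_pt, val, sl]
    ring
  · have pd := contDiff_deriv (contDiff_ph0 d)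
    have e := SGeq_lin hB hT (ZF f) (BF d f) (h.sol.js 0) (contDiff_ph0 d)
      (contDiff_const.sub contDiff_gam) (SGeq_der (contDiff_ph0 d)) (SGeq_der pd)
      (fun x => (SGeq_der contDiff_gam x).const_sub 1) (fun x => (SGeq_der gd x).neg) ht hx
    have g2 : -(BB d (bs (pt (sl f t) x)) * (deriv (ph0 d) x - deriv gam x * f 0 t x)) +
        (1 - gam x) * GG d (bs (pt (sl f t) x)) - ZZ (bs (pt (sl f t) x)) *
          (deriv (deriv (ph0 d)) x - cc (bs (pt (sl f t) x))) =
        -2 - ZZ (bs (pt (sl f t) x)) * Ph1 d (bs (pt (sl f t) x)) ^ 2 /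
          PhP d (bs (pt (sl f t) x)) := by
      rcases hx.1.lt_or_eq with h0 | h0
      · exact (hM.k d hd _ hq ⟨h0, h1⟩).g2
      · subst h0
        have g0 := gam_zero (x := 0) (by norm_num)
        have g1 := (dgam_left (x := 0) (by norm_num)).1
        simp only [bs_pt, BB, GG, RR2, ZZ, r2, g0, g1, om_zero]
        norm_num
        ring
    rw [d2']
    refine Eq.trans ?_ g2
    refine Eq.trans e ?_
    rw [show box T (ZF f) (BF d f) (f 0) t x = _ from ey, ← hV]
    simp only [ZF, BF, evF, cc, bs_pt, val, sl]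
    ring
  · have w1 : ∀ y : ℝ, HasDerivAt (fun y : ℝ => 1 - 2 * y) (-2) y := fun y => by
      simpa using ((hasDerivAt_id y).const_mul 2).const_sub 1
    have e := SGeq_lin hB hT (ZF f) (BF d f) (h.sol.js 2) (g := fun x => 4 * om x)
      (h := fun x => -4 * (om x * om x)) (h' := fun x => -8 * (om x * (1 - 2 * x)))
      (contDiff_const.mul contDiff_om) (contDiff_const.mul (contDiff_om.mul contDiff_om))
      (fun x => (hasDerivAt_om x).const_mul 4) (fun x => (w1 x).const_mul 4)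
      (fun x => (((hasDerivAt_om x).mul (hasDerivAt_om x)).const_mul (-4)).congr_deriv (by ring))
      (fun x => ((hasDerivAt_om x).mul (w1 x)).const_mul (-8)) ht hx
    have eZ : ZF f = fun t x => 4 * om x + -4 * (om x * om x) * f 2 t x := by
      funext t x; simp only [ZF, evF, ZZ, aa, bs_pt, val, sl]; ring
    have d3 : dx (ZF f) t x = ZZ1 (pt (sl f t) x) := dc.zz
    have d4 : dx (BF d f) t x = dBB d (pt (sl f t) x) := dc.bb hx'
    have ez : bx d T f (ZF f) t x = boxZ d (pt (sl f t) x) := by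
      have hw : om x ≠ 0 := (om_pos hx').ne'
      unfold bx
      nth_rewrite 2 [eZ]
      rw [e]
      simp only [box, h.sol.eqn t ht x hx 2, rhs, (hN.mid d hd _ hq hx').2, N2m, ZF, BF, evF]
      generalize boxZ d (pt (sl f t) x) = X
      generalize BB d (bs (pt (sl f t) x)) = Y
      simp only [pt, val, gr, sl, bs, aa, aa1, al, dx, ZZ, ZZ1]
      field_simp
      ring
    rw [ez, d1', d2', d3, d4]
    rfl

end Vale.Agent.P244
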