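import Vale.Agent.P244.StmS

/-! P244: the left and right formulas agree with the middle ones. -/

open Set Filter
open scoped ContDiff Topology

namespace Vale.Agent.P244

theorem SMid_r1 {q : Q} (h0 : 0 < q.1) : r1 (bs q) = om q.1 / PsP (bs q) := by
  unfold r1
  split_ifs with h
  · have h' : q.1 < 1 / 8 := h
    have e : PsP (bs q) = q.1 := by simp [PsP, Ps, bs, gam_zero (by linarith : q.1 ≤ 1 / 2)]
    rw [e, om]
    change 1 - q.1 = _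
    field_simp
  · rfl

theorem SMid_r2 (d : ℝ) {q : Q} (h1 : q.1 < 1) : r2 d (bs q) = om q.1 / PhP d (bs q) := by
  unfold r2
  split_ifs with h
  · have h' : 7 / 8 < q.1 := h
    have e : PhP d (bs q) = 1 - q.1 := by
      simp [PhP, Ph, bs, gam_one (by linarith : 3 / 4 ≤ q.1), ph0_right d (by linarith : 1 / 2 ≤ q.1)]
    have : 1 - q.1 ≠ 0 := by linarith
    rw [e, om]
    change q.1 = _
    field_simp
  · rfl

theorem SMid_lf (d : ℝ) {q : Q} (h0 : 0 < q.1) (h : q.1 < 1 / 4) :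
    PsP (bs q) = q.1 ∧ Ps1 (bs q) = 1 ∧ ZPs2 q = 0 ∧ ZZ (bs q) = 4 * q.1 * z0 (bs q) ∧
      ZZ1 q = 4 * z0 (bs q) + 4 * q.1 * z0' q ∧ BB d (bs q) = 2 * d + 4 * z0 (bs q) ∧
      q.1 * l0 (bs q) = 1 - z0 (bs q) := by
  have g0 : gam q.1 = 0 := gam_zero (by linarith)
  obtain ⟨g1, g2⟩ := dgam_left (by linarith : q.1 < 1 / 2)
  have e1 : PsP (bs q) = q.1 := by simp [PsP, Ps, bs, g0]
  have e2 : Ps1 (bs q) = 1 := by simp [Ps1, bs, g0, g1]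
  have e3 : cc (bs q) = 0 := by simp [cc, bs, g1, g2]
  have e4 : r1 (bs q) = 1 - q.1 := by
    rw [SMid_r1 h0, e1, om]; field_simp
  refine ⟨e1, e2, by simp [ZPs2, e3, g0], ?_, ?_, ?_, ?_⟩
  · simp only [ZZ, z0, om, bs]; ring
  · simp only [ZZ1, z0, z0', om, bs]; ring
  · have : (bs q).1 = q.1 := rfl
    simp only [BB, RR1, this, g0, g1, e2, e3, e4, z0]; ring
  · simp only [l0, z0, aa, om, bs]; ring

theorem SMid_rf (d : ℝ) {q : Q} (h : 3 / 4 < q.1) (h1 : q.1 < 1) :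
    PhP d (bs q) = 1 - q.1 ∧ Ph1 d (bs q) = -1 ∧ ZPh2 d q = 0 ∧
      ZZ (bs q) = 4 * (1 - q.1) * z1 (bs q) ∧
      ZZ1 q = -4 * z1 (bs q) + 4 * (1 - q.1) * z1' q ∧ BB d (bs q) = -2 - 4 * z1 (bs q) ∧
      (1 - q.1) * l1 (bs q) = 1 - z1 (bs q) := by
  have g0 : gam q.1 = 1 := gam_one h.le
  obtain ⟨g1, g2⟩ := dgam_right h
  obtain ⟨p1, p2⟩ := dph0_right d (by linarith : 1 / 2 < q.1)
  have hx : 1 - q.1 ≠ 0 := by linarith
  have e1 : PhP d (bs q) = 1 - q.1 := by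
    simp [PhP, Ph, bs, g0, ph0_right d (by linarith : 1 / 2 ≤ q.1)]
  have e2 : Ph1 d (bs q) = -1 := by simp [Ph1, bs, g0, g1, p1]
  have e3 : cc (bs q) = 0 := by simp [cc, bs, g1, g2]
  have e4 : r2 d (bs q) = q.1 := by
    rw [SMid_r2 d h1, e1, om]; field_simp
  refine ⟨e1, e2, by simp [ZPh2, e3, g0, p2], ?_, ?_, ?_, ?_⟩
  · simp only [ZZ, z1, om, bs]; ring
  · simp only [ZZ1, z1, z1', om, bs]; ring
  · have : (bs q).1 = q.1 := rfl
    simp only [BB, RR2, this, g0, g1, p2, e2, e3, e4, z1]; ring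
  · simp only [l1, z1, aa, om, bs]; ring

theorem SMid_l3 {d : ℝ} {q : Q} (hq : q ∈ lift (Om d)) (h0 : 0 < q.1) (h : q.1 < 1 / 4) :
    -z0' q = K1m q ∧ l0 (bs q) = L1m q ∧ -(z0 (bs q) * Ph1 d (bs q)) / PhP d (bs q) = Mm d q := by
  obtain ⟨e1, e2, e3, e4, e5, -, e7⟩ := SMid_lf d h0 h
  have hP : 0 < PhP d (bs q) := PhP_pos hq (by change q.1 < 1; linarith)
  refine ⟨?_, ?_, ?_⟩
  · rw [K1m, kk, e1, e2, e3, e4, e5]; field_simp; ring
  · rw [L1m, ll, e1, e2, e4]; field_simp; linarith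
  · rw [Mm, mx, e1, e2, e4]; field_simp

theorem SMid_r3 {d : ℝ} {q : Q} (hq : q ∈ lift (Om d)) (h : 3 / 4 < q.1) (h1 : q.1 < 1) :
    z1' q = K2m d q ∧ l1 (bs q) = L2m d q ∧ z1 (bs q) * Ps1 (bs q) / PsP (bs q) = Mm d q := by
  obtain ⟨e1, e2, e3, e4, e5, -, e7⟩ := SMid_rf d h h1
  have hP : 0 < PsP (bs q) := PsP_pos hq (by change 0 < q.1; linarith)
  have hx : 1 - q.1 ≠ 0 := by linarith
  refine ⟨?_, ?_, ?_⟩
  · rw [K2m, kk, e1, e2, e3, e4, e5]; field_simp; ring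
  · rw [L2m, ll, e1, e2, e4]; field_simp; linarith
  · rw [Mm, mx, e1, e2, e4]; field_simp

theorem SMid_gl {F0 Fm F1 : Q → ℝ} {q : Q} (h0 : q.1 < 1 / 4 → F0 q = Fm q)
    (h1 : 3 / 4 < q.1 → F1 q = Fm q) : gl F0 Fm F1 q = Fm q := by
  unfold gl
  split_ifs with a b
  · exact h0 (by linarith)
  · exact h1 (by linarith)
  · rfl

theorem SMid_k5 {d : ℝ} {q : Q} (hq : q ∈ lift (Om d)) (h0 : 0 < q.1) (h1 : q.1 < 1) :
    K1 q = K1m q ∧ K2 d q = K2m d q ∧ L1 q = L1m q ∧ L2 d q = L2m d q ∧ MM d q = Mm d q :=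
  ⟨SMid_gl (fun h => (SMid_l3 hq h0 h).1) fun _ => rfl,
    SMid_gl (fun _ => rfl) fun h => (SMid_r3 hq h h1).1,
    SMid_gl (fun h => (SMid_l3 hq h0 h).2.1) fun _ => rfl,
    SMid_gl (fun _ => rfl) fun h => (SMid_r3 hq h h1).2.1,
    SMid_gl (fun h => (SMid_l3 hq h0 h).2.2) fun h => (SMid_r3 hq h h1).2.2⟩

theorem SMid_jl {d : ℝ} {q : Q} (hq : q ∈ lift (Om d)) (h0 : 0 < q.1) (h : q.1 < 1 / 4) :
    -2 * E1 d q / (1 - q.1) = Jm d q / om q.1 := by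
  obtain ⟨e1, e2, -, e4, e5, e6, e7⟩ := SMid_lf d h0 h
  obtain ⟨a1, a2, a3⟩ := SMid_l3 hq h0 h
  obtain ⟨k1, -, k3, -, k5⟩ := SMid_k5 hq h0 (by linarith)
  have hP : 0 < PhP d (bs q) := PhP_pos hq (by change q.1 < 1; linarith)
  have hx : 1 - q.1 ≠ 0 := by linarith
  rw [E1, k1, k3, k5, ← a1, ← a2, ← a3, Jm, e1, e2, e4, e5, e6, om]
  field_simp
  linear_combination (-4 * d * PhP d (bs q)) * e7

theorem SMid_jr {d : ℝ} {q : Q} (hq : q ∈ lift (Om d)) (h : 3 / 4 < q.1) (h1 : q.1 < 1) :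
    2 * E2 d q / q.1 = Jm d q / om q.1 := by
  obtain ⟨e1, e2, -, e4, e5, e6, e7⟩ := SMid_rf d h h1
  obtain ⟨a1, a2, a3⟩ := SMid_r3 hq h h1
  have h0 : 0 < q.1 := by linarith
  obtain ⟨-, k2, -, k4, k5⟩ := SMid_k5 hq h0 h1
  have hP : 0 < PsP (bs q) := PsP_pos hq h0
  have hx : 1 - q.1 ≠ 0 := by linarith
  rw [E2, k2, k4, k5, ← a1, ← a2, ← a3, Jm, e1, e2, e4, e5, e6, om]
  field_simp
  linear_combination (4 * PsP (bs q)) * e7

theorem mid : MidStmt where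
  k := fun d _ q hq hx => by
    obtain ⟨k1, k2, k3, k4, k5⟩ := SMid_k5 hq hx.1 hx.2
    have hDe : 0 < 1 + deriv gam q.1 * q.2.1 0 := hq.2.2.2
    have hg := gam_dph0 d q.1
    have hb : (bs q).1 = q.1 := rfl
    have hb2 : (bs q).2 = q.2.1 := rfl
    refine ⟨k1, k2, k3, k4, k5, ?_, ?_, ?_⟩
    · have hom : om q.1 ≠ 0 := (mul_pos hx.1 (sub_pos.2 hx.2)).ne'
      have : jj d q = Jm d q / om q.1 :=
        SMid_gl (fun h => SMid_jl hq hx.1 h) fun h => SMid_jr hq h hx.2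
      rw [this]; field_simp
    · have e : -(BB d (bs q) * (1 + deriv gam q.1 * q.2.1 0)) + gam q.1 * GG d (bs q) =
          RR1 d (bs q) := by
        rw [BB, GG, hb, hb2]
        field_simp
        linear_combination (-RR1 d (bs q)) * hg
      rw [e, RR1, SMid_r1 hx.1, ZZ, hb]
      ring
    · have e : -(BB d (bs q) * (deriv (ph0 d) q.1 - deriv gam q.1 * q.2.1 0)) +
          (1 - gam q.1) * GG d (bs q) = RR2 d (bs q) := by
        rw [BB, GG, hb, hb2]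
        field_simp
        linear_combination (-RR2 d (bs q)) * hg
      rw [e, RR2, SMid_r2 d hx.2, ZZ, hb]
      ring
  left := fun d _ q hq hx => by
    obtain ⟨a1, a2, a3⟩ := SMid_l3 hq hx.1 hx.2
    refine ⟨a1, a2, a3, SMid_jl hq hx.1 hx.2, ?_⟩
    have := hx.1.ne'
    rw [(SMid_lf d hx.1 hx.2).1, om]; field_simp
  right := fun d _ q hq hx => by
    obtain ⟨a1, a2, a3⟩ := SMid_r3 hq hx.1 hx.2
    refine ⟨a1, a2, a3, SMid_jr hq hx.1 hx.2, ?_⟩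
    have : 1 - q.1 ≠ 0 := by linarith [hx.2]
    rw [(SMid_rf d hx.1 hx.2).1, om]; field_simp

end Vale.Agent.P244
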