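import Vale.Agent.P244.StmS

/-! P244: the three formulas of the nonlinearity agree on the overlaps. -/

open Set Filter
open scoped ContDiff Topology

namespace Vale.Agent.P244

theorem SMidN_fd {G G' : ℝ × V3 → ℝ} {p v : ℝ × V3} {c : ℝ} (e : G =ᶠ[𝓝 p] G')
    (hd : DifferentiableAt ℝ G' p)
    (h : ∀ γ : ℝ → ℝ × V3, γ 0 = p → HasDerivAt (fun s => (γ s).1) v.1 0 →
      (∀ i, HasDerivAt (fun s => (γ s).2 i) (v.2 i) 0) → HasDerivAt (fun s => G' (γ s)) c 0) :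
    fderiv ℝ G p v = c := by
  rw [e.fderiv_eq, ← hd.lineDeriv_eq_fderiv]
  refine HasLineDerivAt.lineDeriv (h (fun s => p + s • v) (by simp) ?_ fun i => ?_)
  · simpa using ((hasDerivAt_id (0 : ℝ)).mul_const v.1).const_add p.1
  · simpa using ((hasDerivAt_id (0 : ℝ)).mul_const (v.2 i)).const_add (p.2 i)

theorem SMidN_aa {q : Q} (h : om q.1 ≠ 0) {γ : ℝ → ℝ × V3} (h0 : γ 0 = bs q)
    (h1 : HasDerivAt (fun s => (γ s).1) (tv q).1 0)
    (h2 : ∀ i, HasDerivAt (fun s => (γ s).2 i) ((tv q).2 i) 0) :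
    HasDerivAt (fun s => aa (γ s)) (aa1 q) 0 := by
  have := ((h1.mul (h1.const_sub 1)).mul (h2 2)).const_sub 1
  refine HasDerivAt.congr_deriv this ?_
  have e : om q.1 * (q.2.2 2 / om q.1) = q.2.2 2 := by field_simp
  simp only [Pi.mul_apply, h0, bs, tv, aa1, Matrix.cons_val]
  unfold om at e ⊢
  linear_combination -e

theorem SMidN_left {d : ℝ} (hd : 0 < d) {p : ℝ × V3} (hp : p.1 ∈ Ioo (0 : ℝ) (1 / 4)) :
    PsP p = p.1 ∧ Ps1 p = 1 ∧ PhP d p = p.1 / d + p.2 0 ∧ Ph1 d p = 1 / d + p.2 1 ∧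
    BB d p = 2 * d + 4 * ((1 - p.1) * aa p) ∧
    GG d p = 4 * ((1 - p.1) * aa p) / d -
      4 * ((1 - p.1) * aa p) * p.1 * (1 / d + p.2 1) ^ 2 / (p.1 / d + p.2 0) := by
  obtain ⟨h0, h1⟩ := hp
  have g0 := gam_zero (x := p.1) (by linarith)
  obtain ⟨g1, g2⟩ := dgam_left (x := p.1) (by linarith)
  obtain ⟨p1, p2⟩ := dph0_left d h1
  have e1 : PsP p = p.1 := by simp [PsP, Ps, g0]
  have e2 : Ps1 p = 1 := by simp [Ps1, g0, g1]
  have e3 := PhP_left d h1.le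
  have e4 : Ph1 d p = 1 / d + p.2 1 := by simp [Ph1, g0, g1, p1]
  have e5 : cc p = 0 := by simp [cc, g1, g2]
  have e6 : r1 p = 1 - p.1 := by
    unfold r1; split_ifs
    · rfl
    · rw [e1, om]; field_simp
  have e7 : r2 d p = om p.1 / (p.1 / d + p.2 0) := by
    unfold r2; rw [if_neg (by linarith), e3]
  refine ⟨e1, e2, e3, e4, ?_, ?_⟩
  · simp only [BB, RR1, g0, g1, e2, e5, e6]; ring
  · simp only [GG, RR1, RR2, g1, p1, p2, e2, e4, e5, e6, e7, om, div_eq_mul_inv _ (p.1 / d + p.2 0)]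
    generalize (p.1 / d + p.2 0)⁻¹ = F
    generalize 1 / d + p.2 1 = F1
    field_simp; ring

theorem SMidN_right (d : ℝ) {p : ℝ × V3} (hp : p.1 ∈ Ioo (3 / 4 : ℝ) 1) :
    PsP p = p.1 + p.2 0 ∧ Ps1 p = 1 + p.2 1 ∧ PhP d p = 1 - p.1 ∧ Ph1 d p = -1 ∧
    BB d p = -2 - 4 * (p.1 * aa p) ∧
    GG d p = -2 * d - 4 * (p.1 * (1 - p.1)) * aa p * (1 + p.2 1) ^ 2 / (p.1 + p.2 0) - 2 -
      4 * (p.1 * aa p) := by
  obtain ⟨h0, h1⟩ := hp
  have g0 := gam_one h0.le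
  obtain ⟨g1, g2⟩ := dgam_right h0
  obtain ⟨p1, p2⟩ := dph0_right d (x := p.1) (by linarith)
  have e1 : PsP p = p.1 + p.2 0 := by simp [PsP, Ps, g0]
  have e2 : Ps1 p = 1 + p.2 1 := by simp [Ps1, g0, g1]
  have e3 : PhP d p = 1 - p.1 := by simp [PhP, Ph, g0, ph0_right d (x := p.1) (by linarith)]
  have e4 : Ph1 d p = -1 := by simp [Ph1, g0, g1, p1]
  have e5 : cc p = 0 := by simp [cc, g1, g2]
  have e6 : r2 d p = p.1 := by
    unfold r2; split_ifs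
    · rfl
    · have : 1 - p.1 ≠ 0 := by linarith
      rw [e3, om]; field_simp
  have e7 : r1 p = om p.1 / (p.1 + p.2 0) := by
    unfold r1; rw [if_neg (by linarith), e1]
  refine ⟨e1, e2, e3, e4, ?_, ?_⟩
  · simp only [BB, RR2, g0, g1, p2, e4, e5, e6]; ring
  · simp only [GG, RR1, RR2, g1, p1, p2, e2, e4, e5, e6, e7, om]; ring

theorem SMidN_ev {a b : ℝ} {p : ℝ × V3} (hp : p.1 ∈ Ioo a b) : ∀ᶠ r in 𝓝 p, r.1 ∈ Ioo a b :=
  (isOpen_Ioo.preimage continuous_fst).mem_nhds hp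

theorem SMidN_l {d : ℝ} (hd : 0 < d) {q : Q} (hq : q ∈ lift (Om d))
    (hx : q.1 ∈ Ioo (0 : ℝ) (1 / 4)) : N1l d q = N1m d q ∧ N2l d q = N2m d q := by
  obtain ⟨e1, e2, e3, e4, e5, -⟩ := SMidN_left hd (p := bs q) hx
  have hF : 0 < q.1 / d + q.2.1 0 := by
    have := PhP_pos (p := bs q) hq (show q.1 < 1 by linarith [hx.2])
    rwa [e3] at this
  have h0 : q.1 ≠ 0 := hx.1.ne'
  have h1 : 1 - q.1 ≠ 0 := by linarith [hx.2]
  have hw : om q.1 ≠ 0 := mul_ne_zero h0 h1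
  have dB : dBB d q = 4 * z0' q := by
    refine SMidN_fd (G' := fun p => 2 * d + 4 * ((1 - p.1) * aa p))
      ((SMidN_ev (p := bs q) hx).mono fun r hr => (SMidN_left hd hr).2.2.2.2.1)
      (by unfold aa om; fun_prop) fun γ g0 g1 g2 => ?_
    have := (((g1.const_sub 1).mul (SMidN_aa hw g0 g1 g2)).const_mul 4).const_add (2 * d)
    refine HasDerivAt.congr_deriv this ?_
    simp only [g0, tv, z0', bs]; ring
  have dG : dGG d q = 4 * z0' q / d -
      ((4 * z0' q * q.1 + 4 * z0 (bs q)) * (1 / d + q.2.1 1) ^ 2 / (q.1 / d + q.2.1 0) +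
        8 * z0 (bs q) * q.1 * (1 / d + q.2.1 1) * (q.2.2 1 / om q.1) / (q.1 / d + q.2.1 0) -
        4 * z0 (bs q) * q.1 * (1 / d + q.2.1 1) ^ 3 / (q.1 / d + q.2.1 0) ^ 2) := by
    refine SMidN_fd (G' := fun p => 4 * ((1 - p.1) * aa p) / d -
        4 * ((1 - p.1) * aa p) * p.1 * (1 / d + p.2 1) ^ 2 / (p.1 / d + p.2 0))
      ((SMidN_ev (p := bs q) hx).mono fun r hr => (SMidN_left hd hr).2.2.2.2.2)
      (by unfold aa om; fun_prop (disch := exact hF.ne')) fun γ g0 g1 g2 => ?_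
    · have hz := ((g1.const_sub 1).mul (SMidN_aa hw g0 g1 g2)).const_mul 4
      have := (hz.div_const d).sub (((hz.mul g1).mul (((g2 1).const_add (1 / d)).pow 2)).div
        ((g1.div_const d).add (g2 0)) (by simpa [g0, bs] using hF.ne'))
      refine HasDerivAt.congr_deriv this ?_
      simp only [Pi.mul_apply, Pi.add_apply, Pi.pow_apply, g0, tv, z0', z0, bs, Matrix.cons_val,
      Nat.add_one_sub_one, pow_one, Nat.cast_ofNat]
      generalize q.1 / d + q.2.1 0 = F at hF ⊢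
      generalize q.2.2 1 / om q.1 = G
      field_simp; ring
  simp only [bs] at e1 e2 e3 e4 e5
  constructor
  · simp only [N1l, N1m, dB, dG, bs, e5, ZZ1, z0, z0', be, om]
    generalize q.1 / d + q.2.1 0 = F at hF ⊢
    generalize 1 / d + q.2.1 1 = F1
    field_simp; ring
  · simp only [N2l, N2m, boxZ, dB, bs, e1, e2, e3, e4, e5, ZZ1, ZZ, z0, z0', l0, be, aa, aa1, om]
    generalize q.1 / d + q.2.1 0 = F at hF ⊢
    generalize 1 / d + q.2.1 1 = F1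
    field_simp; ring

theorem SMidN_r {d : ℝ} {q : Q} (hq : q ∈ lift (Om d))
    (hx : q.1 ∈ Ioo (3 / 4 : ℝ) 1) : N1r d q = N1m d q ∧ N2r d q = N2m d q := by
  obtain ⟨e1, e2, e3, e4, e5, -⟩ := SMidN_right d (p := bs q) hx
  have hF : 0 < q.1 + q.2.1 0 := by
    have := PsP_pos (p := bs q) hq (show 0 < q.1 by linarith [hx.1])
    rwa [e1] at this
  have h0 : q.1 ≠ 0 := by linarith [hx.1]
  have h1 : 1 - q.1 ≠ 0 := by linarith [hx.2]
  have hw : om q.1 ≠ 0 := mul_ne_zero h0 h1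
  have dB : dBB d q = -4 * z1' q := by
    refine SMidN_fd (G' := fun p => -2 - 4 * (p.1 * aa p))
      ((SMidN_ev (p := bs q) hx).mono fun r hr => (SMidN_right d hr).2.2.2.2.1)
      (by unfold aa om; fun_prop) fun γ g0 g1 g2 => ?_
    have := ((g1.mul (SMidN_aa hw g0 g1 g2)).const_mul 4).const_sub (-2)
    refine HasDerivAt.congr_deriv this ?_
    simp only [g0, tv, z1', bs]; ring
  have dG : dGG d q = -(ZZ1 q * (1 + q.2.1 1) ^ 2 / (q.1 + q.2.1 0) +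
        2 * ZZ (bs q) * (1 + q.2.1 1) * (q.2.2 1 / om q.1) / (q.1 + q.2.1 0) -
        ZZ (bs q) * (1 + q.2.1 1) ^ 3 / (q.1 + q.2.1 0) ^ 2) - 4 * z1' q := by
    refine SMidN_fd (G' := fun p => -2 * d -
        4 * (p.1 * (1 - p.1)) * aa p * (1 + p.2 1) ^ 2 / (p.1 + p.2 0) - 2 - 4 * (p.1 * aa p))
      ((SMidN_ev (p := bs q) hx).mono fun r hr => (SMidN_right d hr).2.2.2.2.2)
      (by unfold aa om; fun_prop (disch := exact hF.ne')) fun γ g0 g1 g2 => ?_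
    have ha := SMidN_aa hw g0 g1 g2
    have := (((((((g1.mul (g1.const_sub 1)).const_mul 4).mul ha).mul
      (((g2 1).const_add 1).pow 2)).div (g1.add (g2 0))
      (by simpa [g0, bs] using hF.ne')).const_sub (-2 * d)).sub_const 2).sub
      ((g1.mul ha).const_mul 4)
    refine HasDerivAt.congr_deriv this ?_
    simp only [Pi.mul_apply, Pi.add_apply, Pi.pow_apply, g0, tv, z1', ZZ1, ZZ, bs, Matrix.cons_val,
      Nat.add_one_sub_one, pow_one, Nat.cast_ofNat]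
    generalize q.1 + q.2.1 0 = F at hF ⊢
    generalize q.2.2 1 / om q.1 = G
    unfold om
    field_simp; ring
  simp only [bs] at e1 e2 e3 e4 e5
  constructor
  · simp only [N1r, N1m, dB, dG, bs, e5, ZZ1, ZZ, z1', be, om]
    generalize q.1 + q.2.1 0 = F at hF ⊢
    field_simp; ring
  · simp only [N2r, N2m, boxZ, dB, bs, e1, e2, e3, e4, e5, ZZ1, ZZ, z1, z1', l1, be, aa, aa1, om]
    generalize q.1 + q.2.1 0 = F at hF ⊢
    field_simp; ring

theorem midN : MidNStmt := by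
  refine ⟨fun d hd q hq hx => SMidN_l hd hq hx, fun d _ q hq hx => SMidN_r hq hx,
    fun d hd q hq hx => ?_⟩
  simp only [NL, Matrix.cons_val, gl]
  split_ifs with h1 h2
  · exact SMidN_l hd hq ⟨hx.1, by linarith⟩
  · exact SMidN_r hq ⟨by linarith, hx.2⟩
  · exact ⟨rfl, rfl⟩

end Vale.Agent.P244
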