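import Vale.Agent.P244.StmS

/-! P244: the algebraic formulas and the equation of `y` near `0`. -/

open Set Filter
open scoped ContDiff Topology

namespace Vale.Agent.P244

theorem SNear_gl {F0 Fm F1 : Q → ℝ} {q : Q} {c : ℝ} (h : q.1 < 1 / 4) (h0 : q.1 < 1 / 8 → F0 q = c)
    (hm : 0 < q.1 → Fm q = c) : gl F0 Fm F1 q = c := by
  unfold gl
  split_ifs with h1 h2
  · exact h0 h1
  · linarith
  · exact hm (by linarith)

theorem SNear_gl' {Fm F1 : Q → ℝ} {q : Q} (h : q.1 < 1 / 4) : gl Fm Fm F1 q = Fm q :=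
  SNear_gl h (fun _ => rfl) fun _ => rfl

theorem nearQ : NearQStmt := by
  intro d hd q hq h0 h4
  have hq' : bs q ∈ Om d := hq
  have b1 : (bs q).1 = q.1 := rfl
  have b2 : (bs q).2 = q.2.1 := rfl
  have hg : gam q.1 = 0 := gam_zero (by linarith)
  obtain ⟨g1, g2⟩ := dgam_left (x := q.1) (by linarith)
  obtain ⟨p1, p2⟩ := dph0_left d h4
  have ph : PhP d (bs q) = nF d q := PhP_left d h4.le
  have pos : 0 < nF d q := ph ▸ PhP_pos hq' (by rw [b1]; linarith)
  have zpos : 0 < nz q := mul_pos (by rw [b1]; linarith) (aa_pos hq')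
  have ph1 : Ph1 d (bs q) = nF1 d q := by simp [Ph1, nF1, b1, b2, hg, g1, p1]
  have ps : PsP (bs q) = q.1 := by simp [PsP, Ps, b1, hg]
  have ps1 : Ps1 (bs q) = 1 := by simp [Ps1, b1, hg, g1]
  have c0 : cc (bs q) = 0 := by simp [cc, b1, g1, g2]
  have hz : nz q = (1 - q.1) * aa (bs q) := rfl
  have zz : ZZ (bs q) = 4 * nz q * q.1 := by rw [hz, ZZ, b1, om]; ring
  have zz1 : ZZ1 q = 4 * nz q + 4 * q.1 * z0' q := by rw [hz, ZZ1, z0', om]; ring
  have hr1 : r1 (bs q) = 1 - q.1 := by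
    unfold r1
    rw [b1, ps]
    split_ifs with h
    · rfl
    · have : q.1 ≠ 0 := by intro e; rw [e] at h; norm_num at h
      rw [om]; field_simp
  have hr2 : r2 d (bs q) = om q.1 / nF d q := by
    unfold r2
    rw [b1, ph, if_neg (by linarith)]
  have R1 : RR1 d (bs q) = -(2 * d + 4 * nz q) := by
    rw [RR1, hr1, ps1, c0, hz]; ring
  have R2 : RR2 d (bs q) = -2 - 4 * nz q * nX d q * nF1 d q := by
    rw [RR2, hr2, ph1, c0, b1, p2, hz, nX, om]; ring
  have bb : BB d (bs q) = 2 * d + 4 * nz q := by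
    rw [BB, R1, b1, hg, g1]; ring
  have gg : GG d (bs q) = 4 * nz q / d - 4 * nz q * nX d q * nF1 d q := by
    rw [GG, R1, R2, b1, g1, p1]; field_simp; ring
  have zph2 : ZPh2 d q = 4 * aa (bs q) * q.2.2 1 := by rw [ZPh2, p2, c0, hg]; ring
  have zl : q.1 * l0 (bs q) = 1 - nz q := by rw [hz, l0, aa, b1, om]; ring
  have k1 : K1 q = -z0' q := SNear_gl h4 (fun _ => rfl) fun h => by
    rw [K1m, kk, ZPs2, zz, zz1, ps, ps1, c0, hg]; field_simp; ring
  have l1 : L1 q = l0 (bs q) := SNear_gl h4 (fun _ => rfl) fun h => by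
    rw [L1m, ll, zz, ps, ps1, show nz q = 1 - q.1 * l0 (bs q) by linarith]; field_simp; ring
  have xl1 : q.1 * L1 q = 1 - nz q := by rw [l1, zl]
  have mm : MM d q = -(nz q * nF1 d q) / nF d q :=
    SNear_gl h4 (fun _ => by rw [ph, ph1]; rfl) fun h => by
      rw [Mm, mx, zz, ps, ps1, ph, ph1]; field_simp
  have a2 : A2 d q = nz q * nX d q * nF1 d q / nF d q := by
    rw [A2, zz, ph, ph1, nX]; field_simp
  have l2 : L2 d q = 1 / nF d q - A2 d q := by
    rw [L2, SNear_gl' h4, L2m, ll, A2, ph]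
  have k2 : K2 d q = -(ZPh2 d q / (2 * nF d q) - A2 d q + ZZ1 q * nF1 d q / (4 * nF d q)) := by
    rw [K2, SNear_gl' h4, K2m, kk, A2, ph, ph1]
  have xe : q.1 * E1 d q = -(q.1 * z0' q) + d * (1 - nz q) - 2 * nz q * nX d q := by
    rw [E1, ← xl1, k1, mm, nX]; ring
  have e12 : 2 * nF d q * (E1 d q * nX d q - E2 d q) =
      ZPh2 d q + (2 * d + 4 * nz q) * nF1 d q - 2 - 4 * nz q * nX d q * nF1 d q := by
    have e : E1 d q * nX d q = q.1 * E1 d q * nF1 d q / nF d q := by rw [nX]; ring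
    rw [e, xe, E2, k2, l2, mm, a2, zz1]
    field_simp
    ring
  refine ⟨pos, zpos, ph, ph1, zz, zz1, bb, gg, zph2, k1, l1, xl1, mm, fun h => ?_, a2, l2, k2, e12,
    ?_, fun e0 e1 e2 => ?_, ?_⟩
  · rw [A1, zz, ps, ps1]; field_simp
  · have y0 : q.2.1 0 = nF d q - q.1 / d := by rw [nF]; ring
    have y1 : q.2.1 1 = nF1 d q - 1 / d := by rw [nF1]; ring
    have hX : nF d q * nX d q = q.1 * nF1 d q := by rw [nX]; field_simp
    have e : 4 * nz q * nF1 d q / nF d q * (nF d q - q.1 / d) =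
        4 * nz q * nF1 d q - 4 * nz q * nX d q / d := by rw [nX]; field_simp
    have e' : 2 * d * (1 / d) = 2 := by field_simp
    rw [y0, y1, D2, add_mul, e]
    linear_combination e12 - 2 * E1 d q * hX + e'
  · have z1 : nz q = 1 := by rw [← sub_eq_zero, ← neg_sub, ← zl, e0]; ring
    rw [D0, E0, E1, k1, l1, k2, mm, a2, zz1, zph2, nX, z1, z0', aa1, l0, aa, b1, b2, e0, e1, e2, om]
    ring
  · have ho : om q.1 = q.1 * (1 - q.1) := rfl
    have h1 : 1 - q.1 ≠ 0 := by linarith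
    have e : jj d q = -2 * E1 d q / (1 - q.1) := SNear_gl h4 (fun _ => rfl) fun h => by
      have e2 : Jm d q = -2 * (q.1 * E1 d q) := by
        rw [xe, Jm, zz, zz1, bb, ps, ps1, ph, ph1, nX]; field_simp; ring
      rw [e2, ho]; field_simp
    rw [e, ho]; field_simp

theorem nearEq (hG : GeqStmt) (hD : DictStmt) : NearEqStmt := by
  intro d hd f0 T f h t ht x hx
  have hI : x ∈ I := ⟨hx.1, by linarith [hx.2]⟩
  have N := nearQ d hd (pt (sl f t) x) (h.sol.mem t ht x hI) hx.1 hx.2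
  have hy := (hG.eq d hd f0 T f h t ht x hI).y
  have y0 : f 0 t x = nF d (pt (sl f t) x) - x / d := by
    change _ = x / d + f 0 t x - x / d
    ring
  have y1 : dx (f 0) t x = nF1 d (pt (sl f t) x) - 1 / d := by
    rw [← h.con t ht x hI]
    change _ = 1 / d + f 1 t x - 1 / d
    ring
  have hx1 : (pt (sl f t) x).1 = x := rfl
  have e : 4 * nz (pt (sl f t) x) * nF1 d (pt (sl f t) x) / nF d (pt (sl f t) x) * f 0 t x =
      4 * nz (pt (sl f t) x) * nF1 d (pt (sl f t) x) -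
        4 * nz (pt (sl f t) x) * nX d (pt (sl f t) x) / d := by
    have := N.pos
    rw [y0, nX, hx1]; field_simp
  simp only [bx, box, ZF, BF, evF, N.zz, N.bb, N.gg, hx1] at hy
  simp only [evF]
  rw [e]
  rw [y1] at hy ⊢
  linear_combination hy

end Vale.Agent.P244
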