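import Vale.Agent.P244.StmS

/-! P244: smoothness of the coefficients of the concrete system. -/

open Set Filter
open scoped ContDiff Topology

namespace Vale.Agent.P244

theorem SSm_glue {X : Type} [NormedAddCommGroup X] [NormedSpace ℝ X] {W : Set X} (hW : IsOpen W)
    {ξ : X → ℝ} (hξ : Continuous ξ) {F0 Fm F1 : X → ℝ}
    (h0 : ∀ q ∈ W, ξ q < 1 / 4 → ContDiffAt ℝ ∞ F0 q)
    (hm : ∀ q ∈ W, ξ q ∈ Ioo (0 : ℝ) 1 → ContDiffAt ℝ ∞ Fm q)
    (h1 : ∀ q ∈ W, 3 / 4 < ξ q → ContDiffAt ℝ ∞ F1 q)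
    (e0 : ∀ q ∈ W, ξ q ∈ Ioo (0 : ℝ) (1 / 4) → F0 q = Fm q)
    (e1 : ∀ q ∈ W, ξ q ∈ Ioo (3 / 4 : ℝ) 1 → F1 q = Fm q) : ∀ q ∈ W,
    ContDiffAt ℝ ∞ (fun q => if ξ q < 1 / 8 then F0 q else if 7 / 8 < ξ q then F1 q else Fm q) q := by
  intro q hq
  by_cases a : ξ q < 1 / 4
  · refine (h0 q hq a).congr_of_eventuallyEq ?_
    filter_upwards [hW.mem_nhds hq, (isOpen_lt hξ continuous_const).mem_nhds a] with r hr hr'
    have hr2 : ξ r < 1 / 4 := hr'
    split_ifs with b c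
    · rfl
    · linarith
    · exact (e0 r hr ⟨by linarith, hr2⟩).symm
  by_cases b : 3 / 4 < ξ q
  · refine (h1 q hq b).congr_of_eventuallyEq ?_
    filter_upwards [hW.mem_nhds hq, (isOpen_lt continuous_const hξ).mem_nhds b] with r hr hr'
    have hr2 : 3 / 4 < ξ r := hr'
    split_ifs with b c
    · linarith
    · rfl
    · exact (e1 r hr ⟨hr2, by linarith⟩).symm
  · refine (hm q hq ⟨by linarith, by linarith⟩).congr_of_eventuallyEq ?_
    filter_upwards [(isOpen_Ioo.preimage hξ).mem_nhds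
      (show ξ q ∈ Ioo (1 / 8 : ℝ) (7 / 8) from ⟨by linarith, by linarith⟩)] with r hr
    rw [if_neg (not_lt.2 hr.1.le), if_neg (not_lt.2 hr.2.le)]

attribute [local fun_prop] contDiff_om contDiff_gam contDiff_ph0

@[fun_prop] theorem SSm_aa : ContDiff ℝ ∞ aa := by unfold aa; fun_prop

@[fun_prop] theorem SSm_ZZ : ContDiff ℝ ∞ ZZ := by unfold ZZ; fun_prop

@[fun_prop] theorem SSm_PsP : ContDiff ℝ ∞ PsP := by unfold PsP Ps; fun_prop

@[fun_prop] theorem SSm_PhP (d : ℝ) : ContDiff ℝ ∞ (PhP d) := by unfold PhP Ph; fun_prop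

@[fun_prop] theorem SSm_Ps1 : ContDiff ℝ ∞ Ps1 := by
  have h := contDiff_deriv contDiff_gam
  unfold Ps1; generalize deriv gam = g1 at h ⊢; fun_prop

@[fun_prop] theorem SSm_Ph1 (d : ℝ) : ContDiff ℝ ∞ (Ph1 d) := by
  have h := contDiff_deriv contDiff_gam
  have h' := contDiff_deriv (contDiff_ph0 d)
  unfold Ph1; generalize deriv gam = g1 at h ⊢; generalize deriv (ph0 d) = g2 at h' ⊢; fun_prop

@[fun_prop] theorem SSm_cc : ContDiff ℝ ∞ cc := by
  have h := contDiff_deriv contDiff_gam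
  have h' := contDiff_deriv h
  unfold cc; generalize deriv (deriv gam) = g2 at h' ⊢; generalize deriv gam = g1 at h ⊢; fun_prop

@[fun_prop] theorem SSm_bs : ContDiff ℝ ∞ bs := by unfold bs; fun_prop

@[fun_prop] theorem SSm_aa1 : ContDiff ℝ ∞ aa1 := by unfold aa1; fun_prop

@[fun_prop] theorem SSm_ZZ1 : ContDiff ℝ ∞ ZZ1 := by unfold ZZ1; fun_prop

@[fun_prop] theorem SSm_z0 : ContDiff ℝ ∞ z0 := by unfold z0; fun_prop

@[fun_prop] theorem SSm_z1 : ContDiff ℝ ∞ z1 := by unfold z1; fun_prop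

@[fun_prop] theorem SSm_z0' : ContDiff ℝ ∞ z0' := by unfold z0'; fun_prop

@[fun_prop] theorem SSm_z1' : ContDiff ℝ ∞ z1' := by unfold z1'; fun_prop

@[fun_prop] theorem SSm_l0 : ContDiff ℝ ∞ l0 := by unfold l0; fun_prop

@[fun_prop] theorem SSm_l1 : ContDiff ℝ ∞ l1 := by unfold l1; fun_prop

@[fun_prop] theorem SSm_be (d : ℝ) : ContDiff ℝ ∞ (be d) := by unfold be; fun_prop

@[fun_prop] theorem SSm_ZPs2 : ContDiff ℝ ∞ ZPs2 := by unfold ZPs2; fun_prop

@[fun_prop] theorem SSm_ZPh2 (d : ℝ) : ContDiff ℝ ∞ (ZPh2 d) := by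
  have h := contDiff_deriv (contDiff_deriv (contDiff_ph0 d))
  unfold ZPh2; generalize deriv (deriv (ph0 d)) = g2 at h ⊢; fun_prop

theorem SSm_open (d : ℝ) : IsOpen (Om d) := by
  have h := (contDiff_deriv contDiff_gam).continuous
  have h2 : Continuous fun p : ℝ × V3 => 1 + deriv gam p.1 * p.2 0 := by
    generalize deriv gam = g1 at h ⊢; fun_prop
  exact (isOpen_lt continuous_const SSm_aa.continuous).inter
    (((isOpen_lt continuous_fst continuous_const).union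
      (isOpen_lt continuous_const SSm_PsP.continuous)).inter
    (((isOpen_lt continuous_const continuous_fst).union
      (isOpen_lt continuous_const (SSm_PhP d).continuous)).inter (isOpen_lt continuous_const h2)))

theorem SSm_open' (d : ℝ) : IsOpen (lift (Om d)) := (SSm_open d).preimage SSm_bs.continuous

section

variable {d : ℝ}

theorem SSm_r1 (hM : MidStmt) (hd : 0 < d) : ∀ p ∈ Om d, ContDiffAt ℝ ∞ r1 p := by
  have h1 : ∀ p ∈ Om d, 0 < p.1 → p.1 < 1 ∨ 3 / 4 < p.1 →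
      ContDiffAt ℝ ∞ (fun p => om p.1 / PsP p) p := fun p hp h _ => by
    have := (PsP_pos hp h).ne'
    fun_prop (disch := assumption)
  have := SSm_glue (SSm_open d) continuous_fst (F0 := fun p => 1 - p.1)
    (fun _ _ _ => by fun_prop) (fun p hp h => h1 p hp h.1 (Or.inl h.2))
    (fun p hp h => h1 p hp (by linarith) (Or.inr h))
    (fun p hp h => (hM.left d hd (p.1, p.2, 0) hp h).2.2.2.2) fun _ _ _ => rfl
  simp only [ite_self] at this
  exact this

theorem SSm_r2 (hM : MidStmt) (hd : 0 < d) : ∀ p ∈ Om d, ContDiffAt ℝ ∞ (r2 d) p := by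
  have h1 : ∀ p ∈ Om d, p.1 < 1 → ContDiffAt ℝ ∞ (fun p => om p.1 / PhP d p) p := fun p hp h => by
    have := (PhP_pos hp h).ne'
    fun_prop (disch := assumption)
  have := SSm_glue (SSm_open d) continuous_fst (F1 := fun p => p.1)
    (fun p hp h => h1 p hp (by linarith)) (fun p hp h => h1 p hp h.2) (fun _ _ _ => by fun_prop)
    (fun _ _ _ => rfl) (fun p hp h => (hM.right d hd (p.1, p.2, 0) hp h).2.2.2.2)
  intro p hp
  convert this p hp using 2 with r
  unfold r2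
  split_ifs with a b
  · linarith
  · rfl
  · rfl
  · rfl

theorem SSm_BG (hM : MidStmt) (hd : 0 < d) {p : ℝ × V3} (hp : p ∈ Om d) :
    ContDiffAt ℝ ∞ (BB d) p ∧ ContDiffAt ℝ ∞ (GG d) p := by
  have a1 := SSm_r1 hM hd p hp
  have a2 := SSm_r2 hM hd p hp
  have h := contDiff_deriv contDiff_gam
  have h' := contDiff_deriv (contDiff_ph0 d)
  have h'' := contDiff_deriv h'
  have b1 : ContDiffAt ℝ ∞ (RR1 d) p := by unfold RR1; fun_prop
  have b2 : ContDiffAt ℝ ∞ (RR2 d) p := by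
    unfold RR2; generalize deriv (deriv (ph0 d)) = g2 at h'' ⊢; fun_prop
  have c := hp.2.2.2.ne'
  unfold BB GG
  generalize deriv gam = g1 at h c ⊢
  generalize deriv (ph0 d) = g2 at h' ⊢
  constructor <;> fun_prop (disch := assumption)

theorem SSm_m1 {q : Q} (hq : q ∈ lift (Om d)) (h : 0 < q.1) :
    ContDiffAt ℝ ∞ K1m q ∧ ContDiffAt ℝ ∞ L1m q := by
  have a : PsP (bs q) ≠ 0 := (PsP_pos hq h).ne'
  unfold K1m L1m kk ll
  constructor <;> fun_prop (disch := positivity)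

theorem SSm_m2 {q : Q} (hq : q ∈ lift (Om d)) (h : q.1 < 1) :
    ContDiffAt ℝ ∞ (K2m d) q ∧ ContDiffAt ℝ ∞ (L2m d) q := by
  have a : PhP d (bs q) ≠ 0 := (PhP_pos hq h).ne'
  unfold K2m L2m kk ll
  constructor <;> fun_prop (disch := positivity)

theorem SSm_K (hM : MidStmt) (hd : 0 < d) {q : Q} (hq : q ∈ lift (Om d)) :
    ContDiffAt ℝ ∞ K1 q ∧ ContDiffAt ℝ ∞ (K2 d) q ∧ ContDiffAt ℝ ∞ L1 q ∧
      ContDiffAt ℝ ∞ (L2 d) q ∧ ContDiffAt ℝ ∞ (MM d) q := by
  refine ⟨SSm_glue (SSm_open' d) continuous_fst (fun _ _ _ => by fun_prop)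
      (fun q hq h => (SSm_m1 hq h.1).1) (fun q hq h => (SSm_m1 hq (by linarith)).1)
      (fun q hq h => (hM.left d hd q hq h).1) (fun _ _ _ => rfl) q hq,
    SSm_glue (SSm_open' d) continuous_fst (fun q hq h => (SSm_m2 hq (by linarith)).1)
      (fun q hq h => (SSm_m2 hq h.2).1) (fun _ _ _ => by fun_prop)
      (fun _ _ _ => rfl) (fun q hq h => (hM.right d hd q hq h).1) q hq,
    SSm_glue (SSm_open' d) continuous_fst (fun _ _ _ => by fun_prop)
      (fun q hq h => (SSm_m1 hq h.1).2) (fun q hq h => (SSm_m1 hq (by linarith)).2)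
      (fun q hq h => (hM.left d hd q hq h).2.1) (fun _ _ _ => rfl) q hq,
    SSm_glue (SSm_open' d) continuous_fst (fun q hq h => (SSm_m2 hq (by linarith)).2)
      (fun q hq h => (SSm_m2 hq h.2).2) (fun _ _ _ => by fun_prop)
      (fun _ _ _ => rfl) (fun q hq h => (hM.right d hd q hq h).2.1) q hq,
    SSm_glue (SSm_open' d) continuous_fst (fun q hq h => ?_) (fun q hq h => ?_) (fun q hq h => ?_)
      (fun q hq h => (hM.left d hd q hq h).2.2.1) (fun q hq h => (hM.right d hd q hq h).2.2.1) q hq⟩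
  · have a : PhP d (bs q) ≠ 0 := (PhP_pos hq (show q.1 < 1 by linarith)).ne'
    fun_prop (disch := assumption)
  · have a : PhP d (bs q) ≠ 0 := (PhP_pos hq h.2).ne'
    have b : PsP (bs q) ≠ 0 := (PsP_pos hq h.1).ne'
    unfold Mm mx
    fun_prop (disch := positivity)
  · have b : PsP (bs q) ≠ 0 := (PsP_pos hq (show 0 < q.1 by linarith)).ne'
    fun_prop (disch := assumption)

theorem SSm_jj (hM : MidStmt) (hd : 0 < d) : ∀ q ∈ lift (Om d), ContDiffAt ℝ ∞ (jj d) q := by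
  refine SSm_glue (SSm_open' d) continuous_fst (fun q hq h => ?_) (fun q hq h => ?_)
    (fun q hq h => ?_) (fun q hq h => (hM.left d hd q hq h).2.2.2.1)
    (fun q hq h => (hM.right d hd q hq h).2.2.2.1)
  · obtain ⟨a1, a2, a3, a4, a5⟩ := SSm_K hM hd hq
    have a : 1 - q.1 ≠ 0 := by linarith
    unfold E1
    fun_prop (disch := assumption)
  · have a : PhP d (bs q) ≠ 0 := (PhP_pos hq h.2).ne'
    have b : PsP (bs q) ≠ 0 := (PsP_pos hq h.1).ne'
    have c : om q.1 ≠ 0 := (om_pos h).ne'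
    have e : ContDiffAt ℝ ∞ (BB d) (bs q) := (SSm_BG hM hd hq).1
    unfold Jm
    fun_prop (disch := positivity)
  · obtain ⟨a1, a2, a3, a4, a5⟩ := SSm_K hM hd hq
    have a : q.1 ≠ 0 := by linarith
    unfold E2
    fun_prop (disch := assumption)

end

theorem smK (hM : MidStmt) : SmKStmt := fun d hd =>
  ⟨SSm_open d, SSm_open' d, fun _ hp => (SSm_BG hM hd hp).1.contDiffWithinAt,
    fun _ hp => (SSm_BG hM hd hp).2.contDiffWithinAt,
    fun p hp => (SSm_r1 hM hd p hp).contDiffWithinAt,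
    fun p hp => (SSm_r2 hM hd p hp).contDiffWithinAt,
    fun _ hq => (SSm_K hM hd hq).1.contDiffWithinAt,
    fun _ hq => (SSm_K hM hd hq).2.1.contDiffWithinAt,
    fun _ hq => (SSm_K hM hd hq).2.2.1.contDiffWithinAt,
    fun _ hq => (SSm_K hM hd hq).2.2.2.1.contDiffWithinAt,
    fun _ hq => (SSm_K hM hd hq).2.2.2.2.contDiffWithinAt,
    fun q hq => (SSm_jj hM hd q hq).contDiffWithinAt⟩

theorem SSm_d {G : ℝ × V3 → ℝ} {q : Q} (hG : ContDiffAt ℝ ∞ G (bs q)) (h : om q.1 ≠ 0) :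
    ContDiffAt ℝ ∞ (fun q => fderiv ℝ G (bs q) (tv q)) q := by
  refine ((hG.fderiv_right inf_add_one).comp q SSm_bs.contDiffAt).clm_apply ?_
  refine contDiffAt_const.prodMk (contDiffAt_pi.2 fun i => ?_)
  fin_cases i <;> simp only [Fin.zero_eta, Fin.mk_one, Fin.reduceFinMk, Matrix.cons_val] <;>
    fun_prop (disch := assumption)

theorem sys (hN : MidNStmt) (hS : SmKStmt) : SysStmt := by
  intro d hd
  have hK := hS d hd
  refine ⟨hd.le, hK.isOpen, fun p hp => hp.1, fun q hq => ContDiffAt.contDiffWithinAt ?_⟩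
  have hB : ∀ q ∈ lift (Om d), ContDiffAt ℝ ∞ (BB d) (bs q) := fun q hq =>
    hK.bb.contDiffAt (hK.isOpen.mem_nhds hq)
  have hG : ∀ q ∈ lift (Om d), ContDiffAt ℝ ∞ (GG d) (bs q) := fun q hq =>
    hK.gg.contDiffAt (hK.isOpen.mem_nhds hq)
  have hl : ∀ q ∈ lift (Om d), q.1 < 1 / 4 →
      ContDiffAt ℝ ∞ (N1l d) q ∧ ContDiffAt ℝ ∞ (N2l d) q := fun q hq h => by
    have a : 0 < q.1 / d + q.2.1 0 := by
      have := PhP_pos (p := bs q) hq (show q.1 < 1 by linarith)
      rwa [PhP_left d (p := bs q) h.le] at this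
    have b : 0 < 1 - q.1 := by linarith
    unfold N1l N2l
    constructor <;> fun_prop (disch := first | exact a.ne' | exact b.ne' | positivity)
  have hr : ∀ q ∈ lift (Om d), 3 / 4 < q.1 →
      ContDiffAt ℝ ∞ (N1r d) q ∧ ContDiffAt ℝ ∞ (N2r d) q := fun q hq h => by
    have a : 0 < q.1 + q.2.1 0 := by
      have := PsP_pos (p := bs q) hq (show 0 < q.1 by linarith)
      simpa [PsP, Ps, bs, gam_one h.le] using this
    have b : 0 < q.1 := by linarith
    unfold N1r N2r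
    constructor <;> fun_prop (disch := first | exact a.ne' | exact b.ne' | positivity)
  have hm : ∀ q ∈ lift (Om d), q.1 ∈ Ioo (0 : ℝ) 1 →
      ContDiffAt ℝ ∞ (N1m d) q ∧ ContDiffAt ℝ ∞ (N2m d) q := fun q hq h => by
    have a : PhP d (bs q) ≠ 0 := (PhP_pos hq h.2).ne'
    have b : PsP (bs q) ≠ 0 := (PsP_pos hq h.1).ne'
    have c : om q.1 ≠ 0 := (om_pos h).ne'
    have e1 := hB q hq
    have e2 : ContDiffAt ℝ ∞ (dBB d) q := SSm_d e1 c
    have e3 : ContDiffAt ℝ ∞ (dGG d) q := SSm_d (hG q hq) c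
    unfold N1m N2m boxZ
    constructor <;> fun_prop (disch := positivity)
  refine contDiffAt_pi.2 fun i => ?_
  fin_cases i <;> simp only [NL, Fin.zero_eta, Fin.mk_one, Fin.reduceFinMk, Matrix.cons_val]
  · have e1 := hB q hq
    have e2 := hG q hq
    unfold N0
    fun_prop
  · exact SSm_glue hK.isOpen' continuous_fst (fun q hq h => (hl q hq h).1)
      (fun q hq h => (hm q hq h).1) (fun q hq h => (hr q hq h).1)
      (fun q hq h => (hN.left d hd q hq h).1) (fun q hq h => (hN.right d hd q hq h).1) q hq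
  · exact SSm_glue hK.isOpen' continuous_fst (fun q hq h => (hl q hq h).2)
      (fun q hq h => (hm q hq h).2) (fun q hq h => (hr q hq h).2)
      (fun q hq h => (hN.left d hd q hq h).2) (fun q hq h => (hN.right d hd q hq h).2) q hq

end Vale.Agent.P244
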