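import Vale.Agent.P244.StmS

/-! P244: the transport equations and the gradient bound. -/

open Set Filter
open scoped ContDiff Topology

namespace Vale.Agent.P244

theorem STransGrad_a1 {d Z Z1 P P1 P2 R R1 B Pt : ℝ} (hP : P ≠ 0) (hR : R ≠ 0)
    (h : Pt - Z * P2 - B * P1 = -2 * d - Z * P1 ^ 2 / P) :
    Pt + (Z1 / 2 + Z * ((d + 1) * P1 / (2 * P) + R1 / R) - B) * P1 =
      -2 * (kk Z Z1 P P1 (Z * P2) + d * ll Z P P1 + 2 * mx Z P P1 R R1) * P := by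
  rw [show Pt = -2 * d - Z * P1 ^ 2 / P + Z * P2 + B * P1 by linarith]
  unfold kk ll mx
  field_simp
  ring

theorem STransGrad_a2 {d Z Z1 P P1 R R1 R2 B Rt : ℝ} (hP : P ≠ 0) (hR : R ≠ 0)
    (h : Rt - Z * R2 - B * R1 = -2 - Z * R1 ^ 2 / R) :
    Rt + (Z1 / 2 + Z * ((d + 1) * P1 / (2 * P) + R1 / R) - B) * R1 =
      -2 * (kk Z Z1 R R1 (Z * R2) + ll Z R R1 + (d + 1) * mx Z P P1 R R1) * R := by
  rw [show Rt = -2 - Z * R1 ^ 2 / R + Z * R2 + B * R1 by linarith]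
  unfold kk ll mx
  field_simp
  ring

theorem STransGrad_a3 {d Z Z1 Z2 P P1 P2 R R1 R2 B B1 Zt : ℝ} (hP : P ≠ 0) (hR : R ≠ 0)
    (h : Zt - Z * Z2 - B * Z1 = -Z1 ^ 2 / 2 -
      Z ^ 2 * ((d + 1) * P1 ^ 2 / P ^ 2 + 2 * R1 ^ 2 / R ^ 2) / 2 - 2 * Z * B1) :
    Zt + (Z1 / 2 + Z * ((d + 1) * P1 / (2 * P) + R1 / R) - B) * Z1 -
      2 * Z * (Z2 / 2 + (Z1 * ((d + 1) * P1 / (2 * P) + R1 / R) +
        Z * (((d + 1) * P2 * (2 * P) - (d + 1) * P1 * (2 * P1)) / (2 * P) ^ 2 +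
          (R2 * R - R1 * R1) / R ^ 2)) - B1) =
      2 * ((d + 1) * kk Z Z1 P P1 (Z * P2) + 2 * kk Z Z1 R R1 (Z * R2)) * Z := by
  rw [show Zt = -Z1 ^ 2 / 2 - Z ^ 2 * ((d + 1) * P1 ^ 2 / P ^ 2 + 2 * R1 ^ 2 / R ^ 2) / 2 -
    2 * Z * B1 + Z * Z2 + B * Z1 by linarith]
  unfold kk
  field_simp
  ring

theorem trans (hM : MidStmt) (hD : DictStmt) (hG : GeqStmt) : TransStmt := by
  intro d hd f0 T f h t ht
  have J := hG.js d hd f0 T f h.sol
  have hT := h.sol.pos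
  have jJ : JS T (JF d f) := (JS.ofX contDiff_om.contDiffOn).mul J.jj
  have pP : ∀ x ∈ Ioo (0 : ℝ) 1, PsF f t x ≠ 0 := fun x hx =>
    (PsP_pos (h.sol.mem t ht x (Ioo_subset_Icc_self hx)) hx.1).ne'
  have pR : ∀ x ∈ Ioo (0 : ℝ) 1, PhF d f t x ≠ 0 := fun x hx =>
    (PhP_pos (h.sol.mem t ht x (Ioo_subset_Icc_self hx)) hx.2).ne'
  have key : ∀ x ∈ Ioo (0 : ℝ) 1,
      JF d f t x = dx (ZF f) t x / 2 + ZF f t x * ((d + 1) * dx (PsF f) t x / (2 * PsF f t x) +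
        dx (PhF d f) t x / PhF d f t x) - BF d f t x ∧
      K1 (pt (sl f t) x) = kk (ZF f t x) (dx (ZF f) t x) (PsF f t x) (dx (PsF f) t x)
        (ZF f t x * dx (dx (PsF f)) t x) ∧
      K2 d (pt (sl f t) x) = kk (ZF f t x) (dx (ZF f) t x) (PhF d f t x) (dx (PhF d f) t x)
        (ZF f t x * dx (dx (PhF d f)) t x) ∧
      L1 (pt (sl f t) x) = ll (ZF f t x) (PsF f t x) (dx (PsF f) t x) ∧
      L2 d (pt (sl f t) x) = ll (ZF f t x) (PhF d f t x) (dx (PhF d f) t x) ∧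
      MM d (pt (sl f t) x) = mx (ZF f t x) (PsF f t x) (dx (PsF f) t x) (PhF d f t x)
        (dx (PhF d f) t x) := fun x hx => by
    have hI := Ioo_subset_Icc_self hx
    have m := hM.k d hd (pt (sl f t) x) (h.sol.mem t ht x hI) hx
    have e := hD d hd _ (h.prof ht) x hI
    rw [show dx (ZF f) t x = _ from e.zz, show dx (PsF f) t x = _ from e.ps,
      show dx (PhF d f) t x = _ from e.ph, show ZF f t x * dx (dx (PsF f)) t x = _ from e.ps2,
      show ZF f t x * dx (dx (PhF d f)) t x = _ from e.ph2]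
    exact ⟨m.jj, m.k1, m.k2, m.l1, m.l2, m.mm⟩
  have c : ∀ {u : Fn}, JS T u → ContinuousOn (u t) (Icc 0 1) := fun hu => (hu.sm ht).cont
  intro x hx
  refine ⟨eq_of_Ioo zero_lt_one (c ((J.ps.dt hT).add (jJ.mul (J.ps.dx hT))))
      (c (((JS.const (-2)).mul J.e1).mul J.ps)) (fun y hy => ?_) x hx,
    eq_of_Ioo zero_lt_one (c ((J.ph.dt hT).add (jJ.mul (J.ph.dx hT))))
      (c (((JS.const (-2)).mul J.e2).mul J.ph)) (fun y hy => ?_) x hx,
    eq_of_Ioo zero_lt_one (c (((J.z.dt hT).add (jJ.mul (J.z.dx hT))).sub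
      (((JS.const 2).mul J.z).mul (jJ.dx hT)))) (c (((JS.const 2).mul J.e0).mul J.z))
      (fun y hy => ?_) x hx⟩ <;>
    obtain ⟨k0, k1, k2, l1, l2, mm⟩ := key y hy <;>
    have G := hG.eq d hd f0 T f h t ht y (Ioo_subset_Icc_self hy)
  · simp only [evF, E1, k0, k1, l1, mm]
    exact STransGrad_a1 (pP y hy) (pR y hy) (G.ps hy.1)
  · simp only [evF, E2, k0, k2, l2, mm]
    exact STransGrad_a2 (pP y hy) (pR y hy) (G.ph hy.2)
  · have H := (((((J.z.dx hT).hasX ht hy).div_const 2).add ((J.z.hasX ht hy).mul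
      (((((J.ps.dx hT).hasX ht hy).const_mul (d + 1)).div ((J.ps.hasX ht hy).const_mul 2)
        (mul_ne_zero two_ne_zero (pP y hy))).add (((J.ph.dx hT).hasX ht hy).div (J.ph.hasX ht hy)
          (pR y hy))))).sub (J.b.hasX ht hy)).congr_of_eventuallyEq (f₁ := JF d f t) (by
      filter_upwards [Ioo_mem_nhds hy.1 hy.2] with z hz using (key z hz).1)
    simp only [evF, E0, k0, k1, k2, (jJ.hasX ht hy).unique H]
    exact STransGrad_a3 (pP y hy) (pR y hy) (G.z hy)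

theorem STransGrad_bd {X : Type} [TopologicalSpace X] {K : Set X} (hK : IsCompact K)
    {c0 c1 c2 : X → ℝ} (h0 : ContinuousOn c0 K) (h1 : ContinuousOn c1 K) (h2 : ContinuousOn c2 K) :
    ∃ C, 0 ≤ C ∧ ∀ p ∈ K, ∀ u v, |c0 p + c1 p * u + c2 p * v| ≤ C * (1 + |u| + |v|) := by
  obtain ⟨C, hC⟩ := hK.exists_bound_of_continuousOn (h0.prodMk (h1.prodMk h2))
  refine ⟨|C|, abs_nonneg _, fun p hp u v => ?_⟩
  have := (hC p hp).trans (le_abs_self C)
  simp only [Prod.norm_mk, Real.norm_eq_abs, max_le_iff] at this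
  refine (abs_add_three _ _ _).trans ?_
  rw [abs_mul, abs_mul]
  linarith [mul_le_mul_of_nonneg_right this.2.1 (abs_nonneg u),
    mul_le_mul_of_nonneg_right this.2.2 (abs_nonneg v), this.1]

/-- The coefficient of the `j`-th gradient variable. -/
noncomputable def STransGrad_b (E : Q → ℝ) (j : Fin 3) (p : ℝ × V3) : ℝ :=
  E (p.1, p.2, Pi.single j 1) - E (p.1, p.2, 0)

theorem STransGrad_aff (d : ℝ) (q : Q) :
    E1 d q = E1 d (q.1, q.2.1, 0) + STransGrad_b K1 1 (bs q) * q.2.2 1 +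
      STransGrad_b K1 2 (bs q) * q.2.2 2 ∧
    E2 d q = E2 d (q.1, q.2.1, 0) + STransGrad_b (K2 d) 1 (bs q) * q.2.2 1 +
      STransGrad_b (K2 d) 2 (bs q) * q.2.2 2 := by
  obtain ⟨x, y, g⟩ := q
  have e1 : L1 (x, y, g) = L1 (x, y, 0) := rfl
  have e2 : L2 d (x, y, g) = L2 d (x, y, 0) := rfl
  have e3 : MM d (x, y, g) = MM d (x, y, 0) := rfl
  simp only [E1, E2, e1, e2, e3, STransGrad_b, K1, K2, gl, bs]
  constructor <;> by_cases h1 : x < 1 / 8 <;> by_cases h2 : 7 / 8 < x <;>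
    simp only [h1, h2, if_true, if_false] <;>
    simp [K1m, K2m, kk, ZPs2, ZPh2, ZZ1, aa1, z0', z1', bs] <;> ring

theorem STransGrad_det {d : ℝ} {p : ℝ × V3} (hp : p ∈ Om d) (hx : p.1 ∈ I) :
    STransGrad_b K1 1 p * STransGrad_b (K2 d) 2 p -
      STransGrad_b K1 2 p * STransGrad_b (K2 d) 1 p ≠ 0 := by
  have ha := aa_pos hp
  have hP := PsP_pos hp
  have hR := PhP_pos hp
  have hg := gam_dph0 d p.1
  have hD := hp.2.2.2
  obtain ⟨x, y⟩ := p
  simp only [STransGrad_b, K1, K2, gl] at *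
  split_ifs with h1 h2
  · have hR := hR (by linarith)
    refine ne_of_eq_of_ne (b := 2 * aa (x, y) * (1 - x) / PhP d (x, y)) ?_
      (div_pos (mul_pos (by linarith) (by linarith)) hR).ne'
    simp [K2m, kk, ZPh2, ZZ1, aa1, z0', bs, gam_zero (show x ≤ 1 / 2 by linarith)]
    field_simp
    ring
  · have hP := hP (by linarith)
    refine ne_of_eq_of_ne (b := 2 * aa (x, y) * x / PsP (x, y)) ?_
      (div_pos (mul_pos (by linarith) (by linarith)) hP).ne'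
    simp [K1m, kk, ZPs2, ZZ1, aa1, z1', bs, gam_one (show 3 / 4 ≤ x by linarith)]
    field_simp
    ring
  · have hP := hP (by linarith)
    have hR := hR (by linarith)
    have hw : 0 < om x := om_pos ⟨by linarith, by linarith⟩
    refine ne_of_eq_of_ne (b := 2 * aa (x, y) * om x * (1 + deriv gam x * y 0 -
      gam x * (deriv (ph0 d) x + 1)) / (PsP (x, y) * PhP d (x, y))) ?_
      (by rw [hg, sub_zero]; positivity)
    simp [K1m, K2m, kk, ZPs2, ZPh2, ZZ1, aa1, bs, Ps1, Ph1]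
    field_simp
    ring

theorem grad (hM : MidStmt) (hS : SmKStmt) : GradStmt := by
  intro d hd K hK cK
  have S := hS d hd
  have cK' : IsCompact (K ∩ Prod.fst ⁻¹' I) :=
    cK.inter_right (isClosed_Icc.preimage continuous_fst)
  have c : ∀ {E : Q → ℝ}, ContDiffOn ℝ ∞ E (lift (Om d)) → ∀ g : V3,
      ContinuousOn (fun p : ℝ × V3 => E (p.1, p.2, g)) (K ∩ Prod.fst ⁻¹' I) := fun hE g =>
    hE.continuousOn.comp (by fun_prop) fun p hp => hK hp.1
  have b : ∀ {E : Q → ℝ}, ContDiffOn ℝ ∞ E (lift (Om d)) → ∀ j,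
      ContinuousOn (STransGrad_b E j) (K ∩ Prod.fst ⁻¹' I) := fun hE j => (c hE _).sub (c hE _)
  have a1 := c (E := E1 d) ((S.k1.add (contDiffOn_const.mul S.l1)).add
    (contDiffOn_const.mul S.mm)) 0
  have a2 := c (E := E2 d) ((S.k2.add S.l2).add (contDiffOn_const.mul S.mm)) 0
  have hz := fun p (hp : p ∈ K ∩ Prod.fst ⁻¹' I) => STransGrad_det (hK hp.1) hp.2
  have cd := ((b S.k1 1).mul (b S.k2 2)).sub ((b S.k1 2).mul (b S.k2 1))
  obtain ⟨C, C0, hC⟩ := STransGrad_bd cK' ((((b S.k1 2).mul a2).sub ((b S.k2 2).mul a1)).div cd hz)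
    ((b S.k2 2).div cd hz) ((b S.k1 2).neg.div cd hz)
  obtain ⟨C', C0', hC'⟩ := STransGrad_bd cK'
    ((((b S.k2 1).mul a1).sub ((b S.k1 1).mul a2)).div cd hz)
    ((b S.k2 1).neg.div cd hz) ((b S.k1 1).div cd hz)
  refine ⟨C + C', by linarith, fun q hq hx => ?_⟩
  have hp : bs q ∈ K ∩ Prod.fst ⁻¹' I := ⟨hq, hx⟩
  obtain ⟨e1, e2⟩ := STransGrad_aff d q
  have h0 := hz _ hp
  have n : 0 ≤ 1 + |E1 d q| + |E2 d q| := by positivity
  constructor
  · refine le_trans (le_of_eq (congrArg abs ?_)) ((hC _ hp (E1 d q) (E2 d q)).trans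
      (mul_le_mul_of_nonneg_right (by linarith) n))
    rw [e1, e2]
    simp only [Pi.div_apply, Pi.sub_apply, Pi.mul_apply, Pi.neg_apply, bs] at h0 ⊢
    rw [div_mul_eq_mul_div, div_mul_eq_mul_div, ← add_div, ← add_div, eq_div_iff h0]
    ring
  · refine le_trans (le_of_eq (congrArg abs ?_)) ((hC' _ hp (E1 d q) (E2 d q)).trans
      (mul_le_mul_of_nonneg_right (by linarith) n))
    rw [e1, e2]
    simp only [Pi.div_apply, Pi.sub_apply, Pi.mul_apply, Pi.neg_apply, bs] at h0 ⊢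
    rw [div_mul_eq_mul_div, div_mul_eq_mul_div, ← add_div, ← add_div, eq_div_iff h0]
    ring

end Vale.Agent.P244
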