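import Vale.Agent.P244.EHardy
import Vale.Agent.P244.EMul
import Vale.Agent.P244.EAlg
import Vale.Agent.P244.EComp
import Vale.Agent.P244.EPrin
import Vale.Agent.P244.EEn
import Vale.Agent.P244.EProj
import Vale.Agent.P244.EOde
import Vale.Agent.P244.EPEn
import Vale.Agent.P244.EGal1
import Vale.Agent.P244.EGal
import Vale.Agent.P244.EJetLim
import Vale.Agent.P244.ELim
import Vale.Agent.P244.EClosed
import Vale.Agent.P244.EUp
import Vale.Agent.P244.EExist
import Vale.Agent.P244.CTouch
import Vale.Agent.P244.CBox
import Vale.Agent.P244.CGronLin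
import Vale.Agent.P244.CBern
import Vale.Agent.P244.CStab
import Vale.Agent.P244.CJet
import Vale.Agent.P244.CCont
import Vale.Agent.P244.CGlue
import Vale.Agent.P244.CMaxBoot
import Vale.Agent.P244.SMidN
import Vale.Agent.P244.SEvoA
import Vale.Agent.P244.SEvo
import Vale.Agent.P244.SGeq
import Vale.Agent.P244.SSm
import Vale.Agent.P244.SNear
import Vale.Agent.P244.SMid
import Vale.Agent.P244.SDictCon
import Vale.Agent.P244.SEvo2
import Vale.Agent.P244.STransGrad

/-! P244: parts E, C, S put together. -/

namespace Vale.Agent.P244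

theorem aMul : MulStmt := mul hardy

theorem aAlg : AlgStmt := alg hardy

theorem aEn : EnStmt := en hardy aMul aAlg (comp hardy aAlg) (prin hardy aMul aAlg)

theorem aProj : ProjStmt := proj hardy

theorem aPEn : PEnStmt := pen aEn.sm

theorem aExist : ExistStmt :=
  exist (gal hardy aEn aProj aPEn (gal1 hardy aEn aProj ode aPEn)) (lim jetLim aEn.sm) (up closed)

theorem aGron : GronStmt := gron touch boxs

theorem aLin : LinStmt := lin aGron boxs

theorem aStab : StabStmt := stab aLin

theorem aMax : MaxStmt := maxs aExist aStab (cont jet aLin (bern touch boxs)) (glue aStab)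

theorem aSmK : SmKStmt := smK mid

theorem aSys : SysStmt := sys midN aSmK

theorem aDict : DictStmt := dict aSmK

theorem aCon : ConStmt := con boxs aGron midN aSmK

theorem aGeq : GeqStmt := geq boxs mid midN aSmK aDict

theorem aEvo2 : Evo2Stmt := evo2 boxs aGeq (evo boxs mid aDict aGeq (evoAbs boxs))

theorem aNearEq : NearEqStmt := nearEq aGeq aDict

theorem aTrans : TransStmt := trans mid aDict aGeq

theorem aGrad : GradStmt := grad mid aSmK

end Vale.Agent.P244
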