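import Vale.Agent.P244.StmN

/-! P244: the a priori estimates inside the tube. -/

open Set Filter
open scoped ContDiff Topology

namespace Vale.Agent.P244

theorem NApr_ball {θ : ℝ} (h : θ ≤ 1 / 100) {α : V3} (hα : α ∈ Ball (2 * θ)) : α ∈ Ball (1 / 50) :=
  le_trans (b := 2 * θ) hα (by linarith)

theorem NApr_fb {d a : ℝ} (hd : 0 < d) (ha : 0 < a) (i : Fin 3) : ContinuousOn (fb d i) (Icc a 1) := by
  fin_cases i
  · exact continuousOn_const
  · exact continuousOn_const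
  intro x hx
  refine ContinuousAt.continuousWithinAt ?_
  change ContinuousAt (fun x => (1 - ch x) * (2 / ((d + 2) * x) - 1) / (1 - x) ^ 2) x
  rcases lt_or_ge (1 / 2) x with h | h
  · refine (continuousAt_const (y := (0 : ℝ))).congr ?_
    filter_upwards [Ioi_mem_nhds h] with y (hy : 1 / 2 < y)
    simp [ch_one hy.le]
  · have := contDiff_ch.continuous
    have h1 : (d + 2) * x ≠ 0 := (mul_pos (by linarith) (ha.trans_le hx.1)).ne'
    have h2 : (1 - x) ^ 2 ≠ 0 := pow_ne_zero _ (by linarith)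
    fun_prop (disch := assumption)

/-- The two bootstrap functions. -/
noncomputable def NApr_u (d δ CS : ℝ) (f : Fin 3 → Fn) (b : Bool) : Fn := fun t x =>
  if b then max (max (x / (2 * d * PhF d f t x)) (PhF d f t x * |evF (D0 d) f t x| / et d))
      (max (PhF d f t x * |evF (D2 d) f t x| / et d) (PhF d f t x * |evF (Rs d) f t x| / 2))
  else max (max (|f 0 t x - fb d 0 x| / δ) (|f 1 t x - fb d 1 x| / δ))
      (max (|f 2 t x - fb d 2 x| / δ) (evF (SE d) f t x / CS))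

theorem NApr_good (hBo : BootStmt) (hG : GeqStmt) (hS : StepStmt) {k : ℕ}
    {x0 δ CS T θ ε σ Cf Co Cm cW : ℝ} (P : Par k x0 δ CS T θ ε σ Cf Co Cm cW) {α : V3}
    (hα : α ∈ Ball (1 / 50)) {t1 : ℝ} {f : Fin 3 → Fn} (ht1 : t1 < T)
    (hs : RSol (2 * k) (ini k T α) t1 f) (H : ∀ t ∈ Icc 0 t1, gT k x0 T θ f t ≤ 0) :
    ∀ t ∈ Icc 0 t1, Good k x0 δ CS T t (sl f t) := by
  obtain ⟨d, hd⟩ : ∃ d : ℝ, d = 2 * k := ⟨_, rfl⟩
  have d0 : 0 < d := by
    have : 0 < k := lt_of_lt_of_le (by norm_num) P.hk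
    rw [hd]; positivity
  have η0 : 0 < et d := by unfold et; positivity
  have δ0 := P.del.1
  have c0 : 0 < CS := by linarith [P.far.cs]
  have z := hS.zero _ _ _ _ _ _ _ _ _ _ _ _ P α hα t1 f hs
  have st := hS.step _ _ _ _ _ _ _ _ _ _ _ _ P α hα
  rw [← hd] at z st hs
  have js := hG.js d d0 _ t1 f hs.sol
  have xI : ∀ {x}, x ∈ Icc 0 x0 → x ∈ I := fun hx => ⟨hx.1, by linarith [hx.2, P.hx.2]⟩
  have xI' : ∀ {x}, x ∈ Icc (x0 / 2) 1 → x ∈ I := fun hx => ⟨by linarith [hx.1, P.hx.1], hx.2⟩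
  have F0 : ∀ t ∈ Icc 0 t1, ∀ x ∈ Icc 0 x0, 0 < PhF d f t x := fun t ht x hx =>
    PhP_pos (hs.sol.mem t ht x (xI hx)) (by linarith [hx.2, P.hx.2] : x < 1)
  have eF : ∀ t, ∀ x ∈ Icc 0 x0, PhF d f t x = nF d (pt (sl f t) x) := fun t x hx =>
    PhP_left d (by linarith [hx.2, P.hx.2] : x ≤ 1 / 4)
  have weak : ∀ t ∈ Icc 0 t1, (∀ b, ∀ x ∈ Icc (if b then 0 else x0 / 2) (if b then x0 else 1),
      NApr_u d δ CS f b t x ≤ 1) → WBn d x0 (sl f t) ∧ WBf d x0 δ CS (sl f t) := fun t ht h => by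
    have a := h true
    have b := h false
    simp only [NApr_u, if_true, Bool.false_eq_true, if_false, max_le_iff, div_le_one η0,
      div_le_one δ0, div_le_one c0, div_le_one (zero_lt_two' ℝ)] at a b
    refine ⟨⟨fun x hx => ?_, fun x hx => ?_, fun x hx => ?_, fun x hx => ?_⟩, fun i x hx => ?_,
      fun x hx => (b x hx).2.2⟩
    · rw [← eF t x hx]
      exact (div_le_one (by have := F0 t ht x hx; positivity)).1 (a x hx).1.1
    · rw [← eF t x hx]; exact (a x hx).1.2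
    · rw [← eF t x hx]; exact (a x hx).2.1
    · rw [← eF t x hx]; exact (a x hx).2.2
    · fin_cases i
      exacts [(b x hx).1.1, (b x hx).1.2, (b x hx).2.1]
  have strong : ∀ t ∈ Icc 0 t1, SB d x0 δ CS (sl f t) → ∀ b,
      ∀ x ∈ Icc (if b then 0 else x0 / 2) (if b then x0 else 1), NApr_u d δ CS f b t x < 1 := by
    intro t ht h b x hx
    cases b
    · simp only [NApr_u, Bool.false_eq_true, if_false, max_lt_iff, div_lt_one δ0,
        div_lt_one c0] at hx ⊢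
      exact ⟨⟨h.near 0 x hx, h.near 1 x hx⟩, h.near 2 x hx, h.se x hx⟩
    · simp only [NApr_u, if_true, max_lt_iff, div_lt_one η0, div_lt_one (zero_lt_two' ℝ)] at hx ⊢
      rw [div_lt_one (by have := F0 t ht x hx; positivity), eF t x hx]
      exact ⟨⟨h.x x hx, h.d0 x hx⟩, h.d2 x hx, h.rs x hx⟩
  have key := hBo Bool t1 (NApr_u d δ CS f) (fun b => if b then 0 else x0 / 2)
    (fun b => if b then x0 else 1) hs.sol.pos.le
    (fun b => by
      cases b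
      · have m : ∀ {u : Fn}, JS t1 u → ContinuousOn (fun p : ℝ × ℝ => u p.1 p.2)
            (Icc 0 t1 ×ˢ Icc (x0 / 2) 1) := fun h =>
          h.cont.mono (prod_mono subset_rfl fun _ hx => xI' hx)
        have g : ∀ i, ContinuousOn (fun p : ℝ × ℝ => |f i p.1 p.2 - fb d i p.2| / δ)
            (Icc 0 t1 ×ˢ Icc (x0 / 2) 1) := fun i =>
          ((m (hs.sol.js i)).sub ((NApr_fb d0 (by linarith [P.hx.1]) i).comp continuousOn_snd
            fun _ hp => hp.2)).abs.div_const _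
        simp only [NApr_u, Bool.false_eq_true, if_false]
        exact ((g 0).sup (g 1)).sup ((g 2).sup ((m js.se).div_const _))
      · have m : ∀ {u : Fn}, JS t1 u → ContinuousOn (fun p : ℝ × ℝ => u p.1 p.2)
            (Icc 0 t1 ×ˢ Icc 0 x0) := fun h =>
          h.cont.mono (prod_mono subset_rfl fun _ hx => xI hx)
        simp only [NApr_u, if_true]
        exact ((continuousOn_snd.div (continuousOn_const.mul (m js.ph)) fun p hp =>
            (mul_pos (mul_pos two_pos d0) (F0 p.1 hp.1 p.2 hp.2)).ne').sup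
          (((m js.ph).mul (m js.d0).abs).div_const _)).sup
          ((((m js.ph).mul (m js.d2).abs).div_const _).sup
            (((m js.ph).mul (m js.rs).abs).div_const _)))
    (fun b x hx => (strong 0 ⟨le_rfl, hs.sol.pos.le⟩ z b x hx).le)
    (fun t ht h => by
      rcases ht.1.eq_or_lt with e | e
      · subst e; exact strong 0 ht z
      have sub : ∀ {s}, s ∈ Icc 0 t → s ∈ Icc 0 t1 := fun hs => ⟨hs.1, hs.2.trans ht.2⟩
      exact strong t ht (st t f (ht.2.trans_lt ht1) (hs.mono e ht.2) (fun s hs' =>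
        ⟨H s (sub hs'), weak s (sub hs') fun b => h b s hs'⟩) t ⟨ht.1, le_rfl⟩).1)
  exact fun t ht => (st t1 f ht1 hs (fun s hs' => ⟨H s hs', weak s hs' fun b => key b s hs'⟩) t ht).2

theorem NApr_bdry {θ ρ S : ℝ} {a : Fin 4 → ℝ} {α : V3} (hθ : θ ∈ Ioc (0 : ℝ) (1 / 100))
    (hρ : 0 < ρ) (hα : α 0 ^ 2 + α 1 ^ 2 + α 2 ^ 2 = 2 * θ)
    (h0 : |a 0 - ρ * α 0| ≤ ρ * (θ / 100)) (h1 : |a 1 - ρ * α 1| ≤ ρ * (θ / 100))
    (h2 : |a 2 - ρ * α 2| ≤ ρ * (θ / 100)) (h3 : |a 3 - ρ| ≤ ρ * (θ / 100))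
    (hS : S ≤ ρ ^ 2 * (θ / 100)) :
    0 ≤ G1 θ a S ∧ 0 < a 0 * α 0 + a 1 * α 1 + a 2 * α 2 := by
  have key : ∀ b c : ℝ, |b - ρ * c| ≤ ρ * (θ / 100) → c ^ 2 ≤ 1 →
      ρ * c ^ 2 - ρ * (θ / 100) ≤ b * c ∧ ρ ^ 2 * c ^ 2 - 2 * (ρ ^ 2 * (θ / 100)) ≤ b ^ 2 := by
    intro b c hb hc
    have h4 : |(b - ρ * c) * c| ≤ ρ * (θ / 100) * 1 := by
      rw [abs_mul]
      exact mul_le_mul hb ((sq_le_one_iff_abs_le_one c).1 hc) (abs_nonneg _)
        ((abs_nonneg _).trans hb)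
    have h5 := (abs_le.1 h4).1
    have h6 := mul_le_mul_of_nonneg_left h5 hρ.le
    constructor
    · linarith
    · nlinarith [sq_nonneg (b - ρ * c)]
  have s0 := sq_nonneg (α 0)
  have s1 := sq_nonneg (α 1)
  have s2 := sq_nonneg (α 2)
  have k0 := key _ _ h0 (by linarith [hθ.2])
  have k1 := key _ _ h1 (by linarith [hθ.2])
  have k2 := key _ _ h2 (by linarith [hθ.2])
  have p := mul_pos hρ hθ.1
  have p2 := mul_pos (pow_pos hρ 2) hθ.1
  have a3 : a 3 ^ 2 ≤ (101 / 100 * ρ) ^ 2 := by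
    have := abs_le.1 h3
    have : ρ * (θ / 100) ≤ ρ * (1 / 100) := mul_le_mul_of_nonneg_left (by linarith [hθ.2]) hρ.le
    exact sq_le_sq' (by linarith) (by linarith)
  have a4 := mul_le_mul_of_nonneg_left a3 hθ.1.le
  have e1 : ρ * α 0 ^ 2 + ρ * α 1 ^ 2 + ρ * α 2 ^ 2 = 2 * (ρ * θ) := by
    rw [← mul_add, ← mul_add, hα]; ring
  have e2 : ρ ^ 2 * α 0 ^ 2 + ρ ^ 2 * α 1 ^ 2 + ρ ^ 2 * α 2 ^ 2 = 2 * (ρ ^ 2 * θ) := by
    rw [← mul_add, ← mul_add, hα]; ring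
  unfold G1
  constructor
  · nlinarith [k0.2, k1.2, k2.2]
  · linarith [k0.1, k1.1, k2.1]

theorem apr (hBo : BootStmt) (hN : NearQStmt) (hG : GeqStmt) (hGeo : GeoStmt) (hA : ModeAStmt)
    (hP : ParStmt) (hS : StepStmt) : AprStmt := by
  have _ := hN
  obtain ⟨k, x0, δ, CS, T, θ, ε, σ, Cf, Co, Cm, cW, P⟩ := hP
  have hd : (10 : ℝ) ^ 8 ≤ 2 * k := by
    have : ((10 ^ 8 : ℕ) : ℝ) ≤ k := by exact_mod_cast P.hk
    push_cast at this
    linarith
  have T0 := P.hT.1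
  have ρ0 : 0 < rho (2 * k) T := by unfold rho; positivity
  have a3 : ∀ α ∈ Ball (1 / 50), rho (2 * k) T / 2 ≤ am k (FF x0 T (y0 k T α)) 3 := fun α hα => by
    have := (abs_le.1 (P.inim α hα _ _ _ rfl rfl rfl).2.2.2.1).1
    have : rho (2 * k) T * (θ / 100) ≤ rho (2 * k) T * (1 / 100) :=
      mul_le_mul_of_nonneg_left (by linarith [P.hθ.2]) ρ0.le
    linarith
  refine ⟨k, x0, δ, CS, T, θ, P.hk, P.hx, P.hT, P.hθ, P.del,
    fun α hα => (P.inia α (NApr_ball P.hθ.2 hα)).prof, P.lip,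
    fun α hα => lt_of_lt_of_le (by linarith) (a3 α (NApr_ball P.hθ.2 hα)), fun α hα => ?_,
    fun α hα t1 f ht1 hs H => NApr_good hBo hG hS P (NApr_ball P.hθ.2 hα) ht1 hs H,
    fun α hα t2 f ht2 hs t ht H h0 => ?_⟩
  · obtain ⟨m0, m1, m2, m3, mS⟩ := P.inim α (NApr_ball P.hθ.2 hα.le) _ _ _ rfl rfl rfl
    rw [Fin.sum_univ_three]
    exact NApr_bdry P.hθ ρ0 hα m0 m1 m2 m3 mS
  have hα' := NApr_ball P.hθ.2 hα
  have τ0 : 0 < T - t := by linarith [ht.2]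
  have r0 : 0 < ((T - t) / T) ^ 4 := by positivity
  have g : Geo (2 * k) x0 (sl f t) ∧ (∀ x ∈ Icc (x0 / 2) 1, |sl f t 0 x - fb (2 * k) 0 x| ≤ δ) ∧
      rho (2 * k) T / 4 * ((T - t) / T) ^ 4 ≤ aT k x0 T f t 3 := by
    rcases ht.1.eq_or_lt with e | e
    · subst e
      have z := hS.zero _ _ _ _ _ _ _ _ _ _ _ _ P α hα' t2 f hs
      refine ⟨hGeo _ (by linarith) x0 P.hx _ (hs.prof ht) ⟨fun x hx => (z.x x hx).le,
        fun x hx => (z.d0 x hx).le, fun x hx => (z.d2 x hx).le, fun x hx => (z.rs x hx).le⟩,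
        fun x hx => (z.near 0 x hx).le, ?_⟩
      have e1 := (hA.congr x0 P.hx T T0 (f 0 0) (y0 k T α) (hs.sol.init 0) k).1
      have := a3 α hα'
      rw [← e1] at this
      simp only [aT, sub_zero, div_self T0.ne', one_pow]
      linarith
    · have := NApr_good hBo hG hS P hα' (ht.2.trans_lt ht2) (hs.mono e ht.2) H t ⟨ht.1, le_rfl⟩
      exact ⟨this.geo, this.wbf.near 0, this.a3⟩
  have ch := P.mode T t2 _ f (rho (2 * k) T / 2 * ((T - t) / T) ^ 4) ht2 hs t ht g.1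
    (fun x hx => by simpa [fb, sl] using g.2.1 x ⟨hx.1, by linarith [hx.2, P.hx.2]⟩) (by
      have r0 : 0 ≤ (T - t) / T := div_nonneg τ0.le T0.le
      have r1 : (T - t) / T ≤ 1 := (div_le_one T0).2 (by linarith [ht.1])
      have e : (T - t) ^ 82 = T ^ 82 * ((T - t) / T) ^ 82 := by
        rw [← mul_pow, mul_div_cancel₀ _ T0.ne']
      have h1 : ((T - t) / T) ^ 82 ≤ ((T - t) / T) ^ 8 := pow_le_pow_of_le_one r0 r1 (by norm_num)
      calc Cm * (T - t) ^ 82 = Cm * T ^ 82 * ((T - t) / T) ^ 82 := by rw [e, mul_assoc]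
        _ ≤ ε * (rho (2 * k) T / 2) ^ 2 * ((T - t) / T) ^ 8 :=
          mul_le_mul P.s5 h1 (pow_nonneg r0 _) (mul_nonneg P.hε.le (sq_nonneg _))
        _ = _ := by rw [mul_pow, ← pow_mul, mul_assoc])
  have p := mul_pos ρ0 r0
  exact P.cone.exit T t _ _ _ _ (by linarith) ch (by linarith [g.2.2])
    (by rw [abs_of_pos (by positivity)]; linarith [g.2.2]) h0

end Vale.Agent.P244
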