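import Vale.Agent.P244.StmN

/-! P244: compactness of the set of values under the bootstrap bounds. -/

open Set Filter Metric
open scoped ContDiff Topology

namespace Vale.Agent.P244

theorem NCompact_cont {d a : ℝ} (hd : 0 < d) (ha : 0 < a) :
    ContinuousOn (fun x => val (fb d) x) (Icc a 1) := by
  refine continuousOn_pi.2 fun i => ?_
  fin_cases i
  · exact continuousOn_const
  · exact continuousOn_const
  · have h1 : ContinuousOn (fun x : ℝ => (1 - ch x) * (2 / ((d + 2) * x) - 1) /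
        (1 - min x (1 / 2)) ^ 2) (Icc a 1) := by
      have := contDiff_ch.continuous
      refine ContinuousOn.div (ContinuousOn.mul (by fun_prop) (ContinuousOn.sub
        (continuousOn_const.div (by fun_prop) fun x hx => ?_) continuousOn_const)) (by fun_prop)
        fun x _ => pow_ne_zero _ ?_
      · have := ha.trans_le hx.1
        positivity
      · linarith [min_le_right x (1 / 2)]
    refine h1.congr fun x _ => ?_
    change (1 - ch x) * (2 / ((d + 2) * x) - 1) / (1 - x) ^ 2 = _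
    rcases le_total x (1 / 2) with h | h
    · simp only [min_eq_left h]
    · simp [ch_one h]

theorem NCompact_mem {d x : ℝ} (hd : 0 < d) (h0 : 0 < x) (h1 : x ≤ 1) :
    (x, val (fb d) x) ∈ Om d := by
  refine ⟨?_, Or.inr ?_, ?_, ?_⟩
  · change 0 < 1 - om x * ((1 - ch x) * (2 / ((d + 2) * x) - 1) / (1 - x) ^ 2)
    rcases le_total (1 / 2) x with h | h
    · simp [ch_one h]
    have h2 : 0 < 1 - x := by linarith
    have e : om x * ((1 - ch x) * (2 / ((d + 2) * x) - 1) / (1 - x) ^ 2) =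
        (1 - ch x) * (2 / (d + 2) - x) / (1 - x) := by
      unfold om
      field_simp
    have h3 : 2 / (d + 2) < 1 := by rw [div_lt_one (by linarith)]; linarith
    rw [e, sub_pos, div_lt_one h2]
    have a := ch_nonneg x
    have b := ch_le x
    rcases le_total (2 / (d + 2) - x) 0 with c | c <;> nlinarith
  · change 0 < x + gam x * 0
    simpa using h0
  · rcases h1.eq_or_lt with h | h
    · left
      change 3 / 4 < x
      linarith
    · right
      change 0 < ph0 d x + (1 - gam x) * 0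
      simpa using ph0_pos hd h0 h
  · change 0 < 1 + deriv gam x * 0
    simp

theorem NCompact_open (d : ℝ) : IsOpen (Om d) := by
  have h1 := contDiff_om.continuous
  have h2 := contDiff_gam.continuous
  have h3 := (contDiff_ph0 d).continuous
  have h4 := (contDiff_deriv contDiff_gam).continuous
  have a : IsOpen {p : ℝ × V3 | 0 < 1 - om p.1 * p.2 2} := isOpen_lt continuous_const (by fun_prop)
  have b : IsOpen {p : ℝ × V3 | p.1 < 1 / 4} := isOpen_lt continuous_fst continuous_const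
  have c : IsOpen {p : ℝ × V3 | 0 < Ps p.1 (p.2 0)} :=
    isOpen_lt continuous_const (by unfold Ps; fun_prop)
  have e : IsOpen {p : ℝ × V3 | 3 / 4 < p.1} := isOpen_lt continuous_const continuous_fst
  have f : IsOpen {p : ℝ × V3 | 0 < Ph d p.1 (p.2 0)} :=
    isOpen_lt continuous_const (by unfold Ph; fun_prop)
  have g : IsOpen {p : ℝ × V3 | 0 < 1 + deriv gam p.1 * p.2 0} :=
    isOpen_lt continuous_const (by fun_prop)
  exact a.inter ((b.union c).inter ((e.union f).inter g))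

theorem NCompact_del {d x0 : ℝ} (hd : 0 < d) (hx : 0 < x0) : ∃ δ, DelOK d x0 δ := by
  have hK : IsCompact ((fun x => (x, val (fb d) x)) '' Icc (x0 / 2) 1) :=
    isCompact_Icc.image_of_continuousOn (continuousOn_id.prodMk (NCompact_cont hd (half_pos hx)))
  obtain ⟨δ, hδ, h⟩ := hK.exists_cthickening_subset_open (NCompact_open d) (by
    rintro _ ⟨x, hx', rfl⟩
    exact NCompact_mem hd ((half_pos hx).trans_le hx'.1) hx'.2)
  refine ⟨δ, hδ, fun x hx' v hv => h (mem_cthickening_of_dist_le _ _ _ _ ⟨x, hx', rfl⟩ ?_)⟩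
  rw [Prod.dist_eq, dist_self]
  exact max_le hδ.le ((dist_pi_le_iff hδ.le).2 hv)

theorem NCompact_et {d : ℝ} (hd : (10 : ℝ) ^ 4 ≤ d) : 30 * et d ≤ 1 / 2 := by
  have h : (100 : ℝ) ≤ √d := Real.le_sqrt_of_sq_le (by linarith)
  have : et d ≤ 1 / 100 := one_div_le_one_div_of_le (by norm_num) h
  linarith

/-- The compact set near `0`. -/
def NCompact_K1 (d x0 φ R : ℝ) : Set (ℝ × V3) :=
  (Icc 0 (x0 / 2) ×ˢ closedBall 0 R) ∩
    ({p | φ ≤ p.1 / d + p.2 0} ∩ {p | 1 / 2 ≤ (1 - p.1) * (1 - om p.1 * p.2 2)})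

theorem NCompact_K1c (d x0 φ R : ℝ) : IsCompact (NCompact_K1 d x0 φ R) := by
  have h1 := contDiff_om.continuous
  exact (isCompact_Icc.prod (isCompact_closedBall _ _)).inter_right
    ((isClosed_le continuous_const (by fun_prop)).inter
      (isClosed_le continuous_const (by fun_prop)))

theorem NCompact_K1s {d x0 φ R : ℝ} (hx : x0 ≤ 1 / 8) (hφ : 0 < φ) :
    NCompact_K1 d x0 φ R ⊆ Om d := by
  rintro p ⟨⟨h1, -⟩, h2, h3⟩
  have h4 : p.1 < 1 / 4 := by linarith [h1.2]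
  refine ⟨?_, Or.inl h4, Or.inr ?_, ?_⟩
  · exact (mul_pos_iff_of_pos_left (show 0 < 1 - p.1 by linarith)).1
      (lt_of_lt_of_le (by norm_num) h3)
  · have := PhP_left d h4.le
    exact lt_of_lt_of_eq (hφ.trans_le h2) this.symm
  · rw [(dgam_left (by linarith)).1]
    simp

theorem NCompact_div {φ a e : ℝ} (hφ : 0 < φ) (h1 : φ ≤ a) (h2 : a * |e| ≤ 1 / 2) :
    |e| ≤ 1 / φ := by
  rw [le_div_iff₀ hφ]
  nlinarith [abs_nonneg e]

theorem NCompact_v1 {d x0 x : ℝ} {g : Pf} (hd : (10 : ℝ) ^ 4 ≤ d) (hG : Geo d x0 g)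
    (hx : x ∈ Icc 0 x0) : |g 1 x| ≤ 1 := by
  have h : |d * g 1 x| ≤ 1 / 2 := (hG x hx).xi.trans (NCompact_et hd)
  rw [abs_mul, abs_of_pos (by linarith : 0 < d)] at h
  nlinarith [abs_nonneg (g 1 x)]

theorem NCompact_near (hN : NearQStmt) {d x0 δ CS φ x : ℝ} {g : Pf} (hd : (10 : ℝ) ^ 4 ≤ d)
    (h0 : 0 < x0) (h1 : x0 ≤ 1 / 8) (hδ : 0 < δ) (hφ : 0 < φ) (hg : Prof d g) (hG : Geo d x0 g)
    (hW : WBf d x0 δ CS g) (hx : x ∈ Icc 0 (x0 / 2)) (hl : φ ≤ nF d (pt g x)) :
    (x, val g x) ∈ NCompact_K1 d x0 φ (δ + 1 + 4 * (1 + 1 / φ)) := by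
  have hs : Icc 0 (x0 / 2) ⊆ I := Icc_subset_Icc_right (by linarith)
  have hs' : Icc 0 (x0 / 2) ⊆ Icc 0 x0 := Icc_subset_Icc_right (by linarith)
  have he := NCompact_et hd
  have hq := hG x (hs' hx)
  have hp : 0 < 1 / φ := by positivity
  refine ⟨⟨hx, ?_⟩, hl, ?_⟩
  · rw [mem_closedBall_zero_iff, pi_norm_le_iff_of_nonneg (by positivity)]
    intro i
    fin_cases i
    · have h2 := (convex_Icc 0 (x0 / 2)).norm_image_sub_le_of_norm_hasDerivWithin_le
        (f := g 0) (f' := g 1) (C := 1)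
        (fun y hy => by rw [hg.con y (hs hy)]; exact ((hg.sm 0).hasW (hs hy)).mono hs)
        (fun y hy => NCompact_v1 hd hG (hs' hy)) (right_mem_Icc.2 (half_pos h0).le) hx
      have h3 : |g 0 (x0 / 2) - 0| ≤ δ := hW.near 0 _ ⟨le_rfl, by linarith⟩
      rw [Real.norm_eq_abs, Real.norm_eq_abs, one_mul,
        abs_of_nonpos (show x - x0 / 2 ≤ 0 by linarith [hx.2]), abs_le] at h2
      change |g 0 x| ≤ _
      rw [abs_le] at h3 ⊢
      constructor <;> linarith [hx.1, h2.1, h2.2, h3.1, h3.2]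
    · change |g 1 x| ≤ _
      linarith [NCompact_v1 hd hG (hs' hx)]
    · have h2 : L1 (pt g x) = 1 + (1 - x) ^ 2 * g 2 x :=
        (hN d (by linarith) (pt g x) (hg.mem x (hs hx)) hx.1
          (show x < 1 / 4 by linarith [hx.2])).l1
      have h3 : |L1 (pt g x)| ≤ 1 / φ :=
        NCompact_div hφ (by nlinarith) (hq.l1.trans he)
      have h4 : |(1 - x) ^ 2 * g 2 x| ≤ 1 + 1 / φ := by
        rw [h2, abs_le] at h3
        rw [abs_le]
        constructor <;> linarith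
      have h5 : 1 / 4 ≤ (1 - x) ^ 2 := by nlinarith [hx.1, hx.2]
      rw [abs_mul, abs_of_nonneg (sq_nonneg _)] at h4
      change |g 2 x| ≤ _
      nlinarith [abs_nonneg (g 2 x)]
  · have h2 := (abs_le.1 (hq.z.trans he)).1
    change 1 / 2 ≤ nz (pt g x)
    linarith

theorem NCompact_sq {e C : ℝ} (h : e ^ 2 ≤ C) : |e| ≤ 1 + |C| := by
  nlinarith [le_abs_self C, sq_abs e, sq_nonneg (|e| - 1), abs_nonneg e]

theorem compact (hN : NearQStmt) (hGr : GradStmt) : CompactStmt := by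
  refine ⟨fun d hd x0 hx => NCompact_del hd hx.1, fun d hd x0 hx δ CS hδ φ hφ => ?_⟩
  have hd0 : 0 < d := by linarith
  set K2 := (fun p : ℝ × V3 => (p.1, val (fb d) p.1 + p.2)) '' (Icc (x0 / 2) 1 ×ˢ closedBall 0 δ)
    with hK2
  have c2 : IsCompact K2 :=
    (isCompact_Icc.prod (isCompact_closedBall _ _)).image_of_continuousOn
      (continuousOn_fst.prodMk (((NCompact_cont hd0 (half_pos hx.1)).comp continuousOn_fst
        fun p hp => hp.1).add continuousOn_snd))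
  have s2 : K2 ⊆ Om d := by
    rintro _ ⟨p, ⟨h1, h2⟩, rfl⟩
    refine hδ.2 _ h1 _ fun i => ?_
    have := (pi_norm_le_iff_of_nonneg hδ.1.le).1 (mem_closedBall_zero_iff.1 h2) i
    simpa [val] using this
  have cK := (NCompact_K1c d x0 φ (δ + 1 + 4 * (1 + 1 / φ))).union c2
  have sK := union_subset (NCompact_K1s (d := d) (R := δ + 1 + 4 * (1 + 1 / φ)) hx.2 hφ) s2
  obtain ⟨C, hC, hgr⟩ := hGr d hd0 _ sK cK
  refine ⟨_, sK, cK, 1 + δ + C * (1 + 2 * (1 / φ + (1 + |CS|))),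
    fun g hg hG hW xa hxa hl x hx' => ?_⟩
  have hI : x ∈ I := ⟨hxa.1.trans hx'.1, hx'.2⟩
  have hp : 0 < 1 / φ := by positivity
  have he := NCompact_et hd
  have key : (x, val g x) ∈ NCompact_K1 d x0 φ (δ + 1 + 4 * (1 + 1 / φ)) ∪ K2 ∧
      |g 1 x| ≤ 1 + δ ∧ |E1 d (pt g x)| ≤ 1 / φ + (1 + |CS|) ∧
      |E2 d (pt g x)| ≤ 1 / φ + (1 + |CS|) := by
    rcases le_total x (x0 / 2) with h | h
    · have h1 : x ∈ Icc 0 x0 := ⟨hI.1, by linarith [hx.1]⟩
      have h2 := hl x ⟨hx'.1, h1.2⟩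
      refine ⟨Or.inl (NCompact_near hN hd hx.1 hx.2 hδ.1 hφ hg hG hW ⟨hI.1, h⟩ h2), ?_, ?_, ?_⟩
      · linarith [NCompact_v1 hd hG h1, hδ.1]
      · linarith [NCompact_div hφ h2 ((hG x h1).e1.trans he), abs_nonneg CS]
      · linarith [NCompact_div hφ h2 ((hG x h1).e2.trans he), abs_nonneg CS]
    · have h1 : x ∈ Icc (x0 / 2) 1 := ⟨h, hx'.2⟩
      have h2 := hW.se x h1
      unfold SE at h2
      have a0 := sq_nonneg (E0 d (pt g x))
      have a1 := sq_nonneg (E1 d (pt g x))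
      have a2 := sq_nonneg (E2 d (pt g x))
      refine ⟨Or.inr ⟨(x, val g x - val (fb d) x), ⟨h1, ?_⟩, by simp⟩, ?_, ?_, ?_⟩
      · rw [mem_closedBall_zero_iff, pi_norm_le_iff_of_nonneg hδ.1.le]
        exact fun i => hW.near i x h1
      · have h3 : |g 1 x - 0| ≤ δ := hW.near 1 x h1
        rw [sub_zero] at h3
        linarith
      · linarith [NCompact_sq (show E1 d (pt g x) ^ 2 ≤ CS by nlinarith)]
      · linarith [NCompact_sq (show E2 d (pt g x) ^ 2 ≤ CS by nlinarith)]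
  obtain ⟨k1, k2, k3, k4⟩ := key
  obtain ⟨g1, g2⟩ := hgr (pt g x) k1 hI
  have h5 : C * (1 + |E1 d (pt g x)| + |E2 d (pt g x)|) ≤ C * (1 + 2 * (1 / φ + (1 + |CS|))) :=
    mul_le_mul_of_nonneg_left (by linarith) hC
  have h6 : 0 ≤ C * (1 + 2 * (1 / φ + (1 + |CS|))) := by positivity
  refine ⟨k1, fun i => ?_⟩
  fin_cases i
  · change |om x * d1 (g 0) x| ≤ _
    rw [← hg.con x hI, abs_mul, abs_of_nonneg (om_nonneg hI)]
    nlinarith [om_le (x := x), om_nonneg hI, abs_nonneg (g 1 x)]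
  · change |(pt g x).2.2 1| ≤ _
    linarith [hδ.1]
  · change |(pt g x).2.2 2| ≤ _
    linarith [hδ.1]

end Vale.Agent.P244
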