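import Vale.Agent.P244.StmN

/-! P244: the barrier for the traceless Ricci components. -/

open Set Filter
open scoped ContDiff Topology

namespace Vale.Agent.P244

theorem NDBar_et {d : ℝ} (hd : 10 ^ 12 ≤ d) : 0 < et d ∧ et d ≤ 1 / 10 ^ 6 := by
  have h : (10 : ℝ) ^ 6 ≤ √d := Real.le_sqrt_of_sq_le (by linarith)
  exact ⟨by unfold et; positivity, one_div_le_one_div_of_le (by norm_num) h⟩

theorem NDBar_abs {F a b : ℝ} (hF : 0 < F) (h : F * |a| ≤ b) : -b ≤ F * a ∧ F * a ≤ b := by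
  rw [← abs_le, abs_mul, abs_of_pos hF]; exact h

/-- Touching of `D0`. -/
theorem NDBar_A {d : ℝ} (hd : 10 ^ 12 ≤ d) {q : Q} (hn : NearQ d q) (hg : GeoQ d q) (hx : 0 < q.1)
    {e W L : ℝ} (he : e = 1 ∨ e = -1) (hW : 0 < W) (h0 : e * D0 d q = W) (h2 : |D2 d q| ≤ 2 * W)
    (hL : 51 / 25 ≤ L ∨ (-(8 / 5) ≤ L ∧ 99 / 100 * q.1 ≤ d * nF d q)) :
    nF d q * (e * vD0 d q) < L * W := by
  obtain ⟨h1, h3⟩ := NDBar_et hd
  have hF := hn.pos
  have k1 := NDBar_abs hF hg.k1
  have k2 := NDBar_abs hF hg.k2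
  have mm := NDBar_abs hF hg.mm
  have e1 := NDBar_abs hF hg.e1
  have a2 := hg.a2
  have a2' : 0 ≤ nF d q * A2 d q := mul_nonneg hF.le a2.1
  have hz := abs_le.1 hg.z
  have hb : |e * D2 d q| ≤ 2 * W := by rcases he with rfl | rfl <;> simpa using h2
  have hc : |nF d q * A2 d q + nF d q * K2 d q - nF d q * MM d q| ≤ 90 * et d :=
    abs_le.2 ⟨by linarith, by linarith⟩
  have hp : (nF d q * A2 d q + nF d q * K2 d q - nF d q * MM d q) * (e * D2 d q) ≤
      90 * et d * (2 * W) := by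
    refine (le_abs_self _).trans ?_
    rw [abs_mul]
    exact mul_le_mul hc hb (abs_nonneg _) (by positivity)
  have ha : 0 ≤ (d + 2) * (nF d q * A1 q) := by
    rw [hn.a1 hx]
    have := hn.zpos
    positivity
  have hid : nF d q * (e * vD0 d q) = -(2 * ((d + 2) * (nF d q * A1 q)) + 4 * (nF d q * A2 d q) +
      2 * (nF d q * K1 q) - 2 * (nF d q * E1 d q)) * W +
      4 * ((nF d q * A2 d q + nF d q * K2 d q - nF d q * MM d q) * (e * D2 d q)) := by
    rw [← h0]; unfold vD0; ring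
  have hk : -(2 * ((d + 2) * (nF d q * A1 q)) + 4 * (nF d q * A2 d q) +
      2 * (nF d q * K1 q) - 2 * (nF d q * E1 d q)) + 720 * et d < L := by
    rcases hL with h | ⟨h, h'⟩
    · linarith
    · have : 98 / 100 ≤ (d + 2) * (nF d q * A1 q) := by
        rw [hn.a1 hx, ← mul_div_assoc, ← mul_div_assoc, le_div_iff₀ hx]
        have h5 : 999 / 1000 ≤ nz q := by linarith
        have h6 : d * nF d q * (999 / 1000) ≤ d * nF d q * nz q :=
          mul_le_mul_of_nonneg_left h5 (by positivity)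
        have h7 : 0 ≤ nF d q * nz q := mul_nonneg hF.le hn.zpos.le
        nlinarith
      linarith
  have := mul_lt_mul_of_pos_right hk hW
  rw [hid]; linarith

/-- Touching of `DD`. -/
theorem NDBar_B {d : ℝ} (hd : 10 ^ 12 ≤ d) {q : Q} (hn : NearQ d q) (hg : GeoQ d q)
    {e W L : ℝ} (he : e = 1 ∨ e = -1) (hW : 0 < W) (h0 : e * DD d q = W) (h2 : |D0 d q| ≤ W)
    (hL : 51 / 25 ≤ L) :
    nF d q * (e * (cc0 d q * D0 d q + cc2 d q * D2 d q)) < L * W := by
  obtain ⟨h1, h3⟩ := NDBar_et hd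
  have hF := hn.pos
  have k1 := NDBar_abs hF hg.k1
  have k2 := NDBar_abs hF hg.k2
  have mm := NDBar_abs hF hg.mm
  have e1 := NDBar_abs hF hg.e1
  have a2 := hg.a2
  have a2' : 0 ≤ nF d q * A2 d q := mul_nonneg hF.le a2.1
  have l2 := abs_le.1 hg.l2
  obtain ⟨r, hr⟩ : ∃ r, r = 1 / (d + 2) := ⟨_, rfl⟩
  have r0 : 0 < r := by rw [hr]; positivity
  have r1 : r ≤ 1 / 1000 := by
    rw [hr]; exact one_div_le_one_div_of_le (by norm_num) (by linarith)
  have hb : |e * D0 d q| ≤ W := by rcases he with rfl | rfl <;> simpa using h2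
  have hs : ∀ a : ℝ, |a| ≤ 400 * et d → |a * r| ≤ et d := fun a ha => by
    rw [abs_mul, abs_of_pos r0]
    nlinarith [abs_nonneg a]
  have s0 := abs_le.1 (hs (4 * (nF d q * A2 d q) + 2 * (nF d q * K1 q) - 2 * (nF d q * E1 d q))
    (abs_le.2 ⟨by linarith, by linarith⟩))
  have s2 := abs_le.1 (hs (4 * (nF d q * A2 d q + nF d q * K2 d q - nF d q * MM d q))
    (abs_le.2 ⟨by linarith, by linarith⟩))
  have c0 : |nF d q * cc0 d q| ≤ 200 * et d := by
    have : nF d q * cc0 d q = 2 * (nF d q * A2 d q) + 2 * (nF d q * K2 d q) - 2 * (nF d q * K1 q) +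
        (4 * (nF d q * A2 d q) + 2 * (nF d q * K1 q) - 2 * (nF d q * E1 d q)) * r := by
      rw [hr]; unfold cc0; ring
    rw [this]; exact abs_le.2 ⟨by linarith, by linarith⟩
  have c2 : |nF d q * cc2 d q - 2| ≤ 330 * et d := by
    have : nF d q * cc2 d q = -2 * (nF d q * A2 d q) + 2 * (nF d q * L2 d q) -
        4 * (nF d q * MM d q) + 2 * (nF d q * E1 d q) -
        4 * (nF d q * A2 d q + nF d q * K2 d q - nF d q * MM d q) * r := by
      rw [hr]; unfold cc2; ring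
    rw [this]; exact abs_le.2 ⟨by linarith, by linarith⟩
  have hd2 : e * D2 d q = W + e * D0 d q * r := by
    rw [← h0, hr]; unfold DD; ring
  have p0 : nF d q * cc0 d q * (e * D0 d q) ≤ 200 * et d * W := by
    refine (le_abs_self _).trans ?_
    rw [abs_mul]
    exact mul_le_mul c0 hb (abs_nonneg _) (by positivity)
  have hb' := abs_le.1 hb
  have c2' := abs_le.1 c2
  have p1 : e * D0 d q * r ≤ W / 1000 := by nlinarith
  have p2 : -(W / 1000) ≤ e * D0 d q * r := by nlinarith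
  have p3 : nF d q * cc2 d q * (e * D2 d q) ≤ (2 + 330 * et d) * (W + W / 1000) :=
    mul_le_mul (by linarith) (by linarith) (by linarith) (by positivity)
  have hid : nF d q * (e * (cc0 d q * D0 d q + cc2 d q * D2 d q)) =
      nF d q * cc0 d q * (e * D0 d q) + nF d q * cc2 d q * (e * D2 d q) := by ring
  have := mul_le_mul_of_nonneg_right hL hW.le
  have := mul_le_mul_of_nonneg_right h3 hW.le
  rw [hid]; nlinarith

theorem NDBar_win {d τ x : ℝ} (hd : 10 ^ 12 ≤ d) (hτ : 0 < τ)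
    (h : (x - 2 * d * τ) ^ 2 ≤ 10 ^ 6 * d * τ ^ 2) : 19 / 10 * d * τ ≤ x ∧ x ≤ 4 * d * τ := by
  have h1 : 10 ^ 6 * d * τ ^ 2 ≤ (d * τ / 10) ^ 2 := by
    have : 0 ≤ d * τ ^ 2 * (d / 100 - 10 ^ 6) := mul_nonneg (by positivity) (by linarith)
    nlinarith
  have h2 := abs_le.1 (abs_le_of_sq_le_sq (h.trans h1) (by positivity))
  have : 0 < d * τ := by positivity
  constructor <;> linarith

theorem NDBar_d2 {d : ℝ} (hd : 10 ^ 12 ≤ d) {q : Q} {W : ℝ} (h0 : |D0 d q| ≤ W)
    (h1 : |DD d q| ≤ W) : |D2 d q| ≤ 2 * W := by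
  have e : D2 d q = DD d q + D0 d q / (d + 2) := by unfold DD; ring
  have : |D0 d q / (d + 2)| ≤ |D0 d q| := by
    rw [abs_div, abs_of_pos (by linarith : 0 < d + 2)]
    exact div_le_self (abs_nonneg _) (by linarith)
  rw [e]; linarith [abs_add_le (DD d q) (D0 d q / (d + 2))]

theorem NDBar_dd {d : ℝ} (hd : 10 ^ 12 ≤ d) (q : Q) : |DD d q| ≤ |D2 d q| + |D0 d q| / 10 := by
  have : |D0 d q / (d + 2)| ≤ |D0 d q| / 10 := by
    rw [abs_div, abs_of_pos (by linarith : 0 < d + 2)]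
    exact div_le_div_of_nonneg_left (abs_nonneg _) (by norm_num) (by linarith)
  unfold DD; linarith [abs_sub (D2 d q) (D0 d q / (d + 2))]

/-- The sign and the function of each of the four barrier problems. -/
def NDBar_s (b : Bool) : ℝ := if b then 1 else -1

noncomputable def NDBar_f (d : ℝ) (b : Bool) : Q → ℝ := if b then D0 d else DD d

theorem NDBar_four {d W : ℝ} {q : Q} :
    (∀ i : Bool × Bool, NDBar_s i.1 * NDBar_f d i.2 q - W ≤ 0) → |D0 d q| ≤ W ∧ |DD d q| ≤ W := by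
  intro h
  have a := h (true, true)
  have b := h (false, true)
  have c := h (true, false)
  have e := h (false, false)
  simp only [NDBar_s, NDBar_f, if_true, Bool.false_eq_true, if_false] at a b c e
  exact ⟨abs_le.2 ⟨by linarith, by linarith⟩, abs_le.2 ⟨by linarith, by linarith⟩⟩

theorem NDBar_four' {d W : ℝ} {q : Q} (h0 : |D0 d q| < W) (h1 : |DD d q| < W) (i : Bool × Bool) :
    NDBar_s i.1 * NDBar_f d i.2 q - W < 0 := by
  have a := abs_lt.1 h0
  have b := abs_lt.1 h1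
  obtain ⟨_ | _, _ | _⟩ := i <;>
    simp only [NDBar_s, NDBar_f, if_true, Bool.false_eq_true, if_false] <;> linarith

theorem NDBar_four'' {d W : ℝ} {q : Q} :
    (∀ i : Bool × Bool, NDBar_s i.1 * NDBar_f d i.2 q - W < 0) → |D0 d q| < W ∧ |DD d q| < W := by
  intro h
  have a := h (true, true)
  have b := h (false, true)
  have c := h (true, false)
  have e := h (false, false)
  simp only [NDBar_s, NDBar_f, if_true, Bool.false_eq_true, if_false] at a b c e
  exact ⟨abs_lt.2 ⟨by linarith, by linarith⟩, abs_lt.2 ⟨by linarith, by linarith⟩⟩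

theorem NDBar_Wpos (d τ x Φ : ℝ) : 0 < Wf d τ x Φ := Real.exp_pos _

/-- One phase of the barrier argument. -/
theorem NDBar_phase (hT : TouchStmt) (hB : BoxStmt) (hN : NearQStmt) (hG : GeqStmt)
    (hE : Evo2Stmt) (hW : WEqStmt) {d : ℝ} (hd : 10 ^ 12 ≤ d)
    (hL : ∀ τ x Φ z ξ : ℝ, 0 < τ → 0 ≤ x → 0 < Φ → |z - 1| ≤ 30 * et d →
      |ξ - 1| ≤ 30 * et d → x ≤ 2 * d * Φ → Φ ≤ 11 / 10 * x / d + τ / 10 →
      (10 ^ 6 * d * τ ^ 2 ≤ (x - 2 * d * τ) ^ 2 → 51 / 25 ≤ LamF d τ x Φ z ξ) ∧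
      ((x - 2 * d * τ) ^ 2 ≤ 10 ^ 6 * d * τ ^ 2 → |Φ - x / d| ≤ τ / 100 →
        -(8 / 5) ≤ LamF d τ x Φ z ξ))
    {σ x0 T ρ t1 : ℝ} {f0 : Pf} {f : Fin 3 → Fn} (hx0 : x0 ∈ Ioc (0 : ℝ) (1 / 8)) (ht1 : t1 < T)
    (hs : RSol d f0 t1 f)
    (H : ∀ t ∈ Icc 0 t1, Geo d x0 (sl f t) ∧ FB d T ρ x0 t (sl f t) ∧ Win d σ (T - t) (sl f t) ∧
      |evF (D0 d) f t x0| < Wf d (T - t) x0 (evF (nF d) f t x0) / 4 ∧
      |evF (D2 d) f t x0| < Wf d (T - t) x0 (evF (nF d) f t x0) / 4)
    {ta tb μ : ℝ} (h0 : 0 ≤ ta) (hab : ta ≤ tb) (hb : tb ≤ t1) (hμ : 0 ≤ μ)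
    (hm : ∀ t ∈ Icc ta tb, 1 / 3 ≤ Real.exp (μ * (t - T / 11)))
    (hi : ∀ x ∈ Icc 0 x0,
      |evF (D0 d) f ta x| < WW d T f ta x * Real.exp (μ * (ta - T / 11)) ∧
      |evF (DD d) f ta x| < WW d T f ta x * Real.exp (μ * (ta - T / 11)))
    (hw : ∀ t ∈ Icc ta tb, ∀ x ∈ Icc 0 x0,
      (x - 2 * d * (T - t)) ^ 2 ≤ 10 ^ 6 * d * (T - t) ^ 2 →
      (∀ s ∈ Icc ta t, ∀ y ∈ Icc 0 x0,
        |evF (D0 d) f s y| ≤ WW d T f s y * Real.exp (μ * (s - T / 11)) ∧
        |evF (DD d) f s y| ≤ WW d T f s y * Real.exp (μ * (s - T / 11))) →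
      4 ≤ μ * (T - t) ∨ |evF (D2 d) f t x| ≤ WW d T f t x * Real.exp (μ * (t - T / 11)) / 2) :
    ∀ t ∈ Icc ta tb, ∀ x ∈ Icc 0 x0,
      |evF (D0 d) f t x| < WW d T f t x * Real.exp (μ * (t - T / 11)) ∧
      |evF (DD d) f t x| < WW d T f t x * Real.exp (μ * (t - T / 11)) := by
  have d0 : (0 : ℝ) < d := by linarith
  have tp := hs.sol.pos
  have js := hG.js d d0 f0 t1 f hs.sol
  obtain ⟨jW, eW⟩ := hW d d0 T t1 f0 f ht1 hs
  have jm : JS t1 (fun t _ => Real.exp (μ * (t - T / 11))) := JS.ofT (by fun_prop)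
  have jf : ∀ b, JS t1 (evF (NDBar_f d b) f) := fun b => by
    cases b
    · exact js.dd
    · exact js.d0
  have sub : ∀ {t}, t ∈ Icc ta tb → t ∈ Icc 0 t1 := fun ht => ⟨h0.trans ht.1, ht.2.trans hb⟩
  have xq : ∀ {x}, x ∈ Icc 0 x0 → x ∈ Ico (0 : ℝ) (1 / 4) := fun hx =>
    ⟨hx.1, by linarith [hx.2, hx0.2]⟩
  have xI : ∀ {x}, x ∈ Icc 0 x0 → x ∈ I := fun hx => ⟨hx.1, by linarith [hx.2, hx0.2]⟩
  have key := hT (Bool × Bool) t1 ta tb (fun i t x => NDBar_s i.1 * evF (NDBar_f d i.2) f t x -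
      WW d T f t x * Real.exp (μ * (t - T / 11))) (ZF f) (BF d f) (fun _ => 0) (fun _ => x0) tp h0
    hab hb (fun i => ((JS.const _).mul (jf i.2)).sub (jW.mul jm)) continuous_const continuous_const
    (fun t _ => ⟨le_rfl, hx0.1.le, by linarith [hx0.2]⟩)
    (fun t ht x hx => (js.sign t (sub ht)).1 x (xI hx))
    (Or.inl ⟨fun _ => rfl, fun t ht => ⟨(js.sign t (sub ht)).2.1, (js.sign t (sub ht)).2.2.1⟩⟩)
    (Or.inr fun i t ht => by
      obtain ⟨-, -, -, a, b⟩ := H t (sub ht)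
      have hx : x0 ∈ Icc 0 x0 := ⟨hx0.1.le, le_rfl⟩
      rw [← (eW t (sub ht) x0 (xq hx)).1] at a b
      have c := NDBar_dd hd (pt (sl f t) x0)
      have w : 0 < WW d T f t x0 := NDBar_Wpos _ _ _ _
      have := mul_le_mul_of_nonneg_left (hm t ht) w.le
      have a' : |D0 d (pt (sl f t) x0)| < WW d T f t x0 / 4 := a
      have b' : |D2 d (pt (sl f t) x0)| < WW d T f t x0 / 4 := b
      exact NDBar_four' (by linarith) (by linarith) i)
    (fun i x hx => NDBar_four' (hi x hx).1 (hi x hx).2 i)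
    (fun i t ht x hx hz hist _ => by
      have ht' : t ∈ Icc ta tb := Ioc_subset_Icc_self ht
      have htt := sub ht'
      have hist' : ∀ s ∈ Icc ta t, ∀ y ∈ Icc 0 x0,
          |evF (D0 d) f s y| ≤ WW d T f s y * Real.exp (μ * (s - T / 11)) ∧
          |evF (DD d) f s y| ≤ WW d T f s y * Real.exp (μ * (s - T / 11)) :=
        fun s hs y hy => NDBar_four fun j => hist j s hs y hy
      obtain ⟨geo, fb, win, -⟩ := H t htt
      obtain ⟨m, hmm⟩ : ∃ m, m = Real.exp (μ * (t - T / 11)) := ⟨_, rfl⟩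
      have m0 : 0 < m := hmm ▸ Real.exp_pos _
      have w0 : 0 < WW d T f t x := NDBar_Wpos _ _ _ _
      have wm : 0 < WW d T f t x * m := mul_pos w0 m0
      have τ0 : 0 < T - t := by linarith [htt.2]
      have nq := hN d d0 (pt (sl f t) x) (hs.sol.mem t htt x (xI hx)) hx.1 (xq hx).2
      have gq := geo x hx
      have F0 := nq.pos
      have lam := hL (T - t) x (nF d (pt (sl f t) x)) (nz (pt (sl f t) x)) (1 + d * f 1 t x) τ0 hx.1
        F0 gq.z (by rw [add_sub_cancel_left]; exact gq.xi) gq.x (fb.up x hx)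
      have eb : box t1 (ZF f) (BF d f) (fun t x => NDBar_s i.1 * evF (NDBar_f d i.2) f t x -
          WW d T f t x * Real.exp (μ * (t - T / 11))) t x =
          NDBar_s i.1 * bx d t1 f (evF (NDBar_f d i.2) f) t x -
            (WW d T f t x * (μ * m) + m * bx d t1 f (WW d T f) t x) := by
        have hd' : HasDerivAt (fun t => Real.exp (μ * (t - T / 11))) (μ * m) t := by
          have := (((hasDerivAt_id t).sub_const (T / 11)).const_mul μ).exp
          simp only [id] at this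
          rw [hmm]; convert this using 1; ring
        have z : dx (fun (t : ℝ) (_ : ℝ) => Real.exp (μ * (t - T / 11))) t x = 0 :=
          d1_eq' (xI hx) (hasDerivAt_const _ _)
        rw [hB.sub _ _ _ _ _ tp ((JS.const _).mul (jf i.2)) (jW.mul jm) t htt x (xI hx),
          hB.smul _ _ _ _ _ tp (jf i.2) t htt x (xI hx),
          hB.mul _ _ _ _ _ tp jW jm t htt x (xI hx),
          hB.ofT _ _ _ _ _ tp t htt x (xI hx) hd'.hasDerivWithinAt, z, ← hmm]
        unfold bx; ring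
      have ew := (eW t htt x (xq hx)).2
      have hz' : NDBar_s i.1 * NDBar_f d i.2 (pt (sl f t) x) = WW d T f t x * m := by
        rw [hmm]; exact sub_eq_zero.1 hz
      obtain ⟨b0, b1⟩ := hist' t ⟨ht'.1, le_rfl⟩ x hx
      rw [← hmm] at b0 b1
      have sg : NDBar_s i.1 = 1 ∨ NDBar_s i.1 = -1 := by
        cases i.1 <;> simp [NDBar_s]
      obtain ⟨L, hLd⟩ : ∃ L, L = LamF d (T - t) x (nF d (pt (sl f t) x)) (nz (pt (sl f t) x))
        (1 + d * f 1 t x) := ⟨_, rfl⟩
      have μF : 0 ≤ μ * nF d (pt (sl f t) x) := mul_nonneg hμ F0.le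
      rw [← hLd] at lam
      have inw : (x - 2 * d * (T - t)) ^ 2 ≤ 10 ^ 6 * d * (T - t) ^ 2 → -(8 / 5) ≤ L ∧
          99 / 100 * x ≤ d * nF d (pt (sl f t) x) ∧ T - t ≤ nF d (pt (sl f t) x) := fun h => by
        obtain ⟨a, b⟩ := NDBar_win hd τ0 h
        have dτ : 0 < d * (T - t) := mul_pos d0 τ0
        have y := (win x ⟨by linarith, b⟩).1
        have e : nF d (pt (sl f t) x) = x / d + sl f t 0 x := rfl
        have y1 : (T - t) / d ≤ (T - t) / 100 :=
          div_le_div_of_nonneg_left τ0.le (by norm_num) (by linarith)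
        have y2 := abs_le.1 (y.trans y1)
        have y3 : d * nF d (pt (sl f t) x) = x + d * sl f t 0 x := by rw [e]; field_simp
        have y4 := mul_le_mul_of_nonneg_left y2.1 d0.le
        have y5 : 99 / 100 * x ≤ d * nF d (pt (sl f t) x) := by rw [y3]; nlinarith
        refine ⟨lam.2 h (by rw [e]; simpa using y.trans y1), y5, ?_⟩
        exact le_of_mul_le_mul_left (by linarith) d0
      have fin : nF d (pt (sl f t) x) * (NDBar_s i.1 * bx d t1 f (evF (NDBar_f d i.2) f) t x) <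
          (L + μ * nF d (pt (sl f t) x)) * (WW d T f t x * m) := by
        have ev := hE d d0 f0 t1 f hs t htt x (xI hx)
        cases hi2 : i.2
        · rw [hi2] at hz'
          have e1 : bx d t1 f (evF (NDBar_f d false) f) t x = _ := ev.dd (by linarith [(xq hx).2])
          rw [e1]
          refine NDBar_B hd nq gq sg wm hz' b0 ?_
          rcases le_total (10 ^ 6 * d * (T - t) ^ 2) ((x - 2 * d * (T - t)) ^ 2) with h | h
          · linarith [lam.1 h]
          · obtain ⟨a, -, c⟩ := inw h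
            rcases hw t ht' x hx h hist' with h' | h'
            · linarith [mul_le_mul_of_nonneg_left c hμ]
            · exfalso
              rw [← hmm] at h'
              have c1 := NDBar_dd hd (pt (sl f t) x)
              have c2 : |DD d (pt (sl f t) x)| = WW d T f t x * m := by
                have hz2 : NDBar_s i.1 * DD d (pt (sl f t) x) = WW d T f t x * m := hz'
                rw [← abs_of_pos wm, ← hz2, abs_mul]
                rcases sg with s | s <;> simp [s]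
              have h2 : |D2 d (pt (sl f t) x)| ≤ WW d T f t x * m / 2 := h'
              have h3 : |D0 d (pt (sl f t) x)| ≤ WW d T f t x * m := b0
              linarith
        · rw [hi2] at hz'
          have hz2 : NDBar_s i.1 * D0 d (pt (sl f t) x) = WW d T f t x * m := hz'
          have xp : 0 < x := by
            refine hx.1.lt_of_ne fun h => ?_
            subst h
            rw [nq.d0 rfl (by simp [pt, gr, om]) (by simp [pt, gr, om])] at hz2
            linarith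
          have e1 : bx d t1 f (evF (NDBar_f d true) f) t x = _ :=
            ev.d0 ⟨xp, by linarith [(xq hx).2]⟩
          rw [e1]
          refine NDBar_A hd nq gq xp sg wm hz2 (NDBar_d2 hd b0 b1) ?_
          rcases le_total (10 ^ 6 * d * (T - t) ^ 2) ((x - 2 * d * (T - t)) ^ 2) with h | h
          · exact Or.inl (by linarith [lam.1 h])
          · exact Or.inr ⟨by linarith [(inw h).1], (inw h).2.1⟩
      rw [eb]
      have ew' : nF d (pt (sl f t) x) * bx d t1 f (WW d T f) t x = L * WW d T f t x := by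
        rw [hLd]; exact ew
      refine lt_of_mul_lt_mul_left ?_ F0.le
      have : nF d (pt (sl f t) x) * (NDBar_s i.1 * bx d t1 f (evF (NDBar_f d i.2) f) t x -
          (WW d T f t x * (μ * m) + m * bx d t1 f (WW d T f) t x)) =
          nF d (pt (sl f t) x) * (NDBar_s i.1 * bx d t1 f (evF (NDBar_f d i.2) f) t x) -
          (μ * nF d (pt (sl f t) x) * (WW d T f t x * m) +
            m * (nF d (pt (sl f t) x) * bx d t1 f (WW d T f) t x)) := by ring
      rw [this, ew']; linarith)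
  exact fun t ht x hx => NDBar_four'' fun i => key i t ht x hx

theorem NDBar_exp : (1 / 3 : ℝ) ≤ Real.exp (-(12 / 11)) := by
  have h1 : Real.exp (1 / 11) ≤ 11 / 10 := by
    have := Real.exp_bound_div_one_sub_of_interval (x := 1 / 11) (by norm_num) (by norm_num)
    linarith
  have h2 : Real.exp (12 / 11) ≤ 3 := by
    rw [show (12 / 11 : ℝ) = 1 + 1 / 11 by norm_num, Real.exp_add]
    nlinarith [Real.exp_one_lt_d9, Real.exp_pos 1, Real.exp_pos (1 / 11)]
  rw [Real.exp_neg, ← one_div]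
  exact one_div_le_one_div_of_le (Real.exp_pos _) h2

theorem dBar (hT : TouchStmt) (hB : BoxStmt) (hN : NearQStmt) (hG : GeqStmt) (hE : Evo2Stmt)
    (hW : WEqStmt) (hL : LamStmt) (hWin : WinStmt) : DBarStmt := by
  obtain ⟨d0, hL⟩ := hL
  refine ⟨max d0 (10 ^ 12), fun d hd => ?_⟩
  have hd1 : 10 ^ 12 ≤ d := (le_max_right _ _).trans hd
  have hL := hL d ((le_max_left _ _).trans hd)
  obtain ⟨σ, σ0, hWin⟩ := hWin d (by linarith)
  refine ⟨σ, σ0, fun x0 hx0 T ρ t1 f0 f ht1 h8 hs H hi => ?_⟩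
  have dp : (0 : ℝ) < d := by linarith
  have tp := hs.sol.pos
  have Tp : 0 < T := tp.trans ht1
  have eW := (hW d dp T t1 f0 f ht1 hs).2
  have xq : ∀ {x}, x ∈ Icc 0 x0 → x ∈ Ico (0 : ℝ) (1 / 4) := fun hx =>
    ⟨hx.1, by linarith [hx.2, hx0.2]⟩
  have dw : ∀ t ∈ Icc 0 t1, (∀ x ∈ Icc 0 x0, |evF (D0 d) f t x| ≤ WW d T f t x ∧
      |evF (DD d) f t x| ≤ WW d T f t x) → DW d (T - t) x0 (sl f t) := fun t ht h x hx => by
    obtain ⟨a, b⟩ := h x hx
    have e : WW d T f t x = Wf d (T - t) x (nF d (pt (sl f t) x)) := (eW t ht x (xq hx)).1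
    have w : 0 < WW d T f t x := NDBar_Wpos _ _ _ _
    rw [← e]
    have a' : |D0 d (pt (sl f t) x)| ≤ WW d T f t x := a
    exact ⟨by linarith, NDBar_d2 hd1 a b⟩
  have hm : ∀ t, 0 ≤ t → 1 / 3 ≤ Real.exp (12 / T * (t - T / 11)) := fun t ht =>
    NDBar_exp.trans (Real.exp_le_exp.2 (by
      have : 12 / T * (t - T / 11) = 12 / T * t - 12 / 11 := by field_simp
      have : 0 ≤ 12 / T * t := by positivity
      linarith))
  have p1 := NDBar_phase hT hB hN hG hE hW hd1 hL hx0 ht1 hs H (ta := 0) (tb := min t1 (T / 11))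
    (μ := 12 / T) le_rfl (le_min tp.le (by positivity)) (min_le_left _ _) (by positivity)
    (fun t ht => hm t ht.1)
    (fun x hx => by
      obtain ⟨a, b⟩ := hi x hx
      have e : WW d T f 0 x = Wf d T x (evF (nF d) f 0 x) := by
        simpa using (eW 0 ⟨le_rfl, tp.le⟩ x (xq hx)).1
      rw [← e] at a b
      have c : |evF (DD d) f 0 x| ≤ |evF (D2 d) f 0 x| + |evF (D0 d) f 0 x| / 10 :=
        NDBar_dd hd1 _
      have w : 0 < WW d T f 0 x := NDBar_Wpos _ _ _ _
      have := mul_le_mul_of_nonneg_left (hm 0 le_rfl) w.le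
      exact ⟨by linarith, by linarith⟩)
    (fun t ht x _ _ _ => Or.inl (by
      have := ht.2.trans (min_le_right _ _)
      rw [div_mul_eq_mul_div, le_div_iff₀ Tp]; linarith))
  have p1' : ∀ t ∈ Icc 0 (min t1 (T / 11)), ∀ x ∈ Icc 0 x0, |evF (D0 d) f t x| < WW d T f t x ∧
      |evF (DD d) f t x| < WW d T f t x := fun t ht x hx => by
    obtain ⟨a, b⟩ := p1 t ht x hx
    have w : 0 < WW d T f t x := NDBar_Wpos _ _ _ _
    have : Real.exp (12 / T * (t - T / 11)) ≤ 1 := Real.exp_le_one_iff.2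
      (mul_nonpos_of_nonneg_of_nonpos (by positivity)
        (sub_nonpos.2 (ht.2.trans (min_le_right _ _))))
    have := mul_le_mul_of_nonneg_left this w.le
    exact ⟨by linarith, by linarith⟩
  intro t ht
  rcases le_total t (T / 11) with h | h
  · exact dw t ht fun x hx =>
      ⟨(p1' t ⟨ht.1, le_min ht.2 h⟩ x hx).1.le, (p1' t ⟨ht.1, le_min ht.2 h⟩ x hx).2.le⟩
  have h11 : T / 11 ≤ t1 := h.trans ht.2
  have p2 := NDBar_phase hT hB hN hG hE hW hd1 hL hx0 ht1 hs H (ta := T / 11) (tb := t1)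
    (μ := 0) (by positivity) h11 le_rfl le_rfl (fun t _ => by norm_num)
    (fun x hx => by simpa using p1' (T / 11) ⟨by positivity, le_min h11 le_rfl⟩ x hx)
    (fun s hs' x hx hw hist => Or.inr (by
      have s0 : s ∈ Icc 0 t1 := ⟨le_trans (by positivity) hs'.1, hs'.2⟩
      have := hWin x0 hx0 T ρ t1 f0 f ht1 h8 hs s hs' (fun r hr => by
        have r0 : r ∈ Icc 0 t1 := ⟨hr.1, hr.2.trans hs'.2⟩
        refine ⟨(H r r0).1, (H r r0).2.1, dw r r0 fun y hy => ?_⟩
        rcases le_total r (T / 11) with h | h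
        · exact ⟨(p1' r ⟨hr.1, le_min r0.2 h⟩ y hy).1.le, (p1' r ⟨hr.1, le_min r0.2 h⟩ y hy).2.le⟩
        · simpa using hist r ⟨h, hr.2⟩ y hy) (H s s0).2.2.1 x hw
      rw [← (eW s s0 x (xq hx)).1] at this
      simpa using this))
  exact dw t ht fun x hx => by
    obtain ⟨a, b⟩ := p2 t ⟨h, ht.2⟩ x hx
    simp only [zero_mul, Real.exp_zero, mul_one] at a b
    exact ⟨a.le, b.le⟩

end Vale.Agent.P244
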