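import Vale.Agent.P244.StmN

/-! P244: barriers for the profile `y` near the axis. -/

open Set Filter
open scoped ContDiff Topology

namespace Vale.Agent.P244

theorem NFBar_et {d : ℝ} (hd : 10 ^ 8 ≤ d) :
    0 < et d ∧ et d ≤ 1 / 10 ^ 4 ∧ √d = d * et d ∧ 1 / d = et d ^ 2 := by
  have h : (10 : ℝ) ^ 4 ≤ √d := Real.le_sqrt_of_sq_le (by linarith)
  have h0 : 0 < √d := by positivity
  have h1 : √d * √d = d := Real.mul_self_sqrt (by linarith)
  refine ⟨by unfold et; positivity, one_div_le_one_div_of_le (by norm_num) h, ?_, ?_⟩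
  · unfold et
    rw [mul_one_div, eq_div_iff h0.ne', h1]
  · unfold et
    rw [div_pow, one_pow, Real.sq_sqrt (by linarith)]

/-- The diffusion coefficient of the equation of `y`. -/
noncomputable def NFBar_A (f : Fin 3 → Fn) : Fn := fun t x => 4 * evF nz f t x * x

/-- The drift of the equation of `y`. -/
noncomputable def NFBar_B (d : ℝ) (f : Fin 3 → Fn) : Fn :=
  fun t x => 2 * d - 4 * evF nz f t x * evF (nX d) f t x

/-- The potential of the equation of `y`. -/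
noncomputable def NFBar_c (d : ℝ) (f : Fin 3 → Fn) : Fn :=
  fun t x => 4 * evF nz f t x * evF (nF1 d) f t x / evF (nF d) f t x

/-- Linear barriers. -/
def NFBar_lin (α β T : ℝ) : Fn := fun s y => α * (T - s) + β * y + 0 * y ^ 2

theorem NFBar_lin_js (α β T t1 : ℝ) : JS t1 (NFBar_lin α β T) := by
  unfold JS NFBar_lin
  fun_prop

theorem NFBar_q {d : ℝ} (hd : 10 ^ 8 ≤ d) {q : Q} (hn : NearQ d q) (hg : GeoQ d q)
    (hx : 0 ≤ q.1) :
    0 ≤ nz q * nX d q ∧ nz q * nX d q ≤ 3 ∧ 0 ≤ 4 * nz q * nF1 d q / nF d q ∧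
      ∀ b, b ≤ nF d q → 4 * nz q * nF1 d q / nF d q * b ≤ 5 * et d ^ 2 := by
  obtain ⟨e0, e1, -, e3⟩ := NFBar_et hd
  have d0 : (0 : ℝ) < d := by linarith
  have F0 := hn.pos
  have z0 := hn.zpos
  have hz := abs_le.1 hg.z
  have hξ := abs_le.1 hg.xi
  have h1 : d * nF1 d q = 1 + d * q.2.1 1 := by unfold nF1; field_simp
  have h2 : 0 ≤ nF1 d q := by
    refine le_of_mul_le_mul_left ?_ d0
    rw [h1]; linarith
  have h3 : d * nF1 d q ≤ 11 / 10 := by rw [h1]; linarith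
  have h4 : nz q ≤ 11 / 10 := by linarith
  have h5 : 0 ≤ nX d q := by unfold nX; positivity
  have h6 : nX d q ≤ 11 / 5 := by
    unfold nX
    rw [div_le_iff₀ F0]
    have a := mul_le_mul_of_nonneg_right hg.x h2
    have b := mul_le_mul_of_nonneg_right h3 F0.le
    linarith
  have h7 : 0 ≤ 4 * nz q * nF1 d q / nF d q := by positivity
  refine ⟨by positivity, by nlinarith, h7, fun b hb => ?_⟩
  refine (mul_le_mul_of_nonneg_left hb h7).trans ?_
  rw [div_mul_cancel₀ _ F0.ne', ← e3, mul_one_div, le_div_iff₀ d0]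
  have h8 : 0 ≤ d * nF1 d q := by positivity
  nlinarith

theorem NFBar_boxy (hQ : NearEqStmt) {d t1 : ℝ} (d0 : 0 < d) {f0 : Pf} {f : Fin 3 → Fn}
    (hs : RSol d f0 t1 f) {t x : ℝ} (ht : t ∈ Icc 0 t1) (hx : x ∈ Ico (0 : ℝ) (1 / 4)) :
    box t1 (NFBar_A f) (NFBar_B d f) (f 0) t x = NFBar_c d f t x * f 0 t x := by
  unfold box NFBar_A NFBar_B NFBar_c
  rw [hQ d d0 f0 t1 f hs t ht x hx]
  ring

theorem NFBar_box (hB : BoxStmt) (hQ : NearEqStmt) {d t1 : ℝ} (d0 : 0 < d) {f0 : Pf}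
    {f : Fin 3 → Fn} (hs : RSol d f0 t1 f) (ε α β T : ℝ) {t x : ℝ} (ht : t ∈ Icc 0 t1)
    (hx : x ∈ Ico (0 : ℝ) (1 / 4)) :
    box t1 (NFBar_A f) (NFBar_B d f) (fun t x => ε * f 0 t x - NFBar_lin α β T t x) t x =
      NFBar_c d f t x * (ε * f 0 t x) + α + NFBar_B d f t x * β := by
  have tp := hs.sol.pos
  have xI : x ∈ I := ⟨hx.1, by linarith [hx.2]⟩
  have ha : HasDerivAt (fun s => α * (T - s)) (α * -1) t :=
    ((hasDerivAt_id t).const_sub T).const_mul α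
  have hq := (hB.quad t1 (NFBar_A f) (NFBar_B d f) (fun s => α * (T - s)) (fun _ => β) (fun _ => 0)
    _ _ _ tp t ht x xI ha (hasDerivAt_const _ _) (hasDerivAt_const _ _)).2
  have hq' : box t1 (NFBar_A f) (NFBar_B d f) (NFBar_lin α β T) t x =
      -α - NFBar_B d f t x * β := hq.trans (by ring)
  rw [hB.sub _ _ _ _ _ tp ((JS.const _).mul (hs.sol.js 0)) (NFBar_lin_js _ _ _ _) t ht x xI,
    hB.smul _ _ _ _ _ tp (hs.sol.js 0) t ht x xI, NFBar_boxy hQ d0 hs ht hx, hq']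
  ring

section Main

variable (hT : TouchStmt) (hB : BoxStmt) (hN : NearQStmt) (hQ : NearEqStmt)
  {d x0 T ρ σ t1 : ℝ} {f0 : Pf} {f : Fin 3 → Fn} (hd : 10 ^ 8 ≤ d) (hx0 : x0 ∈ Ioc (0 : ℝ) (1 / 8))
  (ht1 : t1 < T) (h8 : 8 * d * T ≤ x0) (hs : RSol d f0 t1 f)
  (geo : ∀ t ∈ Icc 0 t1, Geo d x0 (sl f t))

include hN hd hx0 hs geo in
theorem NFBar_pt {t x : ℝ} (ht : t ∈ Icc 0 t1) (hx : x ∈ Icc 0 x0) :
    0 ≤ NFBar_A f t x ∧ 2 * d - 12 ≤ NFBar_B d f t x ∧ NFBar_B d f t x ≤ 2 * d ∧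
      0 ≤ NFBar_c d f t x ∧ ∀ b, b ≤ x / d + f 0 t x → NFBar_c d f t x * b ≤ 5 * et d ^ 2 := by
  have d0 : (0 : ℝ) < d := by linarith
  have nq := hN d d0 (pt (sl f t) x) (hs.sol.mem t ht x ⟨hx.1, by linarith [hx.2, hx0.2]⟩) hx.1
    (show x < 1 / 4 by linarith [hx.2, hx0.2])
  obtain ⟨a, b, c, e⟩ := NFBar_q hd nq (geo t ht x hx) hx.1
  have z := nq.zpos
  refine ⟨mul_nonneg (mul_nonneg (by norm_num) z.le) hx.1, ?_, ?_, c, e⟩
  · show 2 * d - 12 ≤ 2 * d - 4 * nz (pt (sl f t) x) * nX d (pt (sl f t) x)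
    linarith
  · show 2 * d - 4 * nz (pt (sl f t) x) * nX d (pt (sl f t) x) ≤ 2 * d
    linarith

include hd ht1 h8 in
theorem NFBar_reg {t : ℝ} (ht : t ∈ Icc 0 t1) :
    0 < T - t ∧ d * (T - t) ≤ lw d (T - t) ∧ lw d (T - t) = (2 - 1000 * et d) * (d * (T - t)) ∧
      0 < d * (T - t) ∧ 8 * (d * (T - t)) ≤ x0 := by
  obtain ⟨e0, e1, e2, -⟩ := NFBar_et hd
  have d0 : (0 : ℝ) < d := by linarith
  have τ0 : 0 < T - t := by linarith [ht.2]
  have h1 : lw d (T - t) = (2 - 1000 * et d) * (d * (T - t)) := by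
    unfold lw; rw [e2]; ring
  have h2 : 0 < d * (T - t) := mul_pos d0 τ0
  refine ⟨τ0, ?_, h1, h2, ?_⟩
  · rw [h1]; nlinarith
  · nlinarith [ht.1]

include hT hB hN hQ hd hx0 ht1 h8 hs geo in
/-- The lower barrier inside. -/
theorem NFBar_one (hρ : 0 < ρ)
    (hr : ∀ t ∈ Icc 0 t1, ρ / 2 * ((T - t) / T) ^ (151 / 50 : ℝ) < f 0 t (lw d (T - t)))
    (hi : ∀ x ∈ Icc 0 (lw d T), ρ / 2 < f 0 0 x) :
    ∀ t ∈ Icc 0 t1, ∀ x ∈ Icc 0 (lw d (T - t)),
      ρ / 2 * ((T - t) / T) ^ (151 / 50 : ℝ) < f 0 t x := by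
  obtain ⟨e0, e1, -, -⟩ := NFBar_et hd
  have d0 : (0 : ℝ) < d := by linarith
  have tp := hs.sol.pos
  have Tp : 0 < T := tp.trans ht1
  have sub : ∀ {t x}, t ∈ Icc 0 t1 → x ∈ Icc 0 (lw d (T - t)) → x ∈ Icc 0 x0 := fun ht hx => by
    obtain ⟨-, -, a, b, c⟩ := NFBar_reg hd ht1 h8 ht
    exact ⟨hx.1, hx.2.trans (by rw [a]; nlinarith)⟩
  have jb : JS t1 (fun t _ => ρ / 2 * ((T - t) / T) ^ (151 / 50 : ℝ)) := by
    refine JS.ofT (contDiffOn_const.mul (ContDiffOn.rpow_const_of_ne (by fun_prop) fun t ht => ?_))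
    exact (div_pos (by linarith [ht.2]) Tp).ne'
  have key := hT Unit t1 0 t1 (fun _ t x => ρ / 2 * ((T - t) / T) ^ (151 / 50 : ℝ) - f 0 t x)
    (NFBar_A f) (NFBar_B d f) (fun _ => 0) (fun t => lw d (T - t)) tp le_rfl tp.le le_rfl
    (fun _ => jb.sub (hs.sol.js 0)) continuous_const (by unfold lw; fun_prop)
    (fun t ht => by
      obtain ⟨-, a, -, b, -⟩ := NFBar_reg hd ht1 h8 ht
      have h0 : 0 ≤ lw d (T - t) := by linarith
      exact ⟨le_rfl, h0, (sub ht ⟨h0, le_rfl⟩).2.trans (by linarith [hx0.2])⟩)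
    (fun t ht x hx => (NFBar_pt hN hd hx0 hs geo ht (sub ht hx)).1)
    (Or.inl ⟨fun _ => rfl, fun t ht => ⟨mul_zero _, by
      linarith [(NFBar_pt hN hd hx0 hs geo ht ⟨le_rfl, hx0.1.le⟩).2.1]⟩⟩)
    (Or.inr fun _ t ht => sub_neg.2 (hr t ht))
    (fun _ x hx => by
      have := hi x (by simpa using hx)
      rw [sub_zero, div_self Tp.ne', Real.one_rpow]
      linarith)
    (fun _ t ht x hx hz _ _ => by
      have ht' : t ∈ Icc 0 t1 := Ioc_subset_Icc_self ht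
      have hx' := sub ht' hx
      have xI : x ∈ I := ⟨hx'.1, by linarith [hx'.2, hx0.2]⟩
      have τ0 : 0 < (T - t) / T := div_pos (by linarith [ht.2]) Tp
      have h1 : HasDerivAt (fun s => (T - s) / T) (-1 / T) t :=
        ((hasDerivAt_id t).const_sub T).div_const T
      have h2 := (h1.rpow_const (p := (151 / 50 : ℝ)) (Or.inl τ0.ne')).const_mul (ρ / 2)
      rw [hB.sub _ _ _ _ _ tp jb (hs.sol.js 0) t ht' x xI,
        hB.ofT _ _ _ _ _ tp t ht' x xI h2.hasDerivWithinAt,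
        NFBar_boxy hQ d0 hs ht' ⟨hx'.1, by linarith [hx'.2, hx0.2]⟩, ← sub_eq_zero.1 hz]
      have c0 := (NFBar_pt hN hd hx0 hs geo ht' hx').2.2.2.1
      have p1 : 0 < ((T - t) / T) ^ (151 / 50 : ℝ) := Real.rpow_pos_of_pos τ0 _
      have p2 : 0 < ((T - t) / T) ^ ((151 / 50 : ℝ) - 1) := Real.rpow_pos_of_pos τ0 _
      have p3 : 0 < ρ / 2 * (1 / T * (151 / 50) * ((T - t) / T) ^ ((151 / 50 : ℝ) - 1)) := by
        positivity
      have p4 : 0 ≤ NFBar_c d f t x * (ρ / 2 * ((T - t) / T) ^ (151 / 50 : ℝ)) := by positivity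
      rw [neg_div]
      linarith)
  exact fun t ht x hx => sub_neg.1 (key () t ht x hx)

include hT hB hN hQ hd hx0 ht1 h8 hs geo in
/-- The upper barrier inside. -/
theorem NFBar_two (win : ∀ t ∈ Icc 0 t1, Win d σ (T - t) (sl f t))
    (hi : ∀ x ∈ Icc 0 x0, |f 0 0 x| ≤ T / d) :
    ∀ t ∈ Icc 0 t1, ∀ x ∈ Icc 0 (lw d (T - t)), f 0 t x ≤ (T - t) / 10 := by
  obtain ⟨e0, e1, -, e3⟩ := NFBar_et hd
  have d0 : (0 : ℝ) < d := by linarith
  have tp := hs.sol.pos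
  have Tp : 0 < T := tp.trans ht1
  have sub : ∀ {t x}, t ∈ Icc 0 t1 → x ∈ Icc 0 (lw d (T - t)) → x ∈ Icc 0 x0 := fun ht hx => by
    obtain ⟨-, -, a, b, c⟩ := NFBar_reg hd ht1 h8 ht
    exact ⟨hx.1, hx.2.trans (by rw [a]; nlinarith)⟩
  have hb : ∀ {t x}, t ∈ Icc 0 t1 → x ∈ Icc 0 (lw d (T - t)) →
      (T - t) / d < NFBar_lin ((2 - 500 * et d) / 20) (-(1 / d / 20)) T t x := by
    intro t x ht hx
    obtain ⟨τ0, -, a, -, -⟩ := NFBar_reg hd ht1 h8 ht
    have h1 : x / d ≤ (2 - 1000 * et d) * (T - t) := by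
      rw [div_le_iff₀ d0]; linarith [hx.2]
    have h2 : (T - t) / d = et d * (et d * (T - t)) := by
      rw [div_eq_mul_one_div, e3]; ring
    have h3 : 0 < et d * (T - t) := mul_pos e0 τ0
    have h4 : NFBar_lin ((2 - 500 * et d) / 20) (-(1 / d / 20)) T t x =
        ((2 - 500 * et d) * (T - t) - x / d) / 20 := by unfold NFBar_lin; ring
    rw [h2, h4]
    nlinarith
  have key := hT Unit t1 0 t1
    (fun _ t x => 1 * f 0 t x - NFBar_lin ((2 - 500 * et d) / 20) (-(1 / d / 20)) T t x)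
    (NFBar_A f) (NFBar_B d f) (fun _ => 0) (fun t => lw d (T - t)) tp le_rfl tp.le le_rfl
    (fun _ => ((JS.const _).mul (hs.sol.js 0)).sub (NFBar_lin_js _ _ _ _)) continuous_const
    (by unfold lw; fun_prop)
    (fun t ht => by
      obtain ⟨-, a, -, b, -⟩ := NFBar_reg hd ht1 h8 ht
      have h0 : 0 ≤ lw d (T - t) := by linarith
      exact ⟨le_rfl, h0, (sub ht ⟨h0, le_rfl⟩).2.trans (by linarith [hx0.2])⟩)
    (fun t ht x hx => (NFBar_pt hN hd hx0 hs geo ht (sub ht hx)).1)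
    (Or.inl ⟨fun _ => rfl, fun t ht => ⟨mul_zero _, by
      linarith [(NFBar_pt hN hd hx0 hs geo ht ⟨le_rfl, hx0.1.le⟩).2.1]⟩⟩)
    (Or.inr fun _ t ht => by
      obtain ⟨-, a, b, c, -⟩ := NFBar_reg hd ht1 h8 ht
      have h1 : |f 0 t (lw d (T - t))| ≤ (T - t) / d :=
        (win t ht (lw d (T - t)) ⟨a, by rw [b]; nlinarith⟩).1
      have h2 := hb ht (x := lw d (T - t)) ⟨by linarith, le_rfl⟩
      linarith [le_abs_self (f 0 t (lw d (T - t)))])
    (fun _ x hx => by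
      have h0 : (0 : ℝ) ∈ Icc 0 t1 := ⟨le_rfl, tp.le⟩
      have h1 := hi x (sub h0 hx)
      have h2 := hb h0 hx
      rw [sub_zero] at h2
      linarith [le_abs_self (f 0 0 x)])
    (fun _ t ht x hx hz _ _ => by
      have ht' : t ∈ Icc 0 t1 := Ioc_subset_Icc_self ht
      have hx' := sub ht' hx
      obtain ⟨-, b1, -, -, c⟩ := NFBar_pt hN hd hx0 hs geo ht' hx'
      rw [NFBar_box hB hQ d0 hs _ _ _ _ ht' ⟨hx'.1, by linarith [hx'.2, hx0.2]⟩]
      have h1 := c (1 * f 0 t x) (by linarith [div_nonneg hx'.1 d0.le])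
      have h2 : NFBar_B d f t x * -(1 / d / 20) ≤ (2 * d - 12) * -(1 / d / 20) :=
        mul_le_mul_of_nonpos_right b1 (neg_nonpos.2 (by positivity))
      have h3 : (2 * d - 12) * -(1 / d / 20) = -(1 / 10) + 3 / 5 * et d ^ 2 := by
        rw [← e3]; field_simp; ring
      nlinarith)
  intro t ht x hx
  have h1 := key () t ht x hx
  have τ0 : 0 < T - t := by linarith [ht.2]
  have h2 : 0 ≤ 1 / d / 20 * x := mul_nonneg (by positivity) hx.1
  have h3 : 0 < et d * (T - t) := mul_pos e0 τ0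
  unfold NFBar_lin at h1
  linarith

include hT hB hN hQ hd hx0 ht1 h8 hs geo in
/-- The barrier outside. -/
theorem NFBar_three (win : ∀ t ∈ Icc 0 t1, Win d σ (T - t) (sl f t))
    (hr : ∀ t ∈ Icc 0 t1, |f 0 t x0| ≤ x0 / (100 * d))
    (hi : ∀ x ∈ Icc 0 x0, |f 0 0 x| ≤ T / d) (ε : ℝ) (hε : ε = 1 ∨ ε = -1) :
    ∀ t ∈ Icc 0 t1, ∀ x ∈ Icc ((2 + 1000 * et d) * (d * (T - t))) x0,
      ε * f 0 t x ≤ x / d / 20 := by
  obtain ⟨e0, e1, -, e3⟩ := NFBar_et hd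
  have d0 : (0 : ℝ) < d := by linarith
  have tp := hs.sol.pos
  have Tp : 0 < T := tp.trans ht1
  have sg : ∀ a : ℝ, ε * a ≤ |a| := fun a => by
    rcases hε with rfl | rfl
    · linarith [le_abs_self a]
    · linarith [neg_abs_le a]
  have sub : ∀ {t x}, t ∈ Icc 0 t1 → x ∈ Icc ((2 + 1000 * et d) * (d * (T - t))) x0 →
      x ∈ Icc 0 x0 := fun ht hx => by
    obtain ⟨-, -, -, b, -⟩ := NFBar_reg hd ht1 h8 ht
    exact ⟨le_trans (by positivity) hx.1, hx.2⟩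
  have h4 : ∀ t x, NFBar_lin (-((2 + 500 * et d) / 20)) (1 / d / 20) T t x =
      (x / d - (2 + 500 * et d) * (T - t)) / 20 := fun t x => by unfold NFBar_lin; ring
  have hb : ∀ {t x}, t ∈ Icc 0 t1 → x ∈ Icc ((2 + 1000 * et d) * (d * (T - t))) x0 →
      (T - t) / d < NFBar_lin (-((2 + 500 * et d) / 20)) (1 / d / 20) T t x := by
    intro t x ht hx
    obtain ⟨τ0, -⟩ := NFBar_reg hd ht1 h8 ht
    have h1 : (2 + 1000 * et d) * (T - t) ≤ x / d := by
      rw [le_div_iff₀ d0]; linarith [hx.1]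
    have h2 : (T - t) / d = et d * (et d * (T - t)) := by
      rw [div_eq_mul_one_div, e3]; ring
    have h3 : 0 < et d * (T - t) := mul_pos e0 τ0
    rw [h2, h4]
    nlinarith
  have hc : ∀ {t x}, t ∈ Icc 0 t1 →
      NFBar_lin (-((2 + 500 * et d) / 20)) (1 / d / 20) T t x ≤ x / d / 20 := by
    intro t x ht
    obtain ⟨τ0, -⟩ := NFBar_reg hd ht1 h8 ht
    have : 0 < (2 + 500 * et d) * (T - t) := by positivity
    rw [h4]; linarith
  have key := hT Unit t1 0 t1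
    (fun _ t x => ε * f 0 t x - NFBar_lin (-((2 + 500 * et d) / 20)) (1 / d / 20) T t x)
    (NFBar_A f) (NFBar_B d f) (fun t => (2 + 1000 * et d) * (d * (T - t))) (fun _ => x0) tp le_rfl
    tp.le le_rfl (fun _ => ((JS.const _).mul (hs.sol.js 0)).sub (NFBar_lin_js _ _ _ _))
    (by fun_prop) continuous_const
    (fun t ht => by
      obtain ⟨-, -, -, b, c⟩ := NFBar_reg hd ht1 h8 ht
      exact ⟨by positivity, by nlinarith, by linarith [hx0.2]⟩)
    (fun t ht x hx => (NFBar_pt hN hd hx0 hs geo ht (sub ht hx)).1)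
    (Or.inr fun _ t ht => by
      obtain ⟨-, -, -, b, c⟩ := NFBar_reg hd ht1 h8 ht
      have h1 : |f 0 t ((2 + 1000 * et d) * (d * (T - t)))| ≤ (T - t) / d :=
        (win t ht ((2 + 1000 * et d) * (d * (T - t))) ⟨by nlinarith, by nlinarith⟩).1
      have h2 := hb ht (x := (2 + 1000 * et d) * (d * (T - t))) ⟨le_rfl, by nlinarith⟩
      linarith [sg (f 0 t ((2 + 1000 * et d) * (d * (T - t))))])
    (Or.inr fun _ t ht => by
      obtain ⟨τ0, -, -, b, c⟩ := NFBar_reg hd ht1 h8 ht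
      have h1 := hr t ht
      have h2 : x0 / (100 * d) = x0 / d / 100 := by field_simp
      have h3 : 8 * (T - t) ≤ x0 / d := by rw [le_div_iff₀ d0]; linarith
      rw [h4]
      nlinarith [sg (f 0 t x0)])
    (fun _ x hx => by
      have h0 : (0 : ℝ) ∈ Icc 0 t1 := ⟨le_rfl, tp.le⟩
      have h1 := hi x (sub h0 hx)
      have h2 := hb h0 hx
      rw [sub_zero] at h2
      linarith [sg (f 0 0 x)])
    (fun _ t ht x hx hz _ _ => by
      have ht' : t ∈ Icc 0 t1 := Ioc_subset_Icc_self ht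
      have hx' := sub ht' hx
      obtain ⟨-, -, b1, -, c⟩ := NFBar_pt hN hd hx0 hs geo ht' hx'
      rw [NFBar_box hB hQ d0 hs _ _ _ _ ht' ⟨hx'.1, by linarith [hx'.2, hx0.2]⟩]
      have h0 : ε * f 0 t x ≤ x / d / 20 := (sub_eq_zero.1 hz).le.trans (hc ht')
      have h5 : 0 ≤ x / d := div_nonneg hx'.1 d0.le
      have h1 := c (ε * f 0 t x) (by rcases hε with rfl | rfl <;> linarith)
      have h2 : NFBar_B d f t x * (1 / d / 20) ≤ 2 * d * (1 / d / 20) :=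
        mul_le_mul_of_nonneg_right b1 (by positivity)
      have h3 : 2 * d * (1 / d / 20) = 1 / 10 := by field_simp; ring
      nlinarith)
  intro t ht x hx
  linarith [key () t ht x hx, hc (x := x) ht]

end Main

theorem fBar (hT : TouchStmt) (hB : BoxStmt) (hN : NearQStmt) (hQ : NearEqStmt) : FBarStmt := by
  intro d hd x0 hx0 T ρ σ t1 f0 f ht1 h8 hρ hs H hi1 hi2 t ht
  have geo := fun t ht => (H t ht).1
  have win := fun t ht => (H t ht).2.1
  have p1 := NFBar_one hT hB hN hQ hd hx0 ht1 h8 hs geo hρ (fun t ht => (H t ht).2.2.2) hi1 t ht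
  have p2 := NFBar_two hT hB hN hQ hd hx0 ht1 h8 hs geo win hi2 t ht
  have p3 := fun ε hε => NFBar_three hT hB hN hQ hd hx0 ht1 h8 hs geo win
    (fun t ht => (H t ht).2.2.1) hi2 ε hε t ht
  obtain ⟨e0, e1, -, -⟩ := NFBar_et hd
  obtain ⟨τ0, a, b, c, e⟩ := NFBar_reg hd ht1 h8 ht
  have d0 : (0 : ℝ) < d := by linarith
  have Tp : 0 < T := hs.sol.pos.trans ht1
  have key : ∀ x ∈ Icc 0 x0, -(x / d / 20) ≤ f 0 t x ∧ f 0 t x ≤ x / d / 20 + (T - t) / 10 := by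
    intro x hx
    have h5 : 0 ≤ x / d := div_nonneg hx.1 d0.le
    rcases le_total x (lw d (T - t)) with h | h
    · have q1 := p1 x ⟨hx.1, h⟩
      have q2 := p2 x ⟨hx.1, h⟩
      have : 0 < ρ / 2 * ((T - t) / T) ^ (151 / 50 : ℝ) := by positivity
      constructor <;> linarith
    rcases le_total x ((2 + 1000 * et d) * (d * (T - t))) with h' | h'
    · have q1 : |f 0 t x| ≤ (T - t) / d := (win t ht x ⟨a.trans h, by nlinarith⟩).1
      have q2 : T - t ≤ x / d := by rw [le_div_iff₀ d0]; linarith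
      have q3 : (T - t) / d ≤ (T - t) / 20 :=
        div_le_div_of_nonneg_left τ0.le (by norm_num) (by linarith)
      have q4 := abs_le.1 q1
      constructor <;> linarith
    · have q1 := p3 1 (Or.inl rfl) x ⟨h', hx.2⟩
      have q2 := p3 (-1) (Or.inr rfl) x ⟨h', hx.2⟩
      constructor <;> linarith
  refine ⟨fun x hx => ?_, fun x hx => ?_, fun x hx => (p1 x hx).le⟩
  · show x ≤ 3 / 2 * d * (x / d + f 0 t x)
    have h1 := mul_le_mul_of_nonneg_left (key x hx).1 d0.le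
    have h2 : d * (x / d) = x := by field_simp
    nlinarith [hx.1]
  · show x / d + f 0 t x ≤ 11 / 10 * x / d + (T - t) / 10
    have h5 : 0 ≤ x / d := div_nonneg hx.1 d0.le
    rw [mul_div_assoc]
    linarith [(key x hx).2]

end Vale.Agent.P244
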