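import Vale.Agent.P244.StmN

/-! P244: estimates away from the left pole. -/

open Set Filter
open scoped ContDiff Topology

namespace Vale.Agent.P244

/-- A barrier argument on `[l, 1]`. -/
theorem NFar_bar (hT : TouchStmt) (hB : BoxStmt) {l : ℝ} (hl : l ∈ I) (C1 S : ℝ) {h : ℝ → ℝ}
    (hh : Sm h) : ∃ C, 0 ≤ C ∧ ∀ (T t1 : ℝ) (u A B : Fn), 0 < t1 → t1 ≤ T → JS t1 u →
      (∀ t ∈ Icc 0 t1, A t 1 = 0 ∧ B t 1 ≤ 0 ∧ u t l ≤ h l ∧ ∀ x ∈ Icc l 1,
        0 ≤ A t x ∧ A t x ≤ C1 ∧ |B t x| ≤ C1 ∧ box t1 A B u t x ≤ S) →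
      (∀ x ∈ Icc l 1, u 0 x ≤ h x) → ∀ t ∈ Icc 0 t1, ∀ x ∈ Icc l 1, u t x ≤ h x + C * T := by
  obtain ⟨M1, h1⟩ := isCompact_Icc.exists_bound_of_continuousOn hh.d1.cont
  obtain ⟨M2, h2⟩ := isCompact_Icc.exists_bound_of_continuousOn hh.d1.d1.cont
  have hM1 : 0 ≤ M1 := (norm_nonneg _).trans (h1 l hl)
  have hM2 : 0 ≤ M2 := (norm_nonneg _).trans (h2 l hl)
  obtain ⟨C2, hC2⟩ : ∃ C2, C2 = |S| + |C1| * M1 + |C1| * M2 + 1 := ⟨_, rfl⟩
  have hC : 0 ≤ C2 := by rw [hC2]; positivity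
  refine ⟨1 + C2, by linarith, fun T t1 u A B ht1 hT1 hu H h0 t ht x hx => ?_⟩
  have hs : Icc l 1 ⊆ I := Icc_subset_Icc_left hl.1
  have jX : JS t1 fun _ x => h x := JS.ofX hh
  have jT : JS t1 fun t _ => T + C2 * t := JS.ofT (by fun_prop)
  have key := hT Unit t1 0 t1 (fun _ t x => u t x - (h x + (T + C2 * t))) A B (fun _ => l)
    (fun _ => 1) ht1 le_rfl ht1.le le_rfl (fun _ => hu.sub (jX.add jT)) continuous_const
    continuous_const (fun _ _ => ⟨hl.1, hl.2, le_rfl⟩) (fun t ht x hx => ((H t ht).2.2.2 x hx).1)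
    (Or.inr fun _ t ht => by
      have := mul_nonneg hC ht.1
      linarith [(H t ht).2.2.1])
    (Or.inl ⟨fun _ => rfl, fun t ht => ⟨(H t ht).1, (H t ht).2.1⟩⟩)
    (fun _ x hx => by linarith [h0 x hx])
    (fun _ t ht x hx _ _ _ => by
      have ht' : t ∈ Icc 0 t1 := Ioc_subset_Icc_self ht
      obtain ⟨a0, a1, b1, hb⟩ := (H t ht').2.2.2 x hx
      rw [hB.sub t1 A B u _ ht1 hu (jX.add jT) t ht' x (hs hx),
        hB.add t1 A B _ _ ht1 jX jT t ht' x (hs hx), hB.ofX t1 A B h ht1 t ht' x (hs hx),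
        hB.ofT t1 A B (fun t => T + C2 * t) C2 ht1 t ht' x (hs hx) (by
          simpa using (((hasDerivAt_id t).const_mul C2).const_add T).hasDerivWithinAt)]
      have e1 : |B t x * d1 h x| ≤ |C1| * M1 := by
        rw [abs_mul]
        exact mul_le_mul (b1.trans (le_abs_self _)) (h1 x (hs hx)) (abs_nonneg _) (abs_nonneg _)
      have e2 : |A t x * d1 (d1 h) x| ≤ |C1| * M2 := by
        rw [abs_mul, abs_of_nonneg a0]
        exact mul_le_mul (a1.trans (le_abs_self _)) (h2 x (hs hx)) (abs_nonneg _) (abs_nonneg _)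
      linarith [le_abs_self S, (abs_le.1 e1).2, (abs_le.1 e2).2]) () t ht x hx
  have := mul_le_mul_of_nonneg_left (ht.2.trans hT1) hC
  linarith

theorem NFar_bd {F : Type} [NormedAddCommGroup F] {O K : Set (ℝ × V3)} (hKO : K ⊆ O)
    (hK : IsCompact K) (Cg : ℝ) {G : Q → F} (hG : ContinuousOn G (lift O)) :
    ∃ C, 0 ≤ C ∧ ∀ q : Q, bs q ∈ K → (∀ i, |q.2.2 i| ≤ Cg) → ‖G q‖ ≤ C := by
  have hc : IsCompact ((fun p : (ℝ × V3) × V3 => ((p.1.1, p.1.2, p.2) : Q)) ''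
      (K ×ˢ Set.pi univ fun _ => Icc (-Cg) Cg)) :=
    (hK.prod (isCompact_univ_pi fun _ => isCompact_Icc)).image (by fun_prop)
  obtain ⟨C, hC⟩ := hc.exists_bound_of_continuousOn (hG.mono (by
    rintro _ ⟨p, hp, rfl⟩
    exact hKO hp.1))
  exact ⟨|C|, abs_nonneg _, fun q h1 h2 => (hC q ⟨(bs q, q.2.2),
    ⟨h1, fun i _ => abs_le.1 (h2 i)⟩, rfl⟩).trans (le_abs_self _)⟩

theorem NFar_se {d : ℝ} (h : SmK d) : ContinuousOn (SE d) (lift (Om d)) := by
  have h1 := h.k1.continuousOn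
  have h2 := h.k2.continuousOn
  have h3 := h.l1.continuousOn
  have h4 := h.l2.continuousOn
  have h5 := h.mm.continuousOn
  unfold SE E0 E1 E2
  fun_prop

theorem NFar_ev {a b x : ℝ} (ha : a < x) (hb : x < b) {p : ℝ → Prop}
    (h : ∀ y ∈ Ioo a b, y ∈ I → p y) : ∀ᶠ y in 𝓝[I] x, p y := by
  filter_upwards [mem_nhdsWithin_of_mem_nhds (Ioo_mem_nhds ha hb), self_mem_nhdsWithin]
    with y h1 h2 using h y h1 h2

theorem NFar_pt {g g' : Pf} {a x : ℝ} (h : ∀ i, ∀ y ∈ Icc a 1, g i y = g' i y) (ha : a < x)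
    (hx : x ∈ I) : pt g x = pt g' x := by
  refine Prod.ext rfl (Prod.ext (funext fun i => h i x ⟨ha.le, hx.2⟩) (funext fun i => ?_))
  exact congrArg (fun z => om x * z) (d1_congr_ev hx
    (NFar_ev ha (lt_add_one x) fun y h1 h2 => h i y ⟨h1.1.le, h2.2⟩))

/-- The limit profile is Ricci flat near the pole. -/
theorem NFar_flat (hN : NearQStmt) (hD : DictStmt) {d a x : ℝ} (hd : 0 < d) {g : Pf}
    (hg : Prof d g) (ha : 0 ≤ a) (h : ∀ i, ∀ y ∈ Icc a 1, g i y = fb d i y) (hx : a < x)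
    (hx' : x < 1 / 4) : SE d (pt g x) = 0 := by
  have h0 : 0 < x := ha.trans_lt hx
  have hI : x ∈ I := ⟨h0.le, by linarith⟩
  have hz : ∀ y ∈ Ioo a (1 / 4), y ∈ I → nz (pt g y) = d / (d + 2) := fun y hy hyI => by
    have e := h 2 y ⟨hy.1.le, hyI.2⟩
    have y0 : y ≠ 0 := (ha.trans_lt hy.1).ne'
    have y1 : 1 - y ≠ 0 := by linarith [hy.2]
    change (1 - y) * (1 - om y * g 2 y) = _
    rw [e]
    change (1 - y) * (1 - om y * ((1 - ch y) * (2 / ((d + 2) * y) - 1) / (1 - y) ^ 2)) = _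
    rw [ch_zero hy.2.le, om]
    field_simp
    ring
  have N := hN d hd (pt g x) (hg.mem x hI) h0.le hx'
  have e1 : z0' (pt g x) = 0 := by
    rw [← (hD d hd g hg x hI).z0, d1_congr_ev hI (NFar_ev hx hx' hz)]
    exact d1_eq hI (hasDerivWithinAt_const _ _ _)
  have e2 : (pt g x).2.2 1 = 0 := by
    change om x * d1 (g 1) x = 0
    rw [d1_congr_ev (h := fun _ => 0) hI (NFar_ev hx hx' fun y h1 h2 => h 1 y ⟨h1.1.le, h2.2⟩),
      d1_eq hI (hasDerivWithinAt_const _ _ _), mul_zero]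
  have e3 := hz x ⟨hx, hx'⟩ hI
  have e4 : nF d (pt g x) = x / d := by
    change x / d + g 0 x = _
    rw [h 0 x ⟨hx.le, hI.2⟩]
    exact add_zero _
  have e5 : nF1 d (pt g x) = 1 / d := by
    change 1 / d + g 1 x = _
    rw [h 1 x ⟨hx.le, hI.2⟩]
    exact add_zero _
  have e6 : nX d (pt g x) = 1 := by
    rw [nX, e4, e5]
    change x * _ / _ = _
    field_simp
  have k1 : K1 (pt g x) = 0 := by rw [N.k1, e1, neg_zero]
  have l1 : L1 (pt g x) = 2 / ((d + 2) * x) := by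
    have := N.xl1
    rw [e3] at this
    change x * _ = _ at this
    field_simp at this ⊢
    linarith
  have a2 : A2 d (pt g x) = d / (d + 2) / x := by
    rw [N.a2, e3, e4, e5, e6]
    field_simp
  have mm : MM d (pt g x) = -(d / (d + 2) / x) := by
    rw [N.mm, e3, e4, e5]
    field_simp
  have k2 : K2 d (pt g x) = 0 := by
    rw [N.k2, N.zph2, N.zz1, a2, e1, e2, e3, e4, e5]
    field_simp
    ring
  rw [SE, E0, E1, E2, N.l2, k1, k2, l1, a2, mm, e4]
  field_simp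
  ring

theorem far (hT : TouchStmt) (hB : BoxStmt) (hN : NearQStmt) (hS : SmKStmt) (hY : SysStmt)
    (hD : DictStmt) (hG : GeqStmt) (hE : Evo2Stmt) (hC : CompactStmt) : FarStmt := by
  intro d hd x0 hx0 δ hδ
  have hd0 : 0 < d := by linarith [show (0 : ℝ) < 10 ^ 4 by norm_num]
  have h00 : ∀ {f0 : Pf} {t1 : ℝ} {f : Fin 3 → Fn}, RSol d f0 t1 f →
      (∀ i, ∀ x ∈ Icc (x0 / 8) 1, f0 i x = fb d i x) → ∀ i, ∀ x ∈ Icc (x0 / 8) 1,
        sl f 0 i x = fb d i x := fun h h' i x hx =>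
    (h.sol.init i x ⟨by linarith [hx.1, hx0.1], hx.2⟩).trans (h' i x hx)
  by_cases hex : ∃ g, Prof d g ∧ ∀ i, ∀ x ∈ Icc (x0 / 8) 1, g i x = fb d i x
  swap
  · exact ⟨1, 0, le_rfl, le_rfl, fun g h1 h2 => absurd ⟨g, h1, h2⟩ hex,
      fun T t1 f0 f _ h1 h2 => absurd ⟨_, h1.prof ⟨le_rfl, h1.sol.pos.le⟩, h00 h1 h2⟩ hex⟩
  obtain ⟨gb, hg, hgb⟩ := hex
  have hl : x0 / 4 ∈ I := ⟨by linarith [hx0.1], by linarith [hx0.2]⟩
  have hs : Icc (x0 / 4) 1 ⊆ I := Icc_subset_Icc_left hl.1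
  have hs' : Icc (x0 / 4) 1 ⊆ Icc (x0 / 8) 1 := Icc_subset_Icc_left (by linarith [hx0.1])
  have hs2 : Icc (x0 / 2) 1 ⊆ Icc (x0 / 4) 1 := Icc_subset_Icc_left (by linarith [hx0.1])
  have hpt : ∀ g : Pf, (∀ i, ∀ x ∈ Icc (x0 / 8) 1, g i x = fb d i x) →
      ∀ x ∈ Icc (x0 / 4) 1, pt g x = pt gb x := fun g h x hx =>
    NFar_pt (fun i y hy => (h i y hy).trans (hgb i y hy).symm) (by linarith [hx.1, hx0.1]) (hs hx)
  have hK := hS d hd0
  obtain ⟨C5, hC5⟩ := isCompact_Icc.exists_bound_of_continuousOn ((NFar_se hK).comp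
    (f := pt gb) (continuousOn_id.prodMk ((continuousOn_pi.2 fun i => (hg.sm i).cont).prodMk
      (continuousOn_pi.2 fun i => contDiff_om.continuous.continuousOn.mul (hg.sm i).d1.cont)))
    hg.mem)
  have h5 : 0 ≤ C5 := (norm_nonneg _).trans (hC5 _ hl)
  have h5' : ∀ x ∈ I, SE d (pt gb x) ≤ C5 := fun x hx => (le_abs_self _).trans (hC5 x hx)
  obtain ⟨K, hKO, hKc, Cg, hcp⟩ := hC.cpt d hd x0 hx0 δ (C5 + 1) hδ (x0 / (8 * d))
    (div_pos hx0.1 (by positivity))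
  obtain ⟨C1, hC1, hb⟩ := NFar_bd hKO hKc Cg (G := fun q => (NL d q, q.2.1, K1 q, K2 d q, L1 q,
      L2 d q, MM d q, SE d q, ZZ (bs q), BB d (bs q), aa (bs q))) (by
    have h0 := (hY d hd0).smooth.continuousOn
    have h1 := hK.k1.continuousOn
    have h2 := hK.k2.continuousOn
    have h3 := hK.l1.continuousOn
    have h4 := hK.l2.continuousOn
    have h5 := hK.mm.continuousOn
    have h6 := NFar_se hK
    have h7 : ContinuousOn (fun q => BB d (bs q)) (lift (Om d)) :=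
      hK.bb.continuousOn.comp (by unfold bs; fun_prop) fun _ h => h
    have h8 : Continuous fun q => ZZ (bs q) := by unfold ZZ aa om bs; fun_prop
    have h9 : Continuous fun q => aa (bs q) := by unfold aa om bs; fun_prop
    exact h0.prodMk ((continuous_fst.comp continuous_snd).continuousOn.prodMk (h1.prodMk
      (h2.prodMk (h3.prodMk (h4.prodMk (h5.prodMk (h6.prodMk (h8.continuousOn.prodMk
        (h7.prodMk h9.continuousOn))))))))))
  simp only [Prod.norm_def, max_le_iff, Real.norm_eq_abs, pi_norm_le_iff_of_nonneg hC1] at hb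
  obtain ⟨b, hbd⟩ : ∃ b : ℝ → ℝ, b = fun x => Real.smoothTransition (2 - 4 * x / x0) := ⟨_, rfl⟩
  have b0 : ∀ x, 0 ≤ b x := fun x => hbd ▸ Real.smoothTransition.nonneg _
  have b1 : b (x0 / 4) = 1 := by
    rw [hbd]
    refine Real.smoothTransition.one_of_one_le (le_of_eq ?_)
    have := hx0.1.ne'
    field_simp
    ring
  have b2 : ∀ x ∈ Icc (x0 / 2) 1, b x = 0 := fun x hx => by
    rw [hbd]
    refine Real.smoothTransition.zero_of_nonpos (sub_nonpos.2 ((le_div_iff₀ hx0.1).2 ?_))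
    linarith [hx.1]
  have bs' : ContDiffOn ℝ ∞ b I := by
    rw [hbd]
    exact (Real.smoothTransition.contDiff.comp (by fun_prop)).contDiffOn
  have hfam : ∀ (σ : ℝ) (i : Fin 3), _ := fun σ i => NFar_bar hT hB hl (8 * C1 + 2 * d + 2) C1
    (h := fun x => σ * gb i x + (C1 + |gb i (x0 / 4)|) * b x)
    ((contDiffOn_const.mul (hg.sm i)).add (contDiffOn_const.mul bs'))
  choose Cf hCf Hf using hfam
  obtain ⟨Cs, hCs, Hs⟩ := NFar_bar hT hB hl C1 (4 * (d + 4) * C1 * C1)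
    (h := fun x => C1 * b x + C5 * Real.smoothTransition (8 * x - 1))
    ((contDiffOn_const.mul bs').add (contDiffOn_const.mul
      (Real.smoothTransition.contDiff.comp (by fun_prop)).contDiffOn))
  have hsum : ∀ i, Cf 1 i + Cf (-1) i ≤ ∑ i, (Cf 1 i + Cf (-1) i) := fun i =>
    Finset.single_le_sum (f := fun i => Cf 1 i + Cf (-1) i)
      (fun i _ => add_nonneg (hCf _ _) (hCf _ _)) (Finset.mem_univ i)
  have hsum0 := (add_nonneg (hCf _ _) (hCf _ _)).trans (hsum 0)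
  refine ⟨C5 + 1, ∑ i, (Cf 1 i + Cf (-1) i) + Cs, by linarith, by linarith,
    fun g _ h x hx => ?_, fun T t1 f0 f hT1 hf h0 H => ?_⟩
  · rw [hpt g h x (hs2 hx), add_sub_cancel_right]
    exact h5' x (hs (hs2 hx))
  have ht1 := hf.sol.pos
  have hT0 : 0 ≤ T := ht1.le.trans hT1
  have B : ∀ t ∈ Icc 0 t1, ∀ x ∈ Icc (x0 / 4) 1, _ := fun t ht x hx =>
    have := hcp _ (hf.prof ht) (H t ht).1 (H t ht).2 (x0 / 4) ⟨hl.1, by linarith [hx0.1]⟩
      (fun y hy => by
        have := ((H t ht).1 y ⟨hl.1.trans hy.1, hy.2⟩).x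
        rw [div_le_iff₀ (by positivity)]
        change y ≤ _ at this
        linarith [hy.1]) x hx
    hb (pt (sl f t) x) this.1 this.2
  have hlm : x0 / 4 ∈ Icc (x0 / 4) 1 := left_mem_Icc.2 hl.2
  have P1 : ∀ σ : ℝ, |σ| = 1 → ∀ i, ∀ t ∈ Icc 0 t1, ∀ x ∈ Icc (x0 / 2) 1,
      σ * (f i t x - fb d i x) ≤ Cf σ i * T := fun σ hσ i t ht x hx => by
    have hσ' : ∀ z, σ * z ≤ |z| := fun z => (le_abs_self _).trans (by rw [abs_mul, hσ, one_mul])
    have := Hf σ i T t1 (fun t x => σ * f i t x) (fun t x => al (sl f t) x * om x)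
      (fun t x => al (sl f t) x * (2 * (1 - 2 * x)) + be d x) ht1 hT1
      ((JS.const σ).mul (hf.sol.js i)) (fun t ht => ?_) (fun x hx => ?_) t ht x (hs2 hx)
    · rw [b2 x hx, hgb i x (hs' (hs2 hx))] at this
      linarith
    · have a0 : ∀ x ∈ I, 0 < al (sl f t) x := fun x hx =>
        mul_pos four_pos (hf.sol.mem t ht x hx).1
      refine ⟨by rw [om_one, mul_zero], ?_, ?_, fun x hx => ?_⟩
      · have := a0 1 (right_mem_Icc.2 zero_le_one)
        unfold be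
        linarith
      · have e : |f i t (x0 / 4)| ≤ C1 := (B t ht _ hlm).2.1 i
        have e' := hσ' (-gb i (x0 / 4))
        rw [abs_neg] at e'
        rw [b1]
        linarith [hσ' (f i t (x0 / 4))]
      · have a1 : al (sl f t) x ≤ 4 * C1 :=
          mul_le_mul_of_nonneg_left
            ((le_abs_self _).trans (B t ht x hx).2.2.2.2.2.2.2.2.2.2) four_pos.le
        have a2 := a0 x (hs hx)
        have x1 := (hs hx).1
        have x2 := hx.2
        refine ⟨mul_nonneg a2.le (om_nonneg (hs hx)), ?_, ?_, ?_⟩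
        · nlinarith [om_le (x := x)]
        · unfold be
          rw [abs_le]
          constructor <;> nlinarith
        · rw [hB.smul t1 _ _ _ σ ht1 (hf.sol.js i) t ht x (hs hx)]
          refine (hσ' _).trans (le_of_eq_of_le (congrArg _ ?_) ((B t ht x hx).1 i))
          rw [box, hf.sol.eqn t ht x (hs hx) i, rhs]
          simp only [dx, sl]
          ring
    · have e : f i 0 x = gb i x := (h00 hf h0 i x (hs' hx)).trans (hgb i x (hs' hx)).symm
      have := mul_nonneg (add_nonneg hC1 (abs_nonneg (gb i (x0 / 4)))) (b0 x)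
      rw [e]
      linarith
  have J := hG.js d hd0 f0 t1 f hf.sol
  have P2 := Hs T t1 (evF (SE d) f) (ZF f) (BF d f) ht1 hT1 J.se (fun t ht => by
    obtain ⟨z0, -, -, z1, z2⟩ := J.sign t ht
    refine ⟨z1, z2, ?_, fun x hx => ?_⟩
    · have := mul_nonneg h5 (Real.smoothTransition.nonneg (8 * (x0 / 4) - 1))
      have e : evF (SE d) f t (x0 / 4) ≤ C1 :=
        (le_abs_self _).trans (B t ht _ hlm).2.2.2.2.2.2.2.1
      rw [b1]
      linarith
    · obtain ⟨-, -, k1, k2, k3, k4, k5, k6, k7, k8, -⟩ := B t ht x hx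
      refine ⟨z0 x (hs hx), (le_abs_self _).trans k7, k8,
        ((hE d hd0 f0 t1 f hf t ht x (hs hx)).se C1 k1 k2 k3 k4 k5).trans ?_⟩
      exact mul_le_mul_of_nonneg_left ((le_abs_self _).trans k6) (by positivity)) fun x hx => by
    have e : evF (SE d) f 0 x = SE d (pt gb x) := congrArg (SE d) (hpt _ (h00 hf h0) x hx)
    have := mul_nonneg hC1 (b0 x)
    rw [e]
    rcases lt_or_ge x (1 / 4) with h4 | h4
    · rw [NFar_flat hN hD hd0 hg (by linarith [hx0.1]) hgb (by linarith [hx.1, hx0.1]) h4]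
      exact add_nonneg this (mul_nonneg h5 (Real.smoothTransition.nonneg _))
    · rw [Real.smoothTransition.one_of_one_le (by linarith)]
      linarith [h5' x (hs hx)]
  have m0 := mul_nonneg hsum0 hT0
  have m1 := mul_nonneg hCs hT0
  refine fun t ht => ⟨fun x hx => ⟨fun i => ?_, ?_⟩, fun x hx => ?_⟩
  · have p1 := P1 1 abs_one i t ht x hx
    have p2 := P1 (-1) (by simp) i t ht x hx
    have q1 := mul_nonneg (hCf 1 i) hT0
    have q2 := mul_nonneg (hCf (-1) i) hT0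
    have q3 := mul_le_mul_of_nonneg_right (hsum i) hT0
    rw [abs_le]
    constructor <;> linarith
  · have p := P2 t ht x (hs2 hx)
    have := mul_le_mul_of_nonneg_left (Real.smoothTransition.le_one (8 * x - 1)) h5
    rw [b2 x hx] at p
    linarith
  · have hx' : x ∈ Icc (x0 / 2) 1 := ⟨hx.1, by linarith [hx.2, hx0.2]⟩
    have p := P2 t ht x (hs2 hx')
    rw [b2 x hx', Real.smoothTransition.zero_of_nonpos (by linarith [hx.2, hx0.2])] at p
    linarith

end Vale.Agent.P244
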