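import Vale.Agent.P244.StmN

/-! P244: geometric bounds near the left pole from the weak bootstrap bounds. -/

open Set Filter
open scoped ContDiff Topology

namespace Vale.Agent.P244

/-- First touching in the space variable. -/
theorem NGeo_touch {ι : Type} [Finite ι] {u : ι → ℝ → ℝ} (hu : ∀ i, Sm (u i)) {c x0 : ℝ}
    (hx0 : x0 ≤ 1) (h0 : ∀ i, |u i 0| < c)
    (h : ∀ x ∈ Ioc 0 x0, (∀ j, |u j x| ≤ c) → ∀ i, 0 ≤ u i x * d1 (u i) x → |u i x| < c) :
    ∀ x ∈ Icc 0 x0, ∀ i, |u i x| < c := by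
  by_contra hn
  push Not at hn
  have hs : Icc 0 x0 ⊆ I := Icc_subset_Icc_right hx0
  have hc : IsCompact (⋃ i, Icc 0 x0 ∩ (fun x => |u i x|) ⁻¹' Ici c) :=
    isCompact_iUnion fun i => isCompact_Icc.of_isClosed_subset
      (((hu i).cont.mono hs).abs.preimage_isClosed_of_isClosed isClosed_Icc isClosed_Ici)
      inter_subset_left
  obtain ⟨x, hx, hm⟩ := hc.exists_isLeast (by
    obtain ⟨x, hx, i, hi⟩ := hn
    exact ⟨x, mem_iUnion.2 ⟨i, hx, hi⟩⟩)
  obtain ⟨i, hx, hi⟩ := mem_iUnion.1 hx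
  have hi' : c ≤ |u i x| := hi
  have hp : 0 < x := hx.1.lt_of_ne fun e => absurd (h0 i) (not_lt.2 (e ▸ hi'))
  have hs' : Ico 0 x ⊆ I := fun y hy => ⟨hy.1, hy.2.le.trans (hs hx).2⟩
  have hl : ∀ y ∈ Ico 0 x, ∀ j, |u j y| < c := fun y hy j => not_le.1 fun hj =>
    absurd (hm (mem_iUnion.2 ⟨j, ⟨hy.1, hy.2.le.trans hx.2⟩, hj⟩)) (not_le.2 hy.2)
  have hne := right_nhdsWithin_Ico_neBot hp
  refine absurd (h x ⟨hp, hx.2⟩ (fun j => ?_) i ?_) (not_lt.2 hi')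
  · exact le_of_tendsto (((hu j).cont x (hs hx)).mono hs').abs
      (eventually_nhdsWithin_of_forall fun y hy => (hl y hy j).le)
  · have hd := (hasDerivWithinAt_iff_tendsto_slope' (right_notMem_Ico)).1
      ((((hu i).hasW (hs hx)).mono hs').const_mul (u i x))
    refine ge_of_tendsto hd (eventually_nhdsWithin_of_forall fun y hy => ?_)
    rw [slope_def_field]
    refine div_nonneg_of_nonpos ?_ (sub_nonpos.2 hy.2.le)
    have e := mul_le_mul_of_nonneg_left ((hl y hy i).le.trans hi') (abs_nonneg (u i x))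
    rw [← abs_mul, abs_mul_abs_self] at e
    linarith [le_abs_self (u i x * u i y)]

theorem NGeo_div {d η k M Y : ℝ} (h : η ^ 2 * d = 1) (hk : 0 ≤ k) (hM : 0 ≤ M)
    (hY : (d + k) * Y ≤ M) : Y ≤ M * η ^ 2 := by
  have h1 := mul_le_mul_of_nonneg_left hY (sq_nonneg η)
  have h2 : η ^ 2 * ((d + k) * Y) = Y + k * η ^ 2 * Y := by linear_combination Y * h
  by_contra hn
  have h3 : 0 ≤ Y := (mul_nonneg hM (sq_nonneg η)).trans (not_le.1 hn).le
  have := mul_nonneg (mul_nonneg hk (sq_nonneg η)) h3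
  linarith [not_le.1 hn]

theorem NGeo_adiv {d η k M Y : ℝ} (h : η ^ 2 * d = 1) (hk : 0 ≤ k)
    (hY : |(d + k) * Y| ≤ M) : |Y| ≤ M * η ^ 2 := by
  have hM := (abs_nonneg _).trans hY
  have h1 := NGeo_div h hk hM (abs_le.1 hY).2
  have h2 := NGeo_div (Y := -Y) h hk hM (by linarith [(abs_le.1 hY).1])
  exact abs_le.2 ⟨by linarith, h1⟩

theorem NGeo_E {d η a b c : ℝ} (h : η ^ 2 * d = 1) (h0 : 0 < η) (h1 : η ≤ 1 / 100)
    (ha : |a - b| ≤ η) (hc : |c - b| ≤ η) (hr : |a + (d + 1) * b + 2 * c| ≤ 2) :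
    |b| ≤ 3 * η ^ 2 ∧ |a| ≤ 2 * η ∧ |c| ≤ 2 * η ∧
      a ^ 2 + (d + 1) * b ^ 2 + 2 * c ^ 2 ≤ 7 * η ^ 2 := by
  have s1 := sq_le_sq' (abs_le.1 ha).1 (abs_le.1 ha).2
  have s2 := sq_le_sq' (abs_le.1 hc).1 (abs_le.1 hc).2
  have s3 := sq_le_sq' (abs_le.1 hr).1 (abs_le.1 hr).2
  rw [abs_le] at ha hc hr
  have hb : |b| ≤ 3 * η ^ 2 := NGeo_adiv (k := 4) h (by norm_num)
    (abs_le.2 ⟨by linarith [ha.2, hc.2, hr.1], by linarith [ha.1, hc.1, hr.2]⟩)
  have e : η ^ 2 ≤ η / 100 := by nlinarith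
  have hY := NGeo_div (k := 4) (M := 4) (Y := (d + 4) * b ^ 2 + 2 * b * (a - b + 2 * (c - b))) h
    (by norm_num) (by norm_num) (by nlinarith [sq_nonneg (a - b + 2 * (c - b))])
  have hb' := abs_le.1 hb
  refine ⟨hb, abs_le.2 ⟨by linarith [ha.1, hb'.1], by linarith [ha.2, hb'.2]⟩,
    abs_le.2 ⟨by linarith [hc.1, hb'.1], by linarith [hc.2, hb'.2]⟩, by linarith⟩

theorem NGeo_sign {k u P M : ℝ} (hM : |k * u + P| ≤ M) (h : 0 ≤ u * P) (hk : 0 < k) :
    |k * u| ≤ M := by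
  rw [abs_le] at hM ⊢
  rcases lt_trichotomy u 0 with hu | hu | hu
  · have : P ≤ 0 := by nlinarith
    constructor <;> nlinarith [hM.1, hM.2]
  · rw [hu] at hM ⊢
    constructor <;> linarith [hM.1, hM.2]
  · have : 0 ≤ P := by nlinarith
    constructor <;> nlinarith [hM.1, hM.2]

theorem NGeo_mul {a b A B : ℝ} (ha : |a| ≤ A) (hb : |b| ≤ B) : |a * b| ≤ A * B := by
  rw [abs_mul]
  exact mul_le_mul ha hb (abs_nonneg _) ((abs_nonneg _).trans ha)

/-- The data at one point. -/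
structure NGeo_P (d η : ℝ) (q : Q) : Prop where
  N : NearQ d q
  x0 : 0 ≤ q.1
  x : q.1 ≤ 2 * d * nF d q
  e1 : |nF d q * E1 d q| ≤ 3 * η ^ 2
  e0 : |nF d q * E0 d q| ≤ 2 * η
  e2 : |nF d q * E2 d q| ≤ 2 * η
  se : nF d q ^ 2 * SE d q ≤ 7 * η ^ 2

section
variable {d η : ℝ} {q : Q}

theorem NGeo_F1 (h : η ^ 2 * d = 1) (q : Q) : nF1 d q = (1 + d * q.2.1 1) * η ^ 2 := by
  have hd : d ≠ 0 := fun e => by simp [e] at h
  rw [nF1, eq_one_div_of_mul_eq_one_left h]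
  field_simp

theorem NGeo_X (h : η ^ 2 * d = 1) (h1 : η ≤ 1 / 100) (P : NGeo_P d η q)
    (u1 : |d * q.2.1 1| ≤ 5 * η) (u2 : |nz q - 1| ≤ 5 * η) :
    0 ≤ nF1 d q ∧ |nF1 d q| ≤ 2 * η ^ 2 ∧ 0 ≤ nX d q ∧ |nX d q| ≤ 4 ∧ |nz q| ≤ 2 := by
  rw [abs_le] at u1 u2
  have a : 0 ≤ nF1 d q := by
    rw [NGeo_F1 h]
    exact mul_nonneg (by linarith [u1.1]) (sq_nonneg η)
  have b : nF1 d q ≤ 2 * η ^ 2 := by
    rw [NGeo_F1 h]
    exact mul_le_mul_of_nonneg_right (by linarith [u1.2]) (sq_nonneg η)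
  have c : 0 ≤ nX d q := div_nonneg (mul_nonneg P.x0 a) P.N.pos.le
  refine ⟨a, by rwa [abs_of_nonneg a], c, ?_, abs_le.2 ⟨by linarith [u2.1], by linarith [u2.2]⟩⟩
  rw [abs_of_nonneg c, nX, div_le_iff₀ P.N.pos]
  refine (mul_le_mul P.x b a (P.x0.trans P.x)).trans (le_of_eq ?_)
  linear_combination 4 * nF d q * h

theorem NGeo_u1 (h : η ^ 2 * d = 1) (h0 : 0 < η) (h1 : η ≤ 1 / 100) (P : NGeo_P d η q)
    (u1 : |d * q.2.1 1| ≤ 5 * η) (u2 : |nz q - 1| ≤ 5 * η) (hs : 0 ≤ d * q.2.1 1 * ZPh2 d q) :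
    |d * q.2.1 1| < 5 * η := by
  obtain ⟨-, b, -, c, z⟩ := NGeo_X h h1 P u1 u2
  have t1 := abs_le.1 (NGeo_mul P.e1 c)
  have t2 := abs_le.1 (NGeo_mul z b)
  have t3 := abs_le.1 (NGeo_mul (NGeo_mul z c) b)
  have t4 := abs_le.1 P.e2
  have e := P.N.e12
  have e' : d * nF1 d q = 1 + d * q.2.1 1 := by
    rw [NGeo_F1 h]
    linear_combination (1 + d * q.2.1 1) * h
  have e2 : η ^ 2 ≤ η / 100 := by nlinarith
  have := NGeo_sign (k := 2) (M := 6 * η)
    (abs_le.2 ⟨by linarith [t1.1, t2.2, t3.1, t4.2], by linarith [t1.2, t2.1, t3.2, t4.1]⟩) hs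
    two_pos
  rw [abs_mul, abs_two] at this
  linarith

theorem NGeo_u2 (h : η ^ 2 * d = 1) (h0 : 0 < η) (h1 : η ≤ 1 / 100) (P : NGeo_P d η q)
    (u1 : |d * q.2.1 1| ≤ 5 * η) (u2 : |nz q - 1| ≤ 5 * η) (hs : 0 ≤ (nz q - 1) * z0' q) :
    |nz q - 1| < 5 * η := by
  obtain ⟨-, b, -, c, z⟩ := NGeo_X h h1 P u1 u2
  have hd : 0 < d := by nlinarith [sq_nonneg η]
  have t1 := abs_le.1 (NGeo_mul z c)
  have t2 : |q.1 * E1 d q| ≤ 6 := by
    have := mul_le_mul_of_nonneg_left P.e1 (mul_pos two_pos hd).le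
    rw [abs_mul, abs_of_pos P.N.pos] at this
    rw [abs_mul, abs_of_nonneg P.x0]
    linarith [mul_le_mul_of_nonneg_right P.x (abs_nonneg (E1 d q))]
  have e : q.1 * E1 d q = -(q.1 * z0' q) - d * (nz q - 1) - 2 * (nz q * nX d q) := by
    rw [E1, P.N.k1, P.N.mm, nX]
    linear_combination d * P.N.xl1
  rw [abs_le] at t2
  have := NGeo_sign (k := d) (u := nz q - 1) (P := q.1 * z0' q) (M := 22)
    (abs_le.2 ⟨by linarith [t1.2, t2.2], by linarith [t1.1, t2.1]⟩)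
    (by linarith [mul_nonneg P.x0 hs]) hd
  have := NGeo_adiv (k := 0) (M := 22) (Y := nz q - 1) h le_rfl (by rwa [add_zero])
  nlinarith

theorem NGeo_Q (h : η ^ 2 * d = 1) (h0 : 0 < η) (h1 : η ≤ 1 / 100) (hη : et d = η)
    (P : NGeo_P d η q) (u1 : |d * q.2.1 1| ≤ 5 * η) (u2 : |nz q - 1| ≤ 5 * η) : GeoQ d q := by
  obtain ⟨a, b, a', c, z⟩ := NGeo_X h h1 P u1 u2
  have hd : 0 < d := by nlinarith [sq_nonneg η]
  have hF := P.N.pos
  have ab : ∀ y, nF d q * |y| = |nF d q * y| := fun y => by rw [abs_mul, abs_of_pos hF]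
  have e2 : η ^ 2 ≤ η / 100 := by nlinarith
  have eA : nF d q * A2 d q = nz q * nX d q * nF1 d q := by
    rw [P.N.a2]
    field_simp
  have eM : nF d q * MM d q = -(nz q * nF1 d q) := by
    rw [P.N.mm]
    field_simp
  have eL : nF d q * L2 d q = 1 - nF d q * A2 d q := by
    rw [P.N.l2]
    field_simp
  have e' : d * nF1 d q = 1 + d * q.2.1 1 := by
    rw [NGeo_F1 h]
    linear_combination (1 + d * q.2.1 1) * h
  have tA := NGeo_mul (NGeo_mul z c) b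
  have tM := NGeo_mul z b
  have tU := abs_le.1 (NGeo_mul z u1)
  rw [← eA] at tA
  rw [← abs_neg, ← eM] at tM
  have tA' := abs_le.1 tA
  have tM' := abs_le.1 tM
  have t0 := abs_le.1 P.e0
  have t1 := abs_le.1 P.e1
  have t2 := abs_le.1 P.e2
  have v2 := abs_le.1 u2
  have k2 : |nF d q * K2 d q| ≤ 18 * η := by
    have e : nF d q * K2 d q = nF d q * E2 d q + nF d q * A2 d q - nF d q * MM d q +
        (nz q - 1) + nz q * (d * q.2.1 1) := by
      rw [E2]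
      linear_combination -eL - d * eM + nz q * e'
    rw [e, abs_le]
    constructor <;> linarith [tU.1, tU.2, v2.1, v2.2, tA'.1, tA'.2, tM'.1, tM'.2, t2.1, t2.2]
  have k2' := abs_le.1 k2
  have k1 : |nF d q * K1 q| ≤ 1 * η ^ 2 := by
    refine NGeo_adiv (k := 1) h zero_le_one ?_
    have e : (d + 1) * (nF d q * K1 q) = nF d q * E0 d q - 2 * (nF d q * K2 d q) := by
      rw [E0]
      ring
    rw [e, abs_le]
    constructor <;> linarith [t0.1, t0.2, k2'.1, k2'.2]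
  have k1' := abs_le.1 k1
  have se : 7 / d = 7 * η ^ 2 := by
    rw [eq_one_div_of_mul_eq_one_left h]
    ring
  refine ⟨P.x, ?_, ?_, ?_, ?_, ?_, ?_, ?_, ?_, ?_, ⟨?_, ?_⟩, ?_, se ▸ P.se⟩
  · linarith
  · linarith
  · linarith [ab (E0 d q), P.e0]
  · linarith [ab (E1 d q), P.e1]
  · linarith [ab (E2 d q), P.e2]
  · linarith [ab (K1 q)]
  · linarith [ab (K2 d q)]
  · linarith [ab (MM d q)]
  · have e : d * nF d q * L1 q = nF d q * E1 d q - nF d q * K1 q - 2 * (nF d q * MM d q) := by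
      rw [E1]
      ring
    rw [← abs_of_pos (mul_pos hd hF), ← abs_mul, e, hη, abs_le]
    constructor <;> linarith [t1.1, t1.2, k1'.1, k1'.2, tM'.1, tM'.2]
  · rw [P.N.a2]
    exact div_nonneg (mul_nonneg (mul_nonneg P.N.zpos.le a') a) hF.le
  · linarith [tA'.2]
  · rw [eL, sub_sub_cancel_left, abs_neg]
    linarith

end

theorem geo (hN : NearQStmt) (hD : DictStmt) : GeoStmt := by
  intro d hd x0 hx0 g hg W
  have hd0 : 0 < d := by linarith [show (0 : ℝ) < 10 ^ 4 by norm_num]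
  have hr : 100 ≤ √d := Real.le_sqrt_of_sq_le (by linarith)
  have h0 : 0 < et d := one_div_pos.2 (by linarith)
  have h1 : et d ≤ 1 / 100 := one_div_le_one_div_of_le (by norm_num) hr
  have h : et d ^ 2 * d = 1 := by
    rw [et, div_pow, Real.sq_sqrt hd0.le]
    field_simp
  have hs : Icc 0 x0 ⊆ I := Icc_subset_Icc_right (by linarith [hx0.2])
  have P : ∀ x ∈ Icc 0 x0, NGeo_P d (et d) (pt g x) := fun x hx => by
    have N := hN d hd0 (pt g x) (hg.mem x (hs hx)) hx.1 (by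
      change x < _
      linarith [hx.2, hx0.2])
    have ab : ∀ y, nF d (pt g x) * |y| = |nF d (pt g x) * y| := fun y => by
      rw [abs_mul, abs_of_pos N.pos]
    obtain ⟨a, b, c, e⟩ := NGeo_E (a := nF d (pt g x) * E0 d (pt g x))
      (b := nF d (pt g x) * E1 d (pt g x)) (c := nF d (pt g x) * E2 d (pt g x)) h h0 h1
      (by rw [← mul_sub, ← ab]; exact W.d0 x hx) (by rw [← mul_sub, ← ab]; exact W.d2 x hx)
      (le_of_eq_of_le (congrArg _ (by rw [Rs]; ring)) ((ab _).symm.trans_le (W.rs x hx)))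
    refine ⟨N, hx.1, W.x x hx, a, b, c, le_of_eq_of_le ?_ e⟩
    rw [SE]
    ring
  have s1 : Sm fun x => d * g 1 x := contDiffOn_const.mul (hg.sm 1)
  have sz : Sm fun x => nz (pt g x) := (contDiffOn_const.sub contDiffOn_id).mul
    (contDiffOn_const.sub (contDiff_om.contDiffOn.mul (hg.sm 2)))
  have key := NGeo_touch (u := ![fun x => d * g 1 x, fun x => nz (pt g x) - 1])
    (Fin.forall_fin_two.2 ⟨s1, ContDiffOn.sub sz contDiffOn_const⟩) (c := 5 * et d)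
    (x0 := x0) (by linarith [hx0.2]) (Fin.forall_fin_two.2 ⟨?_, ?_⟩) fun x hx hj => ?_
  · exact fun x hx => NGeo_Q h h0 h1 rfl (P x hx) (key x hx 0).le (key x hx 1).le
  · have Q := P 0 ⟨le_rfl, hx0.1.le⟩
    have e := Q.N.e12
    have z : nz (pt g 0) = 1 := by simp [nz, z0, aa, bs, pt, om]
    have z2 : (pt g 0).2.2 1 = 0 := by simp [pt, gr, om]
    have z3 : nX d (pt g 0) = 0 := by simp [nX, pt]
    rw [Q.N.zph2, z, z2, z3, NGeo_F1 h] at e
    have t := abs_le.1 Q.e2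
    have e2 : et d ^ 2 ≤ et d / 100 := by nlinarith
    change |d * (pt g 0).2.1 1| < _
    generalize d * (pt g 0).2.1 1 = u at e ⊢
    have e3 : (2 + 4 * et d ^ 2) * u + 0 =
        -2 * (nF d (pt g 0) * E2 d (pt g 0)) - 4 * et d ^ 2 := by
      linear_combination -e - 2 * (1 + u) * h
    have e4 : |(2 + 4 * et d ^ 2) * u| ≤ 5 * et d := by
      rw [add_zero] at e3
      rw [e3, abs_le]
      constructor <;> linarith [t.1, t.2, sq_nonneg (et d)]
    rw [abs_mul, abs_of_pos (by positivity)] at e4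
    nlinarith [mul_nonneg (sq_nonneg (et d)) (abs_nonneg u)]
  · have z : nz (pt g 0) = 1 := by simp [nz, z0, aa, bs, pt, om]
    change |nz (pt g 0) - 1| < _
    rw [z, sub_self, abs_zero]
    linarith
  · have hx' := Ioc_subset_Icc_self hx
    have hI := hs hx'
    refine Fin.forall_fin_two.2 ⟨fun s => NGeo_u1 h h0 h1 (P x hx') (hj 0) (hj 1) ?_,
      fun s => NGeo_u2 h h0 h1 (P x hx') (hj 0) (hj 1) ?_⟩
    · change 0 ≤ d * g 1 x * d1 (fun x => d * g 1 x) x at s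
      rw [d1_eq hI (((hg.sm 1).hasW hI).const_mul d)] at s
      rw [(P x hx').N.zph2]
      change 0 ≤ d * g 1 x * (4 * aa (bs (pt g x)) * (om x * d1 (g 1) x))
      have a := mul_nonneg (aa_pos (hg.mem x hI)).le (om_nonneg hI)
      have b : 0 ≤ d * g 1 x * d1 (g 1) x := nonneg_of_mul_nonneg_right (a := d) (by linarith) hd0
      rw [bs_pt]
      linarith [mul_nonneg a b]
    · change 0 ≤ (nz (pt g x) - 1) * d1 (fun x => nz (pt g x) - 1) x at s
      rwa [d1_eq hI ((sz.hasW hI).sub_const 1), (hD d hd0 g hg x hI).z0] at s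

end Vale.Agent.P244
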