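import Vale.Agent.P244.StmN

/-! P244: elementary properties of the initial data. -/

open Set Filter
open scoped ContDiff Topology

namespace Vale.Agent.P244

theorem NIniA_chi_one {r : ℝ} (h : r ≤ 1) : chi r = 1 := by
  simp [chi, Real.smoothTransition.zero_of_nonpos (by linarith : r - 1 ≤ 0)]

theorem NIniA_chi_zero {r : ℝ} (h : 2 ≤ r) : chi r = 0 := by
  simp [chi, Real.smoothTransition.one_of_one_le (by linarith : 1 ≤ r - 1)]

theorem NIniA_chi_sm : ContDiff ℝ ∞ chi :=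
  contDiff_const.sub (Real.smoothTransition.contDiff.comp (by fun_prop))

theorem NIniA_chi_bd : ∃ K : ℝ, 1 ≤ K ∧ ∀ r, |chi r| ≤ K ∧ |deriv chi r| ≤ K ∧
    |deriv (deriv chi) r| ≤ K := by
  obtain ⟨K1, h1⟩ := (isCompact_Icc (a := (1 : ℝ)) (b := 2)).exists_bound_of_continuousOn
    (contDiff_deriv NIniA_chi_sm).continuous.continuousOn
  obtain ⟨K2, h2⟩ := (isCompact_Icc (a := (1 : ℝ)) (b := 2)).exists_bound_of_continuousOn
    (contDiff_deriv (contDiff_deriv NIniA_chi_sm)).continuous.continuousOn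
  have a1 := abs_nonneg K1
  have a2 := abs_nonneg K2
  refine ⟨1 + |K1| + |K2|, by linarith, fun r => ⟨?_, ?_⟩⟩
  · have b1 := Real.smoothTransition.nonneg (r - 1)
    have b2 := Real.smoothTransition.le_one (r - 1)
    rw [chi, abs_le]
    constructor <;> linarith
  · rcases lt_or_ge r 1 with h | h
    · have := deriv_of_affine (g := chi) (a := 1) (b := 0) isOpen_Iio
        (fun y (hy : y < 1) => by simp [NIniA_chi_one hy.le]) h
      rw [this.1, this.2, abs_zero]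
      constructor <;> linarith
    rcases lt_or_ge 2 r with h' | h'
    · have := deriv_of_affine (g := chi) (a := 0) (b := 0) isOpen_Ioi
        (fun y (hy : 2 < y) => by simp [NIniA_chi_zero hy.le]) h'
      rw [this.1, this.2, abs_zero]
      constructor <;> linarith
    · have c1 := h1 r ⟨h, h'⟩
      have c2 := h2 r ⟨h, h'⟩
      rw [Real.norm_eq_abs] at c1 c2
      constructor <;> linarith [le_abs_self K1, le_abs_self K2]

/-- A cubic polynomial. -/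
def NIniA_cub (A : Fin 4 → ℝ) (y : ℝ) : ℝ := A 0 + A 1 * y + A 2 * y ^ 2 + A 3 * y ^ 3

/-- The coefficients of the derivative. -/
def NIniA_dc (A : Fin 4 → ℝ) : Fin 4 → ℝ := ![A 1, 2 * A 2, 3 * A 3, 0]

theorem NIniA_cub_sm (A : Fin 4 → ℝ) : ContDiff ℝ ∞ (NIniA_cub A) := by
  unfold NIniA_cub; fun_prop

theorem NIniA_cub_der (A : Fin 4 → ℝ) (y : ℝ) :
    HasDerivAt (NIniA_cub A) (NIniA_cub (NIniA_dc A) y) y := by
  have h := ((((hasDerivAt_id y).const_mul (A 1)).const_add (A 0)).add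
    ((hasDerivAt_pow 2 y).const_mul (A 2))).add ((hasDerivAt_pow 3 y).const_mul (A 3))
  refine HasDerivAt.congr_deriv h ?_
  simp [NIniA_cub, NIniA_dc]
  ring

theorem NIniA_dc_bd {A : Fin 4 → ℝ} {m : ℝ} (h : ∀ i, |A i| ≤ m) (i : Fin 4) :
    |NIniA_dc A i| ≤ 3 * m := by
  have h0 := (abs_nonneg _).trans (h 0)
  have h1 := abs_le.1 (h 1)
  have h2 := abs_le.1 (h 2)
  have h3 := abs_le.1 (h 3)
  rw [abs_le]
  fin_cases i <;> simp [NIniA_dc] <;> (try constructor) <;> linarith [h1.1, h1.2, h2.1, h2.2, h3.1, h3.2]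

theorem NIniA_cub_bd {A : Fin 4 → ℝ} {m τ y : ℝ} (h : ∀ i, |A i| ≤ m) (hτ : 1 ≤ τ) (h0 : 0 ≤ y)
    (hy : y ≤ τ) : |NIniA_cub A y| ≤ 4 * m * τ ^ 3 := by
  have m0 := (abs_nonneg _).trans (h 0)
  have key : ∀ (i : Fin 4) (j : ℕ), j ≤ 3 → |A i * y ^ j| ≤ m * τ ^ 3 := fun i j hj => by
    rw [abs_mul, abs_of_nonneg (pow_nonneg h0 j)]
    exact mul_le_mul (h i) ((pow_le_pow_left₀ h0 hy j).trans (pow_le_pow_right₀ hτ hj))
      (pow_nonneg h0 j) m0
  have a0 := abs_le.1 (key 0 0 (by norm_num))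
  have a1 := abs_le.1 (key 1 1 (by norm_num))
  have a2 := abs_le.1 (key 2 2 (by norm_num))
  have a3 := abs_le.1 (key 3 3 (by norm_num))
  rw [pow_zero, mul_one] at a0
  rw [pow_one] at a1
  rw [NIniA_cub, abs_le]
  constructor <;> linarith [a0.1, a0.2, a1.1, a1.2, a2.1, a2.2, a3.1, a3.2]

/-- The truncated cubic. -/
noncomputable def NIniA_Y (T ρ : ℝ) (A : Fin 4 → ℝ) (x : ℝ) : ℝ :=
  ρ * (NIniA_cub A (x / (4 * T)) * chi (x / √T))

theorem NIniA_Y_sm (T ρ : ℝ) (A : Fin 4 → ℝ) : ContDiff ℝ ∞ (NIniA_Y T ρ A) :=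
  contDiff_const.mul (((NIniA_cub_sm A).comp (contDiff_id.div_const _)).mul
    (NIniA_chi_sm.comp (contDiff_id.div_const _)))

theorem NIniA_sc {g : ℝ → ℝ} {g' c x : ℝ} (h : HasDerivAt g g' (x / c)) :
    HasDerivAt (fun x => g (x / c)) (g' * c⁻¹) x := by
  have := h.comp x ((hasDerivAt_id x).div_const c)
  rw [one_div] at this
  exact this

theorem NIniA_mul3 {a b c a' b' c' : ℝ} (ha : |a| ≤ a') (hb : |b| ≤ b') (hc : |c| ≤ c') :
    |a * b * c| ≤ a' * b' * c' := by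
  rw [abs_mul, abs_mul]
  have := (abs_nonneg _).trans ha
  have := (abs_nonneg _).trans hb
  gcongr

theorem NIniA_Y_bd {K : ℝ} (hK : ∀ r, |chi r| ≤ K ∧ |deriv chi r| ≤ K ∧ |deriv (deriv chi) r| ≤ K)
    {T ρ m : ℝ} (hT : 0 < T) (hT1 : T ≤ 1) (hρ : 0 ≤ ρ) {A : Fin 4 → ℝ} (hA : ∀ i, |A i| ≤ m)
    {x : ℝ} (hx : x ∈ I) :
    |NIniA_Y T ρ A x| ≤ ρ * (144 * m * K * T⁻¹ ^ 5) ∧
    |deriv (NIniA_Y T ρ A) x| ≤ ρ * (144 * m * K * T⁻¹ ^ 5) ∧
    |deriv (deriv (NIniA_Y T ρ A)) x| ≤ ρ * (144 * m * K * T⁻¹ ^ 5) := by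
  have m0 := (abs_nonneg _).trans (hA 0)
  have K0 := (abs_nonneg _).trans (hK 0).1
  have hc1 : ∀ r, HasDerivAt chi (deriv chi r) r := fun r =>
    (NIniA_chi_sm.differentiable (by simp) r).hasDerivAt
  have hc2 : ∀ r, HasDerivAt (deriv chi) (deriv (deriv chi) r) r := fun r =>
    ((contDiff_deriv NIniA_chi_sm).differentiable (by simp) r).hasDerivAt
  have e1 : deriv (NIniA_Y T ρ A) = fun x => ρ *
      (NIniA_cub (NIniA_dc A) (x / (4 * T)) * (4 * T)⁻¹ * chi (x / √T) +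
        NIniA_cub A (x / (4 * T)) * (deriv chi (x / √T) * (√T)⁻¹)) := by
    funext x
    exact (((NIniA_sc (NIniA_cub_der A _)).mul (NIniA_sc (hc1 _))).const_mul ρ).deriv
  have e2 : deriv (deriv (NIniA_Y T ρ A)) x = ρ *
      ((NIniA_cub (NIniA_dc (NIniA_dc A)) (x / (4 * T)) * (4 * T)⁻¹ * (4 * T)⁻¹ * chi (x / √T) +
        NIniA_cub (NIniA_dc A) (x / (4 * T)) * (4 * T)⁻¹ * (deriv chi (x / √T) * (√T)⁻¹)) +
       (NIniA_cub (NIniA_dc A) (x / (4 * T)) * (4 * T)⁻¹ * (deriv chi (x / √T) * (√T)⁻¹) +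
        NIniA_cub A (x / (4 * T)) * (deriv (deriv chi) (x / √T) * (√T)⁻¹ * (√T)⁻¹))) := by
    rw [e1]
    exact (((((NIniA_sc (NIniA_cub_der (NIniA_dc A) _)).mul_const _).mul (NIniA_sc (hc1 _))).add
      ((NIniA_sc (NIniA_cub_der A _)).mul ((NIniA_sc (hc2 _)).mul_const _))).const_mul ρ).deriv
  set τ := T⁻¹ with hτ
  have τ1 : 1 ≤ τ := one_le_inv₀ hT |>.2 hT1
  have ha : |(4 * T)⁻¹| ≤ τ := by
    rw [abs_of_pos (by positivity)]
    exact inv_anti₀ hT (by linarith)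
  have hb : |(√T)⁻¹| ≤ τ := by
    rw [abs_of_pos (by positivity)]
    exact inv_anti₀ hT (Real.le_sqrt_of_sq_le (by nlinarith))
  have hy0 : 0 ≤ x / (4 * T) := div_nonneg hx.1 (by positivity)
  have hy : x / (4 * T) ≤ τ := by
    rw [div_eq_mul_inv]
    have := mul_le_mul hx.2 ((le_abs_self _).trans ha) (by positivity) zero_le_one
    linarith
  have p0 := NIniA_cub_bd hA τ1 hy0 hy
  have p1 := NIniA_cub_bd (NIniA_dc_bd hA) τ1 hy0 hy
  have p2 := NIniA_cub_bd (NIniA_dc_bd (NIniA_dc_bd hA)) τ1 hy0 hy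
  obtain ⟨q0, q1, q2⟩ := hK (x / √T)
  have t3 : 0 ≤ m * K * τ ^ 3 := by positivity
  have t4 : m * K * τ ^ 3 ≤ m * K * τ ^ 4 :=
    mul_le_mul_of_nonneg_left (pow_le_pow_right₀ τ1 (by norm_num)) (by positivity)
  have t5 : m * K * τ ^ 4 ≤ m * K * τ ^ 5 :=
    mul_le_mul_of_nonneg_left (pow_le_pow_right₀ τ1 (by norm_num)) (by positivity)
  have fin : ∀ u : ℝ, |u| ≤ 144 * m * K * τ ^ 5 → |ρ * u| ≤ ρ * (144 * m * K * τ ^ 5) :=
    fun u hu => by
      rw [abs_mul, abs_of_nonneg hρ]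
      exact mul_le_mul_of_nonneg_left hu hρ
  generalize NIniA_cub (NIniA_dc (NIniA_dc A)) (x / (4 * T)) = P2 at *
  refine ⟨fin _ ?_, ?_, ?_⟩
  · have := NIniA_mul3 p0 q0 (c := 1) (c' := 1) (by simp)
    rw [mul_one] at this
    nlinarith
  · rw [e1]
    refine fin _ ((abs_add_le _ _).trans ?_)
    have b1 := NIniA_mul3 p1 ha q0
    have b2 := NIniA_mul3 p0 q1 hb
    rw [mul_assoc] at b2
    nlinarith
  · rw [e2]
    refine fin _ ((abs_add_le _ _).trans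
      ((add_le_add (abs_add_le _ _) (abs_add_le _ _)).trans ?_))
    have b1 := NIniA_mul3 (NIniA_mul3 p2 ha ha) q0 (c := 1) (c' := 1) (by simp)
    have b2 := NIniA_mul3 p1 ha (NIniA_mul3 q1 hb (c := 1) (c' := 1) (by simp))
    have b3 := NIniA_mul3 p0 (NIniA_mul3 q2 hb hb) (c := 1) (c' := 1) (by simp)
    simp only [mul_one] at b1 b2 b3
    nlinarith

theorem NIniA_ee (k : ℕ) : ∃ c : Fin 4 → Fin 4 → ℝ, ∀ j y, ee k j y = NIniA_cub (c j) y := by
  refine ⟨![![1, 0, 0, 0], ![k / √k, -1 / √k, 0, 0],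
    ![k * (k + 1) / √(2 * k * (k + 1)), -(2 * (k + 1)) / √(2 * k * (k + 1)),
      1 / √(2 * k * (k + 1)), 0],
    ![k * (k + 1) * (k + 2) / √(6 * k * (k + 1) * (k + 2)),
      -(3 * (k + 1) * (k + 2)) / √(6 * k * (k + 1) * (k + 2)),
      3 * (k + 2) / √(6 * k * (k + 1) * (k + 2)), -1 / √(6 * k * (k + 1) * (k + 2))]],
    fun j y => ?_⟩
  fin_cases j
  · simp [ee, NIniA_cub]
  all_goals
    simp only [ee, NIniA_cub, Fin.mk_one, Fin.reduceFinMk, Matrix.cons_val_zero,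
      Matrix.cons_val_one, Matrix.cons_val]
    ring

theorem NIniA_ball {α : V3} (h : α ∈ Ball (1 / 50)) (i : Fin 3) : |α i| ≤ 1 := by
  have h' : α 0 ^ 2 + α 1 ^ 2 + α 2 ^ 2 ≤ 1 / 50 := h
  have h0 := sq_nonneg (α 0)
  have h1 := sq_nonneg (α 1)
  have h2 := sq_nonneg (α 2)
  have : α 0 ^ 2 ≤ 1 ^ 2 ∧ α 1 ^ 2 ≤ 1 ^ 2 ∧ α 2 ^ 2 ≤ 1 ^ 2 := ⟨by linarith, by linarith, by linarith⟩
  refine abs_le.2 (abs_le_of_sq_le_sq' ?_ zero_le_one)
  fin_cases i
  exacts [this.1, this.2.1, this.2.2]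

/-- The two quantitative bounds. -/
theorem NIniA_quant (k : ℕ) : ∃ C : ℝ, 0 < C ∧ ∀ T, 0 < T → T ≤ 1 → ∀ x ∈ I,
    (∀ α ∈ Ball (1 / 50), |y0 k T α x| ≤ rho (2 * k) T * (C * T⁻¹ ^ 5) ∧
      |deriv (y0 k T α) x| ≤ rho (2 * k) T * (C * T⁻¹ ^ 5) ∧
      |deriv (deriv (y0 k T α)) x| ≤ rho (2 * k) T * (C * T⁻¹ ^ 5)) ∧
    ∀ α β : V3, |y0 k T α x - y0 k T β x| ≤ rho (2 * k) T * (C * T⁻¹ ^ 5) * ‖α - β‖ ∧
      |deriv (y0 k T α) x - deriv (y0 k T β) x| ≤ rho (2 * k) T * (C * T⁻¹ ^ 5) * ‖α - β‖ := by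
  obtain ⟨K, K1, hK⟩ := NIniA_chi_bd
  obtain ⟨c, hc⟩ := NIniA_ee k
  have hM : ∀ j i, |c j i| ≤ ‖c‖ + 1 := fun j i => by
    have := (norm_le_pi_norm (c j) i).trans (norm_le_pi_norm c j)
    rw [Real.norm_eq_abs] at this
    linarith
  have M0 : 0 < ‖c‖ + 1 := by positivity
  set M := ‖c‖ + 1
  have hy : ∀ T (α : V3), y0 k T α = NIniA_Y T (rho (2 * k) T)
      (fun i => α 0 * c 0 i + α 1 * c 1 i + α 2 * c 2 i + c 3 i) := fun T α => by
    funext x
    simp only [y0, NIniA_Y, pol, hc, NIniA_cub]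
    ring
  have hb : ∀ (a : ℝ) (m : ℝ) j i, |a| ≤ m → |a * c j i| ≤ m * M := fun a m j i h => by
    rw [abs_mul]
    exact mul_le_mul h (hM j i) (abs_nonneg _) ((abs_nonneg _).trans h)
  refine ⟨144 * (4 * M) * K, by positivity, fun T hT hT1 x hx => ⟨fun α hα => ?_, fun α β => ?_⟩⟩
  · rw [hy]
    refine NIniA_Y_bd hK hT hT1 (by unfold rho; positivity) (fun i => ?_) hx
    have a0 := abs_le.1 (hb _ _ 0 i (NIniA_ball hα 0))
    have a1 := abs_le.1 (hb _ _ 1 i (NIniA_ball hα 1))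
    have a2 := abs_le.1 (hb _ _ 2 i (NIniA_ball hα 2))
    have a3 := abs_le.1 (hM 3 i)
    rw [abs_le]
    constructor <;> linarith [a0.1, a0.2, a1.1, a1.2, a2.1, a2.2, a3.1, a3.2]
  · have hn : ∀ i, |α i - β i| ≤ ‖α - β‖ := fun i => norm_le_pi_norm (α - β) i
    have e : (fun x => y0 k T α x - y0 k T β x) = NIniA_Y T (rho (2 * k) T)
        (fun i => (α 0 - β 0) * c 0 i + (α 1 - β 1) * c 1 i + (α 2 - β 2) * c 2 i) := by
      funext x
      simp only [y0, NIniA_Y, pol, hc, NIniA_cub]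
      ring
    have hd : ∀ γ, DifferentiableAt ℝ (y0 k T γ) x := fun γ => by
      rw [hy]; exact (NIniA_Y_sm _ _ _).differentiable (by simp) x
    have h := NIniA_Y_bd hK hT hT1 (ρ := rho (2 * k) T) (m := 4 * M * ‖α - β‖)
      (by unfold rho; positivity)
      (A := fun i => (α 0 - β 0) * c 0 i + (α 1 - β 1) * c 1 i + (α 2 - β 2) * c 2 i)
      (fun i => by
        have a0 := abs_le.1 (hb _ _ 0 i (hn 0))
        have a1 := abs_le.1 (hb _ _ 1 i (hn 1))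
        have a2 := abs_le.1 (hb _ _ 2 i (hn 2))
        have a3 : 0 ≤ ‖α - β‖ * M := by positivity
        rw [abs_le]
        constructor <;> linarith [a0.1, a0.2, a1.1, a1.2, a2.1, a2.2]) hx
    rw [← e, deriv_fun_sub (hd α) (hd β)] at h
    exact ⟨h.1.trans (le_of_eq (by ring)), h.2.1.trans (le_of_eq (by ring))⟩

theorem NIniA_sm (k : ℕ) (T : ℝ) (α : V3) : ContDiff ℝ ∞ (y0 k T α) := by
  obtain ⟨c, hc⟩ := NIniA_ee k
  have : y0 k T α = NIniA_Y T (rho (2 * k) T)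
      (fun i => α 0 * c 0 i + α 1 * c 1 i + α 2 * c 2 i + c 3 i) := by
    funext x
    simp only [y0, NIniA_Y, pol, hc, NIniA_cub]
    ring
  rw [this]
  exact NIniA_Y_sm _ _ _

theorem NIniA_zero (k : ℕ) {T : ℝ} (hT : 0 < T) (α : V3) {x : ℝ} (hx : 2 * √T ≤ x) :
    y0 k T α x = 0 := by
  have : 2 ≤ x / √T := by rwa [le_div_iff₀ (Real.sqrt_pos.2 hT)]
  simp [y0, NIniA_chi_zero this]

theorem NIniA_pol (k : ℕ) (α : V3) (y : ℝ) :
    pol k α y = ∑ j, (![α 0, α 1, α 2, 1] : Fin 4 → ℝ) j * ee k j y := by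
  simp [pol, Fin.sum_univ_four]

theorem NIniA_inn (hP : PolyStmt) {k : ℕ} (hk : 10 ^ 8 ≤ k) {T : ℝ} (hT : 0 < T)
    (hs : 2 * (2 * k) * T ≤ √T) {α : V3} (hα : α ∈ Ball (1 / 50)) :
    (∀ x ∈ Icc 0 (lw (2 * k) T), 2 * rho (2 * k) T ≤ y0 k T α x) ∧
    ∀ x ∈ Icc 0 (2 * k * T), y0 k T α x ≤ 2 * k * √k * rho (2 * k) T := by
  have hα' : α 0 ^ 2 + α 1 ^ 2 + α 2 ^ 2 ≤ 1 / 50 := hα
  have k10 : 10 ≤ k := le_trans (by norm_num) hk
  have k0 : (0 : ℝ) ≤ k := Nat.cast_nonneg k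
  have hρ : 0 ≤ rho (2 * k) T := by unfold rho; positivity
  have hone : ∀ x, x ≤ 2 * (2 * k) * T → chi (x / √T) = 1 := fun x hx =>
    NIniA_chi_one ((div_le_one (Real.sqrt_pos.2 hT)).2 (hx.trans hs))
  refine ⟨fun x hx => ?_, fun x hx => ?_⟩
  · have h1 : x ≤ 2 * (2 * k) * T - 1000 * √(2 * k) * T := hx.2
    have h2 : 0 ≤ √(2 * (k : ℝ)) * T := by positivity
    have h3 : 6 / 5 * √(k : ℝ) ≤ √(2 * k) := Real.le_sqrt_of_sq_le (by
      rw [mul_pow, Real.sq_sqrt k0]; linarith)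
    have h4 : x / (4 * T) ≤ k - 300 * √k := by
      rw [div_le_iff₀ (by positivity)]
      nlinarith
    have := hP.low k k10 ![α 0, α 1, α 2, 1] (by simp) (by simpa using hα') _ h4
    rw [← NIniA_pol] at this
    rw [y0, hone x (by linarith), mul_one, mul_comm 2]
    exact mul_le_mul_of_nonneg_left (by simpa using this) hρ
  · have h0 : 0 ≤ (k : ℝ) * T := by positivity
    have h4 : x / (4 * T) ∈ Icc (0 : ℝ) k := ⟨div_nonneg hx.1 (by positivity), by
      rw [div_le_iff₀ (by positivity)]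
      nlinarith [hx.2]⟩
    have := hP.up k k10 ![α 0, α 1, α 2, 1] (by simp) (by simpa using hα') _ h4
    rw [← NIniA_pol] at this
    rw [y0, hone x (by nlinarith [hx.2]), mul_one, mul_comm _ (rho _ _)]
    exact mul_le_mul_of_nonneg_left (by simpa using this) hρ

theorem NIniA_phi {d T ρ : ℝ} {y : ℝ → ℝ} (hd : 10 ^ 8 ≤ d) (hT : 0 < T) (hT1 : T ≤ 1 / 2)
    (hρ : 0 < ρ) (h1 : ∀ x ∈ Icc 0 (lw d T), 2 * ρ ≤ y x) (h2 : ∀ x ∈ I, |y x| ≤ T ^ 30)
    {x : ℝ} (hx : x ∈ I) : min (2 * ρ) (T / 2) ≤ x / d + y x ∧ x ≤ 3 / 2 * d * (x / d + y x) := by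
  have d0 : 0 < d := lt_of_lt_of_le (by norm_num) hd
  have e : d * (x / d) = x := by field_simp
  have x0 : 0 ≤ x / d := div_nonneg hx.1 d0.le
  rcases le_or_gt x (lw d T) with h | h
  · have := h1 x ⟨hx.1, h⟩
    refine ⟨(min_le_left _ _).trans (by linarith), ?_⟩
    have : 0 ≤ d * y x := mul_nonneg d0.le (by linarith)
    nlinarith [hx.1]
  · have a1 : 1000 * √d ≤ d := by
      have : (1000 : ℝ) ≤ √d := Real.le_sqrt_of_sq_le (by linarith)
      nlinarith [Real.mul_self_sqrt d0.le, Real.sqrt_nonneg d]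
    have a2 : T ≤ x / d := by
      rw [le_div_iff₀ d0]
      unfold lw at h
      nlinarith
    have a3 : T ^ 30 ≤ T / 3 := by
      have : T ^ 30 ≤ T ^ 3 := pow_le_pow_of_le_one hT.le (by linarith) (by norm_num)
      have : T ^ 2 ≤ 1 / 4 := by nlinarith
      nlinarith
    have a4 := (abs_le.1 (h2 x hx)).1
    refine ⟨(min_le_right _ _).trans (by linarith), ?_⟩
    have : d * (-(x / d) / 3) ≤ d * y x := mul_le_mul_of_nonneg_left (by linarith) d0.le
    nlinarith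

theorem NIniA_prof {d : ℝ} {y : ℝ → ℝ} (hd : 10 ^ 8 ≤ d) (hy : ContDiff ℝ ∞ y)
    (h0 : ∀ x, 1 / 4 ≤ x → y x = 0)
    (hΦ : ∀ x ∈ I, 0 < x / d + y x ∧ x ≤ 3 / 2 * d * (x / d + y x)) :
    Prof d ![y, deriv y, fun x => (1 - ch x) *
      (2 / (d * (d + 2) * (x / d + y x)) - 1) / (1 - x) ^ 2] := by
  have d0 : 0 < d := lt_of_lt_of_le (by norm_num) hd
  refine ⟨fun i => ?_, fun x hx => ⟨?_, ?_, ?_, ?_⟩, fun x hx => ?_⟩
  · fin_cases i
    · exact Sm.of_contDiff hy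
    · exact Sm.of_contDiff (contDiff_deriv hy)
    · intro x hx
      refine ContDiffAt.contDiffWithinAt ?_
      rcases lt_or_ge (1 / 2) x with h | h
      · refine (contDiffAt_const (c := (0 : ℝ))).congr_of_eventuallyEq ?_
        filter_upwards [Ioi_mem_nhds h] with z hz
        simp [ch_one (le_of_lt hz)]
      · have a1 : d * (d + 2) * (x / d + y x) ≠ 0 := by
          have := (hΦ x hx).1
          positivity
        have a2 : (1 - x) ^ 2 ≠ 0 := pow_ne_zero _ (by linarith)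
        exact ((contDiffAt_const.sub contDiff_ch.contDiffAt).mul
          ((contDiffAt_const.div (contDiffAt_const.mul
            ((contDiffAt_id.div_const d).add hy.contDiffAt)) a1).sub contDiffAt_const)).div
          ((contDiffAt_const.sub contDiffAt_id).pow 2) a2
  · change 0 < 1 - om x * ((1 - ch x) * (2 / (d * (d + 2) * (x / d + y x)) - 1) / (1 - x) ^ 2)
    rcases le_or_gt (1 / 2) x with h | h
    · simp [ch_one h]
    · obtain ⟨p1, p2⟩ := hΦ x hx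
      generalize x / d + y x = Φ at p1 p2
      have a0 : 0 < 1 - x := by linarith
      have a1 : x * (2 / (d * (d + 2) * Φ)) ≤ 1 / 4 := by
        rw [← mul_div_assoc, div_le_iff₀ (by positivity)]
        have : 0 < d * Φ := by positivity
        nlinarith
      have a2 : 0 ≤ x * (2 / (d * (d + 2) * Φ)) := mul_nonneg hx.1 (by positivity)
      generalize 2 / (d * (d + 2) * Φ) = u at a1 a2
      have e : om x * ((1 - ch x) * (u - 1) / (1 - x) ^ 2) =
          (1 - ch x) * (x * u - x) / (1 - x) := by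
        unfold om
        field_simp
      rw [e, sub_pos, div_lt_one a0]
      have b1 := ch_nonneg x
      have b2 := ch_le x
      nlinarith [mul_nonneg b1 a2, mul_nonneg (sub_nonneg.2 b2) hx.1]
  · rcases lt_or_ge x (1 / 4) with h | h
    · exact Or.inl h
    · right
      change 0 < Ps x (y x)
      simp only [Ps, h0 x h]
      linarith
  · rcases lt_or_ge (3 / 4) x with h | h
    · exact Or.inl h
    · right
      change 0 < Ph d x (y x)
      rcases le_or_gt x (1 / 4) with h' | h'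
      · simpa [Ph, ph0_left d h', gam_zero (by linarith : x ≤ 1 / 2)] using (hΦ x hx).1
      · simpa [Ph, h0 x h'.le] using ph0_pos d0 (by linarith) (by linarith)
  · change 0 < 1 + deriv gam x * y x
    rcases lt_or_ge x (1 / 2) with h | h
    · simp [(dgam_left h).1]
    · simp [h0 x (by linarith)]
  · exact (d1_eq' hx (hy.differentiable (by simp) x).hasDerivAt).symm

theorem NIniA_lip3 {d φ L x u v : ℝ} (hd : 1 ≤ d) (hφ : 0 < φ) (hu : φ ≤ u) (hv : φ ≤ v)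
    (h : |u - v| ≤ L) :
    |(1 - ch x) * (2 / (d * (d + 2) * u) - 1) / (1 - x) ^ 2 -
      (1 - ch x) * (2 / (d * (d + 2) * v) - 1) / (1 - x) ^ 2| ≤ 8 / φ ^ 2 * L := by
  have L0 := (abs_nonneg _).trans h
  rcases le_or_gt (1 / 2) x with hx | hx
  · simp only [ch_one hx, sub_self, zero_mul, zero_div, abs_zero]
    positivity
  · have u0 : 0 < u := hφ.trans_le hu
    have v0 : 0 < v := hφ.trans_le hv
    have a0 : 0 < 1 - x := by linarith
    have e : (1 - ch x) * (2 / (d * (d + 2) * u) - 1) / (1 - x) ^ 2 -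
        (1 - ch x) * (2 / (d * (d + 2) * v) - 1) / (1 - x) ^ 2 =
        (1 - ch x) * (2 / (d * (d + 2) * (1 - x) ^ 2 * (u * v))) * (v - u) := by
      field_simp
      ring
    have b1 : |1 - ch x| ≤ 1 := abs_le.2 ⟨by linarith [ch_le x], by linarith [ch_nonneg x]⟩
    have b2 : |2 / (d * (d + 2) * (1 - x) ^ 2 * (u * v))| ≤ 8 / φ ^ 2 := by
      rw [abs_of_pos (by positivity), div_le_div_iff₀ (by positivity) (by positivity)]
      have c1 : φ ^ 2 ≤ u * v := by rw [sq]; exact mul_le_mul hu hv hφ.le u0.le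
      have c2 : 1 / 4 ≤ (1 - x) ^ 2 := by nlinarith
      have c3 : 1 ≤ d * (d + 2) := by nlinarith
      have c4 : 1 * (1 / 4) * φ ^ 2 ≤ d * (d + 2) * (1 - x) ^ 2 * (u * v) := by gcongr
      linarith
    rw [e]
    have := NIniA_mul3 b1 b2 (c := v - u) (c' := L) (by rwa [abs_sub_comm])
    rwa [one_mul] at this

theorem iniA (hP : PolyStmt) (hL : LBasicStmt) : IniAStmt := by
  intro k hk x0 hx0
  have _ := hL
  obtain ⟨C, C0, hC⟩ := NIniA_quant k
  have hk' : (10 : ℝ) ^ 8 ≤ k := by exact_mod_cast hk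
  have k0 : (0 : ℝ) < k := lt_of_lt_of_le (by norm_num) hk'
  have hd : (10 : ℝ) ^ 8 ≤ 2 * k := by linarith
  have x00 := hx0.1
  refine ⟨min (min (1 / 2) ((x0 / 32) ^ 2)) (min ((1 / (4 * k)) ^ 2) (1 / (C * (2 * k) ^ 50))),
    by positivity, fun T hT => ?_⟩
  obtain ⟨T0, hT⟩ := hT
  simp only [le_min_iff] at hT
  obtain ⟨⟨t1, t2⟩, t3, t4⟩ := hT
  have s0 : 0 < √T := Real.sqrt_pos.2 T0
  have s1 : √T ≤ x0 / 32 := Real.sqrt_le_iff.2 ⟨by positivity, t2⟩
  have s2 : 2 * (2 * k) * T ≤ √T := by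
    have a1 : √T ≤ 1 / (4 * k) := Real.sqrt_le_iff.2 ⟨by positivity, t3⟩
    rw [le_div_iff₀ (by positivity)] at a1
    nlinarith [Real.mul_self_sqrt T0.le]
  have hρ : 0 < rho (2 * k) T := by unfold rho; positivity
  have s3 : rho (2 * k) T * (C * T⁻¹ ^ 5) ≤ T ^ 30 := by
    have e : rho (2 * k) T * (C * T⁻¹ ^ 5) = T ^ 30 * (T * (C * (2 * k) ^ 50)) := by
      unfold rho
      field_simp
    rw [le_div_iff₀ (by positivity)] at t4
    rw [e]
    exact mul_le_of_le_one_right (by positivity) t4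
  have small : ∀ α ∈ Ball (1 / 50), ∀ x ∈ I, |y0 k T α x| ≤ T ^ 30 ∧
      |deriv (y0 k T α) x| ≤ T ^ 30 ∧ |deriv (deriv (y0 k T α)) x| ≤ T ^ 30 := fun α hα x hx => by
    obtain ⟨a1, a2, a3⟩ := (hC T T0 (by linarith) x hx).1 α hα
    exact ⟨a1.trans s3, a2.trans s3, a3.trans s3⟩
  have hφ : ∀ α ∈ Ball (1 / 50), ∀ x ∈ I, min (2 * rho (2 * k) T) (T / 2) ≤
      x / (2 * k) + y0 k T α x ∧ x ≤ 3 / 2 * (2 * k) * (x / (2 * k) + y0 k T α x) :=
    fun α hα x hx => NIniA_phi hd T0 t1 hρ (NIniA_inn hP hk T0 s2 hα).1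
      (fun x hx => (small α hα x hx).1) hx
  have φ0 : 0 < min (2 * rho (2 * k) T) (T / 2) := by positivity
  refine ⟨fun α hα => ⟨NIniA_sm k T α, ?_, fun i x hx => ?_, small α hα,
    (NIniA_inn hP hk T0 s2 hα).1, (NIniA_inn hP hk T0 s2 hα).2, fun y hy => ?_⟩, ?_⟩
  · exact NIniA_prof hd (NIniA_sm k T α)
      (fun x hx => NIniA_zero k T0 α (by linarith [hx0.2]))
      fun x hx => ⟨φ0.trans_le (hφ α hα x hx).1, (hφ α hα x hx).2⟩
  · have a1 : 2 * √T < x := by linarith [hx.1]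
    have a2 := NIniA_zero k T0 α a1.le
    fin_cases i
    · exact a2
    · exact (deriv_of_affine (g := y0 k T α) (a := 0) (b := 0) isOpen_Ioi
        (fun z (hz : 2 * √T < z) => by simp [NIniA_zero k T0 α hz.le]) a1).1
    · have a3 : x ≠ 0 := by linarith
      change (1 - ch x) * (2 / (2 * k * (2 * k + 2) * (x / (2 * k) + y0 k T α x)) - 1) /
        (1 - x) ^ 2 = (1 - ch x) * (2 / ((2 * k + 2) * x) - 1) / (1 - x) ^ 2
      have e : 2 * (k : ℝ) * (2 * k + 2) * (x / (2 * k) + y0 k T α x) = (2 * k + 2) * x := by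
        rw [a2]; field_simp; ring
      rw [e]
  · have e1 : 4 * T * y / (4 * T) = y := by field_simp
    have e2 : 4 * T * y / √T = y / (1 / (4 * √T)) := by
      rw [div_eq_div_iff s0.ne' (by positivity)]
      field_simp
      rw [Real.sq_sqrt T0.le]
    rcases le_or_gt (4 * T * y) (x0 / 2) with h | h
    · rw [FF, NIniA_chi_one ((div_le_one x00).2 (by linarith)), one_mul, y0, e1, e2]
    · have : 2 ≤ 4 * T * y / √T := by
        rw [le_div_iff₀ s0]; linarith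
      rw [FF, y0, ← e2, NIniA_chi_zero this]
      simp
  · have hC' := fun x hx => (hC T T0 (by linarith) x hx).2
    have L0 : 0 ≤ rho (2 * k) T * (C * T⁻¹ ^ 5) := by positivity
    generalize rho (2 * k) T * (C * T⁻¹ ^ 5) = L at hC' L0
    generalize min (2 * rho (2 * k) T) (T / 2) = φ at hφ φ0
    refine ⟨L + 8 / φ ^ 2 * L, by positivity, fun α hα β hβ i x hx => ?_⟩
    obtain ⟨a1, a2⟩ := hC' x hx α β
    have b1 : 0 ≤ L * ‖α - β‖ := by positivity
    have b2 : 0 ≤ 8 / φ ^ 2 * (L * ‖α - β‖) := by positivity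
    have e : (L + 8 / φ ^ 2 * L) * ‖α - β‖ = L * ‖α - β‖ + 8 / φ ^ 2 * (L * ‖α - β‖) := by ring
    rw [e]
    fin_cases i
    · exact a1.trans (by linarith)
    · exact a2.trans (by linarith)
    · refine (NIniA_lip3 (L := L * ‖α - β‖) (by linarith) φ0 (hφ α hα x hx).1 (hφ β hβ x hx).1
        (by rwa [add_sub_add_left_eq_sub])).trans (by linarith)

end Vale.Agent.P244
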