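import Vale.Agent.P244.StmN

/-! P244: curvature of the initial data. -/

open Set Filter
open scoped ContDiff Topology

namespace Vale.Agent.P244

theorem NIniB_mul {c u K : ℝ} (h1 : -K ≤ c) (h2 : c ≤ K) : |c * u| ≤ K * |u| := by
  rw [abs_mul]; exact mul_le_mul_of_nonneg_right (abs_le.2 ⟨h1, h2⟩) (abs_nonneg _)

theorem NIniB_real {d Y a b W z e1 d2 d0 : ℝ} (hd : 100 ≤ d) (Y0 : 0 ≤ Y) (Y2 : Y ≤ 2)
    (hb : |b| ≤ 1) (z0 : 0 ≤ z) (z1 : z ≤ 1)
    (h1 : (d + 4) * e1 = -2 * ((d + 4) / (d + 2) * a) - 2 * ((d + 4) / d * ((d + 2 - Y) / (d + 2)) * b))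
    (h2 : -2 * d2 = W + 2 * b - 4 * (z * (Y * (1 + b)) / d * b) - 2 * (Y * b * e1) +
      4 * (z * (1 + b) * a) + 2 * ((1 - Y) * e1))
    (h0 : d0 = 2 * (Y * (1 + b) / (d + 2) * b) + 4 * (Y * (1 + b) / (d + 2) * (1 + b) * a) + 2 * b +
      4 * ((1 + b) * a) + 2 * e1 + 2 * d2) :
    |d0| ≤ 100 * (|a| + |b| + |W|) ∧ |d2| ≤ 100 * (|a| + |b| + |W|) ∧
      |(d + 4) * e1 + d0 + 2 * d2| ≤ 100 * (|a| + |b| + |W|) := by
  obtain ⟨b1, b2⟩ := abs_le.1 hb
  have hd0 : 0 < d := by linarith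
  have hd2 : 0 < d + 2 := by linarith
  have c1 : (d + 4) / (d + 2) ≤ 2 := by rw [div_le_iff₀ hd2]; linarith
  have c2 : (d + 4) / d ≤ 2 := by rw [div_le_iff₀ hd0]; linarith
  have c3 : (d + 2 - Y) / (d + 2) ≤ 1 := by rw [div_le_iff₀ hd2]; linarith
  have c3' : 0 ≤ (d + 2 - Y) / (d + 2) := div_nonneg (by linarith) hd2.le
  have c4 : (d + 4) / d * ((d + 2 - Y) / (d + 2)) ≤ 2 * 1 := mul_le_mul c2 c3 c3' (by norm_num)
  have c4' : 0 ≤ (d + 4) / d * ((d + 2 - Y) / (d + 2)) := by positivity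
  have c1' : 0 ≤ (d + 4) / (d + 2) := by positivity
  have X0 : 0 ≤ Y * (1 + b) := mul_nonneg Y0 (by linarith)
  have X1 : Y * (1 + b) ≤ 2 * 2 := mul_le_mul Y2 (by linarith) (by linarith) (by norm_num)
  have c5 : z * (Y * (1 + b)) ≤ 1 * (2 * 2) := mul_le_mul z1 X1 X0 (by norm_num)
  have c6 : z * (Y * (1 + b)) / d ≤ 1 := by rw [div_le_iff₀ hd0]; linarith
  have c6' : 0 ≤ z * (Y * (1 + b)) / d := by positivity
  have c7 : z * (1 + b) ≤ 1 * 2 := mul_le_mul z1 (by linarith) (by linarith) (by norm_num)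
  have c7' : 0 ≤ z * (1 + b) := mul_nonneg z0 (by linarith)
  have c8 : Y * (1 + b) / (d + 2) ≤ 1 := by rw [div_le_iff₀ hd2]; linarith
  have c8' : 0 ≤ Y * (1 + b) / (d + 2) := div_nonneg X0 hd2.le
  have c9 : Y * (1 + b) / (d + 2) * (1 + b) ≤ 1 * 2 :=
    mul_le_mul c8 (by linarith) (by linarith) (by norm_num)
  have c9' : 0 ≤ Y * (1 + b) / (d + 2) * (1 + b) := mul_nonneg c8' (by linarith)
  have c10 := abs_le.1 (NIniB_mul (u := b) (K := 2) (c := Y) (by linarith) Y2)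
  have p1 := abs_le.1 (NIniB_mul (u := a) (K := 2) (by linarith) c1)
  have p2 := abs_le.1 (NIniB_mul (u := b) (K := 2 * 1) (by linarith) c4)
  have p3 := abs_le.1 (NIniB_mul (u := b) (K := 1) (by linarith) c6)
  have p4 := abs_le.1 (NIniB_mul (u := e1) (K := 2) (c := Y * b) (by linarith) (by linarith))
  have p5 := abs_le.1 (NIniB_mul (u := a) (K := 1 * 2) (by linarith) c7)
  have p6 := abs_le.1 (NIniB_mul (u := e1) (K := 1) (c := 1 - Y) (by linarith) (by linarith))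
  have p7 := abs_le.1 (NIniB_mul (u := b) (K := 1) (by linarith) c8)
  have p8 := abs_le.1 (NIniB_mul (u := a) (K := 1 * 2) (by linarith) c9)
  have p9 := abs_le.1 (NIniB_mul (u := a) (K := 2) (c := 1 + b) (by linarith) (by linarith))
  have q1 : |(d + 4) * e1| ≤ 4 * |a| + 4 * |b| := abs_le.2 ⟨by linarith, by linarith⟩
  have q2 : 4 * |e1| ≤ 4 * |a| + 4 * |b| := by
    rw [abs_mul, abs_of_pos (by linarith : 0 < d + 4)] at q1
    nlinarith [abs_nonneg e1]
  have q3 := abs_le.1 q1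
  have n1 := abs_nonneg a
  have n2 := abs_nonneg W
  have n3 := le_abs_self b
  have n4 := neg_abs_le b
  have n5 := le_abs_self W
  have n6 := neg_abs_le W
  have n7 := le_abs_self e1
  have n8 := neg_abs_le e1
  refine ⟨abs_le.2 ⟨by linarith, by linarith⟩, abs_le.2 ⟨by linarith, by linarith⟩,
    abs_le.2 ⟨by linarith, by linarith⟩⟩

theorem iniCurv : IniCurvStmt := by
  intro d hd q hx hn hl hz hxF hV m hm
  have hF := hn.pos
  have hd0 : 0 < d := by linarith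
  have hd2 : 0 < d + 2 := by linarith
  have hy : q.2.1 0 = nF d q - q.1 / d := by unfold nF; ring
  have ez : nz q = 1 - 2 * q.1 / (d * (d + 2) * nF d q) := by
    have := hn.xl1
    rw [hn.l1, hl] at this
    rw [mul_div_assoc', mul_comm q.1] at this
    linarith
  have e1 : E1 d q = K1 q + d * L1 q + 2 * MM d q := rfl
  rw [hn.k1, hn.l1, hn.mm, hl, hz] at e1
  have e0 : D0 d q = d * K1 q + 2 * (E1 d q + D2 d q - L2 d q - (d + 1) * MM d q) - d * L1 q -
      2 * MM d q := by unfold D0 D2 E0 E1 E2; ring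
  rw [hn.k1, hn.l1, hn.l2, hn.a2, hn.mm, hl, hz] at e0
  have eR : Rs d q = (d + 4) * E1 d q + D0 d q + 2 * D2 d q := by unfold Rs D0 D2; ring
  have e2 := hn.d2
  have z1 : nz q ≤ 1 := by
    rw [ez]; have : 0 ≤ 2 * q.1 / (d * (d + 2) * nF d q) := by positivity
    linarith
  have key := NIniB_real (Y := q.1 / (d * nF d q)) (a := q.2.1 0 / (d * nF d q)) (b := d * q.2.1 1)
    (W := ZPh2 d q) (z := nz q) (e1 := nF d q * E1 d q) (d2 := nF d q * D2 d q)
    (d0 := nF d q * D0 d q) hd (by positivity) (by rw [div_le_iff₀ (by positivity)]; linarith) hV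
    hn.zpos.le z1
    (by rw [e1, ez, hy]; unfold nX nF1; field_simp; ring)
    (by rw [← mul_assoc, e2, hy]; unfold nX nF1; field_simp; ring)
    (by rw [e0, ez, hy]; unfold nX nF1; field_simp; ring)
  rw [abs_div, abs_of_pos (mul_pos hd0 hF), ← hm] at key
  rw [← abs_of_pos hF, ← abs_mul, ← abs_mul, ← abs_mul, eR]
  refine ⟨key.1, key.2.1, ?_⟩
  rw [show nF d q * ((d + 4) * E1 d q + D0 d q + 2 * D2 d q) =
    (d + 4) * (nF d q * E1 d q) + nF d q * D0 d q + 2 * (nF d q * D2 d q) by ring]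
  exact key.2.2

theorem NIniB_FW {d τ x F : ℝ} (hF : 0 < F) :
    F * Wf d τ x F = Real.exp (-(1 / 20) * Real.log F + 9 / 10 * Real.log (Gq d τ x)) := by
  rw [Wf]
  nth_rewrite 1 [← Real.exp_log hF]
  rw [← Real.exp_add]
  congr 1; ring

theorem NIniB_low {d T x F : ℝ} (hd : 1 ≤ d) (hT : 0 < T) (hT1 : T ≤ 1) (hF : 0 < F) (hF1 : F ≤ 1) :
    T ^ 2 ≤ F * Wf d T x F := by
  have h2 : 0 < T ^ 2 := by positivity
  have g1 : T ^ 2 ≤ Gq d T x := by
    unfold Gq; nlinarith [sq_nonneg (x - 2 * d * T), mul_le_mul_of_nonneg_right hd h2.le]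
  have l1 := Real.log_le_log h2 g1
  have l2 := Real.log_nonpos hF.le hF1
  have l3 := Real.log_nonpos h2.le (pow_le_one₀ hT.le hT1)
  rw [NIniB_FW hF, ← Real.exp_log h2]
  exact Real.exp_le_exp.2 (by linarith)

theorem NIniB_tip {d T x F y : ℝ} (hd : 800 ^ 5 ≤ d) (hT : 0 < T) (hy : 0 < y) (hyF : y ≤ F)
    (hy1 : y ≤ d ^ 52 * T ^ 36) (hx : x ≤ d * T) : 800 * (y / (d * F)) ≤ F * Wf d T x F := by
  have hd0 : 0 < d := lt_of_lt_of_le (by norm_num) hd
  have hF := hy.trans_le hyF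
  have h2 : 0 < (d * T) ^ 2 := by positivity
  have g1 : (d * T) ^ 2 ≤ Gq d T x := by
    have : (d * T) ^ 2 ≤ (2 * d * T - x) ^ 2 := pow_le_pow_left₀ (by positivity) (by linarith) 2
    have h3 : 0 ≤ 4000 * d * T ^ 2 := by positivity
    unfold Gq; nlinarith
  have l1 := Real.log_le_log h2 g1
  have l2 := Real.log_le_log hy hyF
  have l3 := Real.log_le_log hy hy1
  have l4 := Real.log_le_log (by norm_num) hd
  rw [Real.log_pow, Real.log_mul hd0.ne' hT.ne'] at l1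
  rw [Real.log_mul (by positivity) (by positivity), Real.log_pow, Real.log_pow] at l3
  rw [Real.log_pow] at l4
  rw [NIniB_FW hF, ← Real.exp_log (by positivity : 0 < 800 * (y / (d * F))),
    Real.log_mul (by norm_num) (by positivity), Real.log_div hy.ne' (by positivity),
    Real.log_mul hd0.ne' hF.ne']
  push_cast at l1 l3 l4
  exact Real.exp_le_exp.2 (by linarith)

theorem NIniB_z {k : ℕ} {T : ℝ} {α : V3} (hs : ContDiff ℝ ∞ (y0 k T α)) (hk : (0 : ℝ) < 2 * k)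
    {x : ℝ} (hx : x ∈ I) (hx' : x < 1 / 4) (hF : 0 < nF (2 * k) (pt (ini k T α) x)) :
    l0 (bs (pt (ini k T α) x)) = 2 / (2 * k * (2 * k + 2) * nF (2 * k) (pt (ini k T α) x)) ∧
    d1 (fun y => nz (pt (ini k T α) y)) x =
      -(2 * (1 - nX (2 * k) (pt (ini k T α) x)) /
        (2 * k * (2 * k + 2) * nF (2 * k) (pt (ini k T α) x))) := by
  have h0 : ∀ y : ℝ, y < 1 / 4 → (1 - y) ^ 2 * ini k T α 2 y =
      2 / (2 * k * (2 * k + 2) * (y / (2 * k) + y0 k T α y)) - 1 := fun y hy => by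
    have : 1 - y ≠ 0 := by linarith
    change (1 - y) ^ 2 * ((1 - ch y) * _ / (1 - y) ^ 2) = _
    rw [ch_zero hy.le]
    field_simp
    ring
  constructor
  · change 1 + (1 - x) ^ 2 * ini k T α 2 x = 2 / (_ * (x / (2 * k) + y0 k T α x))
    rw [h0 x hx']; ring
  · have e : (fun y => nz (pt (ini k T α) y)) =ᶠ[𝓝[I] x]
        fun y => 1 - y * (2 / (2 * k * (2 * k + 2) * (y / (2 * k) + y0 k T α y))) := by
      filter_upwards [nhdsWithin_le_nhds (Iio_mem_nhds hx')] with y hy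
      have := h0 y hy
      change (1 - y) * (1 - y * (1 - y) * ini k T α 2 y) = _
      linear_combination (-y) * this
    have hF' : 0 < x / (2 * k) + y0 k T α x := hF
    have h1 := (hs.differentiable (by simp) x).hasDerivAt
    have h2 := ((hasDerivAt_id x).mul ((hasDerivAt_const x (2 : ℝ)).div
      ((((hasDerivAt_id x).div_const (2 * (k : ℝ))).add h1).const_mul (2 * k * (2 * k + 2) : ℝ))
      (by simp only [id, Pi.add_apply]; positivity))).const_sub 1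
    rw [d1_congr_ev hx e]
    refine (d1_eq' hx h2).trans ?_
    change _ = -(2 * (1 - x * (1 / (2 * k) + deriv (y0 k T α) x) / (x / (2 * k) + y0 k T α x)) /
      (2 * k * (2 * k + 2) * (x / (2 * k) + y0 k T α x)))
    simp only [id, Pi.add_apply, Pi.div_apply]
    generalize x / (2 * k) + y0 k T α x = F at hF'
    field_simp
    ring

theorem NIniB_T {d T : ℝ} (d2 : 10 ^ 8 ≤ d) (h0 : 0 < T) (h1 : T ≤ 1 / (2000 * d)) :
    T ≤ 1 / 2000 ∧ T ^ 2 ≤ 1 / 2000 ∧ d * T ^ 30 ≤ T ^ 2 / 2000 ∧ T ^ 30 ≤ d * T ^ 30 ∧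
      T ^ 30 ≤ T / 4 ∧ T ^ 30 ≤ T ^ 3 := by
  have d0 : 1 ≤ d := le_trans (by norm_num) d2
  have T1 : d * T ≤ 1 / 2000 := by
    have := (le_div_iff₀ (by positivity)).1 h1
    linarith
  have T2 : T ≤ 1 / 2000 := by nlinarith
  have T3 : T ^ 29 ≤ T ^ 2 := pow_le_pow_of_le_one h0.le (by linarith) (by norm_num)
  have T4 : T ^ 2 ≤ 1 / 2000 := by nlinarith
  have T5 : d * T * T ^ 29 ≤ 1 / 2000 * T ^ 2 := mul_le_mul T1 T3 (by positivity) (by norm_num)
  have T6 : 1 * T ^ 30 ≤ d * T ^ 30 := mul_le_mul_of_nonneg_right d0 (by positivity)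
  have T7 : T ^ 29 * T ≤ 1 / 4 * T := mul_le_mul_of_nonneg_right (by linarith) h0.le
  exact ⟨T2, T4, by linarith [show d * T ^ 30 = d * T * T ^ 29 by ring], by linarith,
    by linarith [show T ^ 30 = T ^ 29 * T by ring],
    pow_le_pow_of_le_one h0.le (by linarith) (by norm_num)⟩

theorem NIniB_main {d T x y k : ℝ} (d1' : 800 ^ 5 ≤ d) (hk : 2 * k = d) (T0' : 0 < T)
    (h1 : T ≤ 1 / (2000 * d)) (x0 : 0 ≤ x) (x4 : x < 1 / 4) (hF : 0 < x / d + y) (s0 : |y| ≤ T ^ 30)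
    (hinn : x ≤ lw d T → 2 * rho d T ≤ y) (hup : x ≤ d * T → y ≤ d * √k * rho d T) :
    x ≤ 3 / 2 * d * (x / d + y) ∧ T ^ 2 ≤ (x / d + y) * Wf d T x (x / d + y) ∧
      800 * (|y| / (d * (x / d + y))) ≤ (x / d + y) * Wf d T x (x / d + y) ∧
      |y| / (d * (x / d + y)) ≤ 1 / 1000 := by
  have d2 : 10 ^ 8 ≤ d := le_trans (by norm_num) d1'
  have d3 : 2000 ≤ d := le_trans (by norm_num) d1'
  have d0 : 0 < d := by linarith
  obtain ⟨T2, -, -, -, T7, a6⟩ := NIniB_T d2 T0' h1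
  have xd : 0 ≤ x / d := div_nonneg x0 d0.le
  have xd1 : x / d ≤ 1 / 4 := by rw [div_le_iff₀ d0]; linarith
  have xd2 : d * (x / d) = x := by field_simp
  obtain ⟨s3, s4⟩ := abs_le.1 s0
  have w1 := NIniB_low (d := d) (x := x) (by linarith) T0' (by linarith) hF (by linarith)
  have fin : |y| ≤ x / d + y → |y| / (d * (x / d + y)) ≤ 1 / 1000 := fun m3 => by
    rw [div_le_iff₀ (mul_pos d0 hF)]
    have : 1000 * (x / d + y) ≤ d * (x / d + y) := mul_le_mul_of_nonneg_right (by linarith) hF.le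
    linarith
  rcases le_total x (d * T) with h | h
  · have a1 : √d ≤ d / 10000 := by
      have h1 : (10000 : ℝ) ≤ √d := Real.le_sqrt_of_sq_le (by linarith)
      nlinarith [Real.mul_self_sqrt d0.le]
    have a2 : x ≤ lw d T := by
      have := mul_le_mul_of_nonneg_right a1 T0'.le
      have := mul_pos d0 T0'
      unfold lw; linarith
    have a3 : 0 < rho d T := by unfold rho; positivity
    have a4 := hinn a2
    have a5 : 0 < y := by linarith
    have a6 : √k ≤ d := by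
      rw [Real.sqrt_le_iff]; exact ⟨d0.le, by nlinarith⟩
    have a7 : y ≤ d ^ 52 * T ^ 36 := by
      refine (hup h).trans ?_
      have : d * √k * rho d T ≤ d * d * rho d T :=
        mul_le_mul_of_nonneg_right (mul_le_mul_of_nonneg_left a6 d0.le) a3.le
      refine this.trans (le_of_eq ?_)
      unfold rho; ring
    have a8 := mul_pos d0 a5
    refine ⟨by linarith, w1, ?_, fin (by rw [abs_of_pos a5]; linarith)⟩
    rw [abs_of_pos a5]
    exact NIniB_tip d1' T0' a5 (by linarith) a7 h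
  · have a1 : T ≤ x / d := by rw [le_div_iff₀ d0]; linarith
    have a2 : T / 2 ≤ x / d + y := by linarith
    have a3 : d * (-(T / 4)) ≤ d * y := mul_le_mul_of_nonneg_left (by linarith) d0.le
    refine ⟨by linarith, w1, le_trans ?_ w1, fin (by linarith)⟩
    rw [← mul_div_assoc, div_le_iff₀ (mul_pos d0 hF)]
    have a4 : 1600 * (T / 2) ≤ d * (x / d + y) := mul_le_mul (by linarith) a2 (by linarith) d0.le
    have a5 := mul_le_mul_of_nonneg_left a4 (sq_nonneg T)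
    linarith

theorem NIniB_Z {k : ℕ} {T x0 : ℝ} {α : V3} (hI : IniA k x0 T α) {x : ℝ} (xI : x ∈ I)
    (x4 : x < 1 / 4) (hn : NearQ (2 * k) (pt (ini k T α) x)) (hdc : Dict (2 * k) (ini k T α) x)
    (z1 : l0 (bs (pt (ini k T α) x)) =
      2 / (2 * k * (2 * k + 2) * nF (2 * k) (pt (ini k T α) x))) :
    |ZPh2 (2 * k) (pt (ini k T α) x)| ≤ T ^ 30 := by
  have e1 : ∀ y ∈ I, d1 (y0 k T α) y = deriv (y0 k T α) y := fun y hy =>
    d1_eq' hy (hI.sm.differentiable (by simp) y).hasDerivAt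
  have e2 : d1 (d1 (y0 k T α)) x = deriv (deriv (y0 k T α)) x :=
    (d1_congr e1 xI).trans (d1_eq' xI ((contDiff_deriv hI.sm).differentiable (by simp) x).hasDerivAt)
  have e3 : nz (pt (ini k T α) x) ≤ 1 := by
    have := hn.xl1
    rw [hn.l1, z1] at this
    have h5 := hn.pos
    have h6 : 0 ≤ x * (2 / (2 * k * (2 * k + 2) * nF (2 * k) (pt (ini k T α) x))) :=
      mul_nonneg xI.1 (by positivity)
    change x * _ = _ at this
    linarith
  have e4 : nz (pt (ini k T α) x) * x ≤ 1 * (1 / 4) := mul_le_mul e3 x4.le xI.1 (by norm_num)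
  have e5 := mul_nonneg hn.zpos.le xI.1
  rw [hn.zph2, ← hdc.y2, hn.zz]
  change |4 * _ * x * d1 (d1 (y0 k T α)) x| ≤ _
  rw [e2]
  exact (NIniB_mul (K := 1) (by linarith) (by linarith)).trans (by linarith [(hI.small x xI).2.2])

theorem iniB (hN : NearQStmt) (hD : DictStmt) (hA : IniAStmt) (hC : IniCurvStmt) : IniBStmt := by
  refine ⟨10 ^ 15, fun k hk x0 hx0 => ?_⟩
  have hk' : (10 : ℝ) ^ 15 ≤ k := by exact_mod_cast hk
  obtain ⟨T0, hT0, hA'⟩ := hA k (le_trans (by norm_num) hk) x0 hx0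
  obtain ⟨d, hd⟩ : ∃ d : ℝ, 2 * k = d := ⟨_, rfl⟩
  have d1' : 800 ^ 5 ≤ d := by linarith [show (800 : ℝ) ^ 5 ≤ 10 ^ 15 by norm_num]
  have d2 : 10 ^ 8 ≤ d := le_trans (by norm_num) d1'
  have d0 : 0 < d := lt_of_lt_of_le (by norm_num) d2
  refine ⟨min T0 (1 / (2000 * d)), by positivity, fun T hT α hα x hx q hq => ?_⟩
  have hI := (hA' T ⟨hT.1, hT.2.trans (min_le_left _ _)⟩).1 α hα
  have T1 := hT.2.trans (min_le_right _ _)
  obtain ⟨-, T4, T5, T6, -⟩ := NIniB_T d2 hT.1 T1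
  have xI : x ∈ I := ⟨hx.1, by linarith [hx.2, hx0.2]⟩
  have x4 : x < 1 / 4 := by linarith [hx.2, hx0.2]
  have hn := hN _ (hd ▸ d0) (pt (ini k T α) x) (hI.prof.mem x xI) hx.1 x4
  have hdc := hD _ (hd ▸ d0) _ hI.prof x xI
  obtain ⟨z1, z2⟩ := NIniB_z hI.sm (hd ▸ d0) xI x4 hn.pos
  rw [hdc.z0] at z2
  have hZ := NIniB_Z hI xI x4 hn hdc z1
  obtain ⟨s0, s1, -⟩ := hI.small x xI
  subst hq
  have hinn := fun h => hI.inn x ⟨hx.1, h⟩
  have hup := fun h => hI.up x ⟨hx.1, h⟩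
  rw [hd] at hn z1 z2 hZ hinn hup ⊢
  have hV : |d * (pt (ini k T α) x).2.1 1| ≤ d * T ^ 30 := by
    rw [abs_mul, abs_of_pos d0]; exact mul_le_mul_of_nonneg_left s1 d0.le
  have hF := hn.pos
  obtain ⟨m1, w1, m2, m4⟩ : x ≤ 3 / 2 * d * nF d (pt (ini k T α) x) ∧
      T ^ 2 ≤ nF d (pt (ini k T α) x) * Wf d T x (nF d (pt (ini k T α) x)) ∧
      800 * (|(pt (ini k T α) x).2.1 0| / (d * nF d (pt (ini k T α) x))) ≤
        nF d (pt (ini k T α) x) * Wf d T x (nF d (pt (ini k T α) x)) ∧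
      |(pt (ini k T α) x).2.1 0| / (d * nF d (pt (ini k T α) x)) ≤ 1 / 1000 :=
    NIniB_main d1' hd hT.1 T1 hx.1 x4 hF s0 hinn hup
  have dF := mul_pos d0 hF
  obtain ⟨c0, c2, cR⟩ := hC d (le_trans (by norm_num) d2) _ hx.1 hn z1 z2
    (by change x ≤ _; linarith) (by linarith) _ rfl
  have T8 : 0 < T ^ 2 := pow_pos hT.1 2
  exact ⟨m1, lt_of_mul_lt_mul_left (a := nF d (pt (ini k T α) x)) (by linarith) hF.le,
    lt_of_mul_lt_mul_left (a := nF d (pt (ini k T α) x)) (by linarith) hF.le, by linarith⟩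

end Vale.Agent.P244
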