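import Vale.Agent.P244.StmN

/-! P244: the lower bounds for the zero order coefficient of the barrier equation. -/

namespace Vale.Agent.P244

theorem NLam_et {d : ℝ} (hd : (10 : ℝ) ^ 12 ≤ d) : 30 * et d ≤ 1 / 100 := by
  have h1 : (10 : ℝ) ^ 6 ≤ √d := Real.le_sqrt_of_sq_le (by linarith)
  have h2 : 1 / √d ≤ 1 / 10 ^ 6 := one_div_le_one_div_of_le (by positivity) h1
  unfold et
  linarith

theorem NLam_low {d τ x Φ z ξ : ℝ} (hd : 0 < d) (hτ : 0 < τ) (hx : 0 ≤ x) (hΦ : 0 < Φ)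
    (hz : |z - 1| ≤ 1 / 100) (hξ : |ξ - 1| ≤ 1 / 100) (hxΦ : x ≤ 2 * d * Φ) :
    21 / 10 - (7200 * τ * (d * Φ) + 8 * (Φ * (x + |x - 2 * d * τ|)) +
      16 * (x / d * |x - 2 * d * τ|)) / Gq d τ x - 10 / d ≤ LamF d τ x Φ z ξ := by
  have hG : 0 < Gq d τ x := by unfold Gq; positivity
  obtain ⟨hz1, hz2⟩ := abs_le.1 hz
  obtain ⟨hξ1, hξ2⟩ := abs_le.1 hξ
  unfold LamF
  set G := Gq d τ x
  set u := x - 2 * d * τ
  have hua : u ≤ |u| := le_abs_self u
  have hua' : -|u| ≤ u := neg_abs_le u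
  have ha : 0 ≤ |u| := abs_nonneg u
  have hz0 : 0 ≤ z := by linarith
  have hξ0 : 0 ≤ ξ := by linarith
  have e1 : 4 * z * x * Φ * (9 / 10 * (2 * u / G) ^ 2 -
      (-(21 / 20) * (ξ / d) / Φ + 9 / 10 * (2 * u / G)) ^ 2) =
      4 * z * x * Φ * (9 / 100 * (2 * u / G) ^ 2) + 378 / 25 * (z * ξ) * (x / d * u) / G -
        441 / 100 * (z * ξ ^ 2) * (x / (d * Φ)) / d := by
    field_simp
    ring
  have h1 : 0 ≤ 4 * z * x * Φ * (9 / 100 * (2 * u / G) ^ 2) := by positivity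
  have hxd : 0 ≤ x / d := by positivity
  have hzξ : z * ξ ≤ 103 / 100 := by nlinarith
  have hzξ0 : 0 ≤ z * ξ := by positivity
  have h2 : -(16 * (x / d * |u|)) ≤ 378 / 25 * (z * ξ) * (x / d * u) := by
    have h3 : -(x / d * |u|) ≤ x / d * u := by
      have := mul_le_mul_of_nonneg_left hua' hxd
      linarith
    have h4 : 0 ≤ x / d * |u| := by positivity
    nlinarith
  have h3 : 441 / 100 * (z * ξ ^ 2) * (x / (d * Φ)) ≤ 10 := by
    have h4 : x / (d * Φ) ≤ 2 := by rw [div_le_iff₀ (by positivity)]; linarith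
    have h5 : z * ξ ^ 2 ≤ 11 / 10 := by nlinarith
    have h6 : 0 ≤ x / (d * Φ) := by positivity
    nlinarith
  have h4 : 9 / 10 * Φ * (8000 * d * τ + 8 * z * x + 8 * z * u) ≤
      7200 * τ * (d * Φ) + 8 * (Φ * (x + |u|)) := by
    have h5 : z * (x + u) ≤ 101 / 100 * (x + |u|) := by nlinarith
    have h6 := mul_le_mul_of_nonneg_left h5 hΦ.le
    have h7 : 0 ≤ Φ * (x + |u|) := by positivity
    nlinarith
  have h5 := div_le_div_of_nonneg_right h2 hG.le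
  have h6 := div_le_div_of_nonneg_right h3 hd.le
  have h7 := div_le_div_of_nonneg_right h4 hG.le
  rw [e1, add_div _ _ G]
  rw [neg_div] at h5
  linarith

theorem NLam_out {d τ x Φ a : ℝ} (hd : (10 : ℝ) ^ 12 ≤ d) (hτ : 0 < τ) (hΦ : 0 < Φ) (ha : 0 ≤ a)
    (hxa : x ≤ 2 * d * τ + a) (h1 : Φ ≤ 11 / 10 * x / d + τ / 10)
    (h2 : 10 ^ 6 * d * τ ^ 2 ≤ a ^ 2) :
    7200 * τ * (d * Φ) + 8 * (Φ * (x + a)) + 16 * (x / d * a) ≤ 1 / 20 * a ^ 2 := by
  have hd0 : 0 < d := lt_of_lt_of_le (by positivity) hd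
  have h3 : 10 ^ 9 * τ ≤ a := by
    refine (pow_le_pow_iff_left₀ (by positivity) ha two_ne_zero).1 ?_
    nlinarith [mul_le_mul_of_nonneg_right hd (sq_nonneg τ)]
  have h4 : a / d ≤ a / 10 ^ 12 := div_le_div_of_nonneg_left ha (by positivity) hd
  have h5 : x / d ≤ 2 * τ + a / d := by
    have := div_le_div_of_nonneg_right hxa hd0.le
    rwa [add_div, show 2 * d * τ / d = 2 * τ by field_simp] at this
  have h6 : x / d ≤ a / 10 ^ 8 := by linarith
  have h7 : Φ ≤ a / 10 ^ 7 := by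
    rw [mul_div_assoc] at h1
    linarith
  have h8 : d * Φ ≤ 23 / 10 * (d * τ) + 11 / 10 * a := by
    have := mul_le_mul_of_nonneg_left h1 hd0.le
    rw [mul_add, show d * (11 / 10 * x / d) = 11 / 10 * x by field_simp] at this
    linarith
  have h9 : τ * (d * Φ) ≤ 23 / 10 * (d * τ ^ 2) + 11 / 10 * (τ * a) := by
    have := mul_le_mul_of_nonneg_left h8 hτ.le
    linarith
  have h10 : τ * a ≤ a ^ 2 / 10 ^ 9 := by
    have := mul_le_mul_of_nonneg_right h3 ha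
    linarith
  have h11 : Φ * (x + a) ≤ 2 * (τ * (d * Φ)) + 2 * (Φ * a) := by
    have := mul_le_mul_of_nonneg_left hxa hΦ.le
    linarith
  have h12 : Φ * a ≤ a ^ 2 / 10 ^ 7 := by
    have := mul_le_mul_of_nonneg_right h7 ha
    linarith
  have h13 : x / d * a ≤ a ^ 2 / 10 ^ 8 := by
    have := mul_le_mul_of_nonneg_right h6 ha
    linarith
  have h14 : 0 ≤ a ^ 2 := sq_nonneg a
  linarith

theorem NLam_in {d τ x Φ a : ℝ} (hd : (10 : ℝ) ^ 12 ≤ d) (hτ : 0 < τ) (hx : 0 ≤ x)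
    (ha : 0 ≤ a) (hxa : x ≤ 2 * d * τ + a) (h1 : Φ ≤ x / d + τ / 100)
    (h2 : a ^ 2 ≤ 10 ^ 6 * d * τ ^ 2) :
    7200 * τ * (d * Φ) + 8 * (Φ * (x + a)) + 16 * (x / d * a) ≤
      73 / 20 * (4000 * d * τ ^ 2) := by
  have hd0 : 0 < d := lt_of_lt_of_le (by positivity) hd
  have h3 : a ≤ d * τ / 1000 := by
    refine (pow_le_pow_iff_left₀ ha (by positivity) two_ne_zero).1 ?_
    have h0 : 0 ≤ d * τ ^ 2 := by positivity
    nlinarith [mul_le_mul_of_nonneg_right hd h0]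
  have h5 : x / d ≤ 2001 / 1000 * τ := by
    rw [div_le_iff₀ hd0]
    linarith
  have h7 : Φ ≤ 2011 / 1000 * τ := by linarith
  have hdτ : 0 ≤ d * τ := by positivity
  have h8 : τ * (d * Φ) ≤ 2011 / 1000 * (d * τ ^ 2) := by
    have := mul_le_mul_of_nonneg_left h7 hdτ
    linarith
  have h9 : Φ * (x + a) ≤ 2011 / 1000 * τ * (3 * (d * τ)) :=
    mul_le_mul h7 (by linarith) (by positivity) (by positivity)
  have h10 : x / d * a ≤ 2001 / 1000 * τ * (d * τ / 1000) :=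
    mul_le_mul h5 h3 ha (by positivity)
  have h11 : 0 ≤ d * τ ^ 2 := by positivity
  linarith

theorem lam : LamStmt := by
  refine ⟨10 ^ 12, fun d hd τ x Φ z ξ hτ hx hΦ hz hξ hxΦ hΦx => ?_⟩
  have hd0 : 0 < d := lt_of_lt_of_le (by positivity) hd
  have hG : 0 < Gq d τ x := by unfold Gq; positivity
  have hlow := NLam_low hd0 hτ hx hΦ (hz.trans (NLam_et hd)) (hξ.trans (NLam_et hd)) hxΦ
  have hxa : x ≤ 2 * d * τ + |x - 2 * d * τ| := by linarith [le_abs_self (x - 2 * d * τ)]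
  have h10 : 10 / d ≤ 10 / 10 ^ 12 := div_le_div_of_nonneg_left (by norm_num) (by positivity) hd
  refine ⟨fun h => ?_, fun h h' => ?_⟩
  · have h1 := NLam_out hd hτ hΦ (abs_nonneg _) hxa hΦx (by rwa [sq_abs])
    have h2 : |x - 2 * d * τ| ^ 2 ≤ Gq d τ x := by
      rw [sq_abs]; unfold Gq
      have : 0 ≤ 4000 * d * τ ^ 2 := by positivity
      linarith
    have h3 := (div_le_iff₀ hG).2 (h1.trans (mul_le_mul_of_nonneg_left h2 (by norm_num)))
    linarith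
  · have h1 := NLam_in (Φ := Φ) hd hτ hx (abs_nonneg _) hxa (by linarith [(abs_le.1 h').2])
      (by rwa [sq_abs])
    have h2 : 4000 * d * τ ^ 2 ≤ Gq d τ x := by
      unfold Gq
      linarith [sq_nonneg (x - 2 * d * τ)]
    have h3 := (div_le_iff₀ hG).2 (h1.trans (mul_le_mul_of_nonneg_left h2 (by norm_num)))
    linarith

end Vale.Agent.P244
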