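import Vale.Agent.P244.StmN

/-! P244: the differential inequalities for the modes. -/

open Set Filter MeasureTheory
open scoped ContDiff Topology

namespace Vale.Agent.P244

theorem NMode_ip_lin (hL : LBasicStmt) {k : ℕ} (hk : 1 ≤ k) {A B C H : ℝ → ℝ} (hA : Bd A)
    (hB : Bd B) (hH : Bd H) {τ : ℝ} (e : ∀ y, C y = (A y + B y) / τ) :
    ip k C H = (ip k A H + ip k B H) / τ := by
  unfold ip
  rw [← integral_add (hL.int k hk _ (hL.mul _ _ hA hH)) (hL.int k hk _ (hL.mul _ _ hB hH)),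
    ← integral_div]
  refine setIntegral_congr_fun measurableSet_Ioi fun y _ => ?_
  simp only [e]
  ring

theorem NMode_ip_comm (k : ℕ) (A B : ℝ → ℝ) : ip k A B = ip k B A := by
  unfold ip
  simp only [mul_comm]

theorem NMode_abs (hL : LBasicStmt) (hG : GapStmt) {k : ℕ} (hk : 2 ≤ k) {T t ε b : ℝ}
    {F : Fn} {W : ℝ → ℝ} {J : Set ℝ} (ht : t < T) (hc : Cs (F t)) (hW : Bd W)
    (ha : ∀ j, HasDerivWithinAt (fun s => am k (F s) j) (ip k W (ee k j)) J t)
    (hq : HasDerivWithinAt (fun s => Qm k (F s)) (-2 * ip k (LL k (F t)) W) J t)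
    (hP : ip k (fun y => (T - t) * W y - LL k (F t) y) (fun y => (T - t) * W y - LL k (F t) y) ≤
      ε * (Lam k (F t) + ∑ j, am k (F t) j ^ 2 + b ^ 2)) :
    CH T ε b (fun s => am k (F s)) (fun s => SS k (F s)) J t := by
  have hk1 : 1 ≤ k := by omega
  have hτ : 0 < T - t := sub_pos.2 ht
  have g := hG k hk _ hc
  have hLL := (hL.cs k _ hc).2.2.2
  set P : ℝ → ℝ := fun y => (T - t) * W y - LL k (F t) y with hPd
  have hPb : Bd P := by
    have := hL.lin _ _ (T - t) (-1) hW hLL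
    simpa only [neg_one_mul, ← sub_eq_add_neg] using this
  have e : ∀ y, W y = (LL k (F t) y + P y) / (T - t) := by
    intro y
    simp only [hPd]
    field_simp
    ring
  have ha' : ∀ j, HasDerivWithinAt (fun s => am k (F s) j)
      ((-((j : ℕ) : ℝ) * am k (F t) j + ip k P (ee k j)) / (T - t)) J t := by
    intro j
    have := ha j
    rwa [NMode_ip_lin hL hk1 hLL hPb (hL.ee_bd k j).2.1 e, g.eig] at this
  refine ⟨Lam k (F t), ip k P P,
    -2 * (ip k (LL k (F t)) P + ∑ j : Fin 4, (j : ℕ) * am k (F t) j * ip k P (ee k j)),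
    fun j => ip k P (ee k j), ha', ?_, by linarith [g.gap, g.nonneg], g.gap2, g.bessel P hPb,
    by nlinarith [g.cross P hPb], hP⟩
  have h1 : ip k (LL k (F t)) W = (ip k (LL k (F t)) (LL k (F t)) + ip k (LL k (F t)) P) /
      (T - t) := by
    rw [NMode_ip_comm, NMode_ip_lin hL hk1 hLL hPb hLL e, NMode_ip_comm k P]
  have h2 := hq.sub (HasDerivWithinAt.fun_sum (u := Finset.univ) fun j _ =>
    ((ha' j).pow 2).const_mul ((j : ℕ) : ℝ))
  refine HasDerivWithinAt.congr_deriv h2 ?_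
  rw [h1]
  simp only [Lam, Fin.sum_univ_four]
  field_simp
  ring

theorem NMode_alg {τ y k c c1 c2 u V u2 z X η M : ℝ} (hτ : 0 < τ) (hy : 0 < y)
    (hz : |z - 1| ≤ η) (h0 : 0 ≤ z * X) (h3 : z * X ≤ 3)
    (hE : |4 * z * (4 * τ * y) * (2 * c1 * V + c2 * u) + (2 * (2 * k) - 4 * z * X) * c1 * u| ≤ M) :
    |τ * (c1 * (-4 * y) * u + c * (4 * z * (4 * τ * y) * u2 + (2 * (2 * k) - 4 * z * X) * V +
        4 * z * X / (4 * τ * y) * u + V * (-4 * y))) -
      (y * (16 * τ ^ 2 * (c2 * u + 2 * c1 * V + c * u2)) + (k - y) * (4 * τ * (c1 * u + c * V)))| ≤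
      η * (y * |16 * τ ^ 2 * (c2 * u + 2 * c1 * V + c * u2)|) +
        3 * (|4 * τ * (c1 * u + c * V)| + |c * u| / y) + M * τ := by
  set F2 := 16 * τ ^ 2 * (c2 * u + 2 * c1 * V + c * u2) with e2
  set F1 := 4 * τ * (c1 * u + c * V) with e1
  set E := 4 * z * (4 * τ * y) * (2 * c1 * V + c2 * u) + (2 * (2 * k) - 4 * z * X) * c1 * u with eE
  have e : τ * (c1 * (-4 * y) * u + c * (4 * z * (4 * τ * y) * u2 +
      (2 * (2 * k) - 4 * z * X) * V + 4 * z * X / (4 * τ * y) * u + V * (-4 * y))) -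
      (y * F2 + (k - y) * F1) = (z - 1) * (y * F2) - z * X * F1 + z * X * (c * u / y) - E * τ := by
    rw [e2, e1, eE]
    field_simp
    ring
  rw [e]
  have b1 : |(z - 1) * (y * F2)| ≤ η * (y * |F2|) := by
    rw [abs_mul, abs_mul, abs_of_pos hy]
    exact mul_le_mul_of_nonneg_right hz (by positivity)
  have b2 : |z * X * F1| ≤ 3 * |F1| := by
    rw [abs_mul, abs_of_nonneg h0]
    exact mul_le_mul_of_nonneg_right h3 (abs_nonneg _)
  have b3 : |z * X * (c * u / y)| ≤ 3 * (|c * u| / y) := by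
    rw [abs_mul, abs_of_nonneg h0, abs_div, abs_of_pos hy]
    exact mul_le_mul_of_nonneg_right h3 (by positivity)
  have b4 : |E * τ| ≤ M * τ := by
    rw [abs_mul, abs_of_pos hτ]
    exact mul_le_mul_of_nonneg_right hE hτ.le
  rw [abs_le] at b1 b2 b3 b4 ⊢
  constructor <;> linarith [b1.1, b1.2, b2.1, b2.2, b3.1, b3.2, b4.1, b4.2]

/-- The cutoff. -/
noncomputable def NMode_c (x0 x : ℝ) : ℝ := chi (2 * x / x0)

theorem NMode_c_sm (x0 : ℝ) : ContDiff ℝ ∞ (NMode_c x0) := by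
  unfold NMode_c chi
  exact contDiff_const.sub (Real.smoothTransition.contDiff.comp (by fun_prop))

theorem NMode_c_left {x0 x : ℝ} (h0 : 0 < x0) (hx : x < x0 / 2) :
    deriv (NMode_c x0) x = 0 ∧ deriv (deriv (NMode_c x0)) x = 0 := by
  refine deriv_of_affine (a := 1) isOpen_Iio (fun y (hy : y < x0 / 2) => ?_) hx
  have : 2 * y / x0 - 1 ≤ 0 := by
    rw [sub_nonpos, div_le_one h0]
    linarith
  simp [NMode_c, chi, Real.smoothTransition.zero_of_nonpos this]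

theorem NMode_c_right {x0 x : ℝ} (h0 : 0 < x0) (hx : x0 ≤ x) : NMode_c x0 x = 0 := by
  have : 1 ≤ 2 * x / x0 - 1 := by
    rw [le_sub_iff_add_le, le_div_iff₀ h0]
    linarith
  simp [NMode_c, chi, Real.smoothTransition.one_of_one_le this]

theorem NMode_c_bd (x0 : ℝ) : ∃ M, 0 ≤ M ∧ ∀ x ∈ I, |deriv (NMode_c x0) x| ≤ M ∧
    |deriv (deriv (NMode_c x0)) x| ≤ M := by
  have h1 := contDiff_deriv (NMode_c_sm x0)
  have h2 := contDiff_deriv h1
  obtain ⟨A, hA⟩ := isCompact_Icc.exists_bound_of_continuousOn (s := I) h1.continuous.continuousOn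
  obtain ⟨B, hB⟩ := isCompact_Icc.exists_bound_of_continuousOn (s := I) h2.continuous.continuousOn
  refine ⟨|A| + |B|, by positivity, fun x hx => ⟨?_, ?_⟩⟩
  · linarith [hA x hx, le_abs_self A, abs_nonneg B, Real.norm_eq_abs (deriv (NMode_c x0) x)]
  · linarith [hB x hx, le_abs_self B, abs_nonneg A,
      Real.norm_eq_abs (deriv (deriv (NMode_c x0)) x)]

theorem NMode_has {g : ℝ → ℝ} (h : ContDiff ℝ ∞ g) (x : ℝ) : HasDerivAt g (deriv g x) x :=
  (h.differentiable inf_ne_zero x).hasDerivAt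

theorem NMode_d1 {x0 τ y : ℝ} {g : ℝ → ℝ} (hg : Sm g) (hx : 4 * τ * y ∈ Ioo (0 : ℝ) 1) :
    HasDerivAt (FF x0 τ g) (4 * τ * (deriv (NMode_c x0) (4 * τ * y) * g (4 * τ * y) +
      NMode_c x0 (4 * τ * y) * d1 g (4 * τ * y))) y := by
  have h0 : HasDerivAt (fun y => 4 * τ * y) (4 * τ) y := by
    simpa using (hasDerivAt_id y).const_mul (4 * τ)
  have h := ((NMode_has (NMode_c_sm x0) _).mul (hg.has hx)).comp y h0
  exact h.congr_deriv (mul_comm _ _)

theorem NMode_d2 {x0 τ y : ℝ} {g : ℝ → ℝ} (hg : Sm g) (hx : 4 * τ * y ∈ Ioo (0 : ℝ) 1) :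
    deriv (deriv (FF x0 τ g)) y = 16 * τ ^ 2 * (deriv (deriv (NMode_c x0)) (4 * τ * y) *
      g (4 * τ * y) + 2 * deriv (NMode_c x0) (4 * τ * y) * d1 g (4 * τ * y) +
      NMode_c x0 (4 * τ * y) * d1 (d1 g) (4 * τ * y)) := by
  have h0 : HasDerivAt (fun y => 4 * τ * y) (4 * τ) y := by
    simpa using (hasDerivAt_id y).const_mul (4 * τ)
  have e : deriv (FF x0 τ g) =ᶠ[𝓝 y] fun y => 4 * τ * (deriv (NMode_c x0) (4 * τ * y) *
      g (4 * τ * y) + NMode_c x0 (4 * τ * y) * d1 g (4 * τ * y)) := by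
    filter_upwards [h0.continuousAt.preimage_mem_nhds (isOpen_Ioo.mem_nhds hx)] with s hs
    exact (NMode_d1 hg hs).deriv
  rw [e.deriv_eq]
  have h := ((((NMode_has (contDiff_deriv (NMode_c_sm x0)) _).mul (hg.has hx)).add
    ((NMode_has (NMode_c_sm x0) _).mul (hg.d1.has hx))).comp y h0).const_mul (4 * τ)
  refine (HasDerivAt.deriv h).trans ?_
  ring

theorem NMode_dt {x0 T t2 t y : ℝ} {u : Fn} (hu : JS t2 u) (h2 : 0 < t2) (ht : t ∈ Icc 0 t2)
    (hx : 4 * (T - t) * y ∈ Ioo (0 : ℝ) 1) :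
    dt t2 (fun s => FF x0 (T - s) (u s)) t y =
      deriv (NMode_c x0) (4 * (T - t) * y) * (-4 * y) * u t (4 * (T - t) * y) +
      NMode_c x0 (4 * (T - t) * y) * (dt t2 u t (4 * (T - t) * y) +
        dx u t (4 * (T - t) * y) * (-4 * y)) := by
  have hI : 4 * (T - t) * y ∈ I := Ioo_subset_Icc_self hx
  have h0 : HasDerivAt (fun s => 4 * (T - s) * y) (-4 * y) t := by
    have := (((hasDerivAt_id t).const_sub T).const_mul 4).mul_const y
    exact this.congr_deriv (by ring)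
  have h1 : HasDerivWithinAt (fun s : ℝ => (s, 4 * (T - s) * y)) ((1 : ℝ), -4 * y) (Icc 0 t2) t :=
    ((hasDerivAt_id t).prodMk h0).hasDerivWithinAt
  have hm : Icc 0 t2 ∩ (fun s => 4 * (T - s) * y) ⁻¹' I ∈ 𝓝[Icc 0 t2] t :=
    inter_mem_nhdsWithin _ (h0.continuousAt.preimage_mem_nhds (I_nhds hx))
  have h3 := (HasFDerivWithinAt.comp_hasDerivWithinAt (f := fun s : ℝ => (s, 4 * (T - s) * y)) t
    (hu.hasF ht hI) (h1.mono inter_subset_left)
    fun s hs => show (s, 4 * (T - s) * y) ∈ Icc 0 t2 ×ˢ I from ⟨hs.1, hs.2⟩).mono_of_mem_nhdsWithin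
    hm
  have h4 : ((1 : ℝ), -4 * y) = ((1 : ℝ), (0 : ℝ)) + (-4 * y) • ((0 : ℝ), (1 : ℝ)) := by simp
  rw [h4, map_add, map_smul, ← hu.dt_eq h2 ht hI, ← hu.dx_eq ht hI] at h3
  have h5 := ((NMode_has (NMode_c_sm x0) _).comp t h0).hasDerivWithinAt.mul h3
  refine (dt_eq h2 ht h5).trans ?_
  simp only [Function.comp, smul_eq_mul]
  ring

theorem NMode_zero {x0 T t2 t y : ℝ} {u : Fn} (h0 : 0 < x0) (h2 : 0 < t2) (ht : t ∈ Icc 0 t2)
    (hx : x0 < 4 * (T - t) * y) (k : ℕ) :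
    dt t2 (fun s => FF x0 (T - s) (u s)) t y = 0 ∧ LL k (FF x0 (T - t) (u t)) y = 0 := by
  constructor
  · have e : (fun s => FF x0 (T - s) (u s) y) =ᶠ[𝓝 t] fun _ => 0 := by
      have hc : Continuous fun s => 4 * (T - s) * y := by fun_prop
      filter_upwards [hc.continuousAt.preimage_mem_nhds (Ioi_mem_nhds hx)] with s hs
      exact mul_eq_zero_of_left (NMode_c_right h0 (le_of_lt hs)) _
    exact dt_eq h2 ht ((hasDerivAt_const t (0 : ℝ)).congr_of_eventuallyEq e).hasDerivWithinAt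
  · have hc : Continuous fun s => 4 * (T - t) * s := by fun_prop
    have := deriv_of_affine (g := FF x0 (T - t) (u t)) (a := 0) (b := 0)
      (isOpen_Ioi.preimage hc) (fun s (hs : x0 < 4 * (T - t) * s) => by
        rw [zero_mul, add_zero]
        exact mul_eq_zero_of_left (NMode_c_right h0 hs.le) _) (x := y) hx
    simp [LL, this.1, this.2]

theorem NMode_et {d : ℝ} (hd : 90000 ≤ d) : 30 * et d ≤ 1 / 10 ∧ 0 ≤ et d ∧ et d ^ 2 = 1 / d := by
  have h1 : 300 ≤ √d := Real.le_sqrt_of_sq_le (by linarith)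
  refine ⟨?_, by unfold et; positivity, ?_⟩
  · unfold et
    rw [mul_one_div, div_le_iff₀ (by linarith)]
    linarith
  · unfold et
    rw [div_pow, Real.sq_sqrt (by linarith), one_pow]

theorem NMode_X {d : ℝ} (hd : 90000 ≤ d) {q : Q} (h : GeoQ d q) (hx : 0 < q.1) :
    0 ≤ nz q * nX d q ∧ nz q * nX d q ≤ 3 ∧ |q.2.1 1| ≤ 1 ∧ 0 ≤ nz q ∧ nz q ≤ 2 ∧
      0 < nF d q := by
  have he := (NMode_et hd).1
  have hd0 : 0 < d := by linarith
  have hF : 0 < nF d q := by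
    have := hx.trans_le h.x
    exact (mul_pos_iff_of_pos_left (by linarith)).1 this
  have h1 := abs_le.1 (h.xi.trans he)
  have h2 := abs_le.1 (h.z.trans he)
  have e : nX d q = q.1 / (d * nF d q) * (1 + d * q.2.1 1) := by
    unfold nX nF1
    field_simp
  have h3 : q.1 / (d * nF d q) ≤ 2 := by
    rw [div_le_iff₀ (by positivity)]
    linarith [h.x]
  have h4 : 0 ≤ q.1 / (d * nF d q) := by positivity
  have h5 : 0 ≤ nX d q := by
    rw [e]
    exact mul_nonneg h4 (by linarith)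
  have h6 : nX d q ≤ 22 / 10 := by
    rw [e]
    nlinarith
  refine ⟨mul_nonneg (by linarith) h5, by nlinarith, ?_, by linarith, by linarith, hF⟩
  rw [abs_le]
  constructor <;> nlinarith

theorem NMode_E {z x c1 c2 V u d w M δ : ℝ} (hz0 : 0 ≤ z) (hz : z ≤ 2) (hx0 : 0 ≤ x) (hx : x ≤ 1)
    (h1 : |c1| ≤ M) (h2 : |c2| ≤ M) (hV : |V| ≤ 1) (hu : |u| ≤ δ) (hd : 0 ≤ d) (hw0 : 0 ≤ w)
    (hw : w ≤ 3) :
    |4 * z * x * (2 * c1 * V + c2 * u) + (2 * d - 4 * w) * c1 * u| ≤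
      8 * (2 * M + M * |δ|) + (2 * d + 12) * M * |δ| := by
  have hM : 0 ≤ M := (abs_nonneg _).trans h1
  have hu' := hu.trans (le_abs_self δ)
  have a1 : |2 * c1 * V + c2 * u| ≤ 2 * M + M * |δ| := by
    refine (abs_add_le _ _).trans (add_le_add ?_ ?_)
    · rw [abs_mul, abs_mul, abs_two]
      nlinarith [abs_nonneg c1, abs_nonneg V]
    · rw [abs_mul]
      gcongr
  have a2 : |2 * d - 4 * w| ≤ 2 * d + 12 := by
    rw [abs_le]
    constructor <;> linarith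
  refine (abs_add_le _ _).trans (add_le_add ?_ ?_)
  · rw [abs_mul, abs_of_nonneg (by positivity : 0 ≤ 4 * z * x)]
    exact mul_le_mul (by nlinarith) a1 (abs_nonneg _) (by norm_num)
  · rw [abs_mul, abs_mul]
    gcongr

theorem NMode_pt (hQ : NearEqStmt) {k : ℕ} (hk : 45000 ≤ k) {x0 δ M T t2 t : ℝ} {f0 : Pf}
    {f : Fin 3 → Fn} (hx0 : x0 ∈ Ioc (0 : ℝ) (1 / 8)) (hM0 : 0 ≤ M)
    (hM : ∀ x ∈ I, |deriv (NMode_c x0) x| ≤ M ∧ |deriv (deriv (NMode_c x0)) x| ≤ M)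
    (hT : t2 < T) (hs : RSol (2 * k) f0 t2 f) (ht : t ∈ Icc 0 t2) (hg : Geo (2 * k) x0 (sl f t))
    (hδ : ∀ x ∈ Icc (x0 / 2) x0, |f 0 t x| ≤ δ) (y : ℝ) (hy : 0 < y) :
    |(T - t) * dt t2 (fun s => FF x0 (T - s) (f 0 s)) t y - LL k (FF x0 (T - t) (f 0 t)) y| ≤
      30 * et (2 * k) * (y * |deriv (deriv (FF x0 (T - t) (f 0 t))) y|) +
        3 * (|deriv (FF x0 (T - t) (f 0 t)) y| + |FF x0 (T - t) (f 0 t) y| / y) +
      if x0 / (8 * (T - t)) ≤ y then
        (8 * (2 * M + M * |δ|) + (2 * (2 * k) + 12) * M * |δ|) * (T - t) else 0 := by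
  have hτ : 0 < T - t := by linarith [ht.2]
  have hd : (90000 : ℝ) ≤ 2 * k := by
    have : (45000 : ℝ) ≤ k := by exact_mod_cast hk
    linarith
  have he := (NMode_et hd).2.1
  have h2 := hs.sol.pos
  rcases lt_or_ge x0 (4 * (T - t) * y) with hx | hx
  · obtain ⟨e1, e2⟩ := NMode_zero (u := f 0) hx0.1 h2 ht hx k
    rw [e1, e2, mul_zero, sub_zero, abs_zero]
    have : (0 : ℝ) ≤ if x0 / (8 * (T - t)) ≤ y then
        (8 * (2 * M + M * |δ|) + (2 * (2 * k) + 12) * M * |δ|) * (T - t) else 0 := by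
      split_ifs
      · positivity
      · exact le_rfl
    positivity
  · have hx1 : 0 < 4 * (T - t) * y := by positivity
    have hI : 4 * (T - t) * y ∈ Ioo (0 : ℝ) 1 := ⟨hx1, by linarith [hx0.2]⟩
    have hI' := Ioo_subset_Icc_self hI
    have hu := hs.sol.js 0
    have hq := hg _ ⟨hx1.le, hx⟩
    obtain ⟨z0, z3, hV, z1, z2, hF⟩ := NMode_X hd hq hx1
    have eq := hQ (2 * k) (by linarith) f0 t2 f hs t ht _ ⟨hx1.le, by linarith [hx0.2]⟩
    have eV : (pt (sl f t) (4 * (T - t) * y)).2.1 1 = dx (f 0) t (4 * (T - t) * y) :=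
      hs.con t ht _ hI'
    rw [eV] at hV
    have e3 : 4 * evF nz f t (4 * (T - t) * y) * evF (nF1 (2 * k)) f t (4 * (T - t) * y) /
        evF (nF (2 * k)) f t (4 * (T - t) * y) = 4 * nz (pt (sl f t) (4 * (T - t) * y)) *
          nX (2 * k) (pt (sl f t) (4 * (T - t) * y)) / (4 * (T - t) * y) := by
      have : (pt (sl f t) (4 * (T - t) * y)).1 = 4 * (T - t) * y := rfl
      simp only [evF, nX, this]
      field_simp
    rw [e3] at eq
    rw [NMode_dt hu h2 ht hI, eq, LL, NMode_d2 (hu.sm ht) hI, (NMode_d1 (hu.sm ht) hI).deriv]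
    by_cases hc : x0 / (8 * (T - t)) ≤ y
    · rw [if_pos hc]
      rw [div_le_iff₀ (by positivity)] at hc
      refine NMode_alg hτ hy hq.z z0 z3 ?_
      rw [mul_assoc 4 (evF nz f t _) (evF (nX _) f t _)]
      exact NMode_E z1 z2 hx1.le hI.2.le (hM _ hI').1 (hM _ hI').2 hV
        (hδ _ ⟨by linarith, hx⟩) (by linarith) z0 z3
    · rw [if_neg hc, ← zero_mul (T - t)]
      rw [div_le_iff₀ (by positivity), not_le] at hc
      refine NMode_alg hτ hy hq.z z0 z3 ?_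
      obtain ⟨c1, c2⟩ := NMode_c_left (x := 4 * (T - t) * y) hx0.1 (by linarith)
      rw [c1, c2]
      simp

theorem mode (hN : NearQStmt) (hQ : NearEqStmt) (hL : LBasicStmt) (hG : GapStmt) (hP : PertStmt)
    (hT : PolyStmt) (hD : ModeDerStmt) (hA : ModeAStmt) : ModeStmt := by
  intro ε hε
  obtain ⟨k1, hk1⟩ := hP (ε / 2) (by positivity)
  obtain ⟨k2, hk2⟩ := exists_nat_ge (32400 / ε)
  refine ⟨max (max k1 k2) 45000, fun k hk x0 hx0 δ => ?_⟩
  have hk45 : 45000 ≤ k := le_trans (le_max_right _ _) hk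
  have hkk1 : k1 ≤ k := le_trans ((le_max_left _ _).trans (le_max_left _ _)) hk
  have hkk2 : k2 ≤ k := le_trans ((le_max_right _ _).trans (le_max_left _ _)) hk
  have hd : (90000 : ℝ) ≤ 2 * k := by
    have : (45000 : ℝ) ≤ k := by exact_mod_cast hk45
    linarith
  obtain ⟨M, hM0, hM⟩ := NMode_c_bd x0
  obtain ⟨Ct, hCt0, hCt⟩ := hT.tail k (by omega)
  set C1 := 8 * (2 * M + M * |δ|) + (2 * (2 * k) + 12) * M * |δ| with hC1
  have hC10 : 0 ≤ C1 := by positivity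
  have hx := hx0.1
  refine ⟨4 * C1 ^ 2 * Ct * (8 / x0) ^ 80, by positivity, ?_⟩
  intro T t2 f0 f b hT2 hs t ht hg hδ hb
  have hτ : 0 < T - t := by linarith [ht.2]
  obtain ⟨j1, j2⟩ := hA.js x0 hx0 T t2 (f 0) hT2 (hs.sol.js 0)
  obtain ⟨d1, d2, d3, d4⟩ := hD k (by omega) t2 _ (fun s => FF x0 (T - s) (f 0 s)) hs.sol.pos
    j1 j2 t ht
  refine NMode_abs hL hG (F := fun s => FF x0 (T - s) (f 0 s)) (by omega) (by linarith) d1 d2 d3
    d4 ?_
  have hb1 : Bd fun y => (T - t) * dt t2 (fun s => FF x0 (T - s) (f 0 s)) t y -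
      LL k (FF x0 (T - t) (f 0 t)) y := by
    have := hL.lin _ _ (T - t) (-1) d2 (hL.cs k _ d1).2.2.2
    simpa only [neg_one_mul, ← sub_eq_add_neg] using this
  have he := NMode_et hd
  have h1 := hk1 k hkk1 _ _ d1 hb1 (30 * et (2 * k)) (C1 * (T - t)) (x0 / (8 * (T - t)))
    (by linarith [he.2.1]) (by positivity) (by positivity)
    (NMode_pt hQ hk45 hx0 hM0 hM hT2 hs ht hg hδ)
  refine h1.trans ?_
  have g := hG k (by omega) _ d1
  have h2 : 0 ≤ Lam k (FF x0 (T - t) (f 0 t)) + ∑ j, am k (FF x0 (T - t) (f 0 t)) j ^ 2 := by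
    have : 0 ≤ ∑ j, am k (FF x0 (T - t) (f 0 t)) j ^ 2 := Finset.sum_nonneg fun _ _ => sq_nonneg _
    linarith [g.gap, g.nonneg, g.gap2]
  have h3 : 36 * (30 * et (2 * k)) ^ 2 ≤ ε / 2 := by
    have hk0 : (k2 : ℝ) ≤ k := by exact_mod_cast hkk2
    have h4 := hk2.trans hk0
    rw [div_le_iff₀ hε] at h4
    rw [mul_pow, he.2.2, ← mul_assoc, mul_one_div, div_le_iff₀ (by linarith)]
    linarith
  have h5 : 4 * (C1 * (T - t)) ^ 2 * tail k (x0 / (8 * (T - t))) ≤ ε * b ^ 2 := by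
    refine le_trans ?_ hb
    refine (mul_le_mul_of_nonneg_left (hCt _ (by positivity)) (by positivity)).trans_eq ?_
    field_simp
  have h6 := mul_le_mul_of_nonneg_right (show 36 * (30 * et (2 * k)) ^ 2 + ε / 2 ≤ ε by linarith) h2
  linarith

end Vale.Agent.P244
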