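import Vale.Agent.P244.StmN

open Set Filter MeasureTheory
open scoped ContDiff Topology

namespace Vale.Agent.P244

theorem NModeA_smooth (x0 : ℝ) : ContDiff ℝ ∞ fun x : ℝ => chi (2 * x / x0) := by
  unfold chi
  exact contDiff_const.sub (Real.smoothTransition.contDiff.comp (by fun_prop))

theorem NModeA_zero {x0 x : ℝ} (h0 : 0 < x0) (hx : x0 ≤ x) : chi (2 * x / x0) = 0 := by
  unfold chi
  rw [Real.smoothTransition.one_of_one_le, sub_self]
  rw [le_sub_iff_add_le, le_div_iff₀ h0]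
  linarith

theorem NModeA_abs (r : ℝ) : |chi r| ≤ 1 := by
  unfold chi
  have h1 := Real.smoothTransition.nonneg (r - 1)
  have h2 := Real.smoothTransition.le_one (r - 1)
  rw [abs_le]; constructor <;> linarith

theorem NModeA_gen {X : Type} [NormedAddCommGroup X] [NormedSpace ℝ X] {s : Set X} {a Φ : X → ℝ}
    {x0 : ℝ} (hx : x0 ∈ Ioc (0 : ℝ) (1 / 8)) (ha : ContDiff ℝ ∞ a)
    (hΦ : ContDiffOn ℝ ∞ Φ (s ∩ {p | a p < 1})) :
    ContDiffOn ℝ ∞ (fun p => chi (2 * a p / x0) * Φ p) s := by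
  intro p hp
  by_cases h : a p < 1
  · have h1 : {p | a p < 1} ∈ 𝓝 p := (isOpen_lt ha.continuous continuous_const).mem_nhds h
    exact ((NModeA_smooth x0).comp ha).contDiffAt.contDiffWithinAt.mul
      ((contDiffWithinAt_inter h1).1 (hΦ p ⟨hp, h⟩))
  · have h1 : {p | x0 < a p} ∈ 𝓝 p := (isOpen_lt continuous_const ha.continuous).mem_nhds
      (show x0 < a p by linarith [hx.2, not_lt.1 h])
    refine ((contDiffAt_const (c := (0 : ℝ))).congr_of_eventuallyEq ?_).contDiffWithinAt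
    filter_upwards [h1] with q hq
    rw [NModeA_zero hx.1 hq.le, zero_mul]

theorem NModeA_cs {x0 : ℝ} (hx : x0 ∈ Ioc (0 : ℝ) (1 / 8)) {τ : ℝ} (hτ : 0 < τ) {g : ℝ → ℝ}
    (hg : Sm g) : Cs (FF x0 τ g) := by
  refine ⟨NModeA_gen (a := fun y => 4 * τ * y) hx (by fun_prop) ?_, x0 / (4 * τ), fun y hy => ?_⟩
  · exact ContDiffOn.comp (f := fun y => 4 * τ * y) hg (by fun_prop)
      fun y hy => ⟨mul_nonneg (by positivity) hy.1, le_of_lt hy.2⟩
  · rw [FF, NModeA_zero hx.1, zero_mul]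
    rwa [ge_iff_le, div_le_iff₀' (by positivity)] at hy

theorem NModeA_js {x0 : ℝ} (hx : x0 ∈ Ioc (0 : ℝ) (1 / 8)) {T t2 : ℝ} {u : Fn} (hT : t2 < T)
    (hu : JS t2 u) :
    ContDiffOn ℝ ∞ (fun p : ℝ × ℝ => FF x0 (T - p.1) (u p.1) p.2) (Icc 0 t2 ×ˢ Ici 0) ∧
    ∀ t ∈ Icc 0 t2, ∀ y ≥ x0 / (4 * (T - t2)), FF x0 (T - t) (u t) y = 0 := by
  have h0 : 0 < T - t2 := sub_pos.2 hT
  refine ⟨NModeA_gen (a := fun p : ℝ × ℝ => 4 * (T - p.1) * p.2) hx (by fun_prop) ?_,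
    fun t ht y hy => ?_⟩
  · refine ContDiffOn.comp (g := fun p : ℝ × ℝ => u p.1 p.2)
      (f := fun p : ℝ × ℝ => (p.1, 4 * (T - p.1) * p.2)) hu (by fun_prop) fun p hp => ?_
    exact ⟨hp.1.1, mul_nonneg (by linarith [hp.1.1.2]) hp.1.2, le_of_lt hp.2⟩
  · rw [FF, NModeA_zero hx.1, zero_mul]
    have hy0 : 0 ≤ y := le_trans (div_nonneg hx.1.le (by positivity)) hy
    rw [ge_iff_le, div_le_iff₀' (by positivity)] at hy
    nlinarith [mul_le_mul_of_nonneg_right ht.2 hy0]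

theorem NModeA_rep {x0 : ℝ} (hx : x0 ∈ Ioc (0 : ℝ) (1 / 8)) {C0 : ℝ}
    (hC : ∀ x ∈ I, |deriv (fun x : ℝ => chi (2 * x / x0)) x| ≤ C0) {τ y : ℝ} (hτ : 0 < τ)
    (hy : 0 < y) : ∃ x ∈ I, ∃ α β γ : ℝ, |α| ≤ 1 ∧ |β| ≤ 4 * τ * C0 ∧ |γ| ≤ 4 * τ ∧
      ∀ g, Sm g → FF x0 τ g y = α * g x ∧ deriv (FF x0 τ g) y = β * g x + γ * d1 g x := by
  have hp : 0 < 4 * τ * y := by positivity
  have h4 : 0 < 4 * τ := by positivity
  by_cases h : 4 * τ * y < 1
  · refine ⟨4 * τ * y, ⟨hp.le, h.le⟩, chi (2 * (4 * τ * y) / x0),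
      4 * τ * deriv (fun x : ℝ => chi (2 * x / x0)) (4 * τ * y), 4 * τ * chi (2 * (4 * τ * y) / x0),
      NModeA_abs _, ?_, ?_, fun g hg => ⟨rfl, ?_⟩⟩
    · rw [abs_mul, abs_of_pos h4]
      exact mul_le_mul_of_nonneg_left (hC _ ⟨hp.le, h.le⟩) h4.le
    · rw [abs_mul, abs_of_pos h4]
      exact mul_le_of_le_one_right h4.le (NModeA_abs _)
    · have h1 := (((NModeA_smooth x0).differentiable inf_ne_zero (4 * τ * y)).hasDerivAt).mul
        (hg.has ⟨hp, h⟩)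
      have h2 : HasDerivAt (fun y : ℝ => 4 * τ * y) (4 * τ) y := by
        simpa using (hasDerivAt_id y).const_mul (4 * τ)
      have h3 := (HasDerivAt.comp (h := fun y : ℝ => 4 * τ * y) y h1 h2).deriv
      refine Eq.trans h3 ?_
      ring
  · have hC0 : 0 ≤ C0 := (abs_nonneg _).trans (hC 0 ⟨le_rfl, zero_le_one⟩)
    refine ⟨0, ⟨le_rfl, zero_le_one⟩, 0, 0, 0, by simp, by rw [abs_zero]; positivity,
      by rw [abs_zero]; positivity, fun g _ => ?_⟩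
    have h1 : {y | x0 < 4 * τ * y} ∈ 𝓝 y := (isOpen_lt continuous_const (by fun_prop)).mem_nhds
      (show x0 < 4 * τ * y by linarith [hx.2, not_lt.1 h])
    have h2 : FF x0 τ g =ᶠ[𝓝 y] fun _ => 0 := by
      filter_upwards [h1] with q hq
      rw [FF, NModeA_zero hx.1 hq.le, zero_mul]
    rw [h2.deriv_eq, h2.self_of_nhds]
    simp

theorem NModeA_am (hL : LBasicStmt) {k : ℕ} (hk : 1 ≤ k) {H : ℝ → ℝ} (hH : Cs H) {M : ℝ}
    (hM : 0 ≤ M) (h : ∀ y > 0, |H y| ≤ M) (j : Fin 4) : |am k H j| ≤ M := by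
  have hB := (hL.cs k H hH).1
  have h1 := hL.cauchy k hk H (ee k j) hB (hL.ee_bd k j).2.1
  rw [hL.orth k hk, if_pos rfl, mul_one] at h1
  have h2 : ip k H H ≤ ∫ y in Ioi (0 : ℝ), M ^ 2 * (y ^ 0 * wt k y) := by
    refine setIntegral_mono_on (hL.int k hk _ (hL.mul H H hB hB))
      ((hL.int k hk _ (hL.pow 0)).const_mul _) measurableSet_Ioi fun y hy => ?_
    have hy' : (0 : ℝ) < y := hy
    have hw : 0 ≤ wt k y := by unfold wt; positivity
    rw [pow_zero, one_mul, ← sq]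
    exact mul_le_mul_of_nonneg_right (sq_le_sq' (abs_le.1 (h y hy')).1 (abs_le.1 (h y hy')).2) hw
  rw [integral_const_mul, hL.mom k hk 0] at h2
  simp only [Nat.ascFactorial_zero, Nat.cast_one, mul_one] at h2
  exact abs_le.2 (abs_le_of_sq_le_sq' (h1.trans h2) hM)

theorem NModeA_lin {α β γ a b e τ T C0 : ℝ} (hτ : τ ∈ Ioc 0 T) (hC : 0 ≤ C0) (h1 : |α| ≤ 1)
    (h2 : |β| ≤ 4 * τ * C0) (h3 : |γ| ≤ 4 * τ) (ha : |a| ≤ e) (hb : |b| ≤ e) :
    |α * a| ≤ (1 + 4 * |T| * (C0 + 1)) * e ∧ |β * a + γ * b| ≤ (1 + 4 * |T| * (C0 + 1)) * e := by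
  have he : 0 ≤ e := (abs_nonneg _).trans ha
  have hT : τ ≤ |T| := hτ.2.trans (le_abs_self T)
  have h0 := hτ.1
  have h4 : 0 ≤ 4 * |T| * (C0 + 1) * e := by positivity
  constructor
  · rw [abs_mul]
    nlinarith [mul_le_mul h1 ha (abs_nonneg _) zero_le_one]
  · have h5 : |β * a| ≤ 4 * τ * C0 * e := by
      rw [abs_mul]; exact mul_le_mul h2 ha (abs_nonneg _) (by positivity)
    have h6 : |γ * b| ≤ 4 * τ * e := by
      rw [abs_mul]; exact mul_le_mul h3 hb (abs_nonneg _) (by positivity)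
    have h7 : τ * ((C0 + 1) * e) ≤ |T| * ((C0 + 1) * e) :=
      mul_le_mul_of_nonneg_right hT (by positivity)
    nlinarith [abs_add_le (β * a) (γ * b)]

theorem modeA (hL : LBasicStmt) (hD : ModeDerStmt) (hS : ModeStabStmt) : ModeAStmt := by
  refine ⟨fun x0 hx τ hτ g hg => NModeA_cs hx hτ hg, fun x0 hx τ hτ g h e k => ?_,
    fun x0 hx T t2 u hT hu => NModeA_js hx hT hu, fun k hk x0 hx T t2 f h0 hT hf => ?_,
    fun k hk x0 hx T M => ?_⟩
  · have h1 := hL.congr k (FF x0 τ g) (FF x0 τ h) fun y hy => by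
      by_cases h2 : 4 * τ * y ≤ 1
      · rw [FF, FF, e _ ⟨by positivity, h2⟩]
      · rw [FF, FF, NModeA_zero hx.1 (by linarith [hx.2, not_le.1 h2]), zero_mul, zero_mul]
    exact ⟨funext h1.1, h1.2⟩
  · obtain ⟨h1, h2⟩ := NModeA_js hx hT hf
    have h3 := hD k hk t2 _ (fun t => FF x0 (T - t) (f 0 t)) h0 h1 h2
    have h4 : ∀ j, ContinuousOn (fun t => aT k x0 T f t j) (Icc 0 t2) :=
      fun j t ht => ((h3 t ht).2.2.1 j).continuousWithinAt
    refine ⟨continuousOn_pi.2 h4, ContinuousOn.sub (fun t ht => (h3 t ht).2.2.2.continuousWithinAt)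
      (continuousOn_finsetSum _ fun j _ => continuousOn_const.mul ((h4 j).pow 2))⟩
  · obtain ⟨C0, hC0⟩ := (isCompact_Icc (a := (0 : ℝ)) (b := 1)).exists_bound_of_continuousOn
      ((NModeA_smooth x0).continuous_deriv one_le_inf).continuousOn
    have hC0' : 0 ≤ C0 := (norm_nonneg _).trans (hC0 0 ⟨le_rfl, zero_le_one⟩)
    have hc : 0 < 1 + 4 * |T| * (C0 + 1) := by positivity
    set c := 1 + 4 * |T| * (C0 + 1) with hcdef
    obtain ⟨C, hC, hs⟩ := hS k hk (c * |M|)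
    refine ⟨c⁻¹, inv_pos.2 hc, C * c + c * |M|, by positivity, fun τ hτ g h hg hh ε hε hb => ?_⟩
    have key : ∀ y > 0, |FF x0 τ h y| ≤ c * |M| ∧ |deriv (FF x0 τ h) y| ≤ c * |M| ∧
        |FF x0 τ g y - FF x0 τ h y| ≤ c * ε ∧
        |deriv (FF x0 τ g) y - deriv (FF x0 τ h) y| ≤ c * ε := by
      intro y hy
      obtain ⟨x, hxI, α, β, γ, h1, h2, h3, h4⟩ := NModeA_rep hx hC0 hτ.1 hy
      obtain ⟨b1, b2, b3, b4⟩ := hb x hxI
      have e1 := NModeA_lin hτ hC0' h1 h2 h3 (b1.trans (le_abs_self M)) (b2.trans (le_abs_self M))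
      have e2 := NModeA_lin hτ hC0' h1 h2 h3 b3 b4
      rw [(h4 g hg).1, (h4 g hg).2, (h4 h hh).1, (h4 h hh).2]
      refine ⟨e1.1, e1.2, ?_, ?_⟩
      · rw [← mul_sub]; exact e2.1
      · rw [show β * g x + γ * d1 g x - (β * h x + γ * d1 h x) =
          β * (g x - h x) + γ * (d1 g x - d1 h x) by ring]
        exact e2.2
    have hε1 : c * ε ∈ Icc (0 : ℝ) 1 :=
      ⟨mul_nonneg hc.le hε.1, (mul_le_mul_of_nonneg_left hε.2 hc.le).trans
        (mul_inv_cancel₀ hc.ne').le⟩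
    obtain ⟨s1, s2⟩ := hs _ _ (NModeA_cs hx hτ.1 hg) (NModeA_cs hx hτ.1 hh) _ hε1 key
    have hle : C * (c * ε) ≤ (C * c + c * |M|) * ε := by
      have : 0 ≤ c * |M| * ε := mul_nonneg (by positivity) hε.1
      nlinarith
    refine ⟨fun j => ⟨?_, (s1 j).trans hle⟩, s2.trans hle⟩
    exact (NModeA_am hL (by omega) (NModeA_cs hx hτ.1 hh) (by positivity)
      (fun y hy => (key y hy).1) j).trans (le_add_of_nonneg_left (by positivity))

end Vale.Agent.P244
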