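import Vale.Agent.P244.StmN

/-! P244: the choice of the parameters. -/

open Set Filter
open scoped ContDiff Topology

namespace Vale.Agent.P244

theorem NPar_ev (C : ℝ) {b : ℝ} (hb : 0 < b) : ∀ᶠ T in 𝓝[>] (0 : ℝ), C * T < b := by
  have h : Tendsto (fun T : ℝ => C * T) (𝓝 0) (𝓝 (C * 0)) :=
    (continuous_const.mul continuous_id).tendsto 0
  rw [mul_zero] at h
  exact (h.eventually (gt_mem_nhds hb)).filter_mono nhdsWithin_le_nhds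

theorem NPar_mul {ρ a b e : ℝ} (hρ : 0 ≤ ρ) (h : |a - b| ≤ e) : |ρ * a - ρ * b| ≤ ρ * e := by
  rw [← mul_sub, abs_mul, abs_of_nonneg hρ]
  exact mul_le_mul_of_nonneg_left h hρ

theorem NPar_inim (hL : LBasicStmt) {k : ℕ} {x0 T e : ℝ} {α : V3} (hA : IniA k x0 T α)
    (h : let G := fun y => pol k α y * chi (y / (1 / (4 * √T)))
      |am k G 0 - α 0| ≤ e ∧ |am k G 1 - α 1| ≤ e ∧ |am k G 2 - α 2| ≤ e ∧ |am k G 3 - 1| ≤ e ∧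
        SS k G ≤ e) : IniM k x0 T e α := by
  intro a S ρ ha hS hρ
  have h0 : 0 ≤ ρ := hρ ▸ mul_nonneg (Even.pow_nonneg ⟨25, rfl⟩ _) (Even.pow_nonneg ⟨18, rfl⟩ _)
  obtain ⟨c1, c2⟩ := hL.congr k _ _ hA.mode
  obtain ⟨d1, d2⟩ := hL.smul k (fun y => pol k α y * chi (y / (1 / (4 * √T)))) (rho (2 * k) T)
  obtain ⟨e0, e1, e2, e3, e4⟩ := h
  rw [ha, hS, c1, c1, c1, c1, c2, d1, d1, d1, d1, d2, ← hρ]
  refine ⟨NPar_mul h0 e0, NPar_mul h0 e1, NPar_mul h0 e2, ?_,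
    mul_le_mul_of_nonneg_left e4 (sq_nonneg _)⟩
  simpa using NPar_mul h0 e3

theorem NPar_ball {α : V3} (h : α ∈ Ball (1 / 50)) (i : Fin 3) : |α i| ≤ 1 := by
  have h1 : α 0 ^ 2 + α 1 ^ 2 + α 2 ^ 2 ≤ 1 / 50 := h
  rw [← sq_le_one_iff_abs_le_one]
  have := sq_nonneg (α 0)
  have := sq_nonneg (α 1)
  have := sq_nonneg (α 2)
  fin_cases i
  · show α 0 ^ 2 ≤ 1
    linarith
  · show α 1 ^ 2 ≤ 1
    linarith
  · show α 2 ^ 2 ≤ 1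
    linarith

theorem NPar_pow {C T b : ℝ} {m j : ℕ} (hC : 0 ≤ C) (h0 : 0 ≤ T) (h1 : T ≤ 1) (h : C * T < b)
    (hm : j + 1 ≤ m) : C * T ^ m ≤ b * T ^ j := by
  have h2 : T ^ m ≤ T ^ (j + 1) := pow_le_pow_of_le_one h0 h1 hm
  calc C * T ^ m ≤ C * T ^ (j + 1) := mul_le_mul_of_nonneg_left h2 hC
    _ = C * T * T ^ j := by ring
    _ ≤ b * T ^ j := mul_le_mul_of_nonneg_right h.le (pow_nonneg h0 j)

theorem par (hCo : ConeStmt) (hO : OutStmt) (hM : ModeStmt) (hD : DBarStmt) (hP : PhiWStmt)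
    (hC : CompactStmt) (hF : FarStmt) (hA : IniAStmt) (hB : IniBStmt) (hI : IniModeStmt)
    (hL : LBasicStmt) : ParStmt := by
  obtain ⟨θ0, hθ0, hO⟩ := hO
  obtain ⟨θ, hθ, hθ1, hθ2⟩ : ∃ θ : ℝ, 0 < θ ∧ θ ≤ θ0 ∧ θ ≤ 1 / 100 :=
    ⟨min θ0 (1 / 100), lt_min hθ0 (by norm_num), min_le_left _ _, min_le_right _ _⟩
  obtain ⟨ε, hε, hcone⟩ := hCo θ ⟨hθ, hθ2⟩
  obtain ⟨kO, hO⟩ := hO θ ⟨hθ, hθ1⟩
  obtain ⟨kM, hM⟩ := hM ε hε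
  obtain ⟨dD, hD⟩ := hD
  obtain ⟨dP, hP1⟩ := hP.small
  obtain ⟨kB, hB⟩ := hB
  obtain ⟨k, k1, k2, k3, k4, k5, k6⟩ : ∃ k : ℕ, 10 ^ 8 ≤ k ∧ kO ≤ k ∧ kM ≤ k ∧ kB ≤ k ∧
      ⌈dD⌉₊ ≤ k ∧ ⌈dP⌉₊ ≤ k :=
    ⟨10 ^ 8 + kO + kM + kB + ⌈dD⌉₊ + ⌈dP⌉₊, by omega, by omega, by omega, by omega, by omega,
      by omega⟩
  have kr : (10 : ℝ) ^ 8 ≤ k := by exact_mod_cast k1
  have kp : (0 : ℝ) < 2 * k := by linarith
  rw [Nat.ceil_le] at k5 k6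
  obtain ⟨Co, hCo0, hout⟩ := hO k k2
  obtain ⟨σ, hσ, hdbar⟩ := hD (2 * k) (by linarith)
  obtain ⟨x1, hx1, hphi⟩ := hP1 (2 * k) (by linarith)
  obtain ⟨x0, hx0, hx2, hx3⟩ : ∃ x0 : ℝ, 0 < x0 ∧ x0 ≤ x1 ∧ x0 ≤ 1 / 8 :=
    ⟨min x1 (1 / 8), lt_min hx1 (by norm_num), min_le_left _ _, min_le_right _ _⟩
  obtain ⟨δ, hδ⟩ := hC.del (2 * k) kp x0 ⟨hx0, hx3⟩
  obtain ⟨CS, Cf, hfar⟩ := hF (2 * k) (by linarith) x0 ⟨hx0, hx3⟩ δ hδ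
  obtain ⟨Cm, hCm, hmode⟩ := hM k k3 x0 ⟨hx0, hx3⟩ δ
  obtain ⟨cW, hcW, hlow⟩ := hP.low (2 * k) kp x0 hx0
  obtain ⟨TA, hTA, hA⟩ := hA k k1 x0 ⟨hx0, hx3⟩
  obtain ⟨TB, hTB, hB⟩ := hB k k4 x0 ⟨hx0, hx3⟩
  obtain ⟨Y0, hY0, hI⟩ := hI k (by omega) (θ / 100) (by positivity)
  obtain ⟨T, hT, t1, t2, t3, t4, t5, t6, t7, t8, t9, t10, t11, t12, t13, t14⟩ :=
    ((show ∀ᶠ T in 𝓝[>] (0 : ℝ), 0 < T from self_mem_nhdsWithin).and <|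
      (NPar_ev 1 one_pos).and <| (NPar_ev (8 * (2 * k)) hx0).and <| (NPar_ev 1 hTA).and <|
      (NPar_ev 1 hTB).and <| (NPar_ev ((4 * Y0) ^ 2) one_pos).and <| (NPar_ev Cf hδ.1).and <|
      (NPar_ev ((2 * k + 4) * Cf) one_pos).and <|
      (NPar_ev Cf (show 0 < x0 / (100 * (2 * k)) by positivity)).and <|
      (NPar_ev (2 * Cf) (show 0 < cW ^ 2 / 16 by positivity)).and <|
      (NPar_ev Cm (show 0 < ε * (((2 * k : ℝ) ^ 50) / 2) ^ 2 by positivity)).and <|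
      (NPar_ev (3 * Co * (2 * k) ^ 50) (show 0 < 1 / (2 * k : ℝ) by positivity)).and <|
      (NPar_ev (3 * Co * (2 * k) ^ 50) hσ).and <|
      (NPar_ev 1 (show 0 < 1 / (2 * k : ℝ) by positivity)).and <|
      (NPar_ev 1 one_pos)).exists
  have T1 : T ≤ 1 := by linarith
  have hY : Y0 ≤ 1 / (4 * √T) := by
    have hs : 0 < √T := Real.sqrt_pos.2 hT
    rw [le_div_iff₀ (by positivity)]
    refine le_of_sq_le_sq ?_ zero_le_one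
    rw [mul_pow, mul_pow, Real.sq_sqrt hT.le]
    linarith
  have hA' := hA T ⟨hT, by linarith⟩
  have hC3 : 0 ≤ 3 * Co * (2 * k : ℝ) ^ 50 := by positivity
  refine ⟨k, x0, δ, CS, T, θ, ε, σ, Cf, Co, Cm, cW, k1, ⟨hx0, hx3⟩, ⟨hT, T1⟩, ⟨hθ, hθ2⟩, hε, t2.le,
    hδ, hcone, hfar, hout, hCo0, hmode, hCm, hdbar,
    fun T τ x Φ h1 h2 h3 => hphi T τ x Φ h1 h2 ⟨h3.1, h3.2.trans hx2⟩, hcW, hlow, hA'.1,
    hB T ⟨hT, by linarith⟩, fun α hα => NPar_inim hL (hA'.1 α hα) (hI _ hY α (NPar_ball hα)),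
    hA'.2, t6, by linarith, t8.le, by linarith, ?_, ?_, ?_, ?_⟩
  · refine (NPar_pow (j := 72) hCm hT.le T1 t10 (by norm_num)).trans_eq ?_
    rw [rho]; ring
  · rw [rho, ← mul_assoc]
    refine (NPar_pow (j := 1) hC3 hT.le T1 t11 (by norm_num)).trans_eq ?_
    ring
  · rw [rho, ← mul_assoc]
    refine (NPar_pow (j := 3) hC3 hT.le T1 t12 (by norm_num)).trans
      (mul_le_mul_of_nonneg_left ?_ hσ.le)
    rw [← Real.rpow_natCast]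
    exact Real.rpow_le_rpow_of_exponent_ge hT T1 (by norm_num)
  · have := NPar_pow (j := 1) (m := 30) zero_le_one hT.le T1 t13 (by norm_num)
    rw [one_mul] at this
    exact this.trans_eq (by ring)

end Vale.Agent.P244
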