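import Vale.Agent.P244.StmN

/-! P244: elementary bounds for the barrier `Wf`. -/

open Set Filter

namespace Vale.Agent.P244

theorem NPhiW_Gpos {d τ : ℝ} (x : ℝ) (hd : 0 < d) (hτ : 0 < τ) : 0 < Gq d τ x := by
  unfold Gq
  positivity

theorem NPhiW_et {d : ℝ} (hd : 0 < d) :
    et d / 4 = Real.exp (-(Real.log d / 2) - Real.log 4) := by
  unfold et
  rw [Real.exp_sub, Real.exp_log (by norm_num), Real.exp_neg, Real.sqrt_eq_rpow,
    Real.rpow_def_of_pos hd, one_div]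
  congr 3
  ring

theorem NPhiW_mul {d τ x Φ : ℝ} (hΦ : 0 < Φ) :
    Φ * Wf d τ x Φ = Real.exp (-(1 / 20) * Real.log Φ + 9 / 10 * Real.log (Gq d τ x)) := by
  unfold Wf
  conv_lhs => rw [← Real.exp_log hΦ]
  rw [← Real.exp_add, Real.log_exp]
  congr 1
  ring

theorem NPhiW_sq {d τ x Φ : ℝ} (hΦ : 0 < Φ) :
    Wf d τ x Φ ^ 2 * Φ ^ (19 / 20 : ℝ) =
      Real.exp (-(23 / 20) * Real.log Φ + 9 / 5 * Real.log (Gq d τ x)) := by
  unfold Wf
  rw [Real.rpow_def_of_pos hΦ, sq, ← Real.exp_add, ← Real.exp_add]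
  congr 1
  ring

theorem NPhiW_logG {G a y : ℝ} (hG : 0 < G) (ha : 0 < a) (hy : 0 < y) (h : G ≤ a * y ^ 2) :
    Real.log G ≤ Real.log a + 2 * Real.log y := by
  have := Real.log_le_log hG h
  rw [Real.log_mul ha.ne' (by positivity), Real.log_pow] at this
  exact_mod_cast this

theorem NPhiW_logF {ρ τ T Φ : ℝ} (hρ : 0 < ρ) (hτ : 0 < τ) (hT : 0 < T)
    (h : ρ / 2 * (τ / T) ^ (151 / 50 : ℝ) ≤ Φ) :
    Real.log ρ - Real.log 2 + 151 / 50 * (Real.log τ - Real.log T) ≤ Real.log Φ := by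
  have h0 : 0 < τ / T := by positivity
  have := Real.log_le_log (by positivity) h
  rw [Real.log_mul (by positivity) (by positivity), Real.log_div hρ.ne' (by norm_num),
    Real.log_rpow h0, Real.log_div hτ.ne' hT.ne'] at this
  exact this

theorem NPhiW_logX {d x Φ : ℝ} (hd : 0 < d) (hx : 0 < x) (hΦ : 0 < Φ) (h : x ≤ 2 * d * Φ) :
    Real.log x - Real.log (2 * d) ≤ Real.log Φ := by
  have := Real.log_le_log hx h
  rw [Real.log_mul (by positivity) hΦ.ne'] at this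
  linarith

theorem NPhiW_small : ∃ d0 : ℝ, ∀ d ≥ d0, ∃ x1 > 0, PhiC d x1 := by
  refine ⟨max (Real.exp 100) 4000, fun d hd => ?_⟩
  have hd1 : Real.exp 100 ≤ d := le_trans (le_max_left _ _) hd
  have hd2 : (4000 : ℝ) ≤ d := le_trans (le_max_right _ _) hd
  have hd0 : 0 < d := by linarith
  have hld : 100 ≤ Real.log d := by
    have := Real.log_le_log (Real.exp_pos 100) hd1
    rwa [Real.log_exp] at this
  refine ⟨Real.exp (-(4 / 7) * (1 / 20 * Real.log (2 * d) + 9 / 10 * Real.log 2 + Real.log 4 +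
    Real.log d / 2)), Real.exp_pos _, ?_⟩
  intro T τ x Φ hτ hτT hx hΦ hxΦ hin
  have hT : 0 < T := lt_of_lt_of_le hτ hτT
  have hG := NPhiW_Gpos x hd0 hτ
  have hdt : 0 < d * τ := by positivity
  have h4 : 4000 * d * τ ^ 2 ≤ (d * τ) ^ 2 := by
    have : (d * τ) ^ 2 - 4000 * d * τ ^ 2 = (d - 4000) * d * τ ^ 2 := by ring
    have h2 : 0 ≤ (d - 4000) * d * τ ^ 2 :=
      mul_nonneg (mul_nonneg (by linarith) hd0.le) (sq_nonneg _)
    linarith
  rw [NPhiW_mul hΦ, NPhiW_et hd0, Real.exp_le_exp]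
  rcases le_total x (d * τ) with h | h
  · have hρ : 0 < rho d T := by unfold rho; positivity
    have h1 := NPhiW_logF hρ hτ hT (hin h)
    have h2 : Real.log (rho d T) = 50 * Real.log d + 36 * Real.log T := by
      unfold rho
      rw [Real.log_mul (by positivity) (by positivity), Real.log_pow, Real.log_pow]
      norm_num
    have h3 : Gq d τ x ≤ 5 * (d * τ) ^ 2 := by
      unfold Gq
      have := hx.1
      nlinarith
    have h5 := NPhiW_logG hG (by norm_num) hdt h3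
    rw [Real.log_mul hd0.ne' hτ.ne'] at h5
    have h6 := Real.log_le_log hτ hτT
    have l2 := Real.log_le_sub_one_of_pos (show (0 : ℝ) < 2 by norm_num)
    have l4 := Real.log_le_sub_one_of_pos (show (0 : ℝ) < 4 by norm_num)
    have l5 := Real.log_le_sub_one_of_pos (show (0 : ℝ) < 5 by norm_num)
    linarith
  · have hx0 : 0 < x := lt_of_lt_of_le hdt h
    have h1 := NPhiW_logX hd0 hx0 hΦ hxΦ
    have h3 : Gq d τ x ≤ 2 * x ^ 2 := by
      unfold Gq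
      nlinarith
    have h5 := NPhiW_logG hG (by norm_num) hx0 h3
    have h6 := Real.log_le_log hx0 hx.2
    rw [Real.log_exp] at h6
    linarith

theorem NPhiW_fin : ∀ d ≥ (1 : ℝ), ∀ T > 0, ∀ ρ > 0, ∃ C, ∀ τ x Φ : ℝ, 0 < τ → τ ≤ T → x ∈ I →
    0 < Φ → x ≤ 2 * d * Φ → (x ≤ d * τ → ρ / 2 * (τ / T) ^ (151 / 50 : ℝ) ≤ Φ) →
    Wf d τ x Φ ^ 2 * Φ ^ (19 / 20 : ℝ) ≤ C := by
  intro d hd T hT ρ hρ
  have hd0 : 0 < d := by linarith
  refine ⟨Real.exp (max
    (-(23 / 20) * (Real.log ρ - Real.log 2) + 9 / 5 * (Real.log 4004 + 2 * Real.log d) +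
      18 / 5 * Real.log T)
    (23 / 20 * Real.log (2 * d) + 9 / 5 * Real.log 4001)), ?_⟩
  intro τ x Φ hτ hτT hx hΦ hxΦ hin
  have hG := NPhiW_Gpos x hd0 hτ
  have hdt : 0 < d * τ := by positivity
  have h4 : d * τ ^ 2 ≤ (d * τ) ^ 2 := by
    have : (d * τ) ^ 2 - d * τ ^ 2 = (d - 1) * d * τ ^ 2 := by ring
    have h2 : 0 ≤ (d - 1) * d * τ ^ 2 :=
      mul_nonneg (mul_nonneg (by linarith) hd0.le) (sq_nonneg _)
    linarith
  rw [NPhiW_sq hΦ, Real.exp_le_exp]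
  rcases le_total x (d * τ) with h | h
  · refine le_trans ?_ (le_max_left _ _)
    have h1 := NPhiW_logF hρ hτ hT (hin h)
    have h3 : Gq d τ x ≤ 4004 * (d * τ) ^ 2 := by
      unfold Gq
      have := hx.1
      nlinarith
    have h5 := NPhiW_logG hG (by norm_num) hdt h3
    rw [Real.log_mul hd0.ne' hτ.ne'] at h5
    have h6 := Real.log_le_log hτ hτT
    linarith
  · refine le_trans ?_ (le_max_right _ _)
    have hx0 : 0 < x := lt_of_lt_of_le hdt h
    have h1 := NPhiW_logX hd0 hx0 hΦ hxΦ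
    have h3 : Gq d τ x ≤ 4001 * x ^ 2 := by
      unfold Gq
      nlinarith
    have h5 := NPhiW_logG hG (by norm_num) hx0 h3
    have h6 := Real.log_nonpos hx.1 hx.2
    linarith

theorem NPhiW_low : ∀ d > 0, ∀ x0 > 0, ∃ c > 0, ∀ τ Φ : ℝ, 0 < τ → 8 * d * τ ≤ x0 → 0 < Φ →
    Φ ≤ 1 → c ≤ Wf d τ x0 Φ := by
  intro d hd x0 hx0
  refine ⟨Real.exp (9 / 10 * Real.log ((3 / 4 * x0) ^ 2)), Real.exp_pos _, ?_⟩
  intro τ Φ hτ h8 hΦ hΦ1
  unfold Wf
  rw [Real.exp_le_exp]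
  have h1 := Real.log_nonpos hΦ.le hΦ1
  have h2 : (3 / 4 * x0) ^ 2 ≤ Gq d τ x0 := by
    unfold Gq
    have h3 : (3 / 4 * x0) ^ 2 ≤ (x0 - 2 * d * τ) ^ 2 :=
      pow_le_pow_left₀ (by positivity) (by linarith) 2
    have h4 : 0 ≤ 4000 * d * τ ^ 2 := by positivity
    linarith
  have h3 := Real.log_le_log (by positivity) h2
  linarith

theorem phiW : PhiWStmt := ⟨NPhiW_small, NPhiW_fin, NPhiW_low⟩

end Vale.Agent.P244
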