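import Vale.Agent.P244.StmN

/-! P244: the barrier for the scalar curvature and the equation of the weight. -/

open Set Filter
open scoped ContDiff Topology

namespace Vale.Agent.P244

/-- A positive extension of `Φ`. -/
noncomputable def NRBar_P (d : ℝ) (f : Fin 3 → Fn) : Fn := fun t x => PhF d f t x + ch x

theorem NRBar_pos {d T : ℝ} {f0 : Pf} {f : Fin 3 → Fn} (h : RSol d f0 T f) {t x : ℝ}
    (ht : t ∈ Icc 0 T) (hx : x ∈ I) : 0 < NRBar_P d f t x := by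
  rcases hx.2.eq_or_lt with rfl | h1
  · have a1 := ph0_right d (show (1 : ℝ) / 2 ≤ 1 by norm_num)
    have a2 := gam_one (show (3 : ℝ) / 4 ≤ 1 by norm_num)
    have a3 := ch_one (show (1 : ℝ) / 2 ≤ 1 by norm_num)
    simp [NRBar_P, PhF, evF, bs_pt, PhP, Ph, a1, a2, a3]
  · exact add_pos_of_pos_of_nonneg (PhP_pos (h.sol.mem t ht x hx) h1) (ch_nonneg x)

theorem NRBar_js (hG : GeqStmt) {d T : ℝ} (hd : 0 < d) {f0 : Pf} {f : Fin 3 → Fn}
    (h : RSol d f0 T f) : JS T (NRBar_P d f) :=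
  (hG.js d hd f0 T f h.sol).ph.add (JS.ofX (Sm.of_contDiff contDiff_ch))

theorem NRBar_near (hB : BoxStmt) (hN : NearQStmt) (hD : DictStmt) (hG : GeqStmt) {d T : ℝ}
    (hd : 0 < d) {f0 : Pf} {f : Fin 3 → Fn} (h : RSol d f0 T f) {t x : ℝ} (ht : t ∈ Icc 0 T)
    (hx : x ∈ Ico (0 : ℝ) (1 / 4)) : NearQ d (pt (sl f t) x) ∧
      NRBar_P d f t x = evF (nF d) f t x ∧ dx (NRBar_P d f) t x = evF (nF1 d) f t x ∧
      bx d T f (NRBar_P d f) t x =
        -2 - ZF f t x * evF (nF1 d) f t x ^ 2 / evF (nF d) f t x := by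
  have hI : x ∈ I := ⟨hx.1, by linarith [hx.2]⟩
  have hn := hN d hd (pt (sl f t) x) (h.sol.mem t ht x hI) hx.1 hx.2
  obtain ⟨a1, -, a2⟩ := hB.congr T (ZF f) (BF d f) (NRBar_P d f) (PhF d f) t ht x hI _
    (Iio_mem_nhds hx.2) fun s _ y hy => by rw [NRBar_P, ch_zero (le_of_lt hy.1), add_zero]
  have a3 : dx (PhF d f) t x = evF (nF1 d) f t x := (hD d hd _ (h.prof ht) x hI).ph.trans hn.ph1
  have a4 : PhF d f t x = evF (nF d) f t x := hn.ph
  refine ⟨hn, by rw [NRBar_P, ch_zero hx.2.le, add_zero, a4], a1.trans a3, a2.trans ?_⟩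
  rw [← a3, ← a4]
  exact (hG.eq d hd f0 T f h t ht x hI).ph (by linarith [hx.2])

theorem NRBar_iff {F R : ℝ} (hF : 0 < F) :
    F * |R| < 1 ↔ ∀ b : Bool, (if b then 1 else -1) * R - F⁻¹ < 0 := by
  rw [← lt_div_iff₀' hF, abs_lt, one_div, Bool.forall_bool]
  simp only [Bool.false_eq_true, if_false, if_true]
  constructor <;> rintro ⟨a, b⟩ <;> constructor <;> linarith

theorem rBar (hT : TouchStmt) (hB : BoxStmt) (hN : NearQStmt) (hD : DictStmt) (hG : GeqStmt)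
    (hE : Evo2Stmt) : RBarStmt := by
  intro d hd8 x0 hx0 t1 f0 f h hgeo h0 hb
  have hd : 0 < d := lt_of_lt_of_le (by norm_num) hd8
  have hJ := hG.js d hd f0 t1 f h.sol
  have hI : ∀ x ∈ Icc 0 x0, x ∈ I := fun x hx => ⟨hx.1, by linarith [hx.2, hx0.2]⟩
  have hI' : ∀ x ∈ Icc 0 x0, x ∈ Ico (0 : ℝ) (1 / 4) := fun x hx =>
    ⟨hx.1, by linarith [hx.2, hx0.2]⟩
  have jv : JS t1 fun t x => (NRBar_P d f t x)⁻¹ :=
    ContDiffOn.inv (NRBar_js hG hd h) fun p hp => (NRBar_pos h hp.1 hp.2).ne'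
  have hiff : ∀ t ∈ Icc 0 t1, ∀ x ∈ Icc 0 x0, evF (nF d) f t x * |evF (Rs d) f t x| < 1 ↔
      ∀ b : Bool, (if b then 1 else -1) * evF (Rs d) f t x - (NRBar_P d f t x)⁻¹ < 0 :=
    fun t ht x hx => by
      rw [← (NRBar_near hB hN hD hG hd h ht (hI' x hx)).2.1]
      exact NRBar_iff (NRBar_pos h ht (hI x hx))
  have het : et d ≤ 1 / 10 ^ 4 :=
    one_div_le_one_div_of_le (by norm_num) (Real.le_sqrt_of_sq_le (by linarith))
  have key := hT Bool t1 0 t1
    (fun b t x => (if b then 1 else -1) * evF (Rs d) f t x - (NRBar_P d f t x)⁻¹) (ZF f) (BF d f)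
    (fun _ => 0) (fun _ => x0) h.sol.pos le_rfl h.sol.pos.le le_rfl
    (fun b => ((JS.const _).mul hJ.rs).sub jv) continuous_const continuous_const
    (fun _ _ => ⟨le_rfl, hx0.1.le, by linarith [hx0.2]⟩)
    (fun t ht x hx => (hJ.sign t ht).1 x (hI x hx))
    (Or.inl ⟨fun _ => rfl, fun t ht => ⟨(hJ.sign t ht).2.1, (hJ.sign t ht).2.2.1⟩⟩)
    (Or.inr fun b t ht => (hiff t ht x0 ⟨hx0.1.le, le_rfl⟩).1 (hb t ht) b)
    (fun b x hx => (hiff 0 ⟨le_rfl, h.sol.pos.le⟩ x hx).1 (h0 x hx) b)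
    (fun b t ht' x hx _ _ _ => by
      have ht : t ∈ Icc 0 t1 := ⟨ht'.1.le, ht'.2⟩
      obtain ⟨hn, e1, e2, e3⟩ := NRBar_near hB hN hD hG hd h ht (hI' x hx)
      have e4 := (hB.comp t1 (ZF f) (BF d f) _ (fun s => s⁻¹) (fun s => -(s ^ 2)⁻¹)
        (fun s => 2 / s ^ 3) (Ioi 0) h.sol.pos (NRBar_js hG hd h) isOpen_Ioi (fun s hs => by
          have hs' : s ≠ 0 := ne_of_gt hs
          refine ⟨hasDerivAt_inv hs', ?_⟩
          have := ((hasDerivAt_pow 2 s).fun_inv (pow_ne_zero 2 hs')).fun_neg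
          refine this.congr_deriv ?_
          field_simp
          norm_num [mul_comm]) t ht x (hI x hx) (NRBar_pos h ht (hI x hx))).2
      have e5 := (hE d hd f0 t1 f h t ht x (hI x hx)).rs
      rw [hB.sub _ _ _ _ _ h.sol.pos ((JS.const _).mul hJ.rs) jv t ht x (hI x hx),
        hB.smul _ _ _ _ _ h.sol.pos hJ.rs t ht x (hI x hx), e4]
      unfold bx at e3 e5
      rw [e3, e5, e1, e2]
      have hg := hgeo t ht x hx
      have hF : 0 < evF (nF d) f t x := hn.pos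
      have a1 : evF (nF d) f t x ^ 2 * evF (SE d) f t x ≤ 7 / d := hg.se
      have a2 : evF (nF d) f t x * (ZF f t x * evF (nF1 d) f t x ^ 2 /
          (4 * evF (nF d) f t x ^ 2)) ≤ 30 * et d := by
        have := hg.a2.2
        rwa [A2, hn.ph, hn.ph1] at this
      have a3 : 0 ≤ evF (SE d) f t x := by
        unfold evF SE
        positivity
      have a4 : 7 / d ≤ 1 / 10 := by
        rw [div_le_div_iff₀ hd (by norm_num)]
        linarith
      have a5 : (if b then 1 else -1) * (2 * evF (SE d) f t x) ≤ 2 * evF (SE d) f t x := by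
        split_ifs <;> linarith
      generalize evF (nF d) f t x = F at *
      generalize evF (nF1 d) f t x = F1 at *
      generalize ZF f t x = Z at *
      have a6 : F ^ 2 * (-(F ^ 2)⁻¹ * (-2 - Z * F1 ^ 2 / F) - 2 / F ^ 3 * Z * F1 ^ 2) =
          2 - 4 * (F * (Z * F1 ^ 2 / (4 * F ^ 2))) := by
        field_simp
        ring
      have a7 := mul_le_mul_of_nonneg_left a5 (sq_nonneg F)
      refine lt_of_mul_lt_mul_left (a := F ^ 2) ?_ (sq_nonneg F)
      rw [mul_sub, a6]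
      linarith)
  exact fun t ht x hx => (hiff t ht x hx).2 fun b => key b t ht x hx

theorem NRBar_log {s : ℝ} (hs : s ∈ Ioi (0 : ℝ)) : HasDerivAt Real.log s⁻¹ s ∧
    HasDerivAt (fun s : ℝ => s⁻¹) (-(s ^ 2)⁻¹) s :=
  ⟨Real.hasDerivAt_log (ne_of_gt hs), hasDerivAt_inv (ne_of_gt hs)⟩

theorem wEq (hB : BoxStmt) (hN : NearQStmt) (hD : DictStmt) (hG : GeqStmt) : WEqStmt := by
  intro d hd T t1 f0 f hT h
  have h1 := h.sol.pos
  have gpos : ∀ t ∈ Icc 0 t1, ∀ x, 0 < Gq d (T - t) x := fun t ht x => by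
    have : 0 < T - t := by linarith [ht.2]
    unfold Gq
    positivity
  have jG : JS t1 fun t x => Gq d (T - t) x := by
    refine ContDiff.contDiffOn ?_
    unfold Gq
    fun_prop
  have jP := NRBar_js hG hd h
  have jl1 : JS t1 fun t x => Real.log (NRBar_P d f t x) :=
    ContDiffOn.log jP fun p hp => (NRBar_pos h hp.1 hp.2).ne'
  have jl2 : JS t1 fun t x => Real.log (Gq d (T - t) x) :=
    ContDiffOn.log jG fun p hp => (gpos _ hp.1 _).ne'
  have jw : JS t1 fun t x => -(21 / 20) * Real.log (NRBar_P d f t x) +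
      9 / 10 * Real.log (Gq d (T - t) x) := ((JS.const _).mul jl1).add ((JS.const _).mul jl2)
  refine ⟨ContDiffOn.exp jw, fun t ht x hx => ?_⟩
  have hI : x ∈ I := ⟨hx.1, by linarith [hx.2]⟩
  obtain ⟨hn, e1, e2, e3⟩ := NRBar_near hB hN hD hG hd h ht hx
  refine ⟨congrArg (Wf d (T - t) x) e1, ?_⟩
  have hτ : HasDerivAt (fun s => T - s) (-1) t := (hasDerivAt_id t).const_sub T
  have q := hB.quad t1 (ZF f) (BF d f) (fun s => (4 * d ^ 2 + 4000 * d) * (T - s) ^ 2)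
    (fun s => -(4 * d) * (T - s)) (fun _ => 1) _ _ _ h1 t ht x hI
    ((hτ.fun_pow 2).const_mul _) (hτ.const_mul _) (hasDerivAt_const t 1)
  rw [show (fun s y : ℝ => (4 * d ^ 2 + 4000 * d) * (T - s) ^ 2 + -(4 * d) * (T - s) * y +
    1 * y ^ 2) = fun s y => Gq d (T - s) y from funext₂ fun s y => by unfold Gq; ring] at q
  obtain ⟨q1, q2⟩ := q
  obtain ⟨l1, l2⟩ := hB.comp t1 (ZF f) (BF d f) _ _ _ _ _ h1 jP isOpen_Ioi
    (fun s hs => NRBar_log hs) t ht x hI (NRBar_pos h ht hI)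
  obtain ⟨l3, l4⟩ := hB.comp t1 (ZF f) (BF d f) _ _ _ _ _ h1 jG isOpen_Ioi
    (fun s hs => NRBar_log hs) t ht x hI (gpos t ht x)
  have w1 := hB.dx_lin t1 _ _ (-(21 / 20)) (9 / 10) jl1 jl2 t ht x hI
  have w2 := hB.add t1 (ZF f) (BF d f) _ _ h1 ((JS.const (-(21 / 20))).mul jl1)
    ((JS.const (9 / 10)).mul jl2) t ht x hI
  rw [hB.smul _ _ _ _ _ h1 jl1 t ht x hI, hB.smul _ _ _ _ _ h1 jl2 t ht x hI] at w2
  have w3 := (hB.comp t1 (ZF f) (BF d f) _ Real.exp Real.exp Real.exp univ h1 jw isOpen_univ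
    (fun s _ => ⟨Real.hasDerivAt_exp s, Real.hasDerivAt_exp s⟩) t ht x hI (mem_univ _)).2
  unfold bx at e3
  rw [w1, w2, l1, l2, l3, l4, q1, q2, e2, e3] at w3
  have z1 : ZF f t x = 4 * evF nz f t x * x := hn.zz
  have z2 : BF d f t x = 2 * d + 4 * evF nz f t x := hn.bb
  have z3 : evF (nF1 d) f t x = (1 + d * f 1 t x) / d := by
    change 1 / d + f 1 t x = _
    field_simp
  have hF : evF (nF d) f t x ≠ 0 := hn.pos.ne'
  have hg := (gpos t ht x).ne'
  rw [show bx d t1 f (WW d T f) t x = _ from w3, show WW d T f t x = Real.exp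
    (-(21 / 20) * Real.log (NRBar_P d f t x) + 9 / 10 * Real.log (Gq d (T - t) x)) from rfl]
  generalize Real.exp _ = W
  rw [e1, z1, z2, z3, LamF]
  field_simp
  ring

end Vale.Agent.P244
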