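import Vale.Agent.P244.StmN

/-! P244: the scalar curvature stays bounded. -/

open Set Filter
open scoped ContDiff Topology

namespace Vale.Agent.P244

theorem NRFin_touch (hT : TouchStmt) {T x0 : ℝ} {A B u : Fn} (T0 : 0 < T) (x1 : x0 ∈ I)
    (hu : JS T u) (hs : ∀ t ∈ Icc 0 T, (∀ x ∈ I, 0 ≤ A t x) ∧ A t 0 = 0 ∧ 0 ≤ B t 0)
    (h0 : ∀ x ∈ Icc 0 x0, u 0 x < 0) (h1 : ∀ t ∈ Icc 0 T, u t x0 < 0)
    (h : ∀ t ∈ Icc 0 T, ∀ x ∈ Icc 0 x0, u t x = 0 → box T A B u t x < 0) :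
    ∀ t ∈ Icc 0 T, ∀ x ∈ Icc 0 x0, u t x < 0 :=
  hT Unit T 0 T (fun _ => u) A B (fun _ => 0) (fun _ => x0) T0 le_rfl T0.le le_rfl (fun _ => hu)
    continuous_const continuous_const (fun _ _ => ⟨le_rfl, x1.1, x1.2⟩)
    (fun t ht x hx => (hs t ht).1 x ⟨hx.1, hx.2.trans x1.2⟩)
    (.inl ⟨fun _ => rfl, fun t ht => (hs t ht).2⟩) (.inr fun _ => h1) (fun _ => h0)
    (fun _ t ht x hx e _ _ => h t (Ioc_subset_Icc_self ht) x hx e) ()

theorem NRFin_pow (hB : BoxStmt) {T t x e : ℝ} {A B P : Fn} (T0 : 0 < T) (hP : JS T P)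
    (ht : t ∈ Icc 0 T) (hx : x ∈ I) (p0 : 0 < P t x) (he : A t x * dx P t x ^ 2 = e * P t x)
    (hb : box T A B P t x = -2 - e) (a : ℝ) :
    box T A B (fun t x => P t x ^ a) t x = P t x ^ (a - 1) * (-2 * a - a ^ 2 * e) := by
  rw [(hB.comp T A B P (fun s => s ^ a) (fun s => a * s ^ (a - 1))
    (fun s => a * ((a - 1) * s ^ (a - 1 - 1))) (Ioi 0) T0 hP isOpen_Ioi (fun s hs =>
      ⟨Real.hasDerivAt_rpow_const (.inl (ne_of_gt hs)),
        (Real.hasDerivAt_rpow_const (.inl (ne_of_gt hs))).const_mul a⟩) t ht x hx p0).2,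
    hb, mul_assoc _ (A t x), he, Real.rpow_sub_one p0.ne' (a - 1)]
  field_simp
  ring

theorem NRFin_core (hT : TouchStmt) (hB : BoxStmt) {T x0 M W : ℝ} {A B R P : Fn} (T0 : 0 < T)
    (x1 : x0 ∈ I) (hR : JS T R) (hP : JS T P) (p0 : ∀ t ∈ Icc 0 T, ∀ x ∈ I, 0 < P t x)
    (hs : ∀ t ∈ Icc 0 T, (∀ x ∈ I, 0 ≤ A t x) ∧ A t 0 = 0 ∧ 0 ≤ B t 0) (M0 : 0 ≤ M) (W0 : 0 ≤ W)
    (h0 : ∀ x ∈ Icc 0 x0, R 0 x ≤ M) (h1 : ∀ t ∈ Icc 0 T, R t x0 ≤ M)
    (h : ∀ t ∈ Icc 0 T, ∀ x ∈ Icc 0 x0, P t x ≤ 1 ∧ P t x * R t x ≤ 2 ∧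
      box T A B R t x ≤ R t x ^ 2 / 100 + W * P t x ^ (1 / 20 - 1 : ℝ) ∧ ∃ e, 0 ≤ e ∧ e ≤ 1 / 10 ∧
        A t x * dx P t x ^ 2 = e * P t x ∧ box T A B P t x = -2 - e) :
    ∀ t ∈ Icc 0 T, ∀ x ∈ Icc 0 x0, R t x ≤ (M + 100 * W + 1) ^ 2 + 10 * W + M + 2 := by
  have sI : ∀ x ∈ Icc 0 x0, x ∈ I := fun x hx => ⟨hx.1, hx.2.trans x1.2⟩
  have t0 : (0 : ℝ) ∈ Icc 0 T := ⟨le_rfl, T0.le⟩
  have x2 : x0 ∈ Icc 0 x0 := ⟨x1.1, le_rfl⟩
  have jp : ∀ a : ℝ, JS T fun t x => P t x ^ a := fun a =>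
    ContDiffOn.rpow_const_of_ne hP fun p hp => (p0 _ hp.1 _ hp.2).ne'
  obtain ⟨K, hK⟩ : ∃ K, K = M + 100 * W + 1 := ⟨_, rfl⟩
  have K0 : 0 < K := by linarith
  have a1 : ∀ t ∈ Icc 0 T, ∀ x ∈ Icc 0 x0, R t x ≤ M → R t x - K * P t x ^ (-1 / 4 : ℝ) < 0 :=
    fun t ht x hx e => by
      linarith [le_mul_of_one_le_right K0.le (Real.one_le_rpow_of_pos_of_le_one_of_nonpos
        (p0 t ht x (sI x hx)) (h t ht x hx).1 (by norm_num : (-1 / 4 : ℝ) ≤ 0))]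
  have H1 := NRFin_touch hT T0 x1 (hR.sub ((JS.const K).mul (jp (-1 / 4)))) hs
    (fun x hx => a1 0 t0 x hx (h0 x hx)) (fun t ht => a1 t ht x0 x2 (h1 t ht)) fun t ht x hx e => by
      obtain ⟨b1, b2, b3, s, s0, s1, s2, s3⟩ := h t ht x hx
      have p := p0 t ht x (sI x hx)
      rw [hB.sub T A B _ _ T0 hR ((JS.const K).mul (jp _)) t ht x (sI x hx),
        hB.smul T A B _ K T0 (jp _) t ht x (sI x hx), NRFin_pow hB T0 hP ht (sI x hx) p s2 s3]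
      have c1 := mul_le_mul_of_nonneg_left (Real.rpow_le_rpow_of_exponent_ge p b1
        (by norm_num : (-1 / 4 - 1 : ℝ) ≤ 1 / 20 - 1)) W0
      have c2 : P t x ^ (-1 / 4 : ℝ) = P t x ^ (-1 / 4 - 1 : ℝ) * P t x := by
        rw [Real.rpow_sub_one p.ne', div_mul_cancel₀ _ p.ne']
      have c3 := Real.rpow_pos_of_pos p (-1 / 4 - 1)
      generalize P t x ^ (-1 / 4 - 1 : ℝ) = w at *
      have c4 : R t x ^ 2 = K * w * (P t x * R t x) := by
        rw [sq]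
        nth_rewrite 1 [sub_eq_zero.1 e]
        rw [c2]
        ring
      have c5 := mul_pos K0 c3
      have c6 : K * w = M * w + 100 * (W * w) + w := by rw [hK]; ring
      linarith [mul_le_mul_of_nonneg_left b2 c5.le, mul_le_mul_of_nonneg_left s1 c5.le,
        mul_nonneg M0 c3.le, mul_nonneg W0 c3.le]
  obtain ⟨L, hL⟩ : ∃ L, L = K ^ 2 + 10 * W + 1 := ⟨_, rfl⟩
  have L0 : 0 < L := by linarith [sq_nonneg K]
  have a2 : ∀ t ∈ Icc 0 T, ∀ x ∈ Icc 0 x0, L * P t x ^ (1 / 20 : ℝ) ≤ L := fun t ht x hx =>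
    mul_le_of_le_one_right L0.le
      (Real.rpow_le_one (p0 t ht x (sI x hx)).le (h t ht x hx).1 (by norm_num))
  have jq := hR.add ((JS.const L).mul (jp (1 / 20)))
  have H2 := NRFin_touch hT T0 x1 (jq.sub (JS.const (L + M + 1))) hs
    (fun x hx => by linarith [a2 0 t0 x hx, h0 x hx])
    (fun t ht => by linarith [a2 t ht x0 x2, h1 t ht]) fun t ht x hx e => by
      obtain ⟨b1, -, b3, s, s0, -, s2, s3⟩ := h t ht x hx
      have p := p0 t ht x (sI x hx)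
      rw [hB.sub T A B _ _ T0 jq (JS.const _) t ht x (sI x hx),
        hB.add T A B _ _ T0 hR ((JS.const L).mul (jp _)) t ht x (sI x hx),
        hB.smul T A B _ L T0 (jp _) t ht x (sI x hx), NRFin_pow hB T0 hP ht (sI x hx) p s2 s3,
        hB.ofT T A B (fun _ => L + M + 1) 0 T0 t ht x (sI x hx) (hasDerivWithinAt_const _ _ _)]
      have c1 : R t x ^ 2 ≤ K ^ 2 * P t x ^ (1 / 20 - 1 : ℝ) := by
        refine (pow_le_pow_left₀ (by linarith [a2 t ht x hx])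
          (sub_neg.1 (H1 t ht x hx)).le 2).trans ?_
        rw [mul_pow, ← Real.rpow_natCast (_ ^ (-1 / 4 : ℝ)), ← Real.rpow_mul p.le]
        exact mul_le_mul_of_nonneg_left (Real.rpow_le_rpow_of_exponent_ge p b1 (by norm_num))
          (sq_nonneg K)
      have c3 := Real.rpow_pos_of_pos p (1 / 20 - 1)
      generalize P t x ^ (1 / 20 - 1 : ℝ) = w at *
      have c6 : L * w = K ^ 2 * w + 10 * (W * w) + w := by rw [hL]; ring
      linarith [mul_nonneg (mul_pos L0 c3).le s0, mul_nonneg (sq_nonneg K) c3.le]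
  intro t ht x hx
  rw [← hK]
  linarith [H2 t ht x hx, mul_pos L0 (Real.rpow_pos_of_pos (p0 t ht x (sI x hx)) (1 / 20))]

theorem NRFin_se {d : ℝ} (hd : 196 ≤ d) (q : Q) : 0 ≤ SE d q ∧ Rs d q ^ 2 ≤ (d + 4) * SE d q ∧
    2 * SE d q ≤ Rs d q ^ 2 / 100 + 2 * (D0 d q ^ 2 + 2 * D2 d q ^ 2) := by
  have e : (d + 4) * SE d q = Rs d q ^ 2 + (d + 4) * (D0 d q ^ 2 + 2 * D2 d q ^ 2) -
      (D0 d q + 2 * D2 d q) ^ 2 := by
    unfold SE Rs D0 D2
    ring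
  have h0 : 0 ≤ D0 d q ^ 2 + 2 * D2 d q ^ 2 := by positivity
  refine ⟨by have : 0 ≤ d + 1 := by linarith
             unfold SE; positivity, ?_, le_of_mul_le_mul_left ?_ (by linarith : 0 < d + 4)⟩
  · nlinarith [sq_nonneg (D0 d q - D2 d q), mul_nonneg (by linarith : 0 ≤ d + 1) h0]
  · nlinarith [sq_nonneg (D0 d q + 2 * D2 d q),
      mul_nonneg (by linarith : 0 ≤ d - 196) (sq_nonneg (Rs d q))]

theorem NRFin_loc (hB : BoxStmt) (hD : DictStmt) (hG : GeqStmt) {d t1 t x : ℝ} {f0 : Pf}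
    {f : Fin 3 → Fn} (hd : 10 ^ 8 ≤ d) (h : RSol d f0 t1 f) (ht : t ∈ Icc 0 t1) (h0 : 0 ≤ x)
    (h1 : x ≤ 1 / 8) (hg : GeoQ d (pt (sl f t) x)) : ∃ e, 0 ≤ e ∧ e ≤ 1 / 10 ∧
      ZF f t x * dx (fun t x => PhF d f t x + ch x) t x ^ 2 = e * (PhF d f t x + ch x) ∧
      bx d t1 f (fun t x => PhF d f t x + ch x) t x = -2 - e := by
  have d0 : 0 < d := by linarith
  have hx : x ∈ I := ⟨h0, by linarith⟩
  obtain ⟨c1, -, c2⟩ := hB.congr t1 (ZF f) (BF d f) (fun t x => PhF d f t x + ch x) (PhF d f) t ht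
    x hx (Iio (1 / 4)) (Iio_mem_nhds (by linarith)) fun s _ y hy => by
      simp only [ch_zero (le_of_lt hy.1), add_zero]
  have p : 0 < PhF d f t x := PhP_pos (h.sol.mem t ht x hx) (show x < 1 by linarith)
  have e : nF d (pt (sl f t) x) * A2 d (pt (sl f t) x) * 4 =
      ZF f t x * dx (PhF d f) t x ^ 2 / PhF d f t x := by
    rw [show dx (PhF d f) t x = _ from (hD d d0 _ (h.prof ht) x hx).ph,
      show nF d (pt (sl f t) x) = PhF d f t x from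
        (PhP_left d (p := bs (pt (sl f t) x)) (show x ≤ 1 / 4 by linarith)).symm]
    show PhF d f t x * (ZF f t x * _ ^ 2 / (4 * PhF d f t x ^ 2)) * 4 = _
    field_simp
  have s : et d ≤ 1 / 10 ^ 4 :=
    one_div_le_one_div_of_le (by norm_num) (Real.le_sqrt_of_sq_le (by linarith))
  rw [bx, c1, c2, ch_zero (by linarith), add_zero]
  exact ⟨_, div_nonneg (mul_nonneg (((hG.js d d0 f0 t1 f h.sol).sign t ht).1 x hx) (sq_nonneg _))
    p.le, by linarith [hg.a2.2], (div_mul_cancel₀ _ p.ne').symm,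
    (hG.eq d d0 f0 t1 f h t ht x hx).ph (by linarith)⟩

theorem rFin (hT : TouchStmt) (hB : BoxStmt) (hGr : GronStmt) (hN : NearQStmt) (hD : DictStmt)
    (hG : GeqStmt) (hE : Evo2Stmt) (hP : PhiWStmt) : RFinStmt := by
  intro d hd x0 hx0 T hT0 ρ hρ δ CS f0 f hS hA
  have d0 : 0 < d := by linarith
  obtain ⟨W, hW⟩ := hP.fin d (by linarith) T hT0.1 ρ hρ
  obtain ⟨M0, hM⟩ := (hG.js d d0 f0 _ f (hS (T / 2)
    ⟨half_pos hT0.1, half_lt_self hT0.1⟩).sol).rs.bdd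
  replace hM := fun x hx => (hM 0 ⟨le_rfl, (half_pos hT0.1).le⟩ x hx).trans (le_abs_self M0)
  have x1 : x0 ∈ I := ⟨hx0.1.le, by linarith [hx0.2]⟩
  have m0 : 0 < 4 * d / x0 := div_pos (by linarith) hx0.1
  obtain ⟨M, hM1⟩ : ∃ M, M = |M0| + 4 * d / x0 := ⟨_, rfl⟩
  have m1 := abs_nonneg M0
  have m2 : 0 ≤ (M + 100 * (24 * |W|) + 1) ^ 2 + 10 * (24 * |W|) + M + 2 := by
    rw [hM1]; positivity
  refine ⟨(M + 100 * (24 * |W|) + 1) ^ 2 + 10 * (24 * |W|) + M + 2 + |M0| + |(d + 4) * CS| + 1,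
    fun t ht x hx => ?_⟩
  obtain ⟨t1, t2, t3⟩ := exists_between ht.2
  have h := hS t1 ⟨ht.1.trans_lt t2, t3⟩
  have J := hG.js d d0 f0 t1 f h.sol
  have T0 := h.sol.pos
  replace hA := fun s (hs : s ∈ Icc 0 t1) => hA s ⟨hs.1, hs.2.trans_lt t3⟩
  have ht' : t ∈ Icc 0 t1 := ⟨ht.1, t2.le⟩
  have lo := hGr t1 _ (ZF f) (BF d f) 0 0 |M0| T0 ((JS.const (-1)).mul J.rs) le_rfl le_rfl m1
    J.sign (fun y hy => by linarith [(abs_le.1 (hM y hy)).1]) (fun s hs y hy _ => by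
      rw [hB.smul t1 _ _ _ (-1) T0 J.rs s hs y hy, show box t1 (ZF f) (BF d f) _ s y = _ from
        (hE d d0 f0 t1 f h s hs y hy).rs]
      linarith [show 0 ≤ evF (SE d) f s y from (NRFin_se (by linarith) _).1]) t ht' x hx
  simp only [zero_mul, add_zero, Real.exp_zero, mul_one] at lo
  have eP : ∀ s, ∀ y ∈ Icc 0 x0, PhF d f s y + ch y = nF d (pt (sl f s) y) := fun s y hy => by
    have : y ≤ 1 / 4 := by linarith [hy.2, hx0.2]
    rw [ch_zero this, add_zero]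
    exact PhP_left d this
  have pP : ∀ s ∈ Icc 0 t1, ∀ y ∈ I, 0 < PhF d f s y + ch y := fun s hs y hy => by
    rcases hy.2.lt_or_eq with e | e
    · exact add_pos_of_pos_of_nonneg (PhP_pos (h.sol.mem s hs y hy) e) (ch_nonneg y)
    · simp [e, PhF, evF, PhP, Ph, bs, pt, ch_one one_half_lt_one.le,
        ph0_right d one_half_lt_one.le, gam_one (by norm_num : (3 / 4 : ℝ) ≤ 1)]
  have up := NRFin_core hT hB (M := M) (W := 24 * |W|) T0 x1 J.rs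
    (J.ph.add (JS.ofX contDiff_ch.contDiffOn)) pP
    (fun s hs => ⟨(J.sign s hs).1, (J.sign s hs).2.1, (J.sign s hs).2.2.1⟩) (by linarith)
    (by positivity) (fun y hy => by linarith [(abs_le.1 (hM y ⟨hy.1, hy.2.trans x1.2⟩)).2])
    (fun s hs => by
      have a1 := (hA s hs).2.1.x x0 ⟨x1.1, le_rfl⟩
      have a2 := (hA s hs).2.1.rs x0 ⟨x1.1, le_rfl⟩
      have a3 : |evF (Rs d) f s x0| ≤ 4 * d / x0 := (le_div_iff₀ hx0.1).2 (by
        have := mul_le_mul_of_nonneg_left a1 (abs_nonneg (Rs d (pt (sl f s) x0)))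
        have := mul_le_mul_of_nonneg_left a2 d0.le
        unfold evF
        linarith)
      linarith [le_abs_self (evF (Rs d) f s x0)]) (fun s hs y hy => by
      obtain ⟨g1, g2, -, g4, g5⟩ := hA s hs
      have hI : y ∈ I := ⟨hy.1, hy.2.trans x1.2⟩
      have p := pP s hs y hI
      have τ0 : 0 < T - s := sub_pos.2 (hs.2.trans_lt t3)
      have a1 : y / d ≤ y := div_le_self hy.1 (by linarith)
      refine ⟨?_, ?_, ?_, NRFin_loc hB hD hG hd h hs hy.1 (hy.2.trans hx0.2) (g1 y hy)⟩ <;>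
        rw [eP s y hy] at *
      · linarith [g4.up y hy, mul_div_assoc (11 / 10) y d, hy.2, hx0.2, hT0.2, hs.1]
      · exact (mul_le_mul_of_nonneg_left (le_abs_self _) p.le).trans (g2.rs y hy)
      · have a2 := hW (T - s) y _ τ0 (by linarith [hs.1]) hI p (g2.x y hy) fun e => by
          have a3 : 1000 * √d * (T - s) ≤ d * (T - s) := by
            refine mul_le_mul_of_nonneg_right ?_ τ0.le
            nlinarith [Real.mul_self_sqrt d0.le, Real.sqrt_nonneg d,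
              show 1000 ≤ √d from Real.le_sqrt_of_sq_le (by linarith)]
          exact (g4.inn y ⟨hy.1, by unfold lw; linarith⟩).trans
            (le_add_of_nonneg_left (div_nonneg hy.1 d0.le))
        have a3 := (le_div_iff₀ (Real.rpow_pos_of_pos p _)).2 (a2.trans (le_abs_self W))
        rw [div_eq_mul_inv, ← Real.rpow_neg p.le, show -(19 / 20 : ℝ) = 1 / 20 - 1 by norm_num] at a3
        have a4 := sq_le_sq' (abs_le.1 (g5 y hy).1).1 (abs_le.1 (g5 y hy).1).2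
        have a5 := sq_le_sq' (abs_le.1 (g5 y hy).2).1 (abs_le.1 (g5 y hy).2).2
        rw [show box t1 (ZF f) (BF d f) _ s y = _ from (hE d d0 f0 t1 f h s hs y hI).rs]
        unfold evF
        linarith [(NRFin_se (d := d) (by linarith) (pt (sl f s) y)).2.2]) t ht'
  have m3 := abs_nonneg ((d + 4) * CS)
  refine abs_le.2 ⟨by linarith, ?_⟩
  rcases le_total x x0 with e | e
  · linarith [up x ⟨hx.1, e⟩]
  · have a1 := mul_le_mul_of_nonneg_left ((hA t ht').2.2.1.se x ⟨by linarith [hx0.1], hx.2⟩)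
      (by linarith : 0 ≤ d + 4)
    unfold evF
    linarith [(NRFin_se (d := d) (by linarith) (pt (sl f t) x)).2.1, le_abs_self ((d + 4) * CS),
      sq_nonneg (Rs d (pt (sl f t) x) - 1), sq_nonneg (Rs d (pt (sl f t) x))]

end Vale.Agent.P244
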