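import Vale.Agent.P244.StmN

open Set Filter
open scoped ContDiff Topology

namespace Vale.Agent.P244

theorem NSol_cont {X : Type*} [TopologicalSpace X] {g : ℝ → X} {tm : ℝ} (h0 : 0 < tm)
    (h : ∀ t ∈ Ioo 0 tm, ContinuousOn g (Icc 0 t)) : ContinuousOn g (Ico 0 tm) := fun t ht => by
  have h1 := h ((t + tm) / 2) ⟨by linarith [ht.1], by linarith [ht.2]⟩ t
    ⟨ht.1, by linarith [ht.2]⟩
  refine h1.mono_of_mem_nhdsWithin ?_
  filter_upwards [self_mem_nhdsWithin,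
    mem_nhdsWithin_of_mem_nhds (Iic_mem_nhds (show t < (t + tm) / 2 by linarith [ht.2]))] with s a b
  exact ⟨a.1, b⟩

theorem NSol_exit {g : ℝ → ℝ} {c t t2 : ℝ} (hc : 0 < c) (h0 : 0 ≤ t) (ht : t < t2)
    (h : HasDerivWithinAt g c (Icc 0 t2) t) (hg : g t = 0) {ε : ℝ} (hε : 0 < ε) :
    ∃ s ∈ Ioo t (t + ε), s < t2 ∧ 0 < g s := by
  have h1 : 𝓝[>] t ≤ 𝓝[Icc 0 t2 \ {t}] t := nhdsWithin_le_iff.2 <| by
    filter_upwards [Ioo_mem_nhdsGT ht] with s hs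
    exact ⟨⟨h0.trans hs.1.le, hs.2.le⟩, hs.1.ne'⟩
  have h2 := ((hasDerivWithinAt_iff_tendsto_slope.1 h).mono_left h1).eventually (lt_mem_nhds hc)
  have h3 : ∀ᶠ s in 𝓝[>] t, s ∈ Ioo t t2 := Ioo_mem_nhdsGT ht
  have h4 : ∀ᶠ s in 𝓝[>] t, s ∈ Ioo t (t + ε) := Ioo_mem_nhdsGT (lt_add_of_pos_right t hε)
  obtain ⟨s, a1, a2, a3⟩ := (h2.and (h3.and h4)).exists
  refine ⟨s, a3, a2.2, ?_⟩
  rw [slope_def_field, hg, sub_zero] at a1
  exact (div_pos_iff_of_pos_right (sub_pos.2 a2.1)).1 a1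

theorem NSol_le {g : ℝ → ℝ} {t : ℝ} (ht : 0 < t) (hc : ContinuousOn g (Icc 0 t))
    (h : ∀ u ∈ Ico 0 t, g u < 0) : ∀ u ∈ Icc 0 t, g u ≤ 0 := by
  have h1 := le_on_closure (f := g) (g := fun _ => 0) (s := Ico 0 t) (fun u hu => (h u hu).le)
    (by rwa [closure_Ico ht.ne]) continuousOn_const
  rwa [closure_Ico ht.ne] at h1

theorem sol (hY : SysStmt) (hM : MaxStmt) (hC : ConStmt) (hA : ModeAStmt) (hL : GapStmt)
    (hT : TopoStmt) (hR : RFinStmt) (hP : AprStmt) (hS : SolAStmt) : SolStmt := by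
  obtain ⟨k, x0, δ, CS, T, θ, h⟩ := hP
  have hk2 : 2 ≤ k := le_trans (by norm_num) h.hk
  have hk : (10 : ℝ) ^ 8 ≤ k := by exact_mod_cast h.hk
  have hd : (0 : ℝ) < 2 * k := by linarith [show (0 : ℝ) < 10 ^ 8 by norm_num]
  have hT0 := h.hT.1
  have hρ : 0 < rho (2 * k) T := mul_pos (pow_pos hd _) (pow_pos hT0 _)
  have key : ∀ α ∈ Ball (2 * θ), ∃ tm ∈ Ioc 0 T, ∃ f,
      (∀ t ∈ Ioo 0 tm, RSol (2 * k) (ini k T α) t f) ∧
      (tm < T → ∀ K ⊆ Om (2 * k), IsCompact K → ∀ Cg : ℝ, ¬ ∀ t ∈ Ico 0 tm, ∀ x ∈ I,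
        (x, val (sl f t) x) ∈ K ∧ ∀ i, |gr (sl f t) x i| ≤ Cg) := fun α hα => by
    obtain ⟨tm, h1, f, h2, h3⟩ := hM _ _ _ (hY _ hd) _ (h.prof α hα).sm (h.prof α hα).mem T hT0
    exact ⟨tm, h1, f, fun t ht => hC _ hd _ _ _ (h2 t ht) (h.prof α hα).con, h3⟩
  choose! tm htm f hf hmax using key
  have hmid : ∀ α ∈ Ball (2 * θ), ∀ t ∈ Ico 0 (tm α), (t + tm α) / 2 ∈ Ioo 0 (tm α) ∧
      t < (t + tm α) / 2 ∧ (t + tm α) / 2 < T := fun α hα t ht =>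
    ⟨⟨by linarith [ht.1, (htm α hα).1], by linarith [ht.2]⟩, by linarith [ht.2],
      by linarith [ht.2, (htm α hα).2]⟩
  have hcont : ∀ α ∈ Ball (2 * θ), ∀ t ∈ Ioo 0 (tm α),
      ContinuousOn (aT k x0 T (f α)) (Icc 0 t) ∧ ContinuousOn (gT k x0 T θ (f α)) (Icc 0 t) :=
    fun α hα t ht => by
      obtain ⟨c1, c2⟩ := hA.cont k hk2 x0 h.hx T t (f α) ht.1 (ht.2.trans_le (htm α hα).2)
        ((hf α hα t ht).sol.js 0)
      have c3 := continuousOn_pi.1 c1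
      exact ⟨c1, (((((c3 0).pow 2).add ((c3 1).pow 2)).add ((c3 2).pow 2)).sub c2).sub
        (continuousOn_const.mul ((c3 3).pow 2))⟩
  have hini : ∀ α ∈ Ball (2 * θ), aT k x0 T (f α) 0 = am k (FF x0 T (ini k T α 0)) ∧
      sT k x0 T (f α) 0 = SS k (FF x0 T (ini k T α 0)) := fun α hα => by
    rw [aT, sT, sub_zero]
    exact hA.congr x0 h.hx T hT0 _ _
      ((hf α hα _ (hmid α hα 0 ⟨le_rfl, (htm α hα).1⟩).1).sol.init 0) k
  obtain ⟨α, hα, hG⟩ := hT (2 * θ) tm (fun α => gT k x0 T θ (f α))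
    (fun α t i => aT k x0 T (f α) t i.castSucc) (by linarith [h.hθ.1])
    (fun α hα => ⟨(htm α hα).1, NSol_cont (htm α hα).1 fun t ht => (hcont α hα t ht).2,
      NSol_cont (htm α hα).1 fun t ht => continuousOn_pi.2 fun i =>
        continuousOn_pi.1 (hcont α hα t ht).1 i.castSucc⟩)
    (fun α hα t ht ε hε => by
      obtain ⟨m1, m2, m3⟩ := hmid α hα t ht
      obtain ⟨η, hη, h1⟩ := hS.stab k x0 δ CS T θ h α hα _ _ m3 (hf α hα _ m1) ε hε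
      refine ⟨η, hη, fun β hβ hβα s hs hsβ hu => ?_⟩
      obtain ⟨n1, n2, n3⟩ := hmid β hβ s ⟨hs.1, hsβ⟩
      obtain ⟨h2, h3⟩ := h1 β hβ hβα _ _ n3 (hf β hβ _ n1) s
        ⟨hs.1, le_min (hs.2.trans m2.le) n2.le⟩ hu
      exact ⟨h2, (pi_norm_le_iff_of_nonneg hε.le).2 fun i => h3 _⟩)
    (fun α hα t ht hu h0 ε hε => by
      obtain ⟨m1, m2, m3⟩ := hmid α hα t ht
      obtain ⟨c, hc, h1⟩ := h.exit α hα _ _ m3 (hf α hα _ m1) t ⟨ht.1, m2.le⟩ (fun s hs => by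
        rcases hs.2.eq_or_lt with rfl | h'
        · exact h0.le
        · exact (hu s ⟨hs.1, h'⟩).le) h0
      obtain ⟨s, a1, a2, a3⟩ := NSol_exit hc ht.1 m2 h1 h0 hε
      exact ⟨s, a1, a2.trans m1.2, a3⟩)
    (fun α hα t ht hu h0 he => by
      obtain ⟨m1, m2, m3⟩ := hmid α hα t ht
      have htT : 0 < T - t := by linarith
      have a1 : 0 < aT k x0 T (f α) t 3 := by
        rcases ht.1.eq_or_lt with rfl | h'
        · rw [(hini α hα).1]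
          exact h.pos α hα
        · refine lt_of_lt_of_le ?_ (h.good α hα t _ (by linarith) (hf α hα t ⟨h', ht.2⟩)
            (NSol_le h' (hcont α hα t ⟨h', ht.2⟩).2 hu) t ⟨h'.le, le_rfl⟩).a3
          positivity
      have a2 := hL k hk2 _ (hA.cs x0 h.hx _ htT _
        (((hf α hα _ m1).prof ⟨ht.1, m2.le⟩).sm 0))
      have a3 : 0 ≤ sT k x0 T (f α) t := le_trans (by linarith [a2.nonneg]) a2.gap
      have b0 : aT k x0 T (f α) t 0 = 0 := congrFun he 0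
      have b1 : aT k x0 T (f α) t 1 = 0 := congrFun he 1
      have b2 : aT k x0 T (f α) t 2 = 0 := congrFun he 2
      have a4 := mul_pos h.hθ.1 (pow_pos a1 2)
      simp only [gT, G1, b0, b1, b2] at h0
      linarith)
    (fun α he => by
      have hα : α ∈ Ball (2 * θ) := he.le
      simp only [gT, (hini α hα).1, (hini α hα).2]
      exact h.bdry α he)
  have hgood : ∀ t ∈ Ico 0 (tm α), Good k x0 δ CS T t (sl (f α) t) := fun t ht => by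
    obtain ⟨m1, m2, m3⟩ := hmid α hα t ht
    exact h.good α hα _ _ m3 (hf α hα _ m1) (fun s hs => (hG s ⟨hs.1, hs.2.trans_lt m1.2⟩).le) t
      ⟨ht.1, m2.le⟩
  have heq : tm α = T := by
    by_contra hne
    have hlt := (htm α hα).2.lt_of_ne hne
    obtain ⟨K, hK, hKc, Cg, h1⟩ := hS.cpt k x0 δ CS T θ h _ hlt
    refine hmax α hα hlt K hK hKc Cg fun t ht => h1 t ⟨ht.1, ht.2.le⟩ _ ?_ (hgood t ht)
    obtain ⟨m1, m2, -⟩ := hmid α hα t ht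
    exact (hf α hα _ m1).prof ⟨ht.1, m2.le⟩
  have hsol := hf α hα
  rw [heq] at hsol hgood
  refine ⟨k, T, _, f α, by omega, hT0, hsol, hR _ (by linarith) x0 h.hx T h.hT _ hρ δ CS _ _ hsol
    fun t ht => ⟨(hgood t ht).geo, (hgood t ht).wbn, (hgood t ht).wbf, (hgood t ht).fb,
      (hgood t ht).dw⟩, fun t ht => ?_⟩
  have a1 := (hgood t ht).fb.up 0 ⟨le_rfl, h.hx.1.le⟩
  have a2 : PhF (2 * k) (f α) t 0 = nF (2 * k) (pt (sl (f α) t) 0) :=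
    PhP_left _ (show (0 : ℝ) ≤ 1 / 4 by norm_num)
  rw [a2]
  simpa using a1

end Vale.Agent.P244
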