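import Vale.Agent.P244.StmN

/-! P244: compactness and stability inside the tube. -/

open Set Filter
open scoped ContDiff Topology

namespace Vale.Agent.P244

theorem NSolA_cpt (hC : CompactStmt) {k : ℕ} {x0 δ CS T θ : ℝ} (h : Apr k x0 δ CS T θ) (t2 : ℝ)
    (h2 : t2 < T) : ∃ K ⊆ Om (2 * k), IsCompact K ∧ ∃ Cg,
    ∀ t ∈ Icc 0 t2, ∀ g, Prof (2 * k) g → Good k x0 δ CS T t g →
    ∀ x ∈ I, (x, val g x) ∈ K ∧ ∀ i, |gr g x i| ≤ Cg := by
  have hk : (10 : ℝ) ^ 8 ≤ k := by exact_mod_cast h.hk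
  have T0 := h.hT.1
  have d0 : (0 : ℝ) < 2 * k := by linarith
  have r0 : 0 < rho (2 * k) T := by unfold rho; positivity
  have t0 : 0 < T - t2 := sub_pos.2 h2
  obtain ⟨K, hK, cK, Cg, H⟩ := hC.cpt (2 * k) (by linarith) x0 h.hx δ CS h.del
    (min (rho (2 * k) T / 2 * ((T - t2) / T) ^ (151 / 50 : ℝ)) ((T - t2) / 2)) (by positivity)
  refine ⟨K, hK, cK, Cg, fun t ht g hg G => H g hg G.geo G.wbf 0 ⟨le_rfl, by linarith [h.hx.1]⟩
    fun x hx => ?_⟩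
  have tt : T - t2 ≤ T - t := by linarith [ht.2]
  rcases le_total x (lw (2 * k) (T - t)) with h1 | h1
  · have e : ((T - t2) / T) ^ (151 / 50 : ℝ) ≤ ((T - t) / T) ^ (151 / 50 : ℝ) := by gcongr
    have e2 := mul_le_mul_of_nonneg_left e (half_pos r0).le
    have e3 := div_nonneg hx.1 d0.le
    exact (min_le_left _ _).trans (e2.trans ((G.fb.inn x ⟨hx.1, h1⟩).trans
      (le_add_of_nonneg_left e3)))
  · have e : x ≤ 2 * (2 * k) * nF (2 * k) (pt g x) := (G.geo x hx).x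
    have s : 1000 * √(2 * k : ℝ) ≤ 2 * k := by
      have := Real.le_sqrt' (x := 1000) (y := 2 * k) (by norm_num) |>.2 (by linarith)
      nlinarith [Real.mul_self_sqrt d0.le]
    have e2 := mul_le_mul_of_nonneg_right s (t0.le.trans tt)
    unfold lw at h1
    refine (min_le_right _ _).trans (le_of_mul_le_mul_left ?_ d0)
    nlinarith [mul_le_mul_of_nonneg_left tt d0.le]

theorem NSolA_sq {a b C w : ℝ} (h1 : |b| ≤ C) (h2 : |a - b| ≤ w) (h3 : w ≤ 1) :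
    |a ^ 2 - b ^ 2| ≤ w * (2 * C + 1) := by
  rw [sq_sub_sq, abs_mul, mul_comm]
  refine mul_le_mul h2 ?_ (abs_nonneg _) ((abs_nonneg _).trans h2)
  rw [abs_le] at *
  constructor <;> linarith [h1.1, h1.2, h2.1, h2.2]

theorem NSolA_G {θ C w S S' : ℝ} {a b : Fin 4 → ℝ} (hθ : θ ∈ Ioc (0 : ℝ) (1 / 100))
    (h : ∀ j, |b j| ≤ C ∧ |a j - b j| ≤ w) (hS : |S - S'| ≤ w) (h3 : w ≤ 1) :
    |G1 θ a S - G1 θ b S'| ≤ w * (8 * C + 5) := by
  have e := fun j => NSolA_sq (h j).1 (h j).2 h3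
  have e3 : |θ * (a 3 ^ 2 - b 3 ^ 2)| ≤ 1 * (w * (2 * C + 1)) := by
    rw [abs_mul, abs_of_pos hθ.1]
    exact mul_le_mul (by linarith [hθ.2]) (e 3) (abs_nonneg _) zero_le_one
  have e0 := abs_le.1 (e 0)
  have e1 := abs_le.1 (e 1)
  have e2 := abs_le.1 (e 2)
  unfold G1
  rw [abs_le] at *
  constructor <;> linarith [e0.1, e0.2, e1.1, e1.2, e2.1, e2.2, e3.1, e3.2, hS.1, hS.2]

theorem NSolA_bd {T : ℝ} {u : Fin 3 → Fn} (h : ∀ i, JS T (u i)) :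
    ∃ C, ∀ i, ∀ t ∈ Icc 0 T, ∀ x ∈ I, |u i t x| ≤ C := by
  choose C hC using fun i => (h i).bdd
  obtain ⟨j, hj⟩ := Finite.exists_max C
  exact ⟨C j, fun i t ht x hx => (hC i t ht x hx).trans (hj i)⟩

theorem NSolA_dif (hY : SysStmt) (hSt : StabStmt) (hC : CompactStmt) (hA : ModeAStmt) {k : ℕ}
    {x0 δ CS T θ : ℝ} (h : Apr k x0 δ CS T θ) {α : V3} (hα : α ∈ Ball (2 * θ)) {t2 : ℝ}
    {f' : Fin 3 → Fn} (h2 : t2 < T) (hf' : RSol (2 * k) (ini k T α) t2 f') :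
    ∃ C > 0, ∀ β ∈ Ball (2 * θ), ∀ t3 f, RSol (2 * k) (ini k T β) t3 f →
      ∀ s ∈ Icc 0 (min t2 t3), (∀ u ∈ Ico 0 s, gT k x0 T θ f u < 0) →
      ∀ i, ∀ x ∈ I, |f i s x - f' i s x| ≤ C * ‖β - α‖ := by
  have hk : (10 : ℝ) ^ 8 ≤ k := by exact_mod_cast h.hk
  have B : Ball (2 * θ) ⊆ Ball (1 / 50) := fun γ hγ =>
    le_trans (b := 2 * θ) (c := 1 / 50) hγ (by linarith [h.hθ.2])
  obtain ⟨K, hK, cK, Cg, H⟩ := NSolA_cpt hC h t2 h2
  obtain ⟨C₁, h₁⟩ := NSolA_bd fun i => (hf'.sol.js i).dx hf'.sol.pos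
  obtain ⟨C₂, h₂⟩ := NSolA_bd fun i => ((hf'.sol.js i).dx hf'.sol.pos).dx hf'.sol.pos
  have c : ContinuousOn (fun p : ℝ × ℝ => (p.2, val (sl f' p.1) p.2)) (Icc 0 t2 ×ˢ I) :=
    continuousOn_snd.prodMk (continuousOn_pi.2 fun i => (hf'.sol.js i).cont)
  obtain ⟨C, C0, S⟩ := hSt.stab (2 * k) _ _ (hY (2 * k) (by linarith))
    (K ∪ (fun p : ℝ × ℝ => (p.2, val (sl f' p.1) p.2)) '' (Icc 0 t2 ×ˢ I))
    (union_subset hK (image_subset_iff.2 fun p hp => hf'.sol.mem p.1 hp.1 p.2 hp.2))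
    (cK.union ((isCompact_Icc.prod isCompact_Icc).image_of_continuousOn c))
    (max Cg (max C₁ C₂)) T
  obtain ⟨L, L0, hL⟩ := h.lip
  refine ⟨(C + 1) * (L + 1), by positivity, fun β hβ t3 f hf s hs hg i x hx => ?_⟩
  have l := hL β (B hβ) α (B hα)
  have n0 := norm_nonneg (β - α)
  have m := mul_nonneg C0 n0
  have m2 := mul_nonneg C0 (mul_nonneg L0 n0)
  rcases hs.1.eq_or_lt with rfl | s0
  · rw [hf.sol.init i x hx, hf'.sol.init i x hx]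
    linarith [l i x hx]
  · have s2 := hs.2.trans (min_le_left _ _)
    have r := hf.mono s0 (hs.2.trans (min_le_right _ _))
    obtain ⟨c1, c2⟩ := hA.cont k (by linarith [h.hk]) x0 h.hx T s f s0 (s2.trans_lt h2)
      (r.sol.js 0)
    have c3 := fun j => (continuous_apply j).comp_continuousOn c1
    have G := h.good β hβ s f (s2.trans_lt h2) r (le_of_Ioo s0 (h := fun _ => 0)
      ((((((c3 0).pow 2).add ((c3 1).pow 2)).add ((c3 2).pow 2)).sub c2).sub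
        (continuousOn_const.mul ((c3 3).pow 2))) continuousOn_const
      fun u hu => (hg u (Ioo_subset_Ico_self hu)).le)
    have e := S s (s2.trans h2.le) _ _ f f' r.sol (hf'.mono s0 s2).sol (fun t ht y hy => by
      have t2 := Icc_subset_Icc_right s2 ht
      obtain ⟨e1, e2⟩ := H t t2 _ (r.prof ht) (G t ht) y hy
      exact ⟨Or.inl e1, Or.inr ⟨(t, y), ⟨t2, hy⟩, rfl⟩, fun j => ⟨(e2 j).trans (le_max_left _ _),
        (h₁ j t t2 y hy).trans (le_max_of_le_right (le_max_left _ _)),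
        (h₂ j t t2 y hy).trans (le_max_of_le_right (le_max_right _ _))⟩⟩) _ l i s
      ⟨s0.le, le_rfl⟩ x hx
    linarith [mul_nonneg L0 n0]

theorem solA (hY : SysStmt) (hSt : StabStmt) (hC : CompactStmt) (hA : ModeAStmt) : SolAStmt := by
  refine ⟨fun k x0 δ CS T θ h => NSolA_cpt hC h, fun k x0 δ CS T θ h α hα t2 f' h2 hf' ε hε => ?_⟩
  obtain ⟨C₁, c₁, H⟩ := NSolA_dif hY hSt hC hA h hα h2 hf'
  obtain ⟨M, hM⟩ := NSolA_bd hf'.sol.js
  obtain ⟨ε0, e0, C, C0, S⟩ := hA.stab k (by linarith [h.hk]) x0 h.hx T M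
  refine ⟨min ε0 (min 1 ε / ((C + 1) * (8 * C + 5))) / C₁, by positivity,
    fun β hβ hη t3 f h3 hf s hs hg => ?_⟩
  have d := H β hβ t3 f hf s hs hg
  rw [lt_div_iff₀' c₁, lt_min_iff, lt_div_iff₀ (by positivity), lt_min_iff] at hη
  have n0 : 0 ≤ C₁ * ‖β - α‖ := by positivity
  generalize C₁ * ‖β - α‖ = e at d hη n0
  have s2 : s ∈ Icc 0 t2 := ⟨hs.1, hs.2.trans (min_le_left _ _)⟩
  have s3 : s ∈ Icc 0 t3 := ⟨hs.1, hs.2.trans (min_le_right _ _)⟩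
  obtain ⟨e1, e2⟩ := S (T - s) ⟨by linarith [s2.2], by linarith [hs.1]⟩ (f 0 s) (f' 0 s)
    ((hf.sol.js 0).sm s3) ((hf'.sol.js 0).sm s2) e ⟨n0, hη.1.le⟩ fun x hx => by
      have a1 : d1 (f 0 s) x = f 1 s x := (hf.con s s3 x hx).symm
      have a2 : d1 (f' 0 s) x = f' 1 s x := (hf'.con s s2 x hx).symm
      rw [a1, a2]
      exact ⟨hM 0 s s2 x hx, hM 1 s s2 x hx, d 0 x hx, d 1 x hx⟩
  have w0 := mul_nonneg C0 n0
  have w1 := mul_nonneg C0 w0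
  exact ⟨(NSolA_G h.hθ e1 e2 (by linarith [hη.2.1])).trans (by linarith [hη.2.2]),
    fun j => (e1 j).2.trans (by linarith [hη.2.2])⟩

end Vale.Agent.P244
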