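import Vale.Agent.P244.StmN

/-! P244: one step of the bootstrap argument. -/

open Set Filter
open scoped ContDiff Topology

namespace Vale.Agent.P244

theorem NStep_pt {d T : ℝ} {f0 : Pf} {f : Fin 3 → Fn} (h : RSol d f0 T f) {x : ℝ} (hx : x ∈ I) :
    pt (sl f 0) x = pt f0 x := by
  refine Prod.ext rfl (Prod.ext (funext fun i => h.sol.init i x hx) (funext fun i => ?_))
  exact congrArg (om x * ·) (d1_congr (h.sol.init i) hx)

theorem NStep_pos {d x0 : ℝ} {g : Pf} (h : Prof d g) (hx0 : x0 ≤ 1 / 8) {x : ℝ}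
    (hx : x ∈ Icc 0 x0) : 0 < nF d (pt g x) := by
  have := PhP_pos (h.mem x ⟨hx.1, by linarith [hx.2]⟩) (by linarith [hx.2] : x < 1)
  rwa [PhP_left d (by linarith [hx.2] : x ≤ 1 / 4)] at this

theorem NStep_lw {d τ : ℝ} (hd : 10 ^ 8 ≤ d) (hτ : 0 ≤ τ) : d * τ ≤ lw d τ ∧ lw d τ ≤ 2 * d * τ := by
  have h1 : (10 : ℝ) ^ 4 ≤ √d := Real.le_sqrt_of_sq_le (by linarith)
  have h2 : √d * √d = d := Real.mul_self_sqrt (by linarith)
  have h3 : 0 ≤ (d - 1000 * √d) * τ := mul_nonneg (by nlinarith) hτ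
  have h4 : 0 ≤ √d * τ := by positivity
  unfold lw
  constructor <;> nlinarith

theorem NStep_chi {r : ℝ} (h : r ≤ 1) : chi r = 1 := by
  simp [chi, Real.smoothTransition.zero_of_nonpos (by linarith : r - 1 ≤ 0)]

theorem NStep_FF {x0 τ x : ℝ} (g : ℝ → ℝ) (hx0 : 0 < x0) (hτ : 0 < τ) (hx : x ≤ x0 / 2) :
    FF x0 τ g (x / (4 * τ)) = g x := by
  have e : 4 * τ * (x / (4 * τ)) = x := by field_simp
  unfold FF
  rw [e, NStep_chi (by rw [div_le_one hx0]; linarith), one_mul]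

theorem NStep_rs {d : ℝ} (hd : 0 ≤ d) (q : Q) : Rs d q ^ 2 ≤ (d + 4) * SE d q ∧
    D0 d q ^ 2 ≤ 2 * SE d q ∧ D2 d q ^ 2 ≤ 2 * SE d q := by
  unfold Rs SE D0 D2
  generalize E0 d q = a
  generalize E1 d q = b
  generalize E2 d q = c
  have h1 := mul_nonneg hd (sq_nonneg (a - b))
  have h2 := mul_nonneg hd (sq_nonneg (b - c))
  have h3 := mul_nonneg hd (sq_nonneg b)
  refine ⟨?_, ?_, ?_⟩
  · nlinarith [sq_nonneg (a - b), sq_nonneg (b - c), sq_nonneg (a - c)]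
  · nlinarith [sq_nonneg (a + b), sq_nonneg c]
  · nlinarith [sq_nonneg (c + b), sq_nonneg c, sq_nonneg a]

section

variable {k : ℕ} {x0 δ CS T θ ε σ Cf Co Cm cW : ℝ}

theorem NStep_d (P : Par k x0 δ CS T θ ε σ Cf Co Cm cW) : (10 : ℝ) ^ 8 ≤ 2 * k := by
  have : ((10 ^ 8 : ℕ) : ℝ) ≤ k := by exact_mod_cast P.hk
  push_cast at this
  linarith

theorem NStep_rho (P : Par k x0 δ CS T θ ε σ Cf Co Cm cW) : 0 < rho (2 * k) T := by
  have := NStep_d P
  have := P.hT.1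
  unfold rho; positivity

theorem NStep_et (P : Par k x0 δ CS T θ ε σ Cf Co Cm cW) : 0 < et (2 * k) := by
  have := NStep_d P
  unfold et; positivity

theorem NStep_zero (P : Par k x0 δ CS T θ ε σ Cf Co Cm cW) {α : V3} (hα : α ∈ Ball (1 / 50))
    {t1 : ℝ} {f : Fin 3 → Fn} (hs : RSol (2 * k) (ini k T α) t1 f) :
    SB (2 * k) x0 δ CS (sl f 0) := by
  have hd := NStep_d P
  have ρ0 := NStep_rho P
  have η0 := NStep_et P
  have A := P.inia α hα
  have xI : ∀ {x}, x ∈ Icc 0 x0 → x ∈ I := fun hx => ⟨hx.1, by linarith [hx.2, P.hx.2]⟩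
  have xI' : ∀ {x}, x ∈ Icc (x0 / 2) 1 → x ∈ I := fun hx => ⟨by linarith [hx.1, P.hx.1], hx.2⟩
  have B := fun x hx => P.inib α hα x hx _ rfl
  have F0 := fun x (hx : x ∈ Icc 0 x0) => NStep_pos A.prof P.hx.2 hx
  have hx2 : ∀ x ∈ Icc 0 x0, x < 2 * (2 * k) * nF (2 * k) (pt (ini k T α) x) := fun x hx => by
    have := mul_pos (by linarith : (0 : ℝ) < 2 * k) (F0 x hx)
    linarith [(B x hx).1]
  have W : ∀ x ∈ Icc 0 x0, nF (2 * k) (pt (ini k T α) x) *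
      Wf (2 * k) T x (nF (2 * k) (pt (ini k T α) x)) ≤ et (2 * k) / 4 := fun x hx =>
    P.phi T T x _ P.hT.1 le_rfl hx (F0 x hx) (hx2 x hx).le fun h => by
      rw [div_self P.hT.1.ne', Real.one_rpow]
      have := A.inn x ⟨hx.1, h.trans (NStep_lw hd P.hT.1.le).1⟩
      have e : nF (2 * k) (pt (ini k T α) x) = x / (2 * k) + y0 k T α x := rfl
      have : 0 ≤ x / (2 * k) := div_nonneg hx.1 (by linarith)
      linarith
  refine ⟨fun x hx => ?_, fun x hx => ?_, fun x hx => ?_, fun x hx => ?_, fun i x hx => ?_,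
    fun x hx => ?_⟩
  · rw [NStep_pt hs (xI hx)]; exact hx2 x hx
  · rw [NStep_pt hs (xI hx)]
    have := mul_lt_mul_of_pos_left (B x hx).2.1 (F0 x hx)
    linarith [W x hx]
  · rw [NStep_pt hs (xI hx)]
    have := mul_lt_mul_of_pos_left (B x hx).2.2.1 (F0 x hx)
    linarith [W x hx]
  · rw [NStep_pt hs (xI hx)]; linarith [(B x hx).2.2.2]
  · have : sl f 0 i x = fb (2 * k) i x := (hs.sol.init i x (xI' hx)).trans
      (A.far i x ⟨by linarith [hx.1, P.hx.1], hx.2⟩)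
    rw [this, sub_self, abs_zero]; exact P.del.1
  · rw [NStep_pt hs (xI' hx)]
    linarith [P.far.ini _ A.prof A.far x hx]

/-- The modes along the solution. -/
theorem NStep_modes (hA : ModeAStmt) (P : Par k x0 δ CS T θ ε σ Cf Co Cm cW) {α : V3}
    (hα : α ∈ Ball (1 / 50)) {t1 : ℝ} {f : Fin 3 → Fn} (ht1 : t1 < T)
    (hs : RSol (2 * k) (ini k T α) t1 f)
    (H : ∀ t ∈ Icc 0 t1, gT k x0 T θ f t ≤ 0 ∧ Geo (2 * k) x0 (sl f t) ∧
      WBf (2 * k) x0 δ CS (sl f t)) : ∀ t ∈ Icc 0 t1,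
    sT k x0 T f t ≤ θ * aT k x0 T f t 3 ^ 2 ∧
    99 / 200 * rho (2 * k) T * ((T - t) / T) ^ (151 / 50 : ℝ) ≤ aT k x0 T f t 3 ∧
    aT k x0 T f t 3 ≤ 3 * rho (2 * k) T * ((T - t) / T) ^ (149 / 50 : ℝ) := by
  have ρ0 := NStep_rho P
  have T0 := P.hT.1
  have hθ := P.hθ
  obtain ⟨e1, e2⟩ := hA.congr x0 P.hx T T0 (f 0 0) (y0 k T α) (hs.sol.init 0) k
  obtain ⟨-, -, -, m3, mS⟩ := P.inim α hα _ _ _ rfl rfl rfl
  have a0 : aT k x0 T f 0 = am k (FF x0 T (y0 k T α)) := by rw [← e1]; simp [aT]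
  have s0 : sT k x0 T f 0 = SS k (FF x0 T (y0 k T α)) := by rw [← e2]; simp [sT]
  rw [← a0] at m3
  rw [← s0] at mS
  obtain ⟨A, hA'⟩ : ∃ A, A = aT k x0 T f 0 3 := ⟨_, rfl⟩
  rw [← hA'] at m3
  obtain ⟨ρ, hρ⟩ : ∃ ρ, ρ = rho (2 * k) T := ⟨_, rfl⟩
  have s5 := P.s5
  rw [← hρ] at m3 mS ρ0 s5 ⊢
  have m4 := abs_le.1 m3
  have : ρ * (θ / 100) ≤ ρ * (1 / 100) := mul_le_mul_of_nonneg_left (by linarith [hθ.2]) ρ0.le
  have A1 : 99 / 100 * ρ ≤ A := by linarith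
  have A2 : A ≤ 3 / 2 * ρ := by linarith
  have A0 : 0 < A := by linarith
  have A3 : (ρ / 2) ^ 2 ≤ A ^ 2 := pow_le_pow_left₀ (by linarith) (by linarith) 2
  have main := P.cone.main T t1 A (aT k x0 T f) (sT k x0 T f) hs.sol.pos ht1 A0 hA'.symm
    (by nlinarith [mul_le_mul_of_nonneg_left A3 hθ.1.le, mul_pos hθ.1 (pow_pos ρ0 2)])
    fun t ht => ⟨P.mode T t1 _ f _ ht1 hs t ht (H t ht).2.1
      (fun x hx => by
        simpa [fb, sl] using (H t ht).2.2.near 0 x ⟨hx.1, by linarith [hx.2, P.hx.2]⟩) (by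
        have r0 : 0 ≤ (T - t) / T := div_nonneg (by linarith [ht.2]) T0.le
        have r1 : (T - t) / T ≤ 1 := (div_le_one T0).2 (by linarith [ht.1])
        have e : (T - t) ^ 82 = T ^ 82 * ((T - t) / T) ^ 82 := by
          rw [← mul_pow, mul_div_cancel₀ _ T0.ne']
        have h1 : ((T - t) / T) ^ 82 ≤ ((T - t) / T) ^ 8 := pow_le_pow_of_le_one r0 r1 (by norm_num)
        have h2 : Cm * T ^ 82 ≤ ε * A ^ 2 := s5.trans (mul_le_mul_of_nonneg_left A3 P.hε.le)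
        calc Cm * (T - t) ^ 82 = Cm * T ^ 82 * ((T - t) / T) ^ 82 := by rw [e, mul_assoc]
          _ ≤ ε * A ^ 2 * ((T - t) / T) ^ 8 :=
            mul_le_mul h2 h1 (pow_nonneg r0 _) (mul_nonneg P.hε.le (sq_nonneg _))
          _ = _ := by rw [mul_pow, ← pow_mul, mul_assoc]), (H t ht).1⟩
  intro t ht
  obtain ⟨a, b, c⟩ := main t ht
  have r0 : 0 ≤ (T - t) / T := div_nonneg (by linarith [ht.2]) T0.le
  exact ⟨a, le_trans (mul_le_mul_of_nonneg_right (by linarith) (Real.rpow_nonneg r0 _)) b,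
    c.trans (mul_le_mul_of_nonneg_right (by linarith) (Real.rpow_nonneg r0 _))⟩

/-- The window data. -/
theorem NStep_win (hA : ModeAStmt) (P : Par k x0 δ CS T θ ε σ Cf Co Cm cW) {t : ℝ}
    (ht : t ∈ Ico 0 T) {f : Fin 3 → Fn} (hf : Sm (f 0 t)) (h0 : gT k x0 T θ f t ≤ 0)
    (h1 : sT k x0 T f t ≤ θ * aT k x0 T f t 3 ^ 2)
    (h2 : 99 / 200 * rho (2 * k) T * ((T - t) / T) ^ (151 / 50 : ℝ) ≤ aT k x0 T f t 3)
    (h3 : aT k x0 T f t 3 ≤ 3 * rho (2 * k) T * ((T - t) / T) ^ (149 / 50 : ℝ)) :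
    Win (2 * k) σ (T - t) (sl f t) ∧
      rho (2 * k) T / 2 * ((T - t) / T) ^ (151 / 50 : ℝ) < f 0 t (lw (2 * k) (T - t)) := by
  have hd := NStep_d P
  have ρ0 := NStep_rho P
  have T0 := P.hT.1
  have τ0 : 0 < T - t := sub_pos.2 ht.2
  have r0 : 0 < (T - t) / T := div_pos τ0 T0
  have r1 : (T - t) / T ≤ 1 := (div_le_one T0).2 (by linarith [ht.1])
  have p0 : 0 < rho (2 * k) T * ((T - t) / T) ^ (151 / 50 : ℝ) :=
    mul_pos ρ0 (Real.rpow_pos_of_pos r0 _)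
  obtain ⟨o1, o2⟩ := P.out _ (hA.cs x0 P.hx _ τ0 _ hf) h0 h1 (by
    change 0 ≤ aT k x0 T f t 3; linarith)
  have h8 : 8 * (2 * k) * (T - t) ≤ x0 :=
    (mul_le_mul_of_nonneg_left (by linarith [ht.1]) (by linarith)).trans P.h8
  refine ⟨fun x hx => ?_, ?_⟩
  · have e := NStep_FF (f 0 t) P.hx.1 τ0 (by linarith [hx.2] : x ≤ x0 / 2)
    have o := o2 (x / (4 * (T - t))) ⟨by rw [le_div_iff₀ (by positivity)]; linarith [hx.1],
      by rw [div_le_iff₀ (by positivity)]; linarith [hx.2]⟩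
    rw [e] at o
    have o' : |f 0 t x| ≤ 3 * Co * rho (2 * k) T * ((T - t) / T) ^ (149 / 50 : ℝ) :=
      o.trans ((mul_le_mul_of_nonneg_left h3 P.co.le).trans_eq (by ring))
    have c0 : 0 ≤ 3 * Co * rho (2 * k) T := by have := P.co; positivity
    constructor
    · have : ((T - t) / T) ^ (149 / 50 : ℝ) ≤ (T - t) / T := by
        simpa using Real.rpow_le_rpow_of_exponent_ge r0 r1 (by norm_num : (1 : ℝ) ≤ 149 / 50)
      refine o'.trans ((mul_le_mul P.s6 this (by positivity) (by positivity)).trans_eq ?_)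
      field_simp
    · have : ((T - t) / T) ^ (149 / 50 : ℝ) ≤ ((T - t) / T) ^ (11 / 4 : ℝ) :=
        Real.rpow_le_rpow_of_exponent_ge r0 r1 (by norm_num)
      refine o'.trans ((mul_le_mul P.s7 this (by positivity) (c0.trans P.s7)).trans_eq ?_)
      rw [Real.div_rpow τ0.le T0.le]
      have := Real.rpow_pos_of_pos T0 (11 / 4 : ℝ)
      field_simp
  · have l := NStep_lw hd τ0.le
    have e := NStep_FF (f 0 t) P.hx.1 τ0 (by linarith [l.2] : lw (2 * k) (T - t) ≤ x0 / 2)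
    have e2 : lw (2 * k) (T - t) / (4 * (T - t)) = k - 250 * √(2 * k) := by
      unfold lw; field_simp; ring
    have s1 : √(2 * (k : ℝ)) = √2 * √k := Real.sqrt_mul (by norm_num) _
    have s2 : 6 / 5 ≤ √(2 : ℝ) := Real.le_sqrt_of_sq_le (by norm_num)
    have s3 : √(2 : ℝ) ≤ 36 / 25 := Real.sqrt_le_iff.2 ⟨by norm_num, by norm_num⟩
    have s4 := Real.sqrt_nonneg (k : ℝ)
    have o := o1 (lw (2 * k) (T - t) / (4 * (T - t))) (by rw [e2, s1]; nlinarith)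
      (by rw [e2, s1]; nlinarith)
    rw [e] at o
    have o' : 3 / 2 * aT k x0 T f t 3 ≤ f 0 t (lw (2 * k) (T - t)) := o
    linarith

end

theorem step (hGeo : GeoStmt) (hR : RBarStmt) (hF : FBarStmt) (hA : ModeAStmt) : StepStmt := by
  refine ⟨fun k x0 δ CS T θ ε σ Cf Co Cm cW P α hα t1 f hs => NStep_zero P hα hs,
    fun k x0 δ CS T θ ε σ Cf Co Cm cW P α hα t1 f ht1 hs H => ?_⟩
  have hd := NStep_d P
  have ρ0 := NStep_rho P
  have η0 := NStep_et P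
  have T0 := P.hT.1
  have A := P.inia α hα
  have B := fun x hx => P.inib α hα x hx _ rfl
  have xI : ∀ {x}, x ∈ Icc 0 x0 → x ∈ I := fun hx => ⟨hx.1, by linarith [hx.2, P.hx.2]⟩
  have hx0 : x0 ∈ Icc 0 x0 := ⟨P.hx.1.le, le_rfl⟩
  have hx1 : x0 ∈ Icc (x0 / 2) x0 := ⟨by linarith [P.hx.1], le_rfl⟩
  have hx2 : x0 ∈ Icc (x0 / 2) 1 := ⟨by linarith [P.hx.1], by linarith [P.hx.2]⟩
  have geo : ∀ t ∈ Icc 0 t1, Geo (2 * k) x0 (sl f t) := fun t ht =>
    hGeo _ (by linarith) x0 P.hx _ (hs.prof ht) (H t ht).2.1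
  have far := P.far.far T t1 _ f ht1.le hs A.far fun t ht => ⟨geo t ht, (H t ht).2.2⟩
  have md := NStep_modes hA P hα ht1 hs fun t ht => ⟨(H t ht).1, geo t ht, (H t ht).2.2⟩
  have win := fun t (ht : t ∈ Icc 0 t1) => NStep_win hA P ⟨ht.1, ht.2.trans_lt ht1⟩
    ((hs.sol.js 0).sm ht) (H t ht).1 (md t ht).1 (md t ht).2.1 (md t ht).2.2
  have l0 := NStep_lw hd T0.le
  have fbar := hF _ hd x0 P.hx T _ σ t1 _ f ht1 P.h8 ρ0 hs
    (fun t ht => ⟨geo t ht, (win t ht).1, by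
      simpa [fb] using (((far t ht).1 x0 hx2).1 0).trans P.s3, (win t ht).2⟩)
    (fun x hx => by
      rw [hs.sol.init 0 x (xI ⟨hx.1, by linarith [hx.2, P.h8, mul_pos (by linarith : (0 : ℝ) < 2 * k) T0]⟩)]
      have : 2 * rho (2 * k) T ≤ ini k T α 0 x := A.inn x hx
      linarith)
    (fun x hx => by
      rw [hs.sol.init 0 x (xI hx)]
      exact (A.small x (xI hx)).1.trans P.s8)
  have F0 := fun t (ht : t ∈ Icc 0 t1) x (hx : x ∈ Icc 0 x0) => NStep_pos (hs.prof ht) P.hx.2 hx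
  have F1 : ∀ t ∈ Icc 0 t1, nF (2 * k) (pt (sl f t) x0) ≤ 1 := fun t ht => by
    have h1 := (fbar t ht).up x0 hx0
    have h2 : 11 / 10 * x0 / (2 * k) ≤ 11 / 10 * x0 :=
      div_le_self (by linarith [P.hx.1]) (by linarith)
    linarith [P.hx.2, P.hT.2, ht.1]
  have se : ∀ t ∈ Icc 0 t1, SE (2 * k) (pt (sl f t) x0) ≤ Cf * T := fun t ht => (far t ht).2 x0 hx1
  have rbar := hR _ hd x0 P.hx t1 _ f hs geo
    (fun x hx => by
      change nF _ (pt (sl f 0) x) * |Rs _ (pt (sl f 0) x)| < 1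
      rw [NStep_pt hs (xI hx)]; exact (B x hx).2.2.2)
    (fun t ht => by
      have h1 := (NStep_rs (by linarith : (0 : ℝ) ≤ 2 * k) (pt (sl f t) x0)).1
      have h2 := mul_le_mul_of_nonneg_left (se t ht) (by linarith : (0 : ℝ) ≤ 2 * k + 4)
      have h3 : |Rs (2 * k) (pt (sl f t) x0)| < 1 :=
        (sq_lt_one_iff_abs_lt_one _).1 (by linarith [P.s2])
      change nF _ (pt (sl f t) x0) * |Rs _ (pt (sl f t) x0)| < 1
      exact (mul_le_of_le_one_left (abs_nonneg _) (F1 t ht)).trans_lt h3)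
  have dbar := P.dbar x0 P.hx T _ t1 _ f ht1 P.h8 hs
    (fun t ht => by
      have h1 := (NStep_rs (by linarith : (0 : ℝ) ≤ 2 * k) (pt (sl f t) x0)).2
      have h2 := P.low (T - t) _ (by linarith [ht.2])
        ((mul_le_mul_of_nonneg_left (by linarith [ht.1]) (by linarith)).trans P.h8)
        (F0 t ht x0 hx0) (F1 t ht)
      have h3 : ∀ a : ℝ, a ^ 2 ≤ 2 * SE (2 * k) (pt (sl f t) x0) →
          |a| < Wf (2 * k) (T - t) x0 (nF (2 * k) (pt (sl f t) x0)) / 4 := fun a ha =>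
        (abs_lt_of_sq_lt_sq (b := cW / 4) (by linarith [se t ht, P.s4])
          (by linarith [P.cw])).trans_le (by linarith)
      exact ⟨geo t ht, fbar t ht, (win t ht).1, h3 _ h1.1, h3 _ h1.2⟩)
    (fun x hx => by
      change |D0 _ (pt (sl f 0) x)| < Wf _ _ _ (nF _ (pt (sl f 0) x)) / 4 ∧
        |D2 _ (pt (sl f 0) x)| < Wf _ _ _ (nF _ (pt (sl f 0) x)) / 4
      rw [NStep_pt hs (xI hx)]; exact ⟨(B x hx).2.1, (B x hx).2.2.1⟩)
  intro t ht
  have τ0 : 0 < T - t := by linarith [ht.2]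
  have W : ∀ x ∈ Icc 0 x0, nF (2 * k) (pt (sl f t) x) *
      Wf (2 * k) (T - t) x (nF (2 * k) (pt (sl f t) x)) ≤ et (2 * k) / 4 := fun x hx =>
    P.phi T _ x _ τ0 (by linarith [ht.1]) hx (F0 t ht x hx) (geo t ht x hx).x fun h => by
      have := (fbar t ht).inn x ⟨hx.1, h.trans (NStep_lw hd τ0.le).1⟩
      have e : nF (2 * k) (pt (sl f t) x) = x / (2 * k) + sl f t 0 x := rfl
      have : 0 ≤ x / (2 * k) := div_nonneg hx.1 (by linarith)
      linarith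
  have c1 : Cf * T < 1 := by
    have := mul_nonneg P.far.nonneg T0.le
    nlinarith [P.s2]
  refine ⟨⟨fun x hx => ?_, fun x hx => ?_, fun x hx => ?_, fun x hx => ?_, fun i x hx => ?_,
    fun x hx => ?_⟩, geo t ht, (H t ht).2.1, (H t ht).2.2, fbar t ht, dbar t ht, ?_⟩
  · have := mul_pos (by linarith : (0 : ℝ) < 2 * k) (F0 t ht x hx)
    linarith [(fbar t ht).lo x hx]
  · have := mul_le_mul_of_nonneg_left (dbar t ht x hx).1 (F0 t ht x hx).le
    linarith [W x hx]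
  · have := mul_le_mul_of_nonneg_left (dbar t ht x hx).2 (F0 t ht x hx).le
    linarith [W x hx]
  · exact (rbar t ht x hx).trans (by norm_num)
  · exact (((far t ht).1 x hx).1 i).trans_lt P.s1
  · exact ((far t ht).1 x hx).2.trans_lt (by linarith)
  · have r0 : 0 < (T - t) / T := div_pos τ0 T0
    have r1 : (T - t) / T ≤ 1 := (div_le_one T0).2 (by linarith [ht.1])
    have h1 : ((T - t) / T) ^ 4 ≤ ((T - t) / T) ^ (151 / 50 : ℝ) := by
      rw [← Real.rpow_natCast]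
      exact Real.rpow_le_rpow_of_exponent_ge r0 r1 (by norm_num)
    exact le_trans (mul_le_mul (by linarith) h1 (by positivity) (by positivity)) (md t ht).2.1

end Vale.Agent.P244
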