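import Vale.Agent.P244.StmN

/-! P244: the curvature is small in the window. -/

open Set Filter
open scoped ContDiff Topology

namespace Vale.Agent.P244

theorem NWin_et {d : ℝ} (hd : (10 : ℝ) ^ 8 ≤ d) : 30 * et d ≤ 1 / 100 ∧ √d ≤ d / 10000 := by
  have h0 : 0 < d := by linarith [show (0 : ℝ) < 10 ^ 8 by norm_num]
  have h1 : (10000 : ℝ) ≤ √d := Real.le_sqrt_of_sq_le (by linarith)
  have h2 := Real.mul_self_sqrt h0.le
  constructor
  · unfold et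
    rw [← mul_div_assoc, div_le_iff₀ (by linarith)]
    linarith
  · nlinarith

theorem NWin_W {d τ τ' x F : ℝ} (hd : (10 : ℝ) ^ 8 ≤ d) (hτ : 0 < τ) (h1 : τ ≤ τ')
    (h2 : τ' ≤ 11 / 10 * τ) (hF : τ / 2 ≤ F) (hF' : F ≤ 4 * τ) (hx : |x - 2 * d * τ'| ≤ d * τ) :
    Real.exp (-(21 / 20) * Real.log 4) * τ ^ (3 / 4 : ℝ) ≤ Wf d τ' x F ∧
    Wf d τ' x F ≤ Real.exp (21 / 20 * Real.log 2 + 9 / 10 * Real.log (2 * d ^ 2)) * τ ^ (3 / 4 : ℝ) := by
  have h0 : 0 < d := by linarith [show (0 : ℝ) < 10 ^ 8 by norm_num]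
  have hτ2 : 0 < τ ^ 2 := by positivity
  have a1 : τ ^ 2 ≤ τ' ^ 2 := pow_le_pow_left₀ hτ.le h1 2
  have a2 : τ' ^ 2 ≤ 2 * τ ^ 2 := by nlinarith
  have a3 : (x - 2 * d * τ') ^ 2 ≤ (d * τ) ^ 2 := by
    rw [← sq_abs]; exact pow_le_pow_left₀ (abs_nonneg _) hx 2
  have g1 : τ ^ 2 ≤ Gq d τ' x := by
    unfold Gq; nlinarith [sq_nonneg (x - 2 * d * τ'), mul_le_mul_of_nonneg_left a1 h0.le]
  have g2 : Gq d τ' x ≤ 2 * d ^ 2 * τ ^ 2 := by
    unfold Gq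
    have : 8000 * d * τ ^ 2 ≤ d ^ 2 * τ ^ 2 := mul_le_mul_of_nonneg_right (by nlinarith) hτ2.le
    nlinarith [mul_le_mul_of_nonneg_left a2 h0.le]
  have l1 := Real.log_le_log hτ2 g1
  have l2 := Real.log_le_log (hτ2.trans_le g1) g2
  have l3 := Real.log_le_log (half_pos hτ) hF
  have l4 := Real.log_le_log ((half_pos hτ).trans_le hF) hF'
  rw [Real.log_pow] at l1
  rw [Real.log_mul (by positivity) hτ2.ne', Real.log_pow τ] at l2
  rw [Real.log_div hτ.ne' two_ne_zero] at l3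
  rw [Real.log_mul four_ne_zero hτ.ne'] at l4
  rw [Real.rpow_def_of_pos hτ, ← Real.exp_add, ← Real.exp_add, Wf]
  push_cast at l1 l2
  constructor <;> apply Real.exp_le_exp.2 <;> linarith

theorem NWin_div {F K τ : ℝ} (hτ : 0 < τ) (hF : τ / 2 ≤ F) (h : F * |K| ≤ 2) : |K| ≤ 4 / τ := by
  rw [le_div_iff₀ hτ]
  nlinarith [abs_nonneg K]

theorem NWin_base {d τ : ℝ} {q : Q} (hd : (10 : ℝ) ^ 8 ≤ d) (hτ : 0 < τ) (hg : GeoQ d q)
    (hn : NearQ d q) (h1 : d * τ ≤ q.1) :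
    τ / 2 ≤ nF d q ∧ 0 ≤ nF1 d q ∧ nF1 d q ≤ 1 ∧ 0 ≤ nX d q ∧ nX d q ≤ 3 ∧ 99 / 100 ≤ nz q ∧
      nz q ≤ 101 / 100 ∧ |A1 q| ≤ 4 / τ := by
  have h0 : 1000 ≤ d := by linarith [show (1000 : ℝ) < 10 ^ 8 by norm_num]
  have hd0 : 0 < d := by linarith
  obtain ⟨he, -⟩ := NWin_et hd
  have hFp := hn.pos
  have hx : 0 < q.1 := (mul_pos hd0 hτ).trans_le h1
  obtain ⟨z1, z2⟩ := abs_le.1 (hg.z.trans he)
  obtain ⟨x1, x2⟩ := abs_le.1 (hg.xi.trans he)
  have f1 : d * nF1 d q = 1 + d * q.2.1 1 := by unfold nF1; field_simp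
  have f2 : 0 ≤ nF1 d q := le_of_mul_le_mul_left (by linarith) hd0
  refine ⟨le_of_mul_le_mul_left (by linarith [hg.x]) hd0, f2, le_of_mul_le_mul_left (by linarith) hd0,
    div_nonneg (mul_nonneg hx.le f2) hFp.le, ?_, by linarith, by linarith, ?_⟩
  · unfold nX
    rw [div_le_iff₀ hFp]
    have e1 := mul_le_mul_of_nonneg_right hg.x f2
    have e2 : nF d q * (d * nF1 d q) ≤ nF d q * (3 / 2) :=
      mul_le_mul_of_nonneg_left (by linarith) hFp.le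
    linarith
  · rw [hn.a1 hx, abs_of_pos (div_pos hn.zpos hx), div_le_div_iff₀ hx hτ]
    have e1 : nz q * τ ≤ 2 * τ := mul_le_mul_of_nonneg_right (by linarith) hτ.le
    have e2 : 1 * τ ≤ d * τ := mul_le_mul_of_nonneg_right (by linarith) hτ.le
    linarith

theorem NWin_v {d τ : ℝ} {q : Q} (hd : (10 : ℝ) ^ 8 ≤ d) (hτ : 0 < τ) (hg : GeoQ d q)
    (hn : NearQ d q) (h1 : d * τ ≤ q.1) (M : ℝ) (m0 : |D0 d q| ≤ M) (m2 : |D2 d q| ≤ M) :
    |vD2 d q| ≤ 100 * d * M / τ := by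
  have h0 : 1000 ≤ d := by linarith [show (1000 : ℝ) < 10 ^ 8 by norm_num]
  obtain ⟨he, -⟩ := NWin_et hd
  obtain ⟨hF, -, -, -, -, -, -, bA1⟩ := NWin_base hd hτ hg hn h1
  have bE1 := abs_le.1 (NWin_div hτ hF (K := E1 d q) (by linarith [hg.e1]))
  have bK1 := abs_le.1 (NWin_div hτ hF (K := K1 q) (by linarith [hg.k1]))
  have bK2 := abs_le.1 (NWin_div hτ hF (K := K2 d q) (by linarith [hg.k2]))
  have bM := abs_le.1 (NWin_div hτ hF (K := MM d q) (by linarith [hg.mm]))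
  have bA2 := abs_le.1 (NWin_div hτ hF (K := A2 d q)
    (by rw [abs_of_nonneg hg.a2.1]; linarith [hg.a2.2]))
  have bL2 := abs_le.1 (NWin_div hτ hF (K := L2 d q) (by
    have := abs_le.1 (hg.l2.trans he)
    rw [← abs_of_pos hn.pos, ← abs_mul]
    exact abs_le.2 ⟨by linarith, by linarith⟩))
  have bA := abs_le.1 bA1
  have u4 : 0 < 4 / τ := by positivity
  have hM : 0 ≤ M := (abs_nonneg _).trans m0
  have c1 : |2 * A2 d q - 2 * A1 q + 2 * K2 d q - 2 * K1 q| ≤ 8 * (4 / τ) :=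
    abs_le.2 ⟨by linarith, by linarith⟩
  have c2 : |-2 * A2 d q + 2 * L2 d q - 4 * MM d q + 2 * E1 d q| ≤ 10 * (4 / τ) :=
    abs_le.2 ⟨by linarith, by linarith⟩
  unfold vD2
  refine (abs_add_le _ _).trans ?_
  rw [abs_mul, abs_mul]
  have c3 := mul_le_mul c1 m0 (abs_nonneg _) (by positivity)
  have c4 := mul_le_mul c2 m2 (abs_nonneg _) (by positivity)
  have c5 : 18 * (4 / τ) * M ≤ 100 * d * M / τ := by
    rw [show 18 * (4 / τ) * M = 72 * M / τ by ring]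
    exact div_le_div_of_nonneg_right (mul_le_mul_of_nonneg_right (by linarith) hM) hτ.le
  linarith

/-- Pointwise bounds in the window. -/
theorem NWin_coef {d τ : ℝ} {q : Q} (hd : (10 : ℝ) ^ 8 ≤ d) (hτ : 0 < τ) (hg : GeoQ d q)
    (hn : NearQ d q) (h1 : d * τ ≤ q.1) (h2 : q.1 ≤ 3 * d * τ) :
    τ / 2 ≤ nF d q ∧ 1 / 10 * τ ≤ ZZ (bs q) ∧ ZZ (bs q) ≤ 100 * d * τ ∧ |BB d (bs q)| ≤ 100 * d ∧
    (∀ M, |D0 d q| ≤ M → |D2 d q| ≤ M → |vD2 d q| ≤ 100 * d * M / τ) ∧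
    |2 * d - 4 * nz q * nX d q - 2 * q.1 * E1 d q| ≤ 100 * d ∧
    |4 * nz q * nF1 d q / nF d q + 2 * E1 d q| ≤ 100 * d / τ := by
  have h0 : 1000 ≤ d := by linarith [show (1000 : ℝ) < 10 ^ 8 by norm_num]
  have hd0 : 0 < d := by linarith
  obtain ⟨he, -⟩ := NWin_et hd
  obtain ⟨hF, f2, f3, X1, X2, z1, z2, -⟩ := NWin_base hd hτ hg hn h1
  have hFp := hn.pos
  have hx : 0 < q.1 := (mul_pos hd0 hτ).trans_le h1
  have dτ : 1 * τ ≤ d * τ := mul_le_mul_of_nonneg_right (by linarith) hτ.le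
  have bE1 := abs_le.1 (NWin_div hτ hF (K := E1 d q) (by linarith [hg.e1]))
  have y1 : 1 / 2 * q.1 ≤ nz q * q.1 := mul_le_mul_of_nonneg_right (by linarith) hx.le
  have y2 : nz q * q.1 ≤ 2 * q.1 := mul_le_mul_of_nonneg_right (by linarith) hx.le
  refine ⟨hF, by rw [hn.zz]; linarith, by rw [hn.zz]; linarith,
    by rw [hn.bb, abs_le]; constructor <;> linarith, NWin_v hd hτ hg hn h1, ?_, ?_⟩
  · have c1 : q.1 * |E1 d q| ≤ d := by
      have e1 := mul_le_mul_of_nonneg_right hg.x (abs_nonneg (E1 d q))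
      have e2 : d * (nF d q * |E1 d q|) ≤ d * (1 / 2) :=
        mul_le_mul_of_nonneg_left (by linarith [hg.e1]) hd0.le
      linarith
    rw [← abs_of_pos hx, ← abs_mul, abs_le] at c1
    have c2 : 0 ≤ nz q * nX d q := mul_nonneg hn.zpos.le X1
    have c3 : nz q * nX d q ≤ 2 * 3 := mul_le_mul (by linarith) X2 X1 (by norm_num)
    rw [abs_le]; constructor <;> linarith [c1.1, c1.2]
  · have c1 := abs_le.1 (NWin_div (K := nz q * nF1 d q / nF d q) hτ hF (by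
      rw [abs_of_nonneg (div_nonneg (mul_nonneg hn.zpos.le f2) hFp.le), mul_div_cancel₀ _ hFp.ne']
      have : nz q * nF1 d q ≤ 2 * 1 := mul_le_mul (by linarith) f3 f2 (by norm_num)
      linarith))
    have c2 : 6 * (4 / τ) ≤ 100 * d / τ := by
      rw [show 6 * (4 / τ) = 24 / τ by ring]
      exact div_le_div_of_nonneg_right (by linarith) hτ.le
    rw [show 4 * nz q * nF1 d q / nF d q = 4 * (nz q * nF1 d q / nF d q) by ring]
    exact abs_le.2 ⟨by linarith, by linarith⟩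

theorem NWin_d1 {g : ℝ → ℝ} (hg : Sm g) (c : ℝ) {x : ℝ} (hx : x ∈ I) :
    d1 (fun y => c * g y) x = c * d1 g x := d1_eq hx ((hg.hasW hx).const_mul c)

theorem win (hN : NearQStmt) (hD : DictStmt) (hG : GeqStmt) (hE : Evo2Stmt) (hL : LipStmt)
    (hI : InterpStmt) : WinStmt := by
  intro d hd
  have hd0 : 0 < d := by linarith [show (0 : ℝ) < 10 ^ 8 by norm_num]
  have hd1 : 1000 ≤ d := by linarith [show (1000 : ℝ) < 10 ^ 8 by norm_num]
  obtain ⟨c1, hc1, hc1'⟩ : ∃ c1, 0 < c1 ∧ Real.exp (-(21 / 20) * Real.log 4) = c1 :=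
    ⟨_, Real.exp_pos _, rfl⟩
  obtain ⟨C1, hC1, hC1'⟩ : ∃ C1, 0 < C1 ∧
    Real.exp (21 / 20 * Real.log 2 + 9 / 10 * Real.log (2 * d ^ 2)) = C1 := ⟨_, Real.exp_pos _, rfl⟩
  obtain ⟨C', hC', hLip⟩ := hL (1 / 10) (by norm_num) (100 * d) (by positivity)
  obtain ⟨l, hl, l1, l2, l3⟩ : ∃ l, 0 < l ∧ l ≤ 1 / C' ∧ l ≤ 1 / 10 ∧ l ≤ c1 / (8 * C' * C1) :=
    ⟨min (1 / C') (min (1 / 10) (c1 / (8 * C' * C1))), by positivity, min_le_left _ _,
      (min_le_right _ _).trans (min_le_left _ _), (min_le_right _ _).trans (min_le_right _ _)⟩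
  obtain ⟨c', hc', hInt⟩ := hI (1 / 10) (by norm_num) (100 * d) (by positivity) l hl
  refine ⟨c' * c1 / 8, by positivity, ?_⟩
  intro x0 hx0 T ρ t1 f0 f ht1 h8 hs ts hts hyp hW x hx
  obtain ⟨τ, hτ'⟩ : ∃ τ, T - ts = τ := ⟨_, rfl⟩
  rw [hτ'] at hW hx ⊢
  have hτ : 0 < τ := by linarith [hts.2]
  have ht1' := hs.sol.pos
  have hts0 : 1 / 10 * τ ≤ ts := by linarith [hts.1]
  have hτT : τ ≤ T := by linarith
  have dτ : 1000 * τ ≤ d * τ := by nlinarith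
  have dT : d * τ ≤ d * T := mul_le_mul_of_nonneg_left hτT hd0.le
  have hx' : |x - 2 * d * τ| ≤ d * τ / 10 := by
    refine abs_le_of_sq_le_sq' ?_ (by positivity) |> abs_le.2
    refine hx.trans ?_
    have : 10 ^ 8 * (d * τ ^ 2) ≤ d * (d * τ ^ 2) := mul_le_mul_of_nonneg_right hd (by positivity)
    nlinarith
  obtain ⟨x1, x2⟩ := abs_le.1 hx'
  obtain ⟨s, hs0, hs'⟩ : ∃ s, 0 < s ∧ τ ^ (3 / 4 : ℝ) = s := ⟨_, Real.rpow_pos_of_pos hτ _, rfl⟩
  have key : ∀ t ∈ Icc (ts - 1 / 10 * τ) ts, ∀ y ∈ Icc (x - 1 / 10 * τ) (x + 1 / 10 * τ),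
      t ∈ Icc 0 t1 ∧ y ∈ Ioo (0 : ℝ) 1 ∧ d * τ ≤ y ∧ y ≤ 3 * d * τ ∧ GeoQ d (pt (sl f t) y) ∧
      NearQ d (pt (sl f t) y) ∧ c1 * s ≤ Wf d (T - t) y (nF d (pt (sl f t) y)) ∧
      |D0 d (pt (sl f t) y)| ≤ 2 * C1 * s ∧ |D2 d (pt (sl f t) y)| ≤ 2 * C1 * s := by
    intro t ht y hy
    have a0 : t ∈ Icc 0 ts := ⟨by linarith [ht.1], ht.2⟩
    have a1 : t ∈ Icc 0 t1 := ⟨a0.1, ht.2.trans hts.2⟩
    have a2 : d * τ ≤ y := by linarith [hy.1]
    have a3 : y ≤ 3 * d * τ := by linarith [hy.2]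
    have a4 : y ∈ Icc 0 x0 := ⟨by linarith, by linarith⟩
    have a5 : y < 1 / 4 := by linarith [a4.2, hx0.2]
    obtain ⟨g1, g2, g3⟩ := hyp t a0
    have hn := hN d hd0 (pt (sl f t) y) (hs.sol.mem t a1 y ⟨a4.1, by linarith⟩) a4.1 a5
    have b1 := (NWin_coef hd hτ (g1 y a4) hn a2 a3).1
    have b2 : nF d (pt (sl f t) y) ≤ 4 * τ := by
      have e1 := g2.up y a4
      have e2 : 11 / 10 * y / d ≤ 33 / 10 * τ := by rw [div_le_iff₀ hd0]; linarith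
      linarith [ht.1]
    have b3 : |y - 2 * d * (T - t)| ≤ d * τ := by
      have e1 : d * (T - t) ≤ d * (11 / 10 * τ) := mul_le_mul_of_nonneg_left (by linarith [ht.1]) hd0.le
      have e2 : d * τ ≤ d * (T - t) := mul_le_mul_of_nonneg_left (by linarith [ht.2]) hd0.le
      rw [abs_le]; constructor <;> linarith [hy.1, hy.2]
    obtain ⟨w1, w2⟩ := NWin_W hd hτ (by linarith [ht.2]) (by linarith [ht.1]) b1 b2 b3
    rw [hc1', hs'] at w1
    rw [hC1', hs'] at w2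
    exact ⟨a1, ⟨by linarith, by linarith⟩, a2, a3, g1 y a4, hn, w1, by linarith [(g3 y a4).1],
      by linarith [(g3 y a4).2]⟩
  have hts' : ts ∈ Icc (ts - 1 / 10 * τ) ts := ⟨by linarith, le_rfl⟩
  have lip := hLip t1 τ (2 * C1 * s) ts x (evF (D2 d) f) (ZF f) (BF d f) ht1' hτ (by positivity)
    (hG.js d hd0 f0 t1 f hs.sol).d2 hts0 hts.2 (by linarith) (by linarith [hx0.2]) fun t ht y hy => by
      obtain ⟨a1, a2, a3, a4, a5, a6, -, a8, a9⟩ := key t ht y hy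
      obtain ⟨-, b2, b3, b4, b5, -⟩ := NWin_coef hd hτ a5 a6 a3 a4
      refine ⟨b2, b3, b4, a9, ?_⟩
      have := (hE d hd0 f0 t1 f hs t a1 y (Ioo_subset_Icc_self a2)).d2 a2
      unfold bx at this
      rw [this]
      exact b5 _ a8 a9
  by_contra hc
  have hw := (key ts hts' x ⟨by linarith, by linarith⟩).2.2.2.2.2.2.1
  rw [hτ'] at hw
  have hbig : c1 * s / 2 < |evF (D2 d) f ts x| := by
    have : Wf d τ x (evF (nF d) f ts x) / 2 < |evF (D2 d) f ts x| := not_le.1 hc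
    exact lt_of_le_of_lt (by change _ ≤ Wf d τ x (nF d (pt (sl f ts) x)) / 2; linarith) this
  obtain ⟨e, he, he'⟩ : ∃ e : ℝ, |e| = 1 ∧ c1 * s / 2 < e * evF (D2 d) f ts x := by
    rcases lt_abs.1 hbig with h | h
    · exact ⟨1, abs_one, by linarith⟩
    · exact ⟨-1, by simp, by linarith⟩
  have lτ : l * τ ≤ 1 / 10 * τ := mul_le_mul_of_nonneg_right l2 hτ.le
  have hts1 : ts ∈ Icc 0 t1 := ⟨by linarith, hts.2⟩
  have hP := hs.prof hts1
  obtain ⟨y, hy, hy'⟩ := hInt (fun y => -e * sl f ts 0 y) (fun y => ZZ (bs (pt (sl f ts) y)))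
    (fun y => 2 * d - 4 * nz (pt (sl f ts) y) * nX d (pt (sl f ts) y) - 2 * y * E1 d (pt (sl f ts) y))
    (fun y => 4 * nz (pt (sl f ts) y) * nF1 d (pt (sl f ts) y) / nF d (pt (sl f ts) y) +
      2 * E1 d (pt (sl f ts) y)) τ (τ * (c1 * s) / 4) x (contDiffOn_const.mul (hP.sm 0)) hτ
    (by positivity) (by linarith) (by linarith [hx0.2]) fun y hy => by
      obtain ⟨a1, a2, a3, a4, a5, a6, -, -, -⟩ := key ts hts' y ⟨by linarith [hy.1], by linarith [hy.2]⟩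
      obtain ⟨b1, b2, b3, -, -, b6, b7⟩ := NWin_coef hd hτ a5 a6 a3 a4
      refine ⟨b2, b3, b6, b7, ?_⟩
      have yI := Ioo_subset_Icc_self a2
      have r1 := lip (y - x) ⟨by linarith [hy.1], by
        have := mul_le_mul_of_nonneg_right l1 hτ.le
        rw [one_div_mul_eq_div] at this
        linarith [hy.2]⟩
      rw [add_sub_cancel] at r1
      have r2 : C' * (2 * C1 * s) * (y - x) / τ ≤ c1 * s / 4 := by
        rw [div_le_iff₀ hτ]
        have e1 : l * (8 * C' * C1) ≤ c1 := (le_div_iff₀ (by positivity)).1 l3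
        have e2 : C' * (2 * C1 * s) * (y - x) ≤ C' * (2 * C1 * s) * (l * τ) :=
          mul_le_mul_of_nonneg_left (by linarith [hy.2]) (by positivity)
        have e3 := mul_le_mul_of_nonneg_right e1 (mul_pos hs0 hτ).le
        linarith
      have r3 : |e * (evF (D2 d) f ts y - evF (D2 d) f ts x)| ≤ c1 * s / 4 := by
        rw [abs_mul, he, one_mul]; exact r1.trans r2
      have r4 : c1 * s / 4 ≤ e * D2 d (pt (sl f ts) y) := by
        have := (abs_le.1 r3).1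
        change _ ≤ e * evF (D2 d) f ts y
        linarith
      have r5 := a6.d2
      rw [a6.zph2, ← (hD d hd0 _ hP y yI).y2] at r5
      have r6 : d1 (d1 fun y => -e * sl f ts 0 y) y = -e * d1 (d1 (sl f ts 0)) y := by
        rw [d1_congr (fun z hz => NWin_d1 (hP.sm 0) (-e) hz) yI, NWin_d1 (hP.sm 0).d1 _ yI]
      rw [r6, NWin_d1 (hP.sm 0) _ yI, ← hP.con y yI]
      have r7 : τ / 2 * (c1 * s / 4) ≤ nF d (pt (sl f ts) y) * (e * D2 d (pt (sl f ts) y)) :=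
        mul_le_mul b1 r4 (by positivity) a6.pos.le
      have r8 := congrArg (fun a => -e * a) r5
      change _ = -e * (_ + (_ - 2 * y * _) * sl f ts 1 y + _ * sl f ts 0 y) at r8
      linarith
  obtain ⟨-, -, a3, a4, -⟩ := key ts hts' y ⟨by linarith [hy.1], by linarith [hy.2]⟩
  have w := (hW y ⟨a3, by linarith⟩).2
  have e1 : τ ^ (11 / 4 : ℝ) = τ ^ 2 * s := by
    rw [← hs', ← Real.rpow_natCast, ← Real.rpow_add hτ]; norm_num
  rw [abs_mul, abs_neg, he, one_mul] at hy'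
  rw [e1] at w
  have : 0 < c' * c1 * (τ ^ 2 * s) := by positivity
  linarith

end Vale.Agent.P244
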