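import Mathlib

/-! Ricci flow on a manifold, written in the charts of its atlas (definitions of the statement). -/

open scoped Manifold ContDiff

namespace Vale.Agent.P244.St

variable {E : Type} [NormedAddCommGroup E] [NormedSpace ℝ E] {ι : Type} [Fintype ι] [DecidableEq ι]

/-- The derivative at `y`, in the direction `c`, of the coefficient `G(a,b)`. -/
noncomputable def dg (G : E → E →L[ℝ] E →L[ℝ] ℝ) (y c a b : E) : ℝ :=
  fderiv ℝ (fun x => G x a b) y c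

/-- Christoffel map `Γ_y(v,w)` of the coordinate metric `G`: the vector given by the Koszul
formula `2 G_y(Γ(v,w), z) = ∂_v G(w,z) + ∂_w G(v,z) - ∂_z G(v,w)` for all `z`. -/
noncomputable def chr (G : E → E →L[ℝ] E →L[ℝ] ℝ) (y v w : E) : E :=
  Classical.epsilon fun a : E => ∀ z, 2 * G y a z = dg G y v w z + dg G y w v z - dg G y z v w

/-- The curvature tensor `R(u,v)w` at `y`. -/
noncomputable def riem (G : E → E →L[ℝ] E →L[ℝ] ℝ) (y u v w : E) : E :=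
  fderiv ℝ (fun x => chr G x v w) y u - fderiv ℝ (fun x => chr G x u w) y v +
    chr G y u (chr G y v w) - chr G y v (chr G y u w)

/-- The Ricci tensor `Ric(v,w)`, the trace of `u ↦ R(u,v)w` in the basis `b`. -/
noncomputable def ric (b : Module.Basis ι ℝ E) (G : E → E →L[ℝ] E →L[ℝ] ℝ) (y v w : E) : ℝ :=
  ∑ i, b.repr (riem G y (b i) v w) i

/-- The Gram matrix `g_{ij}`. -/
noncomputable def gram (b : Module.Basis ι ℝ E) (G : E → E →L[ℝ] E →L[ℝ] ℝ) (y : E) :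
    Matrix ι ι ℝ :=
  Matrix.of fun i j => G y (b i) (b j)

/-- The scalar curvature `g^{ij} Ric_{ij}`. -/
noncomputable def scal (b : Module.Basis ι ℝ E) (G : E → E →L[ℝ] E →L[ℝ] ℝ) (y : E) : ℝ :=
  ∑ i, ∑ j, (gram b G y)⁻¹ i j * ric b G y (b i) (b j)

variable {M : Type} [TopologicalSpace M] [ChartedSpace E M]

/-- The coefficients of the metric `g` in the chart `e` (Mathlib's tangent space of `M` at a point
is the model space `E`). -/
noncomputable def gc (g : M → E →L[ℝ] E →L[ℝ] ℝ) (e : OpenPartialHomeomorph M E) (y : E) :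
    E →L[ℝ] E →L[ℝ] ℝ :=
  (g (e.symm y)).bilinearComp (mfderiv 𝓘(ℝ, E) 𝓘(ℝ, E) e.symm y : E →L[ℝ] E)
    (mfderiv 𝓘(ℝ, E) 𝓘(ℝ, E) e.symm y : E →L[ℝ] E)

/-- `g` is symmetric and positive definite at every point. -/
def IsPos (g : M → E →L[ℝ] E →L[ℝ] ℝ) : Prop :=
  ∀ m : M, (∀ v w, g m v w = g m w v) ∧ ∀ v, v ≠ 0 → 0 < g m v v

/-- `g(t)`, `0 ≤ t < T`, is a smooth Ricci flow on `M`. -/
def IsRicciFlow (b : Module.Basis ι ℝ E) (g : ℝ → M → E →L[ℝ] E →L[ℝ] ℝ) (T : ℝ) : Prop :=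
  (∀ t ∈ Set.Ico 0 T, IsPos (g t)) ∧
  ∀ e ∈ atlas E M, ∀ v w : E,
    ContDiffOn ℝ ∞ (fun p : ℝ × E => gc (g p.1) e p.2 v w) (Set.Ico 0 T ×ˢ e.target) ∧
    ∀ t ∈ Set.Ico 0 T, ∀ y ∈ e.target,
      HasDerivWithinAt (fun s => gc (g s) e y v w) (-2 * ric b (gc (g t) e) y v w) (Set.Ico 0 T) t

/-- The scalar curvature of `g(t)` is bounded on `M × [0,T)`. -/
def BddScal (b : Module.Basis ι ℝ E) (g : ℝ → M → E →L[ℝ] E →L[ℝ] ℝ) (T : ℝ) : Prop :=
  ∃ C : ℝ, ∀ t ∈ Set.Ico 0 T, ∀ e ∈ atlas E M, ∀ y ∈ e.target, |scal b (gc (g t) e) y| ≤ C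

/-- The flow `g` extends past `T` as a smooth Ricci flow on `M`. -/
def Extends (b : Module.Basis ι ℝ E) (g : ℝ → M → E →L[ℝ] E →L[ℝ] ℝ) (T : ℝ) : Prop :=
  ∃ ε > 0, ∃ g' : ℝ → M → E →L[ℝ] E →L[ℝ] ℝ,
    IsRicciFlow b g' (T + ε) ∧ ∀ t ∈ Set.Ico 0 T, g' t = g t

variable (M) in
/-- On `M` there is a smooth Ricci flow on a finite time interval `[0,T)`, with bounded scalar
curvature, that does not extend past `T`. -/
def HasBadFlow (b : Module.Basis ι ℝ E) : Prop :=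
  ∃ T : ℝ, 0 < T ∧ ∃ g : ℝ → M → E →L[ℝ] E →L[ℝ] ℝ,
    IsRicciFlow b g T ∧ BddScal b g T ∧ ¬ Extends b g T

end Vale.Agent.P244.St
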