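import Vale.Agent.P244.Base

/-! P244: statements of part E (existence) and part C (maximum principles, continuation). -/

open Set Filter
open scoped ContDiff Topology

namespace Vale.Agent.P244

/-! ### Part E -/

/-- Weighted square norm of the `j`-th derivative. -/
noncomputable def TT (e j : ℕ) (g : ℝ → ℝ) : ℝ := ∫ x in (0 : ℝ)..1, om x ^ (j + e) * D j g x ^ 2

/-- Weighted Sobolev norm (squared). -/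
noncomputable def NN (e k : ℕ) (g : ℝ → ℝ) : ℝ := ∑ j ∈ Finset.range (k + 1), TT e j g

structure HardyStmt : Prop where
  nonneg : ∀ e j g, 0 ≤ TT e j g
  mono : ∀ e k l g, k ≤ l → NN e k g ≤ NN e l g
  shift : ∀ e k g, NN e (k + 1) g = TT e 0 g + NN (e + 1) k (d1 g)
  add : ∀ e k g h, Sm g → Sm h → NN e k (fun x => g x + h x) ≤ 2 * (NN e k g + NN e k h)
  congr : ∀ e k g h, (∀ x ∈ I, g x = h x) → NN e k g = NN e k h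
  of_bound : ∀ e k g M, Sm g → (∀ j ≤ k, ∀ x ∈ I, |D j g x| ≤ M) → NN e k g ≤ (k + 1) * M ^ 2
  sup : ∀ e j, ∃ C, 0 ≤ C ∧ ∀ g, Sm g → ∀ x ∈ I, om x ^ (j + e) * D j g x ^ 2 ≤ C * NN e (j + 2) g
  usup : ∀ j, ∃ C, 0 ≤ C ∧ ∀ g, Sm g → ∀ x ∈ I, D j g x ^ 2 ≤ C * NN 0 (2 * j + 2) g
  der : ∀ e k, ∃ C, 0 ≤ C ∧ ∀ g, Sm g → NN e k (d1 g) ≤ C * NN e (k + 2) g

structure MulStmt : Prop where
  coef : ∀ e k c, Sm c → ∃ C, 0 ≤ C ∧ ∀ g, Sm g → NN e k (fun x => c x * g x) ≤ C * NN e k g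
  omd : ∀ k, ∃ C, 0 ≤ C ∧ ∀ g, Sm g → NN 0 k (fun x => om x * d1 g x) ≤ C * NN 0 (k + 1) g
  omdd : ∀ k, ∃ C, 0 ≤ C ∧ ∀ g, Sm g →
    NN 0 k (fun x => om x * d1 (d1 g) x + 2 * (1 - 2 * x) * d1 g x) ≤ C * NN 0 (k + 2) g
  jet : ∀ (j : ℕ) g, Sm g → ∀ x ∈ I,
    D j (fun x => om x * d1 (d1 g) x + 2 * (1 - 2 * x) * d1 g x) x =
      om x * D (j + 2) g x + (j + 2) * (1 - 2 * x) * D (j + 1) g x - j * (j + 3) * D j g x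
  jetb : ∀ (j : ℕ) d g, Sm g → ∀ x ∈ I, D j (fun x => be d x * d1 g x) x =
      be d x * D (j + 1) g x - j * (2 * d + 2) * D j g x

structure AlgStmt : Prop where
  alg : ∀ e k, ∃ C, 0 ≤ C ∧ ∀ g h, Sm g → Sm h → NN e k (fun x => g x * h x) ≤
    C * (NN e k g * NN 0 (k / 2 + 2) h + NN e (k / 2 + 2) g * NN 0 k h)
  com : ∀ k, 10 ≤ k → ∃ C, 0 ≤ C ∧ ∀ a g, Sm a → Sm g → ∀ j ≤ k,
    ∫ x in (0 : ℝ)..1, om x ^ j *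
      (D j (fun y => a y * g y) x - a x * D j g x - j * d1 a x * D (j - 1) g x) ^ 2 ≤
      C * (NN 0 k a * NN 0 (k - 3) g + NN 0 (k - 1) a * NN 0 (k - 2) g)

def CompStmt : Prop :=
  ∀ G : ℝ × V3 × V3 → ℝ, ContDiff ℝ ∞ G → ∀ k, 10 ≤ k → ∀ Mb : ℝ, ∃ C, 0 ≤ C ∧ ∀ a b : Fin 3 → ℝ → ℝ,
    (∀ i, Sm (a i) ∧ Sm (b i)) → (∀ i, NN 0 (k - 2) (a i) ≤ Mb ∧ NN 0 (k - 2) (b i) ≤ Mb) →
    NN 0 k (fun x => G (x, val a x, val b x)) ≤ C * (1 + ∑ i, (NN 0 k (a i) + NN 0 k (b i)))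

def PrinStmt : Prop :=
  ∀ d : ℝ, 0 ≤ d → ∀ k, 10 ≤ k → ∀ c > 0, ∀ Mb : ℝ, ∃ C, 0 ≤ C ∧ ∀ a u, Sm a → Sm u → (∀ x ∈ I, c ≤ a x) →
    NN 0 (k - 1) a ≤ Mb → NN 0 (k - 1) u ≤ Mb →
    ∑ j ∈ Finset.range (k + 1), ∫ x in (0 : ℝ)..1, om x ^ j * (D j u x * D j (fun y =>
      a y * (om y * d1 (d1 u) y + 2 * (1 - 2 * y) * d1 u y) + be d y * d1 u y) x) ≤
      -(c / 2) * TT 0 (k + 1) u + C * (1 + NN 0 k a + NN 0 k u)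

structure EnStmt : Prop where
  sm : ∀ d N, ContDiff ℝ ∞ N → ∀ f, (∀ i, Sm (f i)) → ∀ i, Sm (rhs d N f i)
  en : ∀ d : ℝ, 0 ≤ d → ∀ N, ContDiff ℝ ∞ N → ∀ k, 10 ≤ k → ∀ c > 0, ∀ Mb : ℝ, ∃ C, 0 ≤ C ∧ ∀ f,
    (∀ i, Sm (f i)) → (∀ x ∈ I, c ≤ al f x) → (∀ i, NN 0 (k - 1) (f i) ≤ Mb) →
    ∑ i, ∑ j ∈ Finset.range (k + 1), ∫ x in (0 : ℝ)..1,
      om x ^ j * (D j (f i) x * D j (rhs d N f i) x) ≤ C * (1 + ∑ i, NN 0 k (f i))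
  tame : ∀ d N, ContDiff ℝ ∞ N → ∀ k, 10 ≤ k → ∀ Mb : ℝ, ∃ C, 0 ≤ C ∧ ∀ f, (∀ i, Sm (f i)) →
    (∀ i, NN 0 (k + 2) (f i) ≤ Mb) → ∀ i, NN 0 k (rhs d N f i) ≤ C

/-- A polynomial as a function. -/
noncomputable def ev (p : Polynomial ℝ) : ℝ → ℝ := fun x => p.eval x

/-- `p` is the projection of `g` on polynomials of degree at most `n`, at all levels. -/
def IsProj (n : ℕ) (g : ℝ → ℝ) (p : Polynomial ℝ) : Prop :=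
  p.natDegree ≤ n ∧ (∀ j, TT 0 j (ev p) ≤ TT 0 j g) ∧ ∀ π : Polynomial ℝ, π.natDegree ≤ n → ∀ j,
    ∫ x in (0 : ℝ)..1, om x ^ j * ((D j g x - D j (ev p) x) * D j (ev π) x) = 0

structure ProjStmt : Prop where
  proj : ∀ n, ∃ P : (ℝ → ℝ) → Polynomial ℝ, (∀ g, Sm g → IsProj n g (P g)) ∧
    ∃ C, 0 ≤ C ∧ ∀ g h, Sm g → Sm h → ∀ ε, (∀ x ∈ I, |g x - h x| ≤ ε) →
      ∀ a, |(P g).coeff a - (P h).coeff a| ≤ C * ε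
  coef : ∀ n, ∃ C, 0 ≤ C ∧ ∀ p : Polynomial ℝ, p.natDegree ≤ n → ∀ a, p.coeff a ^ 2 ≤ C * TT 0 0 (ev p)
  app : ∀ g, Sm g → ∀ p : ℕ → Polynomial ℝ, (∀ n, IsProj n g (p n)) →
    ∀ ε > 0, ∃ n0, ∀ n ≥ n0, ∀ x ∈ I, |ev (p n) x - g x| ≤ ε

def OdeStmt : Prop :=
  ∀ (E : Type) [NormedAddCommGroup E] [NormedSpace ℝ E] [FiniteDimensional ℝ E] (V : E → E),
    (∀ R, ∃ K, LipschitzOnWith K V (Metric.closedBall 0 R)) → ∀ (c0 : E) (T R : ℝ), 0 < T →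
    (∀ t ∈ Ioc 0 T, ∀ c : ℝ → E, c 0 = c0 →
      (∀ s ∈ Icc 0 t, HasDerivWithinAt c (V (c s)) (Icc 0 t) s) → ∀ s ∈ Icc 0 t, ‖c s‖ ≤ R) →
    ∃ c : ℝ → E, c 0 = c0 ∧ ∀ s ∈ Icc 0 T, HasDerivWithinAt c (V (c s)) (Icc 0 T) s

/-- A Galerkin solution of degree `n`. -/
structure PSol (d : ℝ) (N : ℝ × V3 × V3 → V3) (n : ℕ) (T : ℝ)
    (u w : ℝ → Fin 3 → Polynomial ℝ) : Prop where
  deg : ∀ t i, (u t i).natDegree ≤ n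
  der : ∀ t ∈ Icc 0 T, ∀ i a,
    HasDerivWithinAt (fun s => (u s i).coeff a) ((w t i).coeff a) (Icc 0 T) t
  proj : ∀ t ∈ Icc 0 T, ∀ i, IsProj n (rhs d N (fun l => ev (u t l)) i) (w t i)

structure PEnStmt : Prop where
  jet : ∀ d N n T u w, PSol d N n T u w → ∀ t ∈ Icc 0 T, ∀ i j, ∀ x ∈ I,
    HasDerivWithinAt (fun s => D j (ev (u s i)) x) (D j (ev (w t i)) x) (Icc 0 T) t
  en : ∀ d N n T u w, ContDiff ℝ ∞ N → PSol d N n T u w → ∀ t ∈ Icc 0 T, ∀ k,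
    HasDerivWithinAt (fun s => ∑ i, NN 0 k (ev (u s i)))
      (2 * ∑ i, ∑ j ∈ Finset.range (k + 1), ∫ x in (0 : ℝ)..1, om x ^ j *
        (D j (ev (u t i)) x * D j (rhs d N (fun l => ev (u t l)) i) x)) (Icc 0 T) t

def Gal1Stmt : Prop :=
  ∀ d : ℝ, 0 ≤ d → ∀ N, ContDiff ℝ ∞ N → ∀ c > 0, ∀ M : ℝ, ∀ δ > 0, ∃ T > 0, ∃ M', ∀ n,
    ∀ p0 : Fin 3 → Polynomial ℝ, (∀ i, (p0 i).natDegree ≤ n) →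
    (∀ x ∈ I, c ≤ al (fun l => ev (p0 l)) x) → (∀ i, NN 0 12 (ev (p0 i)) ≤ M) →
    ∃ u w, PSol d N n T u w ∧ u 0 = p0 ∧ ∀ t ∈ Icc 0 T,
      (∀ x ∈ I, c / 2 ≤ al (fun l => ev (u t l)) x) ∧ (∀ i, NN 0 12 (ev (u t i)) ≤ M') ∧
      ∀ i, ∀ x ∈ I, |ev (u t i) x - ev (p0 i) x| ≤ δ

/-- A Galerkin sequence with uniform bounds. -/
structure Gal (d : ℝ) (N : ℝ × V3 × V3 → V3) (f0 : Fin 3 → ℝ → ℝ) (T δ : ℝ)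
    (u w : ℕ → Fin 3 → Fn) : Prop where
  sm : ∀ n i t, Sm (u n i t) ∧ Sm (w n i t)
  der : ∀ n i j, ∀ t ∈ Icc 0 T, ∀ x ∈ I,
    HasDerivWithinAt (fun s => D j (u n i s) x) (D j (w n i t) x) (Icc 0 T) t
  bd : ∀ j, ∃ C, ∀ n i, ∀ t ∈ Icc 0 T, ∀ x ∈ I, |D j (u n i t) x| ≤ C ∧ |D j (w n i t) x| ≤ C
  orth : ∀ n i, ∀ t ∈ Icc 0 T, ∀ π : Polynomial ℝ, π.natDegree ≤ n →
    ∫ x in (0 : ℝ)..1, (w n i t x - rhs d N (sl (u n) t) i x) * ev π x = 0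
  init : ∀ n i, ∀ π : Polynomial ℝ, π.natDegree ≤ n →
    ∫ x in (0 : ℝ)..1, (u n i 0 x - f0 i x) * ev π x = 0
  near : ∀ n i, ∀ t ∈ Icc 0 T, ∀ x ∈ I, |u n i t x - u n i 0 x| ≤ δ

def GalStmt : Prop :=
  ∀ d : ℝ, 0 ≤ d → ∀ N, ContDiff ℝ ∞ N → ∀ c > 0, ∀ M : ℝ, ∀ δ > 0, ∃ T > 0, ∀ f0 : Fin 3 → ℝ → ℝ,
    (∀ i, Sm (f0 i)) → (∀ x ∈ I, c ≤ al f0 x) → (∀ i, ∀ j ≤ 12, ∀ x ∈ I, |D j (f0 i) x| ≤ M) →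
    ∃ u w, Gal d N f0 T δ u w

def JetLimStmt : Prop :=
  ∀ (T : ℝ) (u : ℕ → Fin 3 → Fn), 0 < T → (∀ n i t, Sm (u n i t)) →
    (∀ j, ∃ C, ∀ n i, ∀ t ∈ Icc 0 T, ∀ x ∈ I, |D j (u n i t) x| ≤ C ∧
      ∀ s ∈ Icc 0 T, |D j (u n i t) x - D j (u n i s) x| ≤ C * |t - s|) →
    ∃ φ : ℕ → ℕ, StrictMono φ ∧ ∃ f : Fin 3 → Fn, (∀ i, ∀ t ∈ Icc 0 T, Sm (f i t)) ∧ ∀ i j,
      ContinuousOn (fun p : ℝ × ℝ => D j (f i p.1) p.2) (Icc 0 T ×ˢ I) ∧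
      TendstoUniformlyOn (fun n (p : ℝ × ℝ) => D j (u (φ n) i p.1) p.2)
        (fun p : ℝ × ℝ => D j (f i p.1) p.2) atTop (Icc 0 T ×ˢ I)

/-- A solution whose jets are only known to be continuous. -/
structure Weak (d : ℝ) (N : ℝ × V3 × V3 → V3) (f0 : Fin 3 → ℝ → ℝ) (T : ℝ)
    (f : Fin 3 → Fn) : Prop where
  sm : ∀ i, ∀ t ∈ Icc 0 T, Sm (f i t)
  cont : ∀ i j, ContinuousOn (fun p : ℝ × ℝ => D j (f i p.1) p.2) (Icc 0 T ×ˢ I)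
  init : ∀ i, ∀ x ∈ I, f i 0 x = f0 i x
  eqn : ∀ i, ∀ t ∈ Icc 0 T, ∀ x ∈ I,
    HasDerivWithinAt (fun s => f i s x) (rhs d N (sl f t) i x) (Icc 0 T) t

def LimStmt : Prop :=
  ∀ d N f0 T δ u w, ContDiff ℝ ∞ N → 0 < T → (∀ i, Sm (f0 i)) → Gal d N f0 T δ u w →
    ∃ f, Weak d N f0 T f ∧ ∀ i, ∀ t ∈ Icc 0 T, ∀ x ∈ I, |f i t x - f0 i x| ≤ δ

/-- Continuous partial derivatives give joint differentiability, in a class closed under both. -/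
def ClosedStmt : Prop :=
  ∀ (T : ℝ) (𝒜 : Set Fn), 0 < T →
    (∀ u ∈ 𝒜, ContinuousOn (fun p : ℝ × ℝ => u p.1 p.2) (Icc 0 T ×ˢ I) ∧
      (∃ v ∈ 𝒜, ∀ t ∈ Icc 0 T, ∀ x ∈ I, HasDerivWithinAt (u t) (v t x) I x) ∧
      (∃ v ∈ 𝒜, ∀ t ∈ Icc 0 T, ∀ x ∈ I,
        HasDerivWithinAt (fun s => u s x) (v t x) (Icc 0 T) t)) →
    ∀ u ∈ 𝒜, JS T u

def UpStmt : Prop :=
  ∀ d N f0 T f, ContDiff ℝ ∞ N → 0 < T → Weak d N f0 T f → ∀ i, JS T (f i)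

def ExistStmt : Prop :=
  ∀ d O N, Sys d O N → ∀ K ⊆ O, IsCompact K → ∀ M : ℝ, ∃ T > 0, ∀ f0 : Fin 3 → ℝ → ℝ,
    (∀ i, Sm (f0 i)) → (∀ x ∈ I, (x, val f0 x) ∈ K) →
    (∀ i, ∀ j ≤ 12, ∀ x ∈ I, |D j (f0 i) x| ≤ M) → ∃ f, Sol d O N f0 T f

/-! ### Part C -/

/-- First touching principle on a region with moving lateral boundaries. -/
def TouchStmt : Prop :=
  ∀ (ι : Type) [Fintype ι] (T ta tb : ℝ) (u : ι → Fn) (A B : Fn) (l r : ℝ → ℝ),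
    0 < T → 0 ≤ ta → ta ≤ tb → tb ≤ T → (∀ i, JS T (u i)) → Continuous l → Continuous r →
    (∀ t ∈ Icc ta tb, 0 ≤ l t ∧ l t ≤ r t ∧ r t ≤ 1) →
    (∀ t ∈ Icc ta tb, ∀ x ∈ Icc (l t) (r t), 0 ≤ A t x) →
    (((∀ t, l t = 0) ∧ ∀ t ∈ Icc ta tb, A t 0 = 0 ∧ 0 ≤ B t 0) ∨
      ∀ i, ∀ t ∈ Icc ta tb, u i t (l t) < 0) →
    (((∀ t, r t = 1) ∧ ∀ t ∈ Icc ta tb, A t 1 = 0 ∧ B t 1 ≤ 0) ∨
      ∀ i, ∀ t ∈ Icc ta tb, u i t (r t) < 0) →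
    (∀ i, ∀ x ∈ Icc (l ta) (r ta), u i ta x < 0) →
    (∀ i, ∀ t ∈ Ioc ta tb, ∀ x ∈ Icc (l t) (r t), u i t x = 0 →
      (∀ j, ∀ s ∈ Icc ta t, ∀ y ∈ Icc (l s) (r s), u j s y ≤ 0) →
      (0 < x → x < 1 → dx (u i) t x = 0) → box T A B (u i) t x < 0) →
    ∀ i, ∀ t ∈ Icc ta tb, ∀ x ∈ Icc (l t) (r t), u i t x < 0

/-- Pointwise rules for `box`. -/
structure BoxStmt : Prop where
  add : ∀ T A B u v, 0 < T → JS T u → JS T v → ∀ t ∈ Icc 0 T, ∀ x ∈ I,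
    box T A B (fun t x => u t x + v t x) t x = box T A B u t x + box T A B v t x
  sub : ∀ T A B u v, 0 < T → JS T u → JS T v → ∀ t ∈ Icc 0 T, ∀ x ∈ I,
    box T A B (fun t x => u t x - v t x) t x = box T A B u t x - box T A B v t x
  smul : ∀ T A B u (c : ℝ), 0 < T → JS T u → ∀ t ∈ Icc 0 T, ∀ x ∈ I,
    box T A B (fun t x => c * u t x) t x = c * box T A B u t x
  mul : ∀ T A B u v, 0 < T → JS T u → JS T v → ∀ t ∈ Icc 0 T, ∀ x ∈ I,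
    box T A B (fun t x => u t x * v t x) t x =
      u t x * box T A B v t x + v t x * box T A B u t x - 2 * A t x * dx u t x * dx v t x
  dx_mul : ∀ T u v, JS T u → JS T v → ∀ t ∈ Icc 0 T, ∀ x ∈ I,
    dx (fun t x => u t x * v t x) t x = u t x * dx v t x + v t x * dx u t x
  dx_lin : ∀ T u v (a b : ℝ), JS T u → JS T v → ∀ t ∈ Icc 0 T, ∀ x ∈ I,
    dx (fun t x => a * u t x + b * v t x) t x = a * dx u t x + b * dx v t x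
  comp : ∀ T A B u (g g' g'' : ℝ → ℝ) (U : Set ℝ), 0 < T → JS T u → IsOpen U →
    (∀ s ∈ U, HasDerivAt g (g' s) s ∧ HasDerivAt g' (g'' s) s) → ∀ t ∈ Icc 0 T, ∀ x ∈ I,
    u t x ∈ U → dx (fun t x => g (u t x)) t x = g' (u t x) * dx u t x ∧
      box T A B (fun t x => g (u t x)) t x =
        g' (u t x) * box T A B u t x - g'' (u t x) * A t x * dx u t x ^ 2
  ofX : ∀ T A B g, 0 < T → ∀ t ∈ Icc 0 T, ∀ x ∈ I,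
    box T A B (fun _ y => g y) t x = -(A t x * d1 (d1 g) x) - B t x * d1 g x
  ofT : ∀ T A B (g : ℝ → ℝ) (c : ℝ), 0 < T → ∀ t ∈ Icc 0 T, ∀ x ∈ I,
    HasDerivWithinAt g c (Icc 0 T) t → box T A B (fun s _ => g s) t x = c
  quad : ∀ T A B (a b c : ℝ → ℝ) (a' b' c' : ℝ), 0 < T → ∀ t ∈ Icc 0 T, ∀ x ∈ I,
    HasDerivAt a a' t → HasDerivAt b b' t → HasDerivAt c c' t →
    dx (fun s y => a s + b s * y + c s * y ^ 2) t x = b t + 2 * c t * x ∧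
    box T A B (fun s y => a s + b s * y + c s * y ^ 2) t x =
      a' + b' * x + c' * x ^ 2 - A t x * (2 * c t) - B t x * (b t + 2 * c t * x)
  congr : ∀ T A B u v, ∀ t ∈ Icc 0 T, ∀ x ∈ I, ∀ U ∈ 𝓝 x,
    (∀ s ∈ Icc 0 T, ∀ y ∈ U ∩ I, u s y = v s y) →
    dx u t x = dx v t x ∧ dx (dx u) t x = dx (dx v) t x ∧ box T A B u t x = box T A B v t x
  cont : ∀ T A B u, 0 < T → JS T u → ∀ t ∈ Icc 0 T, ContinuousOn (A t) I → ContinuousOn (B t) I →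
    ContinuousOn (box T A B u t) I

def GronStmt : Prop :=
  ∀ (T : ℝ) (u A B : Fn) (C S M0 : ℝ), 0 < T → JS T u → 0 ≤ C → 0 ≤ S → 0 ≤ M0 →
    (∀ t ∈ Icc 0 T, (∀ x ∈ I, 0 ≤ A t x) ∧ A t 0 = 0 ∧ 0 ≤ B t 0 ∧ A t 1 = 0 ∧ B t 1 ≤ 0) →
    (∀ x ∈ I, u 0 x ≤ M0) →
    (∀ t ∈ Icc 0 T, ∀ x ∈ I, 0 ≤ u t x → box T A B u t x ≤ C * u t x + S) →
    ∀ t ∈ Icc 0 T, ∀ x ∈ I, u t x ≤ (M0 + S * t) * Real.exp (C * t)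

/-- The level `j` diffusion and drift coefficients. -/
def cA (a : Fn) : Fn := fun t x => a t x * om x

def cB (d : ℝ) (j : ℕ) (a : Fn) : Fn := fun t x => a t x * (j * (1 - 2 * x)) + be d x

def LinStmt : Prop :=
  ∀ c > 0, ∀ C Tb : ℝ, ∃ C', ∀ d : ℝ, 0 ≤ d → ∀ j : ℕ, ∀ T ∈ Ioc 0 Tb, ∀ (a : Fn) (g : Fin 3 → Fn)
    (S M0 : ℝ), 0 ≤ S → 0 ≤ M0 → (∀ i, JS T (g i)) → (∀ t ∈ Icc 0 T, ∀ x ∈ I, c ≤ a t x) →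
    (∀ i, ∀ x ∈ I, |g i 0 x| ≤ M0) →
    (∀ i, ∀ t ∈ Icc 0 T, ∀ x ∈ I, |box T (cA a) (cB d j a) (g i) t x| ≤
      C * (om x * ∑ l, |dx (g l) t x| + ∑ l, |g l t x|) + S) →
    ∀ i, ∀ t ∈ Icc 0 T, ∀ x ∈ I, |g i t x| ≤ C' * (M0 + S)

def BernStmt : Prop :=
  ∀ d : ℝ, 0 ≤ d → ∀ j : ℕ, 3 ≤ j → ∀ c > 0, ∀ C Tb : ℝ, ∃ C', ∀ T ∈ Ioc 0 Tb,
    ∀ (a : Fn) (g : Fin 3 → Fn), (∀ i, JS T (g i)) →
    (∀ t ∈ Icc 0 T, ∀ x ∈ I, c ≤ a t x ∧ a t x ≤ C) →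
    (∀ i, ∀ t ∈ Icc 0 T, ∀ x ∈ I, |g i t x| ≤ C) → (∀ i, ∀ x ∈ I, |dx (g i) 0 x| ≤ C) →
    (∀ i, ∀ t ∈ Icc 0 T, ∀ x ∈ I, |box T (cA a) (cB d j a) (g i) t x| ≤
      C * (om x * ∑ l, |dx (g l) t x| + 1)) →
    (∀ i, ∀ t ∈ Icc 0 T, ∀ x ∈ I, |box T (cA a) (cB d (j + 1) a) (dx (g i)) t x| ≤
      C * (om x * ∑ l, |dx (dx (g l)) t x| + om x ^ 2 * ∑ l, dx (g l) t x ^ 2 +
        ∑ l, |dx (g l) t x| + 1)) →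
    ∀ i, ∀ t ∈ Icc 0 T, ∀ x ∈ I, om x * |dx (g i) t x| ≤ C'

structure StabStmt : Prop where
  stab : ∀ d O N, Sys d O N → ∀ K ⊆ O, IsCompact K → ∀ Cg Tb : ℝ, ∃ C, 0 ≤ C ∧ ∀ T ≤ Tb,
    ∀ f0 f0' f f', Sol d O N f0 T f → Sol d O N f0' T f' →
    (∀ t ∈ Icc 0 T, ∀ x ∈ I, (x, val (sl f t) x) ∈ K ∧ (x, val (sl f' t) x) ∈ K ∧ ∀ i,
      |gr (sl f t) x i| ≤ Cg ∧ |dx (f' i) t x| ≤ Cg ∧ |dx (dx (f' i)) t x| ≤ Cg) →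
    ∀ ε, (∀ i, ∀ x ∈ I, |f0 i x - f0' i x| ≤ ε) →
    ∀ i, ∀ t ∈ Icc 0 T, ∀ x ∈ I, |f i t x - f' i t x| ≤ C * ε
  uniq : ∀ d O N, Sys d O N → ∀ T f0 f f', Sol d O N f0 T f → Sol d O N f0 T f' →
    ∀ i, ∀ t ∈ Icc 0 T, ∀ x ∈ I, f i t x = f' i t x

/-- The remainder of the `j`-th differentiated equation. -/
noncomputable def jrem (d : ℝ) (N : ℝ × V3 × V3 → V3) (f : Fin 3 → ℝ → ℝ) (j : ℕ) (i : Fin 3)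
    (x : ℝ) : ℝ :=
  D j (rhs d N f i) x - (al f x * om x * D (j + 2) (f i) x +
    (al f x * ((j + 2 : ℕ) * (1 - 2 * x)) + be d x) * D (j + 1) (f i) x)

/-- Static bounds for the remainders. -/
def JetStmt : Prop :=
  ∀ d O N, Sys d O N → ∀ K ⊆ O, IsCompact K → ∀ (M : ℝ) (j : ℕ), 1 ≤ j → ∃ C, 0 ≤ C ∧
    ∀ f : Fin 3 → ℝ → ℝ, (∀ i, Sm (f i)) →
    (∀ x ∈ I, (x, val f x) ∈ K ∧ ∀ i, |gr f x i| ≤ M) →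
    (∀ i, ∀ l < j, ∀ x ∈ I, |D l (f i) x| ≤ M) → ∀ i, ∀ x ∈ I,
    |jrem d N f j i x| ≤ C * (om x * ∑ l, |D (j + 1) (f l) x| +
      (if j = 2 then om x ^ 2 * ∑ l, D 2 (f l) x ^ 2 else 0) + ∑ l, |D j (f l) x| + 1)

def ContStmt : Prop :=
  ∀ d O N, Sys d O N → ∀ K ⊆ O, IsCompact K → ∀ (Cg tm : ℝ) f0 f, 0 < tm →
    (∀ T ∈ Ioo 0 tm, Sol d O N f0 T f) →
    (∀ t ∈ Ico 0 tm, ∀ x ∈ I, (x, val (sl f t) x) ∈ K ∧ ∀ i, |gr (sl f t) x i| ≤ Cg) →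
    ∀ k, ∃ C, ∀ i, ∀ t ∈ Ico 0 tm, ∀ x ∈ I, |D k (f i t) x| ≤ C

/-- Gluing a solution with a restarted one. -/
def GlueStmt : Prop :=
  ∀ d O N, Sys d O N → ∀ f0 T f, Sol d O N f0 T f → ∀ ta ∈ Ico 0 T, ∀ S g,
    Sol d O N (sl f ta) S g → T ≤ ta + S →
    ∃ h, Sol d O N f0 (ta + S) h

def MaxStmt : Prop :=
  ∀ d O N, Sys d O N → ∀ f0 : Fin 3 → ℝ → ℝ, (∀ i, Sm (f0 i)) → (∀ x ∈ I, (x, val f0 x) ∈ O) →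
    ∀ Tb > 0, ∃ tm ∈ Ioc 0 Tb, ∃ f, (∀ T ∈ Ioo 0 tm, Sol d O N f0 T f) ∧
      (tm < Tb → ∀ K ⊆ O, IsCompact K → ∀ Cg : ℝ, ¬ ∀ t ∈ Ico 0 tm, ∀ x ∈ I,
        (x, val (sl f t) x) ∈ K ∧ ∀ i, |gr (sl f t) x i| ≤ Cg)

/-- Continuity (bootstrap) argument. -/
def BootStmt : Prop :=
  ∀ (ι : Type) [Fintype ι] (t1 : ℝ) (u : ι → Fn) (a b : ι → ℝ), 0 ≤ t1 →
    (∀ i, ContinuousOn (fun p : ℝ × ℝ => u i p.1 p.2) (Icc 0 t1 ×ˢ Icc (a i) (b i))) →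
    (∀ i, ∀ x ∈ Icc (a i) (b i), u i 0 x ≤ 1) →
    (∀ t ∈ Icc 0 t1, (∀ i, ∀ s ∈ Icc 0 t, ∀ x ∈ Icc (a i) (b i), u i s x ≤ 1) →
      ∀ i, ∀ x ∈ Icc (a i) (b i), u i t x < 1) →
    ∀ i, ∀ t ∈ Icc 0 t1, ∀ x ∈ Icc (a i) (b i), u i t x ≤ 1

end Vale.Agent.P244
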