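import Vale.Agent.P244.StmE

/-! P244: statements of part L (Laguerre modes, cone lemma, topology, interior estimates). -/

open Set Filter MeasureTheory
open scoped ContDiff Topology

namespace Vale.Agent.P244

/-- The Gamma density. -/
noncomputable def wt (k : ℕ) (y : ℝ) : ℝ := y ^ (k - 1) * Real.exp (-y) / (k - 1).factorial

noncomputable def ip (k : ℕ) (G H : ℝ → ℝ) : ℝ := ∫ y in Ioi (0 : ℝ), G y * H y * wt k y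

/-- The Laguerre operator. -/
noncomputable def LL (k : ℕ) (G : ℝ → ℝ) (y : ℝ) : ℝ :=
  y * deriv (deriv G) y + (k - y) * deriv G y

/-- The first four normalized Laguerre polynomials. -/
noncomputable def ee (k : ℕ) : Fin 4 → ℝ → ℝ :=
  ![fun _ => 1, fun y => (k - y) / √k,
    fun y => (y ^ 2 - 2 * (k + 1) * y + k * (k + 1)) / √(2 * k * (k + 1)),
    fun y => -(y ^ 3 - 3 * (k + 2) * y ^ 2 + 3 * (k + 1) * (k + 2) * y - k * (k + 1) * (k + 2)) /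
      √(6 * k * (k + 1) * (k + 2))]

noncomputable def am (k : ℕ) (G : ℝ → ℝ) (j : Fin 4) : ℝ := ip k G (ee k j)

noncomputable def Qm (k : ℕ) (G : ℝ → ℝ) : ℝ := ip k (fun y => y * deriv G y) (deriv G)

noncomputable def SS (k : ℕ) (G : ℝ → ℝ) : ℝ := Qm k G - ∑ j : Fin 4, (j : ℕ) * am k G j ^ 2

noncomputable def Lam (k : ℕ) (G : ℝ → ℝ) : ℝ :=
  ip k (LL k G) (LL k G) - ∑ j : Fin 4, ((j : ℕ) : ℝ) ^ 2 * am k G j ^ 2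

noncomputable def tail (k : ℕ) (Y : ℝ) : ℝ := ∫ y in Ioi Y, wt k y

/-- Smooth on `[0,∞)` with bounded support. -/
def Cs (G : ℝ → ℝ) : Prop := ContDiffOn ℝ ∞ G (Ici 0) ∧ ∃ Y, ∀ y ≥ Y, G y = 0

/-- Continuous on `(0,∞)` with polynomial growth. -/
def Bd (P : ℝ → ℝ) : Prop :=
  ContinuousOn P (Ioi 0) ∧ ∃ (C : ℝ) (N : ℕ), ∀ y > 0, |P y| ≤ C * (1 + y) ^ N

/-- `C¹` on `(0,∞)` with `G` and `y G'` of polynomial growth. -/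
def C1g (G : ℝ → ℝ) : Prop := ContDiffOn ℝ 1 G (Ioi 0) ∧ Bd G ∧ Bd fun y => y * deriv G y

structure LBasicStmt : Prop where
  int : ∀ k, 1 ≤ k → ∀ P, Bd P → IntegrableOn (fun y => P y * wt k y) (Ioi 0)
  mul : ∀ P R, Bd P → Bd R → Bd fun y => P y * R y
  lin : ∀ P R (a b : ℝ), Bd P → Bd R → Bd fun y => a * P y + b * R y
  pow : ∀ i : ℕ, Bd fun y => y ^ i
  cs : ∀ k G, Cs G → Bd G ∧ Bd (deriv G) ∧ Bd (deriv (deriv G)) ∧ Bd (LL k G)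
  ee_bd : ∀ k j, ContDiff ℝ ∞ (ee k j) ∧ Bd (ee k j) ∧ Bd (deriv (ee k j)) ∧
    Bd (deriv (deriv (ee k j)))
  mom : ∀ k, 1 ≤ k → ∀ i : ℕ, ∫ y in Ioi (0 : ℝ), y ^ i * wt k y = k.ascFactorial i
  orth : ∀ k, 1 ≤ k → ∀ i j, ip k (ee k i) (ee k j) = if i = j then 1 else 0
  eig : ∀ k j y, LL k (ee k j) y = -((j : ℕ) : ℝ) * ee k j y
  span : ∀ k, 1 ≤ k → ∀ i < 4, ∃ c : Fin 4 → ℝ, ∀ y : ℝ, y ^ i = ∑ j, c j * ee k j y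
  /-- integration by parts -/
  ibp : ∀ k : ℕ, 1 ≤ k → ∀ G H : ℝ → ℝ, ContDiffOn ℝ 1 G (Ioi 0) → ContDiffOn ℝ 1 H (Ioi 0) →
    Bd G → Bd H → Bd (fun y => y * deriv G y) → Bd (fun y => y * deriv H y) →
    ip k G (fun y => y * deriv H y + (k - y) * H y) = -ip k (fun y => y * deriv G y) H
  cauchy : ∀ k, 1 ≤ k → ∀ P R, Bd P → Bd R → ip k P R ^ 2 ≤ ip k P P * ip k R R
  congr : ∀ k G H, (∀ y > 0, G y = H y) → (∀ j, am k G j = am k H j) ∧ SS k G = SS k H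
  smul : ∀ k G (c : ℝ), (∀ j, am k (fun y => c * G y) j = c * am k G j) ∧
    SS k (fun y => c * G y) = c ^ 2 * SS k G

/-- The spectral gap, by duality. -/
def GapAbsStmt : Prop :=
  ∀ m k : ℕ, 2 ≤ k → ∀ G, C1g G → (∀ i < m, ip k G (fun y => y ^ i) = 0) → m * ip k G G ≤ Qm k G

structure Gap (k : ℕ) (G : ℝ → ℝ) : Prop where
  eig : ∀ j, ip k (LL k G) (ee k j) = -((j : ℕ) : ℝ) * am k G j
  h0 : ip k (fun y => G y - ∑ j, am k G j * ee k j y) (fun y => G y - ∑ j, am k G j * ee k j y) =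
    ip k G G - ∑ j, am k G j ^ 2
  h1 : Qm k (fun y => G y - ∑ j, am k G j * ee k j y) = SS k G
  nonneg : 0 ≤ ip k G G - ∑ j, am k G j ^ 2
  gap : 4 * (ip k G G - ∑ j, am k G j ^ 2) ≤ SS k G
  gap2 : 4 * SS k G ≤ Lam k G
  bessel : ∀ P, Bd P → ∑ j, ip k P (ee k j) ^ 2 ≤ ip k P P
  cross : ∀ P, Bd P → (ip k (LL k G) P + ∑ j : Fin 4, (j : ℕ) * am k G j * ip k P (ee k j)) ^ 2 ≤
    Lam k G * ip k P P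

def GapStmt : Prop := ∀ k, 2 ≤ k → ∀ G, Cs G → Gap k G

def PertStmt : Prop :=
  ∀ ε > 0, ∃ k0, ∀ k ≥ k0, ∀ G P, Cs G → Bd P → ∀ η c Y : ℝ, 0 ≤ η → 0 ≤ c → 0 < Y →
    (∀ y > 0, |P y| ≤ η * (y * |deriv (deriv G) y|) + 3 * (|deriv G y| + |G y| / y) +
      if Y ≤ y then c else 0) →
    ip k P P ≤ (36 * η ^ 2 + ε) * (Lam k G + ∑ j, am k G j ^ 2) + 4 * c ^ 2 * tail k Y

structure SobStmt : Prop where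
  unif : ∃ (C : ℝ) (k0 : ℕ), 0 < C ∧ ∀ k : ℕ, k0 ≤ k → ∀ G, Cs G → ∀ y : ℝ, |y - k| ≤ 360 * √k →
    (G y - ∑ j, am k G j * ee k j y) ^ 2 ≤ C * SS k G
  loc : ∀ k : ℕ, 2 ≤ k → ∃ C, 0 < C ∧ ∀ G, Cs G → ∀ y ∈ Icc ((k : ℝ) / 2) (2 * k),
    G y ^ 2 ≤ C * (SS k G + ∑ j, am k G j ^ 2)

structure PolyStmt : Prop where
  low : ∀ k : ℕ, 10 ≤ k → ∀ a : Fin 4 → ℝ, 0 ≤ a 3 → a 0 ^ 2 + a 1 ^ 2 + a 2 ^ 2 ≤ a 3 ^ 2 / 50 →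
    ∀ y : ℝ, y ≤ k - 300 * √k → 2 * a 3 ≤ ∑ j, a j * ee k j y
  up : ∀ k : ℕ, 10 ≤ k → ∀ a : Fin 4 → ℝ, 0 ≤ a 3 → a 0 ^ 2 + a 1 ^ 2 + a 2 ^ 2 ≤ a 3 ^ 2 / 50 →
    ∀ y ∈ Icc (0 : ℝ) k, ∑ j, a j * ee k j y ≤ 2 * k * √k * a 3
  tail : ∀ k, 1 ≤ k → ∃ C, 0 ≤ C ∧ ∀ Y > 0, tail k Y ≤ C / Y ^ 80

/-- The exit function of the tube. -/
def G1 (θ : ℝ) (a : Fin 4 → ℝ) (S : ℝ) : ℝ := a 0 ^ 2 + a 1 ^ 2 + a 2 ^ 2 - S - θ * a 3 ^ 2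

/-- What the modes say about the function. -/
def OutStmt : Prop :=
  ∃ θ0 > 0, ∀ θ ∈ Ioc 0 θ0, ∃ k0 : ℕ, ∀ k : ℕ, k0 ≤ k → ∃ C, 0 < C ∧ ∀ G, Cs G →
    G1 θ (am k G) (SS k G) ≤ 0 → SS k G ≤ θ * am k G 3 ^ 2 → 0 ≤ am k G 3 →
    (∀ y : ℝ, k - 360 * √k ≤ y → y ≤ k - 300 * √k → 3 / 2 * am k G 3 ≤ G y) ∧
      ∀ y ∈ Icc ((k : ℝ) / 2) (2 * k), |G y| ≤ C * am k G 3

def ModeDerStmt : Prop :=
  ∀ k, 2 ≤ k → ∀ (T Y : ℝ) (F : Fn), 0 < T →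
    ContDiffOn ℝ ∞ (fun p : ℝ × ℝ => F p.1 p.2) (Icc 0 T ×ˢ Ici 0) →
    (∀ t ∈ Icc 0 T, ∀ y ≥ Y, F t y = 0) → ∀ t ∈ Icc 0 T,
    Cs (F t) ∧ Bd (dt T F t) ∧
    (∀ j, HasDerivWithinAt (fun s => am k (F s) j) (ip k (dt T F t) (ee k j)) (Icc 0 T) t) ∧
    HasDerivWithinAt (fun s => Qm k (F s)) (-2 * ip k (LL k (F t)) (dt T F t)) (Icc 0 T) t

/-- `1` for `r ≤ 1`, `0` for `r ≥ 2`. -/
noncomputable def chi (r : ℝ) : ℝ := 1 - Real.smoothTransition (r - 1)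

/-- The initial polynomial. -/
noncomputable def pol (k : ℕ) (α : V3) (y : ℝ) : ℝ :=
  α 0 * ee k 0 y + α 1 * ee k 1 y + α 2 * ee k 2 y + ee k 3 y

def IniModeStmt : Prop :=
  ∀ k, 2 ≤ k → ∀ ε > 0, ∃ Y0 > 0, ∀ Y ≥ Y0, ∀ α : V3, (∀ i, |α i| ≤ 1) →
    let G := fun y => pol k α y * chi (y / Y)
    |am k G 0 - α 0| ≤ ε ∧ |am k G 1 - α 1| ≤ ε ∧ |am k G 2 - α 2| ≤ ε ∧ |am k G 3 - 1| ≤ ε ∧
      SS k G ≤ ε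

def ModeStabStmt : Prop :=
  ∀ k, 2 ≤ k → ∀ M : ℝ, ∃ C, 0 ≤ C ∧ ∀ G H, Cs G → Cs H → ∀ ε ∈ Icc (0 : ℝ) 1,
    (∀ y > 0, |H y| ≤ M ∧ |deriv H y| ≤ M ∧ |G y - H y| ≤ ε ∧ |deriv G y - deriv H y| ≤ ε) →
    (∀ j, |am k G j - am k H j| ≤ C * ε) ∧ |SS k G - SS k H| ≤ C * ε

/-- The differential inequalities for the modes at time `t`. -/
def CH (T ε b : ℝ) (a : ℝ → Fin 4 → ℝ) (S : ℝ → ℝ) (J : Set ℝ) (t : ℝ) : Prop :=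
  ∃ (Λ P r : ℝ) (p : Fin 4 → ℝ),
    (∀ j, HasDerivWithinAt (fun s => a s j) ((-((j : ℕ) : ℝ) * a t j + p j) / (T - t)) J t) ∧
    HasDerivWithinAt S ((-2 * Λ + r) / (T - t)) J t ∧ 0 ≤ S t ∧ 4 * S t ≤ Λ ∧
    ∑ j, p j ^ 2 ≤ P ∧ r ^ 2 ≤ 4 * Λ * P ∧ P ≤ ε * (Λ + ∑ j, a t j ^ 2 + b ^ 2)

structure Cone (θ ε : ℝ) : Prop where
  main : ∀ (T t1 A : ℝ) (a : ℝ → Fin 4 → ℝ) (S : ℝ → ℝ), 0 < t1 → t1 < T → 0 < A → a 0 3 = A →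
    S 0 ≤ θ * A ^ 2 / 2 →
    (∀ t ∈ Icc 0 t1, CH T ε (A * ((T - t) / T) ^ 4) a S (Icc 0 t1) t ∧ G1 θ (a t) (S t) ≤ 0) →
    ∀ t ∈ Icc 0 t1, S t ≤ θ * a t 3 ^ 2 ∧ A / 2 * ((T - t) / T) ^ (151 / 50 : ℝ) ≤ a t 3 ∧
      a t 3 ≤ 2 * A * ((T - t) / T) ^ (149 / 50 : ℝ)
  exit : ∀ (T t b : ℝ) (a : ℝ → Fin 4 → ℝ) (S : ℝ → ℝ) (J : Set ℝ), t < T → CH T ε b a S J t →
    0 < a t 3 → |b| ≤ 2 * a t 3 → G1 θ (a t) (S t) = 0 →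
    ∃ c > 0, HasDerivWithinAt (fun s => G1 θ (a s) (S s)) c J t

def ConeStmt : Prop := ∀ θ ∈ Ioc (0 : ℝ) (1 / 100), ∃ ε > 0, Cone θ ε

/-- The closed Euclidean ball of squared radius `r`. -/
def Ball (r : ℝ) : Set V3 := {α | α 0 ^ 2 + α 1 ^ 2 + α 2 ^ 2 ≤ r}

/-- The topological (Ważewski) argument. -/
def TopoStmt : Prop :=
  ∀ (r : ℝ) (tm : V3 → ℝ) (G : V3 → ℝ → ℝ) (a : V3 → ℝ → V3), 0 < r →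
    (∀ α ∈ Ball r, 0 < tm α ∧ ContinuousOn (G α) (Ico 0 (tm α)) ∧
      ContinuousOn (a α) (Ico 0 (tm α))) →
    (∀ α ∈ Ball r, ∀ t ∈ Ico 0 (tm α), ∀ ε > 0, ∃ δ > 0, ∀ β ∈ Ball r, ‖β - α‖ < δ →
      ∀ s ∈ Icc 0 t, s < tm β → (∀ u ∈ Ico 0 s, G β u < 0) →
        |G β s - G α s| ≤ ε ∧ ‖a β s - a α s‖ ≤ ε) →
    (∀ α ∈ Ball r, ∀ t ∈ Ico 0 (tm α), (∀ u ∈ Ico 0 t, G α u < 0) → G α t = 0 →
      ∀ ε > 0, ∃ s ∈ Ioo t (t + ε), s < tm α ∧ 0 < G α s) →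
    (∀ α ∈ Ball r, ∀ t ∈ Ico 0 (tm α), (∀ u ∈ Ico 0 t, G α u < 0) → 0 ≤ G α t → a α t ≠ 0) →
    (∀ α : V3, α 0 ^ 2 + α 1 ^ 2 + α 2 ^ 2 = r → 0 ≤ G α 0 ∧ 0 < ∑ i, a α 0 i * α i) →
    ∃ α ∈ Ball r, ∀ t ∈ Ico 0 (tm α), G α t < 0

/-- Interior Lipschitz estimate at scale `τ`. -/
def LipStmt : Prop :=
  ∀ c > 0, ∀ C > 0, ∃ C' > 0, ∀ (T τ M tb xs : ℝ) (u A B : Fn), 0 < T → 0 < τ → 0 < M → JS T u →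
    c * τ ≤ tb → tb ≤ T → 0 < xs - c * τ → xs + c * τ < 1 →
    (∀ t ∈ Icc (tb - c * τ) tb, ∀ x ∈ Icc (xs - c * τ) (xs + c * τ),
      c * τ ≤ A t x ∧ A t x ≤ C * τ ∧ |B t x| ≤ C ∧ |u t x| ≤ M ∧ |box T A B u t x| ≤ C * M / τ) →
    ∀ r ∈ Icc 0 (τ / C'), |u tb (xs + r) - u tb xs| ≤ C' * M * r / τ

/-- A second order differential inequality forces a large value. -/
def InterpStmt : Prop :=
  ∀ c > 0, ∀ C > 0, ∀ l > 0, ∃ c' > 0, ∀ (g a b e : ℝ → ℝ) (τ h xs : ℝ), Sm g → 0 < τ → 0 ≤ h →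
    0 < xs → xs + l * τ < 1 →
    (∀ x ∈ Icc xs (xs + l * τ), c * τ ≤ a x ∧ a x ≤ C * τ ∧ |b x| ≤ C ∧ |e x| ≤ C / τ ∧
      h ≤ a x * d1 (d1 g) x + b x * d1 g x + e x * g x) →
    ∃ x ∈ Icc xs (xs + l * τ), c' * h * τ ≤ |g x|

end Vale.Agent.P244
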