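import Vale.Agent.P244.StmS
import Vale.Agent.P244.StmL

/-! P244: statements of part N (a priori estimates, initial data, trapping). -/

open Set Filter
open scoped ContDiff Topology

namespace Vale.Agent.P244

abbrev Pf : Type := Fin 3 → ℝ → ℝ

noncomputable def et (d : ℝ) : ℝ := 1 / √d

/-- The singular limit profile (a Ricci flat cone near `0`). -/
noncomputable def fb (d : ℝ) : Pf :=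
  ![fun _ => 0, fun _ => 0, fun x => (1 - ch x) * (2 / ((d + 2) * x) - 1) / (1 - x) ^ 2]

/-- Weak bootstrap bounds near `0`. -/
structure WBn (d x0 : ℝ) (g : Pf) : Prop where
  x : ∀ x ∈ Icc 0 x0, x ≤ 2 * d * nF d (pt g x)
  d0 : ∀ x ∈ Icc 0 x0, nF d (pt g x) * |D0 d (pt g x)| ≤ et d
  d2 : ∀ x ∈ Icc 0 x0, nF d (pt g x) * |D2 d (pt g x)| ≤ et d
  rs : ∀ x ∈ Icc 0 x0, nF d (pt g x) * |Rs d (pt g x)| ≤ 2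

/-- Weak bootstrap bounds away from `0`. -/
structure WBf (d x0 δ CS : ℝ) (g : Pf) : Prop where
  near : ∀ i, ∀ x ∈ Icc (x0 / 2) 1, |g i x - fb d i x| ≤ δ
  se : ∀ x ∈ Icc (x0 / 2) 1, SE d (pt g x) ≤ CS

structure GeoQ (d : ℝ) (q : Q) : Prop where
  x : q.1 ≤ 2 * d * nF d q
  xi : |d * q.2.1 1| ≤ 30 * et d
  z : |nz q - 1| ≤ 30 * et d
  e0 : nF d q * |E0 d q| ≤ 30 * et d
  e1 : nF d q * |E1 d q| ≤ 30 * et d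
  e2 : nF d q * |E2 d q| ≤ 30 * et d
  k1 : nF d q * |K1 q| ≤ 30 * et d
  k2 : nF d q * |K2 d q| ≤ 30 * et d
  mm : nF d q * |MM d q| ≤ 30 * et d
  l1 : d * nF d q * |L1 q| ≤ 30 * et d
  a2 : 0 ≤ A2 d q ∧ nF d q * A2 d q ≤ 30 * et d
  l2 : |nF d q * L2 d q - 1| ≤ 30 * et d
  se : nF d q ^ 2 * SE d q ≤ 7 / d

def Geo (d x0 : ℝ) (g : Pf) : Prop := ∀ x ∈ Icc 0 x0, GeoQ d (pt g x)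

def GeoStmt : Prop :=
  ∀ d ≥ (10 : ℝ) ^ 4, ∀ x0 ∈ Ioc (0 : ℝ) (1 / 8), ∀ g, Prof d g → WBn d x0 g → Geo d x0 g

def DelOK (d x0 δ : ℝ) : Prop :=
  0 < δ ∧ ∀ x ∈ Icc (x0 / 2) 1, ∀ v : V3, (∀ i, |v i - fb d i x| ≤ δ) → (x, v) ∈ Om d

structure CompactStmt : Prop where
  del : ∀ d > 0, ∀ x0 ∈ Ioc (0 : ℝ) (1 / 8), ∃ δ, DelOK d x0 δ
  cpt : ∀ d ≥ (10 : ℝ) ^ 4, ∀ x0 ∈ Ioc (0 : ℝ) (1 / 8), ∀ δ CS : ℝ, DelOK d x0 δ → ∀ φ > 0,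
    ∃ K ⊆ Om d, IsCompact K ∧ ∃ Cg, ∀ g, Prof d g → Geo d x0 g → WBf d x0 δ CS g →
      ∀ xa ∈ Icc 0 (x0 / 2), (∀ x ∈ Icc xa x0, φ ≤ nF d (pt g x)) →
      ∀ x ∈ Icc xa 1, (x, val g x) ∈ K ∧ ∀ i, |gr g x i| ≤ Cg

/-- Estimates away from `0`. -/
structure FarC (d x0 δ CS C : ℝ) : Prop where
  cs : 1 ≤ CS
  nonneg : 0 ≤ C
  ini : ∀ g, Prof d g → (∀ i, ∀ x ∈ Icc (x0 / 8) 1, g i x = fb d i x) →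
    ∀ x ∈ Icc (x0 / 2) 1, SE d (pt g x) ≤ CS - 1
  far : ∀ T t1 f0 f, t1 ≤ T → RSol d f0 t1 f → (∀ i, ∀ x ∈ Icc (x0 / 8) 1, f0 i x = fb d i x) →
    (∀ t ∈ Icc 0 t1, Geo d x0 (sl f t) ∧ WBf d x0 δ CS (sl f t)) → ∀ t ∈ Icc 0 t1,
    (∀ x ∈ Icc (x0 / 2) 1, (∀ i, |f i t x - fb d i x| ≤ C * T) ∧
      evF (SE d) f t x ≤ CS - 1 + C * T) ∧ ∀ x ∈ Icc (x0 / 2) x0, evF (SE d) f t x ≤ C * T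

def FarStmt : Prop :=
  ∀ d ≥ (10 : ℝ) ^ 4, ∀ x0 ∈ Ioc (0 : ℝ) (1 / 8), ∀ δ, DelOK d x0 δ → ∃ CS C, FarC d x0 δ CS C

def RBarStmt : Prop :=
  ∀ d ≥ (10 : ℝ) ^ 8, ∀ x0 ∈ Ioc (0 : ℝ) (1 / 8), ∀ t1 f0 f, RSol d f0 t1 f →
    (∀ t ∈ Icc 0 t1, Geo d x0 (sl f t)) →
    (∀ x ∈ Icc 0 x0, evF (nF d) f 0 x * |evF (Rs d) f 0 x| < 1) →
    (∀ t ∈ Icc 0 t1, evF (nF d) f t x0 * |evF (Rs d) f t x0| < 1) →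
    ∀ t ∈ Icc 0 t1, ∀ x ∈ Icc 0 x0, evF (nF d) f t x * |evF (Rs d) f t x| < 1

/-- Left end of the window. -/
noncomputable def lw (d τ : ℝ) : ℝ := 2 * d * τ - 1000 * √d * τ

structure FB (d T ρ x0 t : ℝ) (g : Pf) : Prop where
  lo : ∀ x ∈ Icc 0 x0, x ≤ 3 / 2 * d * nF d (pt g x)
  up : ∀ x ∈ Icc 0 x0, nF d (pt g x) ≤ 11 / 10 * x / d + (T - t) / 10
  inn : ∀ x ∈ Icc 0 (lw d (T - t)), ρ / 2 * ((T - t) / T) ^ (151 / 50 : ℝ) ≤ g 0 x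

/-- Smallness of `y` around the window. -/
def Win (d σ τ : ℝ) (g : Pf) : Prop :=
  ∀ x ∈ Icc (d * τ) (4 * d * τ), |g 0 x| ≤ τ / d ∧ |g 0 x| ≤ σ * τ ^ (11 / 4 : ℝ)

def FBarStmt : Prop :=
  ∀ d ≥ (10 : ℝ) ^ 8, ∀ x0 ∈ Ioc (0 : ℝ) (1 / 8), ∀ T ρ σ t1 f0 f, t1 < T → 8 * d * T ≤ x0 → 0 < ρ →
    RSol d f0 t1 f →
    (∀ t ∈ Icc 0 t1, Geo d x0 (sl f t) ∧ Win d σ (T - t) (sl f t) ∧ |f 0 t x0| ≤ x0 / (100 * d) ∧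
      ρ / 2 * ((T - t) / T) ^ (151 / 50 : ℝ) < f 0 t (lw d (T - t))) →
    (∀ x ∈ Icc 0 (lw d T), ρ / 2 < f 0 0 x) → (∀ x ∈ Icc 0 x0, |f 0 0 x| ≤ T / d) →
    ∀ t ∈ Icc 0 t1, FB d T ρ x0 t (sl f t)

noncomputable def Gq (d τ x : ℝ) : ℝ := (x - 2 * d * τ) ^ 2 + 4000 * d * τ ^ 2

/-- The barrier `Φ^(-21/20) G^(9/10)`. -/
noncomputable def Wf (d τ x Φ : ℝ) : ℝ :=
  Real.exp (-(21 / 20) * Real.log Φ + 9 / 10 * Real.log (Gq d τ x))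

noncomputable def WW (d T : ℝ) (f : Fin 3 → Fn) : Fn :=
  fun t x => Wf d (T - t) x (PhF d f t x + ch x)

noncomputable def LamF (d τ x Φ z ξ : ℝ) : ℝ :=
  21 / 10 - 9 / 10 * Φ * (8000 * d * τ + 8 * z * x + 8 * z * (x - 2 * d * τ)) / Gq d τ x +
    4 * z * x * Φ * (9 / 10 * (2 * (x - 2 * d * τ) / Gq d τ x) ^ 2 -
      (-(21 / 20) * (ξ / d) / Φ + 9 / 10 * (2 * (x - 2 * d * τ) / Gq d τ x)) ^ 2)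

def WEqStmt : Prop :=
  ∀ d > 0, ∀ T t1 f0 f, t1 < T → RSol d f0 t1 f → JS t1 (WW d T f) ∧
    ∀ t ∈ Icc 0 t1, ∀ x ∈ Ico (0 : ℝ) (1 / 4),
      WW d T f t x = Wf d (T - t) x (evF (nF d) f t x) ∧
      evF (nF d) f t x * bx d t1 f (WW d T f) t x =
        LamF d (T - t) x (evF (nF d) f t x) (evF nz f t x) (1 + d * f 1 t x) * WW d T f t x

def LamStmt : Prop :=
  ∃ d0 : ℝ, ∀ d ≥ d0, ∀ τ x Φ z ξ : ℝ, 0 < τ → 0 ≤ x → 0 < Φ → |z - 1| ≤ 30 * et d →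
    |ξ - 1| ≤ 30 * et d → x ≤ 2 * d * Φ → Φ ≤ 11 / 10 * x / d + τ / 10 →
    (10 ^ 6 * d * τ ^ 2 ≤ (x - 2 * d * τ) ^ 2 → 51 / 25 ≤ LamF d τ x Φ z ξ) ∧
    ((x - 2 * d * τ) ^ 2 ≤ 10 ^ 6 * d * τ ^ 2 → |Φ - x / d| ≤ τ / 100 → -(8 / 5) ≤ LamF d τ x Φ z ξ)

/-- The traceless Ricci components are below the barrier. -/
def DW (d τ x0 : ℝ) (g : Pf) : Prop :=
  ∀ x ∈ Icc 0 x0, |D0 d (pt g x)| ≤ 2 * Wf d τ x (nF d (pt g x)) ∧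
    |D2 d (pt g x)| ≤ 2 * Wf d τ x (nF d (pt g x))

def WinC (d σ : ℝ) : Prop :=
  ∀ x0 ∈ Ioc (0 : ℝ) (1 / 8), ∀ T ρ t1 f0 f, t1 < T → 8 * d * T ≤ x0 → RSol d f0 t1 f →
    ∀ ts ∈ Icc (T / 11) t1,
    (∀ t ∈ Icc 0 ts, Geo d x0 (sl f t) ∧ FB d T ρ x0 t (sl f t) ∧ DW d (T - t) x0 (sl f t)) →
    Win d σ (T - ts) (sl f ts) → ∀ x, (x - 2 * d * (T - ts)) ^ 2 ≤ 10 ^ 6 * d * (T - ts) ^ 2 →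
    |evF (D2 d) f ts x| ≤ Wf d (T - ts) x (evF (nF d) f ts x) / 2

def WinStmt : Prop := ∀ d ≥ (10 : ℝ) ^ 8, ∃ σ > 0, WinC d σ

def DBarC (d σ : ℝ) : Prop :=
  ∀ x0 ∈ Ioc (0 : ℝ) (1 / 8), ∀ T ρ t1 f0 f, t1 < T → 8 * d * T ≤ x0 → RSol d f0 t1 f →
    (∀ t ∈ Icc 0 t1, Geo d x0 (sl f t) ∧ FB d T ρ x0 t (sl f t) ∧ Win d σ (T - t) (sl f t) ∧
      |evF (D0 d) f t x0| < Wf d (T - t) x0 (evF (nF d) f t x0) / 4 ∧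
      |evF (D2 d) f t x0| < Wf d (T - t) x0 (evF (nF d) f t x0) / 4) →
    (∀ x ∈ Icc 0 x0, |evF (D0 d) f 0 x| < Wf d T x (evF (nF d) f 0 x) / 4 ∧
      |evF (D2 d) f 0 x| < Wf d T x (evF (nF d) f 0 x) / 4) →
    ∀ t ∈ Icc 0 t1, DW d (T - t) x0 (sl f t)

def DBarStmt : Prop := ∃ d0 : ℝ, ∀ d ≥ d0, ∃ σ > 0, DBarC d σ

/-- The size of the initial perturbation. -/
def rho (d T : ℝ) : ℝ := d ^ 50 * T ^ 36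

def PhiC (d x1 : ℝ) : Prop :=
  ∀ T τ x Φ : ℝ, 0 < τ → τ ≤ T → x ∈ Icc 0 x1 → 0 < Φ → x ≤ 2 * d * Φ →
    (x ≤ d * τ → rho d T / 2 * (τ / T) ^ (151 / 50 : ℝ) ≤ Φ) → Φ * Wf d τ x Φ ≤ et d / 4

structure PhiWStmt : Prop where
  small : ∃ d0 : ℝ, ∀ d ≥ d0, ∃ x1 > 0, PhiC d x1
  fin : ∀ d ≥ (1 : ℝ), ∀ T > 0, ∀ ρ > 0, ∃ C, ∀ τ x Φ : ℝ, 0 < τ → τ ≤ T → x ∈ I → 0 < Φ →
    x ≤ 2 * d * Φ → (x ≤ d * τ → ρ / 2 * (τ / T) ^ (151 / 50 : ℝ) ≤ Φ) →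
    Wf d τ x Φ ^ 2 * Φ ^ (19 / 20 : ℝ) ≤ C
  low : ∀ d > 0, ∀ x0 > 0, ∃ c > 0, ∀ τ Φ : ℝ, 0 < τ → 8 * d * τ ≤ x0 → 0 < Φ → Φ ≤ 1 →
    c ≤ Wf d τ x0 Φ

def RFinStmt : Prop :=
  ∀ d ≥ (10 : ℝ) ^ 8, ∀ x0 ∈ Ioc (0 : ℝ) (1 / 8), ∀ T ∈ Ioc (0 : ℝ) 1, ∀ ρ > 0, ∀ δ CS f0 f,
    (∀ t ∈ Ioo 0 T, RSol d f0 t f) →
    (∀ t ∈ Ico 0 T, Geo d x0 (sl f t) ∧ WBn d x0 (sl f t) ∧ WBf d x0 δ CS (sl f t) ∧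
      FB d T ρ x0 t (sl f t) ∧ DW d (T - t) x0 (sl f t)) →
    ∃ C, ∀ t ∈ Ico 0 T, ∀ x ∈ I, |evF (Rs d) f t x| ≤ C

/-! ### Modes of a solution -/

/-- The rescaled and truncated profile. -/
noncomputable def FF (x0 τ : ℝ) (g : ℝ → ℝ) : ℝ → ℝ :=
  fun y => chi (2 * (4 * τ * y) / x0) * g (4 * τ * y)

noncomputable def aT (k : ℕ) (x0 T : ℝ) (f : Fin 3 → Fn) (t : ℝ) : Fin 4 → ℝ :=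
  am k (FF x0 (T - t) (f 0 t))

noncomputable def sT (k : ℕ) (x0 T : ℝ) (f : Fin 3 → Fn) (t : ℝ) : ℝ :=
  SS k (FF x0 (T - t) (f 0 t))

noncomputable def gT (k : ℕ) (x0 T θ : ℝ) (f : Fin 3 → Fn) (t : ℝ) : ℝ :=
  G1 θ (aT k x0 T f t) (sT k x0 T f t)

structure ModeAStmt : Prop where
  cs : ∀ x0 ∈ Ioc (0 : ℝ) (1 / 8), ∀ τ > 0, ∀ g, Sm g → Cs (FF x0 τ g)
  congr : ∀ x0 ∈ Ioc (0 : ℝ) (1 / 8), ∀ τ > 0, ∀ g h : ℝ → ℝ, (∀ x ∈ I, g x = h x) →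
    ∀ k, am k (FF x0 τ g) = am k (FF x0 τ h) ∧ SS k (FF x0 τ g) = SS k (FF x0 τ h)
  js : ∀ x0 ∈ Ioc (0 : ℝ) (1 / 8), ∀ T t2 u, t2 < T → JS t2 u →
    ContDiffOn ℝ ∞ (fun p : ℝ × ℝ => FF x0 (T - p.1) (u p.1) p.2) (Icc 0 t2 ×ˢ Ici 0) ∧
    ∀ t ∈ Icc 0 t2, ∀ y ≥ x0 / (4 * (T - t2)), FF x0 (T - t) (u t) y = 0
  cont : ∀ k, 2 ≤ k → ∀ x0 ∈ Ioc (0 : ℝ) (1 / 8), ∀ T t2 f, 0 < t2 → t2 < T → JS t2 (f 0) →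
    ContinuousOn (aT k x0 T f) (Icc 0 t2) ∧ ContinuousOn (sT k x0 T f) (Icc 0 t2)
  stab : ∀ k, 2 ≤ k → ∀ x0 ∈ Ioc (0 : ℝ) (1 / 8), ∀ T M : ℝ, ∃ ε0 > 0, ∃ C, 0 ≤ C ∧
    ∀ τ ∈ Ioc 0 T, ∀ g h, Sm g → Sm h → ∀ ε ∈ Icc 0 ε0,
    (∀ x ∈ I, |h x| ≤ M ∧ |d1 h x| ≤ M ∧ |g x - h x| ≤ ε ∧ |d1 g x - d1 h x| ≤ ε) →
    (∀ j, |am k (FF x0 τ h) j| ≤ C ∧ |am k (FF x0 τ g) j - am k (FF x0 τ h) j| ≤ C * ε) ∧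
      |SS k (FF x0 τ g) - SS k (FF x0 τ h)| ≤ C * ε

def ModeC (k : ℕ) (x0 δ ε C : ℝ) : Prop :=
  ∀ T t2 f0 f b, t2 < T → RSol (2 * k) f0 t2 f → ∀ t ∈ Icc 0 t2, Geo (2 * k) x0 (sl f t) →
    (∀ x ∈ Icc (x0 / 2) x0, |f 0 t x| ≤ δ) → C * (T - t) ^ 82 ≤ ε * b ^ 2 →
    CH T ε b (aT k x0 T f) (sT k x0 T f) (Icc 0 t2) t

def ModeStmt : Prop :=
  ∀ ε > 0, ∃ k0 : ℕ, ∀ k : ℕ, k0 ≤ k → ∀ x0 ∈ Ioc (0 : ℝ) (1 / 8), ∀ δ : ℝ,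
    ∃ C, 0 ≤ C ∧ ModeC k x0 δ ε C

/-! ### Initial data -/

noncomputable def y0 (k : ℕ) (T : ℝ) (α : V3) (x : ℝ) : ℝ :=
  rho (2 * k) T * (pol k α (x / (4 * T)) * chi (x / √T))

noncomputable def ini (k : ℕ) (T : ℝ) (α : V3) : Pf :=
  ![y0 k T α, deriv (y0 k T α), fun x => (1 - ch x) *
    (2 / (2 * k * (2 * k + 2) * (x / (2 * k) + y0 k T α x)) - 1) / (1 - x) ^ 2]

structure IniA (k : ℕ) (x0 T : ℝ) (α : V3) : Prop where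
  sm : ContDiff ℝ ∞ (y0 k T α)
  prof : Prof (2 * k) (ini k T α)
  far : ∀ i, ∀ x ∈ Icc (x0 / 8) 1, ini k T α i x = fb (2 * k) i x
  small : ∀ x ∈ I, |y0 k T α x| ≤ T ^ 30 ∧ |deriv (y0 k T α) x| ≤ T ^ 30 ∧
    |deriv (deriv (y0 k T α)) x| ≤ T ^ 30
  inn : ∀ x ∈ Icc 0 (lw (2 * k) T), 2 * rho (2 * k) T ≤ y0 k T α x
  up : ∀ x ∈ Icc 0 (2 * k * T), y0 k T α x ≤ 2 * k * √k * rho (2 * k) T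
  mode : ∀ y > 0, FF x0 T (y0 k T α) y = rho (2 * k) T * (pol k α y * chi (y / (1 / (4 * √T))))

/-- Lipschitz dependence on the parameter. -/
def IniLip (k : ℕ) (T : ℝ) : Prop :=
  ∃ C, 0 ≤ C ∧ ∀ α ∈ Ball (1 / 50), ∀ β ∈ Ball (1 / 50), ∀ i, ∀ x ∈ I,
    |ini k T α i x - ini k T β i x| ≤ C * ‖α - β‖

def IniAStmt : Prop :=
  ∀ k : ℕ, 10 ^ 8 ≤ k → ∀ x0 ∈ Ioc (0 : ℝ) (1 / 8), ∃ T0 > 0, ∀ T ∈ Ioc 0 T0,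
    (∀ α ∈ Ball (1 / 50), IniA k x0 T α) ∧ IniLip k T

def IniCurvStmt : Prop :=
  ∀ d ≥ (100 : ℝ), ∀ q : Q, 0 ≤ q.1 → NearQ d q → l0 (bs q) = 2 / (d * (d + 2) * nF d q) →
    z0' q = -(2 * (1 - nX d q) / (d * (d + 2) * nF d q)) → q.1 ≤ 2 * d * nF d q →
    |d * q.2.1 1| ≤ 1 → ∀ m, m = 100 * (|q.2.1 0| / (d * nF d q) + |d * q.2.1 1| + |ZPh2 d q|) →
    nF d q * |D0 d q| ≤ m ∧ nF d q * |D2 d q| ≤ m ∧ nF d q * |Rs d q| ≤ m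

def IniB (k : ℕ) (x0 T : ℝ) (α : V3) : Prop :=
  ∀ x ∈ Icc 0 x0, ∀ q, q = pt (ini k T α) x →
    x ≤ 3 / 2 * (2 * k) * nF (2 * k) q ∧ |D0 (2 * k) q| < Wf (2 * k) T x (nF (2 * k) q) / 4 ∧
    |D2 (2 * k) q| < Wf (2 * k) T x (nF (2 * k) q) / 4 ∧ nF (2 * k) q * |Rs (2 * k) q| < 1

def IniBStmt : Prop :=
  ∃ k0 : ℕ, ∀ k : ℕ, k0 ≤ k → ∀ x0 ∈ Ioc (0 : ℝ) (1 / 8), ∃ T0 > 0, ∀ T ∈ Ioc 0 T0,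
    ∀ α ∈ Ball (1 / 50), IniB k x0 T α

/-- The initial modes, with relative error `e`. -/
def IniM (k : ℕ) (x0 T e : ℝ) (α : V3) : Prop :=
  ∀ a S ρ, a = am k (FF x0 T (y0 k T α)) → S = SS k (FF x0 T (y0 k T α)) → ρ = rho (2 * k) T →
    |a 0 - ρ * α 0| ≤ ρ * e ∧ |a 1 - ρ * α 1| ≤ ρ * e ∧ |a 2 - ρ * α 2| ≤ ρ * e ∧
    |a 3 - ρ| ≤ ρ * e ∧ S ≤ ρ ^ 2 * e

/-! ### Assembly -/

def OutC (k : ℕ) (θ C : ℝ) : Prop :=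
  ∀ G, Cs G → G1 θ (am k G) (SS k G) ≤ 0 → SS k G ≤ θ * am k G 3 ^ 2 → 0 ≤ am k G 3 →
    (∀ y : ℝ, k - 360 * √k ≤ y → y ≤ k - 300 * √k → 3 / 2 * am k G 3 ≤ G y) ∧
      ∀ y ∈ Icc ((k : ℝ) / 2) (2 * k), |G y| ≤ C * am k G 3

/-- The choice of the parameters. -/
structure Par (k : ℕ) (x0 δ CS T θ ε σ Cf Co Cm cW : ℝ) : Prop where
  hk : 10 ^ 8 ≤ k
  hx : x0 ∈ Ioc (0 : ℝ) (1 / 8)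
  hT : T ∈ Ioc (0 : ℝ) 1
  hθ : θ ∈ Ioc (0 : ℝ) (1 / 100)
  hε : 0 < ε
  h8 : 8 * (2 * k) * T ≤ x0
  del : DelOK (2 * k) x0 δ
  cone : Cone θ ε
  far : FarC (2 * k) x0 δ CS Cf
  out : OutC k θ Co
  co : 0 < Co
  mode : ModeC k x0 δ ε Cm
  cm : 0 ≤ Cm
  dbar : DBarC (2 * k) σ
  phi : PhiC (2 * k) x0
  cw : 0 < cW
  low : ∀ τ Φ : ℝ, 0 < τ → 8 * (2 * k) * τ ≤ x0 → 0 < Φ → Φ ≤ 1 → cW ≤ Wf (2 * k) τ x0 Φ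
  inia : ∀ α ∈ Ball (1 / 50), IniA k x0 T α
  inib : ∀ α ∈ Ball (1 / 50), IniB k x0 T α
  inim : ∀ α ∈ Ball (1 / 50), IniM k x0 T (θ / 100) α
  lip : IniLip k T
  s1 : Cf * T < δ
  s2 : (2 * k + 4) * (Cf * T) < 1
  s3 : Cf * T ≤ x0 / (100 * (2 * k))
  s4 : 2 * (Cf * T) < cW ^ 2 / 16
  s5 : Cm * T ^ 82 ≤ ε * (rho (2 * k) T / 2) ^ 2
  s6 : 3 * Co * rho (2 * k) T ≤ T / (2 * k)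
  s7 : 3 * Co * rho (2 * k) T ≤ σ * T ^ (11 / 4 : ℝ)
  s8 : T ^ 30 ≤ T / (2 * k)

def ParStmt : Prop := ∃ k x0 δ CS T θ ε σ Cf Co Cm cW, Par k x0 δ CS T θ ε σ Cf Co Cm cW

/-- Strict bootstrap bounds. -/
structure SB (d x0 δ CS : ℝ) (g : Pf) : Prop where
  x : ∀ x ∈ Icc 0 x0, x < 2 * d * nF d (pt g x)
  d0 : ∀ x ∈ Icc 0 x0, nF d (pt g x) * |D0 d (pt g x)| < et d
  d2 : ∀ x ∈ Icc 0 x0, nF d (pt g x) * |D2 d (pt g x)| < et d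
  rs : ∀ x ∈ Icc 0 x0, nF d (pt g x) * |Rs d (pt g x)| < 2
  near : ∀ i, ∀ x ∈ Icc (x0 / 2) 1, |g i x - fb d i x| < δ
  se : ∀ x ∈ Icc (x0 / 2) 1, SE d (pt g x) < CS

structure Good (k : ℕ) (x0 δ CS T t : ℝ) (g : Pf) : Prop where
  geo : Geo (2 * k) x0 g
  wbn : WBn (2 * k) x0 g
  wbf : WBf (2 * k) x0 δ CS g
  fb : FB (2 * k) T (rho (2 * k) T) x0 t g
  dw : DW (2 * k) (T - t) x0 g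
  a3 : rho (2 * k) T / 4 * ((T - t) / T) ^ 4 ≤ am k (FF x0 (T - t) (g 0)) 3

structure StepStmt : Prop where
  zero : ∀ k x0 δ CS T θ ε σ Cf Co Cm cW, Par k x0 δ CS T θ ε σ Cf Co Cm cW →
    ∀ α ∈ Ball (1 / 50), ∀ t1 f, RSol (2 * k) (ini k T α) t1 f → SB (2 * k) x0 δ CS (sl f 0)
  step : ∀ k x0 δ CS T θ ε σ Cf Co Cm cW, Par k x0 δ CS T θ ε σ Cf Co Cm cW →
    ∀ α ∈ Ball (1 / 50), ∀ t1 f, t1 < T → RSol (2 * k) (ini k T α) t1 f →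
    (∀ t ∈ Icc 0 t1, gT k x0 T θ f t ≤ 0 ∧ WBn (2 * k) x0 (sl f t) ∧ WBf (2 * k) x0 δ CS (sl f t)) →
    ∀ t ∈ Icc 0 t1, SB (2 * k) x0 δ CS (sl f t) ∧ Good k x0 δ CS T t (sl f t)

/-- The a priori estimates inside the tube. -/
structure Apr (k : ℕ) (x0 δ CS T θ : ℝ) : Prop where
  hk : 10 ^ 8 ≤ k
  hx : x0 ∈ Ioc (0 : ℝ) (1 / 8)
  hT : T ∈ Ioc (0 : ℝ) 1
  hθ : θ ∈ Ioc (0 : ℝ) (1 / 100)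
  del : DelOK (2 * k) x0 δ
  prof : ∀ α ∈ Ball (2 * θ), Prof (2 * k) (ini k T α)
  lip : IniLip k T
  pos : ∀ α ∈ Ball (2 * θ), 0 < am k (FF x0 T (ini k T α 0)) 3
  bdry : ∀ α : V3, α 0 ^ 2 + α 1 ^ 2 + α 2 ^ 2 = 2 * θ →
    0 ≤ G1 θ (am k (FF x0 T (ini k T α 0))) (SS k (FF x0 T (ini k T α 0))) ∧
    0 < ∑ i : Fin 3, am k (FF x0 T (ini k T α 0)) i.castSucc * α i
  good : ∀ α ∈ Ball (2 * θ), ∀ t1 f, t1 < T → RSol (2 * k) (ini k T α) t1 f →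
    (∀ t ∈ Icc 0 t1, gT k x0 T θ f t ≤ 0) → ∀ t ∈ Icc 0 t1, Good k x0 δ CS T t (sl f t)
  exit : ∀ α ∈ Ball (2 * θ), ∀ t2 f, t2 < T → RSol (2 * k) (ini k T α) t2 f → ∀ t ∈ Icc 0 t2,
    (∀ s ∈ Icc 0 t, gT k x0 T θ f s ≤ 0) → gT k x0 T θ f t = 0 →
    ∃ c > 0, HasDerivWithinAt (gT k x0 T θ f) c (Icc 0 t2) t

def AprStmt : Prop := ∃ k x0 δ CS T θ, Apr k x0 δ CS T θ

structure SolAStmt : Prop where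
  cpt : ∀ k x0 δ CS T θ, Apr k x0 δ CS T θ → ∀ t2 < T, ∃ K ⊆ Om (2 * k), IsCompact K ∧ ∃ Cg,
    ∀ t ∈ Icc 0 t2, ∀ g, Prof (2 * k) g → Good k x0 δ CS T t g →
    ∀ x ∈ I, (x, val g x) ∈ K ∧ ∀ i, |gr g x i| ≤ Cg
  stab : ∀ k x0 δ CS T θ, Apr k x0 δ CS T θ → ∀ α ∈ Ball (2 * θ), ∀ t2 f', t2 < T →
    RSol (2 * k) (ini k T α) t2 f' → ∀ ε > 0, ∃ η > 0, ∀ β ∈ Ball (2 * θ), ‖β - α‖ < η →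
    ∀ t3 f, t3 < T → RSol (2 * k) (ini k T β) t3 f → ∀ s ∈ Icc 0 (min t2 t3),
    (∀ u ∈ Ico 0 s, gT k x0 T θ f u < 0) → |gT k x0 T θ f s - gT k x0 T θ f' s| ≤ ε ∧
      ∀ j, |aT k x0 T f s j - aT k x0 T f' s j| ≤ ε

/-- The analytic result. -/
def SolStmt : Prop :=
  ∃ (k : ℕ) (T : ℝ) (f0 : Pf) (f : Fin 3 → Fn), 1 ≤ k ∧ 0 < T ∧
    (∀ t ∈ Ioo 0 T, RSol (2 * k) f0 t f) ∧
    (∃ C, ∀ t ∈ Ico 0 T, ∀ x ∈ I, |evF (Rs (2 * k)) f t x| ≤ C) ∧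
    ∀ t ∈ Ico 0 T, PhF (2 * k) f t 0 ≤ (T - t) / 10

end Vale.Agent.P244
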