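import Vale.Agent.P244.Cut
import Vale.Agent.P244.StmE

/-! P244: statements of part S (the concrete system). -/

open Set Filter
open scoped ContDiff Topology

namespace Vale.Agent.P244

/-- An admissible profile with `V = y'`. -/
structure Prof (d : ℝ) (g : Fin 3 → ℝ → ℝ) : Prop where
  sm : ∀ i, Sm (g i)
  mem : ∀ x ∈ I, (x, val g x) ∈ Om d
  con : ∀ x ∈ I, g 1 x = d1 (g 0) x

theorem RSol.prof {d : ℝ} {f0 : Fin 3 → ℝ → ℝ} {T : ℝ} {f : Fin 3 → Fn} (h : RSol d f0 T f)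
    {t : ℝ} (ht : t ∈ Icc 0 T) : Prof d (sl f t) :=
  ⟨fun i => (h.sol.js i).sm ht, h.sol.mem t ht, h.con t ht⟩

theorem RSol.mono {d : ℝ} {f0 : Fin 3 → ℝ → ℝ} {T S : ℝ} {f : Fin 3 → Fn} (h : RSol d f0 T f)
    (h0 : 0 < S) (hS : S ≤ T) : RSol d f0 S f :=
  ⟨h.sol.mono h0 hS, fun t ht => h.con t (Icc_subset_Icc_right hS ht)⟩

/-- `Φ`, `Φ'`, `z` near `0` as functions of `q`. -/
noncomputable def nF (d : ℝ) (q : Q) : ℝ := q.1 / d + q.2.1 0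

noncomputable def nF1 (d : ℝ) (q : Q) : ℝ := 1 / d + q.2.1 1

def nz (q : Q) : ℝ := z0 (bs q)

/-- `X = x Φ' / Φ`. -/
noncomputable def nX (d : ℝ) (q : Q) : ℝ := q.1 * nF1 d q / nF d q

/-- Algebraic formulas on `0 ≤ x < 1/4`. -/
structure NearQ (d : ℝ) (q : Q) : Prop where
  pos : 0 < nF d q
  zpos : 0 < nz q
  ph : PhP d (bs q) = nF d q
  ph1 : Ph1 d (bs q) = nF1 d q
  zz : ZZ (bs q) = 4 * nz q * q.1
  zz1 : ZZ1 q = 4 * nz q + 4 * q.1 * z0' q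
  bb : BB d (bs q) = 2 * d + 4 * nz q
  gg : GG d (bs q) = 4 * nz q / d - 4 * nz q * nX d q * nF1 d q
  zph2 : ZPh2 d q = 4 * aa (bs q) * q.2.2 1
  k1 : K1 q = -z0' q
  l1 : L1 q = l0 (bs q)
  xl1 : q.1 * L1 q = 1 - nz q
  mm : MM d q = -(nz q * nF1 d q) / nF d q
  a1 : 0 < q.1 → A1 q = nz q / q.1
  a2 : A2 d q = nz q * nX d q * nF1 d q / nF d q
  l2 : L2 d q = 1 / nF d q - A2 d q
  k2 : K2 d q = -(ZPh2 d q / (2 * nF d q) - A2 d q + ZZ1 q * nF1 d q / (4 * nF d q))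
  e12 : 2 * nF d q * (E1 d q * nX d q - E2 d q) =
    ZPh2 d q + (2 * d + 4 * nz q) * nF1 d q - 2 - 4 * nz q * nX d q * nF1 d q
  d2 : -2 * nF d q * D2 d q = ZPh2 d q + (2 * d - 4 * nz q * nX d q - 2 * q.1 * E1 d q) * q.2.1 1 +
    (4 * nz q * nF1 d q / nF d q + 2 * E1 d q) * q.2.1 0
  d0 : q.1 = 0 → q.2.2 1 = 0 → q.2.2 2 = 0 → D0 d q = 0
  jj : om q.1 * jj d q = -2 * q.1 * E1 d q

def NearQStmt : Prop :=
  ∀ d > 0, ∀ q ∈ lift (Om d), 0 ≤ q.1 → q.1 < 1 / 4 → NearQ d q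

/-- In the interior the glued functions are given by the middle formulas. -/
structure MidK (d : ℝ) (q : Q) : Prop where
  k1 : K1 q = K1m q
  k2 : K2 d q = K2m d q
  l1 : L1 q = L1m q
  l2 : L2 d q = L2m d q
  mm : MM d q = Mm d q
  jj : om q.1 * jj d q = Jm d q
  g1 : -(BB d (bs q) * (1 + deriv gam q.1 * q.2.1 0)) + gam q.1 * GG d (bs q) - ZZ (bs q) * cc (bs q) =
    -2 * d - ZZ (bs q) * Ps1 (bs q) ^ 2 / PsP (bs q)
  g2 : -(BB d (bs q) * (deriv (ph0 d) q.1 - deriv gam q.1 * q.2.1 0)) + (1 - gam q.1) * GG d (bs q) -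
    ZZ (bs q) * (deriv (deriv (ph0 d)) q.1 - cc (bs q)) =
    -2 - ZZ (bs q) * Ph1 d (bs q) ^ 2 / PhP d (bs q)

/-- Left and right formulas agree with the middle ones on the overlaps. -/
structure MidStmt : Prop where
  k : ∀ d > 0, ∀ q ∈ lift (Om d), q.1 ∈ Ioo (0 : ℝ) 1 → MidK d q
  left : ∀ d > 0, ∀ q ∈ lift (Om d), q.1 ∈ Ioo (0 : ℝ) (1 / 4) →
    -z0' q = K1m q ∧ l0 (bs q) = L1m q ∧ -(z0 (bs q) * Ph1 d (bs q)) / PhP d (bs q) = Mm d q ∧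
    -2 * E1 d q / (1 - q.1) = Jm d q / om q.1 ∧ 1 - q.1 = om q.1 / PsP (bs q)
  right : ∀ d > 0, ∀ q ∈ lift (Om d), q.1 ∈ Ioo (3 / 4 : ℝ) 1 →
    z1' q = K2m d q ∧ l1 (bs q) = L2m d q ∧ z1 (bs q) * Ps1 (bs q) / PsP (bs q) = Mm d q ∧
    2 * E2 d q / q.1 = Jm d q / om q.1 ∧ q.1 = om q.1 / PhP d (bs q)

structure MidNStmt : Prop where
  left : ∀ d > 0, ∀ q ∈ lift (Om d), q.1 ∈ Ioo (0 : ℝ) (1 / 4) →
    N1l d q = N1m d q ∧ N2l d q = N2m d q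
  right : ∀ d > 0, ∀ q ∈ lift (Om d), q.1 ∈ Ioo (3 / 4 : ℝ) 1 →
    N1r d q = N1m d q ∧ N2r d q = N2m d q
  mid : ∀ d > 0, ∀ q ∈ lift (Om d), q.1 ∈ Ioo (0 : ℝ) 1 →
    NL d q 1 = N1m d q ∧ NL d q 2 = N2m d q

structure SmK (d : ℝ) : Prop where
  isOpen : IsOpen (Om d)
  isOpen' : IsOpen (lift (Om d))
  bb : ContDiffOn ℝ ∞ (BB d) (Om d)
  gg : ContDiffOn ℝ ∞ (GG d) (Om d)
  r1 : ContDiffOn ℝ ∞ r1 (Om d)
  r2 : ContDiffOn ℝ ∞ (r2 d) (Om d)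
  k1 : ContDiffOn ℝ ∞ K1 (lift (Om d))
  k2 : ContDiffOn ℝ ∞ (K2 d) (lift (Om d))
  l1 : ContDiffOn ℝ ∞ L1 (lift (Om d))
  l2 : ContDiffOn ℝ ∞ (L2 d) (lift (Om d))
  mm : ContDiffOn ℝ ∞ (MM d) (lift (Om d))
  jj : ContDiffOn ℝ ∞ (jj d) (lift (Om d))

def SmKStmt : Prop := ∀ d > 0, SmK d

def SysStmt : Prop := ∀ d > 0, Sys d (Om d) (NL d)

/-- Derivatives along a profile. -/
structure Dict (d : ℝ) (g : Fin 3 → ℝ → ℝ) (x : ℝ) : Prop where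
  ps : d1 (fun y => PsP (bs (pt g y))) x = Ps1 (bs (pt g x))
  ph : d1 (fun y => PhP d (bs (pt g y))) x = Ph1 d (bs (pt g x))
  zz : d1 (fun y => ZZ (bs (pt g y))) x = ZZ1 (pt g x)
  z0 : d1 (fun y => nz (pt g y)) x = z0' (pt g x)
  ps2 : ZZ (bs (pt g x)) * d1 (d1 (fun y => PsP (bs (pt g y)))) x = ZPs2 (pt g x)
  ph2 : ZZ (bs (pt g x)) * d1 (d1 (fun y => PhP d (bs (pt g y)))) x = ZPh2 d (pt g x)
  y2 : ZZ (bs (pt g x)) * d1 (d1 (g 0)) x = 4 * aa (bs (pt g x)) * (pt g x).2.2 1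
  bb : x ∈ Ioo (0 : ℝ) 1 → d1 (fun y => BB d (bs (pt g y))) x = dBB d (pt g x)
  gg : x ∈ Ioo (0 : ℝ) 1 → d1 (fun y => GG d (bs (pt g y))) x = dGG d (pt g x)

def DictStmt : Prop := ∀ d > 0, ∀ g, Prof d g → ∀ x ∈ I, Dict d g x

/-- The constraint `V = y'` is preserved. -/
def ConStmt : Prop :=
  ∀ d > 0, ∀ f0 T f, Sol d (Om d) (NL d) f0 T f → (∀ x ∈ I, f0 1 x = d1 (f0 0) x) → RSol d f0 T f

/-- Smoothness of the geometric quantities along a solution, boundary signs. -/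
structure JSAll (d T : ℝ) (f : Fin 3 → Fn) : Prop where
  z : JS T (ZF f)
  b : JS T (BF d f)
  ps : JS T (PsF f)
  ph : JS T (PhF d f)
  k1 : JS T (evF K1 f)
  k2 : JS T (evF (K2 d) f)
  l1 : JS T (evF L1 f)
  l2 : JS T (evF (L2 d) f)
  mm : JS T (evF (MM d) f)
  e0 : JS T (evF (E0 d) f)
  e1 : JS T (evF (E1 d) f)
  e2 : JS T (evF (E2 d) f)
  rs : JS T (evF (Rs d) f)
  se : JS T (evF (SE d) f)
  d0 : JS T (evF (D0 d) f)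
  d2 : JS T (evF (D2 d) f)
  dd : JS T (evF (DD d) f)
  jj : JS T (evF (jj d) f)
  nz : JS T (evF nz f)
  sign : ∀ t ∈ Icc 0 T, (∀ x ∈ I, 0 ≤ ZF f t x) ∧ ZF f t 0 = 0 ∧ 0 ≤ BF d f t 0 ∧
    ZF f t 1 = 0 ∧ BF d f t 1 ≤ 0

/-- The basic geometric equations. -/
structure Geq (d T : ℝ) (f : Fin 3 → Fn) (t x : ℝ) : Prop where
  y : bx d T f (f 0) t x = GG d (bs (pt (sl f t) x))
  ps : 0 < x → bx d T f (PsF f) t x = -2 * d - ZF f t x * dx (PsF f) t x ^ 2 / PsF f t x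
  ph : x < 1 → bx d T f (PhF d f) t x = -2 - ZF f t x * dx (PhF d f) t x ^ 2 / PhF d f t x
  z : x ∈ Ioo (0 : ℝ) 1 → bx d T f (ZF f) t x = -dx (ZF f) t x ^ 2 / 2 -
    ZF f t x ^ 2 * ((d + 1) * dx (PsF f) t x ^ 2 / PsF f t x ^ 2 +
      2 * dx (PhF d f) t x ^ 2 / PhF d f t x ^ 2) / 2 - 2 * ZF f t x * dx (BF d f) t x

structure GeqStmt : Prop where
  js : ∀ d > 0, ∀ f0 T f, Sol d (Om d) (NL d) f0 T f → JSAll d T f
  eq : ∀ d > 0, ∀ f0 T f, RSol d f0 T f → ∀ t ∈ Icc 0 T, ∀ x ∈ I, Geq d T f t x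

/-- `-ψ_ss/ψ` in terms of `P = ψ'/ψ`. -/
noncomputable def kP (Z P : Fn) : Fn :=
  fun t x => -(Z t x * dx P t x + Z t x * P t x ^ 2 + dx Z t x * P t x / 2)

/-- Abstract evolution of the Ricci eigenvalues; `P = ψ'/ψ`, `R = φ'/φ`, `u = 1/ψ²`, `v = 1/φ²`. -/
def EvoAbsStmt : Prop :=
  ∀ (d T : ℝ) (Z B P R u v e0 e1 e2 : Fn) (U : Set ℝ), 0 < T → IsOpen U → U ⊆ Ioo 0 1 →
    JS T Z → JS T B → JS T P → JS T R → JS T u → JS T v →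
    (∀ t ∈ Icc 0 T, ∀ x ∈ U,
      dx u t x = -2 * u t x * P t x ∧ dx v t x = -2 * v t x * R t x ∧
      box T Z B u t x = 2 * d * u t x ^ 2 - 4 * u t x * Z t x * P t x ^ 2 ∧
      box T Z B v t x = 2 * v t x ^ 2 - 4 * v t x * Z t x * R t x ^ 2 ∧
      box T Z B P t x = 2 * d * P t x * u t x + dx Z t x * dx P t x + dx B t x * P t x ∧
      box T Z B R t x = 2 * R t x * v t x + dx Z t x * dx R t x + dx B t x * R t x ∧
      box T Z B Z t x = -dx Z t x ^ 2 / 2 - 2 * Z t x ^ 2 * ((d + 1) * P t x ^ 2 + 2 * R t x ^ 2) -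
        2 * Z t x * dx B t x ∧
      e0 t x = (d + 1) * kP Z P t x + 2 * kP Z R t x ∧
      e1 t x = kP Z P t x + d * (u t x - Z t x * P t x ^ 2) - 2 * Z t x * P t x * R t x ∧
      e2 t x = kP Z R t x + (v t x - Z t x * R t x ^ 2) - (d + 1) * Z t x * P t x * R t x) →
    ∀ t ∈ Icc 0 T, ∀ x ∈ U,
      box T Z B e0 t x = -2 * (d + 1) * (Z t x * P t x ^ 2) * (e0 t x - e1 t x) -
        4 * (Z t x * R t x ^ 2) * (e0 t x - e2 t x) +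
        2 * ((d + 1) * kP Z P t x * e1 t x + 2 * kP Z R t x * e2 t x) ∧
      box T Z B e1 t x = 2 * (Z t x * P t x ^ 2) * (e0 t x - e1 t x) +
        2 * (kP Z P t x * e0 t x + d * (u t x - Z t x * P t x ^ 2) * e1 t x -
          2 * Z t x * P t x * R t x * e2 t x) ∧
      box T Z B e2 t x = 2 * (Z t x * R t x ^ 2) * (e0 t x - e2 t x) +
        2 * (kP Z R t x * e0 t x + (v t x - Z t x * R t x ^ 2) * e2 t x -
          (d + 1) * Z t x * P t x * R t x * e1 t x)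

/-- Right sides of the evolution equations. -/
noncomputable def vE0 (d : ℝ) (q : Q) : ℝ :=
  -2 * (d + 1) * A1 q * (E0 d q - E1 d q) - 4 * A2 d q * (E0 d q - E2 d q) +
    2 * ((d + 1) * K1 q * E1 d q + 2 * K2 d q * E2 d q)

noncomputable def vE1 (d : ℝ) (q : Q) : ℝ :=
  2 * A1 q * (E0 d q - E1 d q) + 2 * (K1 q * E0 d q + d * L1 q * E1 d q + 2 * MM d q * E2 d q)

noncomputable def vE2 (d : ℝ) (q : Q) : ℝ :=
  2 * A2 d q * (E0 d q - E2 d q) + 2 * (K2 d q * E0 d q + L2 d q * E2 d q + (d + 1) * MM d q * E1 d q)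

def EvoStmt : Prop :=
  ∀ d > 0, ∀ f0 T f, RSol d f0 T f → ∀ t ∈ Icc 0 T, ∀ x ∈ Ioo (0 : ℝ) 1,
    bx d T f (evF (E0 d) f) t x = evF (vE0 d) f t x ∧
    bx d T f (evF (E1 d) f) t x = evF (vE1 d) f t x ∧
    bx d T f (evF (E2 d) f) t x = evF (vE2 d) f t x

noncomputable def vD0 (d : ℝ) (q : Q) : ℝ :=
  -(2 * (d + 2) * A1 q + 4 * A2 d q + 2 * K1 q - 2 * E1 d q) * D0 d q +
    4 * (A2 d q + K2 d q - MM d q) * D2 d q

noncomputable def vD2 (d : ℝ) (q : Q) : ℝ :=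
  (2 * A2 d q - 2 * A1 q + 2 * K2 d q - 2 * K1 q) * D0 d q +
    (-2 * A2 d q + 2 * L2 d q - 4 * MM d q + 2 * E1 d q) * D2 d q

noncomputable def cc0 (d : ℝ) (q : Q) : ℝ :=
  2 * A2 d q + 2 * K2 d q - 2 * K1 q + (4 * A2 d q + 2 * K1 q - 2 * E1 d q) / (d + 2)

noncomputable def cc2 (d : ℝ) (q : Q) : ℝ :=
  -2 * A2 d q + 2 * L2 d q - 4 * MM d q + 2 * E1 d q - 4 * (A2 d q + K2 d q - MM d q) / (d + 2)

structure Evo2 (d T : ℝ) (f : Fin 3 → Fn) (t x : ℝ) : Prop where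
  rs : bx d T f (evF (Rs d) f) t x = 2 * evF (SE d) f t x
  se : ∀ k : ℝ, |evF K1 f t x| ≤ k → |evF (K2 d) f t x| ≤ k → |evF L1 f t x| ≤ k →
    |evF (L2 d) f t x| ≤ k → |evF (MM d) f t x| ≤ k →
    bx d T f (evF (SE d) f) t x ≤ 4 * (d + 4) * k * evF (SE d) f t x
  d0 : x ∈ Ioo (0 : ℝ) 1 → bx d T f (evF (D0 d) f) t x = evF (vD0 d) f t x
  d2 : x ∈ Ioo (0 : ℝ) 1 → bx d T f (evF (D2 d) f) t x = evF (vD2 d) f t x
  dd : x < 1 → bx d T f (evF (DD d) f) t x =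
    evF (cc0 d) f t x * evF (D0 d) f t x + evF (cc2 d) f t x * evF (D2 d) f t x

def Evo2Stmt : Prop :=
  ∀ d > 0, ∀ f0 T f, RSol d f0 T f → ∀ t ∈ Icc 0 T, ∀ x ∈ I, Evo2 d T f t x

/-- The gauge vector field along a solution. -/
noncomputable def JF (d : ℝ) (f : Fin 3 → Fn) : Fn := fun t x => om x * evF (jj d) f t x

/-- Transport equations. -/
def TransStmt : Prop :=
  ∀ d > 0, ∀ f0 T f, RSol d f0 T f → ∀ t ∈ Icc 0 T, ∀ x ∈ I,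
    dt T (PsF f) t x + JF d f t x * dx (PsF f) t x = -2 * evF (E1 d) f t x * PsF f t x ∧
    dt T (PhF d f) t x + JF d f t x * dx (PhF d f) t x = -2 * evF (E2 d) f t x * PhF d f t x ∧
    dt T (ZF f) t x + JF d f t x * dx (ZF f) t x - 2 * ZF f t x * dx (JF d f) t x =
      2 * evF (E0 d) f t x * ZF f t x

/-- The gradient is controlled by the Ricci eigenvalues. -/
def GradStmt : Prop :=
  ∀ d > 0, ∀ K ⊆ Om d, IsCompact K → ∃ C, 0 ≤ C ∧ ∀ q : Q, bs q ∈ K → q.1 ∈ I →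
    |q.2.2 1| ≤ C * (1 + |E1 d q| + |E2 d q|) ∧ |q.2.2 2| ≤ C * (1 + |E1 d q| + |E2 d q|)

/-- The equation of `y` near `0`. -/
def NearEqStmt : Prop :=
  ∀ d > 0, ∀ f0 T f, RSol d f0 T f → ∀ t ∈ Icc 0 T, ∀ x ∈ Ico (0 : ℝ) (1 / 4),
    dt T (f 0) t x = 4 * evF nz f t x * x * dx (dx (f 0)) t x +
      (2 * d - 4 * evF nz f t x * evF (nX d) f t x) * dx (f 0) t x +
      4 * evF nz f t x * evF (nF1 d) f t x / evF (nF d) f t x * f 0 t x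

end Vale.Agent.P244
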