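import Vale.Agent.P244.Base

/-! P244: the concrete system (doubly warped Ricci flow on a sphere in a fixed gauge). -/

open Set Filter
open scoped ContDiff Topology

namespace Vale.Agent.P244

/-- Points `(x, f, g)`; `f = (y, V, L)`, `g = ω f'`. -/
abbrev Q : Type := ℝ × V3 × V3

/-- `0` for `x ≤ 1/4`, `1` for `x ≥ 1/2`. -/
noncomputable def ch (x : ℝ) : ℝ := Real.smoothTransition (4 * x - 1)

/-- `0` for `x ≤ 1/2`, `1` for `x ≥ 3/4`. -/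
noncomputable def gam (x : ℝ) : ℝ := Real.smoothTransition (4 * x - 2)

/-- The reference profile of `Φ`. -/
noncomputable def ph0 (d x : ℝ) : ℝ := (1 - ch x) * (x / d) + ch x * (1 - x)

/-- `Ψ = ψ²`. -/
noncomputable def Ps (x y : ℝ) : ℝ := x + gam x * y

/-- `Φ = φ²`. -/
noncomputable def Ph (d x y : ℝ) : ℝ := ph0 d x + (1 - gam x) * y

/-- The domain of the system. -/
def Om (d : ℝ) : Set (ℝ × V3) :=
  {p | 0 < 1 - om p.1 * p.2 2 ∧ (p.1 < 1 / 4 ∨ 0 < Ps p.1 (p.2 0)) ∧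
    (3 / 4 < p.1 ∨ 0 < Ph d p.1 (p.2 0)) ∧ 0 < 1 + deriv gam p.1 * p.2 0}

/-- `a = 1 - ω L`. -/
def aa (p : ℝ × V3) : ℝ := 1 - om p.1 * p.2 2

/-- `Z = |∇x|² = 4 ω a`. -/
def ZZ (p : ℝ × V3) : ℝ := 4 * om p.1 * aa p

noncomputable def PsP (p : ℝ × V3) : ℝ := Ps p.1 (p.2 0)

noncomputable def PhP (d : ℝ) (p : ℝ × V3) : ℝ := Ph d p.1 (p.2 0)

/-- `Ψ'`. -/
noncomputable def Ps1 (p : ℝ × V3) : ℝ := 1 + deriv gam p.1 * p.2 0 + gam p.1 * p.2 1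

/-- `Φ'`. -/
noncomputable def Ph1 (d : ℝ) (p : ℝ × V3) : ℝ :=
  deriv (ph0 d) p.1 - deriv gam p.1 * p.2 0 + (1 - gam p.1) * p.2 1

/-- The part of `Ψ''` without `V'`. -/
noncomputable def cc (p : ℝ × V3) : ℝ :=
  deriv (deriv gam) p.1 * p.2 0 + 2 * deriv gam p.1 * p.2 1

/-- `ω / Ψ`, regular at `0`. -/
noncomputable def r1 (p : ℝ × V3) : ℝ := if p.1 < 1 / 8 then 1 - p.1 else om p.1 / PsP p

/-- `ω / Φ`, regular at `1`. -/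
noncomputable def r2 (d : ℝ) (p : ℝ × V3) : ℝ := if 7 / 8 < p.1 then p.1 else om p.1 / PhP d p

noncomputable def RR1 (d : ℝ) (p : ℝ × V3) : ℝ :=
  -2 * d - 4 * aa p * r1 p * Ps1 p ^ 2 + ZZ p * cc p

noncomputable def RR2 (d : ℝ) (p : ℝ × V3) : ℝ :=
  -2 - 4 * aa p * r2 d p * Ph1 d p ^ 2 + ZZ p * (deriv (deriv (ph0 d)) p.1 - cc p)

/-- The drift `B = -(∂_t - Δ) x`. -/
noncomputable def BB (d : ℝ) (p : ℝ × V3) : ℝ :=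
  (gam p.1 * RR2 d p - (1 - gam p.1) * RR1 d p) / (1 + deriv gam p.1 * p.2 0)

/-- `G = (∂_t - Δ) y`. -/
noncomputable def GG (d : ℝ) (p : ℝ × V3) : ℝ :=
  ((1 + deriv gam p.1 * p.2 0) * RR2 d p - (deriv (ph0 d) p.1 - deriv gam p.1 * p.2 0) * RR1 d p) /
    (1 + deriv gam p.1 * p.2 0)

/-- Forget the gradient. -/
def bs (q : Q) : ℝ × V3 := (q.1, q.2.1)

/-- `a'`. -/
def aa1 (q : Q) : ℝ := -((1 - 2 * q.1) * q.2.1 2 + q.2.2 2)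

/-- `Z'`. -/
def ZZ1 (q : Q) : ℝ := 4 * (1 - 2 * q.1) * aa (bs q) + 4 * om q.1 * aa1 q

/-- The tangent vector `(1, V, V', L')` of the graph. -/
noncomputable def tv (q : Q) : ℝ × V3 := (1, ![q.2.1 1, q.2.2 1 / om q.1, q.2.2 2 / om q.1])

noncomputable def dBB (d : ℝ) (q : Q) : ℝ := fderiv ℝ (BB d) (bs q) (tv q)

noncomputable def dGG (d : ℝ) (q : Q) : ℝ := fderiv ℝ (GG d) (bs q) (tv q)

/-- Three formulas: near `0`, in the middle, near `1`. -/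
noncomputable def gl (F0 Fm F1 : Q → ℝ) (q : Q) : ℝ :=
  if q.1 < 1 / 8 then F0 q else if 7 / 8 < q.1 then F1 q else Fm q

/-- `z = ψ_s²` near `0`. -/
def z0 (p : ℝ × V3) : ℝ := (1 - p.1) * aa p

def z0' (q : Q) : ℝ := -aa (bs q) + (1 - q.1) * aa1 q

/-- `φ_s²` near `1`. -/
def z1 (p : ℝ × V3) : ℝ := p.1 * aa p

def z1' (q : Q) : ℝ := aa (bs q) + q.1 * aa1 q

def l0 (p : ℝ × V3) : ℝ := 1 + (1 - p.1) ^ 2 * p.2 2

def l1 (p : ℝ × V3) : ℝ := 1 + p.1 ^ 2 * p.2 2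

noncomputable def N0 (d : ℝ) (q : Q) : ℝ :=
  (BB d (bs q) - 8 * aa (bs q) * (1 - 2 * q.1) - be d q.1) * q.2.1 1 + GG d (bs q)

noncomputable def N1m (d : ℝ) (q : Q) : ℝ :=
  (ZZ1 q + BB d (bs q) - 8 * aa (bs q) * (1 - 2 * q.1) - be d q.1) * (q.2.2 1 / om q.1) +
    dBB d q * q.2.1 1 + dGG d q

noncomputable def N1l (d : ℝ) (q : Q) : ℝ :=
  4 * aa1 q * q.2.2 1 + (4 * aa (bs q) + 2 * d + 2) * q.2.2 1 / (1 - q.1) + 4 * z0' q * q.2.1 1 +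
    (4 * z0' q * (1 / d - q.1 * (1 / d + q.2.1 1) ^ 2 / (q.1 / d + q.2.1 0)) -
      4 * z0 (bs q) * ((1 / d + q.2.1 1) ^ 2 / (q.1 / d + q.2.1 0) -
        q.1 * (1 / d + q.2.1 1) ^ 3 / (q.1 / d + q.2.1 0) ^ 2) -
      8 * aa (bs q) * (1 / d + q.2.1 1) * q.2.2 1 / (q.1 / d + q.2.1 0))

noncomputable def N1r (d : ℝ) (q : Q) : ℝ :=
  4 * aa1 q * q.2.2 1 - (4 * aa (bs q) + 2 * d + 2) * q.2.2 1 / q.1 - 4 * z1' q * q.2.1 1 +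
    (-4 * z1' q - ZZ1 q * (1 + q.2.1 1) ^ 2 / (q.1 + q.2.1 0) -
      8 * aa (bs q) * (1 + q.2.1 1) * q.2.2 1 / (q.1 + q.2.1 0) +
      ZZ (bs q) * (1 + q.2.1 1) ^ 3 / (q.1 + q.2.1 0) ^ 2)

/-- `(∂_t - Δ) Z` (Bochner formula). -/
noncomputable def boxZ (d : ℝ) (q : Q) : ℝ :=
  -ZZ1 q ^ 2 / 2 - ZZ (bs q) ^ 2 * ((d + 1) * Ps1 (bs q) ^ 2 / PsP (bs q) ^ 2 +
    2 * Ph1 d (bs q) ^ 2 / PhP d (bs q) ^ 2) / 2 - 2 * ZZ (bs q) * dBB d q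

noncomputable def N2m (d : ℝ) (q : Q) : ℝ :=
  (ZZ (bs q) * (8 + 4 * (2 * (1 - 2 * q.1) ^ 2 - 4 * om q.1) * q.2.1 2 +
      16 * (1 - 2 * q.1) * q.2.2 2) - BB d (bs q) * ZZ1 q - boxZ d q) / (4 * om q.1 ^ 2) -
    (8 * aa (bs q) * (1 - 2 * q.1) + be d q.1) * (q.2.2 2 / om q.1)

noncomputable def N2l (d : ℝ) (q : Q) : ℝ :=
  (8 * z0 (bs q) * q.1 * q.2.1 2 - 2 * (1 - q.1) * (2 * d + 8 * z0 (bs q)) * q.2.1 2 +
      2 * z0' q ^ 2 + 2 * d * l0 (bs q) ^ 2 +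
      4 * z0 (bs q) ^ 2 * (1 / d + q.2.1 1) ^ 2 / (q.1 / d + q.2.1 0) ^ 2) / (1 - q.1) ^ 2 +
    q.2.2 2 * (2 * d + 2 - 8 * aa (bs q)) / (1 - q.1)

noncomputable def N2r (d : ℝ) (q : Q) : ℝ :=
  (2 * ZZ (bs q) * q.2.1 2 - 2 * q.1 * (2 + 8 * z1 (bs q)) * q.2.1 2 +
      2 * z1' q ^ 2 + 2 * l1 (bs q) ^ 2 +
      2 * (d + 1) * z1 (bs q) ^ 2 * (1 + q.2.1 1) ^ 2 / (q.1 + q.2.1 0) ^ 2) / q.1 ^ 2 +
    q.2.2 2 * (8 * aa (bs q) - 2 - 2 * d) / q.1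

/-- The nonlinearity. -/
noncomputable def NL (d : ℝ) (q : Q) : V3 :=
  ![N0 d q, gl (N1l d) (N1m d) (N1r d) q, gl (N2l d) (N2m d) (N2r d) q]

/-! ### Curvatures -/

/-- `-ψ_ss / ψ` from `Z'`, `P = ψ²`, `P'`, `Z`, `Z P''`. -/
noncomputable def kk (Z Z1 P P1 ZP2 : ℝ) : ℝ :=
  -(ZP2 / (2 * P) - Z * P1 ^ 2 / (4 * P ^ 2) + Z1 * P1 / (4 * P))

/-- `(1 - ψ_s²) / ψ²`. -/
noncomputable def ll (Z P P1 : ℝ) : ℝ := 1 / P - Z * P1 ^ 2 / (4 * P ^ 2)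

/-- `-ψ_s φ_s / (ψ φ)`. -/
noncomputable def mx (Z P P1 R R1 : ℝ) : ℝ := -(Z * P1 * R1) / (4 * P * R)

/-- `Z Ψ''`. -/
noncomputable def ZPs2 (q : Q) : ℝ := ZZ (bs q) * cc (bs q) + 4 * aa (bs q) * gam q.1 * q.2.2 1

/-- `Z Φ''`. -/
noncomputable def ZPh2 (d : ℝ) (q : Q) : ℝ :=
  ZZ (bs q) * (deriv (deriv (ph0 d)) q.1 - cc (bs q)) + 4 * aa (bs q) * (1 - gam q.1) * q.2.2 1

noncomputable def K1m (q : Q) : ℝ := kk (ZZ (bs q)) (ZZ1 q) (PsP (bs q)) (Ps1 (bs q)) (ZPs2 q)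

noncomputable def K2m (d : ℝ) (q : Q) : ℝ :=
  kk (ZZ (bs q)) (ZZ1 q) (PhP d (bs q)) (Ph1 d (bs q)) (ZPh2 d q)

noncomputable def L1m (q : Q) : ℝ := ll (ZZ (bs q)) (PsP (bs q)) (Ps1 (bs q))

noncomputable def L2m (d : ℝ) (q : Q) : ℝ := ll (ZZ (bs q)) (PhP d (bs q)) (Ph1 d (bs q))

noncomputable def Mm (d : ℝ) (q : Q) : ℝ :=
  mx (ZZ (bs q)) (PsP (bs q)) (Ps1 (bs q)) (PhP d (bs q)) (Ph1 d (bs q))

noncomputable def K1 : Q → ℝ := gl (fun q => -z0' q) K1m K1m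

noncomputable def K2 (d : ℝ) : Q → ℝ := gl (K2m d) (K2m d) z1'

noncomputable def L1 : Q → ℝ := gl (fun q => l0 (bs q)) L1m L1m

noncomputable def L2 (d : ℝ) : Q → ℝ := gl (L2m d) (L2m d) (fun q => l1 (bs q))

noncomputable def MM (d : ℝ) : Q → ℝ :=
  gl (fun q => -(z0 (bs q) * Ph1 d (bs q)) / PhP d (bs q)) (Mm d)
    (fun q => z1 (bs q) * Ps1 (bs q) / PsP (bs q))

/-- The three eigenvalues of the Ricci tensor. -/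
noncomputable def E0 (d : ℝ) (q : Q) : ℝ := (d + 1) * K1 q + 2 * K2 d q

noncomputable def E1 (d : ℝ) (q : Q) : ℝ := K1 q + d * L1 q + 2 * MM d q

noncomputable def E2 (d : ℝ) (q : Q) : ℝ := K2 d q + L2 d q + (d + 1) * MM d q

/-- Scalar curvature. -/
noncomputable def Rs (d : ℝ) (q : Q) : ℝ := E0 d q + (d + 1) * E1 d q + 2 * E2 d q

/-- Squared norm of the Ricci tensor. -/
noncomputable def SE (d : ℝ) (q : Q) : ℝ := E0 d q ^ 2 + (d + 1) * E1 d q ^ 2 + 2 * E2 d q ^ 2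

noncomputable def D0 (d : ℝ) (q : Q) : ℝ := E0 d q - E1 d q

noncomputable def D2 (d : ℝ) (q : Q) : ℝ := E2 d q - E1 d q

noncomputable def DD (d : ℝ) (q : Q) : ℝ := D2 d q - D0 d q / (d + 2)

/-- `(ψ_s/ψ)²` and `(φ_s/φ)²`. -/
noncomputable def A1 (q : Q) : ℝ := ZZ (bs q) * Ps1 (bs q) ^ 2 / (4 * PsP (bs q) ^ 2)

noncomputable def A2 (d : ℝ) (q : Q) : ℝ := ZZ (bs q) * Ph1 d (bs q) ^ 2 / (4 * PhP d (bs q) ^ 2)

/-- The gauge vector field `Δ x - B`. -/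
noncomputable def Jm (d : ℝ) (q : Q) : ℝ :=
  ZZ1 q / 2 + ZZ (bs q) * ((d + 1) * Ps1 (bs q) / (2 * PsP (bs q)) + Ph1 d (bs q) / PhP d (bs q)) -
    BB d (bs q)

/-- The gauge vector field divided by `ω`. -/
noncomputable def jj (d : ℝ) : Q → ℝ :=
  gl (fun q => -2 * E1 d q / (1 - q.1)) (fun q => Jm d q / om q.1) (fun q => 2 * E2 d q / q.1)

/-! ### Functions along a family of profiles -/

/-- Evaluate a function of `(x, f, ω f')` along `f`. -/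
noncomputable def evF (G : Q → ℝ) (f : Fin 3 → Fn) : Fn := fun t x => G (pt (sl f t) x)

noncomputable def ZF (f : Fin 3 → Fn) : Fn := evF (fun q => ZZ (bs q)) f

noncomputable def BF (d : ℝ) (f : Fin 3 → Fn) : Fn := evF (fun q => BB d (bs q)) f

noncomputable def PsF (f : Fin 3 → Fn) : Fn := evF (fun q => PsP (bs q)) f

noncomputable def PhF (d : ℝ) (f : Fin 3 → Fn) : Fn := evF (fun q => PhP d (bs q)) f

/-- The heat operator `∂_t - Δ` of the flow. -/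
noncomputable def bx (d T : ℝ) (f : Fin 3 → Fn) (u : Fn) : Fn := box T (ZF f) (BF d f) u

/-- A solution of the concrete system with `V = y'`. -/
structure RSol (d : ℝ) (f0 : Fin 3 → ℝ → ℝ) (T : ℝ) (f : Fin 3 → Fn) : Prop where
  sol : Sol d (Om d) (NL d) f0 T f
  con : ∀ t ∈ Icc 0 T, ∀ x ∈ I, f 1 t x = dx (f 0) t x

end Vale.Agent.P244
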